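import Crest.Agent.R160.Tree

/-! Row 160, piece TREE-B: automorphisms of a regular tree. -/

set_option autoImplicit false
open Finset

namespace Crest.Agent.R160

variable {V : Type} {d : ℕ} {G : SimpleGraph V} [G.LocallyFinite]

/-! ### parents and children with respect to a root -/

/-- parent of `v` with respect to the root `r` -/
noncomputable def treeB_par (G : SimpleGraph V) (r v : V) : V := geo G r v (G.dist r v - 1)

theorem treeB_pos (h : IsRT d G) {r v : V} (hv : v ≠ r) : 0 < G.dist r v :=
  h.tree.connected.pos_dist_of_ne hv.symm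

theorem treeB_par_adj (h : IsRT d G) {r v : V} (hv : v ≠ r) : G.Adj (treeB_par G r v) v := by
  have h0 := treeB_pos h hv
  have h1 := geo_adj h r v (i := G.dist r v - 1) (by omega)
  have h2 : G.dist r v - 1 + 1 = G.dist r v := by omega
  rw [h2, geo_dist h] at h1
  exact h1

theorem treeB_par_dist (h : IsRT d G) {r v : V} (hv : v ≠ r) :
    G.dist r v = G.dist r (treeB_par G r v) + 1 := by
  have h0 := treeB_pos h hv
  have h1 := (dist_geo h r v (i := G.dist r v - 1) (by omega)).1
  unfold treeB_par
  omega

/-- leaving `v` not through the parent increases the distance to the root -/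
theorem treeB_dist_succ (h : IsRT d G) {r v w : V} (hvw : G.Adj v w)
    (hne : v = r ∨ w ≠ treeB_par G r v) : G.dist r w = G.dist r v + 1 := by
  classical
  set n := G.dist r v with hn
  let p : ℕ → V := fun i => if i ≤ n then geo G r v i else w
  have hp1 : ∀ i ≤ n, p i = geo G r v i := fun i hi => if_pos hi
  have hp2 : p (n + 1) = w := if_neg (by omega)
  have hgeo : IsGeo G p (n + 1) := by
    apply isGeo_of_nonbacktracking h
    · intro i hi
      rcases Nat.lt_or_ge i n with h1 | h1
      · rw [hp1 i h1.le, hp1 (i + 1) h1]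
        exact geo_adj h r v h1
      · have h2 : i = n := by omega
        rw [h2, hp2, hp1 n le_rfl, hn, geo_dist h]
        exact hvw
    · intro i hi
      rcases Nat.lt_or_ge (i + 1) n with h1 | h1
      · rw [hp1 i (by omega), hp1 (i + 2) (by omega)]
        intro he
        have h2 := (dist_geo h r v (i := i) (by omega)).1
        have h3 := (dist_geo h r v (i := i + 2) (by omega)).1
        rw [he] at h2
        omega
      · have h2 : n = i + 1 := by omega
        have h3 : i + 2 = n + 1 := by omega
        rw [h3, hp2, hp1 i (by omega)]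
        have hvr : v ≠ r := by
          rintro rfl
          rw [SimpleGraph.dist_self] at hn
          omega
        rcases hne with h4 | h4
        · exact absurd h4 hvr
        · intro he
          apply h4
          rw [← he]
          unfold treeB_par
          rw [← hn, h2, Nat.add_sub_cancel]
  have h1 := (geo_unique h hgeo).1
  rw [hp2, hp1 0 (Nat.zero_le _), geo_zero h] at h1
  exact h1

theorem treeB_par_unique (h : IsRT d G) {r v w : V} (hvw : G.Adj v w)
    (hd : G.dist r v = G.dist r w + 1) : treeB_par G r v = w := by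
  by_contra hne
  have := treeB_dist_succ h hvw (Or.inr fun he => hne he.symm) (r := r)
  omega

theorem treeB_adj_cases (h : IsRT d G) (r : V) {v w : V} (hvw : G.Adj v w) :
    (G.dist r v = G.dist r w + 1 ∧ treeB_par G r v = w ∧ v ≠ r) ∨
    (G.dist r w = G.dist r v + 1 ∧ treeB_par G r w = v ∧ w ≠ r) := by
  have key : ∀ a b : V, G.dist r a = G.dist r b + 1 → a ≠ r := by
    rintro a b h1 rfl
    rw [SimpleGraph.dist_self] at h1
    omega
  by_cases h1 : v = r ∨ w ≠ treeB_par G r v
  · right
    have h2 := treeB_dist_succ h hvw h1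
    exact ⟨h2, treeB_par_unique h hvw.symm h2, key _ _ h2⟩
  · left
    push Not at h1
    have h2 := treeB_par_dist h h1.1
    rw [← h1.2] at h2
    exact ⟨h2, h1.2.symm, h1.1⟩

open Classical in
/-- children -/
noncomputable def treeB_ch (G : SimpleGraph V) [G.LocallyFinite] (r x : V) : Finset V :=
  (G.neighborFinset x).filter fun z => G.dist r z = G.dist r x + 1

theorem treeB_mem_ch (r x z : V) :
    z ∈ treeB_ch G r x ↔ G.Adj x z ∧ G.dist r z = G.dist r x + 1 := by
  classical
  unfold treeB_ch
  rw [Finset.mem_filter, SimpleGraph.mem_neighborFinset]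

theorem treeB_card_ch (h : IsRT d G) (r x : V) :
    (treeB_ch G r x).card = if G.dist r x = 0 then d else d - 1 := by
  classical
  have hdeg : (G.neighborFinset x).card = d := by
    rw [SimpleGraph.card_neighborFinset_eq_degree]; exact h.reg x
  split_ifs with h0
  · have hx : r = x := (h.tree.connected.dist_eq_zero_iff).1 h0
    have h1 : treeB_ch G r x = G.neighborFinset x := by
      ext z
      rw [treeB_mem_ch, SimpleGraph.mem_neighborFinset]
      exact ⟨fun h => h.1, fun hz => ⟨hz, treeB_dist_succ h hz (Or.inl hx.symm)⟩⟩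
    rw [h1, hdeg]
  · have hx : x ≠ r := by
      rintro rfl
      exact h0 (SimpleGraph.dist_self)
    have h1 : treeB_ch G r x = (G.neighborFinset x).erase (treeB_par G r x) := by
      ext z
      rw [treeB_mem_ch, Finset.mem_erase, SimpleGraph.mem_neighborFinset]
      constructor
      · rintro ⟨hz, hd⟩
        refine ⟨?_, hz⟩
        rintro rfl
        have := treeB_par_dist h hx
        omega
      · rintro ⟨hne, hz⟩
        exact ⟨hz, treeB_dist_succ h hz (Or.inr hne)⟩
    rw [h1, Finset.card_erase_of_mem, hdeg]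
    rw [SimpleGraph.mem_neighborFinset]
    exact (treeB_par_adj h hx).symm

/-- a bijection between two finite sets of the same size with one prescribed value -/
theorem treeB_exists_bij (s t : Finset V) (hst : s.card = t.card) (a b : V) :
    ∃ f : V → V, Set.BijOn f s t ∧ (a ∈ s → b ∈ t → f a = b) := by
  classical
  obtain ⟨e₀⟩ : Nonempty (s ≃ t) := ⟨Finset.equivOfCardEq hst⟩
  have key : ∀ e : s ≃ t, Set.BijOn (fun v => if hv : v ∈ s then (e ⟨v, hv⟩ : V) else v) s t := by
    intro e
    refine ⟨?_, ?_, ?_⟩
    · intro v hv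
      have hv' : v ∈ s := hv
      simp only [hv', dite_true]
      exact (e ⟨v, hv'⟩).2
    · intro v hv w hw hvw
      have hv' : v ∈ s := hv
      have hw' : w ∈ s := hw
      simp only [hv', hw', dite_true] at hvw
      have := e.injective (Subtype.ext hvw)
      exact congrArg Subtype.val this
    · intro w hw
      refine ⟨(e.symm ⟨w, hw⟩ : V), (e.symm ⟨w, hw⟩).2, ?_⟩
      have h1 : ((e.symm ⟨w, hw⟩ : s) : V) ∈ s := (e.symm ⟨w, hw⟩).2
      simp only [h1, dite_true]
      have h2 : (⟨((e.symm ⟨w, hw⟩ : s) : V), h1⟩ : s) = e.symm ⟨w, hw⟩ := rfl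
      rw [h2, e.apply_symm_apply]
  by_cases hab : a ∈ s ∧ b ∈ t
  · refine ⟨_, key (e₀.trans (Equiv.swap (e₀ ⟨a, hab.1⟩) ⟨b, hab.2⟩)), fun ha hb => ?_⟩
    simp only [ha, dite_true, Equiv.trans_apply, Equiv.swap_apply_left]
  · exact ⟨_, key e₀, fun ha hb => absurd ⟨ha, hb⟩ hab⟩

/-- iteration along the tree -/
noncomputable def treeB_gamN (G : SimpleGraph V) (r r' : V) (E : V → V → V → V) : ℕ → V → V
  | 0, _ => r'
  | n + 1, v => E (treeB_par G r v) (treeB_gamN G r r' E n (treeB_par G r v)) v

/-- Any isometry between geodesics of the same length extends to an automorphism.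
(Proof idea: enumerate the neighbours of every vertex so that the given geodesic comes first; this
gives an isomorphism of `G` with the tree of words; or extend level by level.) -/
theorem exists_aut (h : IsRT d G) {p q : ℕ → V} {k : ℕ} (hp : IsGeo G p k) (hq : IsGeo G q k) :
    ∃ γ : G ≃g G, ∀ i ≤ k, γ (p i) = q i := by
  classical
  obtain ⟨r, hr⟩ : ∃ r, r = p 0 := ⟨_, rfl⟩
  obtain ⟨r', hr'⟩ : ∃ r', r' = q 0 := ⟨_, rfl⟩
  have hpd : ∀ i ≤ k, G.dist r (p i) = i := by
    intro i hi
    rw [hr, hp.2 0 (Nat.zero_le _) i hi]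
    omega
  have hqd : ∀ i ≤ k, G.dist r' (q i) = i := by
    intro i hi
    rw [hr', hq.2 0 (Nat.zero_le _) i hi]
    omega
  -- choice of the bijections
  have hE : ∀ x x' : V, ∃ f : V → V, G.dist r x = G.dist r' x' →
      Set.BijOn f (treeB_ch G r x) (treeB_ch G r' x') ∧
      (p (G.dist r x + 1) ∈ treeB_ch G r x → q (G.dist r x + 1) ∈ treeB_ch G r' x' →
        f (p (G.dist r x + 1)) = q (G.dist r x + 1)) := by
    intro x x'
    by_cases hd : G.dist r x = G.dist r' x'
    · obtain ⟨f, hf⟩ := treeB_exists_bij (treeB_ch G r x) (treeB_ch G r' x')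
        (by rw [treeB_card_ch h, treeB_card_ch h, hd]) (p (G.dist r x + 1)) (q (G.dist r x + 1))
      exact ⟨f, fun _ => hf⟩
    · exact ⟨id, fun h => absurd h hd⟩
  choose E hE using hE
  let gam : V → V := fun v => treeB_gamN G r r' E (G.dist r v) v
  have gam_root : gam r = r' := by
    show treeB_gamN G r r' E (G.dist r r) r = r'
    rw [SimpleGraph.dist_self]
    rfl
  have gam_step : ∀ v, v ≠ r →
      gam v = E (treeB_par G r v) (gam (treeB_par G r v)) v := by
    intro v hv
    show treeB_gamN G r r' E (G.dist r v) v = _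
    rw [treeB_par_dist h hv]
    rfl
  have hroot : ∀ v, G.dist r v = 0 → v = r := fun v hv =>
    ((h.tree.connected.dist_eq_zero_iff).1 hv).symm
  have hroot' : ∀ v, G.dist r' v = 0 → v = r' := fun v hv =>
    ((h.tree.connected.dist_eq_zero_iff).1 hv).symm
  have hne_of : ∀ v n, G.dist r v = n + 1 → v ≠ r := by
    rintro v n h1 rfl
    rw [SimpleGraph.dist_self] at h1
    omega
  -- `v` is a child of its parent
  have hmem : ∀ v, v ≠ r → v ∈ treeB_ch G r (treeB_par G r v) := by
    intro v hv
    rw [treeB_mem_ch]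
    exact ⟨treeB_par_adj h hv, treeB_par_dist h hv⟩
  -- distances
  have hdist : ∀ n v, G.dist r v = n → G.dist r' (gam v) = n := by
    intro n
    induction n with
    | zero =>
      intro v hv
      rw [hroot v hv, gam_root, SimpleGraph.dist_self]
    | succ n ih =>
      intro v hv
      have hvr := hne_of v n hv
      have h1 := treeB_par_dist h hvr
      have h2 := ih (treeB_par G r v) (by omega)
      have h3 := (hE (treeB_par G r v) (gam (treeB_par G r v)) (by omega)).1.1 (hmem v hvr)
      rw [← gam_step v hvr] at h3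
      have h4 := (treeB_mem_ch _ _ _).1 h3
      omega
  have hchild : ∀ v, v ≠ r → gam v ∈ treeB_ch G r' (gam (treeB_par G r v)) := by
    intro v hvr
    have h2 := hdist _ (treeB_par G r v) rfl
    have h3 := (hE (treeB_par G r v) (gam (treeB_par G r v)) h2.symm).1.1 (hmem v hvr)
    rw [← gam_step v hvr] at h3
    exact h3
  have hpar : ∀ v, v ≠ r → treeB_par G r' (gam v) = gam (treeB_par G r v) := by
    intro v hvr
    have h1 := (treeB_mem_ch _ _ _).1 (hchild v hvr)
    exact treeB_par_unique h h1.1.symm h1.2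
  have hinj' : ∀ n v w, G.dist r v = n → gam v = gam w → v = w := by
    intro n
    induction n with
    | zero =>
      intro v w hv hvw
      have h1 := hdist 0 v hv
      have h2 := hdist _ w rfl
      rw [← hvw, h1] at h2
      rw [hroot v hv, hroot w h2.symm]
    | succ n ih =>
      intro v w hv hvw
      have hvr := hne_of v n hv
      have h1 := hdist _ v hv
      have h2 := hdist _ w rfl
      rw [← hvw, h1] at h2
      have hwr := hne_of w n h2.symm
      have h3 : treeB_par G r v = treeB_par G r w := by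
        apply ih
        · have := treeB_par_dist h hvr
          omega
        · rw [← hpar v hvr, ← hpar w hwr, hvw]
      have h4 := hdist _ (treeB_par G r v) rfl
      refine (hE (treeB_par G r v) (gam (treeB_par G r v)) h4.symm).1.2.1 (hmem v hvr) ?_ ?_
      · rw [h3]; exact hmem w hwr
      · rw [← gam_step v hvr, hvw, gam_step w hwr, h3]
  have hsurj' : ∀ n w, G.dist r' w = n → ∃ v, gam v = w := by
    intro n
    induction n with
    | zero =>
      intro w hw
      exact ⟨r, by rw [gam_root, hroot' w hw]⟩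
    | succ n ih =>
      intro w hw
      have hwr : w ≠ r' := by
        rintro rfl
        rw [SimpleGraph.dist_self] at hw
        omega
      have h1 := treeB_par_dist h hwr
      obtain ⟨x, hx⟩ := ih (treeB_par G r' w) (by omega)
      have h2 := hdist _ x rfl
      have h3 : w ∈ treeB_ch G r' (gam x) := by
        rw [treeB_mem_ch, hx]
        exact ⟨treeB_par_adj h hwr, h1⟩
      obtain ⟨v, hv, hvw⟩ := (hE x (gam x) h2.symm).1.2.2 h3
      have hv' := (treeB_mem_ch _ _ _).1 hv
      have hvr := hne_of v _ hv'.2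
      have h4 := treeB_par_unique h hv'.1.symm hv'.2
      exact ⟨v, by rw [gam_step v hvr, h4, hvw]⟩
  have hbij : Function.Bijective gam :=
    ⟨fun v w => hinj' _ v w rfl, fun w => hsurj' _ w rfl⟩
  have hadj : ∀ v w, G.Adj (gam v) (gam w) ↔ G.Adj v w := by
    have key : ∀ v, v ≠ r → G.Adj (gam (treeB_par G r v)) (gam v) := fun v hv =>
      ((treeB_mem_ch _ _ _).1 (hchild v hv)).1
    intro v w
    constructor
    · intro hvw
      rcases treeB_adj_cases h r' hvw with ⟨h1, h2, h3⟩ | ⟨h1, h2, h3⟩
      · have hvr : v ≠ r := by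
          rintro rfl
          exact h3 gam_root
        rw [hpar v hvr] at h2
        rw [← hbij.1 h2]
        exact (treeB_par_adj h hvr).symm
      · have hwr : w ≠ r := by
          rintro rfl
          exact h3 gam_root
        rw [hpar w hwr] at h2
        rw [← hbij.1 h2]
        exact treeB_par_adj h hwr
    · intro hvw
      rcases treeB_adj_cases h r hvw with ⟨_, h2, h3⟩ | ⟨_, h2, h3⟩
      · have := (key v h3).symm
        rwa [h2] at this
      · have := key w h3
        rwa [h2] at this
  refine ⟨⟨Equiv.ofBijective gam hbij, fun {v w} => hadj v w⟩, ?_⟩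
  intro i
  show i ≤ k → gam (p i) = q i
  induction i with
  | zero =>
    intro _
    rw [← hr, gam_root, hr']
  | succ i ih =>
    intro hi
    have h1 := hpd i (by omega)
    have h2 := hpd (i + 1) hi
    have h3 := hqd i (by omega)
    have h4 := hqd (i + 1) hi
    have hadj1 := hp.1 i (by omega)
    have hadj2 := hq.1 i (by omega)
    have hne := hne_of (p (i + 1)) i h2
    have h5 : treeB_par G r (p (i + 1)) = p i := treeB_par_unique h hadj1.symm (by omega)
    rw [gam_step _ hne, h5, ih (by omega)]
    have h6 := (hE (p i) (q i) (by omega)).2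
    rw [h1] at h6
    apply h6
    · rw [treeB_mem_ch]
      exact ⟨hadj1, by omega⟩
    · rw [treeB_mem_ch]
      exact ⟨hadj2, by omega⟩

theorem exists_aut_pair (h : IsRT d G) {v u v' u' : V} (hd : G.dist v u = G.dist v' u') :
    ∃ γ : G ≃g G, γ v = v' ∧ γ u = u' := by
  have h1 := geo_isGeo h v u
  have h2 := geo_isGeo h v' u'
  rw [← hd] at h2
  obtain ⟨γ, hγ⟩ := exists_aut h h1 h2
  refine ⟨γ, ?_, ?_⟩
  · have := hγ 0 (Nat.zero_le _)
    rwa [geo_zero h, geo_zero h] at this
  · have := hγ (G.dist v u) le_rfl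
    rw [geo_dist h] at this
    rw [this, hd, geo_dist h]

theorem exists_aut_swap (h : IsRT d G) (v w : V) : ∃ γ : G ≃g G, γ v = w ∧ γ w = v :=
  exists_aut_pair h SimpleGraph.dist_comm

theorem exists_aut_map (h : IsRT d G) (v w : V) : ∃ γ : G ≃g G, γ v = w := by
  obtain ⟨γ, hγ, _⟩ := exists_aut_swap h v w
  exact ⟨γ, hγ⟩

omit [G.LocallyFinite] in
theorem treeB_dist_le (γ : G ≃g G) (v u : V) (hr : G.Reachable v u) :
    G.dist (γ v) (γ u) ≤ G.dist v u := by
  obtain ⟨p, hp⟩ := hr.exists_walk_length_eq_dist
  rw [← hp, ← SimpleGraph.Walk.length_map (γ : G →g G) p]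
  exact SimpleGraph.dist_le _

theorem aut_dist (γ : G ≃g G) (v u : V) : G.dist (γ v) (γ u) = G.dist v u := by
  by_cases hr : G.Reachable v u
  · apply le_antisymm (treeB_dist_le γ v u hr)
    have h1 : G.Reachable (γ v) (γ u) := (γ.reachable_iff).2 hr
    have h2 := treeB_dist_le γ.symm (γ v) (γ u) h1
    simpa using h2
  · have h1 : ¬ G.Reachable (γ v) (γ u) := fun h => hr ((γ.reachable_iff).1 h)
    rw [SimpleGraph.dist_eq_zero_of_not_reachable hr,
      SimpleGraph.dist_eq_zero_of_not_reachable h1]

/-- beyond the end point `geo` is constant -/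
theorem treeB_geo_of_le (h : IsRT d G) (v u : V) {i : ℕ} (hi : G.dist v u ≤ i) :
    geo G v u i = u := by
  classical
  have hex : ∃ p : G.Walk v u, p.IsPath := by
    obtain ⟨p, hp, _⟩ := h.tree.existsUnique_path v u
    exact ⟨p, hp⟩
  unfold geo
  rw [dif_pos hex]
  obtain ⟨p, hp, hlen⟩ := h.tree.connected.exists_path_of_dist v u
  have h1 : hex.choose = p := (h.tree.existsUnique_path v u).unique hex.choose_spec hp
  rw [h1]
  exact SimpleGraph.Walk.getVert_of_length_le p (by omega)

theorem aut_geo (h : IsRT d G) (γ : G ≃g G) (v u : V) (i : ℕ) :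
    geo G (γ v) (γ u) i = γ (geo G v u i) := by
  rcases le_or_gt i (G.dist v u) with hi | hi
  · have hg := geo_isGeo h v u
    have hg' : IsGeo G (fun i => γ (geo G v u i)) (G.dist v u) := by
      refine ⟨fun j hj => ?_, fun a ha b hb => ?_⟩
      · exact (γ.map_adj_iff).2 (hg.1 j hj)
      · rw [aut_dist]
        exact hg.2 a ha b hb
    have h1 := (geo_unique h hg').2 i hi
    simp only [geo_zero h, geo_dist h] at h1
    exact h1
  · rw [treeB_geo_of_le h v u hi.le, treeB_geo_of_le h (γ v) (γ u) (by rw [aut_dist]; exact hi.le)]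

theorem aut_sph (h : IsRT d G) (γ : G ≃g G) [DecidableEq V] (v : V) (k : ℕ) :
    sph G (γ v) k = (sph G v k).image γ := by
  ext u
  rw [mem_sph h, Finset.mem_image]
  constructor
  · intro hu
    refine ⟨γ.symm u, ?_, by simp⟩
    rw [mem_sph h, ← aut_dist γ]
    simpa using hu
  · rintro ⟨w, hw, rfl⟩
    rw [aut_dist]
    exact (mem_sph h).1 hw

theorem aut_bsph (h : IsRT d G) (γ : G ≃g G) [DecidableEq V] (x y : V) (k : ℕ) :
    bsph G (γ x) (γ y) k = (bsph G x y k).image γ := by
  have e1 : ∀ u z, G.dist (γ.symm u) z = G.dist u (γ z) := by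
    intro u z
    rw [← aut_dist γ]
    simp
  ext u
  rw [mem_bsph h, Finset.mem_image]
  constructor
  · rintro ⟨hu, hu'⟩
    refine ⟨γ.symm u, ?_, by simp⟩
    rw [mem_bsph h]
    have hu2 : G.dist u (γ y) < G.dist u (γ x) := hu'
    refine ⟨?_, ?_⟩
    · rw [SimpleGraph.dist_comm, e1, SimpleGraph.dist_comm]
      exact hu
    · show G.dist (γ.symm u) y < G.dist (γ.symm u) x
      rw [e1, e1]
      exact hu2
  · rintro ⟨w, hw, rfl⟩
    rw [mem_bsph h] at hw
    have hw2 : G.dist w y < G.dist w x := hw.2
    refine ⟨by rw [aut_dist]; exact hw.1, ?_⟩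
    show G.dist (γ w) (γ y) < G.dist (γ w) (γ x)
    rw [aut_dist, aut_dist]
    exact hw2

end Crest.Agent.R160
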