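import Mathlib

/-! Row 160, piece BAYES: combination of conditionally independent observations of a fair spin.
Pure probability, independent of the other files. -/

set_option autoImplicit false
open Finset Filter MeasureTheory ProbabilityTheory
open scoped Topology NNReal ENNReal

namespace Crest.Agent.R160.Bayes

variable {Ω : Type} {mΩ : MeasurableSpace Ω} {μ : Measure Ω} [IsProbabilityMeasure μ]

/-- `σ` is a `±1` variable of mean `0`; the sub-sigma-algebras `𝓐 i` are conditionally independent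
given `σ`, in the following form: for bounded `𝓐 i`-measurable `f i`,
`∫ (1 ± σ) ∏ f i = ∏ ∫ (1 ± σ) f i`. -/
def CI {ι : Type} [Fintype ι] (σ : Ω → ℝ) (𝓐 : ι → MeasurableSpace Ω) (μ : Measure Ω) : Prop :=
  ∀ f : ι → Ω → ℝ, (∀ i, Measurable[𝓐 i] (f i)) → (∀ i, ∃ C, ∀ ω, |f i ω| ≤ C) →
    ∫ ω, (1 + σ ω) * ∏ i, f i ω ∂μ = ∏ i, ∫ ω, (1 + σ ω) * f i ω ∂μ ∧
    ∫ ω, (1 - σ ω) * ∏ i, f i ω ∂μ = ∏ i, ∫ ω, (1 - σ ω) * f i ω ∂μ

theorem integrable_of_bdd {f : Ω → ℝ} (hf : Measurable f) (hb : ∃ C, ∀ ω, |f ω| ≤ C) :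
    Integrable f μ := by
  obtain ⟨C, hC⟩ := hb
  exact Integrable.of_bound hf.aestronglyMeasurable C (Eventually.of_forall fun ω => by
    simpa [Real.norm_eq_abs] using hC ω)

theorem sigma_bdd {σ : Ω → ℝ} (hσ : ∀ ω, σ ω = 1 ∨ σ ω = -1) (ω : Ω) : |σ ω| ≤ 1 := by
  rcases hσ ω with h | h <;> simp [h]

theorem tanh_bdd (x : ℝ) : |Real.tanh x| ≤ 1 :=
  abs_le.mpr ⟨(Real.neg_one_lt_tanh x).le, (Real.tanh_lt_one x).le⟩

theorem one_add_tanh_mul (x : ℝ) : (1 + Real.tanh x) * Real.exp (-2 * x) = 1 - Real.tanh x := by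
  have hc := Real.cosh_pos x
  rw [Real.tanh_eq_sinh_div_cosh]
  field_simp
  rw [Real.cosh_eq, Real.sinh_eq]
  have h2 : Real.exp x * Real.exp (-x) = 1 := by
    rw [← Real.exp_add]; simp
  have h3 : Real.exp (-(2 * x)) = Real.exp (-x) * Real.exp (-x) := by
    rw [← Real.exp_add]; ring_nf
  rw [h3]; linear_combination (Real.exp (-x)) * h2

theorem tanh_measurable : Measurable Real.tanh := by
  have : Real.tanh = fun x => Real.sinh x / Real.cosh x := by
    funext x; exact Real.tanh_eq_sinh_div_cosh x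
  rw [this]
  exact Real.measurable_sinh.div Real.measurable_cosh

theorem integral_sigma_mul {m : MeasurableSpace Ω} (hmΩ : m ≤ mΩ) {σ : Ω → ℝ}
    (hσm : Measurable[mΩ] σ) (hσ : ∀ ω, σ ω = 1 ∨ σ ω = -1) {h : Ω → ℝ}
    (hm : μ[σ | m] =ᵐ[μ] fun ω => Real.tanh (h ω)) {g : Ω → ℝ} (hg : Measurable[m] g)
    (hb : ∃ C, ∀ ω, |g ω| ≤ C) :
    ∫ ω, σ ω * g ω ∂μ = ∫ ω, Real.tanh (h ω) * g ω ∂μ := by
  obtain ⟨C, hC⟩ := hb
  have hσi : Integrable σ μ := integrable_of_bdd hσm ⟨1, sigma_bdd hσ⟩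
  have key := condExp_stronglyMeasurable_mul_of_bound (μ := μ) hmΩ (f := g) (g := σ)
    hg.stronglyMeasurable hσi C (Eventually.of_forall fun ω => by
      simpa [Real.norm_eq_abs] using hC ω)
  calc ∫ ω, σ ω * g ω ∂μ = ∫ ω, (g * σ) ω ∂μ := by
        refine integral_congr_ae (Eventually.of_forall fun ω => ?_)
        simp [mul_comm]
    _ = ∫ ω, (μ[g * σ | m]) ω ∂μ := (integral_condExp hmΩ).symm
    _ = ∫ ω, Real.tanh (h ω) * g ω ∂μ := by
        refine integral_congr_ae ?_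
        filter_upwards [key, hm] with ω h1 h2
        rw [h1, Pi.mul_apply, h2, mul_comm]

/-- the one-factor identity. -/
theorem one_factor {m : MeasurableSpace Ω} (hmΩ : m ≤ mΩ) {σ : Ω → ℝ}
    (hσm : Measurable[mΩ] σ) (hσ : ∀ ω, σ ω = 1 ∨ σ ω = -1) {h : Ω → ℝ} (hh : Measurable[m] h)
    (hm : μ[σ | m] =ᵐ[μ] fun ω => Real.tanh (h ω)) {g : Ω → ℝ} (hg : Measurable[m] g)
    (hb : ∃ C, ∀ ω, |g ω| ≤ C) (hb' : ∃ C, ∀ ω, |Real.exp (-2 * h ω) * g ω| ≤ C) :
    ∫ ω, (1 + σ ω) * (Real.exp (-2 * h ω) * g ω) ∂μ = ∫ ω, (1 - σ ω) * g ω ∂μ := by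
  have hgi : Integrable g μ := integrable_of_bdd (hg.mono hmΩ le_rfl) hb
  have hem : Measurable[m] (fun ω => Real.exp (-2 * h ω) * g ω) :=
    (Real.measurable_exp.comp (hh.const_mul (-2))).mul hg
  have hei : Integrable (fun ω => Real.exp (-2 * h ω) * g ω) μ :=
    integrable_of_bdd (hem.mono hmΩ le_rfl) hb'
  have hb1 : ∀ (u : Ω → ℝ), (∀ ω, |u ω| ≤ 1) → Measurable[mΩ] u → ∀ (v : Ω → ℝ), Integrable v μ →
      Integrable (fun ω => u ω * v ω) μ := by
    intro u hu hum v hv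
    exact hv.bdd_mul hum.aestronglyMeasurable (c := 1) (Eventually.of_forall fun ω => by
      simpa [Real.norm_eq_abs] using hu ω)
  have e1 : ∫ ω, (1 + σ ω) * (Real.exp (-2 * h ω) * g ω) ∂μ
      = ∫ ω, Real.exp (-2 * h ω) * g ω ∂μ + ∫ ω, σ ω * (Real.exp (-2 * h ω) * g ω) ∂μ := by
    rw [← integral_add hei (hb1 σ (sigma_bdd hσ) hσm _ hei)]
    refine integral_congr_ae (Eventually.of_forall fun ω => ?_)
    simp only []; ring
  have e2 : ∫ ω, (1 - σ ω) * g ω ∂μ = ∫ ω, g ω ∂μ - ∫ ω, σ ω * g ω ∂μ := by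
    rw [← integral_sub hgi (hb1 σ (sigma_bdd hσ) hσm _ hgi)]
    refine integral_congr_ae (Eventually.of_forall fun ω => ?_)
    simp only []; ring
  have htm : Measurable[mΩ] (fun ω => Real.tanh (h ω)) :=
    tanh_measurable.comp (hh.mono hmΩ le_rfl)
  rw [e1, e2, integral_sigma_mul hmΩ hσm hσ hm hem hb', integral_sigma_mul hmΩ hσm hσ hm hg hb,
    ← integral_add hei (hb1 _ (fun ω => tanh_bdd (h ω)) htm _ hei),
    ← integral_sub hgi (hb1 _ (fun ω => tanh_bdd (h ω)) htm _ hgi)]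
  refine integral_congr_ae (Eventually.of_forall fun ω => ?_)
  have := one_add_tanh_mul (h ω)
  simp only []
  linear_combination (g ω) * this

/-- The product identity. -/
theorem prod_identity {ι : Type} [Fintype ι] {σ : Ω → ℝ} (hσm : Measurable σ)
    (hσ : ∀ ω, σ ω = 1 ∨ σ ω = -1) {𝓐 : ι → MeasurableSpace Ω}
    (h𝓐 : ∀ i, 𝓐 i ≤ mΩ) (hci : CI σ 𝓐 μ) {h : ι → Ω → ℝ} (hh : ∀ i, Measurable[𝓐 i] (h i))
    (hm : ∀ i, μ[σ | 𝓐 i] =ᵐ[μ] fun ω => Real.tanh (h i ω)) (g : ι → Ω → ℝ)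
    (hg : ∀ i, Measurable[𝓐 i] (g i))
    (hb : ∀ i, ∃ C, ∀ ω, |g i ω| ≤ C)
    (hb' : ∀ i, ∃ C, ∀ ω, |Real.exp (-2 * h i ω) * g i ω| ≤ C) :
    ∫ ω, (1 + σ ω) * (Real.exp (-2 * ∑ i, h i ω) * ∏ i, g i ω) ∂μ
      = ∫ ω, (1 - σ ω) * ∏ i, g i ω ∂μ := by
  have h1 := (hci (fun i ω => Real.exp (-2 * h i ω) * g i ω)
    (fun i => (Real.measurable_exp.comp ((hh i).const_mul (-2))).mul (hg i)) hb').1
  have h2 := (hci g hg hb).2
  rw [h2]
  have e : ∀ ω, Real.exp (-2 * ∑ i, h i ω) * ∏ i, g i ω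
      = ∏ i, (Real.exp (-2 * h i ω) * g i ω) := by
    intro ω
    rw [Finset.prod_mul_distrib, ← Real.exp_sum, Finset.mul_sum]
  simp only [e]
  rw [h1]
  exact Finset.prod_congr rfl fun i _ =>
    one_factor (h𝓐 i) hσm hσ (hh i) (hm i) (hg i) (hb i) (hb' i)

/-- The truncated identity: `∫_A G_n = 0`. -/
theorem setIntegral_zero {ι : Type} [Fintype ι] {σ : Ω → ℝ} (hσm : Measurable σ)
    (hσ : ∀ ω, σ ω = 1 ∨ σ ω = -1) {𝓐 : ι → MeasurableSpace Ω}
    (h𝓐 : ∀ i, 𝓐 i ≤ mΩ) (hci : CI σ 𝓐 μ) {h : ι → Ω → ℝ} (hh : ∀ i, Measurable[𝓐 i] (h i))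
    (hm : ∀ i, μ[σ | 𝓐 i] =ᵐ[μ] fun ω => Real.tanh (h i ω)) (n : ℕ)
    (A : ι → Set Ω) (hA : ∀ i, MeasurableSet[𝓐 i] (A i)) :
    ∫ ω in ⋂ i, A i, ({ω | ∀ i, |h i ω| ≤ n}.indicator
      (fun ω => (Real.exp (-2 * ∑ i, h i ω) - 1)
        + (Real.exp (-2 * ∑ i, h i ω) + 1) * σ ω)) ω ∂μ = 0 := by
  classical
  set g : ι → Ω → ℝ := fun i => (A i ∩ {ω | |h i ω| ≤ n}).indicator (fun _ => (1 : ℝ)) with hgdef
  have hmA : ∀ i, MeasurableSet[𝓐 i] (A i ∩ {ω | |h i ω| ≤ n}) := by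
    intro i
    have habs : Measurable[𝓐 i] (fun ω => |h i ω|) := by
      exact continuous_abs.measurable.comp (hh i)
    exact (hA i).inter (measurableSet_le habs measurable_const)
  have hg : ∀ i, Measurable[𝓐 i] (g i) := fun i => measurable_const.indicator (hmA i)
  have hgb : ∀ i ω, |g i ω| ≤ 1 := by
    intro i ω
    simp only [hgdef, Set.indicator]
    split_ifs <;> simp
  have hgb' : ∀ i ω, |Real.exp (-2 * h i ω) * g i ω| ≤ Real.exp (2 * n) := by
    intro i ω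
    simp only [hgdef, Set.indicator]
    split_ifs with hω
    · rw [mul_one, abs_of_pos (Real.exp_pos _)]
      apply Real.exp_le_exp.mpr
      have := (abs_le.mp (show |h i ω| ≤ n from hω.2)).1
      linarith
    · simp [(Real.exp_pos _).le]
  have key := prod_identity hσm hσ h𝓐 hci hh hm g hg (fun i => ⟨1, hgb i⟩) (fun i => ⟨_, hgb' i⟩)
  have hprod : ∀ ω, ∏ i, g i ω
      = ((⋂ i, A i) ∩ {ω | ∀ i, |h i ω| ≤ n}).indicator (fun _ => (1 : ℝ)) ω := by
    intro ω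
    simp only [hgdef, Set.indicator]
    by_cases hω : ω ∈ (⋂ i, A i) ∩ {ω | ∀ i, |h i ω| ≤ n}
    · rw [if_pos hω]
      refine Finset.prod_eq_one fun i _ => ?_
      rw [if_pos]
      exact ⟨Set.mem_iInter.mp hω.1 i, hω.2 i⟩
    · rw [if_neg hω]
      have : ∃ i, ω ∉ A i ∩ {ω | |h i ω| ≤ n} := by
        by_contra hcon
        push Not at hcon
        exact hω ⟨Set.mem_iInter.mpr fun i => (hcon i).1, fun i => (hcon i).2⟩
      obtain ⟨i, hi⟩ := this
      exact Finset.prod_eq_zero (Finset.mem_univ i) (if_neg hi)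
  have hAm : MeasurableSet (⋂ i, A i) := MeasurableSet.iInter fun i => h𝓐 i _ (hA i)
  have hhm : ∀ i, Measurable (h i) := fun i => (hh i).mono (h𝓐 i) le_rfl
  have hHm : Measurable (fun ω => ∑ i, h i ω) := Finset.measurable_sum _ fun i _ => hhm i
  have hgm : Measurable (fun ω => ∏ i, g i ω) :=
    Finset.measurable_prod _ fun i _ => (hg i).mono (h𝓐 i) le_rfl
  have hgpb : ∀ ω, |∏ i, g i ω| ≤ 1 := by
    intro ω
    rw [hprod]
    simp only [Set.indicator]
    split_ifs <;> simp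
  have hEb : ∀ ω, |Real.exp (-2 * ∑ i, h i ω) * ∏ i, g i ω|
      ≤ ∏ _i : ι, Real.exp (2 * n) := by
    intro ω
    have e : Real.exp (-2 * ∑ i, h i ω) * ∏ i, g i ω
      = ∏ i, (Real.exp (-2 * h i ω) * g i ω) := by
      rw [Finset.prod_mul_distrib, ← Real.exp_sum, Finset.mul_sum]
    rw [e, Finset.abs_prod]
    exact Finset.prod_le_prod (fun i _ => abs_nonneg _) (fun i _ => hgb' i ω)
  have hEm : Measurable (fun ω => Real.exp (-2 * ∑ i, h i ω) * ∏ i, g i ω) :=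
    (Real.measurable_exp.comp (hHm.const_mul (-2))).mul hgm
  have hi1 : Integrable (fun ω => (1 + σ ω) * (Real.exp (-2 * ∑ i, h i ω) * ∏ i, g i ω)) μ := by
    have := integrable_of_bdd (μ := μ) hEm ⟨_, hEb⟩
    refine this.bdd_mul (hσm.const_add 1).aestronglyMeasurable (c := 2)
      (Eventually.of_forall fun ω => ?_)
    rcases hσ ω with h' | h' <;> simp [h'] <;> norm_num
  have hi2 : Integrable (fun ω => (1 - σ ω) * ∏ i, g i ω) μ := by
    have := integrable_of_bdd (μ := μ) hgm ⟨_, hgpb⟩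
    refine this.bdd_mul (hσm.const_sub 1).aestronglyMeasurable (c := 2)
      (Eventually.of_forall fun ω => ?_)
    rcases hσ ω with h' | h' <;> simp [h'] <;> norm_num
  rw [← integral_indicator hAm]
  have : ∫ ω, ((1 + σ ω) * (Real.exp (-2 * ∑ i, h i ω) * ∏ i, g i ω)
      - (1 - σ ω) * ∏ i, g i ω) ∂μ = 0 := by
    rw [integral_sub hi1 hi2, key, sub_self]
  rw [← this]
  refine integral_congr_ae (Eventually.of_forall fun ω => ?_)
  simp only [hprod, Set.indicator]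
  by_cases h1 : ω ∈ ⋂ i, A i
  · by_cases h2 : ω ∈ {ω | ∀ i, |h i ω| ≤ n}
    · rw [if_pos h1, if_pos h2, if_pos ⟨h1, h2⟩]; ring
    · rw [if_pos h1, if_neg h2, if_neg (fun hc => h2 hc.2)]; ring
  · rw [if_neg h1, if_neg (fun hc => h1 hc.1)]; ring

/-- Bayes' formula: with `m i = tanh (h i) = E[σ | 𝓐 i]`, `E[σ | ⨆ 𝓐 i] = tanh (∑ h i)`.
PROOF. `∏(1+m_i)/∏(1-m_i) = exp(2 ∑ h_i)`. By Fubini on the image of `μ` under
`ω ↦ ((m_i ω, 1_{A_i} ω))_i` whose law has density `(∏(1+m_i)+∏(1-m_i))/2` w.r.t. the product of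
its marginals one gets `∫ σ ∏ 1_{A_i} = ∫ tanh(∑ h_i) ∏ 1_{A_i}` for `A_i ∈ 𝓐 i`; conclude by the
pi-lambda theorem. -/
theorem bayes {ι : Type} [Fintype ι] (σ : Ω → ℝ) (hσm : Measurable σ)
    (hσ : ∀ ω, σ ω = 1 ∨ σ ω = -1) (hσ0 : ∫ ω, σ ω ∂μ = 0) (𝓐 : ι → MeasurableSpace Ω)
    (h𝓐 : ∀ i, 𝓐 i ≤ mΩ) (hci : CI σ 𝓐 μ) (h : ι → Ω → ℝ) (hh : ∀ i, Measurable[𝓐 i] (h i))
    (hm : ∀ i, μ[σ | 𝓐 i] =ᵐ[μ] fun ω => Real.tanh (h i ω)) :
    μ[σ | ⨆ i, 𝓐 i] =ᵐ[μ] fun ω => Real.tanh (∑ i, h i ω) := by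
  classical
  set 𝓖 : MeasurableSpace Ω := ⨆ i, 𝓐 i with h𝓖def
  have h𝓖 : 𝓖 ≤ mΩ := iSup_le h𝓐
  have hh𝓖 : ∀ i, Measurable[𝓖] (h i) := fun i => (hh i).mono (le_iSup 𝓐 i) le_rfl
  have hσi : Integrable σ μ := integrable_of_bdd hσm ⟨1, sigma_bdd hσ⟩
  -- the truncation sets
  have hD : ∀ n : ℕ, MeasurableSet[𝓖] {ω | ∀ i, |h i ω| ≤ n} := by
    intro n
    have : {ω | ∀ i, |h i ω| ≤ (n : ℝ)} = ⋂ i, {ω | |h i ω| ≤ (n : ℝ)} := by
      ext ω; simp
    rw [this]
    refine MeasurableSet.iInter fun i => ?_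
    have habs : Measurable[𝓖] (fun ω => |h i ω|) := continuous_abs.measurable.comp (hh𝓖 i)
    exact measurableSet_le habs measurable_const
  have hHm : Measurable[𝓖] (fun ω => ∑ i, h i ω) := Finset.measurable_sum _ fun i _ => hh𝓖 i
  have hEm : Measurable[𝓖] (fun ω => Real.exp (-2 * ∑ i, h i ω)) :=
    Real.measurable_exp.comp (hHm.const_mul (-2))
  have hEb : ∀ (n : ℕ) (ω : Ω), (∀ i, |h i ω| ≤ n) →
      Real.exp (-2 * ∑ i, h i ω) ≤ Real.exp (2 * (Fintype.card ι * n)) := by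
    intro n ω hω
    apply Real.exp_le_exp.mpr
    have : -(∑ i, h i ω) ≤ Fintype.card ι * n := by
      rw [← Finset.sum_neg_distrib]
      calc ∑ i, -h i ω ≤ ∑ _i : ι, (n : ℝ) := by
            refine Finset.sum_le_sum fun i _ => ?_
            have := (abs_le.mp (hω i)).1
            linarith
        _ = Fintype.card ι * n := by simp
    linarith
  have main : ∀ n : ℕ, ∀ᵐ ω ∂μ, (∀ i, |h i ω| ≤ n) →
      (μ[σ | 𝓖]) ω = Real.tanh (∑ i, h i ω) := by
    intro n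
    set D : Set Ω := {ω | ∀ i, |h i ω| ≤ n} with hDdef
    set ψ : Ω → ℝ := D.indicator (fun ω => Real.exp (-2 * ∑ i, h i ω) + 1) with hψ
    set φ : Ω → ℝ := D.indicator (fun ω => Real.exp (-2 * ∑ i, h i ω) - 1) with hφ
    have hψm : Measurable[𝓖] ψ := (hEm.add_const 1).indicator (hD n)
    have hφm : Measurable[𝓖] φ := (hEm.sub_const 1).indicator (hD n)
    set M : ℝ := Real.exp (2 * (Fintype.card ι * n)) + 1 with hM
    have hψb : ∀ ω, |ψ ω| ≤ M := by
      intro ω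
      simp only [hψ, Set.indicator]
      split_ifs with hω
      · rw [abs_of_pos (by positivity)]
        have := hEb n ω hω
        linarith
      · simp only [abs_zero]; positivity
    have hφb : ∀ ω, |φ ω| ≤ M := by
      intro ω
      simp only [hφ, Set.indicator]
      split_ifs with hω
      · have := hEb n ω hω
        have h0 := Real.exp_pos (-2 * ∑ i, h i ω)
        rw [abs_le]
        constructor <;> linarith [Real.exp_pos (2 * ((Fintype.card ι : ℝ) * n))]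
      · simp only [abs_zero]; positivity
    have hφi : Integrable φ μ := integrable_of_bdd (hφm.mono h𝓖 le_rfl) ⟨M, hφb⟩
    have hψσi : Integrable (ψ * σ) μ :=
      hσi.bdd_mul (hψm.mono h𝓖 le_rfl).aestronglyMeasurable (c := M)
        (Eventually.of_forall fun ω => by simpa [Real.norm_eq_abs] using hψb ω)
    have hGi : Integrable (φ + ψ * σ) μ := hφi.add hψσi
    -- the set integrals vanish
    have hzero : ∀ s : Set Ω, MeasurableSet[𝓖] s → ∫ ω in s, (φ + ψ * σ) ω ∂μ = 0 := by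
      have hgen : 𝓖 = MeasurableSpace.generateFrom
          (piiUnionInter (fun i => {s | MeasurableSet[𝓐 i] s}) Set.univ) := by
        refine Eq.trans ?_ (generateFrom_piiUnionInter_measurableSet 𝓐 Set.univ).symm
        simp [h𝓖def]
      have hpi : IsPiSystem (piiUnionInter (fun i => {s | MeasurableSet[𝓐 i] s}) Set.univ) :=
        isPiSystem_piiUnionInter _ (fun i => @MeasurableSpace.isPiSystem_measurableSet Ω (𝓐 i)) _
      have hbasic : ∀ (A : ι → Set Ω), (∀ i, MeasurableSet[𝓐 i] (A i)) →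
          ∫ ω in ⋂ i, A i, (φ + ψ * σ) ω ∂μ = 0 := by
        intro A hA
        rw [← setIntegral_zero hσm hσ h𝓐 hci hh hm n A hA]
        refine integral_congr_ae (Eventually.of_forall fun ω => ?_)
        simp only [Pi.add_apply, Pi.mul_apply, hψ, hφ, Set.indicator, hDdef]
        split_ifs <;> simp
      have htot : ∫ ω, (φ + ψ * σ) ω ∂μ = 0 := by
        have := hbasic (fun _ => Set.univ) (fun i => @MeasurableSet.univ Ω (𝓐 i))
        simpa using this
      intro s hs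
      induction s, hs using MeasurableSpace.induction_on_inter hgen hpi with
      | empty => simp
      | basic t ht =>
        obtain ⟨S, -, f, hf, rfl⟩ := ht
        have : (⋂ x ∈ S, f x) = ⋂ i, (if i ∈ S then f i else Set.univ) := by
          ext ω
          simp only [Set.mem_iInter]
          constructor
          · intro h1 i
            by_cases hi : i ∈ S
            · rw [if_pos hi]; exact h1 i hi
            · rw [if_neg hi]; trivial
          · intro h1 i hi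
            have := h1 i
            rwa [if_pos hi] at this
        rw [this]
        refine hbasic _ fun i => ?_
        by_cases hi : i ∈ S
        · rw [if_pos hi]; exact hf i hi
        · rw [if_neg hi]; exact @MeasurableSet.univ Ω (𝓐 i)
      | compl t ht ih =>
        have := integral_add_compl (h𝓖 _ ht) hGi
        rw [ih, htot] at this
        linarith
      | iUnion f hdisj hfm ih =>
        rw [integral_iUnion (fun i => h𝓖 _ (hfm i)) hdisj hGi.integrableOn]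
        exact (tsum_congr ih).trans tsum_zero
    have hce : (fun _ => (0 : ℝ)) =ᵐ[μ] μ[φ + ψ * σ | 𝓖] := by
      refine ae_eq_condExp_of_forall_setIntegral_eq h𝓖 hGi (fun s _ _ => integrableOn_zero)
        (fun s hs _ => ?_) aestronglyMeasurable_const
      rw [hzero s hs]; simp
    have hadd := condExp_add hφi hψσi 𝓖
    have hφc : μ[φ | 𝓖] = φ := condExp_of_stronglyMeasurable h𝓖 hφm.stronglyMeasurable hφi
    have hψc := condExp_stronglyMeasurable_mul_of_bound (μ := μ) h𝓖 (f := ψ) (g := σ)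
      hψm.stronglyMeasurable hσi M (Eventually.of_forall fun ω => by
        simpa [Real.norm_eq_abs] using hψb ω)
    filter_upwards [hce, hadd, hψc] with ω h1 h2 h3 hω
    have hωD : ω ∈ D := hω
    rw [h2, Pi.add_apply, hφc, h3, Pi.mul_apply] at h1
    simp only [hψ, hφ, Set.indicator, if_pos hωD] at h1
    have h4 := one_add_tanh_mul (∑ i, h i ω)
    have h5 := Real.exp_pos (-2 * ∑ i, h i ω)
    have h6 : (Real.exp (-2 * ∑ i, h i ω) + 1)
        * ((μ[σ | 𝓖]) ω - Real.tanh (∑ i, h i ω)) = 0 := by linarith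
    rcases mul_eq_zero.mp h6 with h7 | h7
    · linarith
    · linarith
  have hall : ∀ᵐ ω ∂μ, ∀ n : ℕ, (∀ i, |h i ω| ≤ n) →
      (μ[σ | 𝓖]) ω = Real.tanh (∑ i, h i ω) := ae_all_iff.mpr main
  filter_upwards [hall] with ω hω
  obtain ⟨n, hn⟩ := exists_nat_ge (∑ i, |h i ω|)
  exact hω n fun i => (Finset.single_le_sum (f := fun i => |h i ω|)
    (fun j _ => abs_nonneg _) (Finset.mem_univ i)).trans hn

end Crest.Agent.R160.Bayes
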