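import Crest.Agent.R160.Bayes

/-! Row 160, piece BAYES-SQ: second moment inequality for combined observations.
Pure probability, independent of the other files. -/

set_option autoImplicit false
open Finset Filter MeasureTheory ProbabilityTheory
open scoped Topology NNReal ENNReal

namespace Crest.Agent.R160.Bayes

variable {Ω : Type} {mΩ : MeasurableSpace Ω} {μ : Measure Ω} [IsProbabilityMeasure μ]

namespace SqAux

theorem tanh_abs_le (x : ℝ) : |Real.tanh x| ≤ 1 := by
  rw [abs_le]; exact ⟨(Real.neg_one_lt_tanh x).le, (Real.tanh_lt_one x).le⟩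

theorem measurable_tanh : Measurable Real.tanh := by
  have : Real.tanh = fun x => Real.sinh x / Real.cosh x := by
    funext x; exact Real.tanh_eq_sinh_div_cosh x
  rw [this]
  exact Real.measurable_sinh.div Real.measurable_cosh

/-- the pull-out property in integrated form. -/
theorem int_sigma_mul (σ : Ω → ℝ) (hσm : Measurable σ) (hσ : ∀ ω, σ ω = 1 ∨ σ ω = -1)
    (m : MeasurableSpace Ω) (hm : m ≤ mΩ) (h : Ω → ℝ) (hh : Measurable[m] h)
    (hc : μ[σ | m] =ᵐ[μ] fun ω => Real.tanh (h ω)) (φ : ℝ → ℝ) (hφ : Measurable φ)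
    (C : ℝ) (hC : ∀ x, |φ x| ≤ C) :
    ∫ ω, σ ω * φ (h ω) ∂μ = ∫ ω, Real.tanh (h ω) * φ (h ω) ∂μ := by
  have hσi : Integrable σ μ := by
    refine Integrable.of_bound hσm.aestronglyMeasurable 1 (Eventually.of_forall fun ω => ?_)
    rcases hσ ω with h1 | h1 <;> simp [h1]
  have hg : StronglyMeasurable[m] (fun ω => φ (h ω)) :=
    (hφ.comp hh).stronglyMeasurable
  have hhm : Measurable[mΩ] h := Measurable.mono hh hm le_rfl
  have hgm : Measurable[mΩ] (fun ω => φ (h ω)) := hφ.comp hhm
  have hfg : Integrable (σ * fun ω => φ (h ω)) μ := by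
    refine Integrable.of_bound (hσm.mul hgm).aestronglyMeasurable C
      (Eventually.of_forall fun ω => ?_)
    simp only [Pi.mul_apply, Real.norm_eq_abs, abs_mul]
    rcases hσ ω with h1 | h1 <;> simp [h1, hC]
  have key := condExp_mul_of_stronglyMeasurable_right (μ := μ) hg hfg hσi
  calc ∫ ω, σ ω * φ (h ω) ∂μ = ∫ ω, (μ[σ * (fun ω => φ (h ω)) | m]) ω ∂μ := by
        rw [integral_condExp hm]; rfl
    _ = ∫ ω, Real.tanh (h ω) * φ (h ω) ∂μ := by
        refine integral_congr_ae ?_
        filter_upwards [key, hc] with ω h1 h2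
        rw [h1, Pi.mul_apply, h2]

/-- the law of `(h i)_i` has density `(∏(1+tanh)+∏(1-tanh))/2` with respect to the product of the
marginal laws: integrated form, for bounded measurable functions. -/
theorem law_integral {ι : Type} [Fintype ι] (σ : Ω → ℝ) (hσm : Measurable σ)
    (hσ : ∀ ω, σ ω = 1 ∨ σ ω = -1) (𝓐 : ι → MeasurableSpace Ω)
    (h𝓐 : ∀ i, 𝓐 i ≤ mΩ) (hci : CI σ 𝓐 μ) (h : ι → Ω → ℝ) (hh : ∀ i, Measurable[𝓐 i] (h i))
    (hm : ∀ i, μ[σ | 𝓐 i] =ᵐ[μ] fun ω => Real.tanh (h i ω)) :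
    μ.map (fun ω i => h i ω) = (Measure.pi (fun i => μ.map (h i))).withDensity
      (fun x => ENNReal.ofReal ((∏ i, (1 + Real.tanh (x i)) + ∏ i, (1 - Real.tanh (x i))) / 2)) := by
  have hhm : ∀ i, Measurable (h i) := fun i => (hh i).mono (h𝓐 i) le_rfl
  have hHm : Measurable (fun ω i => h i ω) := measurable_pi_lambda _ hhm
  have : ∀ i, IsProbabilityMeasure (μ.map (h i)) := fun i =>
    Measure.isProbabilityMeasure_map (hhm i).aemeasurable
  have : IsProbabilityMeasure (μ.map (fun ω i => h i ω)) :=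
    Measure.isProbabilityMeasure_map hHm.aemeasurable
  have hDm : Measurable (fun x : ι → ℝ =>
      (∏ i, (1 + Real.tanh (x i)) + ∏ i, (1 - Real.tanh (x i))) / 2) := by
    refine Measurable.div_const (Measurable.add ?_ ?_) 2
    · exact Finset.measurable_prod _ fun i _ =>
        (measurable_const.add (measurable_tanh.comp (measurable_pi_apply i)))
    · exact Finset.measurable_prod _ fun i _ =>
        (measurable_const.sub (measurable_tanh.comp (measurable_pi_apply i)))
  have hp : ∀ x : ℝ, 0 ≤ 1 + Real.tanh x := fun x => by linarith [Real.neg_one_lt_tanh x]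
  have hn : ∀ x : ℝ, 0 ≤ 1 - Real.tanh x := fun x => by linarith [Real.tanh_lt_one x]
  have hD0 : ∀ x : ι → ℝ, 0 ≤ (∏ i, (1 + Real.tanh (x i)) + ∏ i, (1 - Real.tanh (x i))) / 2 :=
    fun x => div_nonneg (add_nonneg (Finset.prod_nonneg fun i _ => hp _)
      (Finset.prod_nonneg fun i _ => hn _)) (by norm_num)
  have hDb : ∀ x : ι → ℝ, (∏ i, (1 + Real.tanh (x i)) + ∏ i, (1 - Real.tanh (x i))) / 2 ≤
      2 ^ Fintype.card ι := by
    intro x
    have h1 : ∏ i, (1 + Real.tanh (x i)) ≤ 2 ^ Fintype.card ι := by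
      calc ∏ i, (1 + Real.tanh (x i)) ≤ ∏ _i : ι, (2 : ℝ) :=
            Finset.prod_le_prod (fun i _ => hp _)
              (fun i _ => by linarith [Real.tanh_lt_one (x i)])
        _ = 2 ^ Fintype.card ι := by simp
    have h2 : ∏ i, (1 - Real.tanh (x i)) ≤ 2 ^ Fintype.card ι := by
      calc ∏ i, (1 - Real.tanh (x i)) ≤ ∏ _i : ι, (2 : ℝ) :=
            Finset.prod_le_prod (fun i _ => hn _)
              (fun i _ => by linarith [Real.neg_one_lt_tanh (x i)])
        _ = 2 ^ Fintype.card ι := by simp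
    linarith
  -- value of both measures on boxes
  have hbox : ∀ s : ι → Set ℝ, (∀ i, MeasurableSet (s i)) →
      μ.map (fun ω i => h i ω) (Set.pi Set.univ s) =
      ((Measure.pi (fun i => μ.map (h i))).withDensity (fun x => ENNReal.ofReal
        ((∏ i, (1 + Real.tanh (x i)) + ∏ i, (1 - Real.tanh (x i))) / 2))) (Set.pi Set.univ s) := by
    intro s hs
    have hS : MeasurableSet (Set.pi Set.univ s) := MeasurableSet.univ_pi hs
    let φ : ι → ℝ → ℝ := fun i => (s i).indicator 1
    have hφm : ∀ i, Measurable (φ i) := fun i => measurable_one.indicator (hs i)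
    have hφb : ∀ i x, |φ i x| ≤ 1 := by
      intro i x
      by_cases hx : x ∈ s i
      · simp [φ, hx]
      · simp [φ, hx]
    have hφprod : ∀ x : ι → ℝ, ∏ i, φ i (x i) = (Set.pi Set.univ s).indicator 1 x := by
      intro x
      by_cases hx : x ∈ Set.pi Set.univ s
      · rw [Set.indicator_of_mem hx]
        have : ∀ i, φ i (x i) = 1 := fun i => by
          have := hx i (Set.mem_univ i)
          simp [φ, this]
        simp [this]
      · rw [Set.indicator_of_notMem hx]
        rw [Set.mem_univ_pi] at hx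
        push Not at hx
        obtain ⟨i, hi⟩ := hx
        exact Finset.prod_eq_zero (Finset.mem_univ i) (by simp [φ, hi])
    -- left side
    have hfi : ∀ f : Ω → ℝ, Measurable f → (∀ ω, |f ω| ≤ 1) → Integrable f μ := by
      intro f hf hf1
      exact Integrable.of_bound hf.aestronglyMeasurable 1 (Eventually.of_forall hf1)
    have hprodm : Measurable (fun ω => ∏ i, φ i (h i ω)) :=
      Finset.measurable_prod _ fun i _ => (hφm i).comp (hhm i)
    have hprodb : ∀ ω, |∏ i, φ i (h i ω)| ≤ 1 := by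
      intro ω
      rw [Finset.abs_prod]
      exact Finset.prod_le_one (fun i _ => abs_nonneg _) (fun i _ => hφb i _)
    have hσi : ∀ f : Ω → ℝ, Measurable f → (∀ ω, |f ω| ≤ 1) →
        Integrable (fun ω => σ ω * f ω) μ := by
      intro f hf hf1
      refine hfi _ (hσm.mul hf) fun ω => ?_
      rcases hσ ω with h1 | h1 <;> simp [h1, hf1 ω]
    have hL : ∫ ω, ∏ i, φ i (h i ω) ∂μ =
        (∏ i, ∫ ω, (1 + Real.tanh (h i ω)) * φ i (h i ω) ∂μ +
          ∏ i, ∫ ω, (1 - Real.tanh (h i ω)) * φ i (h i ω) ∂μ) / 2 := by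
      obtain ⟨c1, c2⟩ := hci (fun i ω => φ i (h i ω)) (fun i => (hφm i).comp (hh i))
        (fun i => ⟨1, fun ω => hφb i _⟩)
      have e1 : ∀ i, ∫ ω, (1 + σ ω) * φ i (h i ω) ∂μ =
          ∫ ω, (1 + Real.tanh (h i ω)) * φ i (h i ω) ∂μ := by
        intro i
        have hfm : Measurable (fun ω => φ i (h i ω)) := (hφm i).comp (hhm i)
        have a1 : Integrable (fun ω => φ i (h i ω)) μ := hfi _ hfm fun ω => hφb i _
        have a2 := hσi _ hfm fun ω => hφb i (h i ω)
        have a3 : Integrable (fun ω => Real.tanh (h i ω) * φ i (h i ω)) μ := by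
          refine hfi _ ((measurable_tanh.comp (hhm i)).mul hfm) fun ω => ?_
          rw [abs_mul]
          exact mul_le_one₀ (tanh_abs_le _) (abs_nonneg _) (hφb i _)
        have := int_sigma_mul σ hσm hσ (𝓐 i) (h𝓐 i) (h i) (hh i) (hm i) (φ i) (hφm i) 1 (hφb i)
        simp_rw [add_mul, one_mul]
        rw [integral_add a1 a2, integral_add a1 a3, this]
      have e2 : ∀ i, ∫ ω, (1 - σ ω) * φ i (h i ω) ∂μ =
          ∫ ω, (1 - Real.tanh (h i ω)) * φ i (h i ω) ∂μ := by
        intro i
        have hfm : Measurable (fun ω => φ i (h i ω)) := (hφm i).comp (hhm i)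
        have a1 : Integrable (fun ω => φ i (h i ω)) μ := hfi _ hfm fun ω => hφb i _
        have a2 := hσi _ hfm fun ω => hφb i (h i ω)
        have a3 : Integrable (fun ω => Real.tanh (h i ω) * φ i (h i ω)) μ := by
          refine hfi _ ((measurable_tanh.comp (hhm i)).mul hfm) fun ω => ?_
          rw [abs_mul]
          exact mul_le_one₀ (tanh_abs_le _) (abs_nonneg _) (hφb i _)
        have := int_sigma_mul σ hσm hσ (𝓐 i) (h𝓐 i) (h i) (hh i) (hm i) (φ i) (hφm i) 1 (hφb i)
        simp_rw [sub_mul, one_mul]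
        rw [integral_sub a1 a2, integral_sub a1 a3, this]
      simp_rw [e1] at c1
      simp_rw [e2] at c2
      rw [← c1, ← c2]
      have b1 : Integrable (fun ω => ∏ i, φ i (h i ω)) μ := hfi _ hprodm hprodb
      have b2 := hσi _ hprodm hprodb
      simp_rw [add_mul, sub_mul, one_mul]
      rw [integral_add b1 b2, integral_sub b1 b2]
      ring
    have hLset : (μ.map (fun ω i => h i ω)) (Set.pi Set.univ s) =
        ENNReal.ofReal (∫ ω, ∏ i, φ i (h i ω) ∂μ) := by
      have : ∫ ω, ∏ i, φ i (h i ω) ∂μ = (μ.map (fun ω i => h i ω)).real (Set.pi Set.univ s) := by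
        have e : ∀ ω, ∏ i, φ i (h i ω) = (Set.pi Set.univ s).indicator (1 : (ι → ℝ) → ℝ)
            (fun i => h i ω) := fun ω => hφprod (fun i => h i ω)
        simp_rw [e]
        rw [← integral_map (μ := μ) (φ := fun ω i => h i ω) hHm.aemeasurable
          (f := (Set.pi Set.univ s).indicator (1 : (ι → ℝ) → ℝ))
          ((measurable_one.indicator hS).aestronglyMeasurable)]
        rw [integral_indicator_one hS]
      rw [this, Measure.real, ENNReal.ofReal_toReal (measure_ne_top _ _)]
    -- right side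
    rw [hLset, withDensity_apply _ hS]
    have hR : ∫ x in Set.pi Set.univ s, (∏ i, (1 + Real.tanh (x i)) +
        ∏ i, (1 - Real.tanh (x i))) / 2 ∂(Measure.pi (fun i => μ.map (h i))) =
        (∏ i, ∫ ω, (1 + Real.tanh (h i ω)) * φ i (h i ω) ∂μ +
          ∏ i, ∫ ω, (1 - Real.tanh (h i ω)) * φ i (h i ω) ∂μ) / 2 := by
      rw [← integral_indicator hS]
      have e : ∀ x : ι → ℝ, (Set.pi Set.univ s).indicator (fun x => (∏ i, (1 + Real.tanh (x i)) +
          ∏ i, (1 - Real.tanh (x i))) / 2) x =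
          (∏ i, ((1 + Real.tanh (x i)) * φ i (x i)) + ∏ i, ((1 - Real.tanh (x i)) * φ i (x i))) / 2 := by
        intro x
        rw [Finset.prod_mul_distrib, Finset.prod_mul_distrib, hφprod]
        by_cases hx : x ∈ Set.pi Set.univ s
        · simp [Set.indicator_of_mem hx]
        · simp [Set.indicator_of_notMem hx]
      simp_rw [e]
      have i1 : Integrable (fun x : ι → ℝ => ∏ i, ((1 + Real.tanh (x i)) * φ i (x i)))
          (Measure.pi (fun i => μ.map (h i))) := by
        refine Integrable.of_bound (Finset.measurable_prod _ fun i _ => ?_).aestronglyMeasurable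
          (2 ^ Fintype.card ι) (Eventually.of_forall fun x => ?_)
        · exact ((measurable_const.add (measurable_tanh.comp (measurable_pi_apply i))).mul
            ((hφm i).comp (measurable_pi_apply i)))
        · rw [Real.norm_eq_abs, Finset.abs_prod]
          calc ∏ i, |(1 + Real.tanh (x i)) * φ i (x i)| ≤ ∏ _i : ι, (2 : ℝ) := by
                refine Finset.prod_le_prod (fun i _ => abs_nonneg _) fun i _ => ?_
                rw [abs_mul, abs_of_nonneg (hp _)]
                nlinarith [hφb i (x i), Real.tanh_lt_one (x i), hp (x i), abs_nonneg (φ i (x i))]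
            _ = 2 ^ Fintype.card ι := by simp
      have i2 : Integrable (fun x : ι → ℝ => ∏ i, ((1 - Real.tanh (x i)) * φ i (x i)))
          (Measure.pi (fun i => μ.map (h i))) := by
        refine Integrable.of_bound (Finset.measurable_prod _ fun i _ => ?_).aestronglyMeasurable
          (2 ^ Fintype.card ι) (Eventually.of_forall fun x => ?_)
        · exact ((measurable_const.sub (measurable_tanh.comp (measurable_pi_apply i))).mul
            ((hφm i).comp (measurable_pi_apply i)))
        · rw [Real.norm_eq_abs, Finset.abs_prod]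
          calc ∏ i, |(1 - Real.tanh (x i)) * φ i (x i)| ≤ ∏ _i : ι, (2 : ℝ) := by
                refine Finset.prod_le_prod (fun i _ => abs_nonneg _) fun i _ => ?_
                rw [abs_mul, abs_of_nonneg (hn _)]
                nlinarith [hφb i (x i), Real.neg_one_lt_tanh (x i), hn (x i),
                  abs_nonneg (φ i (x i))]
            _ = 2 ^ Fintype.card ι := by simp
      rw [integral_div, integral_add i1 i2,
        integral_fintype_prod_eq_prod (fun i x => (1 + Real.tanh x) * φ i x),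
        integral_fintype_prod_eq_prod (fun i x => (1 - Real.tanh x) * φ i x)]
      congr 2
      · refine Finset.prod_congr rfl fun i _ => ?_
        rw [integral_map (μ := μ) (φ := h i) (f := fun x => (1 + Real.tanh x) * φ i x)
          (hhm i).aemeasurable
          ((measurable_const.add measurable_tanh).mul (hφm i)).aestronglyMeasurable]
      · refine Finset.prod_congr rfl fun i _ => ?_
        rw [integral_map (μ := μ) (φ := h i) (f := fun x => (1 - Real.tanh x) * φ i x)
          (hhm i).aemeasurable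
          ((measurable_const.sub measurable_tanh).mul (hφm i)).aestronglyMeasurable]
    rw [hL, ← hR, ofReal_integral_eq_lintegral_ofReal]
    · refine Integrable.of_bound hDm.aestronglyMeasurable (2 ^ Fintype.card ι)
        (Eventually.of_forall fun x => ?_)
      rw [Real.norm_eq_abs, abs_of_nonneg (hD0 x)]
      exact hDb x
    · exact Eventually.of_forall hD0
  refine ext_of_generate_finite _ generateFrom_pi.symm isPiSystem_pi ?_ ?_
  · rintro _ ⟨s, hs, rfl⟩
    exact hbox s (fun i => hs i (Set.mem_univ i))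
  · have := hbox (fun _ => Set.univ) (fun _ => MeasurableSet.univ)
    rwa [Set.pi_univ] at this

end SqAux

/-- second moment inequality: `1 - E M² ≥ ∏ (1 - E m_i²)` for symmetric observations
(`exists` a measure preserving flip). PROOF: law density as above, and
`E_ε [2 / (∏(1+ε_i m_i) + ∏(1-ε_i m_i))] ≥ 1` by Jensen over random signs. -/
theorem one_sub_sq_ge {ι : Type} [Fintype ι] (σ : Ω → ℝ) (hσm : Measurable σ)
    (hσ : ∀ ω, σ ω = 1 ∨ σ ω = -1) (hσ0 : ∫ ω, σ ω ∂μ = 0) (𝓐 : ι → MeasurableSpace Ω)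
    (h𝓐 : ∀ i, 𝓐 i ≤ mΩ) (hci : CI σ 𝓐 μ) (h : ι → Ω → ℝ) (hh : ∀ i, Measurable[𝓐 i] (h i))
    (hm : ∀ i, μ[σ | 𝓐 i] =ᵐ[μ] fun ω => Real.tanh (h i ω))
    (F : Ω → Ω) (hF : MeasurePreserving F μ μ) (hFh : ∀ i, (fun ω => h i (F ω)) =ᵐ[μ] fun ω => - h i ω) :
    ∏ i, (1 - ∫ ω, Real.tanh (h i ω) ^ 2 ∂μ) ≤ 1 - ∫ ω, Real.tanh (∑ i, h i ω) ^ 2 ∂μ := by
  have hhm : ∀ i, Measurable (h i) := fun i => (hh i).mono (h𝓐 i) le_rfl
  have hHm : Measurable (fun ω i => h i ω) := measurable_pi_lambda _ hhm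
  have : ∀ i, IsProbabilityMeasure (μ.map (h i)) := fun i =>
    Measure.isProbabilityMeasure_map (hhm i).aemeasurable
  have hfi : ∀ f : Ω → ℝ, Measurable f → (∀ ω, |f ω| ≤ 1) → Integrable f μ := by
    intro f hf hf1
    exact Integrable.of_bound hf.aestronglyMeasurable 1 (Eventually.of_forall hf1)
  have ht : ∀ i, Measurable (fun ω => Real.tanh (h i ω)) := fun i =>
    SqAux.measurable_tanh.comp (hhm i)
  have hsq1 : ∀ x : ℝ, |Real.tanh x ^ 2| ≤ 1 := fun x => by
    rw [abs_pow]; exact pow_le_one₀ (abs_nonneg _) (SqAux.tanh_abs_le x)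
  have hsq2 : ∀ x : ℝ, |1 - Real.tanh x ^ 2| ≤ 1 := fun x => by
    have := hsq1 x
    rw [abs_of_nonneg (sq_nonneg _)] at this
    rw [abs_of_nonneg (by linarith)]
    linarith [sq_nonneg (Real.tanh x)]
  -- the odd part integrates to zero
  have hodd : ∀ i, ∫ ω, (1 - Real.tanh (h i ω) ^ 2) * Real.tanh (h i ω) ∂μ = 0 := by
    intro i
    have hφm : Measurable (fun ω => (1 - Real.tanh (h i ω) ^ 2) * Real.tanh (h i ω)) :=
      (measurable_const.sub ((ht i).pow_const 2)).mul (ht i)
    have e1 : ∫ ω, (1 - Real.tanh (h i ω) ^ 2) * Real.tanh (h i ω) ∂μ =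
        ∫ ω, (1 - Real.tanh (h i (F ω)) ^ 2) * Real.tanh (h i (F ω)) ∂μ := by
      conv_lhs => rw [← hF.map_eq]
      rw [integral_map hF.measurable.aemeasurable hφm.aestronglyMeasurable]
    have e2 : ∫ ω, (1 - Real.tanh (h i (F ω)) ^ 2) * Real.tanh (h i (F ω)) ∂μ =
        - ∫ ω, (1 - Real.tanh (h i ω) ^ 2) * Real.tanh (h i ω) ∂μ := by
      rw [← integral_neg]
      refine integral_congr_ae ?_
      filter_upwards [hFh i] with ω hω
      rw [hω, Real.tanh_neg]
      ring
    linarith
  -- the upper marginal integrals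
  have hmarg : ∀ i, ∫ ω, (1 - Real.tanh (h i ω) ^ 2) ∂μ = 1 - ∫ ω, Real.tanh (h i ω) ^ 2 ∂μ := by
    intro i
    rw [integral_sub (integrable_const _) (hfi _ ((ht i).pow_const 2) fun ω => hsq1 _)]
    simp
  have iA : ∀ i, Integrable (fun ω => 1 - Real.tanh (h i ω) ^ 2) μ := fun i =>
    hfi _ (measurable_const.sub ((ht i).pow_const 2)) fun ω => hsq2 _
  have iB : ∀ i, Integrable (fun ω => (1 - Real.tanh (h i ω) ^ 2) * Real.tanh (h i ω)) μ := fun i =>
    hfi _ ((measurable_const.sub ((ht i).pow_const 2)).mul (ht i)) fun ω => by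
      rw [abs_mul]; exact mul_le_one₀ (hsq2 _) (abs_nonneg _) (SqAux.tanh_abs_le _)
  have hmp : ∀ i, ∫ x, (1 - Real.tanh x ^ 2) * (1 + Real.tanh x) ∂(μ.map (h i)) =
      1 - ∫ ω, Real.tanh (h i ω) ^ 2 ∂μ := by
    intro i
    rw [integral_map (μ := μ) (φ := h i) (f := fun x => (1 - Real.tanh x ^ 2) * (1 + Real.tanh x))
      (hhm i).aemeasurable
      (((measurable_const.sub (SqAux.measurable_tanh.pow_const 2)).mul
        (measurable_const.add SqAux.measurable_tanh)).aestronglyMeasurable)]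
    simp_rw [mul_add, mul_one]
    rw [integral_add (iA i) (iB i), hodd, add_zero, hmarg]
  have hmn : ∀ i, ∫ x, (1 - Real.tanh x ^ 2) * (1 - Real.tanh x) ∂(μ.map (h i)) =
      1 - ∫ ω, Real.tanh (h i ω) ^ 2 ∂μ := by
    intro i
    rw [integral_map (μ := μ) (φ := h i) (f := fun x => (1 - Real.tanh x ^ 2) * (1 - Real.tanh x))
      (hhm i).aemeasurable
      (((measurable_const.sub (SqAux.measurable_tanh.pow_const 2)).mul
        (measurable_const.sub SqAux.measurable_tanh)).aestronglyMeasurable)]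
    simp_rw [mul_sub, mul_one]
    rw [integral_sub (iA i) (iB i), hodd, sub_zero, hmarg]
  have hm0 : ∀ i, ∫ x, (1 - Real.tanh x ^ 2) ∂(μ.map (h i)) =
      1 - ∫ ω, Real.tanh (h i ω) ^ 2 ∂μ := by
    intro i
    rw [integral_map (μ := μ) (φ := h i) (f := fun x => (1 - Real.tanh x ^ 2))
      (hhm i).aemeasurable
      ((measurable_const.sub (SqAux.measurable_tanh.pow_const 2)).aestronglyMeasurable)]
    exact hmarg i
  -- left side as an integral against the product measure
  have hlaw := SqAux.law_integral σ hσm hσ 𝓐 h𝓐 hci h hh hm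
  set π := Measure.pi (fun i => μ.map (h i)) with hπ
  have hsum : Measurable (fun x : ι → ℝ => ∑ i, x i) :=
    Finset.measurable_sum _ fun i _ => measurable_pi_apply i
  have hgm : Measurable (fun x : ι → ℝ => 1 - Real.tanh (∑ i, x i) ^ 2) :=
    measurable_const.sub ((SqAux.measurable_tanh.comp hsum).pow_const 2)
  have hp : ∀ x : ℝ, 0 ≤ 1 + Real.tanh x := fun x => by linarith [Real.neg_one_lt_tanh x]
  have hn : ∀ x : ℝ, 0 ≤ 1 - Real.tanh x := fun x => by linarith [Real.tanh_lt_one x]
  have hDm : Measurable (fun x : ι → ℝ =>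
      (∏ i, (1 + Real.tanh (x i)) + ∏ i, (1 - Real.tanh (x i))) / 2) := by
    refine Measurable.div_const (Measurable.add ?_ ?_) 2
    · exact Finset.measurable_prod _ fun i _ =>
        (measurable_const.add (SqAux.measurable_tanh.comp (measurable_pi_apply i)))
    · exact Finset.measurable_prod _ fun i _ =>
        (measurable_const.sub (SqAux.measurable_tanh.comp (measurable_pi_apply i)))
  have hL : 1 - ∫ ω, Real.tanh (∑ i, h i ω) ^ 2 ∂μ =
      ∫ x, ((∏ i, (1 + Real.tanh (x i)) + ∏ i, (1 - Real.tanh (x i))) / 2) *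
        (1 - Real.tanh (∑ i, x i) ^ 2) ∂π := by
    have e1 : 1 - ∫ ω, Real.tanh (∑ i, h i ω) ^ 2 ∂μ =
        ∫ ω, (1 - Real.tanh (∑ i, h i ω) ^ 2) ∂μ := by
      have i1 : Integrable (fun ω => Real.tanh (∑ i, h i ω) ^ 2) μ :=
        hfi _ ((SqAux.measurable_tanh.comp (hsum.comp hHm)).pow_const 2) fun ω => hsq1 _
      rw [integral_sub (integrable_const _) i1]
      simp
    rw [e1, ← integral_map (μ := μ) (φ := fun ω i => h i ω)
      (f := fun x : ι → ℝ => 1 - Real.tanh (∑ i, x i) ^ 2) hHm.aemeasurable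
      hgm.aestronglyMeasurable, hlaw,
      integral_withDensity_eq_integral_toReal_smul (by fun_prop)
        (Eventually.of_forall fun x => ENNReal.ofReal_lt_top)]
    refine integral_congr_ae (Eventually.of_forall fun x => ?_)
    simp only [smul_eq_mul]
    rw [ENNReal.toReal_ofReal]
    exact div_nonneg (add_nonneg (Finset.prod_nonneg fun i _ => hp _)
      (Finset.prod_nonneg fun i _ => hn _)) (by norm_num)
  rw [hL]
  -- pointwise inequality
  have hpt : ∀ x : ι → ℝ,
      2 * ∏ i, (1 - Real.tanh (x i) ^ 2)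
        - (∏ i, ((1 - Real.tanh (x i) ^ 2) * (1 + Real.tanh (x i)))) / 2
        - (∏ i, ((1 - Real.tanh (x i) ^ 2) * (1 - Real.tanh (x i)))) / 2 ≤
      ((∏ i, (1 + Real.tanh (x i)) + ∏ i, (1 - Real.tanh (x i))) / 2) *
        (1 - Real.tanh (∑ i, x i) ^ 2) := by
    intro x
    have hc : ∀ y : ℝ, 0 < Real.cosh y := Real.cosh_pos
    have c1 : ∏ i, (1 + Real.tanh (x i)) = Real.exp (∑ i, x i) / ∏ i, Real.cosh (x i) := by
      rw [Real.exp_sum, ← Finset.prod_div_distrib]
      refine Finset.prod_congr rfl fun i _ => ?_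
      rw [Real.tanh_eq_sinh_div_cosh, eq_div_iff (hc _).ne', add_mul,
        div_mul_cancel₀ _ (hc _).ne', one_mul, Real.cosh_add_sinh]
    have c2 : ∏ i, (1 - Real.tanh (x i)) = Real.exp (-∑ i, x i) / ∏ i, Real.cosh (x i) := by
      rw [← Finset.sum_neg_distrib, Real.exp_sum, ← Finset.prod_div_distrib]
      refine Finset.prod_congr rfl fun i _ => ?_
      rw [Real.tanh_eq_sinh_div_cosh, eq_div_iff (hc _).ne', sub_mul,
        div_mul_cancel₀ _ (hc _).ne', one_mul, Real.cosh_sub_sinh]
    have c3 : ∏ i, (1 - Real.tanh (x i) ^ 2) = 1 / (∏ i, Real.cosh (x i)) ^ 2 := by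
      have : ∀ i, 1 - Real.tanh (x i) ^ 2 = (1 + Real.tanh (x i)) * (1 - Real.tanh (x i)) := by
        intro i; ring
      simp_rw [this]
      rw [Finset.prod_mul_distrib, c1, c2, Real.exp_neg]
      have h1 := (Real.exp_pos (∑ i, x i)).ne'
      have h2 : (∏ i, Real.cosh (x i)) ≠ 0 := (Finset.prod_pos fun i _ => hc (x i)).ne'
      field_simp
    rw [Finset.prod_mul_distrib, Finset.prod_mul_distrib, c1, c2, c3]
    set S := ∑ i, x i
    set c := ∏ i, Real.cosh (x i) with hcdef
    have hcpos : 0 < c := Finset.prod_pos fun i _ => hc (x i)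
    have hS : 0 < Real.cosh S := hc S
    have e3 : Real.exp S / c + Real.exp (-S) / c = 2 * Real.cosh S / c := by
      rw [Real.cosh_eq]; ring
    have e4 : 1 - Real.tanh S ^ 2 = 1 / Real.cosh S ^ 2 := by
      rw [Real.tanh_eq_sinh_div_cosh, div_pow, eq_div_iff (pow_pos hS 2).ne', sub_mul,
        div_mul_cancel₀ _ (pow_pos hS 2).ne', one_mul, Real.cosh_sq]
      ring
    have e5 : 2 * (1 / c ^ 2) - 1 / c ^ 2 * (Real.exp S / c) / 2
        - 1 / c ^ 2 * (Real.exp (-S) / c) / 2 = 1 / c ^ 2 * (2 - Real.cosh S / c) := by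
      have : Real.exp S / c = 2 * Real.cosh S / c - Real.exp (-S) / c := by linarith
      rw [this]; ring
    rw [e5, e3, e4]
    have e6 : 2 * Real.cosh S / c / 2 * (1 / Real.cosh S ^ 2) = 1 / c ^ 2 * (c / Real.cosh S) := by
      field_simp
    rw [e6]
    refine mul_le_mul_of_nonneg_left ?_ (by positivity)
    have : Real.cosh S / c + c / Real.cosh S ≥ 2 := by
      have h1 : Real.cosh S / c + c / Real.cosh S - 2 = (Real.cosh S - c) ^ 2 / (c * Real.cosh S) := by
        field_simp
        ring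
      have h2 : 0 ≤ (Real.cosh S - c) ^ 2 / (c * Real.cosh S) := by positivity
      linarith
    linarith
  -- integrability over the product measure
  have hbd : ∀ (g : ι → ℝ → ℝ), (∀ i, Measurable (g i)) → (∀ i x, |g i x| ≤ 2) →
      Integrable (fun x : ι → ℝ => ∏ i, g i (x i)) π := by
    intro g hg hb
    refine Integrable.of_bound (Finset.measurable_prod _ fun i _ =>
      (hg i).comp (measurable_pi_apply i)).aestronglyMeasurable (2 ^ Fintype.card ι)
      (Eventually.of_forall fun x => ?_)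
    rw [Real.norm_eq_abs, Finset.abs_prod]
    calc ∏ i, |g i (x i)| ≤ ∏ _i : ι, (2 : ℝ) :=
          Finset.prod_le_prod (fun i _ => abs_nonneg _) fun i _ => hb i _
      _ = 2 ^ Fintype.card ι := by simp
  have hb1 : ∀ x : ℝ, |1 - Real.tanh x ^ 2| ≤ 2 := fun x => (hsq2 x).trans (by norm_num)
  have hb2 : ∀ x : ℝ, |(1 - Real.tanh x ^ 2) * (1 + Real.tanh x)| ≤ 2 := fun x => by
    rw [abs_mul, abs_of_nonneg (hp x)]
    nlinarith [hsq2 x, abs_nonneg (1 - Real.tanh x ^ 2), Real.tanh_lt_one x, hp x]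
  have hb3 : ∀ x : ℝ, |(1 - Real.tanh x ^ 2) * (1 - Real.tanh x)| ≤ 2 := fun x => by
    rw [abs_mul, abs_of_nonneg (hn x)]
    nlinarith [hsq2 x, abs_nonneg (1 - Real.tanh x ^ 2), Real.neg_one_lt_tanh x, hn x]
  have mt := SqAux.measurable_tanh
  have j1 := hbd (fun _ x => 1 - Real.tanh x ^ 2)
    (fun _ => measurable_const.sub (mt.pow_const 2)) (fun _ x => hb1 x)
  have j2 := hbd (fun _ x => (1 - Real.tanh x ^ 2) * (1 + Real.tanh x))
    (fun _ => (measurable_const.sub (mt.pow_const 2)).mul (measurable_const.add mt))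
    (fun _ x => hb2 x)
  have j3 := hbd (fun _ x => (1 - Real.tanh x ^ 2) * (1 - Real.tanh x))
    (fun _ => (measurable_const.sub (mt.pow_const 2)).mul (measurable_const.sub mt))
    (fun _ x => hb3 x)
  have jR : Integrable (fun x : ι → ℝ =>
      ((∏ i, (1 + Real.tanh (x i)) + ∏ i, (1 - Real.tanh (x i))) / 2) *
        (1 - Real.tanh (∑ i, x i) ^ 2)) π := by
    refine Integrable.of_bound (hDm.mul hgm).aestronglyMeasurable (2 ^ Fintype.card ι)
      (Eventually.of_forall fun x => ?_)
    have h1 : ∏ i, (1 + Real.tanh (x i)) ≤ 2 ^ Fintype.card ι := by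
      calc ∏ i, (1 + Real.tanh (x i)) ≤ ∏ _i : ι, (2 : ℝ) :=
            Finset.prod_le_prod (fun i _ => hp _)
              (fun i _ => by linarith [Real.tanh_lt_one (x i)])
        _ = 2 ^ Fintype.card ι := by simp
    have h2 : ∏ i, (1 - Real.tanh (x i)) ≤ 2 ^ Fintype.card ι := by
      calc ∏ i, (1 - Real.tanh (x i)) ≤ ∏ _i : ι, (2 : ℝ) :=
            Finset.prod_le_prod (fun i _ => hn _)
              (fun i _ => by linarith [Real.neg_one_lt_tanh (x i)])
        _ = 2 ^ Fintype.card ι := by simp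
    have h3 : 0 ≤ ∏ i, (1 + Real.tanh (x i)) := Finset.prod_nonneg fun i _ => hp _
    have h4 : 0 ≤ ∏ i, (1 - Real.tanh (x i)) := Finset.prod_nonneg fun i _ => hn _
    rw [Real.norm_eq_abs, abs_mul, abs_of_nonneg (by positivity)]
    have h5 := hsq2 (∑ i, x i)
    have h6 : (∏ i, (1 + Real.tanh (x i)) + ∏ i, (1 - Real.tanh (x i))) / 2 ≤
        2 ^ Fintype.card ι := by linarith
    calc _ ≤ (2 : ℝ) ^ Fintype.card ι * 1 :=
          mul_le_mul h6 h5 (abs_nonneg _) (by positivity)
      _ = _ := mul_one _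
  calc ∏ i, (1 - ∫ ω, Real.tanh (h i ω) ^ 2 ∂μ)
      = ∫ x : ι → ℝ, (2 * ∏ i, (1 - Real.tanh (x i) ^ 2)
        - (∏ i, ((1 - Real.tanh (x i) ^ 2) * (1 + Real.tanh (x i)))) / 2
        - (∏ i, ((1 - Real.tanh (x i) ^ 2) * (1 - Real.tanh (x i)))) / 2) ∂π := by
        have k1 : Integrable (fun x : ι → ℝ => 2 * ∏ i, (1 - Real.tanh (x i) ^ 2)
          - (∏ i, ((1 - Real.tanh (x i) ^ 2) * (1 + Real.tanh (x i)))) / 2) π :=
          (j1.const_mul 2).sub (j2.div_const 2)
        rw [integral_sub k1 (j3.div_const 2),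
          integral_sub (j1.const_mul 2) (j2.div_const 2), integral_const_mul, integral_div,
          integral_div, hπ,
          integral_fintype_prod_eq_prod (fun _ x => 1 - Real.tanh x ^ 2),
          integral_fintype_prod_eq_prod (fun _ x => (1 - Real.tanh x ^ 2) * (1 + Real.tanh x)),
          integral_fintype_prod_eq_prod (fun _ x => (1 - Real.tanh x ^ 2) * (1 - Real.tanh x))]
        simp_rw [hm0, hmp, hmn]
        ring
    _ ≤ _ := integral_mono (((j1.const_mul 2).sub (j2.div_const 2)).sub (j3.div_const 2)) jR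
        (fun x => hpt x)

end Crest.Agent.R160.Bayes
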