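import Mathlib

/-! Row 160, piece BERNSTEIN. -/

set_option autoImplicit false
open Finset Filter MeasureTheory ProbabilityTheory
open scoped Topology NNReal ENNReal

namespace Crest.Agent.R160

namespace BernsteinAux

theorem bounded_integrable {α : Type*} {m : MeasurableSpace α} (ν : Measure α) [IsFiniteMeasure ν]
    {f : α → ℝ} (hf : Measurable f) (M : ℝ) (hM : ∀ x, |f x| ≤ M) : Integrable f ν :=
  Integrable.of_bound hf.aestronglyMeasurable M (ae_of_all _ (by simpa using hM))

theorem one_var (ν : Measure ℝ) [IsProbabilityMeasure ν] (b σ2 L lam M : ℝ)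
    (hb : ∀ᵐ x ∂ν, |x| ≤ b) (hσ : ∫ x, x ^ 2 ∂ν ≤ σ2) (hL : 0 ≤ L) (f : ℝ → ℝ) (hf : Measurable f)
    (hM : ∀ x, |f x| ≤ M) (hfL : ∀ x y, |f x - f y| ≤ L * |x - y|)
    (hlam : 2 * |lam| * L * b ≤ 1) :
    ∫ x, Real.exp (lam * (f x - ∫ y, f y ∂ν)) ∂ν ≤ Real.exp (4 * lam ^ 2 * L ^ 2 * σ2) := by
  have hfi : Integrable f ν := bounded_integrable ν hf M hM
  have hf2i : Integrable (fun x => f x ^ 2) ν := by
    apply bounded_integrable ν (hf.pow_const 2) (M ^ 2)
    intro x
    rw [abs_pow]
    exact pow_le_pow_left₀ (abs_nonneg _) (hM x) 2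
  set m := ∫ y, f y ∂ν with hm
  have hmM : |m| ≤ M := by
    have := norm_integral_le_of_norm_le_const (μ := ν) (f := f) (C := M)
      (ae_of_all _ (by simpa using hM))
    simpa using this
  have hσ0 : 0 ≤ σ2 := le_trans (integral_nonneg fun x => sq_nonneg _) hσ
  have hx2i : Integrable (fun x : ℝ => x ^ 2) ν := by
    apply Integrable.of_bound (by fun_prop) (b ^ 2)
    filter_upwards [hb] with x hx
    rw [Real.norm_eq_abs, abs_pow]
    exact pow_le_pow_left₀ (abs_nonneg _) hx 2
  -- deviation
  have hdev : ∀ᵐ x ∂ν, |lam * (f x - m)| ≤ 1 := by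
    filter_upwards [hb] with x hx
    have h1 : f x - m = ∫ y, (f x - f y) ∂ν := by
      rw [integral_sub (integrable_const _) hfi]
      simp [hm]
    have h2 : |f x - m| ≤ 2 * L * b := by
      rw [h1]
      have := norm_integral_le_of_norm_le_const (μ := ν) (f := fun y => f x - f y)
        (C := 2 * L * b) (by
          filter_upwards [hb] with y hy
          rw [Real.norm_eq_abs]
          refine (hfL x y).trans ?_
          have : |x - y| ≤ 2 * b := by
            have := abs_sub x y
            linarith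
          calc L * |x - y| ≤ L * (2 * b) := mul_le_mul_of_nonneg_left this hL
            _ = 2 * L * b := by ring)
      simpa using this
    rw [abs_mul]
    calc |lam| * |f x - m| ≤ |lam| * (2 * L * b) := mul_le_mul_of_nonneg_left h2 (abs_nonneg _)
      _ = 2 * |lam| * L * b := by ring
      _ ≤ 1 := hlam
  have hvar : ∫ x, (f x - m) ^ 2 ∂ν ≤ L ^ 2 * σ2 := by
    have e0 : ∀ c : ℝ, ∫ x, (f x - c) ^ 2 ∂ν = ∫ x, f x ^ 2 ∂ν - 2 * c * m + c ^ 2 := by
      intro c
      have h1 : (fun x => (f x - c) ^ 2) = fun x => (f x ^ 2 - 2 * c * f x) + c ^ 2 := by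
        funext x; ring
      have h2 : Integrable (fun x => f x ^ 2 - 2 * c * f x) ν := hf2i.sub (hfi.const_mul _)
      rw [h1, integral_add h2 (integrable_const _),
        integral_sub hf2i (hfi.const_mul _), integral_const_mul]
      simp [← hm]
    have e1 : ∫ x, (f x - m) ^ 2 ∂ν = ∫ x, f x ^ 2 ∂ν - m ^ 2 := by
      rw [e0]; ring
    have e2 : ∫ x, (f x - f 0) ^ 2 ∂ν = ∫ x, f x ^ 2 ∂ν - 2 * f 0 * m + (f 0) ^ 2 := e0 _
    have e3 : ∫ x, (f x - f 0) ^ 2 ∂ν ≤ ∫ x, L ^ 2 * x ^ 2 ∂ν := by
      apply integral_mono_of_nonneg (ae_of_all _ fun x => sq_nonneg _) (hx2i.const_mul _)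
      apply ae_of_all
      intro x
      have := hfL x 0
      rw [sub_zero] at this
      have h2 : (f x - f 0) ^ 2 ≤ (L * |x|) ^ 2 := by
        rw [← sq_abs (f x - f 0)]
        exact pow_le_pow_left₀ (abs_nonneg _) this 2
      calc (f x - f 0) ^ 2 ≤ (L * |x|) ^ 2 := h2
        _ = L ^ 2 * x ^ 2 := by rw [mul_pow, sq_abs]
    rw [integral_const_mul] at e3
    have e4 : L ^ 2 * ∫ x, x ^ 2 ∂ν ≤ L ^ 2 * σ2 := mul_le_mul_of_nonneg_left hσ (sq_nonneg _)
    rw [e1]
    rw [e2] at e3
    nlinarith [sq_nonneg (f 0 - m)]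
  have hexpi : Integrable (fun x => Real.exp (lam * (f x - m))) ν := by
    apply bounded_integrable ν (by fun_prop) (Real.exp (|lam| * (2 * M)))
    intro x
    rw [abs_of_pos (Real.exp_pos _)]
    apply Real.exp_le_exp.2
    refine (le_abs_self _).trans ?_
    rw [abs_mul]
    apply mul_le_mul_of_nonneg_left _ (abs_nonneg _)
    have := abs_sub (f x) m
    have := hM x
    linarith
  have hdi : Integrable (fun x => f x - m) ν := hfi.sub (integrable_const _)
  have hd2i : Integrable (fun x => (f x - m) ^ 2) ν := by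
    have : (fun x => (f x - m) ^ 2) = fun x => (f x ^ 2 - 2 * m * f x) + m ^ 2 := by
      funext x; ring
    rw [this]
    exact (hf2i.sub (hfi.const_mul _)).add (integrable_const _)
  have hdi0 : ∫ x, (f x - m) ∂ν = 0 := by
    rw [integral_sub hfi (integrable_const _)]
    simp [hm]
  calc ∫ x, Real.exp (lam * (f x - m)) ∂ν
      ≤ ∫ x, ((1 + lam * (f x - m)) + lam ^ 2 * (f x - m) ^ 2) ∂ν := by
        apply integral_mono_ae hexpi (((integrable_const _).add (hdi.const_mul _)).add
          (hd2i.const_mul _))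
        filter_upwards [hdev] with x hx
        have := Real.abs_exp_sub_one_sub_id_le hx
        rw [abs_le] at this
        have h2 := this.2
        rw [mul_pow] at h2
        simp only [Pi.add_apply]
        linarith
    _ = 1 + lam ^ 2 * ∫ x, (f x - m) ^ 2 ∂ν := by
        have h1 : Integrable (fun x => 1 + lam * (f x - m)) ν :=
          (integrable_const _).add (hdi.const_mul _)
        rw [integral_add h1 (hd2i.const_mul _),
          integral_add (integrable_const _) (hdi.const_mul _), integral_const_mul,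
          integral_const_mul, hdi0]
        simp
    _ ≤ 1 + lam ^ 2 * (L ^ 2 * σ2) := by
        have := mul_le_mul_of_nonneg_left hvar (sq_nonneg lam)
        linarith
    _ ≤ Real.exp (lam ^ 2 * (L ^ 2 * σ2)) := by
        have := Real.add_one_le_exp (lam ^ 2 * (L ^ 2 * σ2))
        linarith
    _ ≤ Real.exp (4 * lam ^ 2 * L ^ 2 * σ2) := by
        apply Real.exp_le_exp.2
        have : 0 ≤ lam ^ 2 * (L ^ 2 * σ2) := by positivity
        linarith

theorem fin_case (b σ2 L lam M : ℝ) (hL : 0 ≤ L) (hlam : 2 * |lam| * L * b ≤ 1) :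
    ∀ (n : ℕ) (ν : Fin n → Measure ℝ) [∀ i, IsProbabilityMeasure (ν i)]
    (_ : ∀ i, ∀ᵐ x ∂ν i, |x| ≤ b) (_ : ∀ i, ∫ x, x ^ 2 ∂ν i ≤ σ2)
    (F : (Fin n → ℝ) → ℝ) (_ : Measurable F) (_ : ∀ z, |F z| ≤ M)
    (_ : ∀ (z : Fin n → ℝ) (i : Fin n) (a : ℝ), |F (Function.update z i a) - F z| ≤ L * |a - z i|),
    ∫ z, Real.exp (lam * (F z - ∫ y, F y ∂(Measure.pi ν))) ∂(Measure.pi ν) ≤
      Real.exp (4 * lam ^ 2 * L ^ 2 * σ2 * n) := by
  intro n
  induction n with
  | zero =>
    intro ν _ _ _ F hF hM hFL
    have : ∀ z, F z = F 0 := fun z => by rw [Subsingleton.elim z 0]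
    simp [this]
  | succ n ih =>
    intro ν _ hb hσ F hF hM hFL
    let e := MeasurableEquiv.piFinSuccAbove (fun _ : Fin (n + 1) => ℝ) 0
    have hmp := measurePreserving_piFinSuccAbove (fun i : Fin (n + 1) => ν i) 0
    let ν' : Fin n → Measure ℝ := fun j => ν (Fin.succAbove 0 j)
    let π' := Measure.pi ν'
    have hconv : ∀ g : (Fin (n + 1) → ℝ) → ℝ,
        ∫ z, g z ∂(Measure.pi ν) = ∫ p, g (e.symm p) ∂((ν 0).prod π') := by
      intro g
      have h1 := hmp.integral_comp' (fun p => g (e.symm p))
      have h2 : ∀ z, g (e.symm (MeasurableEquiv.piFinSuccAbove (fun _ : Fin (n + 1) => ℝ) 0 z)) = g z := by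
        intro z
        exact congrArg g (e.symm_apply_apply z)
      simp only [h2] at h1
      exact h1
    have he : ∀ (x : ℝ) (z : Fin n → ℝ), e.symm (x, z) = Fin.cons x z := by
      intro x z
      rw [MeasurableEquiv.symm_apply_eq]
      rfl
    let G : (Fin n → ℝ) → ℝ := fun z => ∫ x, F (e.symm (x, z)) ∂(ν 0)
    have hFe : Measurable (fun p : ℝ × (Fin n → ℝ) => F (e.symm p)) := hF.comp e.symm.measurable
    have hG : Measurable G := by
      have : StronglyMeasurable (fun z : Fin n → ℝ => ∫ x, F (e.symm (x, z)) ∂(ν 0)) :=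
        (hFe.comp measurable_swap).stronglyMeasurable.integral_prod_right'
      exact this.measurable
    have hGM : ∀ z, |G z| ≤ M := by
      intro z
      have := norm_integral_le_of_norm_le_const (μ := ν 0) (f := fun x => F (e.symm (x, z))) (C := M)
        (ae_of_all _ fun x => by simpa using hM _)
      simpa using this
    have hFxi : ∀ z : Fin n → ℝ, Integrable (fun x => F (e.symm (x, z))) (ν 0) := fun z =>
      bounded_integrable _ (hFe.comp (by fun_prop : Measurable fun x : ℝ => (x, z))) M fun x => hM _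
    have hGL : ∀ (z : Fin n → ℝ) (i : Fin n) (a : ℝ),
        |G (Function.update z i a) - G z| ≤ L * |a - z i| := by
      intro z i a
      have h1 : G (Function.update z i a) - G z =
          ∫ x, (F (e.symm (x, Function.update z i a)) - F (e.symm (x, z))) ∂(ν 0) :=
        (integral_sub (hFxi _) (hFxi _)).symm
      rw [h1]
      have := norm_integral_le_of_norm_le_const (μ := ν 0)
        (f := fun x => F (e.symm (x, Function.update z i a)) - F (e.symm (x, z)))
        (C := L * |a - z i|) (ae_of_all _ fun x => by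
          rw [Real.norm_eq_abs, he, he, Fin.cons_update]
          have := hFL (Fin.cons x z) i.succ a
          simpa using this)
      simpa using this
    have hEG : ∫ y, F y ∂(Measure.pi ν) = ∫ z, G z ∂π' := by
      rw [hconv F, integral_prod_symm]
      exact bounded_integrable _ hFe M fun p => hM _
    have hc : |∫ z, G z ∂π'| ≤ M := by
      have := norm_integral_le_of_norm_le_const (μ := π') (f := G) (C := M)
        (ae_of_all _ fun z => by simpa using hGM _)
      simpa using this
    rw [hEG]
    set c := ∫ z, G z ∂π' with hcdef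
    have hexpM : ∀ u : ℝ, |u| ≤ 2 * M → |Real.exp (lam * u)| ≤ Real.exp (|lam| * (2 * M)) := by
      intro u hu
      rw [abs_of_pos (Real.exp_pos _)]
      apply Real.exp_le_exp.2
      refine (le_abs_self _).trans ?_
      rw [abs_mul]
      exact mul_le_mul_of_nonneg_left hu (abs_nonneg _)
    have hint : Integrable (fun p : ℝ × (Fin n → ℝ) => Real.exp (lam * (F (e.symm p) - c)))
        ((ν 0).prod π') := by
      apply bounded_integrable _ (by fun_prop) (Real.exp (|lam| * (2 * M)))
      intro p
      apply hexpM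
      have := abs_sub (F (e.symm p)) c
      have := hM (e.symm p)
      linarith
    rw [hconv (fun z => Real.exp (lam * (F z - c))), integral_prod_symm _ hint]
    have hinner : ∀ z : Fin n → ℝ, ∫ x, Real.exp (lam * (F (e.symm (x, z)) - c)) ∂(ν 0) ≤
        Real.exp (4 * lam ^ 2 * L ^ 2 * σ2) * Real.exp (lam * (G z - c)) := by
      intro z
      have h1 := one_var (ν 0) b σ2 L lam M (hb 0) (hσ 0) hL (fun x => F (e.symm (x, z)))
        (hFe.comp (by fun_prop : Measurable fun x : ℝ => (x, z))) (fun x => hM _) (by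
          intro x y
          rw [he, he]
          have := hFL (Fin.cons y z) 0 x
          rw [Fin.update_cons_zero] at this
          simpa using this) hlam
      have h2 : ∀ x, Real.exp (lam * (F (e.symm (x, z)) - c)) =
          Real.exp (lam * (F (e.symm (x, z)) - G z)) * Real.exp (lam * (G z - c)) := by
        intro x
        rw [← Real.exp_add]
        congr 1; ring
      simp_rw [h2]
      rw [integral_mul_const]
      exact mul_le_mul_of_nonneg_right h1 (Real.exp_pos _).le
    have hih := ih ν' (fun i => hb _) (fun i => hσ _) G hG hGM hGL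
    calc ∫ z, ∫ x, Real.exp (lam * (F (e.symm (x, z)) - c)) ∂(ν 0) ∂π'
        ≤ ∫ z, Real.exp (4 * lam ^ 2 * L ^ 2 * σ2) * Real.exp (lam * (G z - c)) ∂π' := by
          apply integral_mono_of_nonneg
          · exact ae_of_all _ fun z => integral_nonneg fun x => (Real.exp_pos _).le
          · apply Integrable.const_mul
            apply bounded_integrable _ (by fun_prop) (Real.exp (|lam| * (2 * M)))
            intro z
            apply hexpM
            have := abs_sub (G z) c
            have := hGM z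
            linarith
          · exact ae_of_all _ hinner
      _ = Real.exp (4 * lam ^ 2 * L ^ 2 * σ2) * ∫ z, Real.exp (lam * (G z - c)) ∂π' := by
          rw [integral_const_mul]
      _ ≤ Real.exp (4 * lam ^ 2 * L ^ 2 * σ2) * Real.exp (4 * lam ^ 2 * L ^ 2 * σ2 * n) :=
          mul_le_mul_of_nonneg_left hih (Real.exp_pos _).le
      _ = Real.exp (4 * lam ^ 2 * L ^ 2 * σ2 * (n + 1 : ℕ)) := by
          rw [← Real.exp_add]
          congr 1
          push_cast; ring

theorem lip_total {ι : Type} [Fintype ι] [DecidableEq ι] (L : ℝ) (F : (ι → ℝ) → ℝ)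
    (hFL : ∀ (z : ι → ℝ) (i : ι) (a : ℝ), |F (Function.update z i a) - F z| ≤ L * |a - z i|)
    (z w : ι → ℝ) : |F z - F w| ≤ L * ∑ i, |z i - w i| := by
  have key : ∀ s : Finset ι, |F (s.piecewise z w) - F w| ≤ L * ∑ i ∈ s, |z i - w i| := by
    intro s
    induction s using Finset.induction_on with
    | empty => simp
    | insert i s hi ih =>
      rw [Finset.piecewise_insert, Finset.sum_insert hi, mul_add]
      have h1 := hFL (s.piecewise z w) i (z i)
      rw [Finset.piecewise_eq_of_notMem _ _ _ hi] at h1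
      have h2 := abs_sub_le (F (Function.update (s.piecewise z w) i (z i))) (F (s.piecewise z w)) (F w)
      linarith
  have := key Finset.univ
  simpa using this

end BernsteinAux

open BernsteinAux in
/-- TAIL-1, Bernstein inequality for Lipschitz functions of independent bounded variables:
peel one variable at a time, `E exp(λ(F - E_i F)) ≤ 1 + λ² E(F - E_i F)² ≤ exp(4 λ² L² σ²)`. -/
theorem bernstein_lip {ι : Type} [Fintype ι] [DecidableEq ι] {Ω : Type} {mΩ : MeasurableSpace Ω} (μ : Measure Ω)
    [IsProbabilityMeasure μ] (ζ : ι → Ω → ℝ) (hζm : ∀ i, Measurable (ζ i))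
    (hind : iIndepFun ζ μ) (b σ2 L lam : ℝ) (hb : ∀ i ω, |ζ i ω| ≤ b)
    (hσ : ∀ i, ∫ ω, ζ i ω ^ 2 ∂μ ≤ σ2) (hL : 0 ≤ L) (F : (ι → ℝ) → ℝ) (hF : Measurable F)
    (hFL : ∀ (z : ι → ℝ) (i : ι) (a : ℝ), |F (Function.update z i a) - F z| ≤ L * |a - z i|)
    (hlam : 2 * |lam| * L * b ≤ 1) :
    ∫ ω, Real.exp (lam * (F (fun i => ζ i ω) - ∫ ω', F (fun i => ζ i ω') ∂μ)) ∂μ ≤
      Real.exp (4 * lam ^ 2 * L ^ 2 * σ2 * Fintype.card ι) := by
  let n := Fintype.card ι
  let e : ι ≃ Fin n := Fintype.equivFin ι
  let ζ' : Fin n → Ω → ℝ := fun k => ζ (e.symm k)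
  have hζ'm : ∀ k, Measurable (ζ' k) := fun k => hζm _
  have hind' : iIndepFun ζ' μ := hind.precomp e.symm.injective
  let cl : ℝ → ℝ := fun x => max (-b) (min x b)
  have hcl : ∀ k ω, cl (ζ' k ω) = ζ' k ω := by
    intro k ω
    have := hb (e.symm k) ω
    rw [abs_le] at this
    simp only [cl]
    rw [min_eq_left this.2, max_eq_right this.1]
  have hclm : Measurable cl := by fun_prop
  have hclL : ∀ x y, |cl x - cl y| ≤ |x - y| := by
    intro x y
    simp only [cl]
    refine (abs_max_sub_max_le_max (-b) (min x b) (-b) (min y b)).trans ?_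
    rw [sub_self, abs_zero]
    apply max_le (abs_nonneg _)
    refine (abs_min_sub_min_le_max x b y b).trans ?_
    rw [sub_self, abs_zero]
    exact max_le le_rfl (abs_nonneg _)
  let F' : (Fin n → ℝ) → ℝ := fun z => F (fun i => cl (z (e i)))
  have hF' : Measurable F' := hF.comp (by fun_prop)
  have hFF' : ∀ ω, F' (fun k => ζ' k ω) = F (fun i => ζ i ω) := by
    intro ω
    simp only [F', hcl]
    simp [ζ']
  have hFL' : ∀ (z : Fin n → ℝ) (k : Fin n) (a : ℝ),
      |F' (Function.update z k a) - F' z| ≤ L * |a - z k| := by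
    intro z k a
    have h1 : (fun i => cl (Function.update z k a (e i))) =
        Function.update (fun i => cl (z (e i))) (e.symm k) (cl a) := by
      funext i
      by_cases h : i = e.symm k
      · subst h; simp
      · have h' : e i ≠ k := fun h'' => h (by rw [← h'']; simp)
        simp [Function.update_of_ne h, Function.update_of_ne h']
    simp only [F']
    rw [h1]
    refine (hFL _ _ _).trans ?_
    apply mul_le_mul_of_nonneg_left _ hL
    simpa using hclL a (z k)
  rcases isEmpty_or_nonempty ι with hemp | hne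
  · have : ∀ z : ι → ℝ, F z = F 0 := fun z => by rw [Subsingleton.elim z 0]
    simp [this]
  · obtain ⟨i₀⟩ := hne
    have hb0 : 0 ≤ b := by
      obtain ⟨ω⟩ : Nonempty Ω := μ.nonempty_of_neZero
      exact (abs_nonneg _).trans (hb i₀ ω)
    have hclb : ∀ x, |cl x| ≤ b := by
      intro x
      rw [abs_le]
      constructor
      · exact le_max_left _ _
      · exact max_le (by linarith) (min_le_right _ _)
    have hbdd : ∀ z, |F' z| ≤ |F 0| + L * (n * b) := by
      intro z
      have h1 := lip_total L F hFL (fun i => cl (z (e i))) 0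
      have h2 : ∑ i : ι, |cl (z (e i)) - (0 : ι → ℝ) i| ≤ n * b := by
        calc ∑ i : ι, |cl (z (e i)) - (0 : ι → ℝ) i| ≤ ∑ i : ι, b := by
              apply Finset.sum_le_sum
              intro i _
              simpa using hclb _
          _ = n * b := by simp [n]
      have h3 := mul_le_mul_of_nonneg_left h2 hL
      have h4 : |F' z| ≤ |F' z - F 0| + |F 0| := by
        have := abs_add_le (F' z - F 0) (F 0)
        simpa using this
      have h5 : |F' z - F 0| ≤ L * ∑ i : ι, |cl (z (e i)) - (0 : ι → ℝ) i| := h1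
      linarith
    let ν : Fin n → Measure ℝ := fun k => μ.map (ζ' k)
    have hprob : ∀ k, IsProbabilityMeasure (ν k) := fun k =>
      Measure.isProbabilityMeasure_map (hζ'm k).aemeasurable
    have hmap : μ.map (fun ω k => ζ' k ω) = Measure.pi ν :=
      (iIndepFun_iff_map_fun_eq_pi_map fun k => (hζ'm k).aemeasurable).1 hind'
    have hmeas : Measurable (fun ω k => ζ' k ω) := measurable_pi_lambda _ hζ'm
    have hmain := fin_case b σ2 L lam (|F 0| + L * (n * b)) hL hlam n ν (fun k => by
        rw [ae_map_iff (hζ'm k).aemeasurable (measurableSet_le (by fun_prop) (by fun_prop))]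
        exact ae_of_all _ fun ω => hb _ ω) (fun k => by
        have := integral_map (hζ'm k).aemeasurable (f := fun x : ℝ => x ^ 2)
          (by fun_prop : AEStronglyMeasurable (fun x : ℝ => x ^ 2) (μ.map (ζ' k)))
        show ∫ x, x ^ 2 ∂(μ.map (ζ' k)) ≤ σ2
        rw [this]
        exact hσ _) F' hF' hbdd hFL'
    rw [← hmap] at hmain
    rw [integral_map hmeas.aemeasurable (by fun_prop)] at hmain
    rw [integral_map hmeas.aemeasurable hF'.aestronglyMeasurable] at hmain
    simp only [hFF'] at hmain
    exact hmain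

end Crest.Agent.R160
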