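import Crest.Agent.R160.InnovA

/-! Row 160, piece BESSEL.

`R t = E (E[m_v(t) | W_t])²`. PROOF. `E[m_v(t)|W_t] = E[τ_v|W_t]` as `Wt t ≤ Ft t`. Let
`â_u = E[A_vu(t) | W_t]`, `Ψ = ∑_{u ∈ F} â_u ΔW_u`, `ΔW_u = W_u(t+h) - W_u(t)`. Then
(1) `E[Ψ Z] = 0` for `Z ∈ Ft t`, (2) `E Ψ² ≤ h ∑ E â_u² + O(h^{3/2})`
(`ΔW_u = ΔB_u + O(h)`, `indep_future`), (3) `E[τ_v Ψ] ≥ h ∑ E â_u² - |F| h (q(t+h) - q(t))`, because
`E[τ_v â_u ΔW_u] = h E[τ_v τ_u â_u] - E[m_v(t+h) â_u ∫ m_u]` and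
`E[m_v(t+h) â_u ∫ m_u] = h E[m_v(t) m_u(t) â_u] + E[(m_v(t+h) - m_v(t)) â_u (∫ m_u - h m_u(t))]`,
`condExp_cov`, `Iint_test`, `Iint_L2`. (4) `R(t+h) - R(t) = ‖E[τ_v|W_{t+h}] - E[τ_v|W_t]‖² ≥
2 E[τ_v Ψ] - E Ψ²` since `Ψ ∈ W_{t+h}`. Finally `q(t+h) - q(t) ≤ C h` (`m_cont`, `q_sub`). -/

set_option autoImplicit false
set_option linter.unusedSectionVars false
open Finset Filter MeasureTheory ProbabilityTheory
open scoped Topology NNReal ENNReal

namespace Crest.Agent.R160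

namespace Besselaux

variable {V : Type} [DecidableEq V] [Countable V] (S : Setup V)

theorem bint {f : Om V → ℝ} {B : ℝ} (hf : Measurable f) (hb : ∀ ω, |f ω| ≤ B) :
    Integrable f S.P :=
  Integrable.of_bound hf.aestronglyMeasurable _ (Eventually.of_forall hb)

theorem test {𝓖 : MeasurableSpace (Om V)} (h𝓖 : 𝓖 ≤ mOm V) {f Z : Om V → ℝ}
    (hf : Integrable f S.P) (hZ : Measurable[𝓖] Z) {C : ℝ} (hZb : ∀ ω, |Z ω| ≤ C) :
    ∫ ω, f ω * Z ω ∂S.P = ∫ ω, (S.P[f | 𝓖]) ω * Z ω ∂S.P := by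
  have hZ0 : Measurable[mOm V] Z := hZ.mono h𝓖 le_rfl
  have hfZ : Integrable (f * Z) S.P :=
    hf.mul_bdd hZ0.aestronglyMeasurable (Eventually.of_forall hZb)
  have h := condExp_mul_of_stronglyMeasurable_right (m := 𝓖) (μ := S.P) hZ.stronglyMeasurable hfZ hf
  calc _ = ∫ ω, (S.P[f * Z | 𝓖]) ω ∂S.P := (integral_condExp h𝓖).symm
    _ = _ := integral_congr_ae h

theorem Ft_le (t : ℝ≥0) : S.Ft t ≤ mOm V := S.FF_le _ _

theorem m_meas (t : ℝ≥0) (v : V) : Measurable[S.Ft t] (S.m t v) :=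
  (S.measurable_mag v).comp (S.measurable_XT_FF fun _ => t)

theorem A_meas (t : ℝ≥0) (v u : V) : Measurable[S.Ft t] (S.A t v u) :=
  (S.measurable_cv v u).comp (S.measurable_XT_FF fun _ => t)

theorem m_abs (t : ℝ≥0) (v : V) (ω : Om V) : |S.m t v ω| ≤ 1 := (S.abs_mag_lt v _).le

theorem spin_abs (v : V) (ω : Om V) : |S.spin v ω| ≤ 1 := by
  rcases S.spin_val v ω with h | h <;> simp [h]

theorem A_abs (t : ℝ≥0) (v u : V) (ω : Om V) : |S.A t v u ω| ≤ 1 := by
  have h := S.cv_mem v u (S.Xt t ω)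
  have h1 : S.θ ^ S.G.dist v u ≤ 1 := pow_le_one₀ S.θpos.le S.theta_lt_one.le
  unfold Setup.A
  rw [abs_le]; constructor <;> linarith [h.1, h.2]

theorem ce_m (t : ℝ≥0) (v : V) : S.P[S.spin v | S.Ft t] =ᵐ[S.P] S.m t v :=
  S.condExp_mag (fun _ => t) v

theorem ce_cov (t : ℝ≥0) (v u : V) : S.P[S.spin v * S.spin u | S.Ft t] =ᵐ[S.P]
    fun ω => S.m t v ω * S.m t u ω + S.A t v u ω :=
  S.condExp_cov (fun _ => t) v u

theorem T1 (t : ℝ≥0) (v : V) {Z : Om V → ℝ} (hZ : Measurable[S.Ft t] Z) {C : ℝ}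
    (hZb : ∀ ω, |Z ω| ≤ C) :
    ∫ ω, S.spin v ω * Z ω ∂S.P = ∫ ω, S.m t v ω * Z ω ∂S.P := by
  rw [test S (Ft_le S t) (bint S (S.measurable_spin v) (spin_abs S v)) hZ hZb]
  refine integral_congr_ae ?_
  filter_upwards [ce_m S t v] with ω hω
  rw [hω]

theorem T2 (t : ℝ≥0) (v u : V) {Z : Om V → ℝ} (hZ : Measurable[S.Ft t] Z) {C : ℝ}
    (hZb : ∀ ω, |Z ω| ≤ C) :
    ∫ ω, S.spin v ω * S.spin u ω * Z ω ∂S.P =
      ∫ ω, (S.m t v ω * S.m t u ω + S.A t v u ω) * Z ω ∂S.P := by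
  have h := test S (Ft_le S t) (f := S.spin v * S.spin u)
    (bint S ((S.measurable_spin v).mul (S.measurable_spin u)) (B := 1) (fun ω => by
      rw [Pi.mul_apply, abs_mul]
      exact mul_le_one₀ (spin_abs S v ω) (abs_nonneg _) (spin_abs S u ω))) hZ hZb
  simp only [Pi.mul_apply] at h
  rw [h]
  refine integral_congr_ae ?_
  filter_upwards [ce_cov S t v u] with ω hω
  rw [hω]

/-- increments of the Brownian motions -/
noncomputable def dB (t h : ℝ≥0) (u : V) (ω : Om V) : ℝ := S.B (t + h) u ω - S.B t u ω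

theorem measurable_dB (t h : ℝ≥0) (u : V) : Measurable (dB S t h u) :=
  (S.measurable_B _ _).sub (S.measurable_B _ _)

theorem law_dB (t h : ℝ≥0) (u : V) : S.P.map (dB S t h u) = gaussianReal 0 h := by
  have := S.law_B_inc (le_self_add : t ≤ t + h) u
  rwa [add_tsub_cancel_left] at this

theorem memLp_dB (t h : ℝ≥0) (u : V) : MemLp (dB S t h u) 2 S.P := by
  have h1 : MemLp id 2 (S.P.map (dB S t h u)) := by
    rw [law_dB]; exact memLp_id_gaussianReal 2
  exact (memLp_map_measure_iff aestronglyMeasurable_id (measurable_dB S t h u).aemeasurable).1 h1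

theorem integral_dB (t h : ℝ≥0) (u : V) : ∫ ω, dB S t h u ω ∂S.P = 0 := by
  have h1 : ∫ x, x ∂(S.P.map (dB S t h u)) = ∫ ω, dB S t h u ω ∂S.P :=
    integral_map (measurable_dB S t h u).aemeasurable aestronglyMeasurable_id
  rw [← h1, law_dB, integral_id_gaussianReal]

theorem integral_dB_sq (t h : ℝ≥0) (u : V) : ∫ ω, dB S t h u ω * dB S t h u ω ∂S.P = h := by
  have h1 : ∫ x, x * x ∂(S.P.map (dB S t h u)) = ∫ ω, dB S t h u ω * dB S t h u ω ∂S.P :=
    integral_map (measurable_dB S t h u).aemeasurable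
      (measurable_id.mul measurable_id).aestronglyMeasurable
  rw [← h1, law_dB]
  have h2 := variance_id_gaussianReal (μ := 0) (v := h)
  rw [variance_eq_sub (memLp_id_gaussianReal 2)] at h2
  simp only [Pi.pow_apply, id_eq, integral_id_gaussianReal] at h2
  simpa [sq] using h2

theorem integral_dB_mul (t h : ℝ≥0) {u w : V} (huw : u ≠ w) :
    ∫ ω, dB S t h u ω * dB S t h w ω ∂S.P = 0 := by
  have h1 := (S.iIndep_B_inc (le_self_add : t ≤ t + h)).indepFun huw
  have h2 := h1.integral_mul_eq_mul_integral (measurable_dB S t h u).aestronglyMeasurable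
    (measurable_dB S t h w).aestronglyMeasurable
  have h3 := integral_dB S t h u
  simp only [dB, Pi.mul_def] at *
  rw [h2, h3, zero_mul]

/-- past and spins -/
@[reducible] noncomputable def Pa (t : ℝ≥0) : MeasurableSpace (Om V) :=
  S.Ft t ⊔ ⨆ v, MeasurableSpace.comap (S.spin v) inferInstance

@[reducible] noncomputable def Fu (t h : ℝ≥0) : MeasurableSpace (Om V) :=
  ⨆ v : V, MeasurableSpace.comap (dB S t h v) inferInstance

theorem Pa_le (t : ℝ≥0) : Pa S t ≤ mOm V :=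
  sup_le (Ft_le S t) (iSup_le fun v => (S.measurable_spin v).comap_le)

theorem Fu_le (t h : ℝ≥0) : Fu S t h ≤ mOm V := iSup_le fun v => (measurable_dB S t h v).comap_le

theorem spin_Pa (t : ℝ≥0) (v : V) : Measurable[Pa S t] (S.spin v) := by
  apply Measurable.of_comap_le
  exact (le_iSup (fun v => MeasurableSpace.comap (S.spin v) inferInstance) v).trans le_sup_right

theorem dB_Fu (t h : ℝ≥0) (v : V) : Measurable[Fu S t h] (dB S t h v) := by
  apply Measurable.of_comap_le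
  exact le_iSup (fun v => MeasurableSpace.comap (dB S t h v) inferInstance) v

theorem indep_mul (t h : ℝ≥0) {Y Z : Om V → ℝ} (hY : Measurable[Pa S t] Y)
    (hZ : Measurable[Fu S t h] Z) :
    ∫ ω, Y ω * Z ω ∂S.P = (∫ ω, Y ω ∂S.P) * ∫ ω, Z ω ∂S.P := by
  have h0 : Indep (Pa S t) (Fu S t h) S.P :=
    S.indep_future (fun _ => t) (fun _ => t + h) (fun _ => le_self_add)
  have h1 : IndepFun Y Z S.P := by
    rw [IndepFun_iff_Indep]
    exact indep_of_indep_of_le_left (indep_of_indep_of_le_right h0 hZ.comap_le) hY.comap_le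
  exact h1.integral_mul_eq_mul_integral (hY.mono (Pa_le S t) le_rfl).aestronglyMeasurable
    (hZ.mono (Fu_le S t h) le_rfl).aestronglyMeasurable

/-- increments of the integral -/
noncomputable def dI (t h : ℝ≥0) (u : V) (ω : Om V) : ℝ := S.Iint (t + h) u ω - S.Iint t u ω

/-- increments of the innovation -/
noncomputable def dW (t h : ℝ≥0) (u : V) (ω : Om V) : ℝ := S.W (t + h) u ω - S.W t u ω

theorem dW_eq (t h : ℝ≥0) (u : V) (ω : Om V) :
    dW S t h u ω = h * S.spin u ω + dB S t h u ω - dI S t h u ω := by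
  simp only [dW, Setup.W, Setup.XX, dB, dI, NNReal.coe_add]; ring

theorem dI_abs (t h : ℝ≥0) (u : V) (ω : Om V) : |dI S t h u ω| ≤ 2 * t + h := by
  have h1 := abs_le.1 (S.Iint_abs_le (t + h) u ω)
  have h2 := abs_le.1 (S.Iint_abs_le t u ω)
  rw [NNReal.coe_add] at h1
  unfold dI
  rw [abs_le]
  constructor <;> linarith [h1.1, h1.2, h2.1, h2.2]

theorem dI_abs_ae (t h : ℝ≥0) (u : V) : ∀ᵐ ω ∂S.P, |dI S t h u ω| ≤ h := by
  filter_upwards [S.Iint_sub_abs_le (le_self_add : t ≤ t + h) u] with ω hω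
  rw [NNReal.coe_add, add_sub_cancel_left] at hω
  exact hω

theorem dI_meas (t h : ℝ≥0) (u : V) : Measurable[S.Ft (t + h)] (dI S t h u) :=
  Measurable.sub (S.measurable_Iint_Ft (t + h) u)
    ((S.measurable_Iint_Ft t u).mono (S.Ft_mono le_self_add) le_rfl)

theorem dI_meas0 (t h : ℝ≥0) (u : V) : Measurable (dI S t h u) :=
  (dI_meas S t h u).mono (Ft_le S _) le_rfl

theorem m_meas0 (t : ℝ≥0) (u : V) : Measurable (S.m t u) := (m_meas S t u).mono (Ft_le S _) le_rfl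

theorem dI_test (t h : ℝ≥0) (u : V) {Z : Om V → ℝ} (hZ : Measurable[S.Ft t] Z) {C : ℝ}
    (hZb : ∀ ω, |Z ω| ≤ C) :
    ∫ ω, dI S t h u ω * Z ω ∂S.P = h * ∫ ω, S.m t u ω * Z ω ∂S.P := by
  have := S.Iint_test (le_self_add : t ≤ t + h) u Z hZ ⟨C, hZb⟩
  rw [NNReal.coe_add, add_sub_cancel_left] at this
  exact this

theorem int_dB (t h : ℝ≥0) (u : V) : Integrable (dB S t h u) S.P :=
  (memLp_dB S t h u).integrable one_le_two

theorem le_of_abs_mul {a b A B : ℝ} (ha : |a| ≤ A) (hb : |b| ≤ B) : |a * b| ≤ A * B := by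
  rw [abs_mul]
  exact mul_le_mul ha hb (abs_nonneg _) ((abs_nonneg _).trans ha)

theorem W_test (t h : ℝ≥0) (u : V) {Z : Om V → ℝ} (hZ : Measurable[S.Ft t] Z) {C : ℝ}
    (hZb : ∀ ω, |Z ω| ≤ C) :
    ∫ ω, dW S t h u ω * Z ω ∂S.P = 0 := by
  have hZ0 : Measurable Z := hZ.mono (Ft_le S t) le_rfl
  have i1 : Integrable (fun ω => S.spin u ω * Z ω) S.P :=
    bint S ((S.measurable_spin u).mul hZ0) fun ω => le_of_abs_mul (spin_abs S u ω) (hZb ω)
  have i2 : Integrable (fun ω => dB S t h u ω * Z ω) S.P :=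
    (int_dB S t h u).mul_bdd hZ0.aestronglyMeasurable (Eventually.of_forall hZb)
  have i3 : Integrable (fun ω => dI S t h u ω * Z ω) S.P :=
    bint S ((dI_meas0 S t h u).mul hZ0) fun ω => le_of_abs_mul (dI_abs S t h u ω) (hZb ω)
  have e2 : ∫ ω, dB S t h u ω * Z ω ∂S.P = 0 := by
    have := indep_mul S t h (Y := Z) (Z := dB S t h u) (hZ.mono le_sup_left le_rfl)
      (dB_Fu S t h u)
    rw [integral_dB, mul_zero] at this
    simpa [mul_comm] using this
  have e1 := T1 S t u hZ hZb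
  have e3 := dI_test S t h u hZ hZb
  calc ∫ ω, dW S t h u ω * Z ω ∂S.P =
      ∫ ω, (h * (S.spin u ω * Z ω) + dB S t h u ω * Z ω - dI S t h u ω * Z ω) ∂S.P := by
        congr 1; funext ω; rw [dW_eq]; ring
    _ = h * ∫ ω, S.spin u ω * Z ω ∂S.P + ∫ ω, dB S t h u ω * Z ω ∂S.P -
        ∫ ω, dI S t h u ω * Z ω ∂S.P := by
        have i12 : Integrable (fun ω => h * (S.spin u ω * Z ω) + dB S t h u ω * Z ω) S.P :=
          (i1.const_mul _).add i2
        rw [integral_sub i12 i3, integral_add (i1.const_mul _) i2, integral_const_mul]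
    _ = 0 := by rw [e1, e2, e3]; ring

/-- (3) -/
theorem three (t h : ℝ≥0) (hh : 0 < h) (v u : V) {a : Om V → ℝ} (ha : Measurable[S.Ft t] a)
    (hab : ∀ ω, |a ω| ≤ 1) :
    h * ∫ ω, S.A t v u ω * a ω ∂S.P - h * (S.q (t + h) - S.q t) ≤
      ∫ ω, S.spin v ω * (a ω * dW S t h u ω) ∂S.P := by
  have hh' : (0 : ℝ) < h := hh
  have ha0 : Measurable a := ha.mono (Ft_le S t) le_rfl
  have msv := S.measurable_spin v
  have msu := S.measurable_spin u
  have mI := dI_meas0 S t h u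
  have b1 : ∀ ω, |S.spin v ω * S.spin u ω * a ω| ≤ 1 * 1 * 1 := fun ω =>
    le_of_abs_mul (le_of_abs_mul (spin_abs S v ω) (spin_abs S u ω)) (hab ω)
  have b2 : ∀ ω, |S.spin v ω * a ω| ≤ 1 * 1 := fun ω => le_of_abs_mul (spin_abs S v ω) (hab ω)
  have b3 : ∀ ω, |a ω * dI S t h u ω| ≤ 1 * (2 * t + h) := fun ω =>
    le_of_abs_mul (hab ω) (dI_abs S t h u ω)
  have b4 : ∀ ω, |S.m t v ω * a ω| ≤ 1 * 1 := fun ω => le_of_abs_mul (m_abs S t v ω) (hab ω)
  have b5 : ∀ ω, |S.m t u ω * a ω| ≤ 1 * 1 := fun ω => le_of_abs_mul (m_abs S t u ω) (hab ω)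
  have i1 : Integrable (fun ω => S.spin v ω * S.spin u ω * a ω) S.P :=
    bint S ((msv.mul msu).mul ha0) b1
  have i2 : Integrable (fun ω => (S.spin v ω * a ω) * dB S t h u ω) S.P :=
    (int_dB S t h u).bdd_mul (msv.mul ha0).aestronglyMeasurable (Eventually.of_forall b2)
  have i3 : Integrable (fun ω => S.spin v ω * (a ω * dI S t h u ω)) S.P :=
    bint S (msv.mul (ha0.mul mI)) fun ω => le_of_abs_mul (spin_abs S v ω) (b3 ω)
  have e0 : ∫ ω, S.spin v ω * (a ω * dW S t h u ω) ∂S.P =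
      h * ∫ ω, S.spin v ω * S.spin u ω * a ω ∂S.P + ∫ ω, (S.spin v ω * a ω) * dB S t h u ω ∂S.P -
        ∫ ω, S.spin v ω * (a ω * dI S t h u ω) ∂S.P := by
    have i12 : Integrable (fun ω => h * (S.spin v ω * S.spin u ω * a ω) +
        (S.spin v ω * a ω) * dB S t h u ω) S.P := (i1.const_mul _).add i2
    rw [← integral_const_mul, ← integral_add (i1.const_mul _) i2, ← integral_sub i12 i3]
    congr 1; funext ω
    rw [dW_eq]; ring
  have e1 := T2 S t v u ha hab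
  have e2 : ∫ ω, (S.spin v ω * a ω) * dB S t h u ω ∂S.P = 0 := by
    have := indep_mul S t h (Y := fun ω => S.spin v ω * a ω) (Z := dB S t h u)
      (Measurable.mul (spin_Pa S t v) (ha.mono le_sup_left le_rfl)) (dB_Fu S t h u)
    rw [this, integral_dB, mul_zero]
  have haIm : Measurable[S.Ft (t + h)] fun ω => a ω * dI S t h u ω :=
    Measurable.mul (ha.mono (S.Ft_mono le_self_add) le_rfl) (dI_meas S t h u)
  have e3 : ∫ ω, S.spin v ω * (a ω * dI S t h u ω) ∂S.P =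
      ∫ ω, S.m (t + h) v ω * (a ω * dI S t h u ω) ∂S.P := T1 S (t + h) v haIm b3
  have mm := m_meas0 S t v
  have mm' := m_meas0 S (t + h) v
  have mu := m_meas0 S t u
  have i4 : Integrable (fun ω => dI S t h u ω * (S.m t v ω * a ω)) S.P :=
    bint S (mI.mul (mm.mul ha0)) fun ω => le_of_abs_mul (dI_abs S t h u ω) (b4 ω)
  have hdm : ∀ ω, |S.m (t + h) v ω - S.m t v ω| ≤ 2 := fun ω => by
    have h1 := abs_le.1 (m_abs S (t + h) v ω)
    have h2 := abs_le.1 (m_abs S t v ω)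
    rw [abs_le]; constructor <;> linarith [h1.1, h1.2, h2.1, h2.2]
  have hE : ∀ ω, |dI S t h u ω - h * S.m t u ω| ≤ 2 * t + h + h := fun ω => by
    have h1 := abs_le.1 (dI_abs S t h u ω)
    have h2 : |(h : ℝ) * S.m t u ω| ≤ h * 1 := by
      rw [abs_mul, abs_of_pos hh']
      exact mul_le_mul_of_nonneg_left (m_abs S t u ω) hh'.le
    have h3 := abs_le.1 h2
    rw [abs_le]; constructor <;> linarith [h1.1, h1.2, h3.1, h3.2]
  have i5 : Integrable (fun ω => (S.m (t + h) v ω - S.m t v ω) *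
      (a ω * (dI S t h u ω - h * S.m t u ω))) S.P :=
    bint S ((mm'.sub mm).mul (ha0.mul (mI.sub (mu.const_mul _)))) fun ω =>
      le_of_abs_mul (hdm ω) (le_of_abs_mul (hab ω) (hE ω))
  have i6 : Integrable (fun ω => S.m (t + h) v ω * (S.m t u ω * a ω)) S.P :=
    bint S (mm'.mul (mu.mul ha0)) fun ω => le_of_abs_mul (m_abs S _ v ω) (b5 ω)
  have i7 : Integrable (fun ω => S.m t v ω * (S.m t u ω * a ω)) S.P :=
    bint S (mm.mul (mu.mul ha0)) fun ω => le_of_abs_mul (m_abs S _ v ω) (b5 ω)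
  have e4 : ∫ ω, S.m (t + h) v ω * (a ω * dI S t h u ω) ∂S.P =
      ∫ ω, dI S t h u ω * (S.m t v ω * a ω) ∂S.P +
      ∫ ω, (S.m (t + h) v ω - S.m t v ω) * (a ω * (dI S t h u ω - h * S.m t u ω)) ∂S.P +
      h * (∫ ω, S.m (t + h) v ω * (S.m t u ω * a ω) ∂S.P -
        ∫ ω, S.m t v ω * (S.m t u ω * a ω) ∂S.P) := by
    have i45 : Integrable (fun ω => dI S t h u ω * (S.m t v ω * a ω) +
      (S.m (t + h) v ω - S.m t v ω) * (a ω * (dI S t h u ω - h * S.m t u ω))) S.P := i4.add i5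
    have i67 : Integrable (fun ω => (h : ℝ) * (S.m (t + h) v ω * (S.m t u ω * a ω) -
      S.m t v ω * (S.m t u ω * a ω))) S.P := (i6.sub i7).const_mul _
    rw [← integral_sub i6 i7, ← integral_const_mul, ← integral_add i4 i5,
      ← integral_add i45 i67]
    congr 1; funext ω
    ring
  have e5 : ∫ ω, S.m (t + h) v ω * (S.m t u ω * a ω) ∂S.P =
      ∫ ω, S.m t v ω * (S.m t u ω * a ω) ∂S.P :=
    S.m_mart le_self_add v (fun ω => S.m t u ω * a ω) (Measurable.mul (m_meas S t u) ha)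
      ⟨_, b5⟩
  have e6 : ∫ ω, dI S t h u ω * (S.m t v ω * a ω) ∂S.P =
      h * ∫ ω, S.m t u ω * (S.m t v ω * a ω) ∂S.P :=
    dI_test S t h u (Measurable.mul (m_meas S t v) ha) b4
  have i8 : Integrable (fun ω => S.m t u ω * (S.m t v ω * a ω)) S.P :=
    bint S (mu.mul (mm.mul ha0)) fun ω => le_of_abs_mul (m_abs S _ u ω) (b4 ω)
  have i9 : Integrable (fun ω => S.A t v u ω * a ω) S.P :=
    bint S (((A_meas S t v u).mono (Ft_le S t) le_rfl).mul ha0) fun ω =>
      le_of_abs_mul (A_abs S t v u ω) (hab ω)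
  have e7 : ∫ ω, (S.m t v ω * S.m t u ω + S.A t v u ω) * a ω ∂S.P =
      ∫ ω, S.m t u ω * (S.m t v ω * a ω) ∂S.P + ∫ ω, S.A t v u ω * a ω ∂S.P := by
    rw [← integral_add i8 i9]
    congr 1; funext ω; ring
  -- the error term
  have i10 : Integrable (fun ω => (S.m (t + h) v ω - S.m t v ω) ^ 2) S.P :=
    bint S ((mm'.sub mm).pow_const 2) (B := 4) fun ω => by
      rw [abs_pow]; nlinarith [hdm ω, abs_nonneg (S.m (t + h) v ω - S.m t v ω)]
  have i11 : Integrable (fun ω => (dI S t h u ω - h * S.m t u ω) ^ 2) S.P :=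
    bint S ((mI.sub (mu.const_mul _)).pow_const 2) (B := (2 * t + h + h) ^ 2) fun ω => by
      rw [abs_pow]; exact pow_le_pow_left₀ (abs_nonneg _) (hE ω) 2
  have q1 := S.q_sub (le_self_add : t ≤ t + h) v
  have q2 := S.Iint_L2 (le_self_add : t ≤ t + h) u
  rw [NNReal.coe_add, add_sub_cancel_left] at q2
  have e8 : ∫ ω, (S.m (t + h) v ω - S.m t v ω) * (a ω * (dI S t h u ω - h * S.m t u ω)) ∂S.P ≤
      h * (S.q (t + h) - S.q t) := by
    calc _ ≤ ∫ ω, (h / 2 * (S.m (t + h) v ω - S.m t v ω) ^ 2 +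
          1 / (2 * h) * (dI S t h u ω - h * S.m t u ω) ^ 2) ∂S.P := by
          refine integral_mono i5 ((i10.const_mul _).add (i11.const_mul _)) fun ω => ?_
          simp only
          set x := S.m (t + h) v ω - S.m t v ω
          set y := dI S t h u ω - h * S.m t u ω
          have h1 : x * (a ω * y) ≤ |x| * |y| := by
            calc x * (a ω * y) ≤ |x * (a ω * y)| := le_abs_self _
              _ = |a ω| * (|x| * |y|) := by rw [abs_mul, abs_mul]; ring
              _ ≤ 1 * (|x| * |y|) := mul_le_mul_of_nonneg_right (hab ω) (by positivity)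
              _ = _ := one_mul _
          have h2 : 0 ≤ (h * |x| - |y|) ^ 2 / (2 * h) := by positivity
          have h3 : (h * |x| - |y|) ^ 2 / (2 * h) =
              h / 2 * x ^ 2 + 1 / (2 * h) * y ^ 2 - |x| * |y| := by
            rw [← sq_abs x, ← sq_abs y]
            field_simp
            ring
          linarith
      _ = h / 2 * ∫ ω, (S.m (t + h) v ω - S.m t v ω) ^ 2 ∂S.P +
          1 / (2 * h) * ∫ ω, (dI S t h u ω - h * S.m t u ω) ^ 2 ∂S.P := by
          rw [integral_add (i10.const_mul _) (i11.const_mul _), integral_const_mul,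
            integral_const_mul]
      _ ≤ h / 2 * (S.q (t + h) - S.q t) + 1 / (2 * h) * (h ^ 2 * (S.q (t + h) - S.q t)) := by
          rw [q1]
          have : (0:ℝ) ≤ 1 / (2 * h) := by positivity
          have := mul_le_mul_of_nonneg_left q2 this
          unfold dI
          linarith
      _ = _ := by field_simp; ring
  rw [e0, e1, e2, e3, e4, e5, e6, e7]
  linarith

theorem sum_meas (t h : ℝ≥0) (F : Finset V) {a : V → Om V → ℝ}
    (ha : ∀ u, Measurable[S.Ft t] (a u)) (hab : ∀ u ω, |a u ω| ≤ 1) :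
    MemLp (fun ω => ∑ u ∈ F, a u ω * dW S t h u ω) 2 S.P := by
  have ha0 : ∀ u, Measurable (a u) := fun u => (ha u).mono (Ft_le S t) le_rfl
  refine memLp_finsetSum F fun u _ => ?_
  have h1 : MemLp (dW S t h u) 2 S.P := by
    have e : dW S t h u = fun ω => dB S t h u ω + (h * S.spin u ω - dI S t h u ω) := by
      funext ω; rw [dW_eq]; ring
    rw [e]
    refine (memLp_dB S t h u).add ?_
    refine MemLp.of_bound ((((S.measurable_spin u).const_mul _).sub
      (dI_meas0 S t h u)).aestronglyMeasurable) (h + (2 * t + h)) (Eventually.of_forall fun ω => ?_)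
    have h2 : |(h : ℝ) * S.spin u ω| ≤ h * 1 := by
      rw [abs_mul, abs_of_nonneg (NNReal.coe_nonneg h)]
      exact mul_le_mul_of_nonneg_left (spin_abs S u ω) h.2
    have h3 := abs_le.1 h2
    have h4 := abs_le.1 (dI_abs S t h u ω)
    rw [Real.norm_eq_abs, abs_le]; constructor <;> linarith [h3.1, h3.2, h4.1, h4.2]
  refine h1.of_le ((ha0 u).aestronglyMeasurable.mul h1.aestronglyMeasurable)
    (Eventually.of_forall fun ω => ?_)
  rw [norm_mul]
  exact mul_le_of_le_one_left (norm_nonneg _) (hab u ω)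

/-- (2) -/
theorem two (t h : ℝ≥0) (F : Finset V) {a : V → Om V → ℝ}
    (ha : ∀ u, Measurable[S.Ft t] (a u)) (hab : ∀ u ω, |a u ω| ≤ 1) {δ : ℝ} (hδ : 0 < δ) :
    ∫ ω, (∑ u ∈ F, a u ω * dW S t h u ω) ^ 2 ∂S.P ≤
      (1 + δ) * (h * ∑ u ∈ F, ∫ ω, a u ω ^ 2 ∂S.P) + (1 + 1 / δ) * (2 * h * F.card) ^ 2 := by
  have ha0 : ∀ u, Measurable (a u) := fun u => (ha u).mono (Ft_le S t) le_rfl
  have hm1 : ∀ u, MemLp (fun ω => a u ω * dB S t h u ω) 2 S.P := fun u =>
    (memLp_dB S t h u).of_le ((ha0 u).aestronglyMeasurable.mul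
      (measurable_dB S t h u).aestronglyMeasurable) (Eventually.of_forall fun ω => by
        rw [norm_mul]; exact mul_le_of_le_one_left (norm_nonneg _) (hab u ω))
  have hP1 : MemLp (fun ω => ∑ u ∈ F, a u ω * dB S t h u ω) 2 S.P :=
    memLp_finsetSum F fun u _ => hm1 u
  have e1 : ∫ ω, (∑ u ∈ F, a u ω * dB S t h u ω) ^ 2 ∂S.P =
      h * ∑ u ∈ F, ∫ ω, a u ω ^ 2 ∂S.P := by
    have i1 : ∀ u w, Integrable (fun ω => (a u ω * dB S t h u ω) * (a w ω * dB S t h w ω)) S.P :=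
      fun u w => (hm1 u).integrable_mul (hm1 w)
    calc ∫ ω, (∑ u ∈ F, a u ω * dB S t h u ω) ^ 2 ∂S.P =
        ∫ ω, ∑ u ∈ F, ∑ w ∈ F, (a u ω * dB S t h u ω) * (a w ω * dB S t h w ω) ∂S.P := by
          congr 1; funext ω; rw [sq, Finset.sum_mul_sum]
      _ = ∑ u ∈ F, ∑ w ∈ F, ∫ ω, (a u ω * dB S t h u ω) * (a w ω * dB S t h w ω) ∂S.P := by
          rw [integral_finsetSum F fun u _ => integrable_finsetSum F fun w _ => i1 u w]
          refine Finset.sum_congr rfl fun u _ => ?_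
          rw [integral_finsetSum F fun w _ => i1 u w]
      _ = ∑ u ∈ F, ∑ w ∈ F, (∫ ω, a u ω * a w ω ∂S.P) *
            ∫ ω, dB S t h u ω * dB S t h w ω ∂S.P := by
          refine Finset.sum_congr rfl fun u _ => Finset.sum_congr rfl fun w _ => ?_
          rw [← indep_mul S t h (Y := fun ω => a u ω * a w ω)
            (Z := fun ω => dB S t h u ω * dB S t h w ω)
            (Measurable.mul ((ha u).mono le_sup_left le_rfl) ((ha w).mono le_sup_left le_rfl))
            (Measurable.mul (dB_Fu S t h u) (dB_Fu S t h w))]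
          congr 1; funext ω; ring
      _ = ∑ u ∈ F, h * ∫ ω, a u ω ^ 2 ∂S.P := by
          refine Finset.sum_congr rfl fun u hu => ?_
          rw [Finset.sum_eq_single u]
          · rw [integral_dB_sq, mul_comm]
            congr 2; funext ω; ring
          · intro w _ hw
            rw [integral_dB_mul S t h (Ne.symm hw), mul_zero]
          · intro h; exact absurd hu h
      _ = _ := by rw [← Finset.mul_sum]
  have hae : ∀ᵐ ω ∂S.P, ∀ u, |dI S t h u ω| ≤ h := ae_all_iff.2 fun u => dI_abs_ae S t h u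
  calc _ ≤ ∫ ω, ((1 + δ) * (∑ u ∈ F, a u ω * dB S t h u ω) ^ 2 +
        (1 + 1 / δ) * (2 * h * F.card) ^ 2) ∂S.P := by
        refine integral_mono_of_nonneg (Eventually.of_forall fun ω => sq_nonneg _)
          ((hP1.integrable_sq.const_mul _).add (integrable_const _)) ?_
        filter_upwards [hae] with ω hω
        have e2 : ∑ u ∈ F, a u ω * dW S t h u ω = ∑ u ∈ F, a u ω * dB S t h u ω +
            ∑ u ∈ F, a u ω * (h * S.spin u ω - dI S t h u ω) := by
          rw [← Finset.sum_add_distrib]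
          refine Finset.sum_congr rfl fun u _ => ?_
          rw [dW_eq]; ring
        have e3 : |∑ u ∈ F, a u ω * (h * S.spin u ω - dI S t h u ω)| ≤ 2 * h * F.card := by
          refine (Finset.abs_sum_le_sum_abs _ _).trans ?_
          have : ∀ u ∈ F, |a u ω * (h * S.spin u ω - dI S t h u ω)| ≤ 2 * h := fun u _ => by
            have h2 : |(h : ℝ) * S.spin u ω| ≤ h * 1 := by
              rw [abs_mul, abs_of_nonneg (NNReal.coe_nonneg h)]
              exact mul_le_mul_of_nonneg_left (spin_abs S u ω) h.2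
            have h3 := abs_le.1 h2
            have h4 := abs_le.1 (hω u)
            have h5 : |(h : ℝ) * S.spin u ω - dI S t h u ω| ≤ 2 * h := by
              rw [abs_le]; constructor <;> linarith [h3.1, h3.2, h4.1, h4.2]
            have := le_of_abs_mul (hab u ω) h5
            linarith
          refine (Finset.sum_le_sum this).trans (le_of_eq ?_)
          rw [Finset.sum_const, nsmul_eq_mul]; ring
        rw [e2]
        set x := ∑ u ∈ F, a u ω * dB S t h u ω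
        set y := ∑ u ∈ F, a u ω * (h * S.spin u ω - dI S t h u ω)
        have h1 : y ^ 2 ≤ (2 * h * F.card) ^ 2 := sq_le_sq.2 (e3.trans (le_abs_self _))
        have h2 : (1 + 1 / δ) * y ^ 2 ≤ (1 + 1 / δ) * (2 * h * F.card) ^ 2 :=
          mul_le_mul_of_nonneg_left h1 (by positivity)
        have h3 : (1 + δ) * x ^ 2 + (1 + 1 / δ) * y ^ 2 - (x + y) ^ 2 = (δ * x - y) ^ 2 / δ := by
          field_simp; ring
        have h4 : 0 ≤ (δ * x - y) ^ 2 / δ := by positivity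
        show (x + y) ^ 2 ≤ (1 + δ) * x ^ 2 + (1 + 1 / δ) * (2 * h * F.card) ^ 2
        linarith
    _ = _ := by
        rw [integral_add (hP1.integrable_sq.const_mul _) (integrable_const _), integral_const_mul,
          e1, integral_const]
        simp

theorem exists_clip {𝓖 : MeasurableSpace (Om V)} {f : Om V → ℝ} (hf : ∀ ω, |f ω| ≤ 1) :
    ∃ g : Om V → ℝ, Measurable[𝓖] g ∧ (∀ ω, |g ω| ≤ 1) ∧ g =ᵐ[S.P] S.P[f | 𝓖] := by
  have h1 : StronglyMeasurable[𝓖] (S.P[f | 𝓖]) := stronglyMeasurable_condExp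
  refine ⟨fun ω => max (-1) (min 1 (S.P[f | 𝓖] ω)), ?_, fun ω => ?_, ?_⟩
  · exact Measurable.max measurable_const (Measurable.min measurable_const h1.measurable)
  · rw [abs_le]
    exact ⟨le_max_left _ _, max_le (by norm_num) (min_le_left _ _)⟩
  · have h2 : ∀ᵐ ω ∂S.P, |(S.P[f | 𝓖]) ω| ≤ 1 :=
      ae_bdd_abs_condExp_of_ae_bdd_abs (Eventually.of_forall hf)
    filter_upwards [h2] with ω hω
    have := abs_le.1 hω
    rw [min_eq_right this.2, max_eq_right this.1]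

theorem test' {𝓖 : MeasurableSpace (Om V)} (h𝓖 : 𝓖 ≤ mOm V) {f Z : Om V → ℝ}
    (hf : Integrable f S.P) (hZ : Measurable[𝓖] Z) (hfZ : Integrable (fun ω => f ω * Z ω) S.P) :
    ∫ ω, f ω * Z ω ∂S.P = ∫ ω, (S.P[f | 𝓖]) ω * Z ω ∂S.P := by
  have h := condExp_mul_of_stronglyMeasurable_right (m := 𝓖) (μ := S.P) hZ.stronglyMeasurable hfZ hf
  calc _ = ∫ ω, (S.P[f * Z | 𝓖]) ω ∂S.P := (integral_condExp h𝓖).symm
    _ = _ := integral_congr_ae h

theorem W_meas (t s : ℝ≥0) (hs : s ≤ t) (v : V) : Measurable[S.Wt t] (S.W s v) := by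
  apply Measurable.of_comap_le
  exact le_iSup_of_le v (le_iSup₂_of_le s hs le_rfl)

theorem R_eq (t : ℝ≥0) (v : V) {M : Om V → ℝ} (hM : M =ᵐ[S.P] S.P[S.spin v | S.Wt t]) :
    ∫ ω, (S.P[S.m t v | S.Wt t] ω) ^ 2 ∂S.P = ∫ ω, M ω ^ 2 ∂S.P := by
  have h1 : S.P[S.m t v | S.Wt t] =ᵐ[S.P] S.P[S.spin v | S.Wt t] :=
    (condExp_congr_ae (ce_m S t v).symm).trans
      (condExp_condExp_of_le (S.Wt_le_Ft t) (Ft_le S t))
  refine integral_congr_ae ?_
  filter_upwards [h1, hM] with ω h2 h3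
  rw [h2, h3]

theorem main (t h : ℝ≥0) (hh : 0 < h) (v : V) (F : Finset V) {δ : ℝ} (hδ : 0 < δ) :
    h * (∑ u ∈ F, ∫ ω, (S.P[S.A t v u | S.Wt t] ω) ^ 2 ∂S.P) -
      (δ * h * F.card + 2 * F.card * h * (S.q (t + h) - S.q t) +
        (1 + 1 / δ) * (2 * h * F.card) ^ 2) ≤
      ∫ ω, (S.P[S.m (t + h) v | S.Wt (t + h)] ω) ^ 2 ∂S.P -
        ∫ ω, (S.P[S.m t v | S.Wt t] ω) ^ 2 ∂S.P := by
  have hh' : (0 : ℝ) < h := hh
  have hle : t ≤ t + h := le_self_add
  obtain ⟨M, mM, bM, hM⟩ := exists_clip S (𝓖 := S.Wt t) (spin_abs S v)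
  obtain ⟨M', mM', bM', hM'⟩ := exists_clip S (𝓖 := S.Wt (t + h)) (spin_abs S v)
  choose a ma ba hax using fun u => exists_clip S (𝓖 := S.Wt t) (A_abs S t v u)
  rw [R_eq S t v hM, R_eq S (t + h) v hM']
  have hsum : ∑ u ∈ F, ∫ ω, (S.P[S.A t v u | S.Wt t] ω) ^ 2 ∂S.P =
      ∑ u ∈ F, ∫ ω, a u ω ^ 2 ∂S.P := by
    refine Finset.sum_congr rfl fun u _ => integral_congr_ae ?_
    filter_upwards [hax u] with ω hω
    rw [hω]
  rw [hsum]
  have maF : ∀ u, Measurable[S.Ft t] (a u) := fun u => (ma u).mono (S.Wt_le_Ft t) le_rfl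
  have mMF : Measurable[S.Ft t] M := mM.mono (S.Wt_le_Ft t) le_rfl
  have hW : ∀ r, S.Wt r ≤ mOm V := fun r => S.Wt_le r
  have ma0 : ∀ u, Measurable (a u) := fun u => (ma u).mono (hW t) le_rfl
  have mM0 : Measurable M := mM.mono (hW t) le_rfl
  have mM0' : Measurable M' := mM'.mono (hW _) le_rfl
  have isp : Integrable (S.spin v) S.P := bint S (S.measurable_spin v) (spin_abs S v)
  set Ψ : Om V → ℝ := fun ω => ∑ u ∈ F, a u ω * dW S t h u ω with hΨ
  have hΨ2 : MemLp Ψ 2 S.P := sum_meas S t h F maF ba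
  have iΨ : Integrable Ψ S.P := hΨ2.integrable one_le_two
  have mΨ : Measurable[S.Wt (t + h)] Ψ := by
    refine Finset.measurable_sum F fun u _ => ?_
    refine Measurable.mul ((ma u).mono (S.Wt_mono hle) le_rfl) ?_
    exact Measurable.sub (W_meas S _ _ le_rfl u) (W_meas S _ _ hle u)
  have b2 : ∀ u ω, |a u ω ^ 2| ≤ 1 := fun u ω => by
    rw [abs_pow]; exact pow_le_one₀ (abs_nonneg _) (ba u ω)
  -- products
  have iMM : Integrable (fun ω => M ω ^ 2) S.P := bint S (mM0.pow_const 2) (B := 1) fun ω => by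
    rw [abs_pow]; exact pow_le_one₀ (abs_nonneg _) (bM ω)
  have iMM2 : Integrable (fun ω => M' ω ^ 2) S.P := bint S (mM0'.pow_const 2) (B := 1) fun ω => by
    rw [abs_pow]; exact pow_le_one₀ (abs_nonneg _) (bM' ω)
  have iM'M : Integrable (fun ω => M' ω * M ω) S.P :=
    bint S (mM0'.mul mM0) fun ω => le_of_abs_mul (bM' ω) (bM ω)
  have iMΨ : Integrable (fun ω => M ω * Ψ ω) S.P :=
    iΨ.bdd_mul mM0.aestronglyMeasurable (Eventually.of_forall bM)
  have iM'Ψ : Integrable (fun ω => M' ω * Ψ ω) S.P :=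
    iΨ.bdd_mul mM0'.aestronglyMeasurable (Eventually.of_forall bM')
  have isΨ : Integrable (fun ω => S.spin v ω * Ψ ω) S.P :=
    iΨ.bdd_mul (S.measurable_spin v).aestronglyMeasurable (Eventually.of_forall (spin_abs S v))
  have iΨΨ : Integrable (fun ω => Ψ ω ^ 2) S.P := hΨ2.integrable_sq
  have ce : ∀ {r : ℝ≥0} {N Z : Om V → ℝ}, N =ᵐ[S.P] S.P[S.spin v | S.Wt r] →
      Measurable[S.Wt r] Z → Integrable (fun ω => S.spin v ω * Z ω) S.P →
      ∫ ω, S.spin v ω * Z ω ∂S.P = ∫ ω, N ω * Z ω ∂S.P := fun hN hZ hi => by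
    rw [test' S (hW _) isp hZ hi]
    refine integral_congr_ae ?_
    filter_upwards [hN] with ω hω
    rw [hω]
  have isM : Integrable (fun ω => S.spin v ω * M ω) S.P :=
    bint S ((S.measurable_spin v).mul mM0) fun ω => le_of_abs_mul (spin_abs S v ω) (bM ω)
  have e1 : ∫ ω, M' ω * M ω ∂S.P = ∫ ω, M ω ^ 2 ∂S.P := by
    rw [← ce hM' (mM.mono (S.Wt_mono hle) le_rfl) isM, ce hM mM isM]
    congr 1; funext ω; ring
  have e2 : ∫ ω, M' ω * Ψ ω ∂S.P = ∫ ω, S.spin v ω * Ψ ω ∂S.P := (ce hM' mΨ isΨ).symm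
  have iaW : ∀ u, Integrable (fun ω => a u ω * dW S t h u ω) S.P := fun u => by
    have := sum_meas S t h {u} maF ba
    simp only [Finset.sum_singleton] at this
    exact this.integrable one_le_two
  have e3 : ∫ ω, M ω * Ψ ω ∂S.P = 0 := by
    calc ∫ ω, M ω * Ψ ω ∂S.P = ∫ ω, ∑ u ∈ F, M ω * (a u ω * dW S t h u ω) ∂S.P := by
          congr 1; funext ω; rw [hΨ, Finset.mul_sum]
      _ = ∑ u ∈ F, ∫ ω, M ω * (a u ω * dW S t h u ω) ∂S.P :=
          integral_finsetSum F fun u _ => (iaW u).bdd_mul mM0.aestronglyMeasurable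
            (Eventually.of_forall bM)
      _ = 0 := by
          refine Finset.sum_eq_zero fun u _ => ?_
          rw [← W_test S t h u (Z := fun ω => M ω * a u ω) (Measurable.mul mMF (maF u))
            (C := 1 * 1) (fun ω => le_of_abs_mul (bM ω) (ba u ω))]
          congr 1; funext ω; ring
  have e4 : h * ∑ u ∈ F, ∫ ω, a u ω ^ 2 ∂S.P - F.card * (h * (S.q (t + h) - S.q t)) ≤
      ∫ ω, S.spin v ω * Ψ ω ∂S.P := by
    calc h * ∑ u ∈ F, ∫ ω, a u ω ^ 2 ∂S.P - F.card * (h * (S.q (t + h) - S.q t)) =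
        ∑ u ∈ F, (h * ∫ ω, a u ω ^ 2 ∂S.P - h * (S.q (t + h) - S.q t)) := by
          rw [Finset.sum_sub_distrib, Finset.mul_sum, Finset.sum_const, nsmul_eq_mul]
      _ ≤ ∑ u ∈ F, ∫ ω, S.spin v ω * (a u ω * dW S t h u ω) ∂S.P := by
          refine Finset.sum_le_sum fun u _ => ?_
          refine le_trans (le_of_eq ?_) (three S t h hh v u (maF u) (ba u))
          congr 2
          have iA : Integrable (S.A t v u) S.P :=
            bint S ((A_meas S t v u).mono (Ft_le S t) le_rfl) (A_abs S t v u)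
          rw [test S (hW t) iA (ma u) (ba u)]
          refine integral_congr_ae ?_
          filter_upwards [hax u] with ω hω
          rw [← hω]; ring
      _ = ∫ ω, ∑ u ∈ F, S.spin v ω * (a u ω * dW S t h u ω) ∂S.P :=
          (integral_finsetSum F fun u _ => (iaW u).bdd_mul
            (S.measurable_spin v).aestronglyMeasurable
            (Eventually.of_forall (spin_abs S v))).symm
      _ = _ := by congr 1; funext ω; rw [hΨ, Finset.mul_sum]
  have e5 := two S t h F maF ba hδ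
  have e6 : 0 ≤ ∫ ω, (M' ω - M ω - Ψ ω) ^ 2 ∂S.P := integral_nonneg fun ω => sq_nonneg _
  have e7 : ∫ ω, (M' ω - M ω - Ψ ω) ^ 2 ∂S.P = ∫ ω, M' ω ^ 2 ∂S.P + ∫ ω, M ω ^ 2 ∂S.P +
      ∫ ω, Ψ ω ^ 2 ∂S.P - 2 * ∫ ω, M' ω * M ω ∂S.P - 2 * ∫ ω, M' ω * Ψ ω ∂S.P +
      2 * ∫ ω, M ω * Ψ ω ∂S.P := by
    have j1 : Integrable (fun ω => M' ω ^ 2 + M ω ^ 2) S.P := iMM2.add iMM
    have j2 : Integrable (fun ω => M' ω ^ 2 + M ω ^ 2 + Ψ ω ^ 2) S.P := j1.add iΨΨ
    have j3 : Integrable (fun ω => M' ω ^ 2 + M ω ^ 2 + Ψ ω ^ 2 - 2 * (M' ω * M ω)) S.P :=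
      j2.sub (iM'M.const_mul _)
    have j4 : Integrable (fun ω => M' ω ^ 2 + M ω ^ 2 + Ψ ω ^ 2 - 2 * (M' ω * M ω) -
        2 * (M' ω * Ψ ω)) S.P := j3.sub (iM'Ψ.const_mul _)
    rw [← integral_const_mul, ← integral_const_mul, ← integral_const_mul,
      ← integral_add iMM2 iMM, ← integral_add j1 iΨΨ, ← integral_sub j2 (iM'M.const_mul _),
      ← integral_sub j3 (iM'Ψ.const_mul _), ← integral_add j4 (iMΨ.const_mul _)]
    congr 1; funext ω; ring
  have e8 : ∑ u ∈ F, ∫ ω, a u ω ^ 2 ∂S.P ≤ F.card := by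
    calc _ ≤ ∑ u ∈ F, (1 : ℝ) := by
          refine Finset.sum_le_sum fun u _ => ?_
          have := norm_integral_le_of_norm_le_const (μ := S.P) (f := fun ω => a u ω ^ 2) (C := 1)
            (Eventually.of_forall (b2 u))
          have h2 := (le_abs_self _).trans this
          simpa using h2
      _ = _ := by simp
  have e9 : δ * h * ∑ u ∈ F, ∫ ω, a u ω ^ 2 ∂S.P ≤ δ * h * F.card :=
    mul_le_mul_of_nonneg_left e8 (by positivity)
  rw [e7, e1, e2, e3] at e6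
  nlinarith [e4, e5, e6, e9]

end Besselaux

namespace Setup

variable {V : Type} [DecidableEq V] [Countable V] (S : Setup V)

/-- `R t = E (E[m_v(t) | W_t])²` -/
noncomputable def R (v : V) (t : ℝ≥0) : ℝ := ∫ ω, (S.P[S.m t v | S.Wt t] ω) ^ 2 ∂S.P

theorem bessel {s T : ℝ≥0} (hs : 0 < s) (v : V) (F : Finset V) (ε : ℝ) (hε : 0 < ε) :
    ∃ h0 : ℝ≥0, 0 < h0 ∧ ∀ t h : ℝ≥0, s ≤ t → t + h ≤ T → h ≤ h0 →
      h * (∑ u ∈ F, ∫ ω, (S.P[S.A t v u | S.Wt t] ω) ^ 2 ∂S.P - ε) ≤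
        S.R v (t + h) - S.R v t := by
  obtain ⟨C, hC, hm⟩ := S.m_cont (s := s) (T := T) hs
  set n : ℝ := (F.card : ℝ) with hn
  have hn0 : 0 ≤ n := Nat.cast_nonneg _
  set K : ℝ := n + 2 * n * C + 8 * n ^ 2 + 1 with hK
  have hK0 : 0 < K := by positivity
  have he : 0 < ε / K := by positivity
  refine ⟨min 1 ((ε / K).toNNReal ^ 2), ?_, fun t h hst htT hh0 => ?_⟩
  · refine lt_min one_pos ?_
    have : 0 < (ε / K).toNNReal := Real.toNNReal_pos.2 he
    positivity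
  rcases eq_or_lt_of_le (zero_le (a := h)) with h0 | hpos
  · rw [← h0]; simp
  have hh' : (0 : ℝ) < h := hpos
  have h1 : (h : ℝ) ≤ 1 := by exact_mod_cast hh0.trans (min_le_left _ _)
  have h2 : (h : ℝ) ≤ (ε / K) ^ 2 := by
    have h3 : h ≤ (ε / K).toNNReal ^ 2 := hh0.trans (min_le_right _ _)
    have h4 : (h : ℝ) ≤ (((ε / K).toNNReal ^ 2 : ℝ≥0) : ℝ) := by exact_mod_cast h3
    rwa [NNReal.coe_pow, Real.coe_toNNReal _ he.le] at h4
  have hs0 : 0 < √(h : ℝ) := Real.sqrt_pos.2 hh'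
  have hs1 : √(h : ℝ) ≤ ε / K := by
    rw [Real.sqrt_le_left he.le]; exact h2
  have hs2 : √(h : ℝ) * √(h : ℝ) = h := Real.mul_self_sqrt hh'.le
  have hs3 : √(h : ℝ) ≤ 1 := by
    rw [Real.sqrt_le_left zero_le_one]; simpa using h1
  have main := Besselaux.main S t h hpos v F hs0
  have hq : S.q (t + h) - S.q t ≤ C * h := by
    rw [← S.q_sub (le_self_add : t ≤ t + h) v]
    exact hm t h hst htT v
  unfold Setup.R
  refine le_trans ?_ main
  rw [mul_sub]
  have e1 : (1 + 1 / √(h : ℝ)) * (2 * h * n) ^ 2 = h * (4 * n ^ 2 * (h + √(h : ℝ))) := by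
    have : (h : ℝ) ^ 2 = h * (√(h : ℝ) * √(h : ℝ)) := by rw [hs2]; ring
    field_simp
    nlinarith [hs2]
  rw [← hn, e1]
  have e2 : √(h : ℝ) * h * n + 2 * n * h * (S.q (t + h) - S.q t) +
      h * (4 * n ^ 2 * (h + √(h : ℝ))) ≤ h * (√(h : ℝ) * K) := by
    have h5 : (h : ℝ) ≤ √(h : ℝ) := by nlinarith
    have h6 : 2 * n * h * (S.q (t + h) - S.q t) ≤ 2 * n * h * (C * h) :=
      mul_le_mul_of_nonneg_left hq (by positivity)
    have h7 : 2 * n * h * (C * h) ≤ 2 * n * h * (C * √(h : ℝ)) :=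
      mul_le_mul_of_nonneg_left (mul_le_mul_of_nonneg_left h5 hC.le) (by positivity)
    have h8 : h * (4 * n ^ 2 * (h + √(h : ℝ))) ≤ h * (4 * n ^ 2 * (√(h : ℝ) + √(h : ℝ))) := by
      gcongr
    have h9 : 0 ≤ h * √(h : ℝ) := by positivity
    calc _ ≤ √(h : ℝ) * h * n + 2 * n * h * (C * √(h : ℝ)) +
          h * (4 * n ^ 2 * (√(h : ℝ) + √(h : ℝ))) := by linarith
      _ = h * √(h : ℝ) * (K - 1) := by rw [hK]; ring
      _ ≤ h * √(h : ℝ) * K := mul_le_mul_of_nonneg_left (by linarith) h9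
      _ = _ := by ring
  have e3 : √(h : ℝ) * K ≤ ε := by
    calc √(h : ℝ) * K ≤ ε / K * K := mul_le_mul_of_nonneg_right hs1 hK0.le
      _ = ε := by field_simp
  have e4 : h * (√(h : ℝ) * K) ≤ h * ε := mul_le_mul_of_nonneg_left e3 hh'.le
  linarith

end Setup
end Crest.Agent.R160
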