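import Crest.Agent.R160.Law

/-! Row 160, piece INDEP: independence of gauged variables in disjoint connected sets. -/

set_option autoImplicit false
set_option linter.unusedSectionVars false
open Finset Filter MeasureTheory ProbabilityTheory
open scoped Topology NNReal ENNReal

namespace Crest.Agent.R160
namespace Setup

variable {V : Type} [DecidableEq V] [Countable V] (S : Setup V)

/-- `R` is connected and contains `r`. -/
def Conn (r : V) (R : Set V) : Prop := r ∈ R ∧ ∀ z ∈ R, ∀ i ≤ S.G.dist r z, geo S.G r z i ∈ R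

/-- gauged information in `R`: `τ_r τ_z` and `τ_r ξ_z`, `z ∈ R`. -/
@[reducible] noncomputable def Gau (r : V) (R : Set V) : MeasurableSpace (Om V) :=
  (⨆ z ∈ R, MeasurableSpace.comap (fun ω => S.spin r ω * S.spin z ω) inferInstance) ⊔
  (⨆ z ∈ R, MeasurableSpace.comap (fun ω => fun n => S.spin r ω * ω.2 z n) inferInstance)

/-- information outside: the spins outside `R` and at the roots, and the noise outside `R`. -/
@[reducible] noncomputable def Ext (ρ : Set V) (R : Set V) : MeasurableSpace (Om V) :=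
  (⨆ z ∈ ρ ∪ Rᶜ, MeasurableSpace.comap (S.spin z) inferInstance) ⊔
  (⨆ z ∈ Rᶜ, MeasurableSpace.comap (fun ω : Om V => ω.2 z) inferInstance)

end Setup

namespace INDEPaux

/-- grouping of independent sigma algebras -/
theorem iIndep_group {Ω κ ι : Type*} {m : κ → MeasurableSpace Ω} {mΩ : MeasurableSpace Ω}
    {μ : Measure Ω} (h_le : ∀ k, m k ≤ mΩ) (h : iIndep m μ) (E : ι → Set κ)
    (hE : Pairwise fun i j => Disjoint (E i) (E j)) : iIndep (fun i => ⨆ k ∈ E i, m k) μ := by
  classical
  have hp : IsProbabilityMeasure μ := h.isProbabilityMeasure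
  rw [iIndep_iff]
  intro s f hf
  induction s using Finset.induction_on with
  | empty => simp
  | insert i s his ih =>
    rw [Finset.set_biInter_insert, Finset.prod_insert his]
    have hind : Indep (⨆ k ∈ E i, m k) (⨆ k ∈ ⋃ j ∈ s, E j, m k) μ := by
      apply indep_iSup_of_disjoint h_le h
      rw [Set.disjoint_iUnion₂_right]
      intro j hj
      exact hE (by rintro rfl; exact his hj)
    rw [(Indep_iff _ _ _).1 hind (f i) (⋂ j ∈ s, f j) (hf i (mem_insert_self _ _)) ?_,
      ih (fun j hj => hf j (mem_insert_of_mem hj))]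
    apply MeasurableSet.biInter (Finset.countable_toSet s)
    intro j hj
    have : (⨆ k ∈ E j, m k) ≤ ⨆ k ∈ ⋃ j ∈ s, E j, m k :=
      biSup_mono fun k hk => Set.mem_biUnion hj hk
    exact this _ (hf j (mem_insert_of_mem hj))

/-- two independent families on a product space -/
theorem iIndep_sum {Ω Ω' α β : Type*} {mΩ : MeasurableSpace Ω} {mΩ' : MeasurableSpace Ω'}
    {μ : Measure Ω} {ν : Measure Ω'} {m : α → MeasurableSpace Ω} {m' : β → MeasurableSpace Ω'}
    (h : iIndep m μ) (h' : iIndep m' ν) :
    iIndep (fun k : α ⊕ β => Sum.elim (fun a => (m a).comap (Prod.fst : Ω × Ω' → Ω))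
      (fun b => (m' b).comap (Prod.snd : Ω × Ω' → Ω')) k) (μ.prod ν) := by
  classical
  have hp : IsProbabilityMeasure μ := h.isProbabilityMeasure
  have hp' : IsProbabilityMeasure ν := h'.isProbabilityMeasure
  rw [iIndep_iff]
  intro s f hf
  have h1 : ∀ a : α, ∃ A : Set Ω, Sum.inl a ∈ s → (MeasurableSet[m a] A ∧ Prod.fst ⁻¹' A = f (Sum.inl a)) := by
    intro a
    by_cases ha : Sum.inl a ∈ s
    · obtain ⟨A, hA, hA'⟩ := hf _ ha
      exact ⟨A, fun _ => ⟨hA, hA'⟩⟩
    · exact ⟨∅, fun h => absurd h ha⟩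
  have h2 : ∀ b : β, ∃ A : Set Ω', Sum.inr b ∈ s → (MeasurableSet[m' b] A ∧ Prod.snd ⁻¹' A = f (Sum.inr b)) := by
    intro a
    by_cases ha : Sum.inr a ∈ s
    · obtain ⟨A, hA, hA'⟩ := hf _ ha
      exact ⟨A, fun _ => ⟨hA, hA'⟩⟩
    · exact ⟨∅, fun h => absurd h ha⟩
  choose A hA using h1
  choose B hB using h2
  have e : (⋂ i ∈ s, f i) = (⋂ a ∈ s.toLeft, A a) ×ˢ (⋂ b ∈ s.toRight, B b) := by
    ext ⟨x, y⟩
    simp only [Set.mem_iInter, Set.mem_prod, Finset.mem_toLeft, Finset.mem_toRight]
    constructor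
    · intro h
      refine ⟨fun a ha => ?_, fun b hb => ?_⟩
      · have := h _ ha
        rw [← (hA a ha).2] at this
        exact this
      · have := h _ hb
        rw [← (hB b hb).2] at this
        exact this
    · rintro ⟨h1, h2⟩ (a | b) hi
      · rw [← (hA a hi).2]; exact h1 a hi
      · rw [← (hB b hi).2]; exact h2 b hi
  rw [e, Measure.prod_prod, Finset.prod_sum_eq_prod_toLeft_mul_prod_toRight,
    (iIndep_iff _ _).1 h s.toLeft (fun a ha => (hA a (by simpa using ha)).1),
    (iIndep_iff _ _).1 h' s.toRight (fun a ha => (hB a (by simpa using ha)).1)]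
  congr 1
  · refine Finset.prod_congr rfl fun a ha => ?_
    rw [← (hA a (by simpa using ha)).2, ← Set.prod_univ, Measure.prod_prod, measure_univ, mul_one]
  · refine Finset.prod_congr rfl fun a ha => ?_
    rw [← (hB a (by simpa using ha)).2, ← Set.univ_prod, Measure.prod_prod, measure_univ, one_mul]

theorem coin_prob {p : ℝ} (h0 : 0 ≤ p) (h1 : p ≤ 1) : IsProbabilityMeasure (coin p) := by
  constructor
  simp [coin, ← ENNReal.ofReal_add h0 (sub_nonneg.2 h1)]

theorem coin_half_not (b : Bool) : (coin (1 / 2)).map (fun c => c == b) = coin (1 / 2) := by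
  have e : (1 : ℝ) - 1 / 2 = 1 / 2 := by norm_num
  simp only [coin, e]
  rw [Measure.map_add _ _ (by fun_prop), Measure.map_smul, Measure.map_smul,
    Measure.map_dirac' (by fun_prop), Measure.map_dirac' (by fun_prop)]
  cases b <;> simp [add_comm]

/-- peeling off the `none` coordinate. -/
theorem infinitePi_option {ι : Type*} {β : Option ι → Type*} [∀ i, MeasurableSpace (β i)]
    (μ : (i : Option ι) → Measure (β i)) [∀ i, IsProbabilityMeasure (μ i)] :
    ((Measure.infinitePi fun i ↦ μ (some i)).prod (μ none)).map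
      (MeasurableEquiv.piOptionEquivProd β).symm = Measure.infinitePi μ := by
  classical
  refine Measure.eq_infinitePi _ fun s t ht ↦ ?_
  let e_meas : ((i : ι) → β (some i)) × β none ≃ᵐ ((i : Option ι) → β i) :=
    MeasurableEquiv.piOptionEquivProd β |>.symm
  have me := MeasurableEquiv.measurableEmbedding e_meas
  have h1 : e_meas ⁻¹' Set.pi s t =
      (Set.pi (Finset.eraseNone s) (fun i ↦ t (some i))) ×ˢ (if none ∈ s then t none else Set.univ) := by
    ext x
    simp only [Set.mem_preimage, Set.mem_pi, Set.mem_prod, Finset.mem_coe, Finset.mem_eraseNone]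
    constructor
    · intro h
      refine ⟨fun i hi => h (some i) hi, ?_⟩
      split_ifs with hn
      · exact h none hn
      · trivial
    · rintro ⟨h1, h2⟩ (_ | i) hi
      · rw [if_pos hi] at h2; exact h2
      · exact h1 i hi
  have h2 : ∏ i ∈ s, μ i (t i) = (∏ i ∈ Finset.eraseNone s, μ (some i) (t (some i))) *
      μ none (if none ∈ s then t none else Set.univ) := by
    split_ifs with hn
    · conv_lhs => rw [← Finset.insert_erase hn, Finset.prod_insert (by simp)]
      rw [mul_comm]
      congr 1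
      rw [← Finset.map_some_eraseNone, Finset.prod_map]
      rfl
    · rw [measure_univ, mul_one]
      conv_lhs => rw [← Finset.erase_eq_of_notMem hn, ← Finset.map_some_eraseNone, Finset.prod_map]
      rfl
  rw [me.map_apply, h1, Measure.prod_prod, Measure.infinitePi_pi _ (fun i _ => ht _), h2]


variable {V : Type} [DecidableEq V] [Countable V] (S : Setup V)

theorem sg_val (b : Bool) : sg b = 1 ∨ sg b = -1 := by cases b <;> simp [sg]

theorem measurable_sg : Measurable sg := measurable_of_countable _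

/-- product of the coins on the path from the root. -/
noncomputable def pp (v : V) (c : Sym2 V → Bool) : ℝ :=
  ∏ i ∈ range (S.G.dist S.o v), sg (c s(geo S.G S.o v i, geo S.G S.o v (i + 1)))

theorem prod_sg_val (s : Finset ℕ) (f : ℕ → Bool) :
    ∏ i ∈ s, sg (f i) = 1 ∨ ∏ i ∈ s, sg (f i) = -1 := by
  induction s using Finset.induction_on with
  | empty => simp
  | insert i s his ih =>
    rw [Finset.prod_insert his]
    rcases sg_val (f i) with h | h <;> rcases ih with h' | h' <;> simp [h, h']

theorem pp_val (v : V) (c : Sym2 V → Bool) : pp S v c = 1 ∨ pp S v c = -1 := prod_sg_val _ _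

theorem measurable_pp (v : V) : Measurable (pp S v) := by
  unfold pp
  exact Finset.measurable_fun_prod _ fun i _ => measurable_sg.comp (measurable_pi_apply _)

/-- spin as a function of the coins. -/
noncomputable def sc (v : V) (c : Option (Sym2 V) → Bool) : ℝ :=
  sg (c none) * pp S v (fun e => c (some e))

theorem spin_eq (v : V) (ω : Om V) : S.spin v ω = sc S v ω.1 := rfl

theorem sc_val (v : V) (c : Option (Sym2 V) → Bool) : sc S v c = 1 ∨ sc S v c = -1 := by
  unfold sc
  rcases sg_val (c none) with h | h <;>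
    rcases pp_val S v (fun e => c (some e)) with h' | h' <;> simp [h, h']

theorem measurable_sc (v : V) : Measurable (sc S v) := by
  unfold sc
  apply Measurable.mul
  · exact measurable_sg.comp (measurable_pi_apply _)
  · exact (measurable_pp S v).comp (measurable_pi_lambda _ fun e => measurable_pi_apply _)

/-- law of the coins -/
noncomputable abbrev cm : Measure (Option (Sym2 V) → Bool) :=
  Measure.infinitePi fun o : Option (Sym2 V) => coin (o.elim (1 / 2) fun _ => (1 + S.θ) / 2)

/-- law of the noise -/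
noncomputable abbrev nm (V : Type) : Measure (V → ℕ → ℝ) := Measure.infinitePi fun _ : V => gmeas

theorem P_eq : S.P = (cm S).prod (nm V) := rfl

instance cprob (o : Option (Sym2 V)) :
    IsProbabilityMeasure (coin (o.elim (1 / 2) fun _ => (1 + S.θ) / 2)) := by
  have h0 := S.θpos
  have h1 := S.theta_lt_one
  cases o with
  | none => exact coin_prob (by simp) (by simp; norm_num)
  | some e => exact coin_prob (by simp; linarith) (by simp; linarith)

/-- rerooting -/
noncomputable def rer (o' : V) (c : Option (Sym2 V) → Bool) : Option (Sym2 V) → Bool := fun o =>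
  o.elim (decide (sc S o' c = 1)) (fun e => c (some e))

theorem mp_rer (o' : V) : MeasurePreserving (rer S o') (cm S) (cm S) := by
  let β : Option (Sym2 V) → Type := fun _ => Bool
  let e := MeasurableEquiv.piOptionEquivProd β
  let μ : (o : Option (Sym2 V)) → Measure (β o) := fun o => coin (o.elim (1 / 2) fun _ => (1 + S.θ) / 2)
  have hμ : ∀ o, IsProbabilityMeasure (μ o) := fun o => cprob S o
  have he : MeasurePreserving e.symm ((Measure.infinitePi fun i ↦ μ (some i)).prod (μ none)) (cm S) :=
    ⟨e.symm.measurable, infinitePi_option μ⟩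
  have he' : MeasurePreserving e (cm S) ((Measure.infinitePi fun i ↦ μ (some i)).prod (μ none)) :=
    MeasurePreserving.symm e.symm he
  have hm : MeasurePreserving (fun p : (Sym2 V → Bool) × Bool => (p.1, p.2 == decide (pp S o' p.1 = 1)))
      ((Measure.infinitePi fun i ↦ μ (some i)).prod (μ none))
      ((Measure.infinitePi fun i ↦ μ (some i)).prod (μ none)) := by
    refine MeasurePreserving.skew_product (f := fun c => c)
      (g := fun (c : Sym2 V → Bool) (b : Bool) => (b == decide (pp S o' c = 1)))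
      (MeasurePreserving.id _) ?_ ?_
    · have h1 : Measurable (fun p : Bool × Bool => (p.1 == p.2)) := measurable_of_countable _
      have h2 : MeasurableSet {c | pp S o' c = 1} := measurable_pp S o' (measurableSet_singleton _)
      have h3 : Measurable (fun c => decide (pp S o' c = 1)) := by
        apply measurable_to_bool
        convert h2 using 1
        ext c; simp
      exact h1.comp (measurable_snd.prodMk (h3.comp measurable_fst))
    · refine Filter.Eventually.of_forall fun c => ?_
      exact coin_half_not _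
  have := (he.comp hm).comp he'
  convert this using 1
  funext c
  funext o
  cases o with
  | none =>
    show decide (sg (c none) * pp S o' (fun e => c (some e)) = 1) = ((c none) == decide (pp S o' (fun e => c (some e)) = 1))
    rcases pp_val S o' (fun e => c (some e)) with h | h <;> rcases hc : c none <;> simp [h, sg]
    all_goals norm_num
  | some e => rfl

theorem gmeas_neg' : gmeas.map (fun ξ : ℕ → ℝ => fun n => -ξ n) = gmeas := by
  have := Measure.infinitePi_map_pi (ι := ℕ) (X := fun _ => ℝ) (Y := fun _ => ℝ)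
    (μ := fun _ => gaussianReal 0 1) (f := fun _ x => -x) (fun _ => measurable_neg)
  rw [gmeas, this]
  congr 1
  funext i
  rw [gaussianReal_map_neg, neg_zero]

theorem gmeas_sign {a : ℝ} (ha : a = 1 ∨ a = -1) :
    gmeas.map (fun ξ : ℕ → ℝ => fun n => a * ξ n) = gmeas := by
  rcases ha with rfl | rfl
  · simp
  · simpa using gmeas_neg'

/-- sign of the gauge. -/
noncomputable def sgz (ρ : V → Option V) (z : V) (c : Option (Sym2 V) → Bool) : ℝ :=
  (ρ z).elim 1 (fun v => sc S v c)

theorem sgz_val (ρ : V → Option V) (z : V) (c : Option (Sym2 V) → Bool) :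
    sgz S ρ z c = 1 ∨ sgz S ρ z c = -1 := by
  unfold sgz
  cases ρ z with
  | none => simp
  | some v => simpa using sc_val S v c

theorem measurable_sgz (ρ : V → Option V) (z : V) : Measurable (sgz S ρ z) := by
  unfold sgz
  cases ρ z with
  | none => simp
  | some v => simpa using measurable_sc S v

/-- gauge transformation -/
noncomputable def Phi (o' : V) (ρ : V → Option V) (ω : Om V) : Om V :=
  (rer S o' ω.1, fun z n => sgz S ρ z ω.1 * ω.2 z n)

theorem mp_Phi (o' : V) (ρ : V → Option V) : MeasurePreserving (Phi S o' ρ) S.P S.P := by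
  rw [P_eq]
  refine MeasurePreserving.skew_product (f := rer S o')
      (g := fun (c : Option (Sym2 V) → Bool) (ξ : V → ℕ → ℝ) => fun z n => sgz S ρ z c * ξ z n)
      (mp_rer S o') ?_ ?_
  · refine measurable_pi_lambda _ fun z => measurable_pi_lambda _ fun n => ?_
    apply Measurable.mul
    · exact (measurable_sgz S ρ z).comp measurable_fst
    · exact (measurable_pi_apply n).comp ((measurable_pi_apply z).comp measurable_snd)
  · refine Filter.Eventually.of_forall fun c => ?_
    have := Measure.infinitePi_map_pi (ι := V) (X := fun _ => ℕ → ℝ) (Y := fun _ => ℕ → ℝ)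
      (μ := fun _ => gmeas) (f := fun z ξ n => sgz S ρ z c * ξ n) (fun z => by fun_prop)
    show Measure.map (fun (ξ : V → ℕ → ℝ) => fun z n => sgz S ρ z c * ξ z n) (nm V) = nm V
    rw [nm, this]
    congr 1
    funext z
    exact gmeas_sign (sgz_val S ρ z c)

/-- the coordinate sigma algebras -/
@[reducible] def mk (V : Type) [DecidableEq V] : Option (Sym2 V) ⊕ V → MeasurableSpace (Om V)
  | Sum.inl e => MeasurableSpace.comap (fun ω : Om V => ω.1 e) inferInstance
  | Sum.inr z => MeasurableSpace.comap (fun ω : Om V => ω.2 z) inferInstance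

theorem mk_le (k : Option (Sym2 V) ⊕ V) : mk V k ≤ (inferInstance : MeasurableSpace (Om V)) := by
  rcases k with e | z
  · exact Measurable.comap_le ((measurable_pi_apply e).comp measurable_fst)
  · exact Measurable.comap_le ((measurable_pi_apply z).comp measurable_snd)

theorem iIndep_mk : iIndep (mk V) S.P := by
  have h1 : iIndepFun (fun (i : Option (Sym2 V)) (c : Option (Sym2 V) → Bool) => c i) (cm S) :=
    iIndepFun_infinitePi (P := fun o : Option (Sym2 V) => coin (o.elim (1 / 2) fun _ => (1 + S.θ) / 2))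
      (X := fun i (u : Bool) => u) (by fun_prop)
  have h2 : iIndepFun (fun (i : V) (c : V → ℕ → ℝ) => c i) (nm V) :=
    iIndepFun_infinitePi (P := fun _ : V => gmeas) (X := fun i (u : ℕ → ℝ) => u) (by fun_prop)
  have := iIndep_sum h1.iIndep h2.iIndep
  rw [P_eq]
  convert this using 1
  funext k
  rcases k with e | z
  · simp only [mk, Sum.elim_inl, MeasurableSpace.comap_comp]; rfl
  · simp only [mk, Sum.elim_inr, MeasurableSpace.comap_comp]; rfl


theorem iIndep_of_comap {Ω ι : Type*} {mΩ : MeasurableSpace Ω} {μ : Measure Ω} {Φ : Ω → Ω}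
    (hΦ : MeasurePreserving Φ μ μ) {M G : ι → MeasurableSpace Ω} (hM : ∀ i, M i ≤ mΩ)
    (h : iIndep M μ) (hG : ∀ i, G i ≤ (M i).comap Φ) : iIndep G μ := by
  classical
  refine iIndep_of_iIndep_of_le (m₂ := fun i => (M i).comap Φ) ?_ hG
  rw [iIndep_iff]
  intro s f hf
  have h1 : ∀ i, ∃ A : Set Ω, i ∈ s → (MeasurableSet[M i] A ∧ Φ ⁻¹' A = f i) := by
    intro i
    by_cases hi : i ∈ s
    · obtain ⟨A, hA, hA'⟩ := hf i hi
      exact ⟨A, fun _ => ⟨hA, hA'⟩⟩
    · exact ⟨∅, fun h => absurd h hi⟩
  choose A hA using h1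
  have e : (⋂ i ∈ s, f i) = Φ ⁻¹' (⋂ i ∈ s, A i) := by
    rw [Set.preimage_iInter₂]
    exact Set.iInter₂_congr fun i hi => (hA i hi).2.symm
  have hm : MeasurableSet (⋂ i ∈ s, A i) :=
    MeasurableSet.biInter (Finset.countable_toSet s) fun i hi => hM i _ (hA i hi).1
  rw [e, hΦ.measure_preimage hm.nullMeasurableSet, (iIndep_iff _ _).1 h s (fun i hi => (hA i hi).1)]
  refine Finset.prod_congr rfl fun i hi => ?_
  rw [← (hA i hi).2, hΦ.measure_preimage (hM i _ (hA i hi).1).nullMeasurableSet]

/-- sigma algebra generated by the coordinates in `K`. -/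
@[reducible] def MM (K : Set (Option (Sym2 V) ⊕ V)) : MeasurableSpace (Om V) := ⨆ k ∈ K, mk V k

theorem MM_le (K : Set (Option (Sym2 V) ⊕ V)) : MM K ≤ (inferInstance : MeasurableSpace (Om V)) :=
  iSup₂_le fun k _ => mk_le k

theorem meas_coin {K : Set (Option (Sym2 V) ⊕ V)} {e : Option (Sym2 V)} (h : Sum.inl e ∈ K) :
    Measurable[MM K] (fun ω : Om V => ω.1 e) :=
  Measurable.mono (comap_measurable (fun ω : Om V => ω.1 e))
    (le_biSup (f := fun k => mk V k) h) le_rfl

theorem meas_noise {K : Set (Option (Sym2 V) ⊕ V)} {z : V} (h : Sum.inr z ∈ K) :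
    Measurable[MM K] (fun ω : Om V => ω.2 z) :=
  Measurable.mono (comap_measurable (fun ω : Om V => ω.2 z))
    (le_biSup (f := fun k => mk V k) h) le_rfl

theorem meas_path {K : Set (Option (Sym2 V) ⊕ V)} {x y : V}
    (h : ∀ j < S.G.dist x y, Sum.inl (some s(geo S.G x y j, geo S.G x y (j + 1))) ∈ K) :
    Measurable[MM K] (fun ω : Om V => ∏ i ∈ range (S.G.dist x y),
      sg (ω.1 (some s(geo S.G x y i, geo S.G x y (i + 1))))) := by
  refine Finset.measurable_fun_prod _ fun j hj => ?_
  exact measurable_sg.comp (meas_coin (h j (by simpa using hj)))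

theorem comap_le_comap {Ω γ : Type*} [mγ : MeasurableSpace γ] {Φ : Ω → Ω} {M : MeasurableSpace Ω}
    {f g : Ω → γ} (hg : Measurable[M] g) (h : f = g ∘ Φ) :
    MeasurableSpace.comap f mγ ≤ M.comap Φ := by
  rw [h, ← MeasurableSpace.comap_comp]
  exact MeasurableSpace.comap_mono hg.comap_le

/-- edges inside `R`. -/
def ins (R : Set V) : Set (Sym2 V) := {e | ∀ x ∈ e, x ∈ R}

theorem mem_ins {R : Set V} {x y : V} : s(x, y) ∈ ins R ↔ x ∈ R ∧ y ∈ R := by
  simp [ins]

theorem ins_disjoint {R R' : Set V} (h : Disjoint R R') {e : Sym2 V} (h1 : e ∈ ins R)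
    (h2 : e ∈ ins R') : False := by
  induction e with
  | _ x y =>
    rw [mem_ins] at h1 h2
    exact Set.disjoint_left.1 h h1.1 h2.1

/-- coordinates inside `R`. -/
def KK (R : Set V) : Set (Option (Sym2 V) ⊕ V) := {k | match k with
  | Sum.inl none => False
  | Sum.inl (some e) => e ∈ ins R
  | Sum.inr z => z ∈ R}

/-- coordinates outside the `R i`. -/
def KO {ι : Type} (R : ι → Set V) : Set (Option (Sym2 V) ⊕ V) := {k | match k with
  | Sum.inl none => True
  | Sum.inl (some e) => ∀ i, e ∉ ins (R i)
  | Sum.inr z => ∀ i, z ∉ R i}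

theorem KK_disjoint {R R' : Set V} (h : Disjoint R R') : Disjoint (KK R) (KK R') := by
  rw [Set.disjoint_left]
  rintro ((_ | e) | z) h1 h2
  · exact h1
  · exact ins_disjoint h h1 h2
  · exact Set.disjoint_left.1 h h1 h2

theorem KO_disjoint {ι : Type} (R : ι → Set V) (i : ι) : Disjoint (KO R) (KK (R i)) := by
  rw [Set.disjoint_left]
  rintro ((_ | e) | z) h1 h2
  · exact h2
  · exact h1 i h2
  · exact h1 i h2

open Classical in
/-- the vertex used to gauge `z`. -/
noncomputable def rho {ι : Type} (r : ι → V) (R : ι → Set V) (z : V) : Option V :=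
  if h : ∃ i, z ∈ R i then some (r h.choose) else none

theorem rho_of_mem {ι : Type} (r : ι → V) (R : ι → Set V)
    (hd : Pairwise fun i j => Disjoint (R i) (R j)) {i : ι} {z : V} (hz : z ∈ R i) :
    rho r R z = some (r i) := by
  have h : ∃ i, z ∈ R i := ⟨i, hz⟩
  rw [rho, dif_pos h]
  congr 2
  by_contra hne
  exact Set.disjoint_left.1 (hd hne) h.choose_spec hz

theorem rho_of_notMem {ι : Type} (r : ι → V) (R : ι → Set V) {z : V} (hz : ∀ i, z ∉ R i) :
    rho r R z = none := by
  rw [rho, dif_neg]
  rintro ⟨i, hi⟩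
  exact hz i hi

theorem Gau_le_comap {ι : Type} (r : ι → V) (R : ι → Set V) (hc : ∀ i, S.Conn (r i) (R i))
    (hd : Pairwise fun i j => Disjoint (R i) (R j)) (o' : V) (i : ι) :
    S.Gau (r i) (R i) ≤ (MM (KK (R i))).comap (Phi S o' (rho r R)) := by
  refine sup_le (iSup₂_le fun z hz => ?_) (iSup₂_le fun z hz => ?_)
  · refine comap_le_comap (g := fun ω : Om V => ∏ j ∈ range (S.G.dist (r i) z),
      sg (ω.1 (some s(geo S.G (r i) z j, geo S.G (r i) z (j + 1))))) (meas_path S ?_) ?_
    · intro j hj
      show _ ∈ ins (R i)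
      rw [mem_ins]
      exact ⟨(hc i).2 z hz j hj.le, (hc i).2 z hz (j + 1) hj⟩
    · funext ω
      exact S.spin_path (r i) z ω
  · refine comap_le_comap (g := fun ω : Om V => ω.2 z) (meas_noise hz) ?_
    funext ω
    show _ = (fun n => sgz S (rho r R) z ω.1 * ω.2 z n)
    simp only [sgz, rho_of_mem r R hd hz, Option.elim_some, spin_eq]

theorem path_out {ι : Type} (r : ι → V) (R : ι → Set V) (hc : ∀ i, S.Conn (r i) (R i))
    (hd : Pairwise fun i j => Disjoint (R i) (R j))
    (hr : ∀ i, ∀ z ∈ R i, ∀ w, w ∉ R i → S.G.Adj z w → z = r i) {x y : V}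
    (hx : x ∈ Set.range r ∪ (⋃ i, R i)ᶜ) (hy : y ∈ Set.range r ∪ (⋃ i, R i)ᶜ) {j : ℕ}
    (hj : j < S.G.dist x y) (i : ι) : s(geo S.G x y j, geo S.G x y (j + 1)) ∉ ins (R i) := by
  rw [mem_ins]
  rintro ⟨h1, h2⟩
  have key : ∀ v ∈ Set.range r ∪ (⋃ i, R i)ᶜ, v ∈ R i → v = r i := by
    rintro v (⟨i', rfl⟩ | hv) hvi
    · by_contra hne
      have : i' ≠ i := by rintro rfl; exact hne rfl
      exact Set.disjoint_left.1 (hd this) (hc i').1 hvi
    · exact absurd (Set.mem_iUnion.2 ⟨i, hvi⟩) hv
  have A : ∀ l, l ≤ S.G.dist x y → geo S.G x y l ∈ R i → ∃ b ≤ l, geo S.G x y b = r i := by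
    intro l
    induction l with
    | zero =>
      intro _ h
      refine ⟨0, le_rfl, ?_⟩
      rw [geo_zero S.rt] at h ⊢
      exact key x hx h
    | succ l ih =>
      intro hl h
      by_cases h' : geo S.G x y l ∈ R i
      · obtain ⟨b, hb, hb'⟩ := ih (by omega) h'
        exact ⟨b, by omega, hb'⟩
      · exact ⟨l + 1, le_rfl, hr i _ h _ h' (geo_adj S.rt x y (by omega)).symm⟩
  have B : ∀ n l, l + n = S.G.dist x y → geo S.G x y l ∈ R i →
      ∃ b ≤ S.G.dist x y, l ≤ b ∧ geo S.G x y b = r i := by
    intro n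
    induction n with
    | zero =>
      intro l hl h
      refine ⟨l, by omega, le_rfl, ?_⟩
      rw [add_zero] at hl
      rw [hl, geo_dist S.rt] at h ⊢
      exact key y hy h
    | succ n ih =>
      intro l hl h
      by_cases h' : geo S.G x y (l + 1) ∈ R i
      · obtain ⟨b, hb, hb', hb''⟩ := ih (l + 1) (by omega) h'
        exact ⟨b, hb, by omega, hb''⟩
      · exact ⟨l, by omega, le_rfl, hr i _ h _ h' (geo_adj S.rt x y (by omega))⟩
  obtain ⟨b, hb, hb'⟩ := A j hj.le h1
  obtain ⟨c, hc1, hc2, hc3⟩ := B (S.G.dist x y - (j + 1)) (j + 1) (by omega) h2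
  have e1 := (dist_geo S.rt x y (i := b) (by omega)).1
  have e2 := (dist_geo S.rt x y (i := c) hc1).1
  rw [hb'] at e1
  rw [hc3] at e2
  omega

theorem Ext_le_comap {ι : Type} (r : ι → V) (R : ι → Set V) (hc : ∀ i, S.Conn (r i) (R i))
    (hd : Pairwise fun i j => Disjoint (R i) (R j))
    (hr : ∀ i, ∀ z ∈ R i, ∀ w, w ∉ R i → S.G.Adj z w → z = r i) {o' : V}
    (ho' : o' ∈ Set.range r ∪ (⋃ i, R i)ᶜ) :
    S.Ext (Set.range r) (⋃ i, R i) ≤ (MM (KO R)).comap (Phi S o' (rho r R)) := by
  refine sup_le (iSup₂_le fun z hz => ?_) (iSup₂_le fun z hz => ?_)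
  · refine comap_le_comap (g := fun ω : Om V => sg (ω.1 none) * ∏ j ∈ range (S.G.dist o' z),
      sg (ω.1 (some s(geo S.G o' z j, geo S.G o' z (j + 1))))) ?_ ?_
    · apply Measurable.mul
      · exact measurable_sg.comp (meas_coin (show Sum.inl none ∈ KO R from trivial))
      · apply meas_path S
        intro j hj
        show ∀ i, _ ∉ ins (R i)
        intro i
        exact path_out S r R hc hd hr ho' hz hj i
    · funext ω
      show S.spin z ω = sg (decide (sc S o' ω.1 = 1)) * ∏ j ∈ range (S.G.dist o' z),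
        sg (ω.1 (some s(geo S.G o' z j, geo S.G o' z (j + 1))))
      rw [← S.spin_path o' z ω, ← mul_assoc]
      have : sg (decide (sc S o' ω.1 = 1)) * S.spin o' ω = 1 := by
        rw [spin_eq]
        rcases sc_val S o' ω.1 with h | h <;> simp [h, sg]; norm_num
      rw [this, one_mul]
  · have hz' : ∀ i, z ∉ R i := by
      intro i hi
      exact hz (Set.mem_iUnion.2 ⟨i, hi⟩)
    refine comap_le_comap (g := fun ω : Om V => ω.2 z)
      (meas_noise (show Sum.inr z ∈ KO R from hz')) ?_
    funext ω
    show _ = (fun n => sgz S (rho r R) z ω.1 * ω.2 z n)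
    simp only [sgz, rho_of_notMem r R hz', Option.elim_none, one_mul]

end INDEPaux

namespace Setup

variable {V : Type} [DecidableEq V] [Countable V] (S : Setup V)

theorem Gau_le (r : V) (R : Set V) : S.Gau r R ≤ (inferInstance : MeasurableSpace (Om V)) := by
  refine sup_le (iSup₂_le fun z hz => ?_) (iSup₂_le fun z hz => ?_)
  · exact Measurable.comap_le ((S.measurable_spin r).mul (S.measurable_spin z))
  · refine Measurable.comap_le (measurable_pi_lambda _ fun n => (S.measurable_spin r).mul ?_)
    exact (measurable_pi_apply n).comp ((measurable_pi_apply z).comp measurable_snd)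

theorem Ext_le (ρ : Set V) (R : Set V) : S.Ext ρ R ≤ (inferInstance : MeasurableSpace (Om V)) := by
  refine sup_le (iSup₂_le fun z hz => ?_) (iSup₂_le fun z hz => ?_)
  · exact Measurable.comap_le (S.measurable_spin z)
  · exact Measurable.comap_le ((measurable_pi_apply z).comp measurable_snd)

/-- For pairwise disjoint connected sets `R i ∋ r i`, the gauged informations `Gau (r i) (R i)`
are independent. (They are functions of the edge coins inside `R i` and of the gauged noises
`τ_{r i} ξ_z`, `z ∈ R i`; the gauged noises are iid and independent of all coins.) -/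
theorem iIndep_gauge {ι : Type} (r : ι → V) (R : ι → Set V) (hc : ∀ i, S.Conn (r i) (R i))
    (hd : Pairwise fun i j => Disjoint (R i) (R j)) :
    iIndep (fun i => S.Gau (r i) (R i)) S.P :=
  INDEPaux.iIndep_of_comap (INDEPaux.mp_Phi S S.o (INDEPaux.rho r R))
    (M := fun i => INDEPaux.MM (INDEPaux.KK (R i))) (fun _ => INDEPaux.MM_le _)
    (INDEPaux.iIndep_group INDEPaux.mk_le (INDEPaux.iIndep_mk S) _
      fun _ _ hij => INDEPaux.KK_disjoint (hd hij))
    (fun i => INDEPaux.Gau_le_comap S r R hc hd S.o i)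

/-- If moreover `R i` is attached to the rest of the tree at `r i` only, they are also independent
of the outside information. -/
theorem iIndep_gauge_ext {ι : Type} (r : ι → V) (R : ι → Set V) (hc : ∀ i, S.Conn (r i) (R i))
    (hd : Pairwise fun i j => Disjoint (R i) (R j))
    (hr : ∀ i, ∀ z ∈ R i, ∀ w, w ∉ R i → S.G.Adj z w → z = r i) :
    iIndep (fun o : Option ι => match o with
      | none => S.Ext (Set.range r) (⋃ i, R i)
      | some i => S.Gau (r i) (R i)) S.P := by
  obtain ⟨o', ho'⟩ : ∃ o', o' ∈ Set.range r ∪ (⋃ i, R i)ᶜ := by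
    by_cases h : S.o ∈ ⋃ i, R i
    · obtain ⟨i, -⟩ := Set.mem_iUnion.1 h
      exact ⟨r i, Or.inl ⟨i, rfl⟩⟩
    · exact ⟨S.o, Or.inr h⟩
  refine INDEPaux.iIndep_of_comap (INDEPaux.mp_Phi S o' (INDEPaux.rho r R))
    (M := fun o : Option ι => INDEPaux.MM (o.elim (INDEPaux.KO R) fun i => INDEPaux.KK (R i)))
    (fun _ => INDEPaux.MM_le _)
    (INDEPaux.iIndep_group INDEPaux.mk_le (INDEPaux.iIndep_mk S) _ ?_) ?_
  · rintro (_ | i) (_ | j) hij
    · exact absurd rfl hij
    · exact INDEPaux.KO_disjoint R j
    · exact (INDEPaux.KO_disjoint R i).symm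
    · exact INDEPaux.KK_disjoint (hd fun h => hij (by rw [h]))
  · rintro (_ | i)
    · exact INDEPaux.Ext_le_comap S r R hc hd hr ho'
    · exact INDEPaux.Gau_le_comap S r R hc hd o' i

theorem branch_exit {x y z w : V} (hxy : S.G.Adj x y) (hz : z ∈ branch S.G x y)
    (hw : w ∉ branch S.G x y) (hzw : S.G.Adj z w) : z = y := by
  have hw' : w ∈ branch S.G y x := by
    rw [← branch_compl S.rt hxy]; exact hw
  have h1 : S.G.dist z y < S.G.dist z x := hz
  have h2 : S.G.dist w x < S.G.dist w y := hw'
  have hconn : S.G.Connected := S.rt.tree.1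
  have dxy : S.G.dist x y = 1 := SimpleGraph.dist_eq_one_iff_adj.2 hxy
  have dzw : S.G.dist z w = 1 := SimpleGraph.dist_eq_one_iff_adj.2 hzw
  have dyx : S.G.dist y x = 1 := by rw [SimpleGraph.dist_comm]; exact dxy
  have dwz : S.G.dist w z = 1 := by rw [SimpleGraph.dist_comm]; exact dzw
  have t1 : S.G.dist z x ≤ S.G.dist z y + S.G.dist y x := hconn.dist_triangle
  have t2 : S.G.dist w y ≤ S.G.dist w x + S.G.dist x y := hconn.dist_triangle
  have t3 : S.G.dist z x ≤ S.G.dist z w + S.G.dist w x := hconn.dist_triangle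
  have t4 : S.G.dist w y ≤ S.G.dist w z + S.G.dist z y := hconn.dist_triangle
  have e1 : S.G.dist z y + S.G.dist y x = S.G.dist z x := by omega
  have e2 : S.G.dist z w + S.G.dist w x = S.G.dist z x := by omega
  by_contra hne
  have hpos : 0 < S.G.dist z y := by
    rcases Nat.eq_zero_or_pos (S.G.dist z y) with h | h
    · exact absurd ((hconn.dist_eq_zero_iff).1 h) hne
    · exact h
  have g1 := geo_append S.rt z y x e1 1 (by omega)
  have g2 := geo_append S.rt z w x e2 1 (by omega)
  rw [if_pos (by omega)] at g1 g2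
  have g3 : geo S.G z w 1 = w := by
    have := geo_dist S.rt z w
    rwa [dzw] at this
  have g4 := (dist_geo S.rt z y (i := 1) (by omega)).2
  rw [← g1, g2, g3] at g4
  omega

theorem conn_branch {x y : V} (hxy : S.G.Adj x y) : S.Conn y (branch S.G x y) :=
  ⟨(self_mem_branch S.rt hxy).1, fun _ hz i hi => geo_mem_branch S.rt hxy hz i hi⟩

end Setup

namespace INDEPaux

variable {V : Type} [DecidableEq V] [Countable V] (S : Setup V)

theorem meas_ss {r : V} {R : Set V} {z : V} (hz : z ∈ R) :
    Measurable[S.Gau r R] (fun ω => S.spin r ω * S.spin z ω) := by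
  refine Measurable.mono (comap_measurable (fun ω => S.spin r ω * S.spin z ω)) ?_ le_rfl
  exact le_sup_of_le_left (le_biSup
    (f := fun z => MeasurableSpace.comap (fun ω => S.spin r ω * S.spin z ω) inferInstance) hz)

theorem meas_sn {r : V} {R : Set V} {z : V} (hz : z ∈ R) :
    Measurable[S.Gau r R] (fun ω : Om V => fun n => S.spin r ω * ω.2 z n) := by
  refine Measurable.mono (comap_measurable (fun ω : Om V => fun n => S.spin r ω * ω.2 z n)) ?_ le_rfl
  exact le_sup_of_le_right (le_biSup
    (f := fun z => MeasurableSpace.comap (fun ω : Om V => fun n => S.spin r ω * ω.2 z n)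
      inferInstance) hz)

theorem Gau_mono {r z : V} {R R' : Set V} (hz : z ∈ R) (h : R' ⊆ R) :
    S.Gau z R' ≤ S.Gau r R := by
  refine sup_le (iSup₂_le fun u hu => ?_) (iSup₂_le fun u hu => ?_)
  · apply Measurable.comap_le
    have e : (fun ω => S.spin z ω * S.spin u ω) =
        fun ω => (S.spin r ω * S.spin z ω) * (S.spin r ω * S.spin u ω) := by
      funext ω
      have := S.spin_sq r ω
      linear_combination (-(S.spin z ω * S.spin u ω)) * this
    rw [e]
    exact (meas_ss S hz).mul (meas_ss S (h hu))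
  · apply Measurable.comap_le
    have e : (fun ω : Om V => fun n => S.spin z ω * ω.2 u n) =
        fun ω => fun n => (S.spin r ω * S.spin z ω) * (S.spin r ω * ω.2 u n) := by
      funext ω n
      have := S.spin_sq r ω
      linear_combination (-(S.spin z ω * ω.2 u n)) * this
    rw [e]
    refine @measurable_pi_lambda _ _ _ (S.Gau r R) _ _ fun n => ?_
    exact (meas_ss S hz).mul ((measurable_pi_apply n).comp (meas_sn S (h hu)))

theorem gf_sign {θ a h : ℝ} (ha : a = 1 ∨ a = -1) : a * gf θ h = gf θ (a * h) := by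
  rcases ha with rfl | rfl
  · simp
  · rw [neg_one_mul, neg_one_mul, gf_odd]

theorem b_sign (β : BM) (t : ℝ≥0) {a : ℝ} (ha : a = 1 ∨ a = -1) (ξ : ℕ → ℝ) :
    a * β.b t ξ = β.b t (fun n => a * ξ n) := by
  rcases ha with rfl | rfl
  · simp
  · rw [neg_one_mul, ← β.odd]
    congr 1
    funext n
    simp

theorem mp_coin (e : Option (Sym2 V)) : MeasurePreserving (fun ω : Om V => ω.1 e) S.P
    (coin (e.elim (1 / 2) fun _ => (1 + S.θ) / 2)) := by
  rw [P_eq]
  exact (measurePreserving_eval_infinitePi
    (fun o : Option (Sym2 V) => coin (o.elim (1 / 2) fun _ => (1 + S.θ) / 2)) e).comp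
    measurePreserving_fst

theorem integral_mp {Ω : Type*} {mΩ : MeasurableSpace Ω} {μ : Measure Ω} {g : Ω → Bool} {p : ℝ}
    (hg : MeasurePreserving g μ (coin p)) (h0 : 0 ≤ p) (h1 : p ≤ 1) :
    ∫ ω, sg (g ω) ∂μ = 2 * p - 1 := by
  rw [← integral_map (f := sg) hg.measurable.aemeasurable
    (measurable_sg.stronglyMeasurable.aestronglyMeasurable), hg.map_eq]
  have hp := coin_prob h0 h1
  rw [coin, integral_add_measure, integral_smul_measure, integral_smul_measure, integral_dirac,
    integral_dirac, ENNReal.toReal_ofReal h0, ENNReal.toReal_ofReal (by linarith)]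
  · simp [sg]; ring
  all_goals exact Integrable.smul_measure (by fun_prop) (by simp)

end INDEPaux

namespace Setup

variable {V : Type} [DecidableEq V] [Countable V] (S : Setup V)

/-- gauged observations are measurable w.r.t. the gauged information. -/
theorem measurable_gauge_XX (T : V → ℝ≥0) {r : V} {R : Set V} {z : V} (hz : z ∈ R) :
    Measurable[S.Gau r R] (fun ω => S.spin r ω * S.XX (T z) z ω) := by
  have e : (fun ω => S.spin r ω * S.XX (T z) z ω) = fun ω =>
      (T z : ℝ) * (S.spin r ω * S.spin z ω) + S.β.b (T z) (fun n => S.spin r ω * ω.2 z n) := by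
    funext ω
    rw [← INDEPaux.b_sign S.β (T z) (S.spin_val r ω)]
    show S.spin r ω * ((T z : ℝ) * S.spin z ω + S.β.b (T z) (ω.2 z)) = _
    ring
  rw [e]
  exact Measurable.add (measurable_const.mul (INDEPaux.meas_ss S hz))
    ((S.β.meas (T z)).comp (INDEPaux.meas_sn S hz))

/-- `τ_y * cav x y` is measurable w.r.t. the gauged information of the branch (on good fields
`τ_y * cav x y (X) = cav x y (τ_y X)`; here we state it for the `n`-th approximation). -/
theorem measurable_gauge_fld (T : V → ℝ≥0) (n : ℕ) {x y : V} (hxy : S.G.Adj x y) :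
    Measurable[S.Gau y (branch S.G x y)] (fun ω => S.spin y ω * S.fld n x y (S.XT T ω)) := by
  induction n generalizing x y with
  | zero =>
    simp only [fld, mul_zero]
    exact measurable_const
  | succ n ih =>
    have e : (fun ω => S.spin y ω * S.fld (n + 1) x y (S.XT T ω)) = fun ω =>
        S.spin y ω * S.XX (T y) y ω + ∑ z ∈ (S.G.neighborFinset y).erase x,
          gf S.θ ((S.spin y ω * S.spin z ω) * (S.spin z ω * S.fld n y z (S.XT T ω))) := by
      funext ω
      rw [fld, mul_add, Finset.mul_sum]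
      congr 1
      refine Finset.sum_congr rfl fun z _ => ?_
      rw [INDEPaux.gf_sign (S.spin_val y ω)]
      congr 1
      have := S.spin_sq z ω
      linear_combination (-(S.spin y ω * S.fld n y z (S.XT T ω))) * this
    rw [e]
    refine (S.measurable_gauge_XX T (self_mem_branch S.rt hxy).1).add ?_
    refine Finset.measurable_fun_sum _ fun z hz => ?_
    rw [Finset.mem_erase, SimpleGraph.mem_neighborFinset] at hz
    have hb := branch_subset S.rt hxy hz.2 hz.1
    have hzb : z ∈ branch S.G x y := hb.1 (self_mem_branch S.rt hz.2).1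
    refine (gf_continuous S.θpos S.theta_lt_one).measurable.comp ?_
    exact (INDEPaux.meas_ss S hzb).mul
      ((ih hz.2).mono (INDEPaux.Gau_mono S hzb hb.1) le_rfl)

/-- for even functionals. -/
theorem measurable_gauge_cav (T : V → ℝ≥0) {x y : V} (hxy : S.G.Adj x y) :
    Measurable[S.Gau y (branch S.G x y)]
      (fun ω => limsup (fun n => S.spin y ω * S.fld n x y (S.XT T ω)) atTop) :=
  Measurable.limsup fun n => S.measurable_gauge_fld T n hxy

/-- law of the edge coin, of `τ_v` -/
theorem integral_spin (v : V) : ∫ ω, S.spin v ω ∂S.P = 0 := by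
  have h1 : ∀ ω, S.spin v ω = sg ((INDEPaux.Phi S v (fun _ => none) ω).1 none) := by
    intro ω
    show _ = sg (decide (INDEPaux.sc S v ω.1 = 1))
    rw [INDEPaux.spin_eq]
    rcases INDEPaux.sc_val S v ω.1 with h | h <;> simp [h, sg]
  have h2 := (INDEPaux.mp_coin S none).comp (INDEPaux.mp_Phi S v (fun _ => none))
  simp_rw [h1]
  have h3 := INDEPaux.integral_mp h2
  simpa using h3 (by norm_num) (by norm_num)

theorem integral_edge {x y : V} (hxy : S.G.Adj x y) :
    ∫ ω, S.spin x ω * S.spin y ω ∂S.P = S.θ := by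
  have h0 := S.θpos
  have h1 := S.theta_lt_one
  simp_rw [S.spin_adj hxy]
  have h3 := INDEPaux.integral_mp (INDEPaux.mp_coin S (some s(x, y)))
  simp only [Option.elim_some] at h3
  rw [h3 (by linarith) (by linarith)]
  ring

end Setup
end Crest.Agent.R160
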