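import Crest.Agent.R160.Indep
import Crest.Agent.R160.Bayes

/-! Row 160, piece MSG-CI: conditional independence at a vertex, crossing an edge. -/

set_option autoImplicit false
set_option linter.unusedSectionVars false
open Finset Filter MeasureTheory ProbabilityTheory
open scoped Topology NNReal ENNReal

namespace Crest.Agent.R160

namespace MsgCIaux

open Setup

variable {V : Type} [DecidableEq V] [Countable V] (S : Setup V)

/-- the coordinate sigma-algebras -/
@[reducible] def co : Option (Sym2 V) ⊕ V → MeasurableSpace (Om V)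
  | Sum.inl o => MeasurableSpace.comap (fun ω : Om V => ω.1 o) inferInstance
  | Sum.inr w => MeasurableSpace.comap (fun ω : Om V => ω.2 w) inferInstance

theorem co_le (c : Option (Sym2 V) ⊕ V) : co c ≤ mOm V := by
  rcases c with o | w
  · exact Measurable.comap_le (by fun_prop)
  · exact Measurable.comap_le (by fun_prop)

theorem coin_prob (p : ℝ) (h0 : 0 ≤ p) (h1 : p ≤ 1) : IsProbabilityMeasure (coin p) := by
  constructor
  unfold coin
  simp
  rw [← ENNReal.ofReal_add h0 (by linarith)]
  simp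

theorem par_bound (o : Option (Sym2 V)) :
    0 ≤ (o.elim (1 / 2) fun _ => (1 + S.θ) / 2 : ℝ) ∧ (o.elim (1 / 2) fun _ => (1 + S.θ) / 2 : ℝ) ≤ 1 := by
  have h1 : S.θ ≤ 1 := by
    have h3 : (3 : ℝ) ≤ S.d := by exact_mod_cast S.rt.three_le
    have h2 := S.θle
    have h4 := S.θpos
    nlinarith
  have := S.θpos
  rcases o with _ | e
  · norm_num
  · constructor
    · show 0 ≤ (1 + S.θ) / 2; linarith
    · show (1 + S.θ) / 2 ≤ 1; linarith

instance (o : Option (Sym2 V)) : IsProbabilityMeasure (coin (o.elim (1 / 2) fun _ => (1 + S.θ) / 2)) :=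
  coin_prob _ (par_bound S o).1 (par_bound S o).2

/-- the two factors -/
noncomputable abbrev μc : Measure (Option (Sym2 V) → Bool) :=
  Measure.infinitePi fun o : Option (Sym2 V) => coin (o.elim (1 / 2) fun _ => (1 + S.θ) / 2)

noncomputable abbrev μg : Measure (V → ℕ → ℝ) := Measure.infinitePi fun _ : V => gmeas

theorem P_eq : S.P = (μc S).prod μg := rfl

theorem iIndep_co : iIndep (co (V := V)) S.P := by
  classical
  rw [iIndep_iff]
  intro s f hf
  have h1 : ∀ o : Option (Sym2 V), ∃ t : Set Bool, MeasurableSet t ∧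
      (Sum.inl o ∈ s → (fun ω : Om V => ω.1 o) ⁻¹' t = f (Sum.inl o)) := by
    intro o
    by_cases h : Sum.inl o ∈ s
    · obtain ⟨t, ht, h2⟩ := hf _ h
      exact ⟨t, ht, fun _ => h2⟩
    · exact ⟨∅, MeasurableSet.empty, fun h' => absurd h' h⟩
  have h2 : ∀ w : V, ∃ t : Set (ℕ → ℝ), MeasurableSet t ∧
      (Sum.inr w ∈ s → (fun ω : Om V => ω.2 w) ⁻¹' t = f (Sum.inr w)) := by
    intro o
    by_cases h : Sum.inr o ∈ s
    · obtain ⟨t, ht, h2⟩ := hf _ h
      exact ⟨t, ht, fun _ => h2⟩
    · exact ⟨∅, MeasurableSet.empty, fun h' => absurd h' h⟩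
  choose t ht htf using h1
  choose u hu huf using h2
  have e1 : (⋂ i ∈ s, f i) = ((s.toLeft : Set (Option (Sym2 V))).pi t) ×ˢ
      ((s.toRight : Set V).pi u) := by
    ext ω
    simp only [Set.mem_iInter, Set.mem_prod, Set.mem_pi, Finset.mem_coe, Finset.mem_toLeft,
      Finset.mem_toRight]
    constructor
    · intro h
      constructor
      · intro o ho
        have := h _ ho
        rw [← htf o ho] at this
        exact this
      · intro o ho
        have := h _ ho
        rw [← huf o ho] at this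
        exact this
    · rintro ⟨h3, h4⟩ (o | w) hi
      · rw [← htf o hi]; exact h3 o hi
      · rw [← huf w hi]; exact h4 w hi
  have e2 : ∏ i ∈ s, S.P (f i) = (∏ o ∈ s.toLeft, S.P (f (Sum.inl o))) *
      ∏ w ∈ s.toRight, S.P (f (Sum.inr w)) := by
    conv_lhs => rw [← Finset.toLeft_disjSum_toRight (u := s)]
    rw [Finset.prod_disjSum]
  rw [e1, e2, P_eq, Measure.prod_prod, Measure.infinitePi_pi _ (fun i _ => ht i),
    Measure.infinitePi_pi _ (fun i _ => hu i)]
  congr 1
  · refine Finset.prod_congr rfl fun o ho => ?_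
    rw [← htf o (Finset.mem_toLeft.mp ho)]
    have e3 : (fun ω : Om V => ω.1 o) ⁻¹' (t o) = ((fun c : Option (Sym2 V) → Bool => c o) ⁻¹' (t o)) ×ˢ
        (Set.univ : Set (V → ℕ → ℝ)) := by
      ext ω; simp
    rw [e3, Measure.prod_prod, measure_univ, mul_one,
      ← Measure.map_apply (by fun_prop) (ht o), Measure.infinitePi_map_eval]
  · refine Finset.prod_congr rfl fun w hw => ?_
    rw [← huf w (Finset.mem_toRight.mp hw)]
    have e3 : (fun ω : Om V => ω.2 w) ⁻¹' (u w) = (Set.univ : Set (Option (Sym2 V) → Bool)) ×ˢ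
        ((fun c : V → ℕ → ℝ => c w) ⁻¹' (u w)) := by
      ext ω; simp
    rw [e3, Measure.prod_prod, measure_univ, one_mul,
      ← Measure.map_apply (by fun_prop) (hu w), Measure.infinitePi_map_eval]

/-- the spin as a function of the coins -/
noncomputable def spc (v : V) (c : Option (Sym2 V) → Bool) : ℝ :=
  sg (c none) * ∏ i ∈ range (S.G.dist S.o v), sg (c (some s(geo S.G S.o v i, geo S.G S.o v (i + 1))))

theorem spin_eq (v : V) (ω : Om V) : S.spin v ω = spc S v ω.1 := rfl

theorem measurable_spc (v : V) : Measurable (spc S v) := by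
  unfold spc
  have h : Measurable sg := measurable_from_top
  refine (h.comp (measurable_pi_apply _)).mul (Finset.measurable_prod _ fun i _ => ?_)
  exact h.comp (measurable_pi_apply _)

theorem sg_val (b : Bool) : sg b = 1 ∨ sg b = -1 := by
  cases b <;> simp [sg]

theorem prod_sg_val {ι : Type} (s : Finset ι) (f : ι → Bool) :
    ∏ i ∈ s, sg (f i) = 1 ∨ ∏ i ∈ s, sg (f i) = -1 := by
  classical
  induction s using Finset.induction_on with
  | empty => left; simp
  | insert a s ha ih =>
    rw [Finset.prod_insert ha]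
    rcases sg_val (f a) with h | h <;> rcases ih with h' | h' <;> rw [h, h'] <;> norm_num

theorem spc_val (v : V) (c : Option (Sym2 V) → Bool) : spc S v c = 1 ∨ spc S v c = -1 := by
  unfold spc
  rcases sg_val (c none) with h | h <;>
  rcases prod_sg_val (range (S.G.dist S.o v))
    (fun i => c (some s(geo S.G S.o v i, geo S.G S.o v (i + 1)))) with h' | h' <;>
  rw [h, h'] <;> norm_num

/-- the noise gauge -/
noncomputable def gau (v : V) (ω : Om V) : Om V :=
  (ω.1, fun w n => spc S v ω.1 * ω.2 w n)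

theorem map_gauss (ε : ℝ) (hε : ε = 1 ∨ ε = -1) :
    (μg (V := V)).map (fun ξ w n => ε * ξ w n) = μg := by
  have h1 : (gaussianReal 0 1).map (fun x => ε * x) = gaussianReal 0 1 := by
    rw [gaussianReal_map_const_mul]
    rcases hε with h | h <;> subst h <;> simp
  have h2 : (gmeas).map (fun x n => ε * x n) = gmeas := by
    have := Measure.infinitePi_map_pi (fun _ : ℕ => gaussianReal 0 1) (f := fun _ x => ε * x)
      (fun _ => by fun_prop)
    simp only [h1] at this
    exact this
  have := Measure.infinitePi_map_pi (fun _ : V => gmeas) (f := fun _ (x : ℕ → ℝ) n => ε * x n)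
      (fun _ => by fun_prop)
  simp only [h2] at this
  exact this

theorem mp_gau (v : V) : MeasurePreserving (gau S v) S.P S.P := by
  rw [P_eq]
  refine (MeasurePreserving.id (μc S)).skew_product
    (g := fun c (ξ : V → ℕ → ℝ) (w : V) (n : ℕ) => spc S v c * ξ w n) ?_ ?_
  · have := measurable_spc S v
    fun_prop
  · exact Filter.Eventually.of_forall fun c => map_gauss _ (spc_val S v c)

theorem spin_gau (v w : V) (ω : Om V) : S.spin w (gau S v ω) = S.spin w ω := rfl

/-- the gauged field -/
noncomputable def Y (s : ℝ≥0) (v w : V) (ω : Om V) : ℝ :=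
  s * (∏ i ∈ range (S.G.dist v w), sg (ω.1 (some s(geo S.G v w i, geo S.G v w (i + 1))))) +
    S.β.b s (ω.2 w)

theorem XX_eq (s : ℝ≥0) (v w : V) (ω : Om V) :
    S.XX s w ω = S.spin v ω * Y S s v w (gau S v ω) := by
  have h1 := S.spin_path v w ω
  have h2 := S.spin_sq v ω
  unfold Y Setup.XX Setup.B gau
  simp only
  rw [← h1]
  have h3 : S.β.b s (fun n => spc S v ω.1 * ω.2 w n) = S.spin v ω * S.β.b s (ω.2 w) := by
    rcases spc_val S v ω.1 with h | h
    · have h' : S.spin v ω = 1 := h
      rw [h', h, one_mul]; simp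
    · have h' : S.spin v ω = -1 := h
      rw [h', h, neg_one_mul, ← S.β.odd]
      congr 1
      ext n; simp
  rw [h3]
  linear_combination (- s * S.spin w ω - S.β.b s (ω.2 w)) * h2

/-- the set of coordinates used by the field gauged by `v` in `R` -/
def cs (v : V) (R : Set V) : Set (Option (Sym2 V) ⊕ V) :=
  Sum.inr '' R ∪ {c | ∃ w ∈ R, ∃ i < S.G.dist v w,
    c = Sum.inl (some s(geo S.G v w i, geo S.G v w (i + 1)))}

/-- information in a set of coordinates -/
@[reducible] def CO (C : Set (Option (Sym2 V) ⊕ V)) : MeasurableSpace (Om V) := ⨆ c ∈ C, co c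

theorem CO_le (C : Set (Option (Sym2 V) ⊕ V)) : CO C ≤ mOm V :=
  iSup₂_le fun c _ => co_le c

theorem CO_mono {C C' : Set (Option (Sym2 V) ⊕ V)} (h : C ⊆ C') : CO C ≤ CO C' :=
  biSup_mono fun _ hc => h hc

theorem meas_coin {C : Set (Option (Sym2 V) ⊕ V)} {o : Option (Sym2 V)} (h : Sum.inl o ∈ C) :
    Measurable[CO C] (fun ω : Om V => sg (ω.1 o)) := by
  have h1 : Measurable[co (Sum.inl o)] (fun ω : Om V => ω.1 o) := comap_measurable _
  have h2 : Measurable[CO C] (fun ω : Om V => ω.1 o) :=
    h1.mono (le_iSup₂ (f := fun c (_ : c ∈ C) => co (V := V) c) _ h) le_rfl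
  exact (measurable_from_top : Measurable sg).comp h2

theorem meas_noise {C : Set (Option (Sym2 V) ⊕ V)} {w : V} (h : Sum.inr w ∈ C) :
    Measurable[CO C] (fun ω : Om V => ω.2 w) := by
  have h1 : Measurable[co (Sum.inr w)] (fun ω : Om V => ω.2 w) := comap_measurable _
  exact h1.mono (le_iSup₂ (f := fun c (_ : c ∈ C) => co (V := V) c) _ h) le_rfl

theorem measurable_Y (s : ℝ≥0) (v : V) {R : Set V} {w : V} (hw : w ∈ R) :
    Measurable[CO (cs S v R)] (Y S s v w) := by
  unfold Y
  refine Measurable.add (Measurable.const_mul (Finset.measurable_prod _ fun i hi => ?_) _) ?_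
  · exact meas_coin (Or.inr ⟨w, hw, i, Finset.mem_range.mp hi, rfl⟩)
  · exact (S.β.meas s).comp (meas_noise (Or.inl ⟨w, hw, rfl⟩))

/-- index set of the observations in `R` -/
abbrev Idx (T : V → ℝ≥0) (R : Set V) : Type := {p : V × ℝ≥0 // p.1 ∈ R ∧ p.2 ≤ T p.1}

theorem dynkin (T : V → ℝ≥0) (R : Set V) (f : Om V → ℝ) (hf : Measurable[S.FF T R] f) :
    ∃ F : (Idx T R → ℝ) → ℝ, Measurable F ∧ ∀ ω, f ω = F (fun p => S.XX p.1.2 p.1.1 ω) := by
  have h1 : S.FF T R ≤ MeasurableSpace.comap (fun ω (p : Idx T R) => S.XX p.1.2 p.1.1 ω)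
      MeasurableSpace.pi := by
    refine iSup₂_le fun v hv => iSup₂_le fun s hs => ?_
    have : S.XX s v = (fun x : Idx T R → ℝ => x ⟨(v, s), hv, hs⟩) ∘
        (fun ω (p : Idx T R) => S.XX p.1.2 p.1.1 ω) := rfl
    rw [this, ← MeasurableSpace.comap_comp]
    exact MeasurableSpace.comap_mono (measurable_pi_apply _).comap_le
  obtain ⟨F, hF, hF2⟩ := (hf.mono h1 le_rfl).exists_eq_measurable_comp
  exact ⟨F, hF, fun ω => by rw [hF2]; rfl⟩

theorem indep_mul {C C' : Set (Option (Sym2 V) ⊕ V)} (h : Disjoint C C') {f g : Om V → ℝ}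
    (hf : Measurable[CO C] f) (hg : Measurable[CO C'] g) :
    ∫ ω, f ω * g ω ∂S.P = (∫ ω, f ω ∂S.P) * ∫ ω, g ω ∂S.P := by
  have h1 : Indep (CO C) (CO C') S.P := indep_iSup_of_disjoint co_le (iIndep_co S) h
  have h2 : IndepFun f g S.P := indep_of_indep_of_le_left (indep_of_indep_of_le_right h1 hg.comap_le)
    hf.comap_le
  exact h2.integral_fun_mul_eq_mul_integral (hf.mono (CO_le C) le_rfl).aestronglyMeasurable
    (hg.mono (CO_le C') le_rfl).aestronglyMeasurable

theorem indep_prod {ι : Type} (s : Finset ι) (C : ι → Set (Option (Sym2 V) ⊕ V))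
    (hC : Pairwise fun i j => Disjoint (C i) (C j)) (f : ι → Om V → ℝ)
    (hf : ∀ i, Measurable[CO (C i)] (f i)) :
    ∫ ω, ∏ i ∈ s, f i ω ∂S.P = ∏ i ∈ s, ∫ ω, f i ω ∂S.P := by
  classical
  have := S.isProb
  induction s using Finset.induction_on with
  | empty => simp
  | insert a s ha ih =>
    simp only [Finset.prod_insert ha]
    rw [← ih]
    refine indep_mul S (C := C a) (C' := ⋃ i ∈ s, C i) ?_ (hf a) ?_
    · rw [Set.disjoint_iUnion₂_right]
      intro i hi
      exact hC fun h => ha (h ▸ hi)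
    · refine Finset.measurable_prod _ fun i hi => (hf i).mono (CO_mono ?_) le_rfl
      exact Set.subset_biUnion_of_mem (u := C) hi

/-! geometry -/

theorem geo_first {v z w : V} (hz : S.G.Adj v z) (hw : w ∈ branch S.G v z) {i : ℕ}
    (hi : i < S.G.dist v w) : geo S.G v w (i + 1) ∈ branch S.G v z := by
  have hw' : S.G.dist w z < S.G.dist w v := hw
  have h1 : S.G.dist v z = 1 := SimpleGraph.dist_eq_one_iff_adj.mpr hz
  have hc := S.rt.tree.connected
  have h2 : S.G.dist v w ≤ S.G.dist v z + S.G.dist z w := hc.dist_triangle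
  rw [SimpleGraph.dist_comm (u := w) (v := z), SimpleGraph.dist_comm (u := w) (v := v)] at hw'
  have h3 : S.G.dist v z + S.G.dist z w = S.G.dist v w := by omega
  rw [geo_append S.rt v z w h3 (i + 1) (by omega)]
  split_ifs with h
  · have : i + 1 = S.G.dist v z := by omega
    rw [this, geo_dist S.rt]
    exact (self_mem_branch S.rt hz).1
  · exact geo_mem_branch S.rt hz hw _ (by omega)

theorem cs_disj_branch {v z z' : V} (hz : S.G.Adj v z) (hz' : S.G.Adj v z') (hne : z ≠ z') :
    Disjoint (cs S v (branch S.G v z)) (cs S v (branch S.G v z')) := by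
  have hd := branch_disjoint S.rt hz hz' hne
  rw [Set.disjoint_left]
  rintro c (⟨w, hw, rfl⟩ | ⟨w, hw, i, hi, rfl⟩) (⟨w', hw', h⟩ | ⟨w', hw', j, hj, h⟩)
  · have := Sum.inr.inj h
    subst this
    exact Set.disjoint_left.mp hd hw hw'
  · exact absurd h (by simp)
  · exact absurd h (by simp)
  · have h1 : s(geo S.G v w i, geo S.G v w (i + 1)) = s(geo S.G v w' j, geo S.G v w' (j + 1)) :=
      Option.some.inj (Sum.inl.inj h)
    have a1 := (dist_geo S.rt v w (i := i) hi.le).1
    have a2 := (dist_geo S.rt v w (i := i + 1) hi).1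
    have b1 := (dist_geo S.rt v w' (i := j) hj.le).1
    have b2 := (dist_geo S.rt v w' (i := j + 1) hj).1
    rcases Sym2.eq_iff.mp h1 with ⟨h2, h3⟩ | ⟨h2, h3⟩
    · have m1 := geo_first S hz hw hi
      have m2 := geo_first S hz' hw' hj
      rw [h3] at m1
      exact Set.disjoint_left.mp hd m1 m2
    · rw [h2] at a1
      rw [h3] at a2
      omega

theorem cs_single (v : V) : cs S v {v} = {Sum.inr v} := by
  ext c
  constructor
  · rintro (⟨w, hw, rfl⟩ | ⟨w, hw, i, hi, rfl⟩)
    · rw [Set.mem_singleton_iff.mp hw]; rfl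
    · rw [Set.mem_singleton_iff.mp hw, SimpleGraph.dist_self] at hi
      omega
  · intro h
    rw [Set.mem_singleton_iff.mp h]
    exact Or.inl ⟨v, rfl, rfl⟩

theorem cs_none (v : V) (R : Set V) : Sum.inl none ∉ cs S v R := by
  rintro (⟨w, hw, h⟩ | ⟨w, hw, i, hi, h⟩)
  · exact absurd h (by simp)
  · exact absurd (Sum.inl.inj h) (by simp)

theorem cs_edge {v z : V} (hz : S.G.Adj v z) :
    Sum.inl (some s(v, z)) ∉ cs S z (branch S.G v z) := by
  rintro (⟨w, hw, h⟩ | ⟨w, hw, i, hi, h⟩)
  · exact absurd h (by simp)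
  · have h1 : s(v, z) = s(geo S.G z w i, geo S.G z w (i + 1)) :=
      Option.some.inj (Sum.inl.inj h)
    have m1 := geo_mem_branch S.rt hz hw i hi.le
    have m2 := geo_mem_branch S.rt hz hw (i + 1) hi
    have h3 := (self_mem_branch S.rt hz).2
    rcases Sym2.eq_iff.mp h1 with ⟨h2, _⟩ | ⟨h2, _⟩
    · rw [← h2] at m1; exact h3 m1
    · rw [← h2] at m2; exact h3 m2

/-- coordinates other than the root coin kill the spin -/
theorem int_spin_mul (v : V) {C : Set (Option (Sym2 V) ⊕ V)} (hC : Sum.inl none ∉ C)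
    {f : Om V → ℝ} (hf : Measurable[CO C] f) : ∫ ω, S.spin v ω * f ω ∂S.P = 0 := by
  let C' : Set (Option (Sym2 V) ⊕ V) := {Sum.inl none}ᶜ
  have h1 : ∀ ω, S.spin v ω * f ω = sg (ω.1 none) *
      ((∏ i ∈ range (S.G.dist S.o v), sg (ω.1 (some s(geo S.G S.o v i, geo S.G S.o v (i + 1))))) *
        f ω) := by
    intro ω; unfold Setup.spin; ring
  have h2 : Measurable[CO C'] (fun ω : Om V =>
      (∏ i ∈ range (S.G.dist S.o v), sg (ω.1 (some s(geo S.G S.o v i, geo S.G S.o v (i + 1))))) *
        f ω) := by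
    refine Measurable.mul (Finset.measurable_prod _ fun i _ => meas_coin (by simp [C'])) ?_
    exact hf.mono (CO_mono fun c hc h => hC (h ▸ hc)) le_rfl
  have h3 : Measurable[CO {Sum.inl none}] (fun ω : Om V => sg (ω.1 none)) := meas_coin (by simp)
  simp_rw [h1]
  rw [indep_mul S (C := {Sum.inl none}) (C' := C') disjoint_compl_right h3 h2]
  have h4 : ∫ ω : Om V, sg (ω.1 none) ∂S.P = 0 := by
    have := S.integral_spin S.o
    have h5 : ∀ ω, S.spin S.o ω = sg (ω.1 none) := by
      intro ω; unfold Setup.spin; simp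
    simp_rw [h5] at this
    exact this
  rw [h4, zero_mul]

/-- the representation of a function of the observations in `R`. -/
theorem rep (T : V → ℝ≥0) (R : Set V) (v : V) (f : Om V → ℝ) (hf : Measurable[S.FF T R] f)
    (hb : ∃ C, ∀ ω, |f ω| ≤ C) :
    ∃ gp gm : Om V → ℝ, Measurable[CO (cs S v R)] gp ∧ Measurable[CO (cs S v R)] gm ∧
      (∃ C, ∀ ω, |gp ω| ≤ C) ∧ (∃ C, ∀ ω, |gm ω| ≤ C) ∧
      (∀ ω, S.spin v ω = 1 → f ω = gp (gau S v ω)) ∧
      (∀ ω, S.spin v ω = -1 → f ω = gm (gau S v ω)) := by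
  obtain ⟨F, hF, hF2⟩ := dynkin S T R f hf
  obtain ⟨C, hC⟩ := hb
  let F' : (Idx T R → ℝ) → ℝ := fun x => max (-|C|) (min |C| (F x))
  have hF' : Measurable F' := by fun_prop
  have hF'b : ∀ x, |F' x| ≤ |C| := by
    intro x
    rw [abs_le]
    exact ⟨le_max_left _ _, max_le (by linarith [abs_nonneg C]) (min_le_left _ _)⟩
  have hF'2 : ∀ ω, f ω = F' (fun p => S.XX p.1.2 p.1.1 ω) := by
    intro ω
    have h1 := abs_le.mp ((hC ω).trans (le_abs_self C))
    show f ω = max (-|C|) (min |C| (F _))
    rw [← hF2 ω, min_eq_right h1.2, max_eq_right h1.1]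
  have hY : Measurable[CO (cs S v R)] (fun ω (p : Idx T R) => Y S p.1.2 v p.1.1 ω) :=
    @measurable_pi_lambda _ _ _ (CO (cs S v R)) _ _ fun p => measurable_Y S p.1.2 v p.2.1
  have hY' : Measurable[CO (cs S v R)] (fun ω (p : Idx T R) => - Y S p.1.2 v p.1.1 ω) :=
    @measurable_pi_lambda _ _ _ (CO (cs S v R)) _ _ fun p => (measurable_Y S p.1.2 v p.2.1).neg
  refine ⟨fun ω => F' (fun p => Y S p.1.2 v p.1.1 ω), fun ω => F' (fun p => - Y S p.1.2 v p.1.1 ω),
    hF'.comp hY, hF'.comp hY', ⟨|C|, fun ω => hF'b _⟩, ⟨|C|, fun ω => hF'b _⟩, ?_, ?_⟩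
  · intro ω h
    rw [hF'2]
    congr 1
    ext p
    rw [XX_eq S _ v, h, one_mul]
  · intro ω h
    rw [hF'2]
    congr 1
    ext p
    rw [XX_eq S _ v, h, neg_one_mul]

theorem meas_bdd_int {f : Om V → ℝ} (hf : Measurable f) (hb : ∃ C, ∀ ω, |f ω| ≤ C) :
    Integrable f S.P := by
  have := S.isProb
  obtain ⟨C, hC⟩ := hb
  exact Integrable.of_bound hf.aestronglyMeasurable C (Filter.Eventually.of_forall hC)

end MsgCIaux

open MsgCIaux

namespace Setup

variable {V : Type} [DecidableEq V] [Countable V] (S : Setup V)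

/-- MSG-2: conditional independence at a vertex: own observation and the branches. -/
theorem ci_vertex (T : V → ℝ≥0) (v : V) (N : Finset V) (hN : ∀ z ∈ N, S.G.Adj v z) :
    Bayes.CI (ι := Option N) (S.spin v) (fun o => match o with
      | none => S.FF T {v}
      | some z => S.FF T (branch S.G v z)) S.P := by
  classical
  have hprob := S.isProb
  intro f hf hfb
  let R : Option N → Set V := fun o => match o with
    | none => {v}
    | some z => branch S.G v z
  have hfR : ∀ o, Measurable[S.FF T (R o)] (f o) := by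
    intro o
    rcases o with _ | z
    · exact hf none
    · exact hf (some z)
  have hdisj : Pairwise fun i j => Disjoint (cs S v (R i)) (cs S v (R j)) := by
    have key : ∀ z : N, Disjoint (cs S v {v}) (cs S v (branch S.G v z)) := by
      intro z
      rw [cs_single, Set.disjoint_singleton_left]
      rintro (⟨w, hw, h⟩ | ⟨w, hw, i, hi, h⟩)
      · have := Sum.inr.inj h
        subst this
        exact (self_mem_branch S.rt (hN z z.2)).2 hw
      · exact absurd h (by simp)
    intro i j hij
    rcases i with _ | z <;> rcases j with _ | z'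
    · exact absurd rfl hij
    · exact key z'
    · exact (key z).symm
    · refine cs_disj_branch S (hN z z.2) (hN z' z'.2) fun h => hij ?_
      rw [Subtype.ext h]
  choose gp gm hgp hgm hgpb hgmb hp hm using fun o => rep S T (R o) v (f o) (hfR o) (hfb o)
  have hsp := S.spin_val v
  have hmp := mp_gau S v
  have hgp' : ∀ o, Measurable (gp o) := fun o => (hgp o).mono (CO_le _) le_rfl
  have hgm' : ∀ o, Measurable (gm o) := fun o => (hgm o).mono (CO_le _) le_rfl
  have hmsp := S.measurable_spin v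
  -- general computation
  have calc1 : ∀ (g : Om V → ℝ), Measurable[CO (⋃ o, cs S v (R o))] g → (∃ C, ∀ ω, |g ω| ≤ C) →
      ∀ ε : ℝ, ∫ ω, (1 + ε * S.spin v ω) * g (gau S v ω) ∂S.P = ∫ ω, g ω ∂S.P := by
    intro g hg hgb ε
    have hg' : Measurable g := hg.mono (CO_le _) le_rfl
    have e1 : ∫ ω, (1 + ε * S.spin v ω) * g (gau S v ω) ∂S.P
        = ∫ ω, (1 + ε * S.spin v ω) * g ω ∂S.P := by
      have h1 : Measurable fun ω => (1 + ε * S.spin v ω) * g ω := by fun_prop
      have h2 := integral_map (μ := S.P) hmp.measurable.aemeasurable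
        (f := fun ω => (1 + ε * S.spin v ω) * g ω) h1.aestronglyMeasurable
      rw [hmp.map_eq] at h2
      rw [h2]
      rfl
    rw [e1]
    have i1 : Integrable g S.P := meas_bdd_int S hg' hgb
    have i2 : Integrable (fun ω => ε * (S.spin v ω * g ω)) S.P := by
      refine Integrable.const_mul (meas_bdd_int S (by fun_prop) ?_) ε
      obtain ⟨C, hC⟩ := hgb
      refine ⟨C, fun ω => ?_⟩
      rw [abs_mul]
      have : |S.spin v ω| = 1 := by rcases hsp ω with h | h <;> rw [h] <;> simp
      rw [this, one_mul]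
      exact hC ω
    have e2 : ∀ ω, (1 + ε * S.spin v ω) * g ω = g ω + ε * (S.spin v ω * g ω) := fun ω => by ring
    simp_rw [e2]
    rw [integral_add i1 i2, integral_const_mul, int_spin_mul S v ?_ hg]
    · simp
    · simp only [Set.mem_iUnion, not_exists]
      exact fun o => cs_none S v _
  have hsub : ∀ o, CO (cs S v (R o)) ≤ CO (⋃ o, cs S v (R o)) := fun o =>
    CO_mono (Set.subset_iUnion (fun o => cs S v (R o)) o)
  have hprodb : ∀ (g : Option N → Om V → ℝ), (∀ o, ∃ C, ∀ ω, |g o ω| ≤ C) →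
      ∃ C, ∀ ω, |∏ o, g o ω| ≤ C := by
    intro g hg
    choose C hC using hg
    refine ⟨∏ o, C o, fun ω => ?_⟩
    rw [Finset.abs_prod]
    exact Finset.prod_le_prod (fun o _ => abs_nonneg _) fun o _ => hC o ω
  constructor
  · have a1 : ∀ ω, (1 + S.spin v ω) * ∏ o, f o ω
        = (1 + 1 * S.spin v ω) * (fun ω => ∏ o, gp o ω) (gau S v ω) := by
      intro ω
      rcases hsp ω with h | h
      · simp only [one_mul]
        congr 1
        exact Finset.prod_congr rfl fun o _ => hp o ω h
      · rw [h]; ring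
    have a2 : ∀ o, ∫ ω, (1 + S.spin v ω) * f o ω ∂S.P = ∫ ω, gp o ω ∂S.P := by
      intro o
      rw [← calc1 (gp o) ((hgp o).mono (hsub o) le_rfl) (hgpb o) 1]
      refine integral_congr_ae (Filter.Eventually.of_forall fun ω => ?_)
      rcases hsp ω with h | h
      · simp only [one_mul]
        rw [hp o ω h]
      · simp only [h]; ring
    simp_rw [a1, a2]
    rw [calc1 _ (Finset.measurable_prod _ fun o _ => (hgp o).mono (hsub o) le_rfl)
      (hprodb gp hgpb) 1, indep_prod S _ _ hdisj gp hgp]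
  · have a1 : ∀ ω, (1 - S.spin v ω) * ∏ o, f o ω
        = (1 + (-1) * S.spin v ω) * (fun ω => ∏ o, gm o ω) (gau S v ω) := by
      intro ω
      rcases hsp ω with h | h
      · rw [h]; ring
      · rw [h]
        have : (1 - -1 : ℝ) = 1 + (-1) * (-1) := by ring
        rw [this]
        congr 1
        exact Finset.prod_congr rfl fun o _ => hm o ω h
    have a2 : ∀ o, ∫ ω, (1 - S.spin v ω) * f o ω ∂S.P = ∫ ω, gm o ω ∂S.P := by
      intro o
      rw [← calc1 (gm o) ((hgm o).mono (hsub o) le_rfl) (hgmb o) (-1)]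
      refine integral_congr_ae (Filter.Eventually.of_forall fun ω => ?_)
      rcases hsp ω with h | h
      · simp only [h]; ring
      · simp only [h]
        rw [hm o ω h]; ring
    simp_rw [a1, a2]
    rw [calc1 _ (Finset.measurable_prod _ fun o _ => (hgm o).mono (hsub o) le_rfl)
      (hprodb gm hgmb) (-1), indep_prod S _ _ hdisj gm hgm]

/-- MSG-3: `E[τ_v | branch v z] = θ E[τ_z | branch v z]`. -/
theorem condExp_cross (T : V → ℝ≥0) {v z : V} (hz : S.G.Adj v z) :
    S.P[S.spin v | S.FF T (branch S.G v z)] =ᵐ[S.P]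
      fun ω => S.θ * (S.P[S.spin z | S.FF T (branch S.G v z)]) ω := by
  have hprob := S.isProb
  have hm : S.FF T (branch S.G v z) ≤ mOm V := S.FF_le T _
  have hsb : ∀ w, Integrable (S.spin w) S.P := by
    intro w
    refine meas_bdd_int S (S.measurable_spin w) ⟨1, fun ω => ?_⟩
    rcases S.spin_val w ω with h | h <;> rw [h] <;> simp
  symm
  refine ae_eq_condExp_of_forall_setIntegral_eq hm (hsb v) ?_ ?_ ?_
  · intro s _ _
    exact (integrable_condExp.const_mul _).integrableOn
  · intro s hs _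
    rw [integral_const_mul, setIntegral_condExp hm (hsb z) hs]
    obtain ⟨gp, gm, hgp, hgm, hgpb, hgmb, hp, hn⟩ := rep S T (branch S.G v z) z
      (s.indicator fun _ => (1 : ℝ)) (measurable_const.indicator hs) ⟨1, fun ω => by
        by_cases h : ω ∈ s
        · rw [Set.indicator_of_mem h]; simp
        · rw [Set.indicator_of_notMem h]; simp⟩
    have hms : MeasurableSet s := hm s hs
    have e1 : ∀ w, ∫ ω in s, S.spin w ω ∂S.P = ∫ ω, S.spin w ω * s.indicator (fun _ => (1 : ℝ)) ω ∂S.P := by
      intro w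
      rw [← integral_indicator hms]
      refine integral_congr_ae (Filter.Eventually.of_forall fun ω => ?_)
      by_cases h : ω ∈ s
      · simp [Set.indicator_of_mem h]
      · simp [Set.indicator_of_notMem h]
    rw [e1, e1]
    have hmp := mp_gau S z
    have hgp' : Measurable gp := hgp.mono (CO_le _) le_rfl
    have hgm' : Measurable gm := hgm.mono (CO_le _) le_rfl
    have hmz := S.measurable_spin z
    have hmv := S.measurable_spin v
    let η : Om V → ℝ := fun ω => sg (ω.1 (some s(v, z)))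
    have hη : Measurable η := (meas_coin (C := Set.univ) (Set.mem_univ _)).mono (CO_le _) le_rfl
    have hηb : ∀ ω, |η ω| = 1 := by
      intro ω
      rcases sg_val (ω.1 (some s(v, z))) with h | h <;> simp only [η] <;> rw [h] <;> simp
    have hzb : ∀ ω, |S.spin z ω| = 1 := by
      intro ω
      rcases S.spin_val z ω with h | h <;> rw [h] <;> simp
    have hvz : ∀ ω, S.spin v ω = η ω * S.spin z ω := by
      intro ω
      have h1 := S.spin_adj hz ω
      have h2 := S.spin_sq z ω
      show S.spin v ω = sg (ω.1 (some s(v, z))) * S.spin z ω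
      rw [← h1]
      linear_combination (- S.spin v ω) * h2
    let d : Om V → ℝ := fun ω => (gp ω - gm ω) / 2
    let a : Om V → ℝ := fun ω => (gp ω + gm ω) / 2
    have hd : Measurable[CO (cs S z (branch S.G v z))] d := (hgp.sub hgm).div_const 2
    have ha : Measurable[CO (cs S z (branch S.G v z))] a := (hgp.add hgm).div_const 2
    have hd' : Measurable d := hd.mono (CO_le _) le_rfl
    have ha' : Measurable a := ha.mono (CO_le _) le_rfl
    obtain ⟨Cp, hCp⟩ := hgpb
    obtain ⟨Cm, hCm⟩ := hgmb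
    have hdb : ∀ ω, |d ω| ≤ Cp + Cm := by
      intro ω
      have h1 := abs_le.mp (hCp ω)
      have h2 := abs_le.mp (hCm ω)
      show |(gp ω - gm ω) / 2| ≤ _
      rw [abs_le]; constructor <;> linarith
    have hab : ∀ ω, |a ω| ≤ Cp + Cm := by
      intro ω
      have h1 := abs_le.mp (hCp ω)
      have h2 := abs_le.mp (hCm ω)
      show |(gp ω + gm ω) / 2| ≤ _
      rw [abs_le]; constructor <;> linarith
    have e2 : ∀ ω, S.spin z ω * s.indicator (fun _ => (1 : ℝ)) ω
        = (fun ω => d ω + S.spin z ω * a ω) (gau S z ω) := by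
      intro ω
      show _ = d (gau S z ω) + S.spin z ω * a (gau S z ω)
      rcases S.spin_val z ω with h | h
      · rw [hp ω h, h]; simp only [d, a]; ring
      · rw [hn ω h, h]; simp only [d, a]; ring
    have e3 : ∀ ω, S.spin v ω * s.indicator (fun _ => (1 : ℝ)) ω
        = (fun ω => η ω * d ω + S.spin z ω * (η ω * a ω)) (gau S z ω) := by
      intro ω
      rw [hvz, mul_assoc, e2]
      show η ω * (d (gau S z ω) + S.spin z ω * a (gau S z ω)) =
        η ω * d (gau S z ω) + S.spin z ω * (η ω * a (gau S z ω))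
      ring
    have tr : ∀ g : Om V → ℝ, Measurable g → ∫ ω, g (gau S z ω) ∂S.P = ∫ ω, g ω ∂S.P := by
      intro g hg
      have h2 := integral_map (μ := S.P) hmp.measurable.aemeasurable (f := g)
        hg.aestronglyMeasurable
      rw [hmp.map_eq] at h2
      exact h2.symm
    have t1 := tr (fun ω => d ω + S.spin z ω * a ω) (by fun_prop)
    have t2 := tr (fun ω => η ω * d ω + S.spin z ω * (η ω * a ω)) (by fun_prop)
    rw [integral_congr_ae (Filter.Eventually.of_forall e2),
      integral_congr_ae (Filter.Eventually.of_forall e3), t1, t2]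
    have i1 : Integrable d S.P := meas_bdd_int S hd' ⟨_, hdb⟩
    have i2 : Integrable (fun ω => S.spin z ω * a ω) S.P := meas_bdd_int S (by fun_prop)
      ⟨Cp + Cm, fun ω => by rw [abs_mul, hzb, one_mul]; exact hab ω⟩
    have i3 : Integrable (fun ω => η ω * d ω) S.P := meas_bdd_int S (by fun_prop)
      ⟨Cp + Cm, fun ω => by rw [abs_mul, hηb, one_mul]; exact hdb ω⟩
    have i4 : Integrable (fun ω => S.spin z ω * (η ω * a ω)) S.P := meas_bdd_int S (by fun_prop)
      ⟨Cp + Cm, fun ω => by rw [abs_mul, hzb, one_mul, abs_mul, hηb, one_mul]; exact hab ω⟩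
    rw [integral_add i1 i2, integral_add i3 i4, int_spin_mul S z (cs_none S z _) ha]
    have hηm : Measurable[CO {Sum.inl (some s(v, z))}] η := meas_coin (by simp)
    have e4 : ∫ ω, S.spin z ω * (η ω * a ω) ∂S.P = 0 := by
      refine int_spin_mul S z (C := {Sum.inl (some s(v, z))} ∪ cs S z (branch S.G v z)) ?_ ?_
      · rintro (h | h)
        · exact absurd h (by simp)
        · exact cs_none S z _ h
      · exact (hηm.mono (CO_mono Set.subset_union_left) le_rfl).mul
          (ha.mono (CO_mono Set.subset_union_right) le_rfl)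
    have e5 : ∫ ω, η ω * d ω ∂S.P = S.θ * ∫ ω, d ω ∂S.P := by
      rw [indep_mul S (Set.disjoint_singleton_left.mpr (cs_edge S hz)) hηm hd]
      congr 1
      rw [← S.integral_edge hz]
      refine integral_congr_ae (Filter.Eventually.of_forall fun ω => ?_)
      exact (S.spin_adj hz ω).symm
    rw [e4, e5, add_zero, add_zero]
  · exact (stronglyMeasurable_condExp.const_mul _).aestronglyMeasurable

end Setup
end Crest.Agent.R160
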