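import Crest.Agent.R160.MsgSite
import Crest.Agent.R160.MsgCI

/-! Row 160, piece MSG-MAG: the messages and magnetisations are conditional expectations. -/

set_option autoImplicit false
open Finset Filter MeasureTheory ProbabilityTheory
open scoped Topology NNReal ENNReal

namespace Crest.Agent.R160

namespace MsgMagaux

variable {V : Type} [DecidableEq V] [Countable V] (S : Setup V)

omit [Countable V] in
theorem tanh_mono {a b : ℝ} (h : a ≤ b) : Real.tanh a ≤ Real.tanh b := by
  by_contra hlt
  rw [not_le] at hlt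
  have h1 := (abs_lt.1 (Real.abs_tanh_lt_one b)).1
  have h2 := (abs_lt.1 (Real.abs_tanh_lt_one a)).2
  have := Real.artanh_lt_artanh h1 h2 hlt
  rw [Real.artanh_tanh, Real.artanh_tanh] at this
  linarith

/-- the part of the branch of `y` (seen from `x`) at distance `< n` of `y`. -/
def bb : ℕ → V → V → Set V
  | 0, _, _ => ∅
  | n + 1, x, y => {y} ∪ ⋃ z ∈ (S.G.neighborFinset y).erase x, bb n y z

omit [Countable V] in
theorem bb_succ (n : ℕ) (x y : V) :
    bb S (n + 1) x y = {y} ∪ ⋃ z ∈ (S.G.neighborFinset y).erase x, bb S n y z := rfl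

omit [Countable V] in
theorem adj_of_mem_erase {x y z : V} (hz : z ∈ (S.G.neighborFinset y).erase x) : S.G.Adj y z := by
  have := Finset.mem_of_mem_erase hz
  simpa using this

omit [Countable V] in
theorem bb_mono_succ (n : ℕ) : ∀ x y, bb S n x y ⊆ bb S (n + 1) x y := by
  induction n with
  | zero => intro x y; exact Set.empty_subset _
  | succ n ih =>
    intro x y
    rw [bb_succ, bb_succ]
    exact Set.union_subset_union_right _ (Set.iUnion₂_mono fun z _ => ih y z)

omit [Countable V] in
theorem bb_mono (x y : V) : Monotone fun n => bb S n x y :=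
  monotone_nat_of_le_succ fun n => bb_mono_succ S n x y

omit [Countable V] in
theorem bb_subset_branch (n : ℕ) : ∀ x y, S.G.Adj x y → bb S n x y ⊆ branch S.G x y := by
  induction n with
  | zero => intro x y _; exact Set.empty_subset _
  | succ n ih =>
    intro x y hxy
    rw [bb_succ, branch_eq S.rt hxy]
    exact Set.union_subset_union_right _
      (Set.iUnion₂_mono fun z hz => ih y z (adj_of_mem_erase S hz))

omit [Countable V] in
theorem branch_subset_bb (n : ℕ) : ∀ x y w, S.G.Adj x y → w ∈ branch S.G x y → S.G.dist w y < n →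
    w ∈ bb S n x y := by
  induction n with
  | zero => intro x y w _ _ h; omega
  | succ n ih =>
    intro x y w hxy hw hd
    rw [branch_eq S.rt hxy] at hw
    rw [bb_succ]
    rcases hw with hw | hw
    · exact Or.inl hw
    · right
      obtain ⟨z, hz, hw⟩ := Set.mem_iUnion₂.1 hw
      have hlt : S.G.dist w z < S.G.dist w y := hw
      exact Set.mem_iUnion₂.2 ⟨z, hz, ih y z w (adj_of_mem_erase S hz) hw (by omega)⟩

omit [DecidableEq V] [Countable V] in
theorem sub_union {y : V} {N : Finset V} {R : V → Set V} {z : V} (hz : z ∈ N) :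
    R z ⊆ {y} ∪ ⋃ z ∈ N, R z := fun w hw =>
  Or.inr (Set.mem_iUnion₂.2 ⟨z, hz, hw⟩)

theorem FF_option (T : V → ℝ≥0) (v : V) (N : Finset V) (R : V → Set V) :
    S.FF T ({v} ∪ ⋃ z ∈ N, R z) = ⨆ o : Option N, (match o with
      | none => S.FF T {v}
      | some z => S.FF T (R z)) := by
  apply le_antisymm
  · refine iSup₂_le fun w hw => ?_
    rcases hw with hw | hw
    · exact le_iSup_of_le none (le_iSup₂ (f := fun v' (_ : v' ∈ ({v} : Set V)) =>
        ⨆ s ∈ Set.Iic (T v'), MeasurableSpace.comap (S.XX s v') inferInstance) w hw)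
    · obtain ⟨z, hz, hw⟩ := Set.mem_iUnion₂.1 hw
      exact le_iSup_of_le (some ⟨z, hz⟩) (le_iSup₂ (f := fun v (_ : v ∈ R z) =>
        ⨆ s ∈ Set.Iic (T v), MeasurableSpace.comap (S.XX s v) inferInstance) w hw)
  · refine iSup_le fun o => ?_
    rcases o with _ | ⟨z, hz⟩
    · exact S.FF_mono le_rfl Set.subset_union_left
    · exact S.FF_mono le_rfl (sub_union hz)

theorem integrable_spin (v : V) : Integrable (S.spin v) S.P := by
  refine Integrable.of_bound (S.measurable_spin v).aestronglyMeasurable 1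
    (Eventually.of_forall fun ω => ?_)
  rcases S.spin_val v ω with h | h <;> rw [h] <;> simp

omit [Countable V] in
theorem FF_single (T : V → ℝ≥0) (v : V) : S.FF T {v} = S.FF (fun _ => T v) {v} := by
  simp only [Setup.FF, Set.mem_singleton_iff, iSup_iSup_eq_left]

omit [Countable V] in
theorem measurable_XX_FF (T : V → ℝ≥0) {R : Set V} {v : V} (hv : v ∈ R) :
    Measurable[S.FF T R] (S.XX (T v) v) := by
  have h1 : MeasurableSpace.comap (S.XX (T v) v) inferInstance ≤ S.FF T R :=
    (le_iSup₂ (f := fun s (_ : s ∈ Set.Iic (T v)) =>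
      MeasurableSpace.comap (S.XX s v) inferInstance) (T v) (Set.mem_Iic.2 le_rfl)).trans
      (le_iSup₂ (f := fun v (_ : v ∈ R) =>
        ⨆ s ∈ Set.Iic (T v), MeasurableSpace.comap (S.XX s v) inferInstance) v hv)
  exact measurable_iff_comap_le.2 h1

/-- one step of the Bayes recursion. -/
theorem step (T : V → ℝ≥0) (y : V) (N : Finset V) (hN : ∀ z ∈ N, S.G.Adj y z) (R : V → Set V)
    (hR : ∀ z ∈ N, R z ⊆ branch S.G y z) (f : V → Om V → ℝ)
    (hf : ∀ z ∈ N, Measurable[S.FF T (R z)] (f z))
    (hm : ∀ z ∈ N, S.P[S.spin z | S.FF T (R z)] =ᵐ[S.P] fun ω => Real.tanh (f z ω)) :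
    S.P[S.spin y | S.FF T ({y} ∪ ⋃ z ∈ N, R z)] =ᵐ[S.P]
      fun ω => Real.tanh (S.XX (T y) y ω + ∑ z ∈ N, gf S.θ (f z ω)) := by
  have hci := S.ci_vertex T y N hN
  have hb := Bayes.bayes (μ := S.P) (ι := Option N) (S.spin y) (S.measurable_spin y)
    (S.spin_val y) (S.integral_spin y)
    (fun o => match o with
      | none => S.FF T {y}
      | some z => S.FF T (R z)) (by
        intro o
        rcases o with _ | z
        · exact S.FF_le _ _
        · exact S.FF_le _ _) (by
        intro g hg hgb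
        refine hci g (fun o => ?_) hgb
        rcases o with _ | ⟨z, hz⟩
        · exact hg none
        · exact (hg (some ⟨z, hz⟩)).mono (S.FF_mono le_rfl (hR z hz)) le_rfl)
    (fun o ω => match o with
      | none => S.XX (T y) y ω
      | some z => gf S.θ (f z ω)) (by
        intro o
        rcases o with _ | ⟨z, hz⟩
        · exact measurable_XX_FF S T (Set.mem_singleton y)
        · exact (gf_continuous S.θpos S.theta_lt_one).measurable.comp (hf z hz)) (by
        intro o
        rcases o with _ | ⟨z, hz⟩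
        · show S.P[S.spin y | S.FF T {y}] =ᵐ[S.P] fun ω => Real.tanh (S.XX (T y) y ω)
          rw [FF_single]
          exact S.condExp_site (T y) y
        · show S.P[S.spin y | S.FF T (R z)] =ᵐ[S.P] fun ω => Real.tanh (gf S.θ (f z ω))
          have h1 : S.P[S.P[S.spin y | S.FF T (branch S.G y z)] | S.FF T (R z)] =ᵐ[S.P]
              S.P[S.spin y | S.FF T (R z)] :=
            condExp_condExp_of_le (S.FF_mono le_rfl (hR z hz)) (S.FF_le _ _)
          have h2 : S.P[S.P[S.spin z | S.FF T (branch S.G y z)] | S.FF T (R z)] =ᵐ[S.P]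
              S.P[S.spin z | S.FF T (R z)] :=
            condExp_condExp_of_le (S.FF_mono le_rfl (hR z hz)) (S.FF_le _ _)
          have h3 := condExp_congr_ae (m := S.FF T (R z)) (S.condExp_cross T (hN z hz))
          have h4 : S.P[fun ω => S.θ * (S.P[S.spin z | S.FF T (branch S.G y z)]) ω | S.FF T (R z)]
              =ᵐ[S.P] S.θ • S.P[S.P[S.spin z | S.FF T (branch S.G y z)] | S.FF T (R z)] :=
            condExp_smul S.θ _ _
          filter_upwards [h1, h2, h3, h4, hm z hz] with ω e1 e2 e3 e4 e5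
          rw [← e1, e3, e4, Pi.smul_apply, e2, e5, tanh_gf S.θpos S.theta_lt_one, smul_eq_mul])
  rw [FF_option]
  refine hb.trans (Eventually.of_forall fun ω => ?_)
  simp only [Fintype.sum_option]
  rw [Finset.sum_coe_sort N (fun z => gf S.θ (f z ω))]

theorem measurable_fld (T : V → ℝ≥0) (n : ℕ) : ∀ x y,
    Measurable[S.FF T (bb S n x y)] fun ω => S.fld n x y (S.XT T ω) := by
  induction n with
  | zero => intro x y; exact measurable_const
  | succ n ih =>
    intro x y
    simp only [Setup.fld]
    refine Measurable.add (measurable_XX_FF S T (Or.inl rfl)) ?_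
    refine Finset.measurable_fun_sum _ fun z hz => ?_
    have h1 : S.FF T (bb S n y z) ≤ S.FF T (bb S (n + 1) x y) := by
      rw [bb_succ]
      exact S.FF_mono le_rfl (sub_union (R := fun z => bb S n y z) hz)
    exact (gf_continuous S.θpos S.theta_lt_one).measurable.comp ((ih y z).mono h1 le_rfl)

theorem condExp_fld (T : V → ℝ≥0) (n : ℕ) : ∀ x y,
    S.P[S.spin y | S.FF T (bb S n x y)] =ᵐ[S.P] fun ω => Real.tanh (S.fld n x y (S.XT T ω)) := by
  induction n with
  | zero =>
    intro x y
    have h1 : S.FF T (bb S 0 x y) = ⊥ := by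
      simp [Setup.FF, bb]
    rw [h1, condExp_bot, S.integral_spin y]
    refine Eventually.of_forall fun ω => ?_
    simp [Setup.fld]
  | succ n ih =>
    intro x y
    rw [bb_succ]
    exact step S T y ((S.G.neighborFinset y).erase x) (fun z hz => adj_of_mem_erase S hz)
      (fun z => bb S n y z) (fun z hz => bb_subset_branch S n y z (adj_of_mem_erase S hz))
      (fun z ω => S.fld n y z (S.XT T ω)) (fun z _ => measurable_fld S T n y z)
      (fun z _ => ih y z)

/-- filtration of the truncated branches. -/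
noncomputable def filt (T : V → ℝ≥0) (x y : V) : Filtration ℕ (mOm V) where
  seq n := S.FF T (bb S n x y)
  mono' _ _ h := S.FF_mono le_rfl (bb_mono S x y h)
  le' _ := S.FF_le _ _

theorem iSup_filt (T : V → ℝ≥0) {x y : V} (hxy : S.G.Adj x y) :
    ⨆ n, filt S T x y n = S.FF T (branch S.G x y) := by
  apply le_antisymm
  · exact iSup_le fun n => S.FF_mono le_rfl (bb_subset_branch S n x y hxy)
  · refine iSup₂_le fun w hw => ?_
    refine le_iSup_of_le (S.G.dist w y + 1) ?_
    exact le_iSup₂ (f := fun v (_ : v ∈ bb S (S.G.dist w y + 1) x y) =>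
        ⨆ s ∈ Set.Iic (T v), MeasurableSpace.comap (S.XX s v) inferInstance) w
        (branch_subset_bb S _ x y w hxy hw (Nat.lt_succ_self _))

theorem main (T : V → ℝ≥0) {x y : V} (hxy : S.G.Adj x y) : ∀ᵐ ω ∂S.P,
    Tendsto (fun n => S.fld n x y (S.XT T ω)) atTop (𝓝 (S.cav x y (S.XT T ω))) ∧
    (S.P[S.spin y | S.FF T (branch S.G x y)]) ω = Real.tanh (S.cav x y (S.XT T ω)) := by
  have h1 := tendsto_ae_condExp (μ := S.P) (ℱ := filt S T x y) (S.spin y)
  rw [iSup_filt S T hxy] at h1
  have h2 : ∀ᵐ ω ∂S.P, ∀ n, (S.P[S.spin y | S.FF T (bb S n x y)]) ω =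
      Real.tanh (S.fld n x y (S.XT T ω)) := ae_all_iff.2 fun n => condExp_fld S T n x y
  filter_upwards [h1, h2] with ω h1 h2
  set L := (S.P[S.spin y | S.FF T (branch S.G x y)]) ω with hL
  have h3 : Tendsto (fun n => Real.tanh (S.fld n x y (S.XT T ω))) atTop (𝓝 L) := by
    refine h1.congr fun n => ?_
    exact h2 n
  set K := |S.XT T ω y| + S.d * Real.artanh S.θ with hK
  have hb : ∀ n, |S.fld n x y (S.XT T ω)| ≤ K := fun n => S.fld_abs_le n x y _
  have hu : L ≤ Real.tanh K := le_of_tendsto h3 (Eventually.of_forall fun n =>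
    tanh_mono (abs_le.1 (hb n)).2)
  have hl : Real.tanh (-K) ≤ L := ge_of_tendsto h3 (Eventually.of_forall fun n =>
    tanh_mono (abs_le.1 (hb n)).1)
  have hL1 : |L| < 1 := by
    rw [abs_lt]
    exact ⟨lt_of_lt_of_le (abs_lt.1 (Real.abs_tanh_lt_one (-K))).1 hl,
      lt_of_le_of_lt hu (abs_lt.1 (Real.abs_tanh_lt_one K)).2⟩
  have h4 : Tendsto (fun n => S.fld n x y (S.XT T ω)) atTop (𝓝 (Real.artanh L)) := by
    have h5 := ((DetAaux.hasDerivAt_artanh hL1).continuousAt.tendsto).comp h3
    refine h5.congr fun n => ?_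
    simp only [Function.comp, Real.artanh_tanh]
  have h6 : S.cav x y (S.XT T ω) = Real.artanh L := h4.limsup_eq
  rw [h6]
  exact ⟨h4, (Real.tanh_artanh (abs_lt.1 hL1)).symm⟩

end MsgMagaux

namespace Setup

variable {V : Type} [DecidableEq V] [Countable V] (S : Setup V)

/-- MSG-4: the fields `fld n x y` converge a.s. (they are `artanh` of `E[τ_y | branch ∩ ball]`,
a bounded martingale in `n`) and their limit is the conditional expectation. -/
theorem ae_good (T : V → ℝ≥0) : ∀ᵐ ω ∂S.P, S.Good (S.XT T ω) := by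
  have h : ∀ᵐ ω ∂S.P, ∀ x y, S.G.Adj x y →
      Tendsto (fun n => S.fld n x y (S.XT T ω)) atTop (𝓝 (S.cav x y (S.XT T ω))) := by
    rw [ae_all_iff]; intro x
    rw [ae_all_iff]; intro y
    by_cases hxy : S.G.Adj x y
    · filter_upwards [MsgMagaux.main S T hxy] with ω h _
      exact h.1
    · exact Eventually.of_forall fun ω h => absurd h hxy
  exact h

theorem condExp_msg (T : V → ℝ≥0) {x y : V} (hxy : S.G.Adj x y) :
    S.P[S.spin y | S.FF T (branch S.G x y)] =ᵐ[S.P] fun ω => S.msg x y (S.XT T ω) := by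
  filter_upwards [MsgMagaux.main S T hxy] with ω h
  exact h.2

theorem condExp_mag (T : V → ℝ≥0) (v : V) :
    S.P[S.spin v | S.FF T Set.univ] =ᵐ[S.P] fun ω => S.mag v (S.XT T ω) := by
  rw [univ_eq S.rt v]
  exact MsgMagaux.step S T v (S.G.neighborFinset v) (fun z hz => by simpa using hz)
    (fun z => branch S.G v z) (fun z _ => Set.Subset.refl _)
    (fun z ω => S.cav v z (S.XT T ω))
    (fun z hz => S.measurable_cav_FF T (by simpa using hz))
    (fun z hz => S.condExp_msg T (by simpa using hz))

end Setup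
end Crest.Agent.R160
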