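import Crest.Agent.R160.Range
import Crest.Agent.R160.Indep
import Crest.Agent.R160.MsgMag

/-! Row 160, piece CONC. (RANGE: the shell energy is small in mean from `K ≥ C/√t` on, and piece CONC:
its concentration.

RANGE. `E Hb x y K (X_t) = ((d-1)θ²)^K E ∏φ² =: h_K`. Let `α_K = E A_vu²`, `dist v u = K` (all `u`
are equivalent); `η_K(t) = (d-1)^K α_K(t)` is nonincreasing in `K` and `∑_{k ≤ K} η_k ≤ ∑_u E A_vu²`;
`q_lower` on `[t/2, t]` gives `s ∈ [t/2,t]` with `K η_K(s) ≤ (2/t) q(t) + ε ≤ C/√t`.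
`α_K(t) ≤ θ^K E A_vu(t) ≤ θ^K E A_vu(s) ≤ θ^K √α_K(s)`. Finally `E ∏φ² ≤ 4 E (s_v ∏ φ)² + P(s_v < 1/2)`
and `P(m_v² > 1/2) ≤ 2 q(t)`, small for small `t`; for `t ≥ t0` use `aa_decay`.

CONC. `Hb x y (2K) ≤ θ^(2K) ∑_{w ∈ bsph x y K} Hb (pred w) w K`, the `(d-1)^K` summands are in
`[0,1]`, independent (even functionals of disjoint branches) with mean `≤ ε/4`; Chernoff with
`e^z ≤ 1 + (e-1) z`. -/

set_option autoImplicit false
set_option linter.unusedSectionVars false
open Finset Filter MeasureTheory ProbabilityTheory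
open scoped Topology NNReal ENNReal

namespace Crest.Agent.R160

namespace Concaux

/-- `e^z ≤ 1 + 2 z` on `[0,1]`. -/
theorem exp_le {z : ℝ} (h0 : 0 ≤ z) (h1 : z ≤ 1) : Real.exp z ≤ 1 + 2 * z := by
  have hc := convexOn_exp.2 (Set.mem_univ (0 : ℝ)) (Set.mem_univ (1 : ℝ))
    (show 0 ≤ 1 - z by linarith) h0 (by ring)
  simp only [smul_eq_mul, mul_zero, mul_one, zero_add, Real.exp_zero] at hc
  have he : Real.exp 1 < 3 := Real.exp_one_lt_three
  nlinarith

/-- Chernoff bound for independent variables with values in `[0,1]`. -/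
theorem chernoff {Ω : Type*} [MeasurableSpace Ω] {μ : Measure Ω} [IsProbabilityMeasure μ]
    {ι : Type*} [Fintype ι] (Z : ι → Ω → ℝ) (hm : ∀ i, Measurable (Z i)) (hI : iIndepFun Z μ)
    (h01 : ∀ i, ∀ᵐ ω ∂μ, 0 ≤ Z i ω ∧ Z i ω ≤ 1) (δ : ℝ)
    (hδ : ∀ i, ∫ ω, Z i ω ∂μ ≤ δ) (a : ℝ) :
    μ.real {ω | a < ∑ i, Z i ω} ≤ Real.exp (-a + 2 * δ * Fintype.card ι) := by
  have hint : ∀ i, Integrable (Z i) μ := fun i =>
    Integrable.of_bound (hm i).aestronglyMeasurable 1 ((h01 i).mono fun ω h => by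
      rw [Real.norm_eq_abs, abs_le]; constructor <;> linarith [h.1, h.2])
  have hexp : ∀ i, Integrable (fun ω => Real.exp (1 * Z i ω)) μ := fun i =>
    Integrable.of_bound ((hm i).const_mul 1).exp.aestronglyMeasurable (Real.exp 1)
      ((h01 i).mono fun ω h => by
        rw [Real.norm_eq_abs, abs_of_pos (Real.exp_pos _)]
        exact Real.exp_le_exp.2 (by linarith [h.2]))
  have hmgf : ∀ i, mgf (Z i) μ 1 ≤ Real.exp (2 * δ) := by
    intro i
    calc mgf (Z i) μ 1 = ∫ ω, Real.exp (1 * Z i ω) ∂μ := rfl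
      _ ≤ ∫ ω, (1 + 2 * Z i ω) ∂μ := by
          refine integral_mono_ae (hexp i) ((integrable_const _).add ((hint i).const_mul 2)) ?_
          filter_upwards [h01 i] with ω h
          simp only [one_mul]
          exact exp_le h.1 h.2
      _ = 1 + 2 * ∫ ω, Z i ω ∂μ := by
          rw [integral_add (integrable_const _) ((hint i).const_mul 2), integral_const_mul]
          simp
      _ ≤ 2 * δ + 1 := by linarith [hδ i]
      _ ≤ Real.exp (2 * δ) := Real.add_one_le_exp _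
  have hsum : (∑ i, Z i) = fun ω => ∑ i, Z i ω := by
    ext ω; simp
  have hch := measure_ge_le_exp_mul_mgf (X := ∑ i, Z i) (μ := μ) (t := 1) a zero_le_one
    (hI.integrable_exp_mul_sum hm fun i _ => hexp i)
  rw [hI.mgf_sum hm] at hch
  calc μ.real {ω | a < ∑ i, Z i ω} ≤ μ.real {ω | a ≤ (∑ i, Z i) ω} := by
        refine measureReal_mono ?_ (measure_ne_top _ _)
        intro ω hω
        change a < ∑ i, Z i ω at hω
        change a ≤ (∑ i, Z i) ω
        rw [hsum]
        exact hω.le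
    _ ≤ Real.exp (-1 * a) * ∏ i, mgf (Z i) μ 1 := hch
    _ ≤ Real.exp (-1 * a) * ∏ _i : ι, Real.exp (2 * δ) := by
        gcongr with i _
        · exact fun i _ => mgf_nonneg
        · exact hmgf i
    _ = Real.exp (-a + 2 * δ * Fintype.card ι) := by
        rw [Finset.prod_const, ← Real.exp_nat_mul, ← Real.exp_add]
        congr 1
        rw [Finset.card_univ]
        ring

section Tree
variable {V : Type} {d : ℕ} {G : SimpleGraph V} [G.LocallyFinite]

/-- the vertex before `w` on the path from `v` is adjacent to `w`. -/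
theorem adj_pred (h : IsRT d G) {v w : V} {K : ℕ} (hw : G.dist v w = K + 1) :
    G.Adj (geo G v w K) w := by
  have h1 := geo_adj h v w (i := K) (by omega)
  have h2 := geo_dist h v w
  rw [hw] at h2
  rwa [h2] at h1

theorem branch_disj (h : IsRT d G) {v w w' : V} {K : ℕ} (hw : G.dist v w = K + 1)
    (hw' : G.dist v w' = K + 1) (hne : w ≠ w') :
    Disjoint (branch G (geo G v w K) w) (branch G (geo G v w' K) w') := by
  rw [Set.disjoint_left]
  intro u hu hu'
  have m1 : u ∈ bsph G (geo G v w K) w (G.dist w u) := (mem_bsph h).2 ⟨rfl, hu⟩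
  have m2 : u ∈ bsph G (geo G v w' K) w' (G.dist w' u) := (mem_bsph h).2 ⟨rfl, hu'⟩
  have b1 := ((mem_beyond h (K := K + 1) (by omega) ((mem_sph h).2 hw)).1 m1).2
  have b2 := ((mem_beyond h (K := K + 1) (by omega) ((mem_sph h).2 hw')).1 m2).2
  have e1 := geo_append h v w u (by omega) (K + 1) (by omega)
  have e2 := geo_append h v w' u (by omega) (K + 1) (by omega)
  rw [if_pos (by omega)] at e1 e2
  have f1 := geo_dist h v w
  have f2 := geo_dist h v w'
  rw [hw] at f1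
  rw [hw'] at f2
  exact hne (by rw [← f1, ← f2, ← e1, ← e2])

end Tree

end Concaux

namespace Setup

variable {V : Type} [DecidableEq V] [Countable V] (S : Setup V)

/-- CONC, step 1 (deterministic) -/
theorem Hb_two {x y : V} (hxy : S.G.Adj x y) (K L : ℕ) (X : V → ℝ) :
    S.Hb x y (K + L) X = ∑ w ∈ bsph S.G x y K, S.aa y w X ^ 2 * S.Hb (geo S.G x w K) w L X := by
  unfold Hb
  rw [sum_bsph_add S.rt hxy K L]
  refine Finset.sum_congr rfl fun w hw => ?_
  rw [Finset.mul_sum]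
  refine Finset.sum_congr rfl fun u hu => ?_
  have h1 : S.G.dist y w = K := ((mem_bsph S.rt).1 hw).1
  have h2 : S.G.dist x w = K + 1 := (dist_bsph S.rt hxy hw).1
  obtain ⟨h3, h4⟩ := (mem_beyond S.rt (K := K + 1) (by omega) ((mem_sph S.rt).2 h2)).1 hu
  have h5 : S.G.dist x u ≤ S.G.dist x y + S.G.dist y u := S.rt.tree.connected.dist_triangle
  have h6 : S.G.dist y u ≤ S.G.dist y w + S.G.dist w u := S.rt.tree.connected.dist_triangle
  have h7 : S.G.dist x y = 1 := SimpleGraph.dist_eq_one_iff_adj.2 hxy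
  rw [S.aa_mul (v := y) (w := w) (u := u) (by omega), mul_pow]

theorem HH_two (v : V) {K : ℕ} (hK : 1 ≤ K) (L : ℕ) (X : V → ℝ) :
    S.HH v (K + L) X = ∑ w ∈ sph S.G v K, S.aa v w X ^ 2 * S.Hb (geo S.G v w (K - 1)) w L X := by
  unfold HH Hb
  rw [sum_sph_add S.rt v hK L]
  refine Finset.sum_congr rfl fun w hw => ?_
  rw [Finset.mul_sum]
  refine Finset.sum_congr rfl fun u hu => ?_
  have h1 : S.G.dist v w = K := (mem_sph S.rt).1 hw
  obtain ⟨h3, h4⟩ := (mem_beyond S.rt hK hw).1 hu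
  rw [S.aa_mul (v := v) (w := w) (u := u) (by omega), mul_pow]

/-- gauged information in a smaller set. -/
theorem cc_Gau_mono {r r' : V} {R R' : Set V} (hR : R' ⊆ R) (hr' : r' ∈ R) :
    S.Gau r' R' ≤ S.Gau r R := by
  have key : ∀ ω : Om V, S.spin r ω * S.spin r ω = 1 := fun ω => by
    have := S.spin_sq r ω; rw [sq] at this; exact this
  have hs : ∀ z ∈ R, Measurable[S.Gau r R] (fun ω => S.spin r ω * S.spin z ω) := by
    intro z hz
    rw [measurable_iff_comap_le]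
    exact (le_iSup₂_of_le (f := fun z (_ : z ∈ R) =>
      MeasurableSpace.comap (fun ω => S.spin r ω * S.spin z ω) inferInstance) z hz le_rfl).trans
      le_sup_left
  have hn : ∀ z ∈ R, Measurable[S.Gau r R] (fun ω => fun n => S.spin r ω * ω.2 z n) := by
    intro z hz
    rw [measurable_iff_comap_le]
    exact (le_iSup₂_of_le (f := fun z (_ : z ∈ R) =>
      MeasurableSpace.comap (fun ω : Om V => fun n => S.spin r ω * ω.2 z n) inferInstance) z hz
      le_rfl).trans le_sup_right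
  refine sup_le (iSup₂_le fun z hz => ?_) (iSup₂_le fun z hz => ?_)
  · rw [← measurable_iff_comap_le]
    have : (fun ω => S.spin r' ω * S.spin z ω) =
        fun ω => (S.spin r ω * S.spin r' ω) * (S.spin r ω * S.spin z ω) := by
      ext ω
      linear_combination (-(S.spin r' ω * S.spin z ω)) * key ω
    rw [this]
    exact (hs r' hr').mul (hs z (hR hz))
  · rw [← measurable_iff_comap_le]
    have : (fun ω : Om V => fun n => S.spin r' ω * ω.2 z n) =
        fun ω => fun n => (S.spin r ω * S.spin r' ω) * (S.spin r ω * ω.2 z n) := by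
      ext ω n
      linear_combination (-(S.spin r' ω * ω.2 z n)) * key ω
    rw [this]
    rw [@measurable_pi_iff]
    intro n
    exact (hs r' hr').mul ((@measurable_pi_iff _ _ _ (S.Gau r R) _ _).1 (hn z (hR hz)) n)

/-- gauged cavity field, slope, shell energy -/
noncomputable def ccCav (T : V → ℝ≥0) (x y : V) (ω : Om V) : ℝ :=
  limsup (fun n => S.spin y ω * S.fld n x y (S.XT T ω)) atTop

noncomputable def ccSlope (T : V → ℝ≥0) (x y : V) (ω : Om V) : ℝ :=
  S.θ * phi S.θ (Real.tanh (S.ccCav T x y ω))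

noncomputable def ccHb (T : V → ℝ≥0) (x y : V) (L : ℕ) (ω : Om V) : ℝ :=
  ∑ w ∈ bsph S.G x y L,
    (∏ i ∈ range (S.G.dist y w), S.ccSlope T (geo S.G y w i) (geo S.G y w (i + 1)) ω) ^ 2

theorem ccSlope_eq (T : V → ℝ≥0) {x y : V} (hxy : S.G.Adj x y) {ω : Om V}
    (hω : S.Good (S.XT T ω)) : S.ccSlope T x y ω = S.slope x y (S.XT T ω) := by
  have h1 : S.ccCav T x y ω = S.spin y ω * S.cav x y (S.XT T ω) :=
    ((hω x y hxy).const_mul (S.spin y ω)).limsup_eq
  have h2 : (Real.tanh (S.ccCav T x y ω)) ^ 2 = (S.msg x y (S.XT T ω)) ^ 2 := by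
    rw [h1, msg]
    rcases S.spin_val y ω with h | h
    · rw [h, one_mul]
    · rw [h, neg_one_mul, Real.tanh_neg]; ring
  rw [ccSlope, slope, phi, phi, h2]

theorem ccHb_eq (T : V → ℝ≥0) (x y : V) (L : ℕ) {ω : Om V}
    (hω : S.Good (S.XT T ω)) : S.ccHb T x y L ω = S.Hb x y L (S.XT T ω) := by
  unfold ccHb Hb aa
  refine Finset.sum_congr rfl fun w _ => ?_
  congr 1
  refine Finset.prod_congr rfl fun i hi => ?_
  exact S.ccSlope_eq T (geo_adj S.rt y w (Finset.mem_range.1 hi)) hω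

theorem cc_branch_geo_subset {x y w : V} (hxy : S.G.Adj x y) (hw : w ∈ branch S.G x y) :
    ∀ i < S.G.dist y w,
      branch S.G (geo S.G y w i) (geo S.G y w (i + 1)) ⊆ branch S.G x y := by
  intro i
  induction i with
  | zero =>
    intro hi
    have h1 := geo_adj S.rt y w hi
    rw [geo_zero S.rt] at h1 ⊢
    refine (branch_subset S.rt hxy h1 ?_).1
    intro h
    have h2 := geo_mem_branch S.rt hxy hw (0 + 1) (by omega)
    rw [h] at h2
    exact (self_mem_branch S.rt hxy).2 h2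
  | succ i ih =>
    intro hi
    refine Set.Subset.trans ?_ (ih (by omega))
    refine (branch_subset S.rt (geo_adj S.rt y w (i := i) (by omega))
      (geo_adj S.rt y w (i := i + 1) hi) ?_).1
    intro h
    have h1 := (dist_geo S.rt y w (i := i + 1 + 1) (by omega)).1
    have h2 := (dist_geo S.rt y w (i := i) (by omega)).1
    rw [h] at h1
    omega

theorem measurable_ccHb (T : V → ℝ≥0) {x y : V} (hxy : S.G.Adj x y) (L : ℕ) :
    Measurable[S.Gau y (branch S.G x y)] (S.ccHb T x y L) := by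
  unfold ccHb
  refine Finset.measurable_sum _ fun w hw => ?_
  refine Measurable.pow_const ?_ 2
  refine Finset.measurable_prod _ fun i hi => ?_
  have hi := Finset.mem_range.1 hi
  have hwb : w ∈ branch S.G x y := ((mem_bsph S.rt).1 hw).2
  have hadj := geo_adj S.rt y w hi
  have h1 : Measurable[S.Gau y (branch S.G x y)]
      (S.ccCav T (geo S.G y w i) (geo S.G y w (i + 1))) :=
    (S.measurable_gauge_cav T hadj).mono
      (S.cc_Gau_mono (S.cc_branch_geo_subset hxy hwb i hi)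
        (geo_mem_branch S.rt hxy hwb (i + 1) (by omega))) le_rfl
  unfold ccSlope phi
  have h2 : Measurable[S.Gau y (branch S.G x y)]
      (fun ω => Real.tanh (S.ccCav T (geo S.G y w i) (geo S.G y w (i + 1)) ω)) :=
    measurable_tanh.comp h1
  exact (((h2.pow_const 2).const_sub 1).div
    (((h2.pow_const 2).const_mul (S.θ ^ 2)).const_sub 1)).const_mul S.θ

/-- CONC, step 2: independence, general form. -/
theorem indep_ccHb (T : V → ℝ≥0) {ι : Type} (p r : ι → V) (hadj : ∀ i, S.G.Adj (p i) (r i))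
    (hd : Pairwise fun i j => Disjoint (branch S.G (p i) (r i)) (branch S.G (p j) (r j)))
    (L : ℕ) : iIndepFun (fun i => S.ccHb T (p i) (r i) L) S.P := by
  rw [iIndepFun_iff_iIndep]
  refine iIndep_of_iIndep_of_le (S.iIndep_gauge r (fun i => branch S.G (p i) (r i))
    (fun i => S.conn_branch (hadj i)) hd) fun i => ?_
  rw [← measurable_iff_comap_le]
  exact S.measurable_ccHb T (hadj i) L

theorem ccHb_meas (T : V → ℝ≥0) {x y : V} (hxy : S.G.Adj x y) (L : ℕ) :
    Measurable (S.ccHb T x y L) := (S.measurable_ccHb T hxy L).mono (S.Gau_le _ _) le_rfl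

theorem ccHb_ae (T : V → ℝ≥0) (x y : V) (L : ℕ) :
    S.ccHb T x y L =ᵐ[S.P] fun ω => S.Hb x y L (S.XT T ω) := by
  filter_upwards [S.ae_good T] with ω hω
  exact S.ccHb_eq T x y L hω

/-- CONC, step 2: independence. -/
theorem indep_Hb (t : ℝ≥0) {x y : V} (hxy : S.G.Adj x y) (K L : ℕ) :
    ∃ Z : V → Om V → ℝ, (∀ w, Measurable (Z w)) ∧
      (∀ w ∈ bsph S.G x y K, Z w =ᵐ[S.P] fun ω => S.Hb (geo S.G x w K) w L (S.Xt t ω)) ∧
      iIndepFun (fun (w : bsph S.G x y K) => Z w) S.P := by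
  classical
  refine ⟨fun w => if w ∈ bsph S.G x y K then S.ccHb (fun _ => t) (geo S.G x w K) w L else 0,
    ?_, ?_, ?_⟩
  · intro w
    beta_reduce
    split_ifs with hw
    · exact S.ccHb_meas _ (Concaux.adj_pred S.rt (dist_bsph S.rt hxy hw).1) L
    · exact measurable_const
  · intro w hw
    simp only [hw, if_true]
    exact S.ccHb_ae _ _ _ L
  · have : (fun (w : bsph S.G x y K) => if (w : V) ∈ bsph S.G x y K then
        S.ccHb (fun _ => t) (geo S.G x w K) w L else 0) =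
        fun w : bsph S.G x y K => S.ccHb (fun _ => t) (geo S.G x w K) w L := by
      ext w
      simp only [w.2, if_true]
    rw [this]
    refine S.indep_ccHb _ (fun w : bsph S.G x y K => geo S.G x w K) (fun w => (w : V)) ?_ ?_ L
    · exact fun w => Concaux.adj_pred S.rt (dist_bsph S.rt hxy w.2).1
    · intro w w' hne
      exact Concaux.branch_disj S.rt (dist_bsph S.rt hxy w.2).1 (dist_bsph S.rt hxy w'.2).1
        (fun h => hne (Subtype.ext h))

/-- the common part of the two concentration bounds. -/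
theorem cc_conc_aux (t : ℝ≥0) (v : V) (k : ℕ) (s : Finset V) (hs : ∀ w ∈ s, S.G.dist v w = k + 1)
    (K : ℕ) (ε : ℝ)
    (hmean : ∀ x y : V, S.G.Adj x y → ∫ ω, S.Hb x y K (S.Xt t ω) ∂S.P ≤ ε / 4)
    (hε : 0 < ε) (f : (V → ℝ) → ℝ) (M : ℝ) (hM : 0 < M) (hcard : (s.card : ℝ) ≤ 3 / 2 * M)
    (hf : ∀ X, f X * M ≤ ∑ w ∈ s, S.Hb (geo S.G v w k) w K X) :
    S.P.real {ω | ε < f (S.Xt t ω)} ≤ Real.exp (-(ε / 4) * M) := by
  classical
  set Z : s → Om V → ℝ := fun w => S.ccHb (fun _ => t) (geo S.G v w k) w K with hZ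
  have hadj : ∀ w : s, S.G.Adj (geo S.G v w k) w := fun w => Concaux.adj_pred S.rt (hs w w.2)
  have hZm : ∀ w, Measurable (Z w) := fun w => S.ccHb_meas _ (hadj w) K
  have hZae : ∀ w : s, Z w =ᵐ[S.P] fun ω => S.Hb (geo S.G v w k) w K (S.Xt t ω) :=
    fun w => S.ccHb_ae _ _ _ K
  have hI : iIndepFun Z S.P :=
    S.indep_ccHb _ (fun w : s => geo S.G v w k) (fun w => (w : V)) hadj
      (fun w w' hne => Concaux.branch_disj S.rt (hs w w.2) (hs w' w'.2)
        (fun h => hne (Subtype.ext h))) K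
  have h01 : ∀ w, ∀ᵐ ω ∂S.P, 0 ≤ Z w ω ∧ Z w ω ≤ 1 := fun w => by
    filter_upwards [hZae w] with ω hω
    rw [hω]
    exact S.Hb_le (hadj w) K _
  have hδ : ∀ w, ∫ ω, Z w ω ∂S.P ≤ ε / 4 := fun w => by
    rw [integral_congr_ae (hZae w)]
    exact hmean _ _ (hadj w)
  have hch := Concaux.chernoff Z hZm hI h01 (ε / 4) hδ (ε * M)
  have hall : ∀ᵐ ω ∂S.P, ∀ w, Z w ω = S.Hb (geo S.G v w k) w K (S.Xt t ω) :=
    ae_all_iff.2 hZae
  calc S.P.real {ω | ε < f (S.Xt t ω)} ≤ S.P.real {ω | ε * M < ∑ w, Z w ω} := by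
        refine ENNReal.toReal_mono (measure_ne_top _ _) (measure_mono_ae ?_)
        filter_upwards [hall] with ω hω
        intro h
        change ε < f (S.Xt t ω) at h
        change ε * M < ∑ w, Z w ω
        have h1 : ∑ w, Z w ω = ∑ w ∈ s, S.Hb (geo S.G v w k) w K (S.Xt t ω) := by
          rw [← Finset.sum_coe_sort s]
          exact Finset.sum_congr rfl fun w _ => hω w
        rw [h1]
        exact lt_of_lt_of_le (mul_lt_mul_of_pos_right h hM) (hf _)
    _ ≤ _ := hch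
    _ ≤ _ := by
        refine Real.exp_le_exp.2 ?_
        rw [Fintype.card_coe]
        nlinarith

theorem cc_d_sub_one_pos : (0 : ℝ) < (S.d : ℝ) - 1 := by
  have : (3 : ℝ) ≤ S.d := by exact_mod_cast S.d_three
  linarith

theorem cc_theta_pow_le (K : ℕ) : (S.θ ^ K) ^ 2 * ((S.d : ℝ) - 1) ^ K ≤ 1 := by
  have h : (S.θ ^ K) ^ 2 * ((S.d : ℝ) - 1) ^ K = (S.θ ^ 2 * ((S.d : ℝ) - 1)) ^ K := by
    rw [mul_pow, ← pow_mul, ← pow_mul, mul_comm K 2]
  rw [h]
  exact pow_le_one₀ (mul_nonneg (sq_nonneg _) S.cc_d_sub_one_pos.le) S.θle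

/-- CONC -/
theorem Hb_conc (T : ℝ≥0) (ε : ℝ) (hε : 0 < ε) : ∃ C c : ℝ, 0 < C ∧ 0 < c ∧ ∀ t : ℝ≥0, 0 < t → t ≤ T →
    ∀ K : ℕ, C / √t ≤ K → ∀ x y : V, S.G.Adj x y →
      S.P.real {ω | ε < S.Hb x y (2 * K) (S.Xt t ω)} ≤ Real.exp (-c * ((S.d : ℝ) - 1) ^ K) := by
  obtain ⟨C, hC, hmean⟩ := S.Hb_mean T (ε / 4) (by positivity)
  refine ⟨C, ε / 4, hC, by positivity, fun t ht htT K hK x y hxy => ?_⟩
  have hM : (0 : ℝ) < ((S.d : ℝ) - 1) ^ K := pow_pos S.cc_d_sub_one_pos K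
  refine S.cc_conc_aux t x K (bsph S.G x y K) (fun w hw => (dist_bsph S.rt hxy hw).1) K ε
    (hmean t ht htT K hK) hε (S.Hb x y (2 * K)) _ hM ?_ ?_
  · rw [card_bsph S.rt hxy K]
    have : ((S.d - 1 : ℕ) : ℝ) = (S.d : ℝ) - 1 := by
      rw [Nat.cast_sub (by have := S.d_three; omega)]; simp
    rw [Nat.cast_pow, this]
    linarith
  · intro X
    rw [two_mul, S.Hb_two hxy K K X, Finset.sum_mul]
    refine Finset.sum_le_sum fun w hw => ?_
    have h1 := S.aa_mem y w X
    rw [((mem_bsph S.rt).1 hw).1] at h1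
    have h2 := S.Hb_le (Concaux.adj_pred S.rt (dist_bsph S.rt hxy hw).1) K X
    have h3 := S.cc_theta_pow_le K
    have h4 : S.aa y w X ^ 2 ≤ (S.θ ^ K) ^ 2 := by gcongr; exacts [h1.1.le, h1.2]
    calc S.aa y w X ^ 2 * S.Hb (geo S.G x w K) w K X * ((S.d : ℝ) - 1) ^ K
        = (S.aa y w X ^ 2 * ((S.d : ℝ) - 1) ^ K) * S.Hb (geo S.G x w K) w K X := by ring
      _ ≤ 1 * S.Hb (geo S.G x w K) w K X := by
          refine mul_le_mul_of_nonneg_right ?_ h2.1
          exact (mul_le_mul_of_nonneg_right h4 hM.le).trans h3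
      _ = _ := one_mul _

theorem HH_conc (T : ℝ≥0) (ε : ℝ) (hε : 0 < ε) : ∃ C c : ℝ, 0 < C ∧ 0 < c ∧ ∀ t : ℝ≥0, 0 < t → t ≤ T →
    ∀ K : ℕ, C / √t ≤ K → ∀ v : V,
      S.P.real {ω | ε < S.HH v (2 * K) (S.Xt t ω)} ≤ Real.exp (-c * ((S.d : ℝ) - 1) ^ K) := by
  obtain ⟨C, hC, hmean⟩ := S.Hb_mean T (ε / 4) (by positivity)
  refine ⟨C, ε / 4, hC, by positivity, fun t ht htT K hK v => ?_⟩
  have hM : (0 : ℝ) < ((S.d : ℝ) - 1) ^ K := pow_pos S.cc_d_sub_one_pos K
  have hK1 : 1 ≤ K := by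
    have h1 : 0 < C / √t := div_pos hC (Real.sqrt_pos.2 (by exact_mod_cast ht))
    have h2 : (0 : ℝ) < K := lt_of_lt_of_le h1 hK
    exact_mod_cast h2
  obtain ⟨k, rfl⟩ : ∃ k, K = k + 1 := ⟨K - 1, by omega⟩
  refine S.cc_conc_aux t v k (sph S.G v (k + 1)) (fun w hw => (mem_sph S.rt).1 hw) (k + 1) ε
    (hmean t ht htT (k + 1) hK) hε (S.HH v (2 * (k + 1))) _ hM ?_ ?_
  · rw [card_sph_succ S.rt v k]
    have : ((S.d - 1 : ℕ) : ℝ) = (S.d : ℝ) - 1 := by
      rw [Nat.cast_sub (by have := S.d_three; omega)]; simp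
    rw [Nat.cast_mul, Nat.cast_pow, this, pow_succ]
    have h3 : (3 : ℝ) ≤ S.d := by exact_mod_cast S.d_three
    have h4 : (0 : ℝ) < ((S.d : ℝ) - 1) ^ k := pow_pos S.cc_d_sub_one_pos k
    nlinarith
  · intro X
    rw [two_mul, S.HH_two v hK1 (k + 1) X, Finset.sum_mul]
    simp only [Nat.add_sub_cancel]
    refine Finset.sum_le_sum fun w hw => ?_
    have hw' := (mem_sph S.rt).1 hw
    have h1 := S.aa_mem v w X
    rw [hw'] at h1
    have h2 := S.Hb_le (Concaux.adj_pred S.rt hw') (k + 1) X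
    have h3 := S.cc_theta_pow_le (k + 1)
    have h4 : S.aa v w X ^ 2 ≤ (S.θ ^ (k + 1)) ^ 2 := by gcongr; exacts [h1.1.le, h1.2]
    calc S.aa v w X ^ 2 * S.Hb (geo S.G v w k) w (k + 1) X * ((S.d : ℝ) - 1) ^ (k + 1)
        = (S.aa v w X ^ 2 * ((S.d : ℝ) - 1) ^ (k + 1)) * S.Hb (geo S.G v w k) w (k + 1) X := by
          ring
      _ ≤ 1 * S.Hb (geo S.G v w k) w (k + 1) X := by
          refine mul_le_mul_of_nonneg_right ?_ h2.1
          exact (mul_le_mul_of_nonneg_right h4 hM.le).trans h3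
      _ = _ := one_mul _

end Setup
end Crest.Agent.R160
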