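import Crest.Agent.R160.Det

/-! Row 160, piece DET-C: pathwise Lipschitz bounds along a geodesic. -/

set_option autoImplicit false
open Finset Filter
open scoped Topology

namespace Crest.Agent.R160

namespace Lipaux

theorem abs_log_sub_le {x y δ : ℝ} (hδ : 0 < δ) (hx : δ ≤ x) (hy : δ ≤ y) :
    |Real.log x - Real.log y| ≤ |x - y| / δ := by
  have key : ∀ {a b : ℝ}, δ ≤ a → δ ≤ b → Real.log a - Real.log b ≤ |a - b| / δ := by
    intro a b ha hb
    have ha0 : 0 < a := hδ.trans_le ha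
    have hb0 : 0 < b := hδ.trans_le hb
    have h1 : Real.log a - Real.log b ≤ a / b - 1 := by
      rw [← Real.log_div ha0.ne' hb0.ne']
      exact Real.log_le_sub_one_of_pos (div_pos ha0 hb0)
    have h2 : a / b - 1 = (a - b) / b := by field_simp
    rw [h2] at h1
    refine h1.trans ?_
    calc (a - b) / b ≤ |a - b| / b := by
          gcongr; exact le_abs_self _
      _ ≤ |a - b| / δ := by gcongr
  rw [abs_le]
  constructor
  · have := key hy hx
    rw [abs_sub_comm] at this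
    linarith
  · exact key hx hy

/-- clipping -/
noncomputable def clip (c M : ℝ) : ℝ := max (-c) (min c M)

theorem clip_abs_le {c : ℝ} (hc : 0 ≤ c) (M : ℝ) : |clip c M| ≤ c := by
  unfold clip
  rw [abs_le]
  refine ⟨le_max_left _ _, max_le (by linarith) (min_le_left _ _)⟩

theorem clip_eq {c M : ℝ} (h : |M| ≤ c) : clip c M = M := by
  rw [abs_le] at h
  unfold clip
  rw [min_eq_right h.2, max_eq_right h.1]

theorem clip_abs_le' {c : ℝ} (hc : 0 ≤ c) (M : ℝ) : |clip c M| ≤ |M| := by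
  by_cases h : |M| ≤ c
  · rw [clip_eq h]
  · exact (clip_abs_le hc M).trans (not_le.1 h).le

theorem clip_lip (c M M' : ℝ) : |clip c M - clip c M'| ≤ |M - M'| := by
  unfold clip
  refine (abs_max_sub_max_le_max _ _ _ _).trans ?_
  rw [sub_self, abs_zero]
  refine max_le (abs_nonneg _) ((abs_min_sub_min_le_max _ _ _ _).trans ?_)
  rw [sub_self, abs_zero]
  exact max_le (abs_nonneg _) le_rfl

theorem clip_neg {c : ℝ} (hc : 0 ≤ c) (M : ℝ) : clip c (-M) = - clip c M := by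
  unfold clip
  rw [max_def, min_def, max_def, min_def]
  split_ifs <;> linarith

theorem continuous_clip (c : ℝ) : Continuous (clip c) := by
  unfold clip
  fun_prop

theorem abs_exp_sub_le {x y : ℝ} (hx : x ≤ 0) (hy : y ≤ 0) : |Real.exp x - Real.exp y| ≤ |x - y| := by
  have key : ∀ {a b : ℝ}, a ≤ 0 → b ≤ a → Real.exp a - Real.exp b ≤ a - b := by
    intro a b ha hab
    have h1 : Real.exp b = Real.exp a * Real.exp (b - a) := by rw [← Real.exp_add]; ring_nf
    have h2 : b - a + 1 ≤ Real.exp (b - a) := Real.add_one_le_exp _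
    have h3 : Real.exp a ≤ 1 := Real.exp_le_one_iff.2 ha
    have h4 := Real.exp_pos a
    rw [h1]
    nlinarith
  rcases le_total y x with h | h
  · rw [abs_of_nonneg (sub_nonneg.2 (Real.exp_le_exp.2 h)), abs_of_nonneg (by linarith)]
    exact key hx h
  · rw [abs_sub_comm, abs_sub_comm x, abs_of_nonneg (sub_nonneg.2 (Real.exp_le_exp.2 h)),
      abs_of_nonneg (by linarith)]
    exact key hy h

theorem abs_prod_sub_prod_le (n : ℕ) (a b : ℕ → ℝ) (ha : ∀ i < n, 0 ≤ a i ∧ a i ≤ 1)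
    (hb : ∀ i < n, 0 ≤ b i ∧ b i ≤ 1) :
    |∏ i ∈ range n, a i - ∏ i ∈ range n, b i| ≤ ∑ i ∈ range n, |a i - b i| := by
  induction n with
  | zero => simp
  | succ n ih =>
    rw [Finset.prod_range_succ, Finset.prod_range_succ, Finset.sum_range_succ]
    have h1 := ih (fun i hi => ha i (by omega)) (fun i hi => hb i (by omega))
    have h2 : 0 ≤ ∏ i ∈ range n, a i := Finset.prod_nonneg fun i hi =>
      (ha i (by rw [Finset.mem_range] at hi; omega)).1
    have h3 : ∏ i ∈ range n, a i ≤ 1 := Finset.prod_le_one (fun i hi =>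
      (ha i (by rw [Finset.mem_range] at hi; omega)).1) fun i hi =>
      (ha i (by rw [Finset.mem_range] at hi; omega)).2
    have h4 := hb n (by omega)
    have e : (∏ i ∈ range n, a i) * a n - (∏ i ∈ range n, b i) * b n =
        (∏ i ∈ range n, a i) * (a n - b n) + (∏ i ∈ range n, a i - ∏ i ∈ range n, b i) * b n := by ring
    rw [e]
    refine (abs_add_le _ _).trans ?_
    rw [abs_mul, abs_mul, abs_of_nonneg h2, abs_of_nonneg h4.1]
    have h5 := abs_nonneg (a n - b n)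
    have h6 := abs_nonneg (∏ i ∈ range n, a i - ∏ i ∈ range n, b i)
    nlinarith

end Lipaux

namespace Setup

variable {V : Type} [DecidableEq V] (S : Setup V)

/-- clipping level -/
noncomputable def c1 : ℝ := Real.tanh (1 + S.d * Real.artanh S.θ)

/-- `psi M = - log φ(clip M)`; bounded, even, Lipschitz. -/
noncomputable def psi (M : ℝ) : ℝ := - Real.log (phi S.θ (max (-S.c1) (min S.c1 M)))

/-- the clipped symmetric edge functional. -/
noncomputable def fE (x y : V) (X : V → ℝ) : ℝ := (S.psi (S.msg x y X) + S.psi (S.msg y x X)) / 2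

end Setup

namespace Lipaux

variable {V : Type} [DecidableEq V] (S : Setup V)

theorem tanh_lt {x y : ℝ} (h : x < y) : Real.tanh x < Real.tanh y := by
  have hx := Real.abs_tanh_lt_one x
  have hy := Real.abs_tanh_lt_one y
  rw [abs_lt] at hx hy
  rw [← Real.artanh_tanh x, ← Real.artanh_tanh y] at h
  exact (Real.artanh_lt_artanh_iff ⟨hx.1, hx.2⟩ ⟨hy.1, hy.2⟩).1 h

theorem tanh_le {x y : ℝ} (h : x ≤ y) : Real.tanh x ≤ Real.tanh y := by
  rcases h.lt_or_eq with h | h
  · exact (tanh_lt h).le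
  · rw [h]

theorem psi_def (M : ℝ) : S.psi M = - Real.log (phi S.θ (clip S.c1 M)) := rfl

theorem c1_pos : 0 < S.c1 := by
  have h := Detaux.artanh_pos' S
  unfold Setup.c1
  rw [← Real.tanh_zero]
  exact tanh_lt (by positivity)

theorem c1_lt : S.c1 < 1 := Real.tanh_lt_one _

theorem del_pos : 0 < 1 - S.c1 ^ 2 := by
  have h1 := c1_pos S
  have h2 := c1_lt S
  nlinarith

theorem one_sub_sq_ge {a : ℝ} (ha : |a| ≤ S.c1) : 1 - S.c1 ^ 2 ≤ 1 - a ^ 2 := by
  have : a ^ 2 ≤ S.c1 ^ 2 := sq_le_sq' (abs_le.1 ha).1 (abs_le.1 ha).2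
  linarith

theorem log_phi {a : ℝ} (ha : |a| < 1) :
    Real.log (phi S.θ a) = Real.log (1 - a ^ 2) - Real.log (1 - S.θ ^ 2 * a ^ 2) := by
  have h1 : a ^ 2 < 1 := (sq_lt_one_iff_abs_lt_one _).2 ha
  have h2 : S.θ ^ 2 < 1 := by
    have := S.θpos; have := S.theta_lt_one; nlinarith
  have h3 : S.θ ^ 2 * a ^ 2 < 1 := by nlinarith [sq_nonneg a, sq_nonneg S.θ]
  unfold phi
  rw [Real.log_div (by linarith) (by linarith)]

/-- basic Lipschitz bound of `psi`. -/
theorem psi_diff (M M' : ℝ) :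
    |S.psi M - S.psi M'| ≤ 2 / (1 - S.c1 ^ 2) * (|M - M'| * (|M| + |M'|)) := by
  have hδ := del_pos S
  have hc := (c1_pos S).le
  set a := clip S.c1 M with ha
  set a' := clip S.c1 M' with ha'
  have h1 : |a| ≤ S.c1 := clip_abs_le hc M
  have h2 : |a'| ≤ S.c1 := clip_abs_le hc M'
  have h1' : |a| < 1 := h1.trans_lt (c1_lt S)
  have h2' : |a'| < 1 := h2.trans_lt (c1_lt S)
  have h3 := one_sub_sq_ge S h1
  have h4 := one_sub_sq_ge S h2
  have hθ2 : S.θ ^ 2 ≤ 1 := by
    have := S.θpos; have := S.theta_lt_one; nlinarith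
  have h5 : 1 - S.c1 ^ 2 ≤ 1 - S.θ ^ 2 * a ^ 2 := h3.trans (by nlinarith [sq_nonneg a])
  have h6 : 1 - S.c1 ^ 2 ≤ 1 - S.θ ^ 2 * a' ^ 2 := h4.trans (by nlinarith [sq_nonneg a'])
  have h7 := abs_log_sub_le hδ h3 h4
  have h8 := abs_log_sub_le hδ h5 h6
  have e1 : |(1 - a ^ 2) - (1 - a' ^ 2)| = |a - a'| * |a + a'| := by
    rw [← abs_mul, abs_sub_comm]; congr 1; ring
  have e2 : |(1 - S.θ ^ 2 * a ^ 2) - (1 - S.θ ^ 2 * a' ^ 2)| = S.θ ^ 2 * (|a - a'| * |a + a'|) := by
    rw [← abs_mul, ← abs_of_nonneg (sq_nonneg S.θ), ← abs_mul, abs_sub_comm,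
      abs_of_nonneg (sq_nonneg S.θ)]
    congr 1; ring
  rw [e1] at h7
  rw [e2] at h8
  have h9 : |a - a'| * |a + a'| ≤ |M - M'| * (|M| + |M'|) := by
    refine mul_le_mul (clip_lip _ _ _) ((abs_add_le _ _).trans ?_) (abs_nonneg _) (abs_nonneg _)
    exact add_le_add (clip_abs_le' hc M) (clip_abs_le' hc M')
  have h10 : S.θ ^ 2 * (|a - a'| * |a + a'|) ≤ |M - M'| * (|M| + |M'|) := by
    refine le_trans ?_ h9
    have : 0 ≤ |a - a'| * |a + a'| := by positivity
    nlinarith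
  rw [psi_def, psi_def, ← ha, ← ha', log_phi S h1', log_phi S h2']
  have e3 : -(Real.log (1 - a ^ 2) - Real.log (1 - S.θ ^ 2 * a ^ 2)) -
      -(Real.log (1 - a' ^ 2) - Real.log (1 - S.θ ^ 2 * a' ^ 2)) =
      (Real.log (1 - S.θ ^ 2 * a ^ 2) - Real.log (1 - S.θ ^ 2 * a' ^ 2)) +
      -(Real.log (1 - a ^ 2) - Real.log (1 - a' ^ 2)) := by ring
  rw [e3]
  refine (abs_add_le _ _).trans ?_
  rw [abs_neg]
  have h11 : |a - a'| * |a + a'| / (1 - S.c1 ^ 2) ≤ |M - M'| * (|M| + |M'|) / (1 - S.c1 ^ 2) := by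
    gcongr
  have h12 : S.θ ^ 2 * (|a - a'| * |a + a'|) / (1 - S.c1 ^ 2) ≤
      |M - M'| * (|M| + |M'|) / (1 - S.c1 ^ 2) := by
    gcongr
  calc _ ≤ |M - M'| * (|M| + |M'|) / (1 - S.c1 ^ 2) + |M - M'| * (|M| + |M'|) / (1 - S.c1 ^ 2) :=
        add_le_add (h8.trans h12) (h7.trans h11)
    _ = _ := by ring

theorem psi_zero : S.psi 0 = 0 := by
  rw [psi_def, clip_eq (by simpa using (c1_pos S).le)]
  unfold phi
  simp

/-- messages are determined in a Lipschitz way by the magnetisations -/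
theorem msg_diff : ∃ C : ℝ, 0 < C ∧ ∀ (X X' : V → ℝ), S.Good X → S.Good X' → ∀ x y, S.G.Adj x y →
    |S.msg x y X - S.msg x y X'| ≤ C * (|S.mag x X - S.mag x X'| + |S.mag y X - S.mag y X'|) := by
  obtain ⟨C, hC, h⟩ := inv_lip S.θpos S.theta_lt_one
  refine ⟨C, hC, fun X X' hX hX' x y hxy => ?_⟩
  have h1 := S.mag_rel hX hxy
  have h2 := S.mag_rel hX hxy.symm
  have h3 := S.mag_rel hX' hxy
  have h4 := S.mag_rel hX' hxy.symm
  have e1 : S.mag y X * (1 + S.θ * S.msg y x X * S.msg x y X) = S.msg x y X + S.θ * S.msg y x X := by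
    rw [← h2]; ring
  have e2 : S.mag y X' * (1 + S.θ * S.msg y x X' * S.msg x y X') =
      S.msg x y X' + S.θ * S.msg y x X' := by
    rw [← h4]; ring
  exact (h _ _ _ _ _ _ _ _ (S.abs_msg_lt y x X) (S.abs_msg_lt x y X) (S.abs_msg_lt y x X')
    (S.abs_msg_lt x y X') h1 e1 h3 e2).2

end Lipaux

namespace Setup

variable {V : Type} [DecidableEq V] (S : Setup V)

theorem fE_comm (x y : V) (X : V → ℝ) : S.fE x y X = S.fE y x X := by
  unfold fE; rw [add_comm]

theorem psi_even (M : ℝ) : S.psi (-M) = S.psi M := by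
  rw [Lipaux.psi_def, Lipaux.psi_def, Lipaux.clip_neg (Lipaux.c1_pos S).le]
  unfold phi
  simp

theorem psi_lip : ∃ C : ℝ, 0 < C ∧ ∀ M M' : ℝ, |M| < 1 → |M'| < 1 →
    |S.psi M - S.psi M'| ≤ C * |M - M'| * (|M| + |M'|) := by
  have hδ := Lipaux.del_pos S
  refine ⟨2 / (1 - S.c1 ^ 2), by positivity, fun M M' _ _ => ?_⟩
  rw [mul_assoc]
  exact Lipaux.psi_diff S M M'

theorem continuous_psi : Continuous S.psi := by
  have h : S.psi = fun M => - Real.log (phi S.θ (Lipaux.clip S.c1 M)) := rfl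
  rw [h]
  refine (Continuous.log ?_ fun M => ?_).neg
  · unfold phi
    have hc := Lipaux.continuous_clip S.c1
    refine Continuous.div (by fun_prop) (by fun_prop) fun M => ?_
    have h1 := Lipaux.clip_abs_le (Lipaux.c1_pos S).le M
    have h1' : |Lipaux.clip S.c1 M| < 1 := h1.trans_lt (Lipaux.c1_lt S)
    have h2 : (Lipaux.clip S.c1 M) ^ 2 < 1 := (sq_lt_one_iff_abs_lt_one _).2 h1'
    have h3 : S.θ ^ 2 < 1 := by
      have := S.θpos; have := S.theta_lt_one; nlinarith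
    have h4 : S.θ ^ 2 * (Lipaux.clip S.c1 M) ^ 2 < 1 := by
      nlinarith [sq_nonneg (Lipaux.clip S.c1 M), sq_nonneg S.θ]
    linarith
  · have h1 := Lipaux.clip_abs_le (Lipaux.c1_pos S).le M
    have h1' : |Lipaux.clip S.c1 M| < 1 := h1.trans_lt (Lipaux.c1_lt S)
    exact (phi_mem S.θpos S.theta_lt_one h1').1.ne'

theorem psi_bdd : ∃ C : ℝ, 0 < C ∧ ∀ M, |S.psi M| ≤ C := by
  have hδ := Lipaux.del_pos S
  refine ⟨2 / (1 - S.c1 ^ 2), by positivity, fun M => ?_⟩
  have hc := (Lipaux.c1_pos S).le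
  have h1 := Lipaux.clip_abs_le hc M
  have h0 : S.psi M = S.psi (Lipaux.clip S.c1 M) := by
    rw [Lipaux.psi_def, Lipaux.psi_def, Lipaux.clip_eq h1]
  have h2 := Lipaux.psi_diff S (Lipaux.clip S.c1 M) 0
  rw [Lipaux.psi_zero, sub_zero, sub_zero, abs_zero, add_zero, ← h0] at h2
  refine h2.trans ?_
  have h3 := abs_nonneg (Lipaux.clip S.c1 M)
  have h4 := Lipaux.c1_lt S
  have h5 : |Lipaux.clip S.c1 M| * |Lipaux.clip S.c1 M| ≤ 1 := by nlinarith
  calc _ ≤ 2 / (1 - S.c1 ^ 2) * 1 := by gcongr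
    _ = _ := mul_one _

theorem measurable_fE (x y : V) : Measurable (S.fE x y) := by
  have h : ∀ a b : V, Measurable fun X : V → ℝ => S.psi (S.msg a b X) := by
    intro a b
    refine S.continuous_psi.measurable.comp ?_
    exact measurable_tanh.comp (S.measurable_cav a b)
  unfold fE
  exact ((h x y).add (h y x)).div_const 2

theorem fE_aut (γ : S.G ≃g S.G) (x y : V) (X : V → ℝ) :
    S.fE (γ x) (γ y) X = S.fE x y (X ∘ γ) := by
  unfold fE msg
  rw [S.cav_aut, S.cav_aut]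

/-- the size of the four messages on the edge `xy` in the fields `X`, `X'`. -/
noncomputable def msz (x y : V) (X X' : V → ℝ) : ℝ :=
  |S.msg x y X| + |S.msg y x X| + |S.msg x y X'| + |S.msg y x X'|

/-- D10 -/
theorem fE_diff : ∃ C : ℝ, 0 < C ∧ ∀ (X X' : V → ℝ), S.Good X → S.Good X' → ∀ x y, S.G.Adj x y →
    |S.fE x y X - S.fE x y X'| ≤
      C * (|S.mag x X - S.mag x X'| + |S.mag y X - S.mag y X'|) * min 1 (S.msz x y X X') := by
  obtain ⟨C1, hC1, h1⟩ := Lipaux.msg_diff S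
  obtain ⟨C2, hC2, h2⟩ := S.psi_lip
  refine ⟨2 * C1 * C2, by positivity, fun X X' hX hX' x y hxy => ?_⟩
  set D := |S.mag x X - S.mag x X'| + |S.mag y X - S.mag y X'| with hD
  have hD0 : 0 ≤ D := by positivity
  have hm0 : 0 ≤ min 1 (S.msz x y X X') := le_min zero_le_one (by unfold msz; positivity)
  have a1 := S.abs_msg_lt x y X
  have a2 := S.abs_msg_lt y x X
  have a3 := S.abs_msg_lt x y X'
  have a4 := S.abs_msg_lt y x X'
  have n1 := abs_nonneg (S.msg x y X)
  have n2 := abs_nonneg (S.msg y x X)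
  have n3 := abs_nonneg (S.msg x y X')
  have n4 := abs_nonneg (S.msg y x X')
  have b1 : |S.msg x y X - S.msg x y X'| ≤ C1 * D := h1 X X' hX hX' x y hxy
  have b2 : |S.msg y x X - S.msg y x X'| ≤ C1 * D := by
    have := h1 X X' hX hX' y x hxy.symm
    rw [hD, add_comm |S.mag x X - S.mag x X'|]
    exact this
  have c1' : |S.msg x y X| + |S.msg x y X'| ≤ 2 * min 1 (S.msz x y X X') := by
    rcases min_choice 1 (S.msz x y X X') with h | h
    · rw [h]; linarith
    · rw [h]; unfold msz; linarith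
  have c2' : |S.msg y x X| + |S.msg y x X'| ≤ 2 * min 1 (S.msz x y X X') := by
    rcases min_choice 1 (S.msz x y X X') with h | h
    · rw [h]; linarith
    · rw [h]; unfold msz; linarith
  have d1 : |S.psi (S.msg x y X) - S.psi (S.msg x y X')| ≤
      C2 * (C1 * D) * (2 * min 1 (S.msz x y X X')) := by
    refine (h2 _ _ a1 a3).trans ?_
    gcongr
  have d2 : |S.psi (S.msg y x X) - S.psi (S.msg y x X')| ≤
      C2 * (C1 * D) * (2 * min 1 (S.msz x y X X')) := by
    refine (h2 _ _ a2 a4).trans ?_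
    gcongr
  have e : S.fE x y X - S.fE x y X' = ((S.psi (S.msg x y X) - S.psi (S.msg x y X')) +
      (S.psi (S.msg y x X) - S.psi (S.msg y x X'))) / 2 := by unfold fE; ring
  rw [e, abs_div, abs_of_pos (by norm_num : (0:ℝ) < 2)]
  have f := (abs_add_le (S.psi (S.msg x y X) - S.psi (S.msg x y X'))
      (S.psi (S.msg y x X) - S.psi (S.msg y x X'))).trans (add_le_add d1 d2)
  calc _ ≤ (C2 * (C1 * D) * (2 * min 1 (S.msz x y X X')) +
        C2 * (C1 * D) * (2 * min 1 (S.msz x y X X'))) / 2 := by gcongr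
    _ = _ := by ring

/-- (a) crude bound -/
theorem crude : ∃ C : ℝ, 0 < C ∧ ∀ (X X' : V → ℝ), S.Good X → S.Good X' → ∀ v u : V,
    |S.cv v u X - S.cv v u X'| ≤ C * S.θ ^ S.G.dist v u *
        ∑ i ∈ range (S.G.dist v u + 1), |S.mag (geo S.G v u i) X - S.mag (geo S.G v u i) X'| ∧
    |S.aa v u X - S.aa v u X'| ≤ C * S.θ ^ S.G.dist v u *
        ∑ i ∈ range (S.G.dist v u + 1), |S.mag (geo S.G v u i) X - S.mag (geo S.G v u i) X'| := by
  obtain ⟨C1, hC1, h1⟩ := Lipaux.msg_diff S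
  obtain ⟨C2, hC2, h2⟩ := phi_lip S.θpos S.theta_lt_one
  refine ⟨2 * C1 * C2 + 2, by positivity, fun X X' hX hX' v u => ?_⟩
  set k := S.G.dist v u with hk
  set p := geo S.G v u with hp
  have hθ := S.θpos
  have hθk : 0 < S.θ ^ k := pow_pos hθ k
  set D : ℕ → ℝ := fun i => |S.mag (p i) X - S.mag (p i) X'| with hD
  have hD0 : ∀ i, 0 ≤ D i := fun i => abs_nonneg _
  set Sg := ∑ i ∈ range (k + 1), D i with hSg
  have hSg0 : 0 ≤ Sg := Finset.sum_nonneg fun i _ => hD0 i
  have haa : ∀ Y : V → ℝ, S.aa v u Y = S.θ ^ k * ∏ i ∈ range k, phi S.θ (S.msg (p i) (p (i + 1)) Y) := by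
    intro Y
    unfold aa slope
    rw [Finset.prod_mul_distrib, Finset.prod_const, Finset.card_range]
  have hphi : ∀ Y : V → ℝ, ∀ i < k, 0 ≤ phi S.θ (S.msg (p i) (p (i + 1)) Y) ∧
      phi S.θ (S.msg (p i) (p (i + 1)) Y) ≤ 1 := fun Y i _ =>
    ⟨(phi_mem S.θpos S.theta_lt_one (S.abs_msg_lt _ _ _)).1.le,
      (phi_mem S.θpos S.theta_lt_one (S.abs_msg_lt _ _ _)).2.2⟩
  have hA : |S.aa v u X - S.aa v u X'| ≤ 2 * C1 * C2 * S.θ ^ k * Sg := by
    rw [haa, haa, ← mul_sub, abs_mul, abs_of_pos hθk]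
    have h3 := Lipaux.abs_prod_sub_prod_le k _ _ (hphi X) (hphi X')
    have h4 : ∑ i ∈ range k, |phi S.θ (S.msg (p i) (p (i + 1)) X) -
        phi S.θ (S.msg (p i) (p (i + 1)) X')| ≤ ∑ i ∈ range k, C2 * (C1 * (D i + D (i + 1))) := by
      refine Finset.sum_le_sum fun i hi => ?_
      rw [Finset.mem_range] at hi
      refine (h2 _ _ (S.abs_msg_lt _ _ _) (S.abs_msg_lt _ _ _)).trans ?_
      gcongr
      exact h1 X X' hX hX' _ _ (geo_adj S.rt v u hi)
    have h5 : ∑ i ∈ range k, C2 * (C1 * (D i + D (i + 1))) ≤ 2 * C1 * C2 * Sg := by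
      have e1 : ∑ i ∈ range k, D i ≤ Sg := by
        rw [hSg, Finset.sum_range_succ]
        have := hD0 k
        linarith
      have e2 : ∑ i ∈ range k, D (i + 1) ≤ Sg := by
        rw [hSg, Finset.sum_range_succ']
        have := hD0 0
        linarith
      have e3 : ∑ i ∈ range k, C2 * (C1 * (D i + D (i + 1))) =
          C2 * C1 * (∑ i ∈ range k, D i + ∑ i ∈ range k, D (i + 1)) := by
        rw [← Finset.sum_add_distrib, Finset.mul_sum]
        refine Finset.sum_congr rfl fun i _ => by ring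
      rw [e3]
      calc _ ≤ C2 * C1 * (Sg + Sg) := by gcongr
        _ = _ := by ring
    calc _ ≤ S.θ ^ k * (2 * C1 * C2 * Sg) := by gcongr; exact h3.trans (h4.trans h5)
      _ = _ := by ring
  refine ⟨?_, ?_⟩
  · have hm := S.abs_mag_lt v X
    have hm' := S.abs_mag_lt v X'
    have hm2 : S.mag v X' ^ 2 < 1 := (sq_lt_one_iff_abs_lt_one _).2 hm'
    have hDv : |S.mag v X - S.mag v X'| ≤ Sg := by
      have e1 : D 0 ≤ Sg := Finset.single_le_sum (fun i _ => hD0 i) (by simp)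
      have e2 : D 0 = |S.mag v X - S.mag v X'| := by
        simp only [hD, hp, geo_zero S.rt]
      rw [← e2]; exact e1
    have haa1 := S.aa_mem v u X
    have e : S.cv v u X - S.cv v u X' = (1 - S.mag v X' ^ 2) * (S.aa v u X - S.aa v u X') -
        (S.mag v X - S.mag v X') * (S.mag v X + S.mag v X') * S.aa v u X := by
      unfold cv; ring
    rw [e]
    refine (abs_sub _ _).trans ?_
    rw [abs_mul, abs_mul, abs_mul, abs_of_pos haa1.1, abs_of_nonneg (by linarith : 0 ≤ 1 - S.mag v X' ^ 2)]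
    have h6 : |S.mag v X + S.mag v X'| ≤ 2 := (abs_add_le _ _).trans (by linarith)
    have h7 : (1 - S.mag v X' ^ 2) * |S.aa v u X - S.aa v u X'| ≤ 2 * C1 * C2 * S.θ ^ k * Sg := by
      refine le_trans ?_ hA
      have := abs_nonneg (S.aa v u X - S.aa v u X')
      nlinarith [sq_nonneg (S.mag v X')]
    have h8 : |S.mag v X - S.mag v X'| * |S.mag v X + S.mag v X'| * S.aa v u X ≤
        Sg * 2 * S.θ ^ k := by
      have h9 : |S.mag v X - S.mag v X'| * |S.mag v X + S.mag v X'| ≤ Sg * 2 :=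
        mul_le_mul hDv h6 (abs_nonneg _) hSg0
      exact mul_le_mul h9 haa1.2 haa1.1.le (by positivity)
    calc _ ≤ 2 * C1 * C2 * S.θ ^ k * Sg + Sg * 2 * S.θ ^ k := add_le_add h7 h8
      _ = _ := by ring
  · refine hA.trans ?_
    have : 0 ≤ S.θ ^ k * Sg := by positivity
    nlinarith

end Setup

namespace Lipaux

variable {V : Type} [DecidableEq V] (S : Setup V)

theorem abs_tanh_le {x y : ℝ} (h : |x| ≤ y) : |Real.tanh x| ≤ Real.tanh y := by
  rw [abs_le] at h ⊢
  constructor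
  · rw [← Real.tanh_neg]
    exact tanh_le h.1
  · exact tanh_le h.2

theorem msg_le_c1 {x y : V} {X : V → ℝ} (h : |X y| < 1) : |S.msg x y X| ≤ S.c1 := by
  unfold Setup.msg Setup.c1
  refine abs_tanh_le ((S.cav_abs_le x y X).trans ?_)
  linarith

theorem mag_le_c1 {v : V} {X : V → ℝ} (h : |X v| < 1) : |S.mag v X| ≤ S.c1 := by
  unfold Setup.mag Setup.c1
  refine abs_tanh_le ((S.full_abs_le v X).trans ?_)
  linarith

/-- `log φ (msg x y)` on an edge -/
theorem log_phi_msg {X : V → ℝ} (hX : S.Good X) {x y : V} (hxy : S.G.Adj x y)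
    (hx : |X x| < 1) (hy : |X y| < 1) :
    Real.log (phi S.θ (S.msg x y X)) = (Real.log (1 - S.mag y X ^ 2) -
      Real.log (1 - S.mag x X ^ 2)) / 2 - S.fE x y X := by
  have h1 := S.mag_rel hX hxy
  have h2 := S.mag_rel hX hxy.symm
  have e1 : S.mag y X * (1 + S.θ * S.msg y x X * S.msg x y X) = S.msg x y X + S.θ * S.msg y x X := by
    rw [← h2]; ring
  have h3 := edge_symm S.θpos S.theta_lt_one _ _ _ _ (S.abs_msg_lt y x X) (S.abs_msg_lt x y X) h1 e1
  have p1 := (phi_mem S.θpos S.theta_lt_one (S.abs_msg_lt x y X)).1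
  have p2 := (phi_mem S.θpos S.theta_lt_one (S.abs_msg_lt y x X)).1
  have q1 : 0 < 1 - S.mag x X ^ 2 := by
    have := (sq_lt_one_iff_abs_lt_one _).2 (S.abs_mag_lt x X); linarith
  have q2 : 0 < 1 - S.mag y X ^ 2 := by
    have := (sq_lt_one_iff_abs_lt_one _).2 (S.abs_mag_lt y X); linarith
  have h4 := congrArg Real.log h3
  rw [Real.log_mul q1.ne' p1.ne', Real.log_mul q2.ne' p2.ne'] at h4
  unfold Setup.fE
  rw [psi_def, psi_def, clip_eq (msg_le_c1 S hy), clip_eq (msg_le_c1 S hx)]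
  linarith

/-- `log` of the product of the slopes. -/
theorem log_aa {X : V → ℝ} (hX : S.Good X) (v u : V)
    (h : ∀ i ≤ S.G.dist v u, |X (geo S.G v u i)| < 1) :
    S.aa v u X = S.θ ^ S.G.dist v u * Real.exp ((Real.log (1 - S.mag u X ^ 2) -
      Real.log (1 - S.mag v X ^ 2)) / 2 -
      ∑ i ∈ range (S.G.dist v u), S.fE (geo S.G v u i) (geo S.G v u (i + 1)) X) := by
  set k := S.G.dist v u with hk
  set p := geo S.G v u with hp
  have key : ∀ j ≤ k, ∏ i ∈ range j, S.slope (p i) (p (i + 1)) X =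
      S.θ ^ j * Real.exp ((Real.log (1 - S.mag (p j) X ^ 2) -
      Real.log (1 - S.mag (p 0) X ^ 2)) / 2 - ∑ i ∈ range j, S.fE (p i) (p (i + 1)) X) := by
    intro j
    induction j with
    | zero => intro _; simp
    | succ j ih =>
      intro hj
      rw [Finset.prod_range_succ, ih (by omega), Finset.sum_range_succ]
      have hadj : S.G.Adj (p j) (p (j + 1)) := geo_adj S.rt v u (by omega)
      have h1 := log_phi_msg S hX hadj (h j (by omega)) (h (j + 1) hj)
      have p1 := (phi_mem S.θpos S.theta_lt_one (S.abs_msg_lt (p j) (p (j + 1)) X)).1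
      have h2 : S.slope (p j) (p (j + 1)) X = S.θ * Real.exp ((Real.log (1 - S.mag (p (j + 1)) X ^ 2) -
          Real.log (1 - S.mag (p j) X ^ 2)) / 2 - S.fE (p j) (p (j + 1)) X) := by
        unfold Setup.slope
        rw [← h1, Real.exp_log p1]
      rw [h2, pow_succ]
      have e : ∀ a b c d : ℝ, a * Real.exp b * (c * Real.exp d) = a * c * Real.exp (b + d) := by
        intro a b c d; rw [Real.exp_add]; ring
      rw [e]
      congr 2
      ring
  have h3 := key k le_rfl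
  have h4 : p 0 = v := geo_zero S.rt v u
  have h5 : p k = u := geo_dist S.rt v u
  rw [h4, h5] at h3
  exact h3

theorem log_cv {X : V → ℝ} (hX : S.Good X) (v u : V)
    (h : ∀ i ≤ S.G.dist v u, |X (geo S.G v u i)| < 1) :
    S.cv v u X = S.θ ^ S.G.dist v u * Real.exp ((Real.log (1 - S.mag v X ^ 2) +
      Real.log (1 - S.mag u X ^ 2)) / 2 -
      ∑ i ∈ range (S.G.dist v u), S.fE (geo S.G v u i) (geo S.G v u (i + 1)) X) := by
  have q1 : 0 < 1 - S.mag v X ^ 2 := by
    have := (sq_lt_one_iff_abs_lt_one _).2 (S.abs_mag_lt v X); linarith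
  unfold Setup.cv
  rw [log_aa S hX v u h]
  have e : ∀ a b c : ℝ, Real.exp a * (b * Real.exp c) = b * Real.exp (a + c) := by
    intro a b c; rw [Real.exp_add]; ring
  nth_rewrite 1 [← Real.exp_log q1]
  rw [e]
  congr 2
  ring

theorem log_s_diff {v : V} {X X' : V → ℝ} (h : |X v| < 1) (h' : |X' v| < 1) :
    |Real.log (1 - S.mag v X ^ 2) - Real.log (1 - S.mag v X' ^ 2)| ≤
      2 / (1 - S.c1 ^ 2) * |S.mag v X - S.mag v X'| := by
  have hδ := del_pos S
  have h1 := mag_le_c1 S h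
  have h2 := mag_le_c1 S h'
  have h3 := abs_log_sub_le hδ (one_sub_sq_ge S h1) (one_sub_sq_ge S h2)
  refine h3.trans ?_
  have e1 : |(1 - S.mag v X ^ 2) - (1 - S.mag v X' ^ 2)| =
      |S.mag v X - S.mag v X'| * |S.mag v X + S.mag v X'| := by
    rw [← abs_mul, abs_sub_comm]; congr 1; ring
  have hc := c1_lt S
  have h6 : |S.mag v X + S.mag v X'| ≤ 2 := (abs_add_le _ _).trans (by linarith)
  rw [e1]
  calc _ ≤ |S.mag v X - S.mag v X'| * 2 / (1 - S.c1 ^ 2) := by gcongr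
    _ = _ := by ring

theorem exp_diff {c a b : ℝ} (hc : 0 < c) (ha : c * Real.exp a ≤ c) (hb : c * Real.exp b ≤ c) :
    |c * Real.exp a - c * Real.exp b| ≤ c * |a - b| := by
  have h1 : a ≤ 0 := by
    rw [← Real.exp_le_one_iff]
    by_contra h
    push Not at h
    nlinarith
  have h2 : b ≤ 0 := by
    rw [← Real.exp_le_one_iff]
    by_contra h
    push Not at h
    nlinarith
  rw [← mul_sub, abs_mul, abs_of_pos hc]
  exact mul_le_mul_of_nonneg_left (abs_exp_sub_le h1 h2) hc.le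

end Lipaux

namespace Setup

variable {V : Type} [DecidableEq V] (S : Setup V)

/-- (b) refined bound: if `|X| < 1` and `|X'| < 1` along the path then
`|A - A'| ≤ θ^k |log (A/θ^k) - log (A'/θ^k)|` and
`log (A/θ^k) = (log s_v + log s_u)/2 - ∑ f_e`, `log (a/θ^k) = (log s_u - log s_v)/2 - ∑ f_e`. -/
theorem refined : ∃ C : ℝ, 0 < C ∧ ∀ (X X' : V → ℝ), S.Good X → S.Good X' → ∀ v u : V,
    (∀ i ≤ S.G.dist v u, |X (geo S.G v u i)| < 1 ∧ |X' (geo S.G v u i)| < 1) →
    |S.cv v u X - S.cv v u X'| ≤ S.θ ^ S.G.dist v u *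
        (C * |S.mag v X - S.mag v X'| + C * |S.mag u X - S.mag u X'| +
        |∑ i ∈ range (S.G.dist v u), (S.fE (geo S.G v u i) (geo S.G v u (i + 1)) X -
          S.fE (geo S.G v u i) (geo S.G v u (i + 1)) X')|) ∧
    |S.aa v u X - S.aa v u X'| ≤ S.θ ^ S.G.dist v u *
        (C * |S.mag v X - S.mag v X'| + C * |S.mag u X - S.mag u X'| +
        |∑ i ∈ range (S.G.dist v u), (S.fE (geo S.G v u i) (geo S.G v u (i + 1)) X -
          S.fE (geo S.G v u i) (geo S.G v u (i + 1)) X')|) := by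
  have hδ := Lipaux.del_pos S
  refine ⟨1 / (1 - S.c1 ^ 2), by positivity, fun X X' hX hX' v u h => ?_⟩
  have hθk : 0 < S.θ ^ S.G.dist v u := pow_pos S.θpos _
  have hv : |X v| < 1 ∧ |X' v| < 1 := by
    have := h 0 (Nat.zero_le _)
    rwa [geo_zero S.rt] at this
  have hu : |X u| < 1 ∧ |X' u| < 1 := by
    have := h _ le_rfl
    rwa [geo_dist S.rt] at this
  have l1 := Lipaux.log_s_diff S hv.1 hv.2
  have l2 := Lipaux.log_s_diff S hu.1 hu.2
  have a1 := Lipaux.log_aa S hX v u fun i hi => (h i hi).1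
  have a2 := Lipaux.log_aa S hX' v u fun i hi => (h i hi).2
  have b1 := Lipaux.log_cv S hX v u fun i hi => (h i hi).1
  have b2 := Lipaux.log_cv S hX' v u fun i hi => (h i hi).2
  have m1 := (S.aa_mem v u X).2
  have m2 := (S.aa_mem v u X').2
  have m3 := (S.cv_mem v u X).2
  have m4 := (S.cv_mem v u X').2
  rw [a1] at m1
  rw [a2] at m2
  rw [b1] at m3
  rw [b2] at m4
  set sf := ∑ i ∈ range (S.G.dist v u), S.fE (geo S.G v u i) (geo S.G v u (i + 1)) X with hsf
  set sf' := ∑ i ∈ range (S.G.dist v u), S.fE (geo S.G v u i) (geo S.G v u (i + 1)) X' with hsf'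
  have hs : ∑ i ∈ range (S.G.dist v u), (S.fE (geo S.G v u i) (geo S.G v u (i + 1)) X -
          S.fE (geo S.G v u i) (geo S.G v u (i + 1)) X') = sf - sf' := by
    rw [Finset.sum_sub_distrib]
  rw [hs]
  set lv := Real.log (1 - S.mag v X ^ 2) with hlv
  set lv' := Real.log (1 - S.mag v X' ^ 2) with hlv'
  set lu := Real.log (1 - S.mag u X ^ 2) with hlu
  set lu' := Real.log (1 - S.mag u X' ^ 2) with hlu'
  have tri : ∀ ε : ℝ, |ε| ≤ 1 → |(lu + ε * lv) / 2 - sf - ((lu' + ε * lv') / 2 - sf')| ≤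
      1 / (1 - S.c1 ^ 2) * |S.mag v X - S.mag v X'| + 1 / (1 - S.c1 ^ 2) * |S.mag u X - S.mag u X'| +
      |sf - sf'| := by
    intro ε hε
    have e : (lu + ε * lv) / 2 - sf - ((lu' + ε * lv') / 2 - sf') =
        ε * (lv - lv') / 2 + (lu - lu') / 2 + -(sf - sf') := by ring
    rw [e]
    refine (abs_add_le _ _).trans ?_
    rw [abs_neg]
    gcongr
    refine (abs_add_le _ _).trans ?_
    rw [abs_div, abs_div, abs_mul, abs_of_pos (by norm_num : (0:ℝ) < 2)]
    have h1 : |ε| * |lv - lv'| ≤ |lv - lv'| := by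
      have := abs_nonneg (lv - lv'); nlinarith
    have e2 : ∀ x : ℝ, 2 / (1 - S.c1 ^ 2) * x = 2 * (1 / (1 - S.c1 ^ 2) * x) := by intro x; ring
    rw [e2] at l1 l2
    linarith
  constructor
  · rw [b1, b2]
    refine (Lipaux.exp_diff hθk m3 m4).trans ?_
    gcongr
    have := tri 1 (by simp)
    simp only [one_mul] at this
    rw [add_comm lv lu, add_comm lv' lu']
    exact this
  · rw [a1, a2]
    refine (Lipaux.exp_diff hθk m1 m2).trans ?_
    gcongr
    have := tri (-1) (by simp)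
    have e1 : (lu + -1 * lv) = lu - lv := by ring
    have e2 : (lu' + -1 * lv') = lu' - lv' := by ring
    rw [e1, e2] at this
    exact this

end Setup
end Crest.Agent.R160
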