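import Crest.Agent.R160.TreeA

/-! Row 160, piece TREE-S: spheres and branches in a regular tree. -/

set_option autoImplicit false
open Finset

namespace Crest.Agent.R160

variable {V : Type} {d : ℕ} {G : SimpleGraph V} [G.LocallyFinite]

namespace TreeSaux

theorem tri (h : IsRT d G) (a b c : V) : G.dist a c ≤ G.dist a b + G.dist b c :=
  h.tree.connected.dist_triangle

theorem eq_of_dist (h : IsRT d G) {a b : V} (hab : G.dist a b = 0) : a = b :=
  h.tree.connected.dist_eq_zero_iff.1 hab

theorem dist_concat (h : IsRT d G) (v w u : V)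
    (hne : G.dist v w ≠ 0 → G.dist w u ≠ 0 → geo G v w (G.dist v w - 1) ≠ geo G w u 1) :
    G.dist v u = G.dist v w + G.dist w u := by
  set K := G.dist v w with hK
  set l := G.dist w u with hl
  let q : ℕ → V := fun i => if i ≤ K then geo G v w i else geo G w u (i - K)
  have hq1 : ∀ i, i ≤ K → q i = geo G v w i := fun i hi => if_pos hi
  have hq2 : ∀ i, K ≤ i → q i = geo G w u (i - K) := by
    intro i hi
    rcases eq_or_lt_of_le hi with h1 | h1
    · rw [hq1 i h1.symm.le, ← h1, Nat.sub_self, geo_zero h, geo_dist h]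
    · exact if_neg (by omega)
  have hgeo : IsGeo G q (K + l) := by
    refine isGeo_of_nonbacktracking h ?_ ?_
    · intro i hi
      by_cases hi2 : i < K
      · rw [hq1 i hi2.le, hq1 (i + 1) hi2]
        exact geo_adj h v w hi2
      · rw [hq2 i (by omega), hq2 (i + 1) (by omega), show i + 1 - K = (i - K) + 1 by omega]
        exact geo_adj h w u (by omega)
    · intro i hi
      by_cases hi2 : i + 2 ≤ K
      · rw [hq1 i (by omega), hq1 (i + 2) hi2]
        intro he
        have h1 := (dist_geo h v w (i := i) (by omega)).1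
        have h2 := (dist_geo h v w (i := i + 2) (by omega)).1
        rw [he] at h1
        omega
      · by_cases hi3 : K ≤ i
        · rw [hq2 i (by omega), hq2 (i + 2) (by omega)]
          intro he
          have h1 := (dist_geo h w u (i := i - K) (by omega)).1
          have h2 := (dist_geo h w u (i := i + 2 - K) (by omega)).1
          rw [he] at h1
          omega
        · rw [hq1 i (by omega), hq2 (i + 2) (by omega), show i = K - 1 by omega,
            show K - 1 + 2 - K = 1 by omega]
          exact hne (by omega) (by omega)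
  have := (geo_unique h hgeo).1
  rw [hq1 0 (by omega), hq2 (K + l) (by omega), show K + l - K = l by omega, geo_zero h,
    geo_dist h] at this
  exact this

theorem dist_adj {a b : V} (hab : G.Adj a b) : G.dist a b = 1 :=
  SimpleGraph.dist_eq_one_iff_adj.2 hab

theorem dist_alt (h : IsRT d G) {x y : V} (hxy : G.Adj x y) (w : V) :
    G.dist w y = G.dist w x + 1 ∨ G.dist w x = G.dist w y + 1 := by
  by_cases hc : G.dist w x ≠ 0 ∧ geo G w x (G.dist w x - 1) = y
  · right
    have := (dist_geo h w x (i := G.dist w x - 1) (by omega)).1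
    rw [hc.2] at this
    have := hc.1
    omega
  · left
    have h1 := dist_concat h w x y (fun h0 _ he => hc ⟨h0, by
      rw [he]
      have h2 := geo_dist h x y
      rw [dist_adj hxy] at h2
      exact h2⟩)
    rw [h1, dist_adj hxy]

theorem last_step (h : IsRT d G) {x y : V} (hxy : G.Adj x y) {w : V}
    (hd : G.dist w y = G.dist w x + 1) : geo G w y (G.dist w x) = x := by
  have h1 := geo_append h w x y (by rw [dist_adj hxy, hd]) (G.dist w x) (by omega)
  rw [if_pos le_rfl, geo_dist h] at h1
  exact h1

theorem parent_unique (h : IsRT d G) {x y z : V} (hxy : G.Adj x y) (hzy : G.Adj z y) {w : V}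
    (hd : G.dist w y = G.dist w x + 1) (hd' : G.dist w y = G.dist w z + 1) : x = z := by
  have h1 := last_step h hxy hd
  have h2 := last_step h hzy hd'
  have h3 : G.dist w x = G.dist w z := by omega
  rw [← h1, ← h2, h3]

theorem sphere_finite (h : IsRT d G) (v : V) (k : ℕ) : {u | G.dist v u = k}.Finite := by
  induction k with
  | zero =>
    refine (Set.finite_singleton v).subset ?_
    intro u hu
    exact (eq_of_dist h hu).symm
  | succ k ih =>
    refine (ih.biUnion (t := fun w => (G.neighborFinset w : Set V)) fun w _ =>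
      Finset.finite_toSet _).subset ?_
    intro u hu
    have hu' : G.dist v u = k + 1 := hu
    simp only [Set.mem_iUnion]
    refine ⟨geo G v u k, (dist_geo h v u (by omega)).1, ?_⟩
    have h1 := geo_adj h v u (i := k) (by omega)
    have h2 := geo_dist h v u
    rw [hu'] at h2
    rw [h2] at h1
    simpa using h1

end TreeSaux

open TreeSaux

theorem mem_sph (h : IsRT d G) {v u : V} {k : ℕ} : u ∈ sph G v k ↔ G.dist v u = k := by
  classical
  unfold sph
  rw [dif_pos (sphere_finite h v k)]
  simp

theorem mem_bsph (h : IsRT d G) {x y u : V} {k : ℕ} :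
    u ∈ bsph G x y k ↔ G.dist y u = k ∧ u ∈ branch G x y := by
  classical
  unfold bsph
  rw [Finset.mem_filter, mem_sph h]

theorem card_sph_zero (h : IsRT d G) (v : V) : (sph G v 0).card = 1 := by
  rw [Finset.card_eq_one]
  refine ⟨v, ?_⟩
  ext u
  rw [mem_sph h, Finset.mem_singleton]
  constructor
  · intro hu
    exact (eq_of_dist h hu).symm
  · rintro rfl
    exact SimpleGraph.dist_self

/-- for `w` at distance `K ≥ 1` from `v`, the vertices at distance `l` from `w` beyond `w`
(seen from `v`) are those `u` with `dist v u = K + l`, `dist w u = l`. -/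
theorem mem_beyond (h : IsRT d G) {v w u : V} {K l : ℕ} (hK : 1 ≤ K) (hw : w ∈ sph G v K) :
    u ∈ bsph G (geo G v w (K - 1)) w l ↔ G.dist w u = l ∧ G.dist v u = K + l := by
  rw [mem_sph h] at hw
  have hp1 : G.dist v (geo G v w (K - 1)) = K - 1 := (dist_geo h v w (by omega)).1
  have hpw : G.Adj (geo G v w (K - 1)) w := by
    have h1 := geo_adj h v w (i := K - 1) (by omega)
    have h2 := geo_dist h v w
    rw [hw] at h2
    rw [show K - 1 + 1 = K by omega, h2] at h1
    exact h1
  rw [mem_bsph h]
  constructor
  · rintro ⟨h1, h2⟩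
    refine ⟨h1, ?_⟩
    have h2' : G.dist u w < G.dist u (geo G v w (K - 1)) := h2
    have h3 := dist_concat h v w u (fun _ h0 he => by
      rw [hw] at he
      rw [he, SimpleGraph.dist_comm (u := u) (v := w),
        SimpleGraph.dist_comm (u := u) (v := geo G w u 1), (dist_geo h w u (i := 1) (by omega)).2] at h2'
      omega)
    rw [h3, hw, h1]
  · rintro ⟨h1, h2⟩
    refine ⟨h1, ?_⟩
    change G.dist u w < G.dist u (geo G v w (K - 1))
    have h3 := tri h v (geo G v w (K - 1)) u
    rw [SimpleGraph.dist_comm (u := u) (v := w), h1,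
      SimpleGraph.dist_comm (u := u) (v := geo G v w (K - 1))]
    omega

theorem sum_sph_add (h : IsRT d G) (v : V) {K : ℕ} (hK : 1 ≤ K) (l : ℕ) (f : V → ℝ) :
    ∑ u ∈ sph G v (K + l), f u =
      ∑ w ∈ sph G v K, ∑ u ∈ bsph G (geo G v w (K - 1)) w l, f u := by
  classical
  rw [← Finset.sum_fiberwise_of_maps_to (s := sph G v (K + l)) (t := sph G v K)
    (g := fun u => geo G v u K) (fun u hu => by
      rw [mem_sph h] at hu ⊢
      exact (dist_geo h v u (by omega)).1)]
  refine Finset.sum_congr rfl fun w hw => ?_
  refine Finset.sum_congr ?_ fun _ _ => rfl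
  ext u
  rw [mem_beyond h hK hw, Finset.mem_filter, mem_sph h]
  have hw' := (mem_sph h).1 hw
  constructor
  · rintro ⟨h1, h2⟩
    refine ⟨?_, h1⟩
    rw [← h2, (dist_geo h v u (by omega)).2]
    omega
  · rintro ⟨h1, h2⟩
    refine ⟨h2, ?_⟩
    rw [geo_append h v w u (by omega) K (by omega), if_pos (by omega), ← hw', geo_dist h]

/-- path and distance inside a branch -/
theorem dist_bsph (h : IsRT d G) {x y u : V} (hxy : G.Adj x y) {k : ℕ} (hu : u ∈ bsph G x y k) :
    G.dist x u = k + 1 ∧ geo G x u 1 = y := by
  rw [mem_bsph h] at hu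
  obtain ⟨h1, h2⟩ := hu
  have h2' : G.dist u y < G.dist u x := h2
  have h3 : G.dist x u = k + 1 := by
    rcases dist_alt h hxy u with h4 | h4
    · omega
    · rw [SimpleGraph.dist_comm (u := x), h4, SimpleGraph.dist_comm (u := u), h1]
  refine ⟨h3, ?_⟩
  rw [geo_append h x y u (by rw [dist_adj hxy, h1, h3]; omega) 1 (by omega),
    if_pos (by rw [dist_adj hxy])]
  have := geo_dist h x y
  rw [dist_adj hxy] at this
  exact this

theorem sum_bsph_add (h : IsRT d G) {x y : V} (hxy : G.Adj x y) (k l : ℕ) (f : V → ℝ) :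
    ∑ u ∈ bsph G x y (k + l), f u =
      ∑ w ∈ bsph G x y k, ∑ u ∈ bsph G (geo G x w k) w l, f u := by
  classical
  have hmem : ∀ m u, (G.dist x u = m + 1 ∧ geo G x u 1 = y) → u ∈ bsph G x y m := by
    rintro m u ⟨h1, h2⟩
    have h3 := (dist_geo h x u (i := 1) (by omega)).2
    rw [h2] at h3
    rw [mem_bsph h]
    refine ⟨by omega, ?_⟩
    change G.dist u y < G.dist u x
    rw [SimpleGraph.dist_comm (u := u) (v := y), SimpleGraph.dist_comm (u := u) (v := x)]
    omega
  have hd1 : G.dist x y = 1 := dist_adj hxy
  rw [← Finset.sum_fiberwise_of_maps_to (s := bsph G x y (k + l)) (t := bsph G x y k)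
    (g := fun u => geo G x u (k + 1)) (fun u hu => by
      obtain ⟨h1, h2⟩ := dist_bsph h hxy hu
      apply hmem
      have h3 := dist_geo h x u (i := k + 1) (by omega)
      refine ⟨h3.1, ?_⟩
      have h4 := geo_append h x (geo G x u (k + 1)) u (by rw [h3.1, h3.2]; omega) 1 (by omega)
      rw [if_pos (by rw [h3.1]; omega)] at h4
      rw [← h4, h2])]
  refine Finset.sum_congr rfl fun w hw => ?_
  obtain ⟨hw1, hw2⟩ := dist_bsph h hxy hw
  refine Finset.sum_congr ?_ fun _ _ => rfl
  ext u
  have hb := mem_beyond h (v := x) (w := w) (u := u) (K := k + 1) (l := l) (by omega)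
    ((mem_sph h).2 hw1)
  rw [show k + 1 - 1 = k by omega] at hb
  rw [hb, Finset.mem_filter]
  constructor
  · rintro ⟨h1, h2⟩
    obtain ⟨h3, h4⟩ := dist_bsph h hxy h1
    refine ⟨?_, by omega⟩
    rw [← h2, (dist_geo h x u (by omega)).2]
    omega
  · rintro ⟨h1, h2⟩
    refine ⟨hmem _ _ ⟨by omega, ?_⟩, ?_⟩
    · rw [geo_append h x w u (by omega) 1 (by omega), if_pos (by omega), hw2]
    · rw [geo_append h x w u (by omega) (k + 1) (by omega), if_pos (by omega), ← hw1, geo_dist h]

namespace TreeSaux

theorem bsph_one (h : IsRT d G) [DecidableEq V] {x y : V} (hxy : G.Adj x y) :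
    bsph G x y 1 = (G.neighborFinset y).erase x := by
  ext u
  rw [mem_bsph h, Finset.mem_erase, SimpleGraph.mem_neighborFinset]
  constructor
  · rintro ⟨h1, h2⟩
    refine ⟨?_, SimpleGraph.dist_eq_one_iff_adj.1 h1⟩
    rintro rfl
    have h2' : G.dist u y < G.dist u u := h2
    rw [SimpleGraph.dist_self] at h2'
    omega
  · rintro ⟨h1, h2⟩
    refine ⟨dist_adj h2, ?_⟩
    change G.dist u y < G.dist u x
    rcases dist_alt h hxy u with h4 | h4
    · exfalso
      apply h1
      have h5 : G.dist u y = 1 := dist_adj h2.symm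
      exact eq_of_dist h (by omega)
    · omega

theorem card_nbr (h : IsRT d G) (y : V) : (G.neighborFinset y).card = d := by
  rw [SimpleGraph.card_neighborFinset_eq_degree]
  exact h.reg y

theorem card_bsph_one (h : IsRT d G) {x y : V} (hxy : G.Adj x y) :
    (bsph G x y 1).card = d - 1 := by
  classical
  rw [bsph_one h hxy, Finset.card_erase_of_mem (by simpa using hxy.symm), card_nbr h]

end TreeSaux

theorem card_bsph (h : IsRT d G) {x y : V} (hxy : G.Adj x y) (k : ℕ) :
    (bsph G x y k).card = (d - 1) ^ k := by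
  induction k with
  | zero =>
    rw [pow_zero, Finset.card_eq_one]
    refine ⟨y, ?_⟩
    ext u
    rw [mem_bsph h, Finset.mem_singleton]
    constructor
    · rintro ⟨hu, _⟩
      exact (eq_of_dist h hu).symm
    · rintro rfl
      refine ⟨SimpleGraph.dist_self, ?_⟩
      change G.dist u u < G.dist u x
      rw [SimpleGraph.dist_self, dist_adj hxy.symm]
      exact one_pos
  | succ k ih =>
    have h1 := sum_bsph_add h hxy k 1 (fun _ => (1 : ℝ))
    have h2 : ∀ w ∈ bsph G x y k, ∑ u ∈ bsph G (geo G x w k) w 1, (1 : ℝ) = ((d - 1 : ℕ) : ℝ) := by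
      intro w hw
      obtain ⟨hw1, hw2⟩ := dist_bsph h hxy hw
      have hadj : G.Adj (geo G x w k) w := by
        have h3 := geo_adj h x w (i := k) (by omega)
        have h4 := geo_dist h x w
        rw [hw1] at h4
        rw [h4] at h3
        exact h3
      rw [Finset.sum_const, card_bsph_one h hadj]
      simp
    rw [Finset.sum_congr rfl h2, Finset.sum_const, Finset.sum_const, ih] at h1
    simp only [nsmul_eq_mul, mul_one] at h1
    rw [pow_succ]
    exact_mod_cast h1

theorem card_sph_succ (h : IsRT d G) (v : V) (k : ℕ) :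
    (sph G v (k + 1)).card = d * (d - 1) ^ k := by
  have h1 := sum_sph_add h v (K := 1) le_rfl k (fun _ => (1 : ℝ))
  have h0 : sph G v 1 = G.neighborFinset v := by
    ext u
    rw [mem_sph h, SimpleGraph.mem_neighborFinset]
    exact SimpleGraph.dist_eq_one_iff_adj
  have h2 : ∀ w ∈ sph G v 1, ∑ u ∈ bsph G (geo G v w (1 - 1)) w k, (1 : ℝ) =
      (((d - 1) ^ k : ℕ) : ℝ) := by
    intro w hw
    have hw' : G.Adj v w := by
      rw [h0] at hw
      simpa using hw
    have : G.Adj (geo G v w (1 - 1)) w := by
      rw [Nat.sub_self, geo_zero h]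
      exact hw'
    rw [Finset.sum_const, card_bsph h this]
    simp
  rw [Finset.sum_congr rfl h2, Finset.sum_const, Finset.sum_const, h0, card_nbr h] at h1
  simp only [nsmul_eq_mul, mul_one] at h1
  rw [add_comm k 1]
  exact_mod_cast h1

/-! branches -/

theorem self_mem_branch (h : IsRT d G) {x y : V} (hxy : G.Adj x y) :
    y ∈ branch G x y ∧ x ∉ branch G x y := by
  constructor
  · change G.dist y y < G.dist y x
    rw [SimpleGraph.dist_self, dist_adj hxy.symm]
    exact one_pos
  · intro hx
    have hx' : G.dist x y < G.dist x x := hx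
    rw [SimpleGraph.dist_self] at hx'
    omega

theorem branch_compl (h : IsRT d G) {x y : V} (hxy : G.Adj x y) :
    (branch G x y)ᶜ = branch G y x := by
  ext z
  rw [Set.mem_compl_iff]
  change ¬ (G.dist z y < G.dist z x) ↔ G.dist z x < G.dist z y
  rcases dist_alt h hxy z with h1 | h1 <;> omega

theorem branch_subset (h : IsRT d G) {x y z : V} (hxy : G.Adj x y) (hyz : G.Adj y z) (hz : z ≠ x) :
    branch G y z ⊆ branch G x y ∧ y ∉ branch G y z := by
  refine ⟨?_, (self_mem_branch h hyz).2⟩
  intro w hw
  have hw' : G.dist w z < G.dist w y := hw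
  change G.dist w y < G.dist w x
  rcases dist_alt h hxy w with h1 | h1
  · exfalso
    apply hz
    have h2 : G.dist w y = G.dist w z + 1 := by
      rcases dist_alt h hyz w with h3 | h3 <;> omega
    exact (parent_unique h hxy hyz.symm h1 h2).symm
  · omega

theorem branch_disjoint (h : IsRT d G) {y z z' : V} (hz : G.Adj y z) (hz' : G.Adj y z')
    (hne : z ≠ z') : Disjoint (branch G y z) (branch G y z') := by
  rw [Set.disjoint_left]
  intro w hw hw'
  have h1 : G.dist w z < G.dist w y := hw
  have h2 : G.dist w z' < G.dist w y := hw'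
  apply hne
  refine parent_unique h hz.symm hz'.symm (w := w) ?_ ?_
  · rcases dist_alt h hz w with h3 | h3 <;> omega
  · rcases dist_alt h hz' w with h3 | h3 <;> omega

theorem branch_eq (h : IsRT d G) [DecidableEq V] {x y : V} (hxy : G.Adj x y) :
    branch G x y = {y} ∪ ⋃ z ∈ (G.neighborFinset y).erase x, branch G y z := by
  ext w
  simp only [Set.mem_union, Set.mem_singleton_iff, Set.mem_iUnion, Finset.mem_erase,
    SimpleGraph.mem_neighborFinset, exists_prop]
  constructor
  · intro hw
    by_cases hwy : w = y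
    · exact Or.inl hwy
    · right
      have hw' : G.dist w y < G.dist w x := hw
      have hpos : G.dist y w ≠ 0 := fun h0 => hwy (eq_of_dist h h0).symm
      have h1 := dist_geo h y w (i := 1) (by omega)
      refine ⟨geo G y w 1, ⟨?_, ?_⟩, ?_⟩
      · intro he
        rw [he, SimpleGraph.dist_comm (u := x), SimpleGraph.dist_comm (u := y) (v := w)] at h1
        omega
      · have := geo_adj h y w (i := 0) (by omega)
        rw [geo_zero h] at this
        exact this
      · change G.dist w (geo G y w 1) < G.dist w y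
        rw [SimpleGraph.dist_comm (u := w) (v := geo G y w 1), h1.2,
          SimpleGraph.dist_comm (u := w) (v := y)]
        omega
  · rintro (rfl | ⟨z, ⟨hz, hyz⟩, hw⟩)
    · exact (self_mem_branch h hxy).1
    · exact (branch_subset h hxy hyz hz).1 hw

theorem univ_eq (h : IsRT d G) (v : V) :
    (Set.univ : Set V) = {v} ∪ ⋃ z ∈ G.neighborFinset v, branch G v z := by
  ext w
  simp only [Set.mem_univ, Set.mem_union, Set.mem_singleton_iff, Set.mem_iUnion,
    SimpleGraph.mem_neighborFinset, exists_prop, true_iff]
  by_cases hwy : w = v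
  · exact Or.inl hwy
  · right
    have hpos : G.dist v w ≠ 0 := fun h0 => hwy (eq_of_dist h h0).symm
    have h1 := dist_geo h v w (i := 1) (by omega)
    refine ⟨geo G v w 1, ?_, ?_⟩
    · have := geo_adj h v w (i := 0) (by omega)
      rw [geo_zero h] at this
      exact this
    · change G.dist w (geo G v w 1) < G.dist w v
      rw [SimpleGraph.dist_comm (u := w) (v := geo G v w 1), h1.2,
        SimpleGraph.dist_comm (u := w) (v := v)]
      omega

/-- branches are connected: the path from `y` to a vertex of the branch stays in the branch. -/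
theorem geo_mem_branch (h : IsRT d G) {x y z : V} (hxy : G.Adj x y) (hz : z ∈ branch G x y) (i : ℕ)
    (hi : i ≤ G.dist y z) : geo G y z i ∈ branch G x y := by
  have hz' : G.dist z y < G.dist z x := hz
  change G.dist (geo G y z i) y < G.dist (geo G y z i) x
  have h1 := dist_geo h y z hi
  rcases dist_alt h hxy (geo G y z i) with h2 | h2
  · exfalso
    have h3 := tri h x (geo G y z i) z
    rw [SimpleGraph.dist_comm (u := geo G y z i) (v := y), h1.1,
      SimpleGraph.dist_comm (u := geo G y z i) (v := x)] at h2
    rw [SimpleGraph.dist_comm (u := z) (v := y), SimpleGraph.dist_comm (u := z) (v := x)] at hz'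
    omega
  · omega

end Crest.Agent.R160
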