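import Crest.Agent.R160.TreeA
import Crest.Agent.R160.TreeS
import Crest.Agent.R160.Msg
import Crest.Agent.R160.Lip

/-! Row 160, piece COVDECAY (3e): exponential decay of the covariances of the edge functionals.
PROOF. Let the edges `e = {x,y}`, `e' = {x',y'}` with `x, y, ..., x', y'` on a geodesic. Cut the
geodesic from `y` to `x'` at its middle edge. `psi(msg y x)` (from `x` to `y`) is a function of
the branch away from `e'`. Replace in `msg x y` the message crossing the cut by `0`: the change is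
at most `2 θ^(distance to the cut)`. After the cut all functionals are even functionals of the field
on disjoint connected sets, hence independent by `iIndep_gauge`. -/

set_option autoImplicit false
set_option linter.unusedSectionVars false
open Finset Filter MeasureTheory ProbabilityTheory
open scoped Topology NNReal ENNReal

namespace Crest.Agent.R160
namespace CovDecayaux

variable {V : Type} [DecidableEq V] [Countable V] (S : Setup V)

theorem hasDerivAt_tanh (x : ℝ) : HasDerivAt Real.tanh (1 / Real.cosh x ^ 2) x := by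
  have h := (Real.hasDerivAt_sinh x).div (Real.hasDerivAt_cosh x) (Real.cosh_pos x).ne'
  have e : (Real.sinh / Real.cosh) = Real.tanh := by
    funext y; simp [Real.tanh_eq_sinh_div_cosh]
  rw [e] at h
  refine h.congr_deriv ?_
  have := Real.cosh_sq x
  congr 1
  nlinarith

theorem tanh_lip (a b : ℝ) : |Real.tanh a - Real.tanh b| ≤ |a - b| := by
  have h := Convex.norm_image_sub_le_of_norm_hasDerivWithin_le (f := Real.tanh)
    (f' := fun x => 1 / Real.cosh x ^ 2) (s := Set.univ) (C := 1) (x := b) (y := a)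
    (fun x _ => (hasDerivAt_tanh x).hasDerivWithinAt) (fun x _ => by
      rw [Real.norm_eq_abs, abs_of_nonneg (by positivity)]
      have := Real.one_le_cosh x
      rw [div_le_one (by positivity)]
      nlinarith) convex_univ trivial trivial
  simpa [Real.norm_eq_abs] using h

theorem geo_ne {G : SimpleGraph V} {p : ℕ → V} {k : ℕ} (hp : IsGeo G p k) {i j : ℕ}
    (hi : i ≤ k) (hj : j ≤ k) (hij : i ≠ j) : p i ≠ p j := by
  intro h
  have := hp.2 i hi j hj
  rw [h, SimpleGraph.dist_self] at this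
  omega

theorem chain {p : ℕ → V} {k : ℕ} (hp : IsGeo S.G p (k + 1)) {i : ℕ} (j : ℕ) (hij : i ≤ j)
    (hj : j ≤ k) :
    branch S.G (p (i + 1)) (p i) ⊆ branch S.G (p (j + 1)) (p j) := by
  induction j, hij using Nat.le_induction with
  | base => exact subset_rfl
  | succ j hij ih =>
    refine (ih (by omega)).trans ?_
    exact (branch_subset S.rt (x := p (j+2)) (y := p (j+1)) (z := p j)
      (hp.1 (j+1) (by omega)).symm (hp.1 j (by omega)).symm
      (geo_ne hp (by omega) (by omega) (by omega))).1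

theorem mem_chain {p : ℕ → V} {k : ℕ} (hp : IsGeo S.G p (k + 1)) {i : ℕ} (hi : i ≤ k) :
    p i ∈ branch S.G (p (k + 1)) (p k) := by
  have h1 := hp.2 i (by omega) k (by omega)
  have h2 := hp.2 i (by omega) (k+1) (by omega)
  simp only [branch, Set.mem_ofPred_eq, h1, h2]
  omega

theorem fld_bound {p : ℕ → V} {k : ℕ} (hp : IsGeo S.G p (k + 1)) {X X' : V → ℝ}
    (h : ∀ z ∈ branch S.G (p (k + 1)) (p k), X z = X' z) (m : ℕ) :
    ∀ (i n : ℕ), i + 1 + m = k →
    |S.fld n (p i) (p (i + 1)) X - S.fld n (p i) (p (i + 1)) X'| ≤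
      S.θ ^ m * (2 * Real.artanh S.θ) := by
  have hart : 0 ≤ Real.artanh S.θ := (abs_nonneg _).trans (gf_abs_le S.θpos S.theta_lt_one 0).1
  have hθ := S.θpos
  -- one step
  have key : ∀ (i n : ℕ), i + 1 ≤ k →
      S.fld (n+1) (p i) (p (i + 1)) X - S.fld (n+1) (p i) (p (i + 1)) X' =
      gf S.θ (S.fld n (p (i+1)) (p (i+2)) X) - gf S.θ (S.fld n (p (i+1)) (p (i+2)) X') := by
    intro i n hi
    simp only [Setup.fld]
    rw [h _ (mem_chain S hp hi), add_sub_add_left_eq_sub, ← Finset.sum_sub_distrib]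
    apply Finset.sum_eq_single (p (i+2))
    · intro z hz hne
      rw [Finset.mem_erase, SimpleGraph.mem_neighborFinset] at hz
      have hsub : branch S.G (p (i+1)) z ⊆ branch S.G (p (k + 1)) (p k) :=
        (branch_subset S.rt (x := p (i+2)) (y := p (i+1)) (z := z) (hp.1 (i+1) (by omega)).symm
          hz.2 hne).1.trans (chain S hp k (by omega) le_rfl)
      rw [S.fld_congr n hz.2 (fun w hw => h w (hsub hw)), sub_self]
    · intro hz
      exfalso; apply hz
      rw [Finset.mem_erase, SimpleGraph.mem_neighborFinset]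
      exact ⟨geo_ne hp (by omega) (by omega) (by omega), hp.1 (i+1) (by omega)⟩
  induction m with
  | zero =>
    intro i n hi
    cases n with
    | zero => simp [Setup.fld]; positivity
    | succ n =>
      rw [key i n (by omega)]
      have h1 := (gf_abs_le S.θpos S.theta_lt_one (S.fld n (p (i+1)) (p (i+2)) X)).1
      have h2 := (gf_abs_le S.θpos S.theta_lt_one (S.fld n (p (i+1)) (p (i+2)) X')).1
      rw [abs_le] at *
      rw [pow_zero, one_mul]
      constructor <;> linarith [h1.1, h1.2, h2.1, h2.2]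
  | succ m ih =>
    intro i n hi
    cases n with
    | zero => simp [Setup.fld]; positivity
    | succ n =>
      rw [key i n (by omega)]
      calc _ ≤ _ := gf_lip S.θpos S.theta_lt_one _ _
        _ ≤ S.θ * (S.θ ^ m * (2 * Real.artanh S.θ)) :=
          mul_le_mul_of_nonneg_left (ih (i+1) n (by omega)) hθ.le
        _ = _ := by ring

theorem limsup_bound {a b : ℕ → ℝ} {c K : ℝ} (hab : ∀ n, |a n - b n| ≤ c)
    (ha : ∀ n, |a n| ≤ K) (hb : ∀ n, |b n| ≤ K) :
    |limsup a atTop - limsup b atTop| ≤ c := by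
  have main : ∀ {a b : ℕ → ℝ}, (∀ n, |a n - b n| ≤ c) → (∀ n, |a n| ≤ K) → (∀ n, |b n| ≤ K) →
      limsup a atTop ≤ limsup b atTop + c := by
    intro a b hab ha hb
    have hbb : IsBoundedUnder (· ≤ ·) atTop b := isBoundedUnder_of ⟨K, fun n => (abs_le.1 (hb n)).2⟩
    have hbc : IsCoboundedUnder (· ≤ ·) atTop b :=
      (isBoundedUnder_of ⟨-K, fun n => (abs_le.1 (hb n)).1⟩ :
        IsBoundedUnder (· ≥ ·) atTop b).isCoboundedUnder_le
    have hac : IsCoboundedUnder (· ≤ ·) atTop a :=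
      (isBoundedUnder_of ⟨-K, fun n => (abs_le.1 (ha n)).1⟩ :
        IsBoundedUnder (· ≥ ·) atTop a).isCoboundedUnder_le
    rw [← limsup_add_const atTop b c hbb hbc]
    refine limsup_le_limsup (Eventually.of_forall fun n => ?_) hac ?_
    · have := (abs_le.1 (hab n)).2
      show a n ≤ b n + c
      linarith
    · exact isBoundedUnder_of ⟨K + c, fun n => by
        have := (abs_le.1 (hb n)).2
        show b n + c ≤ K + c
        linarith⟩
  rw [abs_le]
  constructor
  · have := main (a := b) (b := a) (fun n => by rw [abs_sub_comm]; exact hab n) hb ha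
    linarith
  · have := main hab ha hb
    linarith

theorem cav_bound {p : ℕ → V} {k : ℕ} (hk : 1 ≤ k) (hp : IsGeo S.G p (k + 1)) {X X' : V → ℝ}
    (h : ∀ z ∈ branch S.G (p (k + 1)) (p k), X z = X' z) :
    |S.cav (p 0) (p 1) X - S.cav (p 0) (p 1) X'| ≤ S.θ ^ (k - 1) * (2 * Real.artanh S.θ) := by
  have e : X (p 1) = X' (p 1) := h _ (mem_chain S hp hk)
  refine limsup_bound (K := |X (p 1)| + S.d * Real.artanh S.θ)
    (fun n => fld_bound S hp h (k-1) 0 n (by omega)) (fun n => S.fld_abs_le n _ _ X)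
    (fun n => ?_)
  rw [e]; exact S.fld_abs_le n _ _ X'

theorem psi_lip' : ∃ C : ℝ, 0 < C ∧ ∀ M M' : ℝ, |M| < 1 → |M'| < 1 →
    |S.psi M - S.psi M'| ≤ C * |M - M'| := by
  obtain ⟨C, hC, h⟩ := S.psi_lip
  refine ⟨2 * C, by positivity, fun M M' h1 h2 => (h M M' h1 h2).trans ?_⟩
  have : |M| + |M'| ≤ 2 := by linarith
  calc C * |M - M'| * (|M| + |M'|) ≤ C * |M - M'| * 2 :=
        mul_le_mul_of_nonneg_left this (by positivity)
    _ = _ := by ring

theorem fE_bound : ∃ C : ℝ, 0 < C ∧ ∀ (p : ℕ → V) (k : ℕ), 1 ≤ k → IsGeo S.G p (k + 1) →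
    ∀ X X' : V → ℝ, (∀ z ∈ branch S.G (p (k + 1)) (p k), X z = X' z) →
    |S.fE (p 0) (p 1) X - S.fE (p 0) (p 1) X'| ≤ C * S.θ ^ k := by
  obtain ⟨C, hC, h⟩ := psi_lip' S
  have hart : 0 ≤ Real.artanh S.θ := (abs_nonneg _).trans (gf_abs_le S.θpos S.theta_lt_one 0).1
  have hθ := S.θpos
  refine ⟨C * (Real.artanh S.θ + 1) / S.θ, by positivity, fun p k hk hp X X' hX => ?_⟩
  have h1 : S.msg (p 1) (p 0) X = S.msg (p 1) (p 0) X' := by
    unfold Setup.msg
    rw [S.cav_congr (hp.1 0 (by omega)).symm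
      (fun z hz => hX z (chain S hp k (Nat.zero_le _) le_rfl hz))]
  have h2 : |S.msg (p 0) (p 1) X - S.msg (p 0) (p 1) X'| ≤
      S.θ ^ (k - 1) * (2 * Real.artanh S.θ) :=
    (tanh_lip _ _).trans (cav_bound S hk hp hX)
  unfold Setup.fE
  rw [h1, ← sub_div, add_sub_add_right_eq_sub, abs_div, abs_two]
  have h3 := h _ _ (S.abs_msg_lt (p 0) (p 1) X) (S.abs_msg_lt (p 0) (p 1) X')
  have e : S.θ ^ k = S.θ ^ (k-1) * S.θ := by
    rw [← pow_succ]; congr 1; omega
  have h4 : C * (Real.artanh S.θ + 1) / S.θ * S.θ ^ k =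
      C * (Real.artanh S.θ + 1) * S.θ ^ (k-1) := by
    rw [e]; field_simp
  rw [h4]
  have h5 : 0 < S.θ ^ (k-1) := by positivity
  calc _ ≤ C * (S.θ ^ (k - 1) * (2 * Real.artanh S.θ)) / 2 := by
        apply div_le_div_of_nonneg_right _ (by norm_num)
        exact h3.trans (mul_le_mul_of_nonneg_left h2 hC.le)
    _ ≤ _ := by nlinarith [mul_pos hC h5]

theorem fE_abs_le : ∃ C : ℝ, 0 < C ∧ ∀ x y (X : V → ℝ), |S.fE x y X| ≤ C := by
  obtain ⟨C, hC, h⟩ := S.psi_bdd
  refine ⟨C, hC, fun x y X => ?_⟩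
  unfold Setup.fE
  have h1 := abs_le.1 (h (S.msg x y X))
  have h2 := abs_le.1 (h (S.msg y x X))
  rw [abs_le]
  constructor <;> linarith [h1.1, h1.2, h2.1, h2.2]

theorem cav_smul {X : V → ℝ} (hX : S.Good X) {x y : V} (hxy : S.G.Adj x y) {c : ℝ}
    (hc : c = 1 ∨ c = -1) : S.cav x y (fun z => c * X z) = c * S.cav x y X := by
  rcases hc with rfl | rfl
  · simp
  · have : (fun z => (-1 : ℝ) * X z) = -X := by funext z; simp
    rw [this, S.cav_neg hX hxy]; simp

theorem fE_smul {X : V → ℝ} (hX : S.Good X) {x y : V} (hxy : S.G.Adj x y) {c : ℝ}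
    (hc : c = 1 ∨ c = -1) : S.fE x y (fun z => c * X z) = S.fE x y X := by
  unfold Setup.fE Setup.msg
  rw [cav_smul S hX hxy hc, cav_smul S hX hxy.symm hc]
  rcases hc with rfl | rfl
  · simp
  · simp [Real.tanh_neg, S.psi_even]

/-- cut field: time `t` on `R` and `0` elsewhere, gauged by the spin at `r`. -/
noncomputable def cutF (t : ℝ≥0) (r : V) (R : Set V) (ω : Om V) : V → ℝ :=
  fun z => S.spin r ω * S.XT (R.indicator fun _ => t) ω z

theorem measurable_cutF (t : ℝ≥0) (r : V) (R : Set V) :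
    Measurable[S.Gau r R] (cutF S t r R) := by
  refine @measurable_pi_lambda _ _ _ (S.Gau r R) _ _ fun z => ?_
  by_cases hz : z ∈ R
  · have h := S.measurable_gauge_XX (R.indicator fun _ => t) (r := r) hz
    exact h
  · have e : (fun ω => cutF S t r R ω z) = fun _ => 0 := by
      funext ω
      simp [cutF, Setup.XT, Setup.XX, Set.indicator_of_notMem hz, Setup.B, S.β.zero]
    rw [e]
    exact measurable_const

theorem one_side : ∃ C : ℝ, 0 < C ∧ ∀ (t : ℝ≥0) (p : ℕ → V) (k : ℕ), 1 ≤ k →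
    IsGeo S.G p (k + 1) →
    ∃ g : Om V → ℝ, Measurable[S.Gau (p k) (branch S.G (p (k+1)) (p k))] g ∧ (∀ ω, |g ω| ≤ C) ∧
      ∀ᵐ ω ∂S.P, |S.fE (p 0) (p 1) (S.Xt t ω) - g ω| ≤ C * S.θ ^ k := by
  obtain ⟨C1, hC1, h1⟩ := fE_bound S
  obtain ⟨C2, hC2, h2⟩ := fE_abs_le S
  have hθ := S.θpos
  refine ⟨C1 + C2, by positivity, fun t p k hk hp => ?_⟩
  set R := branch S.G (p (k+1)) (p k) with hR
  refine ⟨fun ω => S.fE (p 0) (p 1) (cutF S t (p k) R ω), ?_, ?_, ?_⟩
  · exact (S.measurable_fE (p 0) (p 1)).comp (measurable_cutF S t (p k) R)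
  · intro ω
    exact (h2 _ _ _).trans (by linarith)
  · filter_upwards [S.ae_good (R.indicator fun _ => t)] with ω hω
    have e : S.fE (p 0) (p 1) (cutF S t (p k) R ω) =
        S.fE (p 0) (p 1) (S.XT (R.indicator fun _ => t) ω) :=
      fE_smul S hω (hp.1 0 (by omega)) (S.spin_val (p k) ω)
    rw [e]
    refine (h1 p k hk hp _ _ fun z hz => ?_).trans ?_
    · simp [Setup.XT, Setup.Xt, Set.indicator_of_mem (show z ∈ R from hz)]
    · exact mul_le_mul_of_nonneg_right (by linarith) (by positivity)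

theorem rev_geo {G : SimpleGraph V} {p : ℕ → V} {k : ℕ} (hp : IsGeo G p k) :
    IsGeo G (fun i => p (k - i)) k := by
  refine ⟨fun i hi => ?_, fun i hi j hj => ?_⟩
  · have := (hp.1 (k - (i+1)) (by omega)).symm
    have e : k - (i+1) + 1 = k - i := by omega
    rw [e] at this
    exact this
  · have := hp.2 (k - i) (by omega) (k - j) (by omega)
    simp only [this]
    omega

theorem sub_geo {G : SimpleGraph V} {p : ℕ → V} {k l : ℕ} (hp : IsGeo G p k) (hl : l ≤ k) :
    IsGeo G p l :=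
  ⟨fun i hi => hp.1 i (by omega), fun i hi j hj => hp.2 i (by omega) j (by omega)⟩

/-- covariance bound from approximation by independent variables. -/
theorem cov_approx {μ : Measure (Om V)} [IsProbabilityMeasure μ] {F F' g g' : Om V → ℝ}
    {K δ δ' : ℝ} (hF : Measurable F) (hF' : Measurable F') (hg : Measurable g)
    (hg' : Measurable g') (bF : ∀ ω, |F ω| ≤ K) (bF' : ∀ ω, |F' ω| ≤ K) (bg : ∀ ω, |g ω| ≤ K)
    (bg' : ∀ ω, |g' ω| ≤ K) (h : ∀ᵐ ω ∂μ, |F ω - g ω| ≤ δ) (h' : ∀ᵐ ω ∂μ, |F' ω - g' ω| ≤ δ')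
    (hind : ∫ ω, g ω * g' ω ∂μ = (∫ ω, g ω ∂μ) * ∫ ω, g' ω ∂μ) :
    |∫ ω, F ω * F' ω ∂μ - (∫ ω, F ω ∂μ) * ∫ ω, F' ω ∂μ| ≤ 2 * K * (δ + δ') := by
  have int : ∀ {f : Om V → ℝ} {B : ℝ}, Measurable f → (∀ ω, |f ω| ≤ B) → Integrable f μ :=
    fun hf hb => Integrable.of_bound hf.aestronglyMeasurable _ (Eventually.of_forall hb)
  have iF := int hF bF
  have iF' := int hF' bF'
  have ig := int hg bg
  have ig' := int hg' bg'
  have hK : 0 ≤ K := (abs_nonneg _).trans (bF (Classical.choice inferInstance))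
  have mb : ∀ {a b : ℝ}, |a| ≤ K → |b| ≤ K → |a * b| ≤ K * K := fun ha hb => by
    rw [abs_mul]; exact mul_le_mul ha hb (abs_nonneg _) hK
  have iFF' : Integrable (fun ω => F ω * F' ω) μ :=
    int (hF.mul hF') (B := K * K) fun ω => mb (bF ω) (bF' ω)
  have igF' : Integrable (fun ω => g ω * F' ω) μ :=
    int (hg.mul hF') (B := K * K) fun ω => mb (bg ω) (bF' ω)
  have igg' : Integrable (fun ω => g ω * g' ω) μ :=
    int (hg.mul hg') (B := K * K) fun ω => mb (bg ω) (bg' ω)
  have bi : ∀ {f : Om V → ℝ} {B : ℝ}, (∀ᵐ ω ∂μ, |f ω| ≤ B) → |∫ ω, f ω ∂μ| ≤ B := by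
    intro f B hb
    have := norm_integral_le_of_norm_le_const (μ := μ) (f := f) (C := B) hb
    simpa using this
  have e1 : |∫ ω, F ω * F' ω ∂μ - ∫ ω, g ω * F' ω ∂μ| ≤ δ * K := by
    rw [← integral_sub iFF' igF']
    apply bi
    filter_upwards [h] with ω hω
    rw [← sub_mul, abs_mul]
    exact mul_le_mul hω (bF' ω) (abs_nonneg _) ((abs_nonneg _).trans hω)
  have e2 : |∫ ω, g ω * F' ω ∂μ - ∫ ω, g ω * g' ω ∂μ| ≤ K * δ' := by
    rw [← integral_sub igF' igg']
    apply bi
    filter_upwards [h'] with ω hω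
    rw [← mul_sub, abs_mul]
    exact mul_le_mul (bg ω) hω (abs_nonneg _) hK
  have e3 : |∫ ω, F ω ∂μ - ∫ ω, g ω ∂μ| ≤ δ := by
    rw [← integral_sub iF ig]
    exact bi h
  have e4 : |∫ ω, F' ω ∂μ - ∫ ω, g' ω ∂μ| ≤ δ' := by
    rw [← integral_sub iF' ig']
    exact bi h'
  have e5 : |∫ ω, F' ω ∂μ| ≤ K := bi (Eventually.of_forall bF')
  have e6 : |∫ ω, g ω ∂μ| ≤ K := bi (Eventually.of_forall bg)
  have e7 : |(∫ ω, F ω ∂μ) * ∫ ω, F' ω ∂μ - (∫ ω, g ω ∂μ) * ∫ ω, F' ω ∂μ| ≤ δ * K := by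
    rw [← sub_mul, abs_mul]
    exact mul_le_mul e3 e5 (abs_nonneg _) ((abs_nonneg _).trans e3)
  have e8 : |(∫ ω, g ω ∂μ) * ∫ ω, F' ω ∂μ - (∫ ω, g ω ∂μ) * ∫ ω, g' ω ∂μ| ≤ K * δ' := by
    rw [← mul_sub, abs_mul]
    exact mul_le_mul e6 e4 (abs_nonneg _) hK
  rw [hind] at e2
  rw [abs_le] at *
  constructor <;> linarith [e1.1, e1.2, e2.1, e2.2, e7.1, e7.2, e8.1, e8.2]

end CovDecayaux

namespace Setup

variable {V : Type} [DecidableEq V] [Countable V] (S : Setup V)

theorem cov_decay : ∃ C r : ℝ, 0 < C ∧ 1 / ((S.d : ℝ) - 1) < r ∧ r < 1 ∧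
    ∀ (t : ℝ≥0) (p : ℕ → V) (k : ℕ), IsGeo S.G p (k + 1) → 1 ≤ k →
    |∫ ω, S.fE (p 0) (p 1) (S.Xt t ω) * S.fE (p k) (p (k + 1)) (S.Xt t ω) ∂S.P -
      (∫ ω, S.fE (p 0) (p 1) (S.Xt t ω) ∂S.P) * ∫ ω, S.fE (p k) (p (k + 1)) (S.Xt t ω) ∂S.P| ≤
      C * r ^ k := by
  obtain ⟨C1, hC1, h1⟩ := CovDecayaux.one_side S
  obtain ⟨C2, hC2, h2⟩ := CovDecayaux.fE_abs_le S
  set K := C1 + C2 with hK
  have hK0 : 0 < K := by positivity
  have hθ := S.θpos
  have hθ1 := S.theta_lt_one
  set r := max (Real.sqrt S.θ) (3 / 4) with hr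
  have hr34 : 3 / 4 ≤ r := le_max_right _ _
  have hr1 : r < 1 := by
    rw [hr, max_lt_iff]
    refine ⟨?_, by norm_num⟩
    rw [Real.sqrt_lt' one_pos]; simpa using hθ1
  have hr0 : 0 < r := by linarith
  have hθr : S.θ ≤ r ^ 2 := by
    have h3 : Real.sqrt S.θ ≤ r := le_max_left _ _
    calc S.θ = Real.sqrt S.θ ^ 2 := (Real.sq_sqrt hθ.le).symm
      _ ≤ r ^ 2 := pow_le_pow_left₀ (Real.sqrt_nonneg _) h3 2
  have hd : (3 : ℝ) ≤ S.d := by exact_mod_cast S.d_three
  refine ⟨4 * K * K / r, r, by positivity, ?_, hr1, fun t p k hp hk => ?_⟩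
  · refine lt_of_le_of_lt ?_ (lt_of_lt_of_le (show (1:ℝ)/2 < 3/4 by norm_num) hr34)
    rw [div_le_div_iff₀ (by linarith) (by norm_num)]
    linarith
  have mF : ∀ x y, Measurable fun ω => S.fE x y (S.Xt t ω) := fun x y =>
    (S.measurable_fE x y).comp (S.measurable_Xt t)
  have bF : ∀ x y ω, |S.fE x y (S.Xt t ω)| ≤ K := fun x y ω =>
    (h2 x y _).trans (by linarith)
  rcases Nat.lt_or_ge k 2 with hk2 | hk2
  · -- trivial bound
    have hk1 : k = 1 := by omega
    have bi : ∀ {f : Om V → ℝ} {B : ℝ}, (∀ ω, |f ω| ≤ B) → |∫ ω, f ω ∂S.P| ≤ B := by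
      intro f B hb
      have := norm_integral_le_of_norm_le_const (μ := S.P) (f := f) (C := B)
        (Eventually.of_forall hb)
      simpa using this
    have b1 : |∫ ω, S.fE (p 0) (p 1) (S.Xt t ω) * S.fE (p k) (p (k + 1)) (S.Xt t ω) ∂S.P| ≤
        K * K := bi fun ω => by
      rw [abs_mul]; exact mul_le_mul (bF _ _ _) (bF _ _ _) (abs_nonneg _) hK0.le
    have b2 : |(∫ ω, S.fE (p 0) (p 1) (S.Xt t ω) ∂S.P) *
        ∫ ω, S.fE (p k) (p (k + 1)) (S.Xt t ω) ∂S.P| ≤ K * K := by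
      rw [abs_mul]
      exact mul_le_mul (bi (bF _ _)) (bi (bF _ _)) (abs_nonneg _) hK0.le
    have e : 4 * K * K / r * r ^ k = 4 * K * K := by
      rw [hk1]; field_simp
    rw [e]
    have hKK : 0 < K * K := by positivity
    rw [abs_le] at *
    constructor <;> linarith [b1.1, b1.2, b2.1, b2.2]
  · set j := k / 2 with hj
    have hj1 : 1 ≤ j := by omega
    have hjk : j + 1 ≤ k := by omega
    -- left
    have hpL : IsGeo S.G p (j + 1) := CovDecayaux.sub_geo hp (by omega)
    obtain ⟨g, mg, bg, hg⟩ := h1 t p j hj1 hpL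
    -- right
    have hpR' : IsGeo S.G (fun i => p (k + 1 - i)) (k + 1) := CovDecayaux.rev_geo hp
    have hpR : IsGeo S.G (fun i => p (k + 1 - i)) ((k - j) + 1) :=
      CovDecayaux.sub_geo hpR' (by omega)
    obtain ⟨g', mg', bg', hg'⟩ := h1 t _ (k - j) (by omega) hpR
    have e1 : k + 1 - (k - j) = j + 1 := by omega
    have e2 : k + 1 - ((k - j) + 1) = j := by omega
    rw [e2, e1] at mg'
    simp only [Nat.sub_zero, Nat.add_sub_cancel] at hg'
    have hadj : S.G.Adj (p j) (p (j + 1)) := hp.1 j (by omega)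
    -- independence
    have hindep := S.iIndep_gauge (ι := Bool) (fun b => if b then p j else p (j + 1))
      (fun b => if b then branch S.G (p (j + 1)) (p j) else branch S.G (p j) (p (j + 1)))
      (fun b => by
        cases b
        · simpa using S.conn_branch hadj
        · simpa using S.conn_branch hadj.symm)
      (fun a b hab => by
        have hdis : Disjoint (branch S.G (p (j + 1)) (p j)) (branch S.G (p j) (p (j + 1))) := by
          rw [← branch_compl S.rt hadj]
          exact disjoint_compl_left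
        cases a <;> cases b
        · exact absurd rfl hab
        · simpa [Function.onFun] using hdis.symm
        · simpa [Function.onFun] using hdis
        · exact absurd rfl hab)
    have hindep2 : Indep (S.Gau (p j) (branch S.G (p (j + 1)) (p j)))
        (S.Gau (p (j + 1)) (branch S.G (p j) (p (j + 1)))) S.P := by
      have := hindep.indep (i := true) (j := false) (by simp)
      simpa using this
    have hif : IndepFun g g' S.P := by
      rw [IndepFun_iff_Indep]
      exact indep_of_indep_of_le_left (indep_of_indep_of_le_right hindep2 mg'.comap_le)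
        mg.comap_le
    have mg0 : Measurable g := mg.mono (S.Gau_le _ _) le_rfl
    have mg0' : Measurable g' := mg'.mono (S.Gau_le _ _) le_rfl
    have hind : ∫ ω, g ω * g' ω ∂S.P = (∫ ω, g ω ∂S.P) * ∫ ω, g' ω ∂S.P :=
      hif.integral_mul_eq_mul_integral mg0.aestronglyMeasurable mg0'.aestronglyMeasurable
    have main := CovDecayaux.cov_approx (μ := S.P) (mF (p 0) (p 1)) (mF (p k) (p (k + 1)))
      mg0 mg0' (bF _ _) (bF _ _) (fun ω => (bg ω).trans (by linarith))
      (fun ω => (bg' ω).trans (by linarith)) hg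
      (δ' := C1 * S.θ ^ (k - j)) (by
        filter_upwards [hg'] with ω hω
        rw [S.fE_comm (p k) (p (k + 1))]
        exact hω) hind
    refine main.trans ?_
    have b1 : S.θ ^ (k - j) ≤ S.θ ^ j := pow_le_pow_of_le_one hθ.le hθ1.le (by omega)
    have b2 : S.θ ^ j ≤ r ^ (k - 1) := by
      calc S.θ ^ j ≤ (r ^ 2) ^ j := pow_le_pow_left₀ hθ.le hθr j
        _ = r ^ (2 * j) := by rw [← pow_mul]
        _ ≤ r ^ (k - 1) := pow_le_pow_of_le_one hr0.le hr1.le (by omega)
    have b3 : r ^ k = r ^ (k - 1) * r := by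
      rw [← pow_succ]; congr 1; omega
    have b4 : 4 * K * K / r * r ^ k = 4 * K * K * r ^ (k - 1) := by
      rw [b3]; field_simp
    rw [b4]
    have b5 : 0 ≤ S.θ ^ j := by positivity
    have b6 : 0 ≤ r ^ (k - 1) := by positivity
    calc 2 * K * (C1 * S.θ ^ j + C1 * S.θ ^ (k - j)) ≤
        2 * K * (K * r ^ (k - 1) + K * r ^ (k - 1)) := by
          apply mul_le_mul_of_nonneg_left _ (by positivity)
          apply add_le_add
          · exact mul_le_mul (by linarith) b2 b5 hK0.le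
          · exact mul_le_mul (by linarith) (b1.trans b2) (by positivity) hK0.le
      _ = _ := by ring

end Setup
end Crest.Agent.R160
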