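import Crest.Agent.R160.Law
import Crest.Prelude.Def_TreeIsing

/-! Row 160, piece CYL: the law of the spins. -/

set_option autoImplicit false
open Finset Filter MeasureTheory ProbabilityTheory
open scoped Topology NNReal ENNReal

namespace Crest.Agent.R160
namespace Setup

variable {V : Type} [DecidableEq V] [Countable V] (S : Setup V)

/-- the Boolean spin -/
noncomputable def bspin (v : V) (ω : Om V) : Bool := decide (S.spin v ω = 1)

theorem cyl_spin_eq (v : V) (ω : Om V) : S.spin v ω = sg (S.bspin v ω) := by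
  unfold bspin
  rcases S.spin_val v ω with h | h
  · simp [h, sg]
  · rw [h]; norm_num [sg]

theorem cyl_coin_eq {x y : V} (hxy : S.G.Adj x y) (ω : Om V) :
    ω.1 (some s(x, y)) = decide (S.bspin x ω = S.bspin y ω) := by
  have h := S.spin_adj hxy ω
  rw [cyl_spin_eq, cyl_spin_eq] at h
  cases h1 : S.bspin x ω <;> cases h2 : S.bspin y ω <;> cases h3 : ω.1 (some s(x, y)) <;>
    rw [h1, h2, h3] at h <;> first | rfl | (exfalso; norm_num [sg] at h)

omit [Countable V] in
theorem cyl_theta_le : S.θ ≤ 1 := by
  have h1 := S.θle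
  have h2 : (3 : ℝ) ≤ S.d := by exact_mod_cast S.rt.three_le
  nlinarith [S.θpos, sq_nonneg S.θ]

theorem cyl_bnot (a b : Bool) : ((!b) = a) ↔ ¬ (b = a) := by
  cases a <;> cases b <;> simp

theorem cyl_beq (a b c : Bool) (h : decide (a = b) = decide (a = c)) : b = c := by
  cases a <;> cases b <;> cases c <;> simp_all

theorem cyl_isProb_coin {p : ℝ} (h0 : 0 ≤ p) (h1 : p ≤ 1) : IsProbabilityMeasure (coin p) := by
  constructor
  unfold coin
  simp only [Measure.coe_add, Measure.coe_smul, Pi.add_apply, Pi.smul_apply, measure_univ, smul_eq_mul, mul_one]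
  rw [← ENNReal.ofReal_add h0 (by linarith)]
  simp

theorem cyl_coin_true (p : ℝ) : coin p {true} = ENNReal.ofReal p := by
  unfold coin
  simp

theorem cyl_coin_false (p : ℝ) : coin p {false} = ENNReal.ofReal (1 - p) := by
  unfold coin
  simp

theorem cyl_edges (E : Finset (Sym2 V)) (c : Sym2 V → Bool) :
    S.P {ω | ∀ e ∈ E, ω.1 (some e) = c e} =
      ENNReal.ofReal (∏ e ∈ E, if c e = true then (1 + S.θ) / 2 else (1 - S.θ) / 2) := by
  have hθ := S.cyl_theta_le
  have hθ0 := S.θpos
  have hprob : ∀ o : Option (Sym2 V), IsProbabilityMeasure (coin (o.elim (1 / 2) fun _ => (1 + S.θ) / 2)) := by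
    intro o
    cases o with
    | none => exact cyl_isProb_coin (by norm_num) (by norm_num)
    | some e => exact cyl_isProb_coin (by simp only [Option.elim]; linarith) (by simp only [Option.elim]; linarith)
  have hset : {ω : Om V | ∀ e ∈ E, ω.1 (some e) = c e} =
      (Set.pi ((E.map Function.Embedding.some : Finset (Option (Sym2 V))) : Set (Option (Sym2 V)))
        (fun o => {o.elim true c})) ×ˢ (Set.univ : Set (V → ℕ → ℝ)) := by
    ext ω
    simp only [Set.mem_ofPred_eq, Set.mem_prod, Set.mem_pi, Finset.coe_map, Set.mem_image,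
      Finset.mem_coe, Function.Embedding.some_apply, forall_exists_index, and_imp,
      forall_apply_eq_imp_iff₂, Option.elim, Set.mem_singleton_iff, Set.mem_univ, and_true]
  rw [hset, P, Measure.prod_prod, Measure.infinitePi_pi _ (fun i _ => measurableSet_singleton _),
    measure_univ, mul_one, Finset.prod_map, ENNReal.ofReal_prod_of_nonneg]
  · refine Finset.prod_congr rfl fun e _ => ?_
    simp only [Function.Embedding.some_apply, Option.elim]
    cases c e
    · rw [cyl_coin_false]; norm_num; congr 1; ring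
    · rw [cyl_coin_true]; norm_num
  · intro e _
    split_ifs <;> linarith

theorem cylinder (F : Finset V) (η : V → Bool) (hF : (S.G.induce (F : Set V)).Connected) :
    S.P {ω | ∀ v ∈ F, S.bspin v ω = η v} =
      ENNReal.ofReal (Crest.ProbabilityR.TreeIsing.isingWeight S.G S.θ F η) := by
  classical
  obtain ⟨⟨v0, hv0⟩⟩ := hF.nonempty
  have hv0F : v0 ∈ F := by exact_mod_cast hv0
  set EF : Finset (Sym2 V) := F.sym2.filter (· ∈ S.G.edgeSet) with hEF
  set c : Sym2 V → Bool := fun e => decide (Sym2.map η e).IsDiag with hc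
  set E : Set (Om V) := {ω | ∀ e ∈ EF, ω.1 (some e) = c e} with hE
  -- the edge event in terms of spins
  have hE' : ∀ ω, ω ∈ E ↔ ∀ x ∈ F, ∀ y ∈ F, S.G.Adj x y →
      (decide (S.bspin x ω = S.bspin y ω) = decide (η x = η y)) := by
    intro ω
    constructor
    · intro h x hx y hy hxy
      have := h s(x, y) (by simp [hEF, hx, hy, hxy])
      rw [S.cyl_coin_eq hxy] at this
      rw [this]
      simp [hc]
    · intro h e he
      induction e using Sym2.ind with
      | _ x y =>
        simp only [hEF, Finset.mem_filter, Finset.mk_mem_sym2_iff, SimpleGraph.mem_edgeSet] at he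
        rw [S.cyl_coin_eq he.2, h x he.1.1 y he.1.2 he.2]
        simp [hc]
  have hset : {ω | ∀ v ∈ F, S.bspin v ω = η v} = {ω | S.bspin v0 ω = η v0} ∩ E := by
    ext ω
    constructor
    · intro h
      refine ⟨h v0 hv0F, (hE' ω).mpr ?_⟩
      intro x hx y hy _
      rw [h x hx, h y hy]
    · rintro ⟨h0, h1⟩
      have h1' := (hE' ω).mp h1
      have key : ∀ (a b : (F : Set V)), (S.G.induce (F : Set V)).Walk a b →
          S.bspin a ω = η a → S.bspin b ω = η b := by
        intro a b w
        induction w with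
        | nil => exact id
        | @cons u v w hadj p ih =>
          intro hu
          apply ih
          have hadj' : S.G.Adj u v := hadj
          have := h1' u (by exact_mod_cast u.2) v (by exact_mod_cast v.2) hadj'
          rw [hu] at this
          exact cyl_beq _ _ _ this
      intro v hv
      obtain ⟨w⟩ := hF.preconnected ⟨v0, hv0⟩ ⟨v, by exact_mod_cast hv⟩
      exact key _ _ w h0
  -- flip
  obtain ⟨Fl, hFl, hspin, _⟩ := S.exists_flip
  have hbs : ∀ v ω, S.bspin v (Fl ω) = !(S.bspin v ω) := by
    intro v ω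
    unfold bspin
    rw [hspin]
    rcases S.spin_val v ω with h | h <;> rw [h] <;> norm_num
  have hmb : Measurable (S.bspin v0) := by
    unfold bspin
    have : MeasurableSet {ω | S.spin v0 ω = 1} := S.measurable_spin v0 (measurableSet_singleton 1)
    refine measurable_to_bool ?_
    convert this using 1
    ext ω
    simp
  have hmE : MeasurableSet E := by
    have : E = ⋂ e ∈ EF, {ω : Om V | ω.1 (some e) = c e} := by
      ext ω; simp [hE]
    rw [this]
    refine Finset.measurableSet_biInter _ fun e _ => ?_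
    have hm : Measurable (fun ω : Om V => ω.1 (some e)) :=
      (measurable_pi_apply (some e)).comp measurable_fst
    exact hm (measurableSet_singleton (c e))
  have hA : MeasurableSet {ω | S.bspin v0 ω = η v0} := hmb (measurableSet_singleton _)
  have hpre : Fl ⁻¹' ({ω | S.bspin v0 ω = η v0} ∩ E) = E \ {ω | S.bspin v0 ω = η v0} := by
    ext ω
    simp only [Set.mem_preimage, Set.mem_inter_iff, Set.mem_ofPred_eq, Set.mem_sdiff]
    have e1 : Fl ω ∈ E ↔ ω ∈ E := by
      rw [hE', hE']
      simp only [hbs]
      simp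
    rw [e1, hbs, cyl_bnot, and_comm]
  have hhalf : S.P E = 2 * S.P ({ω | S.bspin v0 ω = η v0} ∩ E) := by
    have h1 : S.P (Fl ⁻¹' ({ω | S.bspin v0 ω = η v0} ∩ E)) = S.P ({ω | S.bspin v0 ω = η v0} ∩ E) :=
      hFl.measure_preimage (hA.inter hmE).nullMeasurableSet
    rw [hpre] at h1
    rw [← measure_inter_add_sdiff E hA, h1, Set.inter_comm, two_mul]
  rw [hset]
  have hEP := S.cyl_edges EF c
  rw [← hE, hhalf] at hEP
  have hfin : S.P ({ω | S.bspin v0 ω = η v0} ∩ E) = ENNReal.ofReal (1 / 2) *
      ENNReal.ofReal (∏ e ∈ EF, if c e = true then (1 + S.θ) / 2 else (1 - S.θ) / 2) := by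
    rw [← hEP, ← mul_assoc]
    have : ENNReal.ofReal (1 / 2) * 2 = 1 := by
      rw [one_div, ENNReal.ofReal_inv_of_pos (by norm_num)]
      simp
      exact ENNReal.inv_mul_cancel (by norm_num) (by norm_num)
    rw [this, one_mul]
  rw [hfin, ← ENNReal.ofReal_mul (by norm_num)]
  congr 1
  unfold Crest.ProbabilityR.TreeIsing.isingWeight
  congr 1
  have : EF = F.sym2.filter (· ∈ S.G.edgeSet) := rfl
  rw [this]
  simp only [hc, decide_eq_true_eq]

end Setup
end Crest.Agent.R160
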