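import Crest.Agent.R160.Msg

/-! Row 160, piece DECAY (3b): exponential decay of the product of the slopes.
`aa v u X = ∏ θ φ(msg x_i x_{i+1})` (path `x_i` from `v` to `u`). The message `msg x_0 x_1` uses
`X_{x_1} = T τ + B_{x_1}`; given everything else the Gaussian `B_{x_1}(T)` gives
`E φ(tanh(μ + B)) ≤ 1 - c min(1,T)` for every `μ`; the other factors do not use `X_{x_1}`. -/

set_option autoImplicit false
open Finset Filter MeasureTheory ProbabilityTheory
open scoped Topology NNReal ENNReal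

namespace Crest.Agent.R160
namespace Decayaux

theorem tanh_sq_eq (x : ℝ) : Real.tanh x ^ 2 = Real.sinh x ^ 2 / (1 + Real.sinh x ^ 2) := by
  rw [Real.tanh_eq_sinh_div_cosh, div_pow, Real.cosh_sq']

theorem sinh_sq_ge (x : ℝ) : x ^ 2 ≤ Real.sinh x ^ 2 := by
  rw [← sq_abs x, ← sq_abs (Real.sinh x), Real.abs_sinh]
  have : |x| ≤ Real.sinh |x| := Real.self_le_sinh_iff.2 (abs_nonneg x)
  gcongr

theorem tanh_sq_mono {x y : ℝ} (h : |x| ≤ |y|) : Real.tanh x ^ 2 ≤ Real.tanh y ^ 2 := by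
  rw [tanh_sq_eq, tanh_sq_eq]
  have h1 : Real.sinh x ^ 2 ≤ Real.sinh y ^ 2 := by
    rw [← sq_abs (Real.sinh x), ← sq_abs (Real.sinh y), Real.abs_sinh, Real.abs_sinh]
    have h2 : Real.sinh |x| ≤ Real.sinh |y| := Real.sinh_le_sinh.2 h
    have h3 : 0 ≤ Real.sinh |x| := Real.sinh_nonneg_iff.2 (abs_nonneg x)
    gcongr
  rw [div_le_div_iff₀ (by positivity) (by positivity)]
  nlinarith [sq_nonneg (Real.sinh x), sq_nonneg (Real.sinh y)]

theorem tanh_sq_ge (x : ℝ) : (1 - Real.cos x) / 4 ≤ Real.tanh x ^ 2 := by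
  rw [tanh_sq_eq]
  have h1 := sinh_sq_ge x
  set s := Real.sinh x ^ 2
  have h0 : 0 ≤ s := by positivity
  have h2 : 1 - Real.cos x ≤ x ^ 2 / 2 := by linarith [Real.one_sub_sq_div_two_le_cos (x := x)]
  have h3 : 1 - Real.cos x ≤ 2 := by linarith [Real.neg_one_le_cos x]
  rw [le_div_iff₀ (by positivity)]
  rcases le_total s 1 with h | h
  · nlinarith [Real.cos_le_one x]
  · nlinarith [Real.cos_le_one x]

theorem tanh_shift (a g : ℝ) : Real.tanh g ^ 2 ≤ Real.tanh (a + g) ^ 2 + Real.tanh (a - g) ^ 2 := by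
  rcases le_total 0 (a * g) with h | h
  · have : |g| ≤ |a + g| := by
      apply sq_le_sq.1
      nlinarith [sq_nonneg a]
    have := tanh_sq_mono this
    nlinarith [sq_nonneg (Real.tanh (a - g))]
  · have : |g| ≤ |a - g| := by
      apply sq_le_sq.1
      nlinarith [sq_nonneg a]
    have := tanh_sq_mono this
    nlinarith [sq_nonneg (Real.tanh (a + g))]

theorem measurable_tanh : Measurable Real.tanh := by
  have : Real.tanh = fun x => Real.sinh x / Real.cosh x := by
    funext x; exact Real.tanh_eq_sinh_div_cosh x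
  rw [this]
  exact Real.measurable_sinh.div Real.measurable_cosh

theorem tanh_sq_le_one (x : ℝ) : Real.tanh x ^ 2 ≤ 1 := by
  have := Real.abs_tanh_lt_one x
  rw [← sq_abs]
  have h0 := abs_nonneg (Real.tanh x)
  nlinarith

theorem integrable_tanh_sq (μ : Measure ℝ) [IsFiniteMeasure μ] {f : ℝ → ℝ} (hf : Measurable f) :
    Integrable (fun g => Real.tanh (f g) ^ 2) μ := by
  refine Integrable.of_bound (((measurable_tanh.comp hf).pow_const 2).aestronglyMeasurable) 1 ?_
  refine Eventually.of_forall fun g => ?_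
  rw [Real.norm_eq_abs, abs_of_nonneg (by positivity)]
  exact tanh_sq_le_one _

theorem integral_cos_gauss (t : ℝ≥0) : ∫ g, Real.cos g ∂(gaussianReal 0 t) = Real.exp (-t / 2) := by
  have h := charFun_gaussianReal (μ := 0) (v := t) 1
  rw [charFun_apply_real] at h
  have h2 : ∫ x : ℝ, Real.cos x ∂(gaussianReal 0 t) =
      (∫ x : ℝ, Complex.exp (((1 : ℝ) : ℂ) * x * Complex.I) ∂(gaussianReal 0 t)).re := by
    have hint : Integrable (fun x : ℝ => Complex.exp (((1 : ℝ) : ℂ) * x * Complex.I))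
        (gaussianReal 0 t) := by
      refine Integrable.of_bound (by fun_prop) 1 (Eventually.of_forall fun x => ?_)
      have : (((1 : ℝ) : ℂ) * x * Complex.I) = ((x : ℝ) : ℂ) * Complex.I := by push_cast; ring
      rw [this, Complex.norm_exp_ofReal_mul_I]
    have := integral_re hint
    simp only [RCLike.re_to_complex] at this
    rw [← this]
    refine integral_congr_ae (Eventually.of_forall fun x => ?_)
    have h3 : (((1 : ℝ) : ℂ) * x * Complex.I) = ((x : ℝ) : ℂ) * Complex.I := by push_cast; ring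
    simp only [h3, Complex.exp_ofReal_mul_I_re]
  rw [h2, h]
  have h4 : (((1 : ℝ) : ℂ) * ((0 : ℝ) : ℂ) * Complex.I - ((t : ℝ≥0) : ℂ) * ((1 : ℝ) : ℂ) ^ 2 / 2) =
      (((-t / 2 : ℝ)) : ℂ) := by
    push_cast; ring
  rw [h4, Complex.exp_ofReal_re]

theorem exp_bound (t : ℝ) (ht : 0 ≤ t) : min 1 t / 4 ≤ 1 - Real.exp (-t / 2) := by
  set m := min 1 t with hm
  have hm0 : 0 ≤ m := le_min zero_le_one ht
  have hm1 : m ≤ 1 := min_le_left _ _
  have hmt : m ≤ t := min_le_right _ _
  have h1 : Real.exp (-t / 2) ≤ Real.exp (-(m / 2)) := by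
    apply Real.exp_le_exp.2; linarith
  have h2 : Real.exp (-(m / 2)) ≤ 1 - m / 4 := by
    have h3 : Real.exp (-(m/2)) * Real.exp (m/2) = 1 := by rw [← Real.exp_add]; simp
    have h4 : 1 + m / 2 ≤ Real.exp (m / 2) := by linarith [Real.add_one_le_exp (m / 2)]
    have h5 : 0 < Real.exp (-(m / 2)) := Real.exp_pos _
    -- e^{-m/2} ≤ 1/(1+m/2) ≤ 1 - m/4
    have h6 : Real.exp (-(m / 2)) * (1 + m / 2) ≤ 1 := by nlinarith
    have h7 : 1 ≤ (1 - m / 4) * (1 + m / 2) := by nlinarith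
    nlinarith
  linarith

theorem gauss_tanh (t : ℝ≥0) (a : ℝ) :
    min 1 (t : ℝ) / 32 ≤ ∫ g, Real.tanh (a + g) ^ 2 ∂(gaussianReal 0 t) := by
  have hneg : ∫ g, Real.tanh (a - g) ^ 2 ∂(gaussianReal 0 t) =
      ∫ g, Real.tanh (a + g) ^ 2 ∂(gaussianReal 0 t) := by
    have h := gaussianReal_map_neg (μ := 0) (v := t)
    rw [neg_zero] at h
    conv_rhs => rw [← h]
    rw [integral_map (by fun_prop)]
    · simp only [← sub_eq_add_neg]
    · exact ((measurable_tanh.comp (by fun_prop)).pow_const 2).aestronglyMeasurable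
  have h1 : ∫ g, Real.tanh g ^ 2 ∂(gaussianReal 0 t) ≤
      ∫ g, (Real.tanh (a + g) ^ 2 + Real.tanh (a - g) ^ 2) ∂(gaussianReal 0 t) := by
    refine integral_mono (integrable_tanh_sq _ measurable_id)
      ((integrable_tanh_sq _ (by fun_prop)).add (integrable_tanh_sq _ (by fun_prop))) fun g => ?_
    exact tanh_shift a g
  rw [integral_add (integrable_tanh_sq _ (by fun_prop)) (integrable_tanh_sq _ (by fun_prop)),
    hneg] at h1
  have h2 : ∫ g, (1 - Real.cos g) / 4 ∂(gaussianReal 0 t) ≤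
      ∫ g, Real.tanh g ^ 2 ∂(gaussianReal 0 t) := by
    refine integral_mono ?_ (integrable_tanh_sq _ measurable_id) fun g => tanh_sq_ge g
    refine Integrable.of_bound (by fun_prop) 1 (Eventually.of_forall fun g => ?_)
    rw [Real.norm_eq_abs, abs_le]
    constructor <;> linarith [Real.neg_one_le_cos g, Real.cos_le_one g]
  have h3 : ∫ g, (1 - Real.cos g) / 4 ∂(gaussianReal 0 t) = (1 - Real.exp (-t / 2)) / 4 := by
    rw [integral_div, integral_sub (integrable_const _)
      (Integrable.of_bound (by fun_prop) 1 (Eventually.of_forall fun g => by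
        rw [Real.norm_eq_abs]; exact Real.abs_cos_le_one g)), integral_cos_gauss]
    simp
  have h4 := exp_bound t t.2
  linarith

end Decayaux

namespace Setup

variable {V : Type} [DecidableEq V] [Countable V] (S : Setup V)

theorem gauss_phi : ∃ c : ℝ, 0 < c ∧ c < 1 ∧ ∀ (t : ℝ≥0) (a : ℝ),
    ∫ g, phi S.θ (Real.tanh (a + g)) ∂(gaussianReal 0 t) ≤ 1 - c * min 1 (t : ℝ) := by
  have hθ0 := S.θpos
  have hθ1 := S.theta_lt_one
  have hq : 0 < 1 - S.θ ^ 2 := by nlinarith
  refine ⟨(1 - S.θ ^ 2) / 32, by positivity, by nlinarith, fun t a => ?_⟩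
  have hmeas : Measurable fun g : ℝ => Real.tanh (a + g) :=
    Decayaux.measurable_tanh.comp (by fun_prop)
  have h1 : ∫ g, phi S.θ (Real.tanh (a + g)) ∂(gaussianReal 0 t) ≤
      ∫ g, (1 - (1 - S.θ ^ 2) * Real.tanh (a + g) ^ 2) ∂(gaussianReal 0 t) := by
    refine integral_mono ?_ ?_ fun g => (phi_mem hθ0 hθ1 (Real.abs_tanh_lt_one _)).2.1
    · refine Integrable.of_bound ?_ 1 (Eventually.of_forall fun g => ?_)
      · unfold phi
        exact ((measurable_const.sub (hmeas.pow_const 2)).div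
          (measurable_const.sub (measurable_const.mul (hmeas.pow_const 2)))).aestronglyMeasurable
      · have h := phi_mem hθ0 hθ1 (Real.abs_tanh_lt_one (a + g))
        rw [Real.norm_eq_abs, abs_of_pos h.1]
        exact h.2.2
    · exact (integrable_const _).sub
        ((Decayaux.integrable_tanh_sq _ (by fun_prop)).const_mul _)
  have h2 : ∫ g, (1 - (1 - S.θ ^ 2) * Real.tanh (a + g) ^ 2) ∂(gaussianReal 0 t) =
      1 - (1 - S.θ ^ 2) * ∫ g, Real.tanh (a + g) ^ 2 ∂(gaussianReal 0 t) := by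
    rw [integral_sub (integrable_const _)
      ((Decayaux.integrable_tanh_sq _ (by fun_prop)).const_mul _), integral_const_mul]
    simp
  rw [h2] at h1
  have h3 := Decayaux.gauss_tanh t a
  nlinarith

/-- all information except the noise at `x`. -/
@[reducible] noncomputable def DecayRest (T : V → ℝ≥0) (x : V) : MeasurableSpace (Om V) :=
  S.FF (Function.update T x 0) Set.univ ⊔ ⨆ v, MeasurableSpace.comap (S.spin v) inferInstance

theorem DecayRest_le (T : V → ℝ≥0) (x : V) : S.DecayRest T x ≤ mOm V := by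
  refine sup_le (S.FF_le _ _) (iSup_le fun v => ?_)
  exact measurable_iff_comap_le.1 (S.measurable_spin v)

/-- independence of one noise coordinate at its time from the rest. -/
theorem Decayaux_indep (T : V → ℝ≥0) (x : V) {Y : Type} [MeasurableSpace Y] (Z : Om V → Y)
    (hZ : Measurable[S.DecayRest T x] Z) :
    IndepFun Z (S.B (T x) x) S.P := by
  have h := S.indep_future (Function.update T x 0) T (by
    intro v
    by_cases hv : v = x
    · subst hv; simp
    · simp [Function.update_of_ne hv])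
  have h2 := indep_of_indep_of_le_left h (m₃ := MeasurableSpace.comap Z inferInstance)
    (measurable_iff_comap_le.1 hZ)
  have h3 : MeasurableSpace.comap (S.B (T x) x) inferInstance ≤
      (⨆ v : V, MeasurableSpace.comap
        (fun ω => S.B (T v) v ω - S.B ((Function.update T x 0) v) v ω) inferInstance) := by
    refine le_trans (le_of_eq ?_) (le_iSup _ x)
    congr 1
    funext ω
    simp only [Function.update_self]
    have : S.B 0 x ω = 0 := S.β.zero _
    rw [this, sub_zero]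
  exact (indep_of_indep_of_le_right h2 h3)

theorem Decayaux_measurable_XT (T : V → ℝ≥0) (x z : V) (hz : z ≠ x) :
    Measurable[S.DecayRest T x] (fun ω => S.XT T ω z) := by
  have h1 : (fun ω => S.XT T ω z) = S.XX (T z) z := rfl
  rw [h1]
  refine measurable_iff_comap_le.2 (le_trans ?_ le_sup_left)
  refine le_trans ?_ (le_iSup₂ (f := fun v (_ : v ∈ Set.univ) =>
    ⨆ s ∈ Set.Iic ((Function.update T x 0) v), MeasurableSpace.comap (S.XX s v) inferInstance)
    z (Set.mem_univ z))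
  refine le_iSup₂ (f := fun (s : ℝ≥0) (_ : s ∈ Set.Iic ((Function.update T x 0) z)) =>
    MeasurableSpace.comap (S.XX s z) inferInstance) (T z) ?_
  simp [Function.update_of_ne hz]

/-- the cavity field of a branch not containing `x` is measurable w.r.t. the rest. -/
theorem Decayaux_measurable_cav (T : V → ℝ≥0) (x : V) {y z : V} (hyz : S.G.Adj y z)
    (hx : x ∉ branch S.G y z) :
    Measurable[S.DecayRest T x] (fun ω => S.cav y z (S.XT T ω)) := by
  have h1 : (fun ω => S.cav y z (S.XT T ω)) =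
      (S.cav y z) ∘ fun ω => fun w => if w = x then 0 else S.XT T ω w := by
    funext ω
    refine S.cav_congr hyz fun w hw => ?_
    have : w ≠ x := by rintro rfl; exact hx hw
    simp [this]
  rw [h1]
  refine (S.measurable_cav y z).comp ?_
  refine @measurable_pi_lambda _ _ _ (_) _ _ fun w => ?_
  by_cases hw : w = x
  · simp only [hw, if_true]
    exact @measurable_const _ _ _ (_) _
  · simp only [hw, if_false]
    exact S.Decayaux_measurable_XT T x w hw

theorem Decayaux_measurable_slope (T : V → ℝ≥0) (x : V) {y z : V} (hyz : S.G.Adj y z)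
    (hx : x ∉ branch S.G y z) :
    Measurable[S.DecayRest T x] (fun ω => S.slope y z (S.XT T ω)) := by
  have h : Measurable fun h : ℝ => S.θ * phi S.θ (Real.tanh h) := by
    unfold phi
    have hm := Decayaux.measurable_tanh
    exact measurable_const.mul ((measurable_const.sub (hm.pow_const 2)).div
      (measurable_const.sub (measurable_const.mul (hm.pow_const 2))))
  exact h.comp (S.Decayaux_measurable_cav T x hyz hx)

theorem Decayaux_step {c : ℝ}
    (hc : ∀ (t : ℝ≥0) (a : ℝ), ∫ g, phi S.θ (Real.tanh (a + g)) ∂(gaussianReal 0 t) ≤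
      1 - c * min 1 (t : ℝ)) (T : V → ℝ≥0) {x y : V} (hxy : S.G.Adj x y) (R : Om V → ℝ)
    (hR : Measurable[S.DecayRest T y] R)
    (hR0 : ∀ ω, 0 ≤ R ω) (hR1 : ∀ ω, R ω ≤ 1) :
    ∫ ω, S.slope x y (S.XT T ω) * R ω ∂S.P ≤
      S.θ * (1 - c * min 1 (T y : ℝ)) * ∫ ω, R ω ∂S.P := by
  have hθ0 := S.θpos
  have hθ1 := S.theta_lt_one
  set μ : Om V → ℝ := fun ω => (T y : ℝ) * S.spin y ω +
    ∑ z ∈ (S.G.neighborFinset y).erase x, gf S.θ (S.cav y z (S.XT T ω)) with hμ
  have hμm : Measurable[S.DecayRest T y] μ := by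
    refine Measurable.add ?_ ?_
    · refine Measurable.const_mul ?_ _
      refine measurable_iff_comap_le.2 (le_trans ?_ le_sup_right)
      exact le_iSup (fun v => MeasurableSpace.comap (S.spin v) inferInstance) y
    · refine Finset.measurable_sum _ fun z hz => ?_
      have hyz : S.G.Adj y z := by simpa using Finset.mem_of_mem_erase hz
      exact (Detaux.gf_cont S).measurable.comp
        (S.Decayaux_measurable_cav T y hyz (self_mem_branch S.rt hyz).2)
  set Z : Om V → ℝ × ℝ := fun ω => (μ ω, R ω) with hZ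
  have hZm : Measurable[S.DecayRest T y] Z := hμm.prodMk hR
  have hZm' : Measurable Z := hZm.mono (S.DecayRest_le T y) le_rfl
  have hRm' : Measurable R := hR.mono (S.DecayRest_le T y) le_rfl
  have hBm : Measurable (S.B (T y) y) := S.measurable_B _ _
  have hind : IndepFun Z (S.B (T y) y) S.P := S.Decayaux_indep T y Z hZm
  have hlaw : S.P.map (S.B (T y) y) = gaussianReal 0 (T y) := by
    have h := S.law_B_inc (s := 0) (t := T y) zero_le y
    rw [tsub_zero] at h
    rw [← h]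
    congr 1
    funext ω
    have : S.B 0 y ω = 0 := S.β.zero _
    rw [this, sub_zero]
  set F : (ℝ × ℝ) × ℝ → ℝ := fun p => phi S.θ (Real.tanh (p.1.1 + p.2)) * p.1.2 with hF
  have hFm : Measurable F := by
    have h1 : Measurable fun p : (ℝ × ℝ) × ℝ => Real.tanh (p.1.1 + p.2) :=
      Decayaux.measurable_tanh.comp (by fun_prop)
    refine Measurable.mul ?_ (by fun_prop)
    unfold phi
    exact (measurable_const.sub (h1.pow_const 2)).div
      (measurable_const.sub (measurable_const.mul (h1.pow_const 2)))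
  have hphi : ∀ a : ℝ, 0 < phi S.θ (Real.tanh a) ∧ phi S.θ (Real.tanh a) ≤ 1 := fun a =>
    ⟨(phi_mem hθ0 hθ1 (Real.abs_tanh_lt_one a)).1, (phi_mem hθ0 hθ1 (Real.abs_tanh_lt_one a)).2.2⟩
  have h1 : ∫ ω, S.slope x y (S.XT T ω) * R ω ∂S.P =
      S.θ * ∫ ω, F (Z ω, S.B (T y) y ω) ∂S.P := by
    rw [← integral_const_mul]
    refine integral_congr_ae ?_
    filter_upwards [S.ae_good T] with ω hω
    have h2 : S.cav x y (S.XT T ω) = μ ω + S.B (T y) y ω := by
      rw [S.cav_rec hω hxy]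
      simp only [hμ]
      have : S.XT T ω y = (T y : ℝ) * S.spin y ω + S.B (T y) y ω := rfl
      rw [this]; ring
    simp only [slope, msg, h2, hF, hZ]
    ring
  have hpm : Measurable fun ω => (Z ω, S.B (T y) y ω) := hZm'.prodMk hBm
  have hFint : Integrable (fun ω => F (Z ω, S.B (T y) y ω)) S.P := by
    refine Integrable.of_bound (hFm.comp hpm).aestronglyMeasurable 1
      (Eventually.of_forall fun ω => ?_)
    have := hphi (μ ω + S.B (T y) y ω)
    simp only [hF, hZ]
    rw [Real.norm_eq_abs, abs_of_nonneg (mul_nonneg this.1.le (hR0 ω))]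
    exact mul_le_one₀ this.2 (hR0 ω) (hR1 ω)
  have hmap : S.P.map (fun ω => (Z ω, S.B (T y) y ω)) =
      (S.P.map Z).prod (gaussianReal 0 (T y)) := by
    rw [(indepFun_iff_map_prod_eq_prod_map_map hZm'.aemeasurable hBm.aemeasurable).1 hind, hlaw]
  have : IsProbabilityMeasure (S.P.map Z) := Measure.isProbabilityMeasure_map hZm'.aemeasurable
  have hFint' : Integrable F ((S.P.map Z).prod (gaussianReal 0 (T y))) := by
    rw [← hmap]
    exact (integrable_map_measure hFm.aestronglyMeasurable hpm.aemeasurable).2 hFint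
  have h3 : ∫ ω, F (Z ω, S.B (T y) y ω) ∂S.P =
      ∫ z, ∫ b, F (z, b) ∂(gaussianReal 0 (T y)) ∂(S.P.map Z) := by
    rw [← integral_prod F hFint', ← hmap, integral_map hpm.aemeasurable hFm.aestronglyMeasurable]
  have hRint : Integrable R S.P := by
    refine Integrable.of_bound hRm'.aestronglyMeasurable 1 (Eventually.of_forall fun ω => ?_)
    rw [Real.norm_eq_abs, abs_of_nonneg (hR0 ω)]
    exact hR1 ω
  have hsnd : Integrable (fun z : ℝ × ℝ => z.2) (S.P.map Z) := by
    refine (integrable_map_measure measurable_snd.aestronglyMeasurable hZm'.aemeasurable).2 ?_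
    exact hRint
  have h4 : ∫ z, ∫ b, F (z, b) ∂(gaussianReal 0 (T y)) ∂(S.P.map Z) ≤
      ∫ z, (1 - c * min 1 (T y : ℝ)) * z.2 ∂(S.P.map Z) := by
    refine integral_mono_ae hFint'.integral_prod_left (hsnd.const_mul _) ?_
    rw [Filter.EventuallyLE, ae_map_iff hZm'.aemeasurable]
    · refine Eventually.of_forall fun ω => ?_
      simp only [hF]
      rw [integral_mul_const]
      exact mul_le_mul_of_nonneg_right (hc (T y) _) (hR0 ω)
    · refine measurableSet_le ?_ (by fun_prop)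
      exact (hFm.stronglyMeasurable.integral_prod_right).measurable
  have h5 : ∫ z, (1 - c * min 1 (T y : ℝ)) * z.2 ∂(S.P.map Z) =
      (1 - c * min 1 (T y : ℝ)) * ∫ ω, R ω ∂S.P := by
    rw [integral_const_mul, integral_map hZm'.aemeasurable measurable_snd.aestronglyMeasurable]
  rw [h1, h3, mul_assoc]
  rw [h5] at h4
  exact mul_le_mul_of_nonneg_left h4 hθ0.le

theorem Decayaux_aa_meas (T : V → ℝ≥0) (x u : V) :
    Measurable[S.DecayRest T x] (fun ω => S.aa x u (S.XT T ω)) := by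
  unfold aa
  refine Finset.measurable_prod _ fun i hi => ?_
  rw [Finset.mem_range] at hi
  refine S.Decayaux_measurable_slope T x (geo_adj S.rt x u hi) ?_
  intro hb
  have h1 : S.G.dist x (geo S.G x u (i + 1)) < S.G.dist x (geo S.G x u i) := hb
  rw [(dist_geo S.rt x u (by omega : i + 1 ≤ _)).1, (dist_geo S.rt x u (by omega : i ≤ _)).1] at h1
  omega

theorem Decayaux_aa_one {v x : V} (h : S.G.Adj v x) (X : V → ℝ) :
    S.aa v x X = S.slope v x X := by
  have hd : S.G.dist v x = 1 := SimpleGraph.dist_eq_one_iff_adj.2 h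
  unfold aa
  rw [hd, Finset.prod_range_one, geo_zero S.rt, zero_add]
  have := geo_dist S.rt v x
  rw [hd] at this
  rw [this]

theorem Decayaux_decay {c : ℝ} (hc0 : 0 < c) (hc1 : c < 1)
    (hc : ∀ (t : ℝ≥0) (a : ℝ), ∫ g, phi S.θ (Real.tanh (a + g)) ∂(gaussianReal 0 t) ≤
      1 - c * min 1 (t : ℝ)) (T : V → ℝ≥0) (s : ℝ≥0) (hs : ∀ v, s ≤ T v) (v u : V) :
    ∫ ω, S.aa v u (S.XT T ω) ∂S.P ≤
      (S.θ * (1 - c * min 1 (s : ℝ))) ^ S.G.dist v u := by
  have hθ0 := S.θpos
  have hθ1 := S.theta_lt_one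
  generalize hk : S.G.dist v u = k
  induction k generalizing v with
  | zero =>
    have hvu : v = u := by
      have hconn := S.rt.tree.connected
      exact (hconn.dist_eq_zero_iff).1 hk
    subst hvu
    simp [aa_self]
  | succ k ih =>
    set x := geo S.G v u 1 with hx
    have hadj : S.G.Adj v x := by
      have := geo_adj S.rt v u (i := 0) (by omega)
      rwa [geo_zero S.rt, zero_add] at this
    have hdx := dist_geo S.rt v u (i := 1) (by omega)
    rw [← hx] at hdx
    have hsum : S.G.dist v x + S.G.dist x u = S.G.dist v u := by omega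
    have h1 : ∀ ω, S.aa v u (S.XT T ω) = S.slope v x (S.XT T ω) * S.aa x u (S.XT T ω) := by
      intro ω
      rw [S.aa_mul hsum, S.Decayaux_aa_one hadj]
    simp only [h1]
    have hle : ∀ ω, S.aa x u (S.XT T ω) ≤ 1 := fun ω =>
      (S.aa_mem x u _).2.trans (pow_le_one₀ hθ0.le hθ1.le)
    have h2 := S.Decayaux_step hc T hadj (fun ω => S.aa x u (S.XT T ω)) (S.Decayaux_aa_meas T x u)
      (fun ω => (S.aa_mem x u _).1.le) hle
    have h3 := ih x (by omega)
    have hTx : min 1 (s : ℝ) ≤ min 1 (T x : ℝ) := min_le_min_left _ (by exact_mod_cast hs x)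
    have hs0 : 0 ≤ min 1 (s : ℝ) := le_min zero_le_one s.2
    have hs1 : min 1 (s : ℝ) ≤ 1 := min_le_left _ _
    have ht1 : min 1 (T x : ℝ) ≤ 1 := min_le_left _ _
    have h4 : 0 ≤ ∫ ω, S.aa x u (S.XT T ω) ∂S.P :=
      integral_nonneg fun ω => (S.aa_mem x u _).1.le
    have h5 : 0 ≤ 1 - c * min 1 (T x : ℝ) := by nlinarith
    have h6 : 1 - c * min 1 (T x : ℝ) ≤ 1 - c * min 1 (s : ℝ) := by nlinarith
    calc _ ≤ S.θ * (1 - c * min 1 (T x : ℝ)) * ∫ ω, S.aa x u (S.XT T ω) ∂S.P := h2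
      _ ≤ S.θ * (1 - c * min 1 (s : ℝ)) * (S.θ * (1 - c * min 1 (s : ℝ))) ^ k := by
          apply mul_le_mul _ h3 h4 (mul_nonneg hθ0.le (h5.trans h6))
          exact mul_le_mul_of_nonneg_left h6 hθ0.le
      _ = _ := by rw [pow_succ]; ring

theorem aa_decay : ∃ c : ℝ, 0 < c ∧ c < 1 ∧ ∀ (T : V → ℝ≥0) (s : ℝ≥0), (∀ v, s ≤ T v) → ∀ v u : V,
    ∫ ω, S.aa v u (S.XT T ω) ∂S.P ≤
      (S.θ * (1 - c * min 1 (s : ℝ))) ^ S.G.dist v u := by
  obtain ⟨c, hc0, hc1, hc⟩ := S.gauss_phi
  exact ⟨c, hc0, hc1, fun T s hs v u => S.Decayaux_decay hc0 hc1 hc T s hs v u⟩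

theorem Decayaux_card (v : V) (k : ℕ) :
    ((sph S.G v k).card : ℝ) * S.θ ^ (2 * k) ≤ 2 := by
  have hd := S.d_three
  have hd' : (3 : ℝ) ≤ S.d := by exact_mod_cast hd
  have hθ := S.θle
  have hθ0 := S.θpos
  cases k with
  | zero => rw [card_sph_zero S.rt]; norm_num
  | succ k =>
    rw [card_sph_succ S.rt]
    have h1 : (((S.d * (S.d - 1) ^ k : ℕ)) : ℝ) = S.d * ((S.d : ℝ) - 1) ^ k := by
      push_cast [Nat.cast_sub (by omega : 1 ≤ S.d)]
      ring
    rw [h1]
    have h2 : (S.d : ℝ) * ((S.d : ℝ) - 1) ^ k * S.θ ^ (2 * (k + 1)) =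
        (S.θ ^ 2 * S.d) * (S.θ ^ 2 * ((S.d : ℝ) - 1)) ^ k := by
      rw [mul_pow]; ring
    rw [h2]
    have h3 : (S.θ ^ 2 * ((S.d : ℝ) - 1)) ^ k ≤ 1 := pow_le_one₀ (by
      have : 0 ≤ (S.d : ℝ) - 1 := by linarith
      positivity) hθ
    have h4 : S.θ ^ 2 * S.d ≤ 2 := by nlinarith [sq_nonneg S.θ]
    have h5 : 0 ≤ S.θ ^ 2 * S.d := by positivity
    nlinarith

theorem Decayaux_sq {c : ℝ} (hc0 : 0 < c) (hc1 : c < 1)
    (hc : ∀ (t : ℝ≥0) (a : ℝ), ∫ g, phi S.θ (Real.tanh (a + g)) ∂(gaussianReal 0 t) ≤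
      1 - c * min 1 (t : ℝ)) (T : V → ℝ≥0) (s : ℝ≥0) (hs : ∀ v, s ≤ T v) (v u : V) :
    ∫ ω, S.aa v u (S.XT T ω) ^ 2 ∂S.P ≤
      S.θ ^ (2 * S.G.dist v u) * (1 - c * min 1 (s : ℝ)) ^ S.G.dist v u := by
  have hθ0 := S.θpos
  have hint : ∀ n : ℕ, Integrable (fun ω => S.aa v u (S.XT T ω) ^ n) S.P := by
    intro n
    refine Integrable.of_bound (((S.measurable_aa v u).comp
      (S.measurable_XT T)).pow_const n).aestronglyMeasurable 1 (Eventually.of_forall fun ω => ?_)
    have h := S.aa_mem v u (S.XT T ω)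
    rw [Real.norm_eq_abs, abs_of_nonneg (pow_nonneg h.1.le _)]
    exact pow_le_one₀ h.1.le (h.2.trans (pow_le_one₀ hθ0.le S.theta_lt_one.le))
  have h1 : ∫ ω, S.aa v u (S.XT T ω) ^ 2 ∂S.P ≤
      ∫ ω, S.θ ^ S.G.dist v u * S.aa v u (S.XT T ω) ∂S.P := by
    refine integral_mono (hint 2) (((hint 1).congr (Eventually.of_forall fun ω => by simp)).const_mul _)
      fun ω => ?_
    have h := S.aa_mem v u (S.XT T ω)
    simp only
    rw [sq]
    exact mul_le_mul_of_nonneg_right h.2 h.1.le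
  rw [integral_const_mul] at h1
  have h2 := S.Decayaux_decay hc0 hc1 hc T s hs v u
  refine h1.trans ((mul_le_mul_of_nonneg_left h2 (pow_nonneg hθ0.le _)).trans (le_of_eq ?_))
  rw [mul_pow, two_mul, pow_add]
  ring

theorem Decayaux_sum {c : ℝ} (hc0 : 0 < c) (hc1 : c < 1) (s : ℝ≥0) (v : V) (k : ℕ) (f : V → ℝ)
    (hf : ∀ u, f u ≤ S.θ ^ (2 * S.G.dist v u) * (1 - c * min 1 (s : ℝ)) ^ S.G.dist v u) :
    ∑ u ∈ sph S.G v k, f u ≤ 2 * (1 - c * min 1 (s : ℝ)) ^ k := by
  have hs0 : 0 ≤ min 1 (s : ℝ) := le_min zero_le_one s.2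
  have hs1 : min 1 (s : ℝ) ≤ 1 := min_le_left _ _
  have h5 : 0 ≤ 1 - c * min 1 (s : ℝ) := by nlinarith
  calc ∑ u ∈ sph S.G v k, f u ≤
      ∑ u ∈ sph S.G v k, S.θ ^ (2 * k) * (1 - c * min 1 (s : ℝ)) ^ k := by
        refine Finset.sum_le_sum fun u hu => ?_
        have := hf u
        rw [(mem_sph S.rt).1 hu] at this
        exact this
    _ = ((sph S.G v k).card : ℝ) * S.θ ^ (2 * k) * (1 - c * min 1 (s : ℝ)) ^ k := by
        rw [Finset.sum_const, nsmul_eq_mul]; ring
    _ ≤ _ := mul_le_mul_of_nonneg_right (S.Decayaux_card v k) (pow_nonneg h5 _)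

/-- consequence: `∑_u E aa(v,u)^2 < ∞`, uniformly, and tails. -/
theorem aa_sq_sum : ∃ c : ℝ, 0 < c ∧ c < 1 ∧ ∀ (T : V → ℝ≥0) (s : ℝ≥0), (∀ v, s ≤ T v) →
    ∀ (v : V) (k : ℕ), ∑ u ∈ sph S.G v k, ∫ ω, S.aa v u (S.XT T ω) ^ 2 ∂S.P ≤
      2 * (1 - c * min 1 (s : ℝ)) ^ k ∧
    ∑ u ∈ sph S.G v k, ∫ ω, S.aa u v (S.XT T ω) ^ 2 ∂S.P ≤
      2 * (1 - c * min 1 (s : ℝ)) ^ k := by
  obtain ⟨c, hc0, hc1, hc⟩ := S.gauss_phi
  refine ⟨c, hc0, hc1, fun T s hs v k => ⟨?_, ?_⟩⟩
  · exact S.Decayaux_sum hc0 hc1 s v k _ fun u => S.Decayaux_sq hc0 hc1 hc T s hs v u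
  · refine S.Decayaux_sum hc0 hc1 s v k _ fun u => ?_
    have := S.Decayaux_sq hc0 hc1 hc T s hs u v
    rwa [SimpleGraph.dist_comm] at this

theorem summable_A_sq {t : ℝ≥0} (ht : 0 < t) (v : V) :
    Summable fun u => ∫ ω, S.A t v u ω ^ 2 ∂S.P := by
  obtain ⟨c, hc0, hc1, h⟩ := S.aa_sq_sum
  have ht0 : 0 < min 1 (t : ℝ) := lt_min one_pos (by exact_mod_cast ht)
  have ht1 : min 1 (t : ℝ) ≤ 1 := min_le_left _ _
  set r := 1 - c * min 1 (t : ℝ) with hr
  have hr0 : 0 ≤ r := by nlinarith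
  have hr1 : r < 1 := by nlinarith [mul_pos hc0 ht0]
  have hle : ∀ u, ∫ ω, S.A t v u ω ^ 2 ∂S.P ≤
      ∫ ω, S.aa v u (S.XT (fun _ => t) ω) ^ 2 ∂S.P := by
    intro u
    have hXt : S.XT (fun _ => t) = S.Xt t := rfl
    rw [hXt]
    refine integral_mono_of_nonneg (Eventually.of_forall fun ω => sq_nonneg _) ?_
      (Eventually.of_forall fun ω => ?_)
    · refine Integrable.of_bound (((S.measurable_aa v u).comp
        (S.measurable_Xt t)).pow_const 2).aestronglyMeasurable 1 (Eventually.of_forall fun ω => ?_)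
      have h := S.aa_mem v u (S.Xt t ω)
      rw [Real.norm_eq_abs, abs_of_nonneg (pow_nonneg h.1.le _)]
      exact pow_le_one₀ h.1.le (h.2.trans (pow_le_one₀ S.θpos.le S.theta_lt_one.le))
    · have h1 := S.aa_mem v u (S.Xt t ω)
      have h2 := S.cv_mem v u (S.Xt t ω)
      have h3 : S.cv v u (S.Xt t ω) ≤ S.aa v u (S.Xt t ω) := by
        unfold cv
        nlinarith [sq_nonneg (S.mag v (S.Xt t ω)), h1.1]
      simp only [A]
      exact pow_le_pow_left₀ h2.1.le h3 2
  refine summable_of_sum_le (c := 2 / (1 - r)) (fun u => integral_nonneg fun ω => sq_nonneg _) ?_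
  intro F
  classical
  set K := F.sup (fun u => S.G.dist v u) with hK
  have hsub : F ⊆ (range (K + 1)).biUnion fun k => sph S.G v k := by
    intro u hu
    rw [Finset.mem_biUnion]
    refine ⟨S.G.dist v u, ?_, (mem_sph S.rt).2 rfl⟩
    rw [Finset.mem_range]
    have : S.G.dist v u ≤ K := Finset.le_sup (f := fun u => S.G.dist v u) hu
    omega
  calc ∑ u ∈ F, ∫ ω, S.A t v u ω ^ 2 ∂S.P
      ≤ ∑ u ∈ (range (K + 1)).biUnion (fun k => sph S.G v k), ∫ ω, S.A t v u ω ^ 2 ∂S.P :=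
        Finset.sum_le_sum_of_subset_of_nonneg hsub fun u _ _ =>
          integral_nonneg fun ω => sq_nonneg _
    _ = ∑ k ∈ range (K + 1), ∑ u ∈ sph S.G v k, ∫ ω, S.A t v u ω ^ 2 ∂S.P := by
        refine Finset.sum_biUnion ?_
        intro i _ j _ hij
        rw [Function.onFun, Finset.disjoint_left]
        intro u hu hu'
        rw [mem_sph S.rt] at hu hu'
        exact hij (hu.symm.trans hu')
    _ ≤ ∑ k ∈ range (K + 1), 2 * r ^ k := by
        refine Finset.sum_le_sum fun k _ => ?_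
        exact (Finset.sum_le_sum fun u _ => hle u).trans (h (fun _ => t) t (fun _ => le_rfl) v k).1
    _ = 2 * ∑ k ∈ range (K + 1), r ^ k := by rw [Finset.mul_sum]
    _ ≤ 2 * (1 - r)⁻¹ := by
        refine mul_le_mul_of_nonneg_left ?_ (by norm_num)
        rw [← tsum_geometric_of_lt_one hr0 hr1]
        exact (summable_geometric_of_lt_one hr0 hr1).sum_le_tsum _ fun k _ => pow_nonneg hr0 k
    _ = _ := by rw [div_eq_mul_inv]

end Setup
end Crest.Agent.R160
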