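import Crest.Agent.R160.Tree

/-! Row 160, piece LINE (decorrelation lemma), pure linear algebra on the line graph.

Edges are elements `e : G.edgeSet`, `D e e' = G.lineGraph.dist e e'`; every edge has `2(d-1)`
neighbours in the line graph; of an edge `e` at distance `j ≥ 1` from `e'`, one neighbour is at
distance `j-1`, `d-2` are at distance `j` and `d-1` at distance `j+1`.

PROOF. `T x (e) = average of x over the neighbours of e` on finitely supported functions
`x : G.edgeSet →₀ ℝ`. `Q(x,y) = ∫ (∑ x_e g_e)(∑ y_e g_e)`. Since `∫ g_e g_e' = c(D e e')`, `T` is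
symmetric for `Q`. With `ρ(e) = r^{D e e'}` one has `T ρ ≤ β ρ` pointwise,
`β = (1/r + (d-2) + (d-1) r)/(2(d-1)) < 1` for `1/(d-1) < r < 1`. Hence
`N_n := Q(T^n x, T^n x) ≤ C_x β^(2n)`; by Cauchy-Schwarz `N_n^2 ≤ N_{n-1} N_{n+1}`, so
`N_1 ≤ β^2 N_0`, `Q(Tx,x) ≤ β Q(x,x)`, `(1-β) Q(x,x) ≤ Q(x - Tx, x)`. For `x = 1_path` (`k` edges)
`Q(x - T x, x)` telescopes and is `≤ 4 k c(0)`. -/

set_option autoImplicit false
open Finset MeasureTheory

namespace Crest.Agent.R160

variable {V : Type} {d : ℕ} {G : SimpleGraph V} [G.LocallyFinite]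

namespace Lineaux

omit [G.LocallyFinite] in
theorem geo_shift {p : ℕ → V} {k : ℕ} (hp : IsGeo G p k) (a l : ℕ) (hal : a + l ≤ k) :
    IsGeo G (fun i => p (a + i)) l := by
  refine ⟨fun i hi => ?_, fun i hi j hj => ?_⟩
  · have := hp.1 (a + i) (by omega)
    simpa [add_assoc] using this
  · have := hp.2 (a + i) (by omega) (a + j) (by omega)
    rw [this]; omega

/-- prepend a vertex. -/
def cons (z : V) (p : ℕ → V) : ℕ → V
  | 0 => z
  | i + 1 => p i

omit [G.LocallyFinite] in
theorem dist_walk (hG : G.Connected) : ∀ (n : ℕ) (e f : G.edgeSet) (w : G.lineGraph.Walk e f), w.length = n →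
    ∀ x ∈ e.1, ∀ y ∈ f.1, G.dist x y ≤ n + 1 := by
  intro n
  induction n with
  | zero =>
    intro e f w hw x hx y hy
    have := SimpleGraph.Walk.eq_of_length_eq_zero hw
    subst this
    have hle : G.dist x y ≤ 1 := by
      by_cases hxy : x = y
      · subst hxy; simp
      · have he : e.1 = s(x, y) := by
          exact (Sym2.mem_and_mem_iff hxy).1 ⟨hx, hy⟩
        have hadj : G.Adj x y := by
          have := e.2
          rw [he] at this
          exact this
        rw [SimpleGraph.dist_eq_one_iff_adj.2 hadj]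
    omega
  | succ n ih =>
    intro e f w hw x hx y hy
    cases w with
    | nil => simp at hw
    | @cons _ g _ hadj w' =>
      rw [SimpleGraph.Walk.length_cons] at hw
      obtain ⟨hne, v, hv1, hv2⟩ := SimpleGraph.lineGraph_adj_iff_exists.1 hadj
      have h1 := ih g f w' (by omega) v hv2 y hy
      have h2 : G.dist x v ≤ 1 := by
        by_cases hxy : x = v
        · subst hxy; simp
        · have he : e.1 = s(x, v) := (Sym2.mem_and_mem_iff hxy).1 ⟨hx, hv1⟩
          have hadj : G.Adj x v := by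
            have := e.2
            rw [he] at this
            exact this
          rw [SimpleGraph.dist_eq_one_iff_adj.2 hadj]
      have h3 := hG.dist_triangle (u := x) (v := v) (w := y)
      omega

theorem walk_geo (h : IsRT d G) {p : ℕ → V} {k : ℕ} (hp : IsGeo G p (k + 1)) :
    ∃ w : G.lineGraph.Walk ⟨s(p 0, p 1), hp.1 0 (by omega)⟩ ⟨s(p k, p (k + 1)), hp.1 k (by omega)⟩, w.length = k := by
  induction k with
  | zero => exact ⟨SimpleGraph.Walk.nil, rfl⟩
  | succ k ih =>
    have hp' : IsGeo G p (k + 1) := by simpa using geo_shift hp 0 (k + 1) (by omega)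
    obtain ⟨w, hw⟩ := ih hp'
    have hadj : G.lineGraph.Adj ⟨s(p k, p (k + 1)), hp'.1 k (by omega)⟩
        ⟨s(p (k + 1), p (k + 1 + 1)), hp.1 (k + 1) (by omega)⟩ := by
      rw [SimpleGraph.lineGraph_adj_iff_exists]
      refine ⟨?_, p (k + 1), by simp, by simp⟩
      intro heq
      have heq' := congrArg Subtype.val heq
      simp only [Sym2.eq_iff] at heq'
      rcases heq' with ⟨h1, _⟩ | ⟨h1, _⟩
      · have := hp.2 k (by omega) (k + 1) (by omega)
        rw [h1] at this
        simp at this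
      · have := hp.2 k (by omega) (k + 1 + 1) (by omega)
        rw [h1] at this
        simp at this
        omega
    refine ⟨w.append (SimpleGraph.Walk.cons hadj SimpleGraph.Walk.nil), ?_⟩
    rw [SimpleGraph.Walk.length_append, hw]
    simp

theorem dist_geo_ends (h : IsRT d G) {p : ℕ → V} {k : ℕ} (hp : IsGeo G p (k + 1)) :
    G.lineGraph.dist ⟨s(p 0, p 1), hp.1 0 (by omega)⟩ ⟨s(p k, p (k + 1)), hp.1 k (by omega)⟩ = k := by
  obtain ⟨w, hw⟩ := walk_geo h hp
  apply le_antisymm
  · exact le_trans (SimpleGraph.dist_le w) hw.le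
  · obtain ⟨w', hw'⟩ := SimpleGraph.Reachable.exists_walk_length_eq_dist ⟨w⟩
    have := dist_walk h.tree.connected _ _ _ w' hw' (p 0) (by simp) (p (k + 1)) (by simp)
    rw [hp.2 0 (by omega) (k + 1) le_rfl] at this
    omega

end Lineaux
open Lineaux

/-- distance in the line graph between edges on a geodesic, and two edges at the same line
distance lie on geodesics in the same position. -/
theorem line_dist_geo (h : IsRT d G) {p : ℕ → V} {k : ℕ} (hp : IsGeo G p k) {i j : ℕ} (hi : i < k)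
    (hj : j < k) : G.lineGraph.dist ⟨s(p i, p (i + 1)), hp.1 i hi⟩ ⟨s(p j, p (j + 1)), hp.1 j hj⟩ =
      (i - j) + (j - i) := by
  rcases le_total i j with hij | hij
  · obtain ⟨l, rfl⟩ := Nat.exists_eq_add_of_le hij
    have := dist_geo_ends h (geo_shift hp i (l + 1) (by omega))
    simp only [add_zero] at this
    have h2 : i - (i + l) + (i + l - i) = l := by omega
    rw [h2]
    exact this
  · obtain ⟨l, rfl⟩ := Nat.exists_eq_add_of_le hij
    have := dist_geo_ends h (geo_shift hp j (l + 1) (by omega))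
    simp only [add_zero] at this
    have h2 : j + l - j + (j - (j + l)) = l := by omega
    rw [h2, SimpleGraph.dist_comm]
    exact this

/-- two edges lie on a geodesic. -/
theorem exists_geo_edges (h : IsRT d G) (e e' : G.edgeSet) (hne : e ≠ e') :
    ∃ (p : ℕ → V) (k : ℕ) (hp : IsGeo G p (k + 1)), 1 ≤ k ∧ e.1 = s(p 0, p 1) ∧
      e'.1 = s(p k, p (k + 1)) ∧ G.lineGraph.dist e e' = k := by
  have hdi : ∀ {a b : V} (_ : G.Adj a b) (z : V), G.dist z a = G.dist z b + 1 ∨ G.dist z b = G.dist z a + 1 := by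
    intro a b hab z
    have h1 := branch_compl h hab
    have h2 := Set.ext_iff.1 h1 z
    simp only [branch, Set.mem_compl_iff, Set.mem_ofPred_eq] at h2
    have h3 := h.tree.connected.dist_triangle (u := z) (v := a) (w := b)
    have h4 := h.tree.connected.dist_triangle (u := z) (v := b) (w := a)
    rw [SimpleGraph.dist_eq_one_iff_adj.2 hab] at h3
    rw [SimpleGraph.dist_eq_one_iff_adj.2 hab.symm] at h4
    omega
  suffices H : ∃ (p : ℕ → V) (k : ℕ) (hp : IsGeo G p (k + 1)), 1 ≤ k ∧ e.1 = s(p 0, p 1) ∧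
      e'.1 = s(p k, p (k + 1)) by
    obtain ⟨p, k, hp, hk, he, he'⟩ := H
    refine ⟨p, k, hp, hk, he, he', ?_⟩
    have h1 := dist_geo_ends h hp
    have h2 : e = ⟨s(p 0, p 1), hp.1 0 (by omega)⟩ := Subtype.ext he
    have h3 : e' = ⟨s(p k, p (k + 1)), hp.1 k (by omega)⟩ := Subtype.ext he'
    rw [h2, h3]
    exact h1
  have hdle : ∀ {a b : V} (_ : G.Adj a b) (z : V), G.dist z a ≤ G.dist z b + 1 := by
    intro a b hab z
    rcases hdi hab z with h1 | h1 <;> omega
  -- the path
  have main : ∀ a b w z : V, G.Adj a b → G.Adj w z → e.1 = s(a, b) → e'.1 = s(w, z) →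
      G.dist a z = G.dist b z + 1 → G.dist a z = G.dist a w + 1 →
      ∃ (p : ℕ → V) (k : ℕ) (hp : IsGeo G p (k + 1)), 1 ≤ k ∧ e.1 = s(p 0, p 1) ∧
      e'.1 = s(p k, p (k + 1)) := by
    intro a b w z hab hwz he he' h1 h2
    have hg := geo_isGeo h a z
    rw [h2] at hg
    have hdab : G.dist a b = 1 := SimpleGraph.dist_eq_one_iff_adj.2 hab
    have hdwz : G.dist w z = 1 := SimpleGraph.dist_eq_one_iff_adj.2 hwz
    have g0 := geo_zero h a z
    have g1 : geo G a z 1 = b := by
      have := geo_append h a b z (by omega) 1 (by omega)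
      rw [this, hdab, if_pos le_rfl]
      have h3 := geo_dist h a b
      rwa [hdab] at h3
    have g2 : geo G a z (G.dist a w) = w := by
      have := geo_append h a w z (by omega) (G.dist a w) (by omega)
      rw [this, if_pos le_rfl]
      exact geo_dist h a w
    have g3 : geo G a z (G.dist a w + 1) = z := by
      rw [← h2]; exact geo_dist h a z
    refine ⟨geo G a z, G.dist a w, hg, ?_, ?_, ?_⟩
    · by_contra hk
      have hk0 : G.dist a w = 0 := by omega
      have haw : a = w := h.tree.connected.dist_eq_zero_iff.1 hk0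
      have hbz : b = z := h.tree.connected.dist_eq_zero_iff.1 (by omega)
      apply hne
      apply Subtype.ext
      rw [he, he', haw, hbz]
    · rw [he, g0, g1]
    · rw [he', g2, g3]
  obtain ⟨⟨x, y⟩, hxy⟩ := Quot.exists_rep e.1
  obtain ⟨⟨u, v⟩, huv⟩ := Quot.exists_rep e'.1
  have hxy' : e.1 = s(x, y) := hxy.symm
  have huv' : e'.1 = s(u, v) := huv.symm
  have hadj1 : G.Adj x y := by
    have := e.2
    rw [hxy'] at this
    exact this
  have hadj2 : G.Adj u v := by
    have := e'.2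
    rw [huv'] at this
    exact this
  obtain ⟨a, b, hab, he, hau⟩ : ∃ a b : V, G.Adj a b ∧ e.1 = s(a, b) ∧ G.dist a u = G.dist b u + 1 := by
    rcases hdi hadj1 u with h1 | h1
    · exact ⟨x, y, hadj1, hxy', by rw [SimpleGraph.dist_comm, h1, SimpleGraph.dist_comm]⟩
    · exact ⟨y, x, hadj1.symm, by rw [hxy', Sym2.eq_swap],
        by rw [SimpleGraph.dist_comm, h1, SimpleGraph.dist_comm]⟩
  rcases hdi hadj2 a with h1 | h1
  · exact main a b v u hab hadj2.symm he (by rw [huv', Sym2.eq_swap]) hau h1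
  · refine main a b u v hab hadj2 he huv' ?_ h1
    have h2 := hdle hadj2.symm b
    have h3 := hdle hab v
    rw [SimpleGraph.dist_comm (u := v) (v := a), SimpleGraph.dist_comm (u := v) (v := b)] at h3
    omega

namespace Lineaux

theorem geo_cons (h : IsRT d G) {p : ℕ → V} {k : ℕ} (hp : IsGeo G p (k + 1)) {z : V}
    (hz : G.Adj z (p 0)) (hne : z ≠ p 1) : IsGeo G (cons z p) (k + 2) := by
  apply isGeo_of_nonbacktracking h
  · intro i hi
    rcases i with _ | i
    · exact hz
    · exact hp.1 i (by omega)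
  · intro i hi
    rcases i with _ | i
    · exact hne
    · show p i ≠ p (i + 2)
      intro heq
      have := hp.2 i (by omega) (i + 2) (by omega)
      rw [← heq] at this
      simp at this

omit [G.LocallyFinite] in
theorem geo_shift1 {p : ℕ → V} {k : ℕ} (hp : IsGeo G p (k + 1)) :
    IsGeo G (fun i => p (i + 1)) k := by
  refine ⟨fun i hi => ?_, fun i hi j hj => ?_⟩
  · exact hp.1 (i + 1) (by omega)
  · have := hp.2 (i + 1) (by omega) (j + 1) (by omega)
    rw [this]; omega

open Classical in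
/-- the edge `{x, z}`, or `e` if it is not an edge. -/
noncomputable def ed (e : G.edgeSet) (x z : V) : G.edgeSet :=
  if h : G.Adj x z then ⟨s(x, z), h⟩ else e

open Classical in
/-- sum over the edges at `x` other than `{x, y}`. -/
noncomputable def half {M : Type*} [AddCommMonoid M] (u : G.edgeSet → M) (e : G.edgeSet) (x y : V) : M :=
  ∑ z ∈ (G.neighborFinset x).erase y, u (ed e x z)

/-- sum over the neighbours in the line graph. -/
noncomputable def AA {M : Type*} [AddCommMonoid M] (u : G.edgeSet → M) (e : G.edgeSet) : M :=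
  half u e (Quot.out e.1).1 (Quot.out e.1).2 + half u e (Quot.out e.1).2 (Quot.out e.1).1

theorem AA_eq {M : Type*} [AddCommMonoid M] (u : G.edgeSet → M) (e : G.edgeSet) {x y : V} (he : e.1 = s(x, y)) :
    AA u e = half u e x y + half u e y x := by
  unfold AA
  have h1 : s((Quot.out e.1).1, (Quot.out e.1).2) = s(x, y) := by
    rw [← he]
    exact Quot.out_eq e.1
  rw [Sym2.eq_iff] at h1
  rcases h1 with ⟨h1, h2⟩ | ⟨h1, h2⟩
  · rw [h1, h2]
  · rw [h1, h2, add_comm]

/-- the radial part of the line graph operator. -/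
noncomputable def Sop (d : ℕ) (c : ℕ → ℝ) : ℕ → ℝ
  | 0 => 2 * ((d : ℝ) - 1) * c 1
  | j + 1 => c j + ((d : ℝ) - 2) * c (j + 1) + ((d : ℝ) - 1) * c (j + 2)

omit [G.LocallyFinite] in
theorem ed_adj (e : G.edgeSet) {x z : V} (hxz : G.Adj x z) : (ed e x z) = ⟨s(x, z), hxz⟩ := by
  rw [ed, dif_pos hxz]

theorem card_erase (h : IsRT d G) [DecidableEq V] {x y : V} (hxy : G.Adj x y) :
    (((G.neighborFinset x).erase y).card : ℝ) = (d : ℝ) - 1 := by
  rw [Finset.card_erase_of_mem (by simpa using hxy), SimpleGraph.card_neighborFinset_eq_degree, h.reg x]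
  have := h.three_le
  rw [Nat.cast_sub (by omega)]
  simp

theorem key (h : IsRT d G) (c : ℕ → ℝ) (e f : G.edgeSet) :
    AA (fun g => c (G.lineGraph.dist g f)) e = Sop d c (G.lineGraph.dist e f) := by
  classical
  by_cases hef : e = f
  · subst hef
    obtain ⟨⟨x, y⟩, hxy⟩ := Quot.exists_rep e.1
    have hxy' : e.1 = s(x, y) := hxy.symm
    have hadj : G.Adj x y := by
      have := e.2
      rw [hxy'] at this
      exact this
    rw [AA_eq _ _ hxy', SimpleGraph.dist_self]
    have main : ∀ x y : V, G.Adj x y → e.1 = s(x, y) →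
        half (fun g => c (G.lineGraph.dist g e)) e x y = ((d : ℝ) - 1) * c 1 := by
      intro x y hadj he
      unfold half
      rw [Finset.sum_congr rfl (g := fun _ => c 1)]
      · rw [Finset.sum_const, nsmul_eq_mul]
        congr 1
        convert card_erase h hadj
      · intro z hz
        rw [Finset.mem_erase, SimpleGraph.mem_neighborFinset] at hz
        obtain ⟨hzy, hxz⟩ := hz
        rw [ed_adj _ hxz]
        have hgeo : IsGeo G (cons z (cons x (fun _ => y))) 2 := by
          apply isGeo_of_nonbacktracking h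
          · intro i hi
            rcases i with _ | _ | i
            · exact hxz.symm
            · exact hadj
            · omega
          · intro i hi
            rcases i with _ | i
            · exact hzy
            · omega
        have h1 := dist_geo_ends h hgeo
        have e1 : (⟨s(x, z), hxz⟩ : G.edgeSet) = ⟨s(z, x), hxz.symm⟩ := Subtype.ext Sym2.eq_swap
        have e2 : e = ⟨s(x, y), hadj⟩ := Subtype.ext he
        rw [e1, e2]
        exact congrArg c h1
    rw [main x y hadj hxy', main y x hadj.symm (by rw [hxy', Sym2.eq_swap]), Sop]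
    ring
  · obtain ⟨p, k, hp, hk, he, hf, hD⟩ := exists_geo_edges h e f hef
    obtain ⟨k, rfl⟩ : ∃ k', k = k' + 1 := ⟨k - 1, by omega⟩
    rw [AA_eq _ _ he, hD]
    have h0 : half (fun g => c (G.lineGraph.dist g f)) e (p 0) (p 1) = ((d : ℝ) - 1) * c (k + 2) := by
      unfold half
      rw [Finset.sum_congr rfl (g := fun _ => c (k + 2))]
      · rw [Finset.sum_const, nsmul_eq_mul]
        congr 1
        convert card_erase h (hp.1 0 (by omega))
      · intro z hz
        rw [Finset.mem_erase, SimpleGraph.mem_neighborFinset] at hz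
        obtain ⟨hzy, hxz⟩ := hz
        rw [ed_adj _ hxz]
        have h1 := dist_geo_ends h (geo_cons h hp hxz.symm hzy)
        have e1 : (⟨s(p 0, z), hxz⟩ : G.edgeSet) = ⟨s(z, p 0), hxz.symm⟩ := Subtype.ext Sym2.eq_swap
        have e2 : f = ⟨s(p (k + 1), p (k + 2)), hp.1 (k + 1) (by omega)⟩ := Subtype.ext hf
        rw [e1, e2]
        exact congrArg c h1
    have h1 : half (fun g => c (G.lineGraph.dist g f)) e (p 1) (p 0) =
        c k + ((d : ℝ) - 2) * c (k + 1) := by
      unfold half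
      have hp12 := hp.1 1 (by omega)
      have hp02 : p 2 ≠ p 0 := by
        intro heq
        have := hp.2 2 (by omega) 0 (by omega)
        rw [heq] at this
        simp at this
      have hmem : p 2 ∈ (G.neighborFinset (p 1)).erase (p 0) := by
        rw [Finset.mem_erase, SimpleGraph.mem_neighborFinset]
        exact ⟨hp02, hp12⟩
      have hcard := card_erase h (hp.1 0 (by omega)).symm
      rw [← Finset.add_sum_erase _ _ hmem]
      congr 1
      · rw [ed_adj _ hp12]
        have e2 : f = ⟨s(p (k + 1), p (k + 2)), hp.1 (k + 1) (by omega)⟩ := Subtype.ext hf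
        rw [e2]
        have := line_dist_geo h hp (i := 1) (j := k + 1) (by omega) (by omega)
        have h3 : 1 - (k + 1) + (k + 1 - 1) = k := by omega
        rw [h3] at this
        exact congrArg c this
      · rw [Finset.sum_congr rfl (g := fun _ => c (k + 1))]
        · rw [Finset.sum_const, nsmul_eq_mul]
          congr 1
          have h4 := Finset.card_erase_add_one hmem
          have h5 : ((((G.neighborFinset (p 1)).erase (p 0)).erase (p 2)).card : ℝ) + 1 =
              (((G.neighborFinset (p 1)).erase (p 0)).card : ℝ) := by exact_mod_cast h4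
          linarith
        · intro z hz
          rw [Finset.mem_erase, Finset.mem_erase, SimpleGraph.mem_neighborFinset] at hz
          obtain ⟨hz2, hz0, hxz⟩ := hz
          rw [ed_adj _ hxz]
          have hs : IsGeo G (fun i => p (i + 1)) (k + 1) := geo_shift1 hp
          have h1 := dist_geo_ends h (geo_cons h hs hxz.symm hz2)
          have e1 : (⟨s(p 1, z), hxz⟩ : G.edgeSet) = ⟨s(z, p 1), hxz.symm⟩ := Subtype.ext Sym2.eq_swap
          have e2 : f = ⟨s(p (k + 1), p (k + 2)), hp.1 (k + 1) (by omega)⟩ := Subtype.ext hf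
          rw [e1, e2]
          exact congrArg c h1
    rw [h0, h1, Sop]
    ring

/-! the bilinear form -/

section
variable {M M' M'' : Type*} [AddCommGroup M] [Module ℝ M] [AddCommGroup M'] [Module ℝ M']

theorem AA_map (φ : M →ₗ[ℝ] M') (u : G.edgeSet → M) (e : G.edgeSet) :
    φ (AA u e) = AA (fun g => φ (u g)) e := by
  unfold AA half
  rw [map_add, map_sum, map_sum]

theorem bil (h : IsRT d G) (B : M →ₗ[ℝ] M' →ₗ[ℝ] ℝ) (u : G.edgeSet → M) (v : G.edgeSet → M')
    (c : ℕ → ℝ) (hc : ∀ e f, B (u e) (v f) = c (G.lineGraph.dist e f)) (a b : ℕ) :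
    ∀ e f, B (AA^[a] u e) (AA^[b] v f) = (Sop d)^[a + b] c (G.lineGraph.dist e f) := by
  induction a generalizing u c with
  | zero =>
    induction b generalizing v c with
    | zero => simpa using hc
    | succ b ih =>
      intro e f
      have h1 := ih (AA v) (Sop d c) (by
        intro e f
        rw [AA_map (B (u e))]
        have : (fun g => B (u e) (v g)) = (fun g => c (G.lineGraph.dist g e)) := by
          funext g
          rw [hc, SimpleGraph.dist_comm]
        rw [this, key h, SimpleGraph.dist_comm]) e f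
      simpa [← add_assoc, Function.iterate_succ_apply] using h1
  | succ a ih =>
    intro e f
    have h1 := ih (AA u) (Sop d c) (by
      intro e f
      have h2 : B (AA u e) (v f) = (B.flip (v f)) (AA u e) := rfl
      rw [h2, AA_map (B.flip (v f))]
      have : (fun g => B.flip (v f) (u g)) = (fun g => c (G.lineGraph.dist g f)) := by
        funext g
        exact hc g f
      rw [this, key h]) e f
    have h3 : a + 1 + b = (a + b) + 1 := by omega
    rw [h3, Function.iterate_succ_apply, Function.iterate_succ_apply]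
    exact h1

end

/-- the bilinear form with matrix `c (dist e f)`. -/
noncomputable def Bf (G : SimpleGraph V) (c : ℕ → ℝ) : (G.edgeSet →₀ ℝ) →ₗ[ℝ] (G.edgeSet →₀ ℝ) →ₗ[ℝ] ℝ :=
  Finsupp.linearCombination ℝ (fun e => Finsupp.linearCombination ℝ (fun f => c (G.lineGraph.dist e f)))

omit [G.LocallyFinite] in
theorem Bf_single (c : ℕ → ℝ) (e f : G.edgeSet) :
    Bf G c (Finsupp.single e 1) (Finsupp.single f 1) = c (G.lineGraph.dist e f) := by
  unfold Bf
  rw [Finsupp.linearCombination_single, one_smul, Finsupp.linearCombination_single, one_smul]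

omit [G.LocallyFinite] in
theorem Bf_apply (c : ℕ → ℝ) (x y : G.edgeSet →₀ ℝ) :
    Bf G c x y = ∑ e ∈ x.support, ∑ f ∈ y.support, x e * y f * c (G.lineGraph.dist e f) := by
  unfold Bf
  rw [Finsupp.linearCombination_apply, Finsupp.sum, LinearMap.sum_apply]
  refine Finset.sum_congr rfl fun e _ => ?_
  rw [LinearMap.smul_apply, Finsupp.linearCombination_apply, Finsupp.sum, Finset.smul_sum]
  refine Finset.sum_congr rfl fun f _ => ?_
  simp only [smul_eq_mul]
  ring

omit [G.LocallyFinite] in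
theorem Bf_symm (c : ℕ → ℝ) (x y : G.edgeSet →₀ ℝ) : Bf G c x y = Bf G c y x := by
  rw [Bf_apply, Bf_apply, Finset.sum_comm]
  refine Finset.sum_congr rfl fun e _ => Finset.sum_congr rfl fun f _ => ?_
  rw [SimpleGraph.dist_comm]
  ring

noncomputable def ww (G : SimpleGraph V) [G.LocallyFinite] (n : ℕ) (e : G.edgeSet) : G.edgeSet →₀ ℝ :=
  AA^[n] (fun e => Finsupp.single e 1) e

theorem Bf_ww (h : IsRT d G) (c : ℕ → ℝ) (a b : ℕ) (e f : G.edgeSet) :
    Bf G c (ww G a e) (ww G b f) = (Sop d)^[a + b] c (G.lineGraph.dist e f) :=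
  bil h (Bf G c) _ _ c (Bf_single c) a b e f

theorem AA_nonneg (u : G.edgeSet → (G.edgeSet →₀ ℝ)) (hu : ∀ e f, 0 ≤ u e f) (e f : G.edgeSet) :
    0 ≤ AA u e f := by
  unfold AA half
  rw [Finsupp.add_apply, Finsupp.finset_sum_apply, Finsupp.finset_sum_apply]
  exact add_nonneg (Finset.sum_nonneg fun i _ => hu _ _) (Finset.sum_nonneg fun i _ => hu _ _)

theorem ww_nonneg (n : ℕ) (e f : G.edgeSet) : 0 ≤ ww G n e f := by
  unfold ww
  suffices H : ∀ u : G.edgeSet → (G.edgeSet →₀ ℝ), (∀ e f, 0 ≤ u e f) → 0 ≤ AA^[n] u e f by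
    apply H
    intro e f
    classical
    rw [Finsupp.single_apply]
    split_ifs <;> norm_num
  induction n with
  | zero => intro u hu; exact hu e f
  | succ n ih =>
    intro u hu
    rw [Function.iterate_succ_apply]
    exact ih _ (AA_nonneg u hu)

/-! the radial operator -/

theorem Sop_mono {d : ℕ} (hd : 2 ≤ d) {c c' : ℕ → ℝ} (hc : ∀ j, c j ≤ c' j) (j : ℕ) :
    Sop d c j ≤ Sop d c' j := by
  have hd' : (2 : ℝ) ≤ d := by exact_mod_cast hd
  rcases j with _ | j
  · unfold Sop
    exact mul_le_mul_of_nonneg_left (hc _) (by linarith)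
  · unfold Sop
    have h1 := hc j
    have h2 := mul_le_mul_of_nonneg_left (hc (j + 1)) (by linarith : (0 : ℝ) ≤ (d : ℝ) - 2)
    have h3 := mul_le_mul_of_nonneg_left (hc (j + 2)) (by linarith : (0 : ℝ) ≤ (d : ℝ) - 1)
    linarith

theorem Sop_smul (d : ℕ) (a : ℝ) (c : ℕ → ℝ) : Sop d (fun j => a * c j) = fun j => a * Sop d c j := by
  funext j
  rcases j with _ | j
  · simp only [Sop]; ring
  · simp only [Sop]; ring

theorem Sop_pow {d : ℕ} (hd : 3 ≤ d) {r : ℝ} (hr0 : 0 < r) (hr1 : r < 1) (j : ℕ) :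
    Sop d (fun j => r ^ j) j ≤ (1 / r + ((d : ℝ) - 2) + ((d : ℝ) - 1) * r) * r ^ j := by
  have hd' : (3 : ℝ) ≤ d := by exact_mod_cast hd
  rcases j with _ | j
  · simp only [Sop, pow_one, pow_zero, mul_one]
    have h1 : 1 < 1 / r := by rw [lt_div_iff₀ hr0]; linarith
    nlinarith
  · simp only [Sop]
    apply le_of_eq
    rw [pow_succ, pow_add]
    field_simp

theorem Sop_iter_pow {d : ℕ} (hd : 3 ≤ d) {r : ℝ} (hr0 : 0 < r) (hr1 : r < 1) (n : ℕ) :
    ∀ j, (Sop d)^[n] (fun j => r ^ j) j ≤ (1 / r + ((d : ℝ) - 2) + ((d : ℝ) - 1) * r) ^ n * r ^ j := by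
  have hd' : (3 : ℝ) ≤ d := by exact_mod_cast hd
  set b := (1 / r + ((d : ℝ) - 2) + ((d : ℝ) - 1) * r) with hb
  have hb0 : 0 ≤ b := by
    have : 0 < 1 / r := by positivity
    nlinarith
  induction n with
  | zero => intro j; simp
  | succ n ih =>
    intro j
    rw [Function.iterate_succ_apply']
    refine le_trans (Sop_mono (by omega) ih j) ?_
    rw [Sop_smul]
    show b ^ n * Sop d (fun j => r ^ j) j ≤ _
    calc b ^ n * Sop d (fun j => r ^ j) j ≤ b ^ n * (b * r ^ j) :=
          mul_le_mul_of_nonneg_left (Sop_pow hd hr0 hr1 j) (by positivity)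
      _ = b ^ (n + 1) * r ^ j := by ring

theorem exists_dist (h : IsRT d G) (e : G.edgeSet) (j : ℕ) : ∃ f : G.edgeSet, G.lineGraph.dist e f = j := by
  have hd' : (3 : ℝ) ≤ d := by exact_mod_cast h.three_le
  induction j with
  | zero => exact ⟨e, SimpleGraph.dist_self⟩
  | succ j ih =>
    obtain ⟨f, hf⟩ := ih
    by_contra hno
    push Not at hno
    have h1 := key h (fun i => if i = j + 1 then 1 else 0) f e
    have h2 : (fun g : G.edgeSet => (if G.lineGraph.dist g e = j + 1 then (1 : ℝ) else 0)) = fun g => 0 := by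
      funext g
      rw [if_neg]
      rw [SimpleGraph.dist_comm]
      exact hno g
    rw [h2, SimpleGraph.dist_comm, hf] at h1
    have h3 : AA (fun _ : G.edgeSet => (0 : ℝ)) f = 0 := by
      simp [AA, half]
    rw [h3] at h1
    rcases j with _ | j
    · simp [Sop] at h1
      linarith
    · simp [Sop] at h1
      split_ifs at h1 <;> linarith

theorem logconvex {N : ℕ → ℝ} (h0 : ∀ n, 0 ≤ N n) (hN : ∀ n, N (n + 1) ^ 2 ≤ N n * N (n + 2))
    {K q : ℝ} (hq : 0 < q) (hK : ∀ n, N n ≤ K * q ^ n) : N 1 ≤ q * N 0 := by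
  rcases (h0 0).eq_or_lt with h | h
  · have h1 := hN 0
    rw [← h, zero_mul] at h1
    have h2 : N 1 = 0 := by
      have : N 1 ^ 2 = 0 := le_antisymm h1 (sq_nonneg _)
      simpa using this
    rw [h2, ← h]; simp
  · by_contra hlt
    push Not at hlt
    set t := N 1 / N 0 with ht
    have htq : q < t := by rw [ht, lt_div_iff₀ h]; exact hlt
    have ht0 : 0 < t := lt_trans hq htq
    have claim : ∀ n, 0 < N n ∧ t * N n ≤ N (n + 1) := by
      intro n
      induction n with
      | zero =>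
        refine ⟨h, le_of_eq ?_⟩
        rw [ht]; field_simp
      | succ n ih =>
        obtain ⟨i1, i2⟩ := ih
        have i3 : 0 < N (n + 1) := lt_of_lt_of_le (by positivity) i2
        refine ⟨i3, ?_⟩
        have i4 := hN n
        have i5 : N n * (t * N (n + 1)) ≤ N n * N (n + 2) := by
          calc N n * (t * N (n + 1)) = (t * N n) * N (n + 1) := by ring
            _ ≤ N (n + 1) * N (n + 1) := mul_le_mul_of_nonneg_right i2 i3.le
            _ = N (n + 1) ^ 2 := by ring
            _ ≤ _ := i4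
        exact le_of_mul_le_mul_left i5 i1
    have grow : ∀ n, t ^ n * N 0 ≤ N n := by
      intro n
      induction n with
      | zero => simp
      | succ n ih =>
        calc t ^ (n + 1) * N 0 = t * (t ^ n * N 0) := by ring
          _ ≤ t * N n := mul_le_mul_of_nonneg_left ih ht0.le
          _ ≤ _ := (claim n).2
    have hbd : ∀ n, (t / q) ^ n ≤ K / N 0 := by
      intro n
      rw [le_div_iff₀ h, div_pow, div_mul_eq_mul_div, div_le_iff₀ (by positivity)]
      exact le_trans (grow n) (hK n)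
    have h1q : 1 < t / q := by rw [lt_div_iff₀ hq]; linarith
    obtain ⟨n, hn⟩ := pow_unbounded_of_one_lt (K / N 0) h1q
    exact absurd (hbd n) (not_le.2 hn)

theorem tele (d : ℕ) (c : ℕ → ℝ) (k : ℕ) :
    ∑ i ∈ range k, (2 * ((d : ℝ) - 1) * c (i + 1) - Sop d c (i + 1)) =
      ((d : ℝ) - 1) * (c 1 - c (k + 1)) - (c 0 - c k) := by
  induction k with
  | zero => simp
  | succ k ih =>
    rw [Finset.sum_range_succ, ih]
    simp only [Sop]
    ring

theorem tele2 {d : ℕ} (hd : 3 ≤ d) {c : ℕ → ℝ} (hc : ∀ j, |c j| ≤ c 0) (k : ℕ) :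
    ∑ i ∈ range k, ∑ j ∈ range k, (2 * ((d : ℝ) - 1) * c ((i - j) + (j - i)) -
      Sop d c ((i - j) + (j - i))) ≤ 4 * ((d : ℝ) - 1) * k * c 0 := by
  have hd' : (3 : ℝ) ≤ d := by exact_mod_cast hd
  have hc0 : 0 ≤ c 0 := le_trans (abs_nonneg _) (hc 0)
  set a : ℕ → ℝ := fun j => 2 * ((d : ℝ) - 1) * c j - Sop d c j with ha
  show ∑ i ∈ range k, ∑ j ∈ range k, a ((i - j) + (j - i)) ≤ _
  induction k with
  | zero => simp
  | succ k ih =>
    have h1 : ∑ i ∈ range (k + 1), ∑ j ∈ range (k + 1), a ((i - j) + (j - i)) =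
        ∑ i ∈ range k, ∑ j ∈ range k, a ((i - j) + (j - i)) + 2 * ∑ i ∈ range k, a (i + 1) + a 0 := by
      rw [Finset.sum_range_succ]
      have h2 : ∑ i ∈ range k, ∑ j ∈ range (k + 1), a ((i - j) + (j - i)) =
          ∑ i ∈ range k, ∑ j ∈ range k, a ((i - j) + (j - i)) + ∑ i ∈ range k, a (k - i) := by
        rw [← Finset.sum_add_distrib]
        refine Finset.sum_congr rfl fun i hi => ?_
        rw [Finset.sum_range_succ]
        congr 2
        have := Finset.mem_range.1 hi
        omega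
      have h3 : ∑ j ∈ range (k + 1), a ((k - j) + (j - k)) = ∑ j ∈ range k, a (k - j) + a 0 := by
        rw [Finset.sum_range_succ]
        congr 1
        · refine Finset.sum_congr rfl fun i hi => ?_
          congr 1
          have := Finset.mem_range.1 hi
          omega
        · simp
      have h4 : ∑ i ∈ range k, a (k - i) = ∑ i ∈ range k, a (i + 1) := by
        rw [← Finset.sum_range_reflect]
        refine Finset.sum_congr rfl fun i hi => ?_
        congr 1
        have := Finset.mem_range.1 hi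
        omega
      rw [h2, h3, h4]
      ring
    rw [h1]
    have h5 := tele d c k
    have h6 : ∑ i ∈ range k, a (i + 1) = ((d : ℝ) - 1) * (c 1 - c (k + 1)) - (c 0 - c k) := h5
    have h7 : a 0 = 2 * ((d : ℝ) - 1) * (c 0 - c 1) := by
      simp only [ha, Sop]; ring
    rw [h6, h7]
    have h8 := abs_le.1 (hc (k + 1))
    have h9 := abs_le.1 (hc k)
    push_cast
    have h10 : 0 ≤ ((d : ℝ) - 1) * (c (k + 1) + c 0) := mul_nonneg (by linarith) (by linarith)
    nlinarith

theorem line_abs (h : IsRT d G) {r : ℝ} (hr0 : 0 < r) (hr1 : r < 1)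
    (hb : 1 / r + ((d : ℝ) - 2) + ((d : ℝ) - 1) * r < 2 * ((d : ℝ) - 1))
    (c : ℕ → ℝ) (hpos : ∀ x, 0 ≤ Bf G c x x) (C0 : ℝ)
    (hC0 : ∀ x : G.edgeSet →₀ ℝ, Bf G c x x ≤
      C0 * ∑ e ∈ x.support, ∑ e' ∈ x.support, |x e| * |x e'| * r ^ (G.lineGraph.dist e e'))
    {p : ℕ → V} {k : ℕ} (hp : IsGeo G p k) :
    ∑ i : Fin k, ∑ j : Fin k, c (G.lineGraph.dist ⟨s(p i, p (i + 1)), hp.1 i i.2⟩ ⟨s(p j, p (j + 1)), hp.1 j j.2⟩) ≤
      4 * ((d : ℝ) - 1) / (2 * ((d : ℝ) - 1) - (1 / r + ((d : ℝ) - 2) + ((d : ℝ) - 1) * r)) * k * c 0 := by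
  have hd' : (3 : ℝ) ≤ d := by exact_mod_cast h.three_le
  set b := (1 / r + ((d : ℝ) - 2) + ((d : ℝ) - 1) * r) with hbdef
  have hb0 : 0 < b := by
    have : 0 < 1 / r := by positivity
    nlinarith
  rcases Nat.eq_zero_or_pos k with hk | hk
  · subst hk; simp
  set E : Fin k → G.edgeSet := fun i => ⟨s(p i, p (i + 1)), hp.1 i i.2⟩ with hE
  have hcs : ∀ x y, (Bf G c x y) ^ 2 ≤ Bf G c x x * Bf G c y y := by
    intro x y
    have := LinearMap.BilinForm.apply_mul_apply_le_of_forall_zero_le (Bf G c) hpos x y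
    rw [Bf_symm c y x, ← sq] at this
    exact this
  have hc00 : 0 ≤ c 0 := by
    have := hpos (Finsupp.single (E ⟨0, hk⟩) 1)
    rwa [Bf_single, SimpleGraph.dist_self] at this
  have hcj : ∀ j, |c j| ≤ c 0 := by
    intro j
    obtain ⟨f, hf⟩ := exists_dist h (E ⟨0, hk⟩) j
    have h1 := hcs (Finsupp.single (E ⟨0, hk⟩) 1) (Finsupp.single f 1)
    rw [Bf_single, Bf_single, Bf_single, SimpleGraph.dist_self, SimpleGraph.dist_self, hf, ← sq] at h1
    exact abs_le_of_sq_le_sq h1 hc00
  set X : ℕ → (G.edgeSet →₀ ℝ) := fun n => ∑ i, ww G n (E i) with hX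
  have hM : ∀ (c : ℕ → ℝ) (m n : ℕ), Bf G c (X m) (X n) = ∑ i, ∑ j, (Sop d)^[m + n] c (G.lineGraph.dist (E i) (E j)) := by
    intro c m n
    rw [hX]
    simp only [map_sum, LinearMap.sum_apply]
    rw [Finset.sum_comm]
    refine Finset.sum_congr rfl fun i _ => Finset.sum_congr rfl fun j _ => ?_
    exact Bf_ww h c m n _ _
  have hXnn : ∀ n e, 0 ≤ X n e := by
    intro n e
    rw [hX]
    simp only [Finsupp.finset_sum_apply]
    exact Finset.sum_nonneg fun i _ => ww_nonneg n _ _
  set N : ℕ → ℝ := fun n => Bf G c (X n) (X n) with hN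
  have hNlc : ∀ n, N (n + 1) ^ 2 ≤ N n * N (n + 2) := by
    intro n
    have h1 := hcs (X n) (X (n + 2))
    have h2 : Bf G c (X n) (X (n + 2)) = N (n + 1) := by
      simp only [hN]
      rw [hM, hM]
      have : n + (n + 2) = n + 1 + (n + 1) := by omega
      rw [this]
    rw [h2] at h1
    exact h1
  have hgrow : ∀ n, N n ≤ (|C0| * ∑ i, ∑ j, r ^ (G.lineGraph.dist (E i) (E j))) * (b ^ 2) ^ n := by
    intro n
    have h1 := hC0 (X n)
    have h2 : ∑ e ∈ (X n).support, ∑ e' ∈ (X n).support, |X n e| * |X n e'| * r ^ (G.lineGraph.dist e e') =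
        Bf G (fun j => r ^ j) (X n) (X n) := by
      rw [Bf_apply]
      refine Finset.sum_congr rfl fun e _ => Finset.sum_congr rfl fun f _ => ?_
      rw [abs_of_nonneg (hXnn n e), abs_of_nonneg (hXnn n f)]
    rw [h2, hM (fun j => r ^ j)] at h1
    have h3 : 0 ≤ ∑ i, ∑ j, (Sop d)^[n + n] (fun j => r ^ j) (G.lineGraph.dist (E i) (E j)) := by
      rw [← hM, ← h2]
      positivity
    have h4 : ∑ i, ∑ j, (Sop d)^[n + n] (fun j => r ^ j) (G.lineGraph.dist (E i) (E j)) ≤
        ∑ i, ∑ j, b ^ (n + n) * r ^ (G.lineGraph.dist (E i) (E j)) :=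
      Finset.sum_le_sum fun i _ => Finset.sum_le_sum fun j _ => Sop_iter_pow h.three_le hr0 hr1 _ _
    calc N n ≤ C0 * ∑ i, ∑ j, (Sop d)^[n + n] (fun j => r ^ j) (G.lineGraph.dist (E i) (E j)) := h1
      _ ≤ |C0| * ∑ i, ∑ j, (Sop d)^[n + n] (fun j => r ^ j) (G.lineGraph.dist (E i) (E j)) :=
        mul_le_mul_of_nonneg_right (le_abs_self _) h3
      _ ≤ |C0| * ∑ i, ∑ j, b ^ (n + n) * r ^ (G.lineGraph.dist (E i) (E j)) :=
        mul_le_mul_of_nonneg_left h4 (abs_nonneg _)
      _ = _ := by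
        simp only [← Finset.mul_sum]
        rw [← pow_mul, two_mul]
        ring
  have hN1 := logconvex (fun n => hpos (X n)) hNlc (by positivity) hgrow
  have hN0 : 0 ≤ N 0 := hpos (X 0)
  have h11 : Bf G c (X 1) (X 0) ≤ b * N 0 := by
    have h1 := hcs (X 1) (X 0)
    have h2 : (Bf G c (X 1) (X 0)) ^ 2 ≤ (b * N 0) ^ 2 := by
      calc (Bf G c (X 1) (X 0)) ^ 2 ≤ N 1 * N 0 := h1
        _ ≤ (b ^ 2 * N 0) * N 0 := mul_le_mul_of_nonneg_right hN1 hN0
        _ = _ := by ring
    exact le_trans (le_abs_self _) (abs_le_of_sq_le_sq h2 (by positivity))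
  have hfin : ∀ F : ℕ → ℝ, ∑ i, ∑ j, F (G.lineGraph.dist (E i) (E j)) =
      ∑ i ∈ range k, ∑ j ∈ range k, F ((i - j) + (j - i)) := by
    intro F
    rw [← Fin.sum_univ_eq_sum_range (fun i => ∑ j ∈ range k, F ((i - j) + (j - i))) k]
    refine Finset.sum_congr rfl fun i _ => ?_
    rw [← Fin.sum_univ_eq_sum_range (fun j => F ((i - j) + (j - i))) k]
    refine Finset.sum_congr rfl fun j _ => ?_
    rw [← line_dist_geo h hp i.2 j.2]
  have h12 : 2 * ((d : ℝ) - 1) * N 0 - Bf G c (X 1) (X 0) ≤ 4 * ((d : ℝ) - 1) * k * c 0 := by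
    refine le_trans (le_of_eq ?_) (tele2 h.three_le hcj k)
    simp only [hN]
    rw [hM, hM, hfin, hfin, Finset.mul_sum, ← Finset.sum_sub_distrib]
    refine Finset.sum_congr rfl fun i _ => ?_
    rw [Finset.mul_sum, ← Finset.sum_sub_distrib]
    rfl
  have h13 : N 0 = ∑ i : Fin k, ∑ j : Fin k, c (G.lineGraph.dist (E i) (E j)) := by
    simp only [hN]
    rw [hM]
    rfl
  rw [← h13]
  have h14 : 0 < 2 * ((d : ℝ) - 1) - b := by linarith
  rw [div_mul_eq_mul_div, div_mul_eq_mul_div, le_div_iff₀ h14]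
  linarith

end Lineaux

theorem line_decorrelation (h : IsRT d G) (r : ℝ) (hr0 : 1 / ((d : ℝ) - 1) < r) (hr1 : r < 1) :
    ∃ C : ℝ, 0 < C ∧ ∀ (Ω : Type) (_ : MeasurableSpace Ω) (μ : Measure Ω) (g : G.edgeSet → Ω → ℝ)
      (_ : ∀ e, MemLp (g e) 2 μ) (c : ℕ → ℝ)
      (_ : ∀ e e', ∫ ω, g e ω * g e' ω ∂μ = c (G.lineGraph.dist e e')) (C0 : ℝ)
      (_ : ∀ (s : Finset G.edgeSet) (x : G.edgeSet → ℝ), ∫ ω, (∑ e ∈ s, x e * g e ω) ^ 2 ∂μ ≤
        C0 * ∑ e ∈ s, ∑ e' ∈ s, |x e| * |x e'| * r ^ (G.lineGraph.dist e e')),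
      ∀ (p : ℕ → V) (k : ℕ) (hp : IsGeo G p k),
        ∫ ω, (∑ i : Fin k, g ⟨s(p i, p (i + 1)), hp.1 i i.2⟩ ω) ^ 2 ∂μ ≤ C * k * c 0 := by
  have hd' : (3 : ℝ) ≤ d := by exact_mod_cast h.three_le
  have hd1 : 0 < (d : ℝ) - 1 := by linarith
  have hr : 0 < r := lt_trans (by positivity) hr0
  have hb : 1 / r + ((d : ℝ) - 2) + ((d : ℝ) - 1) * r < 2 * ((d : ℝ) - 1) := by
    rw [div_lt_iff₀ hd1] at hr0
    have h1 : 1 / r < (d : ℝ) - ((d : ℝ) - 1) * r := by
      rw [div_lt_iff₀ hr]
      nlinarith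
    linarith
  refine ⟨4 * ((d : ℝ) - 1) / (2 * ((d : ℝ) - 1) - (1 / r + ((d : ℝ) - 2) + ((d : ℝ) - 1) * r)),
    div_pos (by linarith) (by linarith), ?_⟩
  intro Ω _ μ g hg c hc C0 hC0 p k hp
  have hint : ∀ e f, Integrable (fun ω => g e ω * g f ω) μ := fun e f => (hg e).integrable_mul (hg f)
  have hquad : ∀ (ι : Type) (s : Finset ι) (x : ι → ℝ) (E : ι → G.edgeSet),
      ∫ ω, (∑ i ∈ s, x i * g (E i) ω) ^ 2 ∂μ = ∑ i ∈ s, ∑ j ∈ s, x i * x j * c (G.lineGraph.dist (E i) (E j)) := by
    intro ι s x E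
    have h1 : ∀ ω, (∑ i ∈ s, x i * g (E i) ω) ^ 2 = ∑ i ∈ s, ∑ j ∈ s, x i * x j * (g (E i) ω * g (E j) ω) := by
      intro ω
      rw [sq, Finset.sum_mul_sum]
      refine Finset.sum_congr rfl fun i _ => Finset.sum_congr rfl fun j _ => ?_
      ring
    simp only [h1]
    rw [integral_finsetSum _ (fun i _ => integrable_finsetSum _ fun j _ => (hint _ _).const_mul _)]
    refine Finset.sum_congr rfl fun i _ => ?_
    rw [integral_finsetSum _ (fun j _ => (hint _ _).const_mul _)]
    refine Finset.sum_congr rfl fun j _ => ?_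
    rw [integral_const_mul, hc]
  have hBf : ∀ x : G.edgeSet →₀ ℝ, Bf G c x x = ∫ ω, (∑ e ∈ x.support, x e * g e ω) ^ 2 ∂μ := by
    intro x
    rw [hquad _ x.support x (fun e => e), Bf_apply]
  have hmain := line_abs h hr hr1 hb c (fun x => by rw [hBf]; exact integral_nonneg fun ω => sq_nonneg _) C0
    (fun x => by rw [hBf]; exact hC0 x.support x) hp
  refine le_trans (le_of_eq ?_) hmain
  have h2 := hquad (Fin k) Finset.univ (fun _ => 1) (fun i => ⟨s(p i, p (i + 1)), hp.1 i i.2⟩)
  simp only [one_mul] at h2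
  exact h2



end Crest.Agent.R160
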