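import Crest.Agent.R160.Pair
import Crest.Agent.R160.CovDecay
import Crest.Agent.R160.Line

/-! Row 160, piece DECOR: `E₂ (∑_{e in path} g_e)² ≤ C k E₂ g_e²`.

PROOF. Apply `line_decorrelation` with `Ω = Om V × Om V`, `μ = P2 𝓖`, `r` from `cov_decay`,
`g_e = fE(ω₁) - fE(ω₂)`. Radiality of `∫ g_e g_e'`: `exists_geo_edges`, `exists_aut`, `fE_aut`,
`Xt_act`, `P2_act`. The `C0` condition: `∫ (∑ x_e g_e)² = V2 (∑ x_e fE_e) ≤ 2 Var(∑ x_e fE_e)`
(`V2_eq`, `V2_le_var`), and `cov_decay`. The constant must not depend on `t`, `𝓖`. -/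

set_option autoImplicit false
set_option linter.unusedSectionVars false
open Finset Filter MeasureTheory ProbabilityTheory
open scoped Topology NNReal ENNReal

namespace Crest.Agent.R160
namespace Setup

variable {V : Type} [DecidableEq V] [Countable V] (S : Setup V)

/-- difference of the edge functional between the two copies. -/
noncomputable def gE (t : ℝ≥0) (x y : V) (p : Om V × Om V) : ℝ :=
  S.fE x y (S.Xt t p.1) - S.fE x y (S.Xt t p.2)

end Setup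

namespace DECORaux

variable {V : Type} [DecidableEq V] [Countable V] (S : Setup V)

theorem gE_comm (t : ℝ≥0) (x y : V) : S.gE t x y = S.gE t y x := by
  funext p
  simp only [Setup.gE, S.fE_comm x y]

theorem gE_act (t : ℝ≥0) (γ : S.G ≃g S.G) (x y : V) (p : Om V × Om V) :
    S.gE t x y (Prod.map (S.act γ) (S.act γ) p) = S.gE t (γ x) (γ y) p := by
  simp only [Setup.gE, Prod.map_fst, Prod.map_snd, S.Xt_act, S.fE_aut]

theorem measurable_gE (t : ℝ≥0) (x y : V) : Measurable (S.gE t x y) := by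
  unfold Setup.gE
  exact (((S.measurable_fE x y).comp (S.measurable_Xt t)).comp measurable_fst).sub
    (((S.measurable_fE x y).comp (S.measurable_Xt t)).comp measurable_snd)

theorem integral_aut (t : ℝ≥0) (𝓖 : SubF V) (hinv : S.Inv 𝓖.1) (γ : S.G ≃g S.G) (x y x' y' : V) :
    ∫ p, S.gE t (γ x) (γ y) p * S.gE t (γ x') (γ y') p ∂(S.P2 𝓖) =
      ∫ p, S.gE t x y p * S.gE t x' y' p ∂(S.P2 𝓖) := by
  have hp := S.P2_act 𝓖 hinv γ
  have hm : Measurable (fun p => S.gE t x y p * S.gE t x' y' p) :=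
    (measurable_gE S t x y).mul (measurable_gE S t x' y')
  have h := integral_map (μ := S.P2 𝓖) (φ := Prod.map (S.act γ) (S.act γ)) hp.measurable.aemeasurable
    (f := fun p => S.gE t x y p * S.gE t x' y' p) (by
      rw [hp.map_eq]; exact hm.aestronglyMeasurable)
  rw [hp.map_eq] at h
  rw [h]
  simp only [gE_act]

theorem isGeo_edge {x y : V} (h : S.G.Adj x y) : IsGeo S.G (fun i => if i = 0 then x else y) 1 := by
  have hd : S.G.dist x y = 1 := SimpleGraph.dist_eq_one_iff_adj.2 h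
  refine ⟨fun i hi => ?_, fun i hi j hj => ?_⟩
  · have : i = 0 := by omega
    subst this
    simpa using h
  · have h1 : i = 0 ∨ i = 1 := by omega
    have h2 : j = 0 ∨ j = 1 := by omega
    have hd' : S.G.dist y x = 1 := by rw [SimpleGraph.dist_comm]; exact hd
    rcases h1 with rfl | rfl <;> rcases h2 with rfl | rfl <;> simp [hd, hd']

/-- edge functional. -/
noncomputable def gS (t : ℝ≥0) : Sym2 V → Om V × Om V → ℝ :=
  Sym2.lift ⟨fun x y => S.gE t x y, fun x y => gE_comm S t x y⟩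

theorem gS_mk (t : ℝ≥0) (x y : V) : gS S t s(x, y) = S.gE t x y := rfl

noncomputable def fS (t : ℝ≥0) : Sym2 V → Om V → ℝ :=
  Sym2.lift ⟨fun x y ω => S.fE x y (S.Xt t ω), fun x y => by funext ω; exact S.fE_comm x y _⟩

theorem fS_mk (t : ℝ≥0) (x y : V) (ω : Om V) : fS S t s(x, y) ω = S.fE x y (S.Xt t ω) := rfl

theorem gS_eq (t : ℝ≥0) (e : Sym2 V) (p : Om V × Om V) :
    gS S t e p = fS S t e p.1 - fS S t e p.2 := by
  induction e with
  | _ x y => rfl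

theorem measurable_fS (t : ℝ≥0) (e : Sym2 V) : Measurable (fS S t e) := by
  induction e with
  | _ x y => exact (S.measurable_fE x y).comp (S.measurable_Xt t)

theorem measurable_gS (t : ℝ≥0) (e : Sym2 V) : Measurable (gS S t e) := by
  induction e with
  | _ x y => exact measurable_gE S t x y

theorem fS_bdd : ∃ C : ℝ, 0 < C ∧ ∀ t e ω, |fS S t e ω| ≤ C := by
  obtain ⟨C, hC, h⟩ := CovDecayaux.fE_abs_le S
  refine ⟨C, hC, fun t e ω => ?_⟩
  induction e with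
  | _ x y => exact h x y _

open Classical in
/-- the radial covariance function. -/
noncomputable def cc (t : ℝ≥0) (𝓖 : SubF V) (n : ℕ) : ℝ :=
  if h : ∃ q : ℕ → V, IsGeo S.G q (n + 1) then
    ∫ p, S.gE t (h.choose 0) (h.choose 1) p * S.gE t (h.choose n) (h.choose (n + 1)) p ∂(S.P2 𝓖)
  else 0

theorem cc_eq (t : ℝ≥0) (𝓖 : SubF V) (hinv : S.Inv 𝓖.1) {n : ℕ} {q : ℕ → V}
    (hq : IsGeo S.G q (n + 1)) :
    ∫ p, S.gE t (q 0) (q 1) p * S.gE t (q n) (q (n + 1)) p ∂(S.P2 𝓖) = cc S t 𝓖 n := by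
  have h : ∃ q : ℕ → V, IsGeo S.G q (n + 1) := ⟨q, hq⟩
  rw [cc, dif_pos h]
  obtain ⟨γ, hγ⟩ := exists_aut S.rt h.choose_spec hq
  rw [← hγ 0 (by omega), ← hγ 1 (by omega), ← hγ n (by omega), ← hγ (n + 1) (by omega),
    integral_aut S t 𝓖 hinv]

theorem cc_eq_edge (t : ℝ≥0) (𝓖 : SubF V) (hinv : S.Inv 𝓖.1) (e e' : S.G.edgeSet) :
    ∫ p, gS S t e p * gS S t e' p ∂(S.P2 𝓖) = cc S t 𝓖 (S.G.lineGraph.dist e e') := by
  by_cases hne : e = e'
  · subst hne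
    rw [SimpleGraph.dist_self]
    obtain ⟨e, he⟩ := e
    induction e with
    | _ x y =>
      have := cc_eq S t 𝓖 hinv (n := 0) (isGeo_edge S he)
      simpa [gS_mk] using this
  · obtain ⟨p, k, hp, hk, h1, h2, h3⟩ := exists_geo_edges S.rt e e' hne
    rw [h3, ← cc_eq S t 𝓖 hinv hp, h1, h2]
    rfl

theorem memLp_of_bdd {Ω : Type*} {mΩ : MeasurableSpace Ω} {μ : Measure Ω} [IsProbabilityMeasure μ]
    {f : Ω → ℝ} {C : ℝ} (hf : Measurable f) (h : ∀ ω, |f ω| ≤ C) : MemLp f 2 μ :=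
  MemLp.of_bound hf.aestronglyMeasurable C (Eventually.of_forall h)

theorem cov_fS : ∃ C r : ℝ, 0 < C ∧ 1 / ((S.d : ℝ) - 1) < r ∧ r < 1 ∧
    ∀ (t : ℝ≥0) (e e' : S.G.edgeSet),
    |∫ ω, fS S t e ω * fS S t e' ω ∂S.P - (∫ ω, fS S t e ω ∂S.P) * ∫ ω, fS S t e' ω ∂S.P| ≤
      C * r ^ (S.G.lineGraph.dist e e') := by
  obtain ⟨C, r, hC, hr0, hr1, h⟩ := S.cov_decay
  obtain ⟨C2, hC2, h2⟩ := fS_bdd S
  have hd : (3 : ℝ) ≤ S.d := by exact_mod_cast S.d_three
  have hr : 0 < r := lt_trans (by apply div_pos one_pos; linarith) hr0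
  refine ⟨C + 2 * C2 ^ 2, r, by positivity, hr0, hr1, fun t e e' => ?_⟩
  by_cases hne : e = e'
  · subst hne
    rw [SimpleGraph.dist_self, pow_zero, mul_one]
    have bi : ∀ {f : Om V → ℝ} {B : ℝ}, (∀ ω, |f ω| ≤ B) → |∫ ω, f ω ∂S.P| ≤ B := by
      intro f B hb
      have := norm_integral_le_of_norm_le_const (μ := S.P) (f := f) (C := B)
        (Eventually.of_forall hb)
      simpa using this
    have b1 : |∫ ω, fS S t e ω * fS S t e ω ∂S.P| ≤ C2 ^ 2 := bi fun ω => by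
      rw [abs_mul, sq]; exact mul_le_mul (h2 _ _ _) (h2 _ _ _) (abs_nonneg _) hC2.le
    have b2 : |(∫ ω, fS S t e ω ∂S.P) * ∫ ω, fS S t e ω ∂S.P| ≤ C2 ^ 2 := by
      rw [abs_mul, sq]
      exact mul_le_mul (bi (h2 _ _)) (bi (h2 _ _)) (abs_nonneg _) hC2.le
    rw [abs_le] at *
    constructor <;> linarith [b1.1, b1.2, b2.1, b2.2]
  · obtain ⟨p, k, hp, hk, h3, h4, h5⟩ := exists_geo_edges S.rt e e' hne
    have h6 := h t p k hp hk
    rw [h5, h3, h4]
    simp only [fS_mk]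
    refine h6.trans ?_
    apply mul_le_mul_of_nonneg_right _ (by positivity)
    nlinarith [sq_nonneg C2]

theorem C0_bound {C r : ℝ} (t : ℝ≥0) (𝓖 : SubF V)
    (h : ∀ (e e' : S.G.edgeSet),
      |∫ ω, fS S t e ω * fS S t e' ω ∂S.P - (∫ ω, fS S t e ω ∂S.P) * ∫ ω, fS S t e' ω ∂S.P| ≤
        C * r ^ (S.G.lineGraph.dist e e')) (s : Finset S.G.edgeSet) (x : S.G.edgeSet → ℝ) :
    ∫ ω, (∑ e ∈ s, x e * gS S t e ω) ^ 2 ∂(S.P2 𝓖) ≤
      (2 * C) * ∑ e ∈ s, ∑ e' ∈ s, |x e| * |x e'| * r ^ (S.G.lineGraph.dist e e') := by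
  obtain ⟨C2, hC2, h2⟩ := fS_bdd S
  have hm : ∀ e : Sym2 V, MemLp (fS S t e) 2 S.P := fun e =>
    memLp_of_bdd (measurable_fS S t e) (h2 t e)
  have hF : MemLp (fun ω => ∑ e ∈ s, x e * fS S t e ω) 2 S.P :=
    memLp_finsetSum _ fun e _ => (hm e).const_mul _
  have e1 : ∫ ω, (∑ e ∈ s, x e * gS S t e ω) ^ 2 ∂(S.P2 𝓖) =
      S.V2 𝓖.1 (fun ω => ∑ e ∈ s, x e * fS S t e ω) := by
    rw [S.V2_eq 𝓖 hF]
    congr 1
    funext p
    rw [← Finset.sum_sub_distrib]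
    congr 1
    refine Finset.sum_congr rfl fun e _ => ?_
    rw [gS_eq]; ring
  rw [e1]
  refine (S.V2_le_var 𝓖 hF).trans ?_
  have i1 : ∀ e : Sym2 V, Integrable (fS S t e) S.P := fun e => (hm e).integrable (by norm_num)
  have i2 : ∀ e e' : Sym2 V, Integrable (fun ω => fS S t e ω * fS S t e' ω) S.P := fun e e' =>
    (hm e).integrable_mul (hm e')
  have e2 : ∫ ω, (∑ e ∈ s, x e * fS S t e ω) ^ 2 ∂S.P =
      ∑ e ∈ s, ∑ e' ∈ s, x e * x e' * ∫ ω, fS S t e ω * fS S t e' ω ∂S.P := by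
    have : ∀ ω, (∑ e ∈ s, x e * fS S t e ω) ^ 2 =
        ∑ e ∈ s, ∑ e' ∈ s, x e * x e' * (fS S t e ω * fS S t e' ω) := by
      intro ω
      rw [sq, Finset.sum_mul_sum]
      refine Finset.sum_congr rfl fun e _ => Finset.sum_congr rfl fun e' _ => ?_
      ring
    simp_rw [this]
    rw [integral_finsetSum s (fun e _ => integrable_finsetSum s fun e' _ =>
      (i2 (e : Sym2 V) (e' : Sym2 V)).const_mul (x e * x e'))]
    refine Finset.sum_congr rfl fun e _ => ?_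
    rw [integral_finsetSum s (fun e' _ => (i2 (e : Sym2 V) (e' : Sym2 V)).const_mul (x e * x e'))]
    refine Finset.sum_congr rfl fun e' _ => ?_
    rw [integral_const_mul]
  have e3 : (∫ ω, ∑ e ∈ s, x e * fS S t e ω ∂S.P) ^ 2 =
      ∑ e ∈ s, ∑ e' ∈ s, x e * x e' * ((∫ ω, fS S t e ω ∂S.P) * ∫ ω, fS S t e' ω ∂S.P) := by
    rw [integral_finsetSum s (fun e _ => (i1 (e : Sym2 V)).const_mul (x e)), sq,
      Finset.sum_mul_sum]
    refine Finset.sum_congr rfl fun e _ => Finset.sum_congr rfl fun e' _ => ?_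
    rw [integral_const_mul, integral_const_mul]
    ring
  rw [e2, e3, ← Finset.sum_sub_distrib, mul_assoc]
  apply mul_le_mul_of_nonneg_left _ (by norm_num)
  rw [Finset.mul_sum]
  refine Finset.sum_le_sum fun e _ => ?_
  rw [← Finset.sum_sub_distrib, Finset.mul_sum]
  refine Finset.sum_le_sum fun e' _ => ?_
  rw [← mul_sub]
  refine (le_abs_self _).trans ?_
  rw [abs_mul, abs_mul]
  calc |x e| * |x e'| * _ ≤ |x e| * |x e'| * (C * r ^ (S.G.lineGraph.dist e e')) :=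
        mul_le_mul_of_nonneg_left (h e e') (by positivity)
    _ = _ := by ring

end DECORaux

namespace Setup

variable {V : Type} [DecidableEq V] [Countable V] (S : Setup V)

/-- `E₂ g_e²` does not depend on the edge. -/
theorem gE_sq_eq (t : ℝ≥0) (𝓖 : SubF V) (hinv : S.Inv 𝓖.1) {x y x' y' : V} (h : S.G.Adj x y)
    (h' : S.G.Adj x' y') :
    ∫ p, S.gE t x y p ^ 2 ∂(S.P2 𝓖) = ∫ p, S.gE t x' y' p ^ 2 ∂(S.P2 𝓖) := by
  obtain ⟨γ, h1, h2⟩ := exists_aut_pair S.rt (v := x') (u := y') (v' := x) (u' := y) (by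
    rw [SimpleGraph.dist_eq_one_iff_adj.2 h, SimpleGraph.dist_eq_one_iff_adj.2 h'])
  have := DECORaux.integral_aut S t 𝓖 hinv γ x' y' x' y'
  rw [h1, h2] at this
  simpa only [sq] using this

theorem decor : ∃ C : ℝ, 0 < C ∧ ∀ (t : ℝ≥0) (𝓖 : SubF V), S.Inv 𝓖.1 →
    ∀ (p : ℕ → V) (k : ℕ), IsGeo S.G p k → ∀ x y : V, S.G.Adj x y →
    ∫ ω, (∑ i ∈ range k, S.gE t (p i) (p (i + 1)) ω) ^ 2 ∂(S.P2 𝓖) ≤
      C * k * ∫ ω, S.gE t x y ω ^ 2 ∂(S.P2 𝓖) := by
  obtain ⟨C1, r, hC1, hr0, hr1, h1⟩ := DECORaux.cov_fS S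
  obtain ⟨C2, hC2, h2⟩ := DECORaux.fS_bdd S
  obtain ⟨C, hC, h⟩ := line_decorrelation S.rt r hr0 hr1
  refine ⟨C, hC, fun t 𝓖 hinv p k hp x y hxy => ?_⟩
  have := h (Om V × Om V) inferInstance (S.P2 𝓖) (fun e => DECORaux.gS S t e) (fun e => by
      refine DECORaux.memLp_of_bdd (C := 2 * C2) (DECORaux.measurable_gS S t e) fun q => ?_
      rw [DECORaux.gS_eq]
      have a1 := abs_le.1 (h2 t e q.1)
      have a2 := abs_le.1 (h2 t e q.2)
      rw [abs_le]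
      constructor <;> linarith [a1.1, a1.2, a2.1, a2.2])
    (DECORaux.cc S t 𝓖) (fun e e' => DECORaux.cc_eq_edge S t 𝓖 hinv e e') (2 * C1)
    (fun s x => DECORaux.C0_bound S t 𝓖 (h1 t) s x) p k hp
  have e1 : ∀ ω, ∑ i : Fin k, DECORaux.gS S t (s(p i, p (i + 1))) ω =
      ∑ i ∈ range k, S.gE t (p i) (p (i + 1)) ω := by
    intro ω
    rw [Finset.sum_range]
    rfl
  have e2 : DECORaux.cc S t 𝓖 0 = ∫ ω, S.gE t x y ω ^ 2 ∂(S.P2 𝓖) := by
    rw [← DECORaux.cc_eq S t 𝓖 hinv (n := 0) (DECORaux.isGeo_edge S hxy)]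
    simp [sq]
  rw [e2] at this
  simp only [e1] at this
  exact this

end Setup
end Crest.Agent.R160
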