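import Mathlib

/-! Row 160 (S0241): shared definitions.  See the text of the proof in `ideas` (row 160) and in
`Crest/Agent/R160/README.lean`.

`S : Setup V` bundles a `d`-regular tree `G` on a countable type `V` (`d ≥ 3`), `0 < θ`,
`θ^2 (d-1) ≤ 1`, a root `o` and a measurable "Brownian code" `β`. -/

set_option autoImplicit false
open MeasureTheory ProbabilityTheory Filter Finset
open scoped ENNReal NNReal Topology

namespace Crest.Agent.R160

/-! ### Graph -/

section Graph
variable {V : Type}

/-- `G` is a `d`-regular tree, `d ≥ 3`. -/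
structure IsRT (d : ℕ) (G : SimpleGraph V) [G.LocallyFinite] : Prop where
  three_le : 3 ≤ d
  tree : G.IsTree
  reg : G.IsRegularOfDegree d

variable (G : SimpleGraph V)

/-- `p 0, …, p k` is a geodesic. -/
def IsGeo (p : ℕ → V) (k : ℕ) : Prop :=
  (∀ i < k, G.Adj (p i) (p (i + 1))) ∧ ∀ i ≤ k, ∀ j ≤ k, G.dist (p i) (p j) = (i - j) + (j - i)

open Classical in
/-- the `i`-th vertex of the path from `v` to `u` (it is `u` for `i ≥ dist v u`). -/
noncomputable def geo (v u : V) (i : ℕ) : V :=
  if h : ∃ p : G.Walk v u, p.IsPath then h.choose.getVert i else v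

/-- the side of `y` of the edge `{x, y}`. -/
def branch (x y : V) : Set V := {z | G.dist z y < G.dist z x}

open Classical in
/-- the sphere of radius `k` around `v`. -/
noncomputable def sph (v : V) (k : ℕ) : Finset V :=
  if h : {u | G.dist v u = k}.Finite then h.toFinset else ∅

open Classical in
/-- the vertices at distance `k` from `y` on the side of `y` of the edge `{x, y}`. -/
noncomputable def bsph (x y : V) (k : ℕ) : Finset V := (sph G y k).filter (· ∈ branch G x y)

end Graph

/-! ### Deterministic functions of a field `X : V → ℝ` -/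

/-- `gf θ h = artanh (θ tanh h)`. -/
noncomputable def gf (θ h : ℝ) : ℝ := Real.artanh (θ * Real.tanh h)

/-- `phi θ M = (1 - M^2) / (1 - θ^2 M^2)`. -/
noncomputable def phi (θ M : ℝ) : ℝ := (1 - M ^ 2) / (1 - θ ^ 2 * M ^ 2)

/-- A measurable odd coding of a (pre-)Brownian motion by countably many standard Gaussians. -/
structure BM where
  b : ℝ≥0 → (ℕ → ℝ) → ℝ
  meas : ∀ t, Measurable (b t)
  odd : ∀ t ξ, b t (-ξ) = - b t ξ
  zero : ∀ ξ, b 0 ξ = 0
  pre : IsPreBrownianReal b (Measure.infinitePi fun _ : ℕ => gaussianReal 0 1)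

structure Setup (V : Type) [DecidableEq V] where
  G : SimpleGraph V
  lf : G.LocallyFinite
  d : ℕ
  rt : IsRT d G
  θ : ℝ
  θpos : 0 < θ
  θle : θ ^ 2 * ((d : ℝ) - 1) ≤ 1
  o : V
  β : BM

attribute [instance] Setup.lf

/-- `sg b = 1` or `-1`. -/
def sg (b : Bool) : ℝ := if b then 1 else -1

/-- law of a `Bool` which is `true` with probability `p`. -/
noncomputable def coin (p : ℝ) : Measure Bool :=
  ENNReal.ofReal p • Measure.dirac true + ENNReal.ofReal (1 - p) • Measure.dirac false

/-- law of countably many standard Gaussians. -/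
noncomputable abbrev gmeas : Measure (ℕ → ℝ) := Measure.infinitePi fun _ : ℕ => gaussianReal 0 1

/-- The probability space: coins for the root spin (`none`) and for the edges, and for every
vertex the Gaussians that code its Brownian motion. -/
abbrev Om (V : Type) := (Option (Sym2 V) → Bool) × (V → ℕ → ℝ)

/-- the ambient sigma-algebra of `Om V` (to be used when a sub-sigma-algebra is in scope). -/
@[reducible] def mOm (V : Type) : MeasurableSpace (Om V) := inferInstance

namespace Setup
variable {V : Type} [DecidableEq V] (S : Setup V)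

/-- cavity field of `y` seen from `x`, computed to depth `n`. -/
noncomputable def fld : ℕ → V → V → (V → ℝ) → ℝ
  | 0, _, _, _ => 0
  | n + 1, x, y, X => X y + ∑ z ∈ (S.G.neighborFinset y).erase x, gf S.θ (fld n y z X)

/-- cavity field of `y` seen from `x` (uses the field on the branch of `y` only). -/
noncomputable def cav (x y : V) (X : V → ℝ) : ℝ := limsup (fun n => S.fld n x y X) atTop

/-- full field at `v`. -/
noncomputable def full (v : V) (X : V → ℝ) : ℝ :=
  X v + ∑ z ∈ S.G.neighborFinset v, gf S.θ (S.cav v z X)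

/-- message from `y` to `x`. -/
noncomputable def msg (x y : V) (X : V → ℝ) : ℝ := Real.tanh (S.cav x y X)

/-- magnetisation at `v`. -/
noncomputable def mag (v : V) (X : V → ℝ) : ℝ := Real.tanh (S.full v X)

/-- slope of (the conditional mean of) the spin at `y` with respect to the spin of its
neighbour `x`. -/
noncomputable def slope (x y : V) (X : V → ℝ) : ℝ := S.θ * phi S.θ (S.msg x y X)

/-- product of the slopes along the path from `v` to `u` (all messages directed to `v`). -/
noncomputable def aa (v u : V) (X : V → ℝ) : ℝ :=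
  ∏ i ∈ range (S.G.dist v u), S.slope (geo S.G v u i) (geo S.G v u (i + 1)) X

/-- conditional covariance of the spins at `v` and `u`. -/
noncomputable def cv (v u : V) (X : V → ℝ) : ℝ := (1 - S.mag v X ^ 2) * S.aa v u X

/-- shell energy. -/
noncomputable def HH (v : V) (K : ℕ) (X : V → ℝ) : ℝ := ∑ w ∈ sph S.G v K, S.aa v w X ^ 2

/-- shell energy at `y` away from `x`. -/
noncomputable def Hb (x y : V) (K : ℕ) (X : V → ℝ) : ℝ := ∑ w ∈ bsph S.G x y K, S.aa y w X ^ 2

/-- the cavity fields converge. -/
def Good (X : V → ℝ) : Prop :=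
  ∀ x y, S.G.Adj x y → Tendsto (fun n => S.fld n x y X) atTop (𝓝 (S.cav x y X))

/-! ### Probability -/

/-- the probability measure on `Om V`. -/
noncomputable def P : Measure (Om V) :=
  (Measure.infinitePi fun o : Option (Sym2 V) => coin (o.elim (1 / 2) fun _ => (1 + S.θ) / 2)).prod
    (Measure.infinitePi fun _ : V => gmeas)

/-- the Ising spin at `v`. -/
noncomputable def spin (v : V) (ω : Om V) : ℝ :=
  sg (ω.1 none) * ∏ i ∈ range (S.G.dist S.o v), sg (ω.1 (some s(geo S.G S.o v i, geo S.G S.o v (i + 1))))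

/-- the Brownian motion at `v` -/
noncomputable def B (t : ℝ≥0) (v : V) (ω : Om V) : ℝ := S.β.b t (ω.2 v)

/-- the observation process `X_v(t) = t τ_v + B_v(t)`. -/
noncomputable def XX (t : ℝ≥0) (v : V) (ω : Om V) : ℝ := t * S.spin v ω + S.B t v ω

/-- the field of observations at times `T v`. -/
noncomputable def XT (T : V → ℝ≥0) (ω : Om V) : V → ℝ := fun v => S.XX (T v) v ω

/-- the field of observations at time `t`. -/
noncomputable def Xt (t : ℝ≥0) (ω : Om V) : V → ℝ := fun v => S.XX t v ω

/-- information of the observations up to times `T v`, `v ∈ R`. -/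
@[reducible] noncomputable def FF (T : V → ℝ≥0) (R : Set V) : MeasurableSpace (Om V) :=
  ⨆ v ∈ R, ⨆ s ∈ Set.Iic (T v), MeasurableSpace.comap (S.XX s v) inferInstance

/-- information at time `t`. -/
@[reducible] noncomputable def Ft (t : ℝ≥0) : MeasurableSpace (Om V) := S.FF (fun _ => t) Set.univ

/-- the magnetisation at time `t`. -/
noncomputable def m (t : ℝ≥0) (v : V) (ω : Om V) : ℝ := S.mag v (S.Xt t ω)

/-- the conditional covariance at time `t`. -/
noncomputable def A (t : ℝ≥0) (v u : V) (ω : Om V) : ℝ := S.cv v u (S.Xt t ω)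

/-- action of automorphisms -/
noncomputable def act (γ : S.G ≃g S.G) (ω : Om V) : Om V :=
  (fun e => match e with
    | none => decide (S.spin (γ S.o) ω = 1)
    | some e => ω.1 (some (e.map γ)), fun v => ω.2 (γ v))

/-- the `n`-th Riemann sum of `∫_0^t m_v`. -/
noncomputable def Iriem (n : ℕ) (t : ℝ≥0) (v : V) (ω : Om V) : ℝ :=
  ∑ j ∈ range (2 ^ n), (t : ℝ) / 2 ^ n * S.m (((j : ℝ≥0) + 1) * t / 2 ^ n) v ω

/-- `∫_0^t m_v`. -/
noncomputable def Iint (t : ℝ≥0) (v : V) (ω : Om V) : ℝ := limsup (fun n => S.Iriem n t v ω) atTop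

/-- the innovation process -/
noncomputable def W (t : ℝ≥0) (v : V) (ω : Om V) : ℝ := S.XX t v ω - S.Iint t v ω

/-- the information of the innovation process up to time `t`. -/
@[reducible] noncomputable def Wt (t : ℝ≥0) : MeasurableSpace (Om V) :=
  ⨆ v : V, ⨆ s ∈ Set.Iic t, MeasurableSpace.comap (S.W s v) inferInstance

/-- the whole information of the innovation process. -/
@[reducible] noncomputable def Winf : MeasurableSpace (Om V) := ⨆ t : ℝ≥0, S.Wt t

/-- `q(t) = E m_o(t)^2`. -/
noncomputable def q (t : ℝ≥0) : ℝ := ∫ ω, S.m t S.o ω ^ 2 ∂S.P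

/-- `E (E[A_vu(t) | W_t])^2`, `E (A_vu(t))^2` etc: conditional variance (times two) of `f` given `𝓖`. -/
noncomputable def V2 (𝓖 : MeasurableSpace (Om V)) (f : Om V → ℝ) : ℝ :=
  2 * (∫ ω, f ω ^ 2 ∂S.P - ∫ ω, (S.P[f | 𝓖] ω) ^ 2 ∂S.P)

end Setup

end Crest.Agent.R160
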