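import Crest.Agent.R160.Defs

/-! Row 160, piece DET-A: one-variable functions. -/

set_option autoImplicit false
open Finset Filter
open scoped Topology

namespace Crest.Agent.R160

variable {V : Type} [DecidableEq V] (S : Setup V)

/-! ### DET-A: one-variable functions -/

namespace Setup

theorem d_three : 3 ≤ S.d := S.rt.three_le

theorem theta_sq_le_half : S.θ ^ 2 ≤ 1 / 2 := by
  have h1 : (3 : ℝ) ≤ S.d := by exact_mod_cast S.d_three
  have h2 := S.θle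
  have h3 : S.θ ^ 2 * 2 ≤ S.θ ^ 2 * ((S.d : ℝ) - 1) :=
    mul_le_mul_of_nonneg_left (by linarith) (sq_nonneg _)
  linarith

theorem theta_lt_one : S.θ < 1 := by
  have h := S.theta_sq_le_half
  have h0 := S.θpos
  nlinarith

end Setup

namespace DetAaux

theorem hasDerivAt_tanh (x : ℝ) : HasDerivAt Real.tanh (1 - Real.tanh x ^ 2) x := by
  have h1 : Real.tanh = fun y => Real.sinh y / Real.cosh y := by
    funext y; exact Real.tanh_eq_sinh_div_cosh y
  have h2 := (Real.hasDerivAt_sinh x).fun_div (Real.hasDerivAt_cosh x) (Real.cosh_pos x).ne'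
  have hc := (Real.cosh_pos x).ne'
  have h3 : 1 - (Real.sinh x / Real.cosh x) ^ 2 =
      (Real.cosh x * Real.cosh x - Real.sinh x * Real.sinh x) / Real.cosh x ^ 2 := by
    field_simp
  rw [h1]
  simp only
  rw [h3]
  exact h2

theorem hasDerivAt_artanh {x : ℝ} (hx : |x| < 1) : HasDerivAt Real.artanh (1 / (1 - x ^ 2)) x := by
  rw [abs_lt] at hx
  have h1 : HasDerivAt (fun y : ℝ => 1 / 2 * (Real.log (1 + y) - Real.log (1 - y)))
      (1 / 2 * ((0 + 1) / (1 + x) - (0 - 1) / (1 - x))) x := by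
    apply HasDerivAt.const_mul
    apply HasDerivAt.sub
    · exact ((hasDerivAt_const x (1 : ℝ)).add (hasDerivAt_id x)).log
        (show (1 : ℝ) + x ≠ 0 by linarith)
    · exact ((hasDerivAt_const x (1 : ℝ)).sub (hasDerivAt_id x)).log
        (show (1 : ℝ) - x ≠ 0 by linarith)
  have h2 : Real.artanh =ᶠ[𝓝 x] fun y : ℝ => 1 / 2 * (Real.log (1 + y) - Real.log (1 - y)) := by
    filter_upwards [isOpen_Ioo.mem_nhds (show x ∈ Set.Ioo (-1) 1 from hx)] with y hy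
    rw [Real.artanh_eq_half_log ⟨hy.1.le, hy.2.le⟩, Real.log_div]
    · linarith [hy.1]
    · linarith [hy.2]
  have h3 := h1.congr_of_eventuallyEq h2
  have e1 : (1 + x) ≠ 0 := by linarith
  have e2 : (1 - x) ≠ 0 := by linarith
  have e5 : 1 / (1 - x ^ 2) = 1 / 2 * ((0 + 1) / (1 + x) - (0 - 1) / (1 - x)) := by
    have e3 : 1 - x ^ 2 = (1 + x) * (1 - x) := by ring
    rw [e3, div_sub_div _ _ e1 e2]
    have e4 : (0 + 1) * (1 - x) - (1 + x) * (0 - 1) = 2 := by ring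
    rw [e4]
    ring
  rw [e5]
  exact h3

theorem abs_theta_tanh {θ : ℝ} (h0 : 0 < θ) (a : ℝ) : |θ * Real.tanh a| < θ := by
  rw [abs_mul, abs_of_pos h0]
  exact mul_lt_of_lt_one_right h0 (Real.abs_tanh_lt_one a)

theorem hasDerivAt_gf {θ : ℝ} (h0 : 0 < θ) (h1 : θ < 1) (a : ℝ) :
    HasDerivAt (gf θ) (1 / (1 - (θ * Real.tanh a) ^ 2) * (θ * (1 - Real.tanh a ^ 2))) a := by
  have h2 : HasDerivAt Real.artanh (1 / (1 - (θ * Real.tanh a) ^ 2)) (θ * Real.tanh a) :=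
    hasDerivAt_artanh ((abs_theta_tanh h0 a).trans h1)
  have h3 : HasDerivAt (fun y => θ * Real.tanh y) (θ * (1 - Real.tanh a ^ 2)) a :=
    (hasDerivAt_tanh a).const_mul θ
  exact h2.comp a h3

theorem artanh_odd (x : ℝ) : Real.artanh (-x) = - Real.artanh x := by
  unfold Real.artanh
  have : (1 + -x) / (1 - -x) = ((1 + x) / (1 - x))⁻¹ := by
    rw [inv_div]; congr 1; ring
  rw [this, Real.sqrt_inv, Real.log_inv]

theorem one_sub_pos {θ x : ℝ} (_h0 : 0 < θ) (_h1 : θ < 1) (hx : |x| ≤ 1) :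
    1 - θ ^ 2 ≤ 1 - θ ^ 2 * x := by
  have h2 : x ≤ 1 := (abs_le.1 hx).2
  have h3 : 0 ≤ θ ^ 2 := sq_nonneg _
  nlinarith

end DetAaux

open DetAaux

theorem gf_lip {θ : ℝ} (h0 : 0 < θ) (h1 : θ < 1) (a b : ℝ) : |gf θ a - gf θ b| ≤ θ * |a - b| := by
  have := Convex.norm_image_sub_le_of_norm_hasDerivWithin_le (f := gf θ)
    (f' := fun a => 1 / (1 - (θ * Real.tanh a) ^ 2) * (θ * (1 - Real.tanh a ^ 2)))
    (s := Set.univ) (C := θ) (x := b) (y := a)
    (fun x _ => (hasDerivAt_gf h0 h1 x).hasDerivWithinAt) (fun x _ => by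
      have ht := Real.abs_tanh_lt_one x
      set t := Real.tanh x
      have ht2 : t ^ 2 < 1 := (sq_lt_one_iff_abs_lt_one t).2 ht
      have hθ2 : θ ^ 2 < 1 := by nlinarith
      have hpos : 0 < 1 - (θ * t) ^ 2 := by
        rw [mul_pow]
        nlinarith [sq_nonneg t, sq_nonneg θ]
      rw [Real.norm_eq_abs, abs_of_nonneg (by
        apply mul_nonneg (by positivity)
        apply mul_nonneg h0.le
        linarith), one_div, inv_mul_le_iff₀ hpos]
      rw [mul_comm (1 - (θ * t) ^ 2) θ]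
      apply mul_le_mul_of_nonneg_left _ h0.le
      rw [mul_pow]
      nlinarith [sq_nonneg t]) convex_univ (Set.mem_univ _) (Set.mem_univ _)
  simpa using this

theorem gf_odd (θ a : ℝ) : gf θ (-a) = - gf θ a := by
  unfold gf
  rw [Real.tanh_neg, mul_neg, artanh_odd]

theorem gf_abs_le {θ : ℝ} (h0 : 0 < θ) (h1 : θ < 1) (a : ℝ) :
    |gf θ a| ≤ Real.artanh θ ∧ |gf θ a| ≤ θ * |a| := by
  constructor
  · have key : ∀ a, gf θ a ≤ Real.artanh θ := by
      intro a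
      have h := abs_lt.1 (abs_theta_tanh h0 a)
      exact Real.artanh_le_artanh (by linarith) h1 h.2.le
    rw [abs_le]
    constructor
    · have := key (-a)
      rw [gf_odd] at this
      linarith
    · exact key a
  · have := gf_lip h0 h1 a 0
    simpa [gf] using this

theorem gf_continuous {θ : ℝ} (h0 : 0 < θ) (h1 : θ < 1) : Continuous (gf θ) :=
  continuous_iff_continuousAt.2 fun a => (hasDerivAt_gf h0 h1 a).continuousAt

theorem tanh_gf {θ : ℝ} (h0 : 0 < θ) (h1 : θ < 1) (a : ℝ) :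
    Real.tanh (gf θ a) = θ * Real.tanh a := by
  have h := abs_lt.1 (abs_theta_tanh h0 a)
  exact Real.tanh_artanh ⟨by linarith, by linarith⟩

/-- `|artanh(θ tanh h)| ≤ C |tanh h|` -/
theorem gf_le_tanh {θ : ℝ} (h0 : 0 < θ) (h1 : θ < 1) :
    ∃ C : ℝ, 0 < C ∧ ∀ a, |gf θ a| ≤ C * |Real.tanh a| := by
  have hθ2 : 0 < 1 - θ ^ 2 := by nlinarith
  refine ⟨1 / (1 - θ ^ 2) * θ, by positivity, fun a => ?_⟩
  have hmem : ∀ x ∈ Set.Icc (-θ) θ, |x| ≤ θ := fun x hx => abs_le.2 hx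
  have h := abs_theta_tanh h0 a
  have := Convex.norm_image_sub_le_of_norm_hasDerivWithin_le (f := Real.artanh)
    (f' := fun x => 1 / (1 - x ^ 2))
    (s := Set.Icc (-θ) θ) (C := 1 / (1 - θ ^ 2)) (x := 0) (y := θ * Real.tanh a)
    (fun x hx => (hasDerivAt_artanh ((hmem x hx).trans_lt h1)).hasDerivWithinAt) (fun x hx => by
      have h2 : x ^ 2 ≤ θ ^ 2 := by
        rw [← sq_abs x]
        exact pow_le_pow_left₀ (abs_nonneg _) (hmem x hx) 2
      have h3 : 0 < 1 - x ^ 2 := by linarith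
      rw [Real.norm_eq_abs, abs_of_pos (by positivity)]
      exact one_div_le_one_div_of_le hθ2 (by linarith)) (convex_Icc _ _)
      ⟨by linarith, by linarith⟩ (abs_le.1 h.le)
  rw [Real.artanh_zero, sub_zero, sub_zero, Real.norm_eq_abs, Real.norm_eq_abs, abs_mul,
    abs_of_pos h0] at this
  calc |gf θ a| ≤ 1 / (1 - θ ^ 2) * (θ * |Real.tanh a|) := this
    _ = 1 / (1 - θ ^ 2) * θ * |Real.tanh a| := by ring

theorem phi_mem {θ M : ℝ} (h0 : 0 < θ) (h1 : θ < 1) (hM : |M| < 1) :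
    0 < phi θ M ∧ phi θ M ≤ 1 - (1 - θ ^ 2) * M ^ 2 ∧ phi θ M ≤ 1 := by
  have hM2 : M ^ 2 < 1 := (sq_lt_one_iff_abs_lt_one M).2 hM
  have hM0 : 0 ≤ M ^ 2 := sq_nonneg _
  have hθ2 : θ ^ 2 < 1 := by nlinarith
  have hθ0 : 0 < θ ^ 2 := by positivity
  have hpos : 0 < 1 - θ ^ 2 * M ^ 2 := by nlinarith
  have h2 : phi θ M ≤ 1 - (1 - θ ^ 2) * M ^ 2 := by
    unfold phi
    rw [div_le_iff₀ hpos]
    nlinarith [mul_nonneg (mul_nonneg (sub_nonneg.2 hθ2.le) hθ0.le) (mul_nonneg hM0 hM0)]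
  refine ⟨div_pos (by linarith) hpos, h2, ?_⟩
  have : 0 ≤ (1 - θ ^ 2) * M ^ 2 := mul_nonneg (by linarith) hM0
  linarith

theorem phi_lip {θ : ℝ} (h0 : 0 < θ) (h1 : θ < 1) : ∃ C : ℝ, 0 < C ∧ ∀ M M' : ℝ, |M| < 1 → |M'| < 1 →
    |phi θ M - phi θ M'| ≤ C * |M - M'| := by
  have hθ2 : 0 < 1 - θ ^ 2 := by nlinarith
  refine ⟨2 / (1 - θ ^ 2), by positivity, ?_⟩
  intro M M' hM hM'
  have hM2 : M ^ 2 < 1 := (sq_lt_one_iff_abs_lt_one M).2 hM
  have hM2' : M' ^ 2 < 1 := (sq_lt_one_iff_abs_lt_one M').2 hM'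
  have hp : 1 - θ ^ 2 ≤ 1 - θ ^ 2 * M ^ 2 := by nlinarith [sq_nonneg θ, sq_nonneg M]
  have hp' : 1 - θ ^ 2 ≤ 1 - θ ^ 2 * M' ^ 2 := by nlinarith [sq_nonneg θ, sq_nonneg M']
  have hq : 0 < 1 - θ ^ 2 * M ^ 2 := by linarith
  have hq' : 0 < 1 - θ ^ 2 * M' ^ 2 := by linarith
  have e : phi θ M - phi θ M' =
      (1 - θ ^ 2) * ((M' - M) * (M' + M)) / ((1 - θ ^ 2 * M ^ 2) * (1 - θ ^ 2 * M' ^ 2)) := by
    unfold phi
    rw [div_sub_div _ _ hq.ne' hq'.ne']
    congr 1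
    ring
  rw [e, abs_div, abs_mul, abs_of_pos hθ2, abs_mul, abs_of_pos (mul_pos hq hq')]
  rw [div_le_iff₀ (mul_pos hq hq')]
  have h3 : |M' + M| ≤ 2 := by
    have := abs_add_le M' M
    linarith
  have h4 : (1 - θ ^ 2) * (1 - θ ^ 2) ≤ (1 - θ ^ 2 * M ^ 2) * (1 - θ ^ 2 * M' ^ 2) :=
    mul_le_mul hp hp' hθ2.le hq.le
  rw [abs_sub_comm M' M]
  calc (1 - θ ^ 2) * (|M - M'| * |M' + M|) ≤ (1 - θ ^ 2) * (|M - M'| * 2) :=
        mul_le_mul_of_nonneg_left (mul_le_mul_of_nonneg_left h3 (abs_nonneg _)) hθ2.le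
    _ = 2 / (1 - θ ^ 2) * |M - M'| * ((1 - θ ^ 2) * (1 - θ ^ 2)) := by field_simp
    _ ≤ 2 / (1 - θ ^ 2) * |M - M'| * ((1 - θ ^ 2 * M ^ 2) * (1 - θ ^ 2 * M' ^ 2)) :=
        mul_le_mul_of_nonneg_left h4 (by positivity)

/-- INV: the messages on an edge are Lipschitz functions of the magnetisations at its end points
(`N = 1 + θ a b`; solve the linear system
`N N' Δm = Δa (1 - θ² b b') + θ Δb (1 - a a')`, `N N' Δn = Δb (1 - θ² a a') + θ Δa (1 - b b')`,
of determinant `(1-θ²)(1-θ² a a' b b')`). -/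
theorem inv_lip {θ : ℝ} (h0 : 0 < θ) (h1 : θ < 1) : ∃ C : ℝ, 0 < C ∧
    ∀ a b a' b' m n m' n' : ℝ, |a| < 1 → |b| < 1 → |a'| < 1 → |b'| < 1 →
      m * (1 + θ * a * b) = a + θ * b → n * (1 + θ * a * b) = b + θ * a →
      m' * (1 + θ * a' * b') = a' + θ * b' → n' * (1 + θ * a' * b') = b' + θ * a' →
      |a - a'| ≤ C * (|m - m'| + |n - n'|) ∧ |b - b'| ≤ C * (|m - m'| + |n - n'|) := by
  have hθ2 : 0 < 1 - θ ^ 2 := by nlinarith
  refine ⟨8 / ((1 - θ ^ 2) * (1 - θ ^ 2)), by positivity, ?_⟩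
  -- one half
  have key : ∀ a b a' b' m n m' n' : ℝ, |a| < 1 → |b| < 1 → |a'| < 1 → |b'| < 1 →
      m * (1 + θ * a * b) = a + θ * b → n * (1 + θ * a * b) = b + θ * a →
      m' * (1 + θ * a' * b') = a' + θ * b' → n' * (1 + θ * a' * b') = b' + θ * a' →
      |a - a'| ≤ 8 / ((1 - θ ^ 2) * (1 - θ ^ 2)) * (|m - m'| + |n - n'|) := by
    intro a b a' b' m n m' n' ha hb ha' hb' e1 e2 e3 e4
    have hprod : ∀ x y : ℝ, |x| < 1 → |y| < 1 → |x * y| ≤ 1 := by
      intro x y hx hy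
      rw [abs_mul]
      exact mul_le_one₀ hx.le (abs_nonneg _) hy.le
    have hab := hprod a b ha hb
    have hab' := hprod a' b' ha' hb'
    have haa := hprod a a' ha ha'
    have hbb := hprod b b' hb hb'
    have h4 : |(a * b) * (a' * b')| ≤ 1 := by
      rw [abs_mul]
      exact mul_le_one₀ hab (abs_nonneg _) hab'
    have hθabs : |θ| = θ := abs_of_pos h0
    have hN : |1 + θ * a * b| ≤ 2 := by
      have : |θ * a * b| ≤ 1 := by
        rw [mul_assoc, abs_mul, hθabs]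
        exact mul_le_one₀ h1.le (abs_nonneg _) hab
      have h5 := abs_add_le 1 (θ * a * b)
      rw [abs_one] at h5
      linarith
    have hN' : |1 + θ * a' * b'| ≤ 2 := by
      have : |θ * a' * b'| ≤ 1 := by
        rw [mul_assoc, abs_mul, hθabs]
        exact mul_le_one₀ h1.le (abs_nonneg _) hab'
      have h5 := abs_add_le 1 (θ * a' * b')
      rw [abs_one] at h5
      linarith
    have hθ2' : θ ^ 2 ≤ 1 := by linarith
    have hc1 : |1 - θ ^ 2 * (a * a')| ≤ 2 := by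
      have : |θ ^ 2 * (a * a')| ≤ 1 := by
        rw [abs_mul, abs_of_nonneg (sq_nonneg θ)]
        exact mul_le_one₀ hθ2' (abs_nonneg _) haa
      have h5 := abs_sub 1 (θ ^ 2 * (a * a'))
      rw [abs_one] at h5
      linarith
    have hc2 : |θ * (1 - a * a')| ≤ 2 := by
      have h5 := abs_sub 1 (a * a')
      rw [abs_one] at h5
      rw [abs_mul, hθabs]
      calc θ * |1 - a * a'| ≤ 1 * 2 := by
            apply mul_le_mul h1.le (by linarith) (abs_nonneg _) zero_le_one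
        _ = 2 := by ring
    have hdet : (1 - θ ^ 2) * (1 - θ ^ 2) ≤ (1 - θ ^ 2) * (1 - θ ^ 2 * ((a * b) * (a' * b'))) :=
      mul_le_mul_of_nonneg_left (one_sub_pos h0 h1 h4) hθ2.le
    have hdetpos : 0 < (1 - θ ^ 2) * (1 - θ ^ 2) := mul_pos hθ2 hθ2
    have eq1 : (1 + θ * a * b) * (1 + θ * a' * b') * (m - m') =
        (a - a') * (1 - θ ^ 2 * (b * b')) + θ * (b - b') * (1 - a * a') := by
      linear_combination (1 + θ * a' * b') * e1 - (1 + θ * a * b) * e3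
    have eq2 : (1 + θ * a * b) * (1 + θ * a' * b') * (n - n') =
        (b - b') * (1 - θ ^ 2 * (a * a')) + θ * (a - a') * (1 - b * b') := by
      linear_combination (1 + θ * a' * b') * e2 - (1 + θ * a * b) * e4
    have eq3 : (a - a') * ((1 - θ ^ 2) * (1 - θ ^ 2 * ((a * b) * (a' * b')))) =
        (1 + θ * a * b) * (1 + θ * a' * b') *
          ((m - m') * (1 - θ ^ 2 * (a * a')) - (n - n') * (θ * (1 - a * a'))) := by
      linear_combination (-(1 - θ ^ 2 * (a * a'))) * eq1 + (θ * (1 - a * a')) * eq2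
    have h6 : |a - a'| * ((1 - θ ^ 2) * (1 - θ ^ 2 * ((a * b) * (a' * b')))) ≤
        8 * (|m - m'| + |n - n'|) := by
      have h7 : |a - a'| * ((1 - θ ^ 2) * (1 - θ ^ 2 * ((a * b) * (a' * b')))) =
          |(a - a') * ((1 - θ ^ 2) * (1 - θ ^ 2 * ((a * b) * (a' * b'))))| := by
        rw [abs_mul, abs_of_pos (lt_of_lt_of_le hdetpos hdet)]
      rw [h7, eq3, abs_mul, abs_mul]
      have h8 : |(m - m') * (1 - θ ^ 2 * (a * a')) - (n - n') * (θ * (1 - a * a'))| ≤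
          2 * (|m - m'| + |n - n'|) := by
        refine (abs_sub _ _).trans ?_
        rw [abs_mul (m - m'), abs_mul (n - n')]
        have h9 := mul_le_mul_of_nonneg_left hc1 (abs_nonneg (m - m'))
        have h10 := mul_le_mul_of_nonneg_left hc2 (abs_nonneg (n - n'))
        linarith
      have h11 : |1 + θ * a * b| * |1 + θ * a' * b'| ≤ 2 * 2 :=
        mul_le_mul hN hN' (abs_nonneg _) (by norm_num)
      calc _ ≤ (2 * 2) * (2 * (|m - m'| + |n - n'|)) :=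
            mul_le_mul h11 h8 (abs_nonneg _) (by norm_num)
        _ = 8 * (|m - m'| + |n - n'|) := by ring
    have h12 : |a - a'| * ((1 - θ ^ 2) * (1 - θ ^ 2)) ≤ 8 * (|m - m'| + |n - n'|) :=
      (mul_le_mul_of_nonneg_left hdet (abs_nonneg _)).trans h6
    rw [div_mul_eq_mul_div, le_div_iff₀ hdetpos]
    exact h12
  intro a b a' b' m n m' n' ha hb ha' hb' e1 e2 e3 e4
  refine ⟨key a b a' b' m n m' n' ha hb ha' hb' e1 e2 e3 e4, ?_⟩
  have := key b a b' a' n m n' m' hb ha hb' ha'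
    (by linear_combination e2) (by linear_combination e1) (by linear_combination e4)
    (by linear_combination e3)
  rw [add_comm |m - m'|]
  exact this

/-- if only the message `a` changes, `Δn = θ φ(b) Δm`. -/
theorem one_sided {θ : ℝ} (h0 : 0 < θ) (h1 : θ < 1)
    (a b a' m n m' n' : ℝ) (ha : |a| < 1) (hb : |b| < 1) (ha' : |a'| < 1)
    (h2 : m * (1 + θ * a * b) = a + θ * b) (h3 : n * (1 + θ * a * b) = b + θ * a)
    (h4 : m' * (1 + θ * a' * b) = a' + θ * b) (h5 : n' * (1 + θ * a' * b) = b + θ * a') :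
    n' - n = θ * phi θ b * (m' - m) := by
  have hN : ∀ x : ℝ, |x| < 1 → 0 < 1 + θ * x * b := by
    intro x hx
    have : |θ * x * b| < 1 := by
      rw [mul_assoc, abs_mul, abs_of_pos h0, abs_mul]
      have h6 : |x| * |b| ≤ 1 := mul_le_one₀ hx.le (abs_nonneg _) hb.le
      calc θ * (|x| * |b|) ≤ θ * 1 := mul_le_mul_of_nonneg_left h6 h0.le
        _ < 1 := by linarith
    have := (abs_lt.1 this).1
    linarith
  have hNa := hN a ha
  have hNa' := hN a' ha'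
  have hb2 : b ^ 2 < 1 := (sq_lt_one_iff_abs_lt_one b).2 hb
  have hθ2 : θ ^ 2 < 1 := by nlinarith
  have hq : 0 < 1 - θ ^ 2 * b ^ 2 := by nlinarith [sq_nonneg θ, sq_nonneg b]
  have e1 : (n' - n) * ((1 + θ * a * b) * (1 + θ * a' * b)) = θ * (a' - a) * (1 - b ^ 2) := by
    linear_combination (1 + θ * a * b) * h5 - (1 + θ * a' * b) * h3
  have e2 : (m' - m) * ((1 + θ * a * b) * (1 + θ * a' * b)) = (a' - a) * (1 - θ ^ 2 * b ^ 2) := by
    linear_combination (1 + θ * a * b) * h4 - (1 + θ * a' * b) * h2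
  have e3 : (n' - n) * (1 - θ ^ 2 * b ^ 2) = θ * (1 - b ^ 2) * (m' - m) := by
    apply mul_right_cancel₀ (mul_pos hNa hNa').ne'
    linear_combination (1 - θ ^ 2 * b ^ 2) * e1 - θ * (1 - b ^ 2) * e2
  have e4 : θ * phi θ b * (m' - m) = θ * (1 - b ^ 2) * (m' - m) / (1 - θ ^ 2 * b ^ 2) := by
    unfold phi
    ring
  rw [e4, eq_div_iff hq.ne']
  exact e3

/-- symmetry on an edge: `(1-m²) θ φ(b) = (1-n²) θ φ(a)`. -/
theorem edge_symm {θ : ℝ} (h0 : 0 < θ) (h1 : θ < 1)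
    (a b m n : ℝ) (ha : |a| < 1) (hb : |b| < 1)
    (h2 : m * (1 + θ * a * b) = a + θ * b) (h3 : n * (1 + θ * a * b) = b + θ * a) :
    (1 - m ^ 2) * phi θ b = (1 - n ^ 2) * phi θ a := by
  have hN : 0 < 1 + θ * a * b := by
    have : |θ * a * b| < 1 := by
      rw [mul_assoc, abs_mul, abs_of_pos h0, abs_mul]
      have h6 : |a| * |b| ≤ 1 := mul_le_one₀ ha.le (abs_nonneg _) hb.le
      calc θ * (|a| * |b|) ≤ θ * 1 := mul_le_mul_of_nonneg_left h6 h0.le
        _ < 1 := by linarith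
    have := (abs_lt.1 this).1
    linarith
  have ha2 : a ^ 2 < 1 := (sq_lt_one_iff_abs_lt_one a).2 ha
  have hb2 : b ^ 2 < 1 := (sq_lt_one_iff_abs_lt_one b).2 hb
  have hθ2 : θ ^ 2 < 1 := by nlinarith
  have hqa : 0 < 1 - θ ^ 2 * a ^ 2 := by nlinarith [sq_nonneg θ, sq_nonneg a]
  have hqb : 0 < 1 - θ ^ 2 * b ^ 2 := by nlinarith [sq_nonneg θ, sq_nonneg b]
  have hm : (1 - m ^ 2) * (1 + θ * a * b) ^ 2 = (1 - a ^ 2) * (1 - θ ^ 2 * b ^ 2) := by
    linear_combination (-(m * (1 + θ * a * b) + (a + θ * b))) * h2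
  have hn : (1 - n ^ 2) * (1 + θ * a * b) ^ 2 = (1 - b ^ 2) * (1 - θ ^ 2 * a ^ 2) := by
    linear_combination (-(n * (1 + θ * a * b) + (b + θ * a))) * h3
  have e1 : (1 - m ^ 2) * phi θ b * (1 + θ * a * b) ^ 2 = (1 - a ^ 2) * (1 - b ^ 2) := by
    have : phi θ b * (1 - θ ^ 2 * b ^ 2) = 1 - b ^ 2 := div_mul_cancel₀ _ hqb.ne'
    linear_combination phi θ b * hm + (1 - a ^ 2) * this
  have e2 : (1 - n ^ 2) * phi θ a * (1 + θ * a * b) ^ 2 = (1 - a ^ 2) * (1 - b ^ 2) := by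
    have : phi θ a * (1 - θ ^ 2 * a ^ 2) = 1 - a ^ 2 := div_mul_cancel₀ _ hqa.ne'
    linear_combination phi θ a * hn + (1 - b ^ 2) * this
  apply mul_right_cancel₀ (pow_pos hN 2).ne'
  rw [e1, e2]

end Crest.Agent.R160
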