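import Crest.Agent.R160.Tree
import Crest.Agent.R160.DetA

/-! Row 160, piece DET-B: deterministic facts about messages. -/

set_option autoImplicit false
open Finset Filter
open scoped Topology

namespace Crest.Agent.R160

variable {V : Type} [DecidableEq V] (S : Setup V)

/-! ### DET-B: messages on a good field -/

namespace Detaux

theorem artanh_pos' : 0 < Real.artanh S.θ :=
  Real.artanh_pos ⟨S.θpos, S.theta_lt_one⟩

theorem card_nbr (y : V) : (S.G.neighborFinset y).card = S.d := by
  rw [SimpleGraph.card_neighborFinset_eq_degree]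
  exact S.rt.reg y

theorem tanh_add (x y : ℝ) : Real.tanh (x + y) =
    (Real.tanh x + Real.tanh y) / (1 + Real.tanh x * Real.tanh y) := by
  rw [Real.tanh_eq_sinh_div_cosh, Real.tanh_eq_sinh_div_cosh x, Real.tanh_eq_sinh_div_cosh y,
    Real.sinh_add, Real.cosh_add]
  have h1 := (Real.cosh_pos x).ne'
  have h2 := (Real.cosh_pos y).ne'
  field_simp

theorem abs_limsup_le {u : ℕ → ℝ} {C : ℝ} (h : ∀ n, |u n| ≤ C) : |limsup u atTop| ≤ C := by
  have hb : ∀ n, -C ≤ u n ∧ u n ≤ C := fun n => abs_le.1 (h n)
  rw [abs_le]
  constructor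
  · refine le_limsup_of_le ?_ ?_
    · exact isBoundedUnder_of ⟨C, fun n => (hb n).2⟩
    · intro b hb'
      obtain ⟨n, hn⟩ := hb'.exists
      exact (hb n).1.trans hn
  · refine limsup_le_of_le ?_ ?_
    · exact IsBoundedUnder.isCoboundedUnder_le (isBoundedUnder_of ⟨-C, fun n => (hb n).1⟩)
    · exact Eventually.of_forall fun n => (hb n).2

theorem gf_cont : Continuous (gf S.θ) := gf_continuous S.θpos S.theta_lt_one

end Detaux

namespace Setup

theorem fld_abs_le (n : ℕ) (x y : V) (X : V → ℝ) :
    |S.fld n x y X| ≤ |X y| + S.d * Real.artanh S.θ := by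
  have ha := Detaux.artanh_pos' S
  cases n with
  | zero =>
    simp only [fld, abs_zero]
    positivity
  | succ n =>
    simp only [fld]
    refine (abs_add_le _ _).trans ?_
    gcongr
    refine (Finset.abs_sum_le_sum_abs _ _).trans ?_
    calc ∑ z ∈ (S.G.neighborFinset y).erase x, |gf S.θ (S.fld n y z X)|
        ≤ ∑ z ∈ (S.G.neighborFinset y).erase x, Real.artanh S.θ :=
          Finset.sum_le_sum fun z _ => (gf_abs_le S.θpos S.theta_lt_one _).1
      _ = ((S.G.neighborFinset y).erase x).card * Real.artanh S.θ := by
          rw [Finset.sum_const, nsmul_eq_mul]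
      _ ≤ S.d * Real.artanh S.θ := by
          gcongr
          rw [← Detaux.card_nbr S y]
          exact Finset.card_le_card (Finset.erase_subset _ _)

theorem cav_abs_le (x y : V) (X : V → ℝ) : |S.cav x y X| ≤ |X y| + S.d * Real.artanh S.θ :=
  Detaux.abs_limsup_le fun n => S.fld_abs_le n x y X

theorem full_abs_le (v : V) (X : V → ℝ) : |S.full v X| ≤ |X v| + S.d * Real.artanh S.θ := by
  unfold full
  refine (abs_add_le _ _).trans ?_
  gcongr
  refine (Finset.abs_sum_le_sum_abs _ _).trans ?_
  calc ∑ z ∈ S.G.neighborFinset v, |gf S.θ (S.cav v z X)|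
      ≤ ∑ z ∈ S.G.neighborFinset v, Real.artanh S.θ :=
        Finset.sum_le_sum fun z _ => (gf_abs_le S.θpos S.theta_lt_one _).1
    _ = S.d * Real.artanh S.θ := by
        rw [Finset.sum_const, nsmul_eq_mul, Detaux.card_nbr]

theorem cav_rec {X : V → ℝ} (hX : S.Good X) {x y : V} (hxy : S.G.Adj x y) :
    S.cav x y X = X y + ∑ z ∈ (S.G.neighborFinset y).erase x, gf S.θ (S.cav y z X) := by
  have h1 : Tendsto (fun n => S.fld (n + 1) x y X) atTop (𝓝 (S.cav x y X)) :=
    (hX x y hxy).comp (tendsto_add_atTop_nat 1)
  have h2 : Tendsto (fun n => S.fld (n + 1) x y X) atTop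
      (𝓝 (X y + ∑ z ∈ (S.G.neighborFinset y).erase x, gf S.θ (S.cav y z X))) := by
    simp only [fld]
    refine tendsto_const_nhds.add (tendsto_finsetSum _ fun z hz => ?_)
    have hyz : S.G.Adj y z := by
      have := Finset.mem_of_mem_erase hz
      simpa using this
    exact ((Detaux.gf_cont S).tendsto _).comp (hX y z hyz)
  exact tendsto_nhds_unique h1 h2

theorem full_eq {X : V → ℝ} (hX : S.Good X) {x y : V} (hxy : S.G.Adj x y) :
    S.full x X = S.cav y x X + gf S.θ (S.cav x y X) := by
  rw [S.cav_rec hX hxy.symm]
  unfold full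
  have hy : y ∈ S.G.neighborFinset x := by simpa using hxy
  rw [← Finset.sum_erase_add _ _ hy]
  ring

theorem abs_msg_lt (x y : V) (X : V → ℝ) : |S.msg x y X| < 1 := Real.abs_tanh_lt_one _

theorem abs_mag_lt (v : V) (X : V → ℝ) : |S.mag v X| < 1 := Real.abs_tanh_lt_one _

theorem mag_rel {X : V → ℝ} (hX : S.Good X) {x y : V} (hxy : S.G.Adj x y) :
    S.mag x X * (1 + S.θ * S.msg y x X * S.msg x y X) = S.msg y x X + S.θ * S.msg x y X := by
  have h1 : S.mag x X = (S.msg y x X + S.θ * S.msg x y X) /
      (1 + S.msg y x X * (S.θ * S.msg x y X)) := by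
    unfold mag
    rw [S.full_eq hX hxy, Detaux.tanh_add, tanh_gf S.θpos S.theta_lt_one]
    rfl
  have ha := S.abs_msg_lt y x X
  have hb := S.abs_msg_lt x y X
  have hθ := S.θpos
  have hθ1 := S.theta_lt_one
  have hpos : 0 < 1 + S.msg y x X * (S.θ * S.msg x y X) := by
    have h3 : |S.msg y x X * (S.θ * S.msg x y X)| < 1 := by
      rw [abs_mul, abs_mul, abs_of_pos hθ]
      calc |S.msg y x X| * (S.θ * |S.msg x y X|) ≤ 1 * (S.θ * 1) := by
            gcongr
        _ < 1 := by linarith
    linarith [(abs_lt.1 h3).1]
  rw [h1, div_mul_eq_mul_div, div_eq_iff hpos.ne']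
  ring

theorem slope_mem (x y : V) (X : V → ℝ) : 0 < S.slope x y X ∧ S.slope x y X ≤ S.θ := by
  have h := phi_mem S.θpos S.theta_lt_one (S.abs_msg_lt x y X)
  have hθ := S.θpos
  unfold slope
  refine ⟨mul_pos hθ h.1, ?_⟩
  nlinarith [h.2.2]

theorem aa_mem (v u : V) (X : V → ℝ) : 0 < S.aa v u X ∧ S.aa v u X ≤ S.θ ^ S.G.dist v u := by
  unfold aa
  constructor
  · exact Finset.prod_pos fun i _ => (S.slope_mem _ _ X).1
  · calc _ ≤ ∏ i ∈ range (S.G.dist v u), S.θ :=
          Finset.prod_le_prod (fun i _ => (S.slope_mem _ _ X).1.le)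
            fun i _ => (S.slope_mem _ _ X).2
      _ = _ := by simp

theorem cv_mem (v u : V) (X : V → ℝ) : 0 < S.cv v u X ∧ S.cv v u X ≤ S.θ ^ S.G.dist v u := by
  have h := S.aa_mem v u X
  have hm := S.abs_mag_lt v X
  have hm2 : S.mag v X ^ 2 < 1 := (sq_lt_one_iff_abs_lt_one _).2 hm
  unfold cv
  refine ⟨mul_pos (by linarith) h.1, ?_⟩
  nlinarith [sq_nonneg (S.mag v X), h.1, h.2]

theorem aa_self (v : V) (X : V → ℝ) : S.aa v v X = 1 := by
  unfold aa
  simp

theorem aa_mul {v w u : V} (hw : S.G.dist v w + S.G.dist w u = S.G.dist v u) (X : V → ℝ) :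
    S.aa v u X = S.aa v w X * S.aa w u X := by
  have hg := geo_append S.rt v w u hw
  unfold aa
  rw [← hw, Finset.prod_range_add]
  congr 1
  · refine Finset.prod_congr rfl fun i hi => ?_
    rw [Finset.mem_range] at hi
    rw [hg i (by omega), hg (i + 1) (by omega), if_pos (by omega), if_pos (by omega)]
  · refine Finset.prod_congr rfl fun i hi => ?_
    rw [Finset.mem_range] at hi
    rw [hg (S.G.dist v w + i) (by omega), hg (S.G.dist v w + i + 1) (by omega),
      if_neg (show ¬ (S.G.dist v w + i + 1 ≤ S.G.dist v w) by omega)]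
    have e1 : S.G.dist v w + i - S.G.dist v w = i := by omega
    have e2 : S.G.dist v w + i + 1 - S.G.dist v w = i + 1 := by omega
    rw [e1, e2]
    by_cases h0 : i = 0
    · subst h0
      rw [if_pos (by omega), Nat.add_zero, geo_dist S.rt, geo_zero S.rt]
    · rw [if_neg (by omega)]

theorem cv_symm {X : V → ℝ} (hX : S.Good X) (v u : V) : S.cv v u X = S.cv u v X := by
  set k := S.G.dist v u with hk
  set p := geo S.G v u with hp
  have key : ∀ j ≤ k, (1 - S.mag v X ^ 2) * ∏ i ∈ range j, S.slope (p i) (p (i + 1)) X =
      (1 - S.mag (p j) X ^ 2) * ∏ i ∈ range j, S.slope (p (i + 1)) (p i) X := by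
    intro j
    induction j with
    | zero =>
      intro _
      simp only [Finset.range_zero, Finset.prod_empty, mul_one]
      rw [hp, geo_zero S.rt]
    | succ j ih =>
      intro hj
      have ih' := ih (by omega)
      have hadj : S.G.Adj (p j) (p (j + 1)) := geo_adj S.rt v u (by omega)
      have he := edge_symm S.θpos S.theta_lt_one (S.msg (p (j + 1)) (p j) X)
        (S.msg (p j) (p (j + 1)) X) (S.mag (p j) X) (S.mag (p (j + 1)) X)
        (S.abs_msg_lt _ _ _) (S.abs_msg_lt _ _ _) (S.mag_rel hX hadj)
        (by
          have := S.mag_rel hX hadj.symm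
          rw [← this]; ring)
      rw [Finset.prod_range_succ, Finset.prod_range_succ, ← mul_assoc, ih']
      unfold slope at *
      calc _ = S.θ * (∏ i ∈ range j, S.θ * phi S.θ (S.msg (p (i + 1)) (p i) X)) *
            ((1 - S.mag (p j) X ^ 2) * phi S.θ (S.msg (p j) (p (j + 1)) X)) := by ring
        _ = _ := by rw [he]; ring
  have h1 := key k le_rfl
  have hpk : p k = u := geo_dist S.rt v u
  rw [hpk] at h1
  unfold cv aa
  rw [← hk, ← hp, h1, SimpleGraph.dist_comm (u := u) (v := v), ← hk]
  congr 1
  rw [← Finset.prod_range_reflect]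
  refine Finset.prod_congr rfl fun i hi => ?_
  rw [Finset.mem_range] at hi
  have e1 : geo S.G u v i = p (k - i) := by
    have := geo_rev S.rt v u (i := k - i) (by omega)
    rw [← hk] at this
    rw [show k - (k - i) = i by omega] at this
    rw [this]
  have e2 : geo S.G u v (i + 1) = p (k - 1 - i) := by
    have := geo_rev S.rt v u (i := k - 1 - i) (by omega)
    rw [← hk] at this
    rw [show k - (k - 1 - i) = i + 1 by omega] at this
    rw [this]
  rw [e1, e2, show k - 1 - i + 1 = k - i by omega]

/-- `A_vu = a_wv A_wu` for `w` between `v` and `u`. -/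
theorem cv_mul {X : V → ℝ} (hX : S.Good X) {v w u : V}
    (hw : S.G.dist v w + S.G.dist w u = S.G.dist v u) :
    S.cv v u X = S.aa w v X * S.cv w u X := by
  have h1 : S.cv v u X = S.cv v w X * S.aa w u X := by
    unfold cv
    rw [S.aa_mul hw]; ring
  rw [h1, S.cv_symm hX v w]
  unfold cv
  ring

/-- messages depend on the branch only. -/
theorem fld_congr (n : ℕ) {x y : V} (hxy : S.G.Adj x y) {X X' : V → ℝ}
    (h : ∀ z ∈ branch S.G x y, X z = X' z) : S.fld n x y X = S.fld n x y X' := by
  induction n generalizing x y with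
  | zero => simp [fld]
  | succ n ih =>
    simp only [fld]
    rw [h y (self_mem_branch S.rt hxy).1]
    congr 1
    refine Finset.sum_congr rfl fun z hz => ?_
    have hyz : S.G.Adj y z := by simpa using Finset.mem_of_mem_erase hz
    have hzx : z ≠ x := Finset.ne_of_mem_erase hz
    rw [ih hyz fun w hw => h w ((branch_subset S.rt hxy hyz hzx).1 hw)]

theorem cav_congr {x y : V} (hxy : S.G.Adj x y) {X X' : V → ℝ}
    (h : ∀ z ∈ branch S.G x y, X z = X' z) : S.cav x y X = S.cav x y X' := by
  unfold cav
  congr 1
  funext n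
  exact S.fld_congr n hxy h

theorem fld_neg (n : ℕ) (x y : V) (X : V → ℝ) : S.fld n x y (-X) = - S.fld n x y X := by
  induction n generalizing x y with
  | zero => simp [fld]
  | succ n ih =>
    simp only [fld, Pi.neg_apply, ih, gf_odd, Finset.sum_neg_distrib]
    ring

theorem cav_neg {X : V → ℝ} (hX : S.Good X) {x y : V} (hxy : S.G.Adj x y) :
    S.cav x y (-X) = - S.cav x y X := by
  have h : Tendsto (fun n => S.fld n x y (-X)) atTop (𝓝 (- S.cav x y X)) := by
    simp only [fld_neg]
    exact (hX x y hxy).neg
  exact h.limsup_eq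

theorem good_neg {X : V → ℝ} (hX : S.Good X) : S.Good (-X) := by
  intro x y hxy
  rw [S.cav_neg hX hxy]
  simp only [fld_neg]
  exact (hX x y hxy).neg

/-- changing the field at one vertex `z`. -/
theorem good_update {X : V → ℝ} (hX : S.Good X) (z : V) (a : ℝ) : S.Good (Function.update X z a) := by
  have key : ∀ k : ℕ, ∀ x y : V, S.G.Adj x y → (z ∈ branch S.G x y → S.G.dist y z ≤ k) →
      ∃ L, Tendsto (fun n => S.fld n x y (Function.update X z a)) atTop (𝓝 L) := by
    intro k
    induction k with
    | zero =>
      intro x y hxy hk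
      by_cases hz : z ∈ branch S.G x y
      · have hd := hk hz
        have hyz : y = z := by
          have := S.rt.tree.connected.dist_eq_zero_iff (u := y) (v := z)
          exact this.1 (by omega)
        subst hyz
        refine ⟨a + ∑ w ∈ (S.G.neighborFinset y).erase x, gf S.θ (S.cav y w X), ?_⟩
        rw [← tendsto_add_atTop_iff_nat 1]
        simp only [fld, Function.update_self]
        refine tendsto_const_nhds.add (tendsto_finsetSum _ fun w hw => ?_)
        have hyw : S.G.Adj y w := by simpa using Finset.mem_of_mem_erase hw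
        have hwx : w ≠ x := Finset.ne_of_mem_erase hw
        have hcon : ∀ n, S.fld n y w (Function.update X y a) = S.fld n y w X := fun n =>
          S.fld_congr n hyw fun t ht => by
            rw [Function.update_of_ne]
            rintro rfl
            exact (branch_subset S.rt hxy hyw hwx).2 ht
        simp only [hcon]
        exact ((Detaux.gf_cont S).tendsto _).comp (hX y w hyw)
      · refine ⟨S.cav x y X, ?_⟩
        have hcon : ∀ n, S.fld n x y (Function.update X z a) = S.fld n x y X := fun n =>
          S.fld_congr n hxy fun t ht => by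
            rw [Function.update_of_ne]
            rintro rfl
            exact hz ht
        simp only [hcon]
        exact hX x y hxy
    | succ k ih =>
      intro x y hxy hk
      by_cases hz : z ∈ branch S.G x y
      · have hw : ∀ w ∈ (S.G.neighborFinset y).erase x,
            ∃ L, Tendsto (fun n => S.fld n y w (Function.update X z a)) atTop (𝓝 L) := by
          intro w hw
          have hyw : S.G.Adj y w := by simpa using Finset.mem_of_mem_erase hw
          refine ih y w hyw fun hz' => ?_
          have h1 := hk hz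
          have h2 : S.G.dist z w < S.G.dist z y := hz'
          rw [SimpleGraph.dist_comm (u := z) (v := w), SimpleGraph.dist_comm (u := z) (v := y)] at h2
          omega
        choose! L hL using hw
        refine ⟨Function.update X z a y + ∑ w ∈ (S.G.neighborFinset y).erase x, gf S.θ (L w), ?_⟩
        rw [← tendsto_add_atTop_iff_nat 1]
        simp only [fld]
        refine tendsto_const_nhds.add (tendsto_finsetSum _ fun w hw => ?_)
        exact ((Detaux.gf_cont S).tendsto _).comp (hL w hw)
      · refine ⟨S.cav x y X, ?_⟩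
        have hcon : ∀ n, S.fld n x y (Function.update X z a) = S.fld n x y X := fun n =>
          S.fld_congr n hxy fun t ht => by
            rw [Function.update_of_ne]
            rintro rfl
            exact hz ht
        simp only [hcon]
        exact hX x y hxy
  intro x y hxy
  obtain ⟨L, hL⟩ := key (S.G.dist y z) x y hxy fun _ => le_rfl
  have : S.cav x y (Function.update X z a) = L := hL.limsup_eq
  rw [this]
  exact hL

theorem full_update {X : V → ℝ} (hX : S.Good X) (z : V) (a : ℝ) :
    S.full z (Function.update X z a) = S.full z X + (a - X z) := by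
  unfold full
  rw [Function.update_self]
  have : ∑ w ∈ S.G.neighborFinset z, gf S.θ (S.cav z w (Function.update X z a)) =
      ∑ w ∈ S.G.neighborFinset z, gf S.θ (S.cav z w X) := by
    refine Finset.sum_congr rfl fun w hw => ?_
    have hzw : S.G.Adj z w := by simpa using hw
    rw [S.cav_congr hzw (X := Function.update X z a) (X' := X) fun t ht => by
      rw [Function.update_of_ne]
      rintro rfl
      exact (self_mem_branch S.rt hzw.symm).1 |> fun h => by
        have h2 := branch_compl S.rt hzw
        rw [← h2] at h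
        exact h ht]
  rw [this]
  ring

theorem aa_update {X : V → ℝ} (z v : V) (a : ℝ) :
    S.aa z v (Function.update X z a) = S.aa z v X := by
  unfold aa
  refine Finset.prod_congr rfl fun i hi => ?_
  rw [Finset.mem_range] at hi
  have hadj := geo_adj S.rt z v hi
  unfold slope msg
  rw [S.cav_congr hadj (X := Function.update X z a) (X' := X) fun t ht => by
    rw [Function.update_of_ne]
    rintro rfl
    have h1 := (dist_geo S.rt t v (i := i) (by omega)).1
    have h2 := (dist_geo S.rt t v (i := i + 1) (by omega)).1
    have h3 : S.G.dist t (geo S.G t v (i + 1)) < S.G.dist t (geo S.G t v i) := ht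
    omega]

/-- response of the magnetisation at `v` to a change of the field at `z` -/
theorem mag_update {X : V → ℝ} (hX : S.Good X) (z v : V) (a : ℝ) :
    S.mag v (Function.update X z a) - S.mag v X =
      S.aa z v X * (S.mag z (Function.update X z a) - S.mag z X) := by
  set X' := Function.update X z a with hX'
  have hG' : S.Good X' := S.good_update hX z a
  set k := S.G.dist z v with hk
  set p := geo S.G z v with hp
  have key : ∀ j ≤ k, S.mag (p j) X' - S.mag (p j) X =
      (∏ i ∈ range j, S.slope (p i) (p (i + 1)) X) * (S.mag z X' - S.mag z X) := by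
    intro j
    induction j with
    | zero =>
      intro _
      simp only [Finset.range_zero, Finset.prod_empty, one_mul]
      rw [hp, geo_zero S.rt]
    | succ j ih =>
      intro hj
      have ih' := ih (by omega)
      have hadj : S.G.Adj (p j) (p (j + 1)) := geo_adj S.rt z v (by omega)
      have hb : S.msg (p j) (p (j + 1)) X' = S.msg (p j) (p (j + 1)) X := by
        unfold msg
        rw [S.cav_congr hadj (X := X') (X' := X) fun t ht => by
          rw [hX', Function.update_of_ne]
          rintro rfl
          have h1 := (dist_geo S.rt t v (i := j) (by omega)).1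
          have h2 := (dist_geo S.rt t v (i := j + 1) (by omega)).1
          have h3 : S.G.dist t (geo S.G t v (j + 1)) < S.G.dist t (geo S.G t v j) := ht
          omega]
      have r1 := S.mag_rel hX hadj
      have r2 := S.mag_rel hX hadj.symm
      have r3 := S.mag_rel hG' hadj
      have r4 := S.mag_rel hG' hadj.symm
      rw [hb] at r3 r4
      have ho := one_sided S.θpos S.theta_lt_one (S.msg (p (j + 1)) (p j) X)
        (S.msg (p j) (p (j + 1)) X) (S.msg (p (j + 1)) (p j) X') (S.mag (p j) X)
        (S.mag (p (j + 1)) X) (S.mag (p j) X') (S.mag (p (j + 1)) X')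
        (S.abs_msg_lt _ _ _) (S.abs_msg_lt _ _ _) (S.abs_msg_lt _ _ _) r1
        (by rw [← r2]; ring) r3 (by rw [← r4]; ring)
      rw [ho, ih', Finset.prod_range_succ]
      unfold slope
      ring
  have h1 := key k le_rfl
  have hpk : p k = v := geo_dist S.rt z v
  rw [hpk] at h1
  rw [h1]
  unfold aa
  rfl

end Setup

namespace Detaux

variable {G : SimpleGraph V}

omit [DecidableEq V] in
theorem dist_iso (hc : G.Connected) (γ : G ≃g G) (u v : V) :
    G.dist (γ u) (γ v) = G.dist u v := by
  have h : ∀ (γ : G ≃g G) (u v : V), G.dist (γ u) (γ v) ≤ G.dist u v := by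
    intro γ u v
    obtain ⟨w, hw⟩ := hc.exists_walk_length_eq_dist u v
    rw [← hw]
    have := SimpleGraph.dist_le (w.map γ.toHom)
    simpa using this
  refine le_antisymm (h γ u v) ?_
  have := h γ.symm (γ u) (γ v)
  simpa using this

end Detaux

namespace Setup

theorem dist_aut (γ : S.G ≃g S.G) (u v : V) : S.G.dist (γ u) (γ v) = S.G.dist u v :=
  Detaux.dist_iso S.rt.tree.connected γ u v

theorem geo_aut (γ : S.G ≃g S.G) (v u : V) {i : ℕ} (hi : i ≤ S.G.dist v u) :
    geo S.G (γ v) (γ u) i = γ (geo S.G v u i) := by
  have hg := geo_isGeo S.rt v u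
  have h1 : IsGeo S.G (fun i => γ (geo S.G v u i)) (S.G.dist v u) := by
    refine ⟨fun i hi => ?_, fun i hi j hj => ?_⟩
    · exact γ.map_adj_iff.2 (hg.1 i hi)
    · rw [S.dist_aut]
      exact hg.2 i hi j hj
  have h2 := (geo_unique S.rt h1).2 i hi
  simp only [geo_zero S.rt, geo_dist S.rt] at h2
  exact h2

/-- equivariance -/
theorem fld_aut (γ : S.G ≃g S.G) (n : ℕ) (x y : V) (X : V → ℝ) :
    S.fld n (γ x) (γ y) X = S.fld n x y (X ∘ γ) := by
  induction n generalizing x y with
  | zero => simp [fld]
  | succ n ih =>
    simp only [fld, Function.comp]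
    congr 1
    have hset : (S.G.neighborFinset (γ y)).erase (γ x) =
        ((S.G.neighborFinset y).erase x).map γ.toEquiv.toEmbedding := by
      ext w
      simp only [Finset.mem_erase, SimpleGraph.mem_neighborFinset, Finset.mem_map,
        Equiv.coe_toEmbedding, RelIso.coe_fn_toEquiv]
      constructor
      · rintro ⟨h1, h2⟩
        refine ⟨γ.symm w, ⟨?_, ?_⟩, by simp⟩
        · intro h
          apply h1
          rw [← h]; simp
        · have := γ.symm.map_adj_iff.2 h2
          simpa using this
      · rintro ⟨w', ⟨h1, h2⟩, rfl⟩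
        refine ⟨fun h => h1 (γ.injective h), γ.map_adj_iff.2 h2⟩
    rw [hset, Finset.sum_map]
    refine Finset.sum_congr rfl fun z _ => ?_
    have := ih y z
    simp only [Equiv.coe_toEmbedding, RelIso.coe_fn_toEquiv]
    rw [this]

theorem cav_aut (γ : S.G ≃g S.G) (x y : V) (X : V → ℝ) :
    S.cav (γ x) (γ y) X = S.cav x y (X ∘ γ) := by
  unfold cav
  congr 1
  funext n
  exact S.fld_aut γ n x y X

theorem mag_aut (γ : S.G ≃g S.G) (v : V) (X : V → ℝ) : S.mag (γ v) X = S.mag v (X ∘ γ) := by
  unfold mag full
  have hset : S.G.neighborFinset (γ v) = (S.G.neighborFinset v).map γ.toEquiv.toEmbedding := by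
    ext w
    simp only [SimpleGraph.mem_neighborFinset, Finset.mem_map,
      Equiv.coe_toEmbedding, RelIso.coe_fn_toEquiv]
    constructor
    · intro h2
      refine ⟨γ.symm w, ?_, by simp⟩
      have := γ.symm.map_adj_iff.2 h2
      simpa using this
    · rintro ⟨w', h2, rfl⟩
      exact γ.map_adj_iff.2 h2
  rw [hset, Finset.sum_map]
  simp only [Equiv.coe_toEmbedding, RelIso.coe_fn_toEquiv, cav_aut, Function.comp]

theorem aa_aut (γ : S.G ≃g S.G) (v u : V) (X : V → ℝ) :
    S.aa (γ v) (γ u) X = S.aa v u (X ∘ γ) := by
  unfold aa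
  rw [S.dist_aut]
  refine Finset.prod_congr rfl fun i hi => ?_
  rw [Finset.mem_range] at hi
  rw [S.geo_aut γ v u (by omega), S.geo_aut γ v u (by omega)]
  unfold slope msg
  rw [S.cav_aut]

theorem cv_aut (γ : S.G ≃g S.G) (v u : V) (X : V → ℝ) :
    S.cv (γ v) (γ u) X = S.cv v u (X ∘ γ) := by
  unfold cv
  rw [S.mag_aut, S.aa_aut]

/-- measurability -/
theorem measurable_fld (n : ℕ) (x y : V) : Measurable (S.fld n x y) := by
  induction n generalizing x y with
  | zero =>
    have : S.fld 0 x y = fun _ => 0 := by funext X; simp [fld]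
    rw [this]; exact measurable_const
  | succ n ih =>
    have : S.fld (n + 1) x y = fun X => X y + ∑ z ∈ (S.G.neighborFinset y).erase x,
        gf S.θ (S.fld n y z X) := by funext X; simp [fld]
    rw [this]
    refine (measurable_pi_apply y).add (Finset.measurable_sum _ fun z _ => ?_)
    exact (Detaux.gf_cont S).measurable.comp (ih y z)

theorem measurable_cav (x y : V) : Measurable (S.cav x y) := by
  unfold cav
  exact Measurable.limsup fun n => S.measurable_fld n x y

theorem measurable_tanh : Measurable Real.tanh := by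
  have : Real.tanh = fun x => Real.sinh x / Real.cosh x := by
    funext x; exact Real.tanh_eq_sinh_div_cosh x
  rw [this]
  exact Real.measurable_sinh.div Real.measurable_cosh

theorem measurable_mag (v : V) : Measurable (S.mag v) := by
  unfold mag full
  refine measurable_tanh.comp ?_
  refine (measurable_pi_apply v).add (Finset.measurable_sum _ fun z _ => ?_)
  exact (Detaux.gf_cont S).measurable.comp (S.measurable_cav v z)

theorem measurable_slope (x y : V) : Measurable (S.slope x y) := by
  unfold slope msg phi
  have h := measurable_tanh.comp (S.measurable_cav x y)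
  have h2 : Measurable fun X : V → ℝ => Real.tanh (S.cav x y X) := h
  exact measurable_const.mul ((measurable_const.sub (h2.pow_const 2)).div
    (measurable_const.sub (measurable_const.mul (h2.pow_const 2))))

theorem measurable_aa (v u : V) : Measurable (S.aa v u) := by
  unfold aa
  exact Finset.measurable_prod _ fun i _ => S.measurable_slope _ _

theorem measurable_cv (v u : V) : Measurable (S.cv v u) := by
  unfold cv
  exact (measurable_const.sub ((S.measurable_mag v).pow_const 2)).mul (S.measurable_aa v u)

end Setup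

end Crest.Agent.R160
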