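import Crest.Agent.R160.DynQ1

/-! Row 160, piece DYNQ, auxiliary file: the energy bounds. -/

set_option autoImplicit false
set_option linter.unusedSectionVars false
open Finset Filter MeasureTheory ProbabilityTheory
open scoped Topology NNReal ENNReal

namespace Crest.Agent.R160
namespace DynQaux
open Setup

variable {V : Type} [DecidableEq V] [Countable V] (S : Setup V)

/-- the weight `(θ²(1-c))^dist` -/
noncomputable def wt (c : ℝ) (v z : V) : ℝ := (S.θ ^ 2 * (1 - c)) ^ S.G.dist v z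

theorem wt_nonneg {c : ℝ} (hc : c ≤ 1) (v z : V) : 0 ≤ wt S c v z :=
  pow_nonneg (mul_nonneg (sq_nonneg _) (by linarith)) _

theorem wt_summable {c : ℝ} (hc0 : 0 < c) (hc : c ≤ 1) (v : V) : Summable (wt S c v) := by
  have hd := S.rt.three_le
  have hd' : (3 : ℝ) ≤ S.d := by exact_mod_cast hd
  have hθ := S.θle
  -- sum over a sphere
  have hs : ∀ k, ∑ z ∈ sph S.G v k, wt S c v z ≤ 2 * (1 - c) ^ k := by
    intro k
    have h1 : ∑ z ∈ sph S.G v k, wt S c v z = ((sph S.G v k).card : ℝ) * (S.θ ^ 2 * (1 - c)) ^ k := by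
      rw [Finset.sum_congr rfl (g := fun _ => (S.θ ^ 2 * (1 - c)) ^ k)]
      · simp
      · intro z hz
        rw [wt, (mem_sph S.rt).1 hz]
    rw [h1]
    rcases k with _ | k
    · rw [card_sph_zero S.rt]; norm_num
    · rw [card_sph_succ S.rt]
      have e1 : ((S.d * (S.d - 1) ^ k : ℕ) : ℝ) * (S.θ ^ 2 * (1 - c)) ^ (k + 1) =
          (S.d * S.θ ^ 2) * (S.θ ^ 2 * ((S.d : ℝ) - 1)) ^ k * (1 - c) ^ (k + 1) := by
        rw [Nat.cast_mul, Nat.cast_pow, Nat.cast_sub (by omega), Nat.cast_one, mul_pow, mul_pow,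
          pow_succ (S.θ ^ 2) k]
        ring
      rw [e1]
      have e2 : (S.θ ^ 2 * ((S.d : ℝ) - 1)) ^ k ≤ 1 :=
        pow_le_one₀ (mul_nonneg (sq_nonneg _) (by linarith)) hθ
      have e3 : S.d * S.θ ^ 2 ≤ 2 := by nlinarith [sq_nonneg S.θ]
      have e4 : 0 ≤ S.d * S.θ ^ 2 := by positivity
      have e5 : 0 ≤ (1 - c) ^ (k + 1) := pow_nonneg (by linarith) _
      calc (S.d * S.θ ^ 2) * (S.θ ^ 2 * ((S.d : ℝ) - 1)) ^ k * (1 - c) ^ (k + 1)
          ≤ (S.d * S.θ ^ 2) * 1 * (1 - c) ^ (k + 1) := by gcongr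
        _ ≤ 2 * (1 - c) ^ (k + 1) := by rw [mul_one]; gcongr
  refine summable_of_sum_le (c := 2 * (1 / c)) (fun z => wt_nonneg S hc v z) ?_
  intro F
  -- the set is contained in a ball
  obtain ⟨K, hK⟩ : ∃ K, ∀ z ∈ F, S.G.dist v z < K :=
    ⟨F.sup (S.G.dist v) + 1, fun z hz => Nat.lt_succ_of_le (Finset.le_sup (f := S.G.dist v) hz)⟩
  have h2 : F ⊆ (range K).biUnion (sph S.G v) := by
    intro z hz
    exact mem_biUnion.2 ⟨_, mem_range.2 (hK z hz), (mem_sph S.rt).2 rfl⟩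
  calc ∑ z ∈ F, wt S c v z ≤ ∑ z ∈ (range K).biUnion (sph S.G v), wt S c v z :=
        sum_le_sum_of_subset_of_nonneg h2 (fun z _ _ => wt_nonneg S hc v z)
    _ ≤ ∑ k ∈ range K, ∑ z ∈ sph S.G v k, wt S c v z := by
        apply le_of_eq
        rw [sum_biUnion]
        intro a _ b _ hab
        rw [Function.onFun, Finset.disjoint_left]
        intro z h1 h2
        exact hab (((mem_sph S.rt).1 h1).symm.trans ((mem_sph S.rt).1 h2))
    _ ≤ ∑ k ∈ range K, 2 * (1 - c) ^ k := sum_le_sum fun k _ => hs k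
    _ = 2 * ∑ k ∈ range K, (1 - c) ^ k := by rw [mul_sum]
    _ ≤ 2 * (1 / c) := by
        gcongr
        have h3 : Summable fun k : ℕ => (1 - c) ^ k :=
          summable_geometric_of_lt_one (by linarith) (by linarith)
        have h4 := h3.sum_le_tsum (range K) (fun k _ => pow_nonneg (by linarith) k)
        rw [tsum_geometric_of_lt_one (by linarith) (by linarith)] at h4
        simpa using h4

theorem aa_meas (T : V → ℝ≥0) (v u : V) : Measurable fun ω => S.aa v u (S.XT T ω) :=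
  (S.measurable_aa v u).comp (S.measurable_XT T)

theorem cv_meas (T : V → ℝ≥0) (v u : V) : Measurable fun ω => S.cv v u (S.XT T ω) :=
  (S.measurable_cv v u).comp (S.measurable_XT T)

theorem theta_pow_le (k : ℕ) : S.θ ^ k ≤ 1 := pow_le_one₀ S.θpos.le S.theta_lt_one.le

theorem aa_abs (v u : V) (X : V → ℝ) : |S.aa v u X| ≤ 1 := by
  rw [abs_of_pos (S.aa_mem v u X).1]
  exact (S.aa_mem v u X).2.trans (theta_pow_le S _)

theorem cv_abs (v u : V) (X : V → ℝ) : |S.cv v u X| ≤ 1 := by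
  rw [abs_of_pos (S.cv_mem v u X).1]
  exact (S.cv_mem v u X).2.trans (theta_pow_le S _)

theorem sq_abs_le_one {a : ℝ} (h : |a| ≤ 1) : |a ^ 2| ≤ 1 := by
  rw [abs_pow]; exact pow_le_one₀ (abs_nonneg _) h

/-- individual bounds -/
theorem aa_sq_le : ∃ c0 : ℝ, 0 < c0 ∧ c0 < 1 ∧ ∀ (T : V → ℝ≥0) (s : ℝ≥0), (∀ v, s ≤ T v) →
    ∀ v u : V, ∫ ω, S.aa v u (S.XT T ω) ^ 2 ∂S.P ≤ wt S (c0 * min 1 (s : ℝ)) v u ∧
      ∫ ω, S.cv v u (S.XT T ω) ^ 2 ∂S.P ≤ wt S (c0 * min 1 (s : ℝ)) v u := by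
  obtain ⟨c, hc0, hc1, h⟩ := S.aa_decay
  refine ⟨c, hc0, hc1, fun T s hs v u => ?_⟩
  have h1 : ∫ ω, S.aa v u (S.XT T ω) ^ 2 ∂S.P ≤ wt S (c * min 1 (s : ℝ)) v u := by
    calc ∫ ω, S.aa v u (S.XT T ω) ^ 2 ∂S.P
        ≤ ∫ ω, S.θ ^ S.G.dist v u * S.aa v u (S.XT T ω) ∂S.P := by
          apply integral_mono
          · exact intb S ((aa_meas S T v u).pow_const 2) 1 (fun ω => sq_abs_le_one (aa_abs S v u _))
          · exact (intb S (aa_meas S T v u) 1 (fun ω => aa_abs S v u _)).const_mul _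
          · intro ω
            simp only
            rw [sq]
            exact mul_le_mul_of_nonneg_right (S.aa_mem v u _).2 (S.aa_mem v u _).1.le
      _ = S.θ ^ S.G.dist v u * ∫ ω, S.aa v u (S.XT T ω) ∂S.P := integral_const_mul _ _
      _ ≤ S.θ ^ S.G.dist v u * (S.θ * (1 - c * min 1 (s : ℝ))) ^ S.G.dist v u := by
          have := S.θpos
          gcongr
          exact h T s hs v u
      _ = wt S (c * min 1 (s : ℝ)) v u := by
          rw [wt, ← mul_pow]; ring_nf
  refine ⟨h1, le_trans ?_ h1⟩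
  apply integral_mono
  · exact intb S ((cv_meas S T v u).pow_const 2) 1 (fun ω => sq_abs_le_one (cv_abs S v u _))
  · exact intb S ((aa_meas S T v u).pow_const 2) 1 (fun ω => sq_abs_le_one (aa_abs S v u _))
  · intro ω
    simp only
    have h3 := (S.cv_mem v u (S.XT T ω)).1
    have h4 : S.cv v u (S.XT T ω) ≤ S.aa v u (S.XT T ω) := by
      unfold Setup.cv
      have := (S.aa_mem v u (S.XT T ω)).1
      nlinarith [sq_nonneg (S.mag v (S.XT T ω))]
    exact pow_le_pow_left₀ h3.le h4 2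

theorem cpos {c0 : ℝ} (h : 0 < c0) {s : ℝ≥0} (hs : 0 < s) : 0 < c0 * min 1 (s : ℝ) :=
  mul_pos h (lt_min one_pos (by exact_mod_cast hs))

theorem cle {c0 : ℝ} (h : 0 < c0) (h' : c0 < 1) (s : ℝ≥0) : c0 * min 1 (s : ℝ) ≤ 1 := by
  have h1 : min 1 (s : ℝ) ≤ 1 := min_le_left _ _
  have h2 : 0 ≤ min 1 (s : ℝ) := le_min zero_le_one s.2
  nlinarith

theorem wt_symm (c : ℝ) (v z : V) : wt S c v z = wt S c z v := by
  rw [wt, wt, SimpleGraph.dist_comm]

/-- the increments of the energy along the path: two-sided bound. -/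
theorem step_bounds : ∃ C c0 : ℝ, 0 < C ∧ 0 < c0 ∧ c0 < 1 ∧ ∀ (s : ℝ≥0) (T : V → ℝ≥0) (h : ℝ≥0)
    (_ : ∀ v, s ≤ T v) (_ : h ≤ 1) (v z : V),
    |E2 S v v (Function.update T z (T z + h)) - E2 S v v T -
      h * ∫ ω, S.cv v z (S.XT T ω) ^ 2 ∂S.P| ≤
        C * (h : ℝ) * √h * wt S (c0 * min 1 (s : ℝ)) v z := by
  obtain ⟨C, hC, h1⟩ := S.update_sq
  obtain ⟨c0, hc0, hc1, h2⟩ := aa_sq_le S
  refine ⟨C, c0, hC, hc0, hc1, fun s T h hs hh v z => ?_⟩
  have hT : T ≤ Function.update T z (T z + h) := by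
    intro w
    by_cases hw : w = z
    · subst hw; simp
    · simp [hw]
  have h3 := h1 T z v h hh
  have h4 := energy S hT v
  unfold mg at h4
  rw [h4] at h3
  refine h3.trans ?_
  have h5 : (h : ℝ) ^ (3 / 2 : ℝ) = (h : ℝ) * √h := by
    rcases eq_or_lt_of_le h.2 with h0 | h0
    · have : (h : ℝ) = 0 := h0.symm
      rw [this, Real.zero_rpow (by norm_num), zero_mul]
    · have h0' : 0 < (h : ℝ) := h0
      rw [show (3 / 2 : ℝ) = 1 + 1 / 2 by norm_num, Real.rpow_add h0', Real.rpow_one,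
        ← Real.sqrt_eq_rpow]
  rw [h5, wt_symm]
  have h6 := (h2 T s hs z v).1
  have h7 : 0 ≤ (h : ℝ) := h.2
  rw [← mul_assoc C]
  gcongr

/-- the energy between `T` and `T + h`, at most `C h`. -/
theorem energy_le {s : ℝ≥0} (hs : 0 < s) : ∃ C : ℝ, 0 < C ∧ ∀ (T T' : V → ℝ≥0) (h : ℝ≥0),
    (∀ v, s ≤ T v) → T ≤ T' → (∀ v, T' v ≤ T v + h) → h ≤ 1 → ∀ v,
    E2 S v v T' - E2 S v v T ≤ C * h := by
  obtain ⟨C, c0, hC, hc0, hc1, hst⟩ := step_bounds S
  obtain ⟨c1, hc10, hc11, hsq⟩ := aa_sq_le S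
  obtain ⟨e⟩ := exists_equiv S
  -- total weights (they do not depend on `v`, but we only use the root and automorphisms)
  set a := c0 * min 1 (s : ℝ) with ha
  set b := c1 * min 1 (s : ℝ) with hb
  have ha0 : 0 < a := cpos hc0 hs
  have hb0 : 0 < b := cpos hc10 hs
  have ha1 : a ≤ 1 := cle hc0 hc1 s
  have hb1 : b ≤ 1 := cle hc10 hc11 s
  have hsum : ∀ c v, ∑' z, wt S c v z = ∑' z, wt S c S.o z := by
    intro c v
    obtain ⟨γ, hγ⟩ := exists_aut_map S.rt S.o v
    rw [← Equiv.tsum_eq γ.toEquiv (fun z => wt S c v z)]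
    congr 1
    funext z
    change wt S c v (γ z) = _
    rw [wt, wt, ← hγ, aut_dist]
  refine ⟨C * (∑' z, wt S a S.o z) + (∑' z, wt S b S.o z) + 1, ?_, ?_⟩
  · have h1 : 0 ≤ ∑' z, wt S a S.o z := tsum_nonneg fun z => wt_nonneg S ha1 _ _
    have h2 : 0 ≤ ∑' z, wt S b S.o z := tsum_nonneg fun z => wt_nonneg S hb1 _ _
    positivity
  intro T T' h hsT hTT' hT'h hh v
  -- enlarge `T'` to `T + h`
  have hT1 : T ≤ fun v => T v + h := fun v => le_self_add
  refine le_trans (sub_le_sub_right (E2_mono S (T := T') (T' := fun v => T v + h) hT'h v v) _) ?_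
  have hnn : (0 : ℝ) ≤ h := h.2
  have hsqrt : √(h : ℝ) ≤ 1 := by
    rw [Real.sqrt_le_left (by norm_num)]
    simpa using (show (h : ℝ) ≤ 1 by exact_mod_cast hh)
  -- one step
  have hstep : ∀ n, E2 S v v (pth e T (fun v => T v + h) (n + 1)) -
      E2 S v v (pth e T (fun v => T v + h) n) ≤
      h * (C * wt S a v (e.symm n) + wt S b v (e.symm n)) := by
    intro n
    have hs' : ∀ w, s ≤ pth e T (fun v => T v + h) n w := fun w =>
      (hsT w).trans (le_pth e hT1 n w)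
    have h1 := hst s (pth e T (fun v => T v + h) n) h hs' hh v (e.symm n)
    rw [pth_at] at h1
    rw [pth_succ]
    have h2 := (abs_le.1 h1).2
    have h3 := (hsq _ s hs' v (e.symm n)).2
    have h4 : C * (h : ℝ) * √h * wt S a v (e.symm n) ≤ C * (h : ℝ) * 1 * wt S a v (e.symm n) := by
      have := wt_nonneg S ha1 v (e.symm n)
      gcongr
    have h5 : (h : ℝ) * ∫ ω, S.cv v (e.symm n) (S.XT (pth e T (fun v => T v + h) n) ω) ^ 2 ∂S.P ≤
        h * wt S b v (e.symm n) := by gcongr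
    linarith
  have hlim := (tendsto_E2 S e hT1 v v).sub_const (E2 S v v T)
  refine le_of_tendsto' hlim fun n => ?_
  have htel : E2 S v v (pth e T (fun v => T v + h) n) - E2 S v v T =
      ∑ k ∈ range n, (E2 S v v (pth e T (fun v => T v + h) (k + 1)) -
        E2 S v v (pth e T (fun v => T v + h) k)) := by
    rw [Finset.sum_range_sub (fun k => E2 S v v (pth e T (fun v => T v + h) k)), pth_zero]
  rw [htel]
  have hSa := (wt_summable S ha0 ha1 v)
  have hSb := (wt_summable S hb0 hb1 v)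
  have h6 : ∑ k ∈ range n, wt S a v (e.symm k) ≤ ∑' z, wt S a S.o z := by
    rw [← hsum a v, ← e.symm.tsum_eq]
    exact (e.symm.summable_iff.2 hSa).sum_le_tsum _ (fun k _ => wt_nonneg S ha1 _ _)
  have h7 : ∑ k ∈ range n, wt S b v (e.symm k) ≤ ∑' z, wt S b S.o z := by
    rw [← hsum b v, ← e.symm.tsum_eq]
    exact (e.symm.summable_iff.2 hSb).sum_le_tsum _ (fun k _ => wt_nonneg S hb1 _ _)
  calc ∑ k ∈ range n, (E2 S v v (pth e T (fun v => T v + h) (k + 1)) -
        E2 S v v (pth e T (fun v => T v + h) k))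
      ≤ ∑ k ∈ range n, h * (C * wt S a v (e.symm k) + wt S b v (e.symm k)) :=
        sum_le_sum fun k _ => hstep k
    _ = h * (C * ∑ k ∈ range n, wt S a v (e.symm k) + ∑ k ∈ range n, wt S b v (e.symm k)) := by
        rw [← mul_sum, sum_add_distrib, ← mul_sum]
    _ ≤ h * (C * (∑' z, wt S a S.o z) + (∑' z, wt S b S.o z)) := by gcongr
    _ ≤ (C * (∑' z, wt S a S.o z) + (∑' z, wt S b S.o z) + 1) * h := by nlinarith

/-- L² continuity of the magnetisation -/
theorem mg_diff_sq {s : ℝ≥0} (hs : 0 < s) : ∃ C : ℝ, 0 < C ∧ ∀ (T T' : V → ℝ≥0) (h : ℝ≥0),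
    (∀ v, s ≤ T v) → T ≤ T' → (∀ v, T' v ≤ T v + h) → ∀ v,
    ∫ ω, (mg S T' v ω - mg S T v ω) ^ 2 ∂S.P ≤ C * h := by
  obtain ⟨C, hC, h1⟩ := energy_le S hs
  refine ⟨C + 2, by positivity, fun T T' h hsT hTT' hT'h v => ?_⟩
  rw [energy S hTT' v]
  rcases le_or_gt h 1 with hh | hh
  · have := h1 T T' h hsT hTT' hT'h hh v
    have h2 : (0 : ℝ) ≤ h := h.2
    nlinarith
  · have h3 : E2 S v v T' ≤ 1 := by
      unfold E2
      calc ∫ ω, mg S T' v ω * mg S T' v ω ∂S.P ≤ ∫ ω, (1 : ℝ) ∂S.P := by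
            apply integral_mono (int_mg_mul S T' T' v v) (integrable_const _)
            intro ω
            exact (le_abs_self _).trans (mul_le_one' (mg_le S T' v ω) (mg_le S T' v ω))
        _ = 1 := by simp
    have h4 : 0 ≤ E2 S v v T := by
      unfold E2
      exact integral_nonneg fun ω => mul_self_nonneg _
    have h5 : (1 : ℝ) < h := by exact_mod_cast hh
    nlinarith

/-- L² continuity of the covariances -/
theorem cv_diff_sq {s : ℝ≥0} (hs : 0 < s) (v u : V) : ∃ C : ℝ, 0 < C ∧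
    ∀ (T T' : V → ℝ≥0) (h : ℝ≥0), (∀ v, s ≤ T v) → T ≤ T' → (∀ v, T' v ≤ T v + h) →
    ∫ ω, (S.cv v u (S.XT T' ω) - S.cv v u (S.XT T ω)) ^ 2 ∂S.P ≤ C * h := by
  obtain ⟨C, hC, h1⟩ := mg_diff_sq S hs
  obtain ⟨L, hL, h2⟩ := S.crude
  set k := S.G.dist v u with hk
  refine ⟨L ^ 2 * ((k : ℝ) + 1) * (((k : ℝ) + 1) * C), by positivity,
    fun T T' h hsT hTT' hT'h => ?_⟩
  have hint : ∀ i, Integrable (fun ω => (mg S T' (geo S.G v u i) ω - mg S T (geo S.G v u i) ω) ^ 2)
      S.P := fun i => intb S (((mg_meas S T' _).sub (mg_meas S T _)).pow_const 2) 4 (fun ω => by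
        have h3 := mg_le S T' (geo S.G v u i) ω
        have h4 := mg_le S T (geo S.G v u i) ω
        rw [abs_pow]
        have h5 : |mg S T' (geo S.G v u i) ω - mg S T (geo S.G v u i) ω| ≤ 2 :=
          (abs_sub _ _).trans (by linarith)
        nlinarith [abs_nonneg (mg S T' (geo S.G v u i) ω - mg S T (geo S.G v u i) ω)])
  calc ∫ ω, (S.cv v u (S.XT T' ω) - S.cv v u (S.XT T ω)) ^ 2 ∂S.P
      ≤ ∫ ω, L ^ 2 * ((k : ℝ) + 1) * ∑ i ∈ range (k + 1),
          (mg S T' (geo S.G v u i) ω - mg S T (geo S.G v u i) ω) ^ 2 ∂S.P := by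
        apply integral_mono_ae
        · refine intb S (((cv_meas S T' v u).sub (cv_meas S T v u)).pow_const 2) 4 (fun ω => ?_)
          have h3 := cv_abs S v u (S.XT T' ω)
          have h4 := cv_abs S v u (S.XT T ω)
          rw [abs_pow]
          have h5 : |S.cv v u (S.XT T' ω) - S.cv v u (S.XT T ω)| ≤ 2 :=
            (abs_sub _ _).trans (by linarith)
          nlinarith [abs_nonneg (S.cv v u (S.XT T' ω) - S.cv v u (S.XT T ω))]
        · exact (integrable_finsetSum _ fun i _ => hint i).const_mul _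
        · filter_upwards [S.ae_good T, S.ae_good T'] with ω g g'
          have h3 := (h2 (S.XT T' ω) (S.XT T ω) g' g v u).1
          have h4 : |S.cv v u (S.XT T' ω) - S.cv v u (S.XT T ω)| ≤ L *
              ∑ i ∈ range (k + 1), |mg S T' (geo S.G v u i) ω - mg S T (geo S.G v u i) ω| := by
            refine h3.trans ?_
            have h5 := theta_pow_le S (S.G.dist v u)
            have h6 : 0 ≤ ∑ i ∈ range (S.G.dist v u + 1),
              |S.mag (geo S.G v u i) (S.XT T' ω) - S.mag (geo S.G v u i) (S.XT T ω)| :=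
              sum_nonneg fun _ _ => abs_nonneg _
            have h7 : L * S.θ ^ S.G.dist v u ≤ L * 1 := by gcongr
            calc _ ≤ L * 1 * ∑ i ∈ range (S.G.dist v u + 1),
              |S.mag (geo S.G v u i) (S.XT T' ω) - S.mag (geo S.G v u i) (S.XT T ω)| :=
                  mul_le_mul_of_nonneg_right h7 h6
              _ = _ := by rw [mul_one]; rfl
          have h8 := sq_sum_le_card_mul_sum_sq (s := range (k + 1))
            (f := fun i => |mg S T' (geo S.G v u i) ω - mg S T (geo S.G v u i) ω|)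
          simp only [card_range, sq_abs, Nat.cast_add, Nat.cast_one] at h8
          calc (S.cv v u (S.XT T' ω) - S.cv v u (S.XT T ω)) ^ 2
              = |S.cv v u (S.XT T' ω) - S.cv v u (S.XT T ω)| ^ 2 := (sq_abs _).symm
            _ ≤ (L * ∑ i ∈ range (k + 1),
                |mg S T' (geo S.G v u i) ω - mg S T (geo S.G v u i) ω|) ^ 2 := by gcongr
            _ = L ^ 2 * (∑ i ∈ range (k + 1),
                |mg S T' (geo S.G v u i) ω - mg S T (geo S.G v u i) ω|) ^ 2 := by ring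
            _ ≤ L ^ 2 * (((k : ℝ) + 1) * ∑ i ∈ range (k + 1),
                (mg S T' (geo S.G v u i) ω - mg S T (geo S.G v u i) ω) ^ 2) := by gcongr
            _ = _ := by ring
    _ = L ^ 2 * ((k : ℝ) + 1) * ∑ i ∈ range (k + 1),
          ∫ ω, (mg S T' (geo S.G v u i) ω - mg S T (geo S.G v u i) ω) ^ 2 ∂S.P := by
        rw [integral_const_mul, integral_finsetSum _ fun i _ => hint i]
    _ ≤ L ^ 2 * ((k : ℝ) + 1) * ∑ i ∈ range (k + 1), C * h := by
        gcongr with i hi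
        exact h1 T T' h hsT hTT' hT'h _
    _ = _ := by
        rw [sum_const, card_range, nsmul_eq_mul]
        push_cast
        ring

/-- the squares of the covariances: `|E cv(T')² - E cv(T)²| ≤ C √h`. -/
theorem cv_sq_diff {s : ℝ≥0} (hs : 0 < s) (v u : V) : ∃ C : ℝ, 0 < C ∧
    ∀ (T T' : V → ℝ≥0) (h : ℝ≥0), (∀ v, s ≤ T v) → T ≤ T' → (∀ v, T' v ≤ T v + h) →
    |∫ ω, S.cv v u (S.XT T' ω) ^ 2 ∂S.P - ∫ ω, S.cv v u (S.XT T ω) ^ 2 ∂S.P| ≤ C * √h := by
  obtain ⟨C, hC, h1⟩ := cv_diff_sq S hs v u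
  refine ⟨C + 1, by positivity, fun T T' h hsT hTT' hT'h => ?_⟩
  have h2 := h1 T T' h hsT hTT' hT'h
  have hi : ∀ T, Integrable (fun ω => S.cv v u (S.XT T ω) ^ 2) S.P := fun T =>
    intb S ((cv_meas S T v u).pow_const 2) 1 (fun ω => sq_abs_le_one (cv_abs S v u _))
  have hi2 : Integrable (fun ω => (S.cv v u (S.XT T' ω) - S.cv v u (S.XT T ω)) ^ 2) S.P := by
    refine intb S (((cv_meas S T' v u).sub (cv_meas S T v u)).pow_const 2) 4 (fun ω => ?_)
    have h3 := cv_abs S v u (S.XT T' ω)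
    have h4 := cv_abs S v u (S.XT T ω)
    rw [abs_pow]
    have h5 : |S.cv v u (S.XT T' ω) - S.cv v u (S.XT T ω)| ≤ 2 :=
      (abs_sub _ _).trans (by linarith)
    nlinarith [abs_nonneg (S.cv v u (S.XT T' ω) - S.cv v u (S.XT T ω))]
  rcases eq_or_lt_of_le (Real.sqrt_nonneg (h : ℝ)) with h0 | h0
  · -- `h = 0`
    have h00 : (h : ℝ) = 0 := by
      have := (Real.sqrt_eq_zero h.2).1 h0.symm
      exact this
    have h01 : h = 0 := by exact_mod_cast h00
    have h02 : T' = T := by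
      funext w
      exact le_antisymm (by simpa [h01] using hT'h w) (hTT' w)
    rw [h02, ← h0]
    simp
  rw [← integral_sub (hi T') (hi T)]
  refine (abs_integral_le_integral_abs).trans ?_
  set δ := √(h : ℝ) with hδ
  calc ∫ ω, |S.cv v u (S.XT T' ω) ^ 2 - S.cv v u (S.XT T ω) ^ 2| ∂S.P
      ≤ ∫ ω, (δ + (S.cv v u (S.XT T' ω) - S.cv v u (S.XT T ω)) ^ 2 / δ) ∂S.P := by
        apply integral_mono ((hi T').sub (hi T)).abs
          ((integrable_const _).add (hi2.div_const _))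
        intro ω
        simp only [Pi.sub_apply, Pi.add_apply]
        have h3 := cv_abs S v u (S.XT T' ω)
        have h4 := cv_abs S v u (S.XT T ω)
        set a := S.cv v u (S.XT T' ω)
        set b := S.cv v u (S.XT T ω)
        have h5 : |a ^ 2 - b ^ 2| ≤ 2 * |a - b| := by
          rw [show a ^ 2 - b ^ 2 = (a + b) * (a - b) by ring, abs_mul]
          gcongr
          exact (abs_add_le a b).trans (by linarith)
        refine h5.trans ?_
        have h6 : (a - b) ^ 2 = |a - b| ^ 2 := (sq_abs _).symm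
        rw [h6]
        have h7 : 0 ≤ (|a - b| - δ) ^ 2 / δ := by positivity
        have h8 : (|a - b| - δ) ^ 2 / δ = |a - b| ^ 2 / δ + δ - 2 * |a - b| := by
          field_simp
          ring
        linarith
    _ = δ + (∫ ω, (S.cv v u (S.XT T' ω) - S.cv v u (S.XT T ω)) ^ 2 ∂S.P) / δ := by
        rw [integral_add (integrable_const _) (hi2.div_const _), integral_div]
        simp
    _ ≤ δ + (C * h) / δ := by gcongr
    _ = (C + 1) * δ := by
        have h9 : (h : ℝ) = δ * δ := (Real.mul_self_sqrt h.2).symm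
        rw [h9]
        field_simp
        ring

end DynQaux
end Crest.Agent.R160
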