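import Crest.Agent.R160.Msg

/-! Row 160, piece Q (3a): `E msg² ≤ C √t`, `E m² ≤ C √t`; piece DECAY (3b). -/

set_option autoImplicit false
open Finset Filter MeasureTheory ProbabilityTheory
open scoped Topology NNReal ENNReal

namespace Crest.Agent.R160

namespace Qaux

theorem tanh_abs_le (t : ℝ) : |Real.tanh t| ≤ |t| := by
  have := Convex.norm_image_sub_le_of_norm_hasDerivWithin_le (f := Real.tanh)
    (f' := fun a => 1 - Real.tanh a ^ 2)
    (s := Set.univ) (C := 1) (x := 0) (y := t)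
    (fun x _ => (DetAaux.hasDerivAt_tanh x).hasDerivWithinAt) (fun x _ => by
      have ht := Real.abs_tanh_lt_one x
      have ht2 : Real.tanh x ^ 2 < 1 := (sq_lt_one_iff_abs_lt_one _).2 ht
      rw [Real.norm_eq_abs, abs_of_nonneg (by linarith)]
      linarith [sq_nonneg (Real.tanh x)]) convex_univ (Set.mem_univ _) (Set.mem_univ _)
  simpa using this

theorem tanh_sym_le {t : ℝ} (ht : 0 ≤ t) (a : ℝ) :
    Real.tanh (t + a) + Real.tanh (t - a) ≤ 2 * Real.tanh t := by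
  rw [Real.tanh_eq_sinh_div_cosh, Real.tanh_eq_sinh_div_cosh, Real.tanh_eq_sinh_div_cosh]
  have h1 := Real.cosh_pos (t + a)
  have h2 := Real.cosh_pos (t - a)
  have h3 := Real.cosh_pos t
  have hs : 0 ≤ Real.sinh t := Real.sinh_nonneg_iff.2 ht
  rw [div_add_div _ _ h1.ne' h2.ne', mul_div_assoc', div_le_div_iff₀ (mul_pos h1 h2) h3]
  have e1 : Real.sinh (t + a) * Real.cosh (t - a) + Real.cosh (t + a) * Real.sinh (t - a) =
      2 * Real.sinh t * Real.cosh t := by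
    rw [← Real.sinh_add, show t + a + (t - a) = 2 * t by ring, Real.sinh_two_mul]
  have e2 : Real.cosh (t + a) * Real.cosh (t - a) = Real.cosh t ^ 2 + Real.sinh a ^ 2 := by
    rw [Real.cosh_add, Real.cosh_sub]
    have h4 := Real.cosh_sq t
    have h5 := Real.cosh_sq a
    have : (Real.cosh t * Real.cosh a + Real.sinh t * Real.sinh a) *
        (Real.cosh t * Real.cosh a - Real.sinh t * Real.sinh a) =
        Real.cosh t ^ 2 * Real.cosh a ^ 2 - Real.sinh t ^ 2 * Real.sinh a ^ 2 := by ring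
    rw [this, h5]
    have h6 : Real.sinh t ^ 2 = Real.cosh t ^ 2 - 1 := by linarith
    rw [h6]; ring
  rw [e1, e2]
  nlinarith [mul_nonneg hs (sq_nonneg (Real.sinh a))]

/-- pulling out a measurable factor. -/
theorem integral_mul_condExp {Ω : Type} {m mΩ : MeasurableSpace Ω} {μ : Measure Ω}
    [IsProbabilityMeasure μ] (hm : m ≤ mΩ) {σ g f : Ω → ℝ} (hσ : Integrable σ μ)
    (hg : Measurable[m] g) (hgσ : Integrable (fun ω => g ω * σ ω) μ) (h : μ[σ | m] =ᵐ[μ] f) :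
    ∫ ω, g ω * σ ω ∂μ = ∫ ω, g ω * f ω ∂μ := by
  have h1 : μ[g * σ | m] =ᵐ[μ] g * μ[σ | m] :=
    condExp_mul_of_stronglyMeasurable_left hg.stronglyMeasurable hgσ hσ
  calc ∫ ω, g ω * σ ω ∂μ = ∫ ω, (μ[g * σ | m]) ω ∂μ := (integral_condExp hm).symm
    _ = ∫ ω, g ω * f ω ∂μ := by
      refine integral_congr_ae ?_
      filter_upwards [h1, h] with ω h2 h3
      rw [h2, Pi.mul_apply, h3]

/-- the fixed point inequality forces `q` to be small. -/
theorem fixpoint {q a s t : ℝ} {N : ℕ} (hN : 2 ≤ N) (hq0 : 0 ≤ q) (hq1 : q ≤ 1) (ha : 0 < a)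
    (hNa : a * N ≤ 1) (hs : s ≤ t) (ht : 0 ≤ t) (hs1 : s ≤ 1)
    (h : (1 - s) * (1 - a * q) ^ N ≤ 1 - q) : q ≤ √t / a := by
  obtain ⟨n, rfl⟩ : ∃ n, N = n + 2 := ⟨N - 2, by omega⟩
  set x := a * q with hx
  have hx0 : 0 ≤ x := mul_nonneg ha.le hq0
  have ha1 : a ≤ 1 / 2 := by
    have : (2 : ℝ) ≤ ((n + 2 : ℕ) : ℝ) := by exact_mod_cast hN
    nlinarith
  have hx1 : x ≤ 1 / 2 := by nlinarith
  have hbern : 1 + (n : ℝ) * (-x) ≤ (1 + (-x)) ^ n := one_add_mul_le_pow (by linarith) n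
  have hpow : 1 - q + x ^ 2 ≤ (1 - x) ^ (n + 2) := by
    have h1 : (1 - x) ^ (n + 2) = (1 - x) ^ 2 * (1 + (-x)) ^ n := by ring
    rw [h1]
    have h2 : (1 - x) ^ 2 * (1 + (n : ℝ) * (-x)) ≤ (1 - x) ^ 2 * (1 + (-x)) ^ n :=
      mul_le_mul_of_nonneg_left hbern (sq_nonneg _)
    refine le_trans ?_ h2
    have h3 : (1 - x) ^ 2 * (1 + (n : ℝ) * (-x)) =
        1 - (n + 2) * x + x ^ 2 + n * (x ^ 2 * (2 - x)) := by ring
    rw [h3]
    have h4 : 0 ≤ (n : ℝ) * (x ^ 2 * (2 - x)) :=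
      mul_nonneg (Nat.cast_nonneg n) (mul_nonneg (sq_nonneg _) (by linarith))
    have h5 : ((n : ℝ) + 2) * x ≤ q := by
      have : a * ((n + 2 : ℕ) : ℝ) * q ≤ 1 * q := mul_le_mul_of_nonneg_right hNa hq0
      push_cast at this
      rw [hx]; linarith
    linarith
  have h6 : (1 - s) * (1 - q + x ^ 2) ≤ 1 - q :=
    (mul_le_mul_of_nonneg_left hpow (by linarith)).trans h
  have h7 : x ^ 2 ≤ q := by
    have : x ^ 2 = a * a * q * q := by rw [hx]; ring
    rw [this]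
    have h8 : a * a ≤ 1 := by nlinarith
    have h9 : a * a * q ≤ 1 := by nlinarith [mul_nonneg ha.le ha.le]
    nlinarith
  have h8 : x ^ 2 ≤ t := by
    have h9 : 0 ≤ 1 - q + x ^ 2 := by nlinarith [sq_nonneg x]
    nlinarith [mul_le_mul_of_nonneg_right hs h9]
  rw [le_div_iff₀ ha, mul_comm]
  exact Real.le_sqrt_of_sq_le h8

end Qaux

namespace Setup

variable {V : Type} [DecidableEq V] [Countable V] (S : Setup V)

/-- integrability of bounded measurable functions -/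
theorem Q_int_bdd {f : Om V → ℝ} (hf : Measurable f) {C : ℝ} (hC : ∀ ω, |f ω| ≤ C) :
    Integrable f S.P := by
  refine Integrable.mono' (integrable_const C) hf.aestronglyMeasurable ?_
  exact Eventually.of_forall fun ω => by simpa using hC ω

theorem Q_tanh_sq_le (x : ℝ) : Real.tanh x ^ 2 ≤ 1 :=
  ((sq_lt_one_iff_abs_lt_one _).2 (Real.abs_tanh_lt_one x)).le

theorem Q_meas_XX_FF (t : ℝ≥0) (v : V) : Measurable[S.FF (fun _ => t) {v}] (S.XX t v) := by
  refine Measurable.mono (comap_measurable (S.XX t v)) ?_ le_rfl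
  exact le_iSup₂_of_le v rfl (le_iSup₂_of_le t (Set.mem_Iic.2 le_rfl) le_rfl)

theorem Q_prob_coin {p : ℝ} (h0 : 0 ≤ p) (h1 : p ≤ 1) : IsProbabilityMeasure (coin p) := by
  constructor
  unfold coin
  simp only [Measure.coe_add, Measure.coe_smul, Pi.add_apply, Pi.smul_apply, measure_univ,
    smul_eq_mul, mul_one]
  rw [← ENNReal.ofReal_add h0 (by linarith)]
  simp

theorem Q_prob_coins (o : Option (Sym2 V)) :
    IsProbabilityMeasure (coin (o.elim (1 / 2) fun _ => (1 + S.θ) / 2)) := by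
  have h0 := S.θpos
  have h1 := S.theta_lt_one
  cases o with
  | none => exact Q_prob_coin (by norm_num) (by norm_num)
  | some e =>
    have h2 : IsProbabilityMeasure (coin ((1 + S.θ) / 2)) :=
      Q_prob_coin (by linarith) (by linarith)
    exact h2

/-- the noise is symmetric given the spins. -/
theorem Q_inner (t : ℝ≥0) (v : V) (c : ℝ) :
    ∫ ξ : V → ℕ → ℝ, Real.tanh (t + c * S.β.b t (ξ v)) ∂(Measure.infinitePi fun _ : V => gmeas) ≤
      t := by
  have hmap : (Measure.infinitePi fun _ : V => gmeas).map (fun ξ => ξ v) = gmeas :=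
    (measurePreserving_eval_infinitePi (fun _ : V => gmeas) v).map_eq
  have hbm : ∀ c : ℝ, Measurable fun ξ : ℕ → ℝ => Real.tanh (t + c * S.β.b t ξ) := fun c =>
    Setup.measurable_tanh.comp (measurable_const.add (measurable_const.mul (S.β.meas t)))
  have h1 : ∫ ξ : V → ℕ → ℝ, Real.tanh (t + c * S.β.b t (ξ v))
      ∂(Measure.infinitePi fun _ : V => gmeas) = ∫ ξ, Real.tanh (t + c * S.β.b t ξ) ∂gmeas := by
    have h := integral_map (μ := Measure.infinitePi fun _ : V => gmeas) (φ := fun ξ => ξ v)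
      (f := fun ξ => Real.tanh (t + c * S.β.b t ξ)) (measurable_pi_apply v).aemeasurable
      (hbm c).aestronglyMeasurable
    rw [hmap] at h
    exact h.symm
  have h2 : ∫ ξ, Real.tanh (t + c * S.β.b t ξ) ∂gmeas = ∫ ξ, Real.tanh (t - c * S.β.b t ξ) ∂gmeas := by
    conv_lhs => rw [← gmeas_neg]
    rw [integral_map measurable_neg.aemeasurable (hbm c).aestronglyMeasurable]
    refine integral_congr_ae (Eventually.of_forall fun ξ => ?_)
    simp only
    rw [S.β.odd]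
    congr 1; ring
  have hint : ∀ c : ℝ, Integrable (fun ξ : ℕ → ℝ => Real.tanh (t + c * S.β.b t ξ)) gmeas := fun c => by
    refine Integrable.mono' (integrable_const (1 : ℝ)) (hbm c).aestronglyMeasurable ?_
    exact Eventually.of_forall fun ω => by simpa using (Real.abs_tanh_lt_one _).le
  have h3 : ∫ ξ, Real.tanh (t + c * S.β.b t ξ) ∂gmeas + ∫ ξ, Real.tanh (t - c * S.β.b t ξ) ∂gmeas ≤
      2 * t := by
    have hint' : Integrable (fun ξ : ℕ → ℝ => Real.tanh (t - c * S.β.b t ξ)) gmeas := by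
      have := hint (-c)
      simpa [sub_eq_add_neg] using this
    rw [← integral_add (hint c) hint']
    calc _ ≤ ∫ _ξ : ℕ → ℝ, (2 * (t : ℝ)) ∂gmeas := by
          refine integral_mono ((hint c).add hint') (integrable_const _) fun ξ => ?_
          have h4 := Qaux.tanh_sym_le t.2 (c * S.β.b t ξ)
          have h5 := Qaux.tanh_abs_le (t : ℝ)
          rw [abs_of_nonneg (NNReal.coe_nonneg t)] at h5
          have h6 := (le_abs_self _).trans h5
          simp only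
          have h7 : (2 : ℝ) * Real.tanh (t : ℝ) ≤ 2 * (t : ℝ) := by linarith
          exact h4.trans h7
      _ = 2 * t := by simp
  rw [h1]
  linarith

/-- own observation: `E tanh² X_v(t) ≤ t`. -/
theorem site_sq_le (t : ℝ≥0) (v : V) : ∫ ω, Real.tanh (S.XX t v ω) ^ 2 ∂S.P ≤ t := by
  have hXm := S.measurable_XX t v
  have hsm := S.measurable_spin v
  have htm : Measurable fun ω => Real.tanh (S.XX t v ω) := Setup.measurable_tanh.comp hXm
  have hs1 : ∀ ω, |S.spin v ω| ≤ 1 := fun ω => by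
    rcases S.spin_val v ω with h | h <;> simp [h]
  have hint : Integrable (S.spin v) S.P := S.Q_int_bdd hsm hs1
  have hint2 : Integrable (fun ω => Real.tanh (S.XX t v ω) * S.spin v ω) S.P := by
    refine S.Q_int_bdd (htm.mul hsm) (C := 1) fun ω => ?_
    rw [abs_mul]
    exact mul_le_one₀ (Real.abs_tanh_lt_one _).le (abs_nonneg _) (hs1 ω)
  have e1 : ∫ ω, Real.tanh (S.XX t v ω) ^ 2 ∂S.P = ∫ ω, Real.tanh (S.XX t v ω) * S.spin v ω ∂S.P := by
    have h0 := Qaux.integral_mul_condExp (g := fun ω => Real.tanh (S.XX t v ω))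
      (S.FF_le (fun _ => t) {v}) hint
      (Setup.measurable_tanh.comp (S.Q_meas_XX_FF t v)) hint2 (S.condExp_site t v)
    rw [h0]
    refine integral_congr_ae (Eventually.of_forall fun ω => ?_)
    simp only
    ring
  rw [e1]
  have e2 : ∀ ω, Real.tanh (S.XX t v ω) * S.spin v ω =
      Real.tanh (t + S.spin v ω * S.β.b t (ω.2 v)) := by
    intro ω
    unfold XX B
    rcases S.spin_val v ω with h | h
    · rw [h]; simp
    · rw [h, mul_neg_one, ← Real.tanh_neg]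
      congr 1; ring
  simp only [e2]
  have hint3 : Integrable (fun ω => Real.tanh (t + S.spin v ω * S.β.b t (ω.2 v))) S.P := by
    have := hint2
    simp only [e2] at this
    exact this
  unfold P at hint3 ⊢
  have hPc := S.Q_prob_coins
  rw [integral_prod _ hint3]
  calc _ ≤ ∫ _x, (t : ℝ) ∂(Measure.infinitePi fun o : Option (Sym2 V) =>
          coin (o.elim (1 / 2) fun _ => (1 + S.θ) / 2)) := by
        refine integral_mono hint3.integral_prod_left (integrable_const _) fun ω1 => ?_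
        simp only
        have h3 : ∀ ξ : V → ℕ → ℝ, S.spin v (ω1, ξ) = S.spin v (ω1, fun _ _ => 0) := fun ξ => rfl
        simp only [h3]
        exact S.Q_inner t v (S.spin v (ω1, fun _ _ => 0))
    _ = t := by
        rw [integral_const, probReal_univ, one_smul]

/-- the one-step inequality at a vertex. -/
theorem Q_step (t : ℝ≥0) (v : V) (N : Finset V) (hN : ∀ z ∈ N, S.G.Adj v z) :
    (1 - ∫ ω, Real.tanh (S.XX t v ω) ^ 2 ∂S.P) *
      ∏ z ∈ N, (1 - S.θ ^ 2 * ∫ ω, S.msg v z (S.Xt t ω) ^ 2 ∂S.P) ≤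
    1 - ∫ ω, Real.tanh (S.XX t v ω + ∑ z ∈ N, gf S.θ (S.cav v z (S.Xt t ω))) ^ 2 ∂S.P := by
  have hci := S.ci_vertex (fun _ => t) v N hN
  set 𝓐 : Option N → MeasurableSpace (Om V) := fun o => match o with
      | none => S.FF (fun _ => t) {v}
      | some z => S.FF (fun _ => t) (branch S.G v z) with h𝓐
  obtain ⟨F, hF, hFs, hFX⟩ := S.exists_flip
  set h : Option N → Om V → ℝ := fun o ω => match o with
      | none => S.XX t v ω
      | some z => gf S.θ (S.cav v z (S.Xt t ω)) with hh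
  have key := Bayes.one_sub_sq_ge (μ := S.P) (S.spin v) (S.measurable_spin v) (S.spin_val v)
    (S.integral_spin v) 𝓐 (by rintro (_ | z) <;> exact S.FF_le _ _) hci h
    (by
      rintro (_ | z)
      · exact S.Q_meas_XX_FF t v
      · exact (gf_continuous S.θpos S.theta_lt_one).measurable.comp
          (S.measurable_cav_FF (fun _ => t) (hN z z.2)))
    (by
      rintro (_ | z)
      · exact S.condExp_site t v
      · have hz := hN z z.2
        filter_upwards [S.condExp_cross (fun _ => t) hz, S.condExp_msg (fun _ => t) hz] with ω h1 h2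
        change (S.P[S.spin v | S.FF (fun _ => t) (branch S.G v z)]) ω =
          Real.tanh (gf S.θ (S.cav v z (S.Xt t ω)))
        rw [h1, h2, tanh_gf S.θpos S.theta_lt_one]
        rfl)
    F hF
    (by
      rintro (_ | z)
      · exact Eventually.of_forall fun ω => hFX t v ω
      · have hz := hN z z.2
        filter_upwards [S.ae_good (fun _ => t)] with ω hg
        change gf S.θ (S.cav v z (S.Xt t (F ω))) = - gf S.θ (S.cav v z (S.Xt t ω))
        have h1 : S.Xt t (F ω) = - S.Xt t ω := by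
          funext u
          exact hFX t u ω
        have h2 : S.Good (S.Xt t ω) := hg
        rw [h1, S.cav_neg h2 hz, gf_odd])
  rw [Fintype.prod_option] at key
  simp only [Fintype.sum_option] at key
  have e1 : ∏ z ∈ N, (1 - S.θ ^ 2 * ∫ ω, S.msg v z (S.Xt t ω) ^ 2 ∂S.P) =
      ∏ z : N, (1 - ∫ ω, Real.tanh (h (some z) ω) ^ 2 ∂S.P) := by
    rw [← Finset.prod_coe_sort]
    refine Finset.prod_congr rfl fun z _ => ?_
    congr 1
    rw [← integral_const_mul]
    refine integral_congr_ae (Eventually.of_forall fun ω => ?_)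
    change S.θ ^ 2 * S.msg v z (S.Xt t ω) ^ 2 = Real.tanh (gf S.θ (S.cav v z (S.Xt t ω))) ^ 2
    rw [tanh_gf S.θpos S.theta_lt_one]
    unfold msg
    ring
  have e2 : ∀ ω, ∑ z ∈ N, gf S.θ (S.cav v z (S.Xt t ω)) = ∑ z : N, h (some z) ω := by
    intro ω
    rw [← Finset.sum_coe_sort]
  rw [e1]
  simp only [e2]
  exact key

theorem Q_msg_integrable (t : ℝ≥0) (x y : V) :
    Integrable (fun ω => S.msg x y (S.Xt t ω) ^ 2) S.P := by
  refine S.Q_int_bdd (C := 1) (((measurable_tanh.comp (S.measurable_cav x y)).comp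
    (S.measurable_Xt t)).pow_const 2) fun ω => ?_
  rw [abs_of_nonneg (sq_nonneg _)]
  exact Q_tanh_sq_le _

theorem Q_msg_mem (t : ℝ≥0) (x y : V) : 0 ≤ ∫ ω, S.msg x y (S.Xt t ω) ^ 2 ∂S.P ∧
    ∫ ω, S.msg x y (S.Xt t ω) ^ 2 ∂S.P ≤ 1 := by
  refine ⟨integral_nonneg fun ω => sq_nonneg _, ?_⟩
  calc _ ≤ ∫ _ω, (1 : ℝ) ∂S.P := integral_mono (S.Q_msg_integrable t x y) (integrable_const _)
        fun ω => Q_tanh_sq_le _
    _ = 1 := by simp

theorem Q_site_mem (t : ℝ≥0) (v : V) : 0 ≤ ∫ ω, Real.tanh (S.XX t v ω) ^ 2 ∂S.P ∧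
    ∫ ω, Real.tanh (S.XX t v ω) ^ 2 ∂S.P ≤ 1 := by
  refine ⟨integral_nonneg fun ω => sq_nonneg _, ?_⟩
  calc _ ≤ ∫ _ω, (1 : ℝ) ∂S.P := by
        refine integral_mono (S.Q_int_bdd (C := 1)
          ((measurable_tanh.comp (S.measurable_XX t v)).pow_const 2) fun ω => ?_)
          (integrable_const _) fun ω => Q_tanh_sq_le _
        rw [abs_of_nonneg (sq_nonneg _)]
        exact Q_tanh_sq_le _
    _ = 1 := by simp

/-- (3a) for messages with the explicit constant. -/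
theorem Q_msg_sq_le (t : ℝ≥0) {x y : V} (hxy : S.G.Adj x y) :
    ∫ ω, S.msg x y (S.Xt t ω) ^ 2 ∂S.P ≤ √t / S.θ ^ 2 := by
  have hθ := S.θpos
  have hd3 := S.d_three
  set ι := {p : V × V // S.G.Adj p.1 p.2}
  set f : ι → ℝ := fun p => ∫ ω, S.msg p.1.1 p.1.2 (S.Xt t ω) ^ 2 ∂S.P with hf
  have hbdd : BddAbove (Set.range f) := ⟨1, by
    rintro _ ⟨p, rfl⟩
    exact (S.Q_msg_mem t _ _).2⟩
  have : Nonempty ι := ⟨⟨(x, y), hxy⟩⟩
  set q := ⨆ p, f p with hq
  have hle : ∀ x y : V, S.G.Adj x y → ∫ ω, S.msg x y (S.Xt t ω) ^ 2 ∂S.P ≤ q := fun x y h =>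
    le_ciSup hbdd (⟨(x, y), h⟩ : ι)
  have hq0 : 0 ≤ q := (S.Q_msg_mem t x y).1.trans (hle x y hxy)
  have hq1 : q ≤ 1 := ciSup_le fun p => (S.Q_msg_mem t _ _).2
  refine (hle x y hxy).trans ?_
  set s := ∫ ω, Real.tanh (S.XX t S.o ω) ^ 2 ∂S.P with hs
  have hN2 : 2 ≤ S.d - 1 := by omega
  have hcast : ((S.d - 1 : ℕ) : ℝ) = (S.d : ℝ) - 1 := by
    rw [Nat.cast_sub (by omega)]; simp
  have hθ2 : S.θ ^ 2 ≤ 1 / 2 := S.theta_sq_le_half
  rcases le_or_gt 1 (t : ℝ) with ht1 | ht1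
  · rw [le_div_iff₀ (by positivity)]
    have h1 : (1 : ℝ) ≤ √t := Real.one_le_sqrt.2 ht1
    nlinarith [sq_nonneg S.θ]
  refine Qaux.fixpoint (s := (t : ℝ)) (t := (t : ℝ)) (N := S.d - 1) hN2 hq0 hq1 (by positivity)
    (by rw [hcast]; exact S.θle) le_rfl t.2 ht1.le ?_
  have hx1 : 0 ≤ 1 - S.θ ^ 2 * q := by nlinarith [sq_nonneg S.θ]
  have hgoal : ∀ p : ι, f p ≤ 1 - (1 - (t : ℝ)) * (1 - S.θ ^ 2 * q) ^ (S.d - 1) := by
    rintro ⟨⟨a, b⟩, hab⟩
    change ∫ ω, S.msg a b (S.Xt t ω) ^ 2 ∂S.P ≤ _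
    have h1 := S.Q_step t b ((S.G.neighborFinset b).erase a) (fun z hz => by
      simpa using Finset.mem_of_mem_erase hz)
    have h2 : ∫ ω, S.msg a b (S.Xt t ω) ^ 2 ∂S.P = ∫ ω, Real.tanh (S.XX t b ω +
        ∑ z ∈ (S.G.neighborFinset b).erase a, gf S.θ (S.cav b z (S.Xt t ω))) ^ 2 ∂S.P := by
      refine integral_congr_ae ?_
      filter_upwards [S.ae_good (fun _ => t)] with ω hg
      have hg' : S.Good (S.Xt t ω) := hg
      unfold msg
      rw [S.cav_rec hg' hab]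
      rfl
    rw [← h2] at h1
    have h3 : (1 - S.θ ^ 2 * q) ^ (S.d - 1) ≤ ∏ z ∈ (S.G.neighborFinset b).erase a,
        (1 - S.θ ^ 2 * ∫ ω, S.msg b z (S.Xt t ω) ^ 2 ∂S.P) := by
      have hcard : ((S.G.neighborFinset b).erase a).card = S.d - 1 := by
        rw [Finset.card_erase_of_mem (by simpa using hab.symm), Detaux.card_nbr]
      rw [← hcard, ← Finset.prod_const]
      refine Finset.prod_le_prod (fun z _ => hx1) fun z hz => ?_
      have hbz : S.G.Adj b z := by simpa using Finset.mem_of_mem_erase hz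
      have := hle b z hbz
      nlinarith [sq_nonneg S.θ]
    have h4 := S.site_sq_le t b
    have h5 : (1 - (t : ℝ)) * (1 - S.θ ^ 2 * q) ^ (S.d - 1) ≤
        (1 - ∫ ω, Real.tanh (S.XX t b ω) ^ 2 ∂S.P) * ∏ z ∈ (S.G.neighborFinset b).erase a,
        (1 - S.θ ^ 2 * ∫ ω, S.msg b z (S.Xt t ω) ^ 2 ∂S.P) := by
      refine mul_le_mul (by linarith) h3 (pow_nonneg hx1 _) ?_
      linarith
    linarith
  have h6 : q ≤ 1 - (1 - (t : ℝ)) * (1 - S.θ ^ 2 * q) ^ (S.d - 1) := ciSup_le hgoal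
  linarith

/-- (3a) for messages. PROOF: with `q_n = E tanh²(fld n x y X_t)`, `Bayes.one_sub_sq_ge` gives
`q_{n+1} ≤ 1 - (1-t)(1-θ² q_n)^(d-1)`, `q_0 = 0`; as `θ²(d-1) ≤ 1`, `q ↦` that function maps
`[0, C√t]` into itself for `C² ≥ 4(d-1)/(d-2)` and small `t`; let `n → ∞`. -/
theorem msg_sq_le : ∃ C : ℝ, 0 < C ∧ ∀ t : ℝ≥0, ∀ x y : V, S.G.Adj x y →
    ∫ ω, S.msg x y (S.Xt t ω) ^ 2 ∂S.P ≤ C * √t := by
  have hθ := S.θpos
  refine ⟨1 / S.θ ^ 2, by positivity, fun t x y hxy => ?_⟩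
  have := S.Q_msg_sq_le t hxy
  calc _ ≤ √t / S.θ ^ 2 := this
    _ = _ := by ring

theorem m_sq_le : ∃ C : ℝ, 0 < C ∧ ∀ t : ℝ≥0, ∀ v : V, ∫ ω, S.m t v ω ^ 2 ∂S.P ≤ C * √t := by
  have hθ := S.θpos
  refine ⟨S.d + 1, by positivity, fun t v => ?_⟩
  have hm1 : ∫ ω, S.m t v ω ^ 2 ∂S.P ≤ 1 := by
    calc _ ≤ ∫ _ω, (1 : ℝ) ∂S.P := by
          refine integral_mono (S.Q_int_bdd (C := 1) ((S.measurable_m t v).pow_const 2) fun ω => ?_)
            (integrable_const _) fun ω => Q_tanh_sq_le _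
          rw [abs_of_nonneg (sq_nonneg _)]
          exact Q_tanh_sq_le _
      _ = 1 := by simp
  rcases le_or_gt 1 (t : ℝ) with ht1 | ht1
  · have h1 : (1 : ℝ) ≤ √t := Real.one_le_sqrt.2 ht1
    nlinarith [Nat.cast_nonneg (α := ℝ) S.d]
  have h1 := S.Q_step t v (S.G.neighborFinset v) (fun z hz => by simpa using hz)
  have h2 : ∫ ω, S.m t v ω ^ 2 ∂S.P = ∫ ω, Real.tanh (S.XX t v ω +
      ∑ z ∈ S.G.neighborFinset v, gf S.θ (S.cav v z (S.Xt t ω))) ^ 2 ∂S.P := rfl
  rw [← h2] at h1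
  have hsq : √(t : ℝ) ≤ 1 := Real.sqrt_le_one.2 ht1.le
  have hsq0 : 0 ≤ √(t : ℝ) := Real.sqrt_nonneg _
  have hsqt : (t : ℝ) ≤ √t := by
    have := Real.mul_self_sqrt (NNReal.coe_nonneg t)
    nlinarith
  have h3 : (1 - √(t : ℝ)) ^ S.d ≤ ∏ z ∈ S.G.neighborFinset v,
      (1 - S.θ ^ 2 * ∫ ω, S.msg v z (S.Xt t ω) ^ 2 ∂S.P) := by
    rw [← Detaux.card_nbr S v, ← Finset.prod_const]
    refine Finset.prod_le_prod (fun z _ => by linarith) fun z hz => ?_
    have hvz : S.G.Adj v z := by simpa using hz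
    have := S.Q_msg_sq_le t hvz
    rw [le_div_iff₀ (by positivity)] at this
    linarith
  have h3' : 1 + (S.d : ℝ) * (-√(t : ℝ)) ≤ (1 + -√(t : ℝ)) ^ S.d :=
    one_add_mul_le_pow (by linarith) S.d
  have h4 := S.site_sq_le t v
  have h4' := (S.Q_site_mem t v)
  set p := ∏ z ∈ S.G.neighborFinset v, (1 - S.θ ^ 2 * ∫ ω, S.msg v z (S.Xt t ω) ^ 2 ∂S.P) with hp
  have hp1 : p ≤ 1 := by
    refine Finset.prod_le_one (fun z _ => ?_) fun z _ => ?_
    · have := (S.Q_msg_mem t v z).2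
      have := S.theta_sq_le_half
      nlinarith [sq_nonneg S.θ]
    · have := (S.Q_msg_mem t v z).1
      nlinarith [sq_nonneg S.θ]
  have h5 : 1 - (S.d : ℝ) * √(t : ℝ) ≤ p := by
    have : (1 + -√(t : ℝ)) ^ S.d = (1 - √(t : ℝ)) ^ S.d := by rw [sub_eq_add_neg]
    linarith
  nlinarith

/-- `q t = E m_v(t)²` for every `v`. -/
theorem q_eq (t : ℝ≥0) (v : V) : ∫ ω, S.m t v ω ^ 2 ∂S.P = S.q t := by
  obtain ⟨γ, hγ⟩ := exists_aut_map S.rt S.o v
  have h1 := S.measurePreserving_act γ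
  unfold q
  have h2 : ∫ ω, S.m t S.o ω ^ 2 ∂S.P = ∫ ω, S.m t S.o (S.act γ ω) ^ 2 ∂S.P := by
    conv_lhs => rw [← h1.map_eq]
    rw [integral_map h1.measurable.aemeasurable]
    exact ((S.measurable_m t S.o).pow_const 2).aestronglyMeasurable
  rw [h2]
  simp only [m_act, hγ]

theorem Q_law_B (t : ℝ≥0) (v : V) : S.P.map (fun ω => S.B t v ω) = gaussianReal 0 t := by
  have h := S.law_B_inc (zero_le (a := t)) v
  have h0 : ∀ ω, S.B 0 v ω = 0 := fun ω => S.β.zero _
  simpa [h0] using h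

theorem Q_B_sq (t : ℝ≥0) (v : V) : Integrable (fun ω => S.B t v ω ^ 2) S.P ∧
    ∫ ω, S.B t v ω ^ 2 ∂S.P = t := by
  have hB := S.measurable_B t v
  have hl := S.Q_law_B t v
  have hmem : MemLp id 2 (gaussianReal 0 t) := memLp_id_gaussianReal' 2 (by simp)
  have hi : Integrable (fun x : ℝ => x ^ 2) (gaussianReal 0 t) := hmem.integrable_sq
  constructor
  · rw [← hl] at hi
    exact (integrable_map_measure (by fun_prop) hB.aemeasurable).1 hi
  · have h1 : ∫ x, x ^ 2 ∂(gaussianReal 0 t) = t := by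
      have h2 := variance_id_gaussianReal (μ := 0) (v := t)
      rw [variance_eq_sub hmem] at h2
      simpa [integral_id_gaussianReal] using h2
    rw [← hl, integral_map hB.aemeasurable (by fun_prop)] at h1
    exact h1

theorem Q_lower (t : ℝ≥0) (ht : 0 < t) (v : V) : 1 - 1 / (t : ℝ) ≤ ∫ ω, S.m t v ω ^ 2 ∂S.P := by
  have ht' : (0 : ℝ) < t := by exact_mod_cast ht
  have hXm := S.measurable_XX t v
  have hsm := S.measurable_spin v
  have hmm := S.measurable_m t v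
  have hBm := S.measurable_B t v
  obtain ⟨hB2, hBv⟩ := S.Q_B_sq t v
  have hBi : Integrable (fun ω => S.B t v ω) S.P := by
    refine Integrable.mono' (hB2.add (integrable_const 1)) hBm.aestronglyMeasurable ?_
    refine Eventually.of_forall fun ω => ?_
    simp only [Pi.add_apply, Real.norm_eq_abs]
    nlinarith [sq_abs (S.B t v ω), sq_nonneg (|S.B t v ω| - 1), abs_nonneg (S.B t v ω)]
  have hs1 : ∀ ω, |S.spin v ω| ≤ 1 := fun ω => by
    rcases S.spin_val v ω with h | h <;> simp [h]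
  have hint : Integrable (S.spin v) S.P := S.Q_int_bdd hsm hs1
  have hXi : Integrable (fun ω => S.XX t v ω) S.P := by
    have : (fun ω => S.XX t v ω) = fun ω => (t : ℝ) * S.spin v ω + S.B t v ω := rfl
    rw [this]
    exact (hint.const_mul _).add hBi
  have hXs : Integrable (fun ω => S.XX t v ω * S.spin v ω) S.P :=
    hXi.mul_bdd (c := 1) hsm.aestronglyMeasurable (Eventually.of_forall fun ω => hs1 ω)
  have hXmm : Integrable (fun ω => S.XX t v ω * S.m t v ω) S.P :=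
    hXi.mul_bdd (c := 1) hmm.aestronglyMeasurable
      (Eventually.of_forall fun ω => (Real.abs_tanh_lt_one _).le)
  have hle : S.FF (fun _ => t) {v} ≤ S.FF (fun _ => t) Set.univ :=
    S.FF_mono le_rfl (Set.subset_univ _)
  have e1 : ∫ ω, S.XX t v ω * S.spin v ω ∂S.P = ∫ ω, S.XX t v ω * S.m t v ω ∂S.P :=
    Qaux.integral_mul_condExp (g := fun ω => S.XX t v ω) (f := fun ω => S.m t v ω)
      (S.FF_le (fun _ => t) Set.univ) hint ((S.Q_meas_XX_FF t v).mono hle le_rfl) hXs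
      (S.condExp_mag (fun _ => t) v)
  have hm2 : Integrable (fun ω => S.m t v ω ^ 2) S.P := by
    refine S.Q_int_bdd (C := 1) (hmm.pow_const 2) fun ω => ?_
    rw [abs_of_nonneg (sq_nonneg _)]
    exact Q_tanh_sq_le _
  -- `X² - 2 t τ X = B² - t²`
  have hX2 : ∀ ω, S.XX t v ω ^ 2 - 2 * t * (S.XX t v ω * S.spin v ω) = S.B t v ω ^ 2 - (t : ℝ) ^ 2 := by
    intro ω
    have hsp := S.spin_sq v ω
    unfold XX
    have : ((t : ℝ) * S.spin v ω + S.B t v ω) ^ 2 -
        2 * t * (((t : ℝ) * S.spin v ω + S.B t v ω) * S.spin v ω) =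
        S.B t v ω ^ 2 - (t : ℝ) ^ 2 * S.spin v ω ^ 2 := by ring
    rw [this, hsp, mul_one]
  have hX2i : Integrable (fun ω => S.XX t v ω ^ 2) S.P := by
    have h1 : (fun ω => S.XX t v ω ^ 2) = fun ω => (S.B t v ω ^ 2 - (t : ℝ) ^ 2) +
        2 * t * (S.XX t v ω * S.spin v ω) := by
      funext ω
      linarith [hX2 ω]
    rw [h1]
    exact (hB2.sub (integrable_const _)).add (hXs.const_mul _)
  have e2 : ∫ ω, S.XX t v ω ^ 2 ∂S.P - 2 * t * ∫ ω, S.XX t v ω * S.spin v ω ∂S.P = t - (t : ℝ) ^ 2 := by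
    rw [← integral_const_mul, ← integral_sub hX2i (hXs.const_mul _)]
    simp only [hX2]
    rw [integral_sub hB2 (integrable_const _), hBv]
    simp
  have e3 : 0 ≤ ∫ ω, (S.XX t v ω - t * S.m t v ω) ^ 2 ∂S.P := integral_nonneg fun ω => sq_nonneg _
  have e4 : ∫ ω, (S.XX t v ω - t * S.m t v ω) ^ 2 ∂S.P = ∫ ω, S.XX t v ω ^ 2 ∂S.P -
      2 * t * ∫ ω, S.XX t v ω * S.m t v ω ∂S.P + (t : ℝ) ^ 2 * ∫ ω, S.m t v ω ^ 2 ∂S.P := by
    have h1 := integral_add (hX2i.sub (hXmm.const_mul (2 * (t : ℝ)))) (hm2.const_mul ((t : ℝ) ^ 2))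
    have h2 := integral_sub hX2i (hXmm.const_mul (2 * (t : ℝ)))
    rw [integral_const_mul] at h1 h2
    simp only [Pi.sub_apply] at h1 h2
    rw [h2] at h1
    rw [← h1]
    refine integral_congr_ae (Eventually.of_forall fun ω => ?_)
    simp only
    ring
  rw [e4, ← e1] at e3
  have e5 : 0 ≤ (t : ℝ) - t ^ 2 + t ^ 2 * ∫ ω, S.m t v ω ^ 2 ∂S.P := by linarith
  have e6 : 1 - 1 / (t : ℝ) = (t ^ 2 - t) / t ^ 2 := by
    field_simp
  rw [e6, div_le_iff₀ (by positivity)]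
  linarith

/-- `E m_v(t)² → 1` (it is at least `E tanh² X_v(t)`). -/
theorem tendsto_q : Tendsto S.q atTop (𝓝 1) := by
  have h1 : Tendsto (fun t : ℝ≥0 => 1 - 1 / (t : ℝ)) atTop (𝓝 1) := by
    have h2 : Tendsto (fun t : ℝ≥0 => 1 / (t : ℝ)) atTop (𝓝 0) := by
      simp only [one_div]
      exact tendsto_inv_atTop_zero.comp (NNReal.tendsto_coe_atTop.2 tendsto_id)
    simpa using tendsto_const_nhds.sub h2
  refine tendsto_of_tendsto_of_tendsto_of_le_of_le' h1 tendsto_const_nhds ?_ ?_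
  · filter_upwards [eventually_gt_atTop (0 : ℝ≥0)] with t ht
    rw [← S.q_eq t S.o]
    exact S.Q_lower t ht S.o
  · refine Eventually.of_forall fun t => ?_
    unfold q
    calc _ ≤ ∫ _ω, (1 : ℝ) ∂S.P := by
          refine integral_mono (S.Q_int_bdd (C := 1) ((S.measurable_m t _).pow_const 2) fun ω => ?_)
            (integrable_const _) fun ω => Q_tanh_sq_le _
          rw [abs_of_nonneg (sq_nonneg _)]
          exact Q_tanh_sq_le _
      _ = 1 := by simp

end Setup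
end Crest.Agent.R160
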