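import Crest.Agent.R160.DynU
import Crest.Agent.R160.DynQ2
import Crest.Agent.R160.Q

/-! Row 160, piece DYNQ: `q' = ∑_u E A_vu²` in local form, monotonicity, L²-continuity.

One-site update: at times `T`, let `T' = update T z (T z + h)`. Then (`mag_update`, `full_update`)
`mag v (XT T') - mag v (XT T) = aa z v (XT T) * (tanh (full z + y) - tanh (full z))`,
`y = X_z(T z + h) - X_z(T z) = h τ_z + (B increment)`, the increment being `N(0,h)` and independent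
of `FF T ∨ σ(τ)`; `|tanh (a+y) - tanh a - (1 - tanh² a) y| ≤ y²`. Moreover
`E[(mag v (XT T') - mag v (XT T)) Z] = 0` for `Z ∈ FF T`. Update the sites of `F` one after the
other (for upper bounds: all sites `z_1, z_2, ...`, with `FF T_i ↑ Ft (t+h)` and martingale
convergence). -/

set_option autoImplicit false
open Finset Filter MeasureTheory ProbabilityTheory
open scoped Topology NNReal ENNReal

namespace Crest.Agent.R160
namespace Setup

variable {V : Type} [DecidableEq V] [Countable V] (S : Setup V)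

/-- the products of increments are nonnegative: `E A_vu(t)` decreases in `t`. -/
theorem integral_A_antitone (v u : V) {s t : ℝ≥0} (h : s ≤ t) :
    ∫ ω, S.A t v u ω ∂S.P ≤ ∫ ω, S.A s v u ω ∂S.P := by
  have h1 := S.integral_cv (fun _ => t) v u
  have h2 := S.integral_cv (fun _ => s) v u
  have h3 := DynQaux.E2_mono S (T := fun _ => s) (T' := fun _ => t) (fun _ => h) v u
  change ∫ ω, S.cv v u (S.XT (fun _ => t) ω) ∂S.P ≤ ∫ ω, S.cv v u (S.XT (fun _ => s) ω) ∂S.P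
  rw [h1, h2]
  unfold DynQaux.E2 DynQaux.mg at h3
  linarith

/-- L²-continuity, locally uniform on `(0,∞)`. -/
theorem m_cont {s T : ℝ≥0} (hs : 0 < s) : ∃ C : ℝ, 0 < C ∧ ∀ t h : ℝ≥0, s ≤ t → t + h ≤ T → ∀ v : V,
    ∫ ω, (S.m (t + h) v ω - S.m t v ω) ^ 2 ∂S.P ≤ C * h := by
  obtain ⟨C, hC, h1⟩ := DynQaux.mg_diff_sq S hs
  exact ⟨C, hC, fun t h hst _ v => h1 (fun _ => t) (fun _ => t + h) h (fun _ => hst)
    (fun _ => le_self_add) (fun _ => le_rfl) v⟩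

theorem A_cont {s T : ℝ≥0} (hs : 0 < s) (v u : V) : ∃ C : ℝ, 0 < C ∧ ∀ t h : ℝ≥0, s ≤ t → t + h ≤ T →
    ∫ ω, (S.A (t + h) v u ω - S.A t v u ω) ^ 2 ∂S.P ≤ C * h := by
  obtain ⟨C, hC, h1⟩ := DynQaux.cv_diff_sq S hs v u
  exact ⟨C, hC, fun t h hst _ => h1 (fun _ => t) (fun _ => t + h) h (fun _ => hst)
    (fun _ => le_self_add) (fun _ => le_rfl)⟩

theorem dynQ_diff (v : V) (t h : ℝ≥0) : S.q (t + h) - S.q t =
    DynQaux.E2 S v v (fun _ => t + h) - DynQaux.E2 S v v (fun _ => t) := by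
  rw [← S.q_eq (t + h) v, ← S.q_eq t v]
  unfold DynQaux.E2
  simp only [sq]
  rfl

/-- uniform comparison of the steps of the path with `h E A²` -/
theorem dynQ_step_A {s : ℝ≥0} (hs : 0 < s) (v u : V) : ∃ C : ℝ, 0 < C ∧
    ∀ (e : V ≃ ℕ) (t h : ℝ≥0), s ≤ t → h ≤ 1 →
    |DynQaux.E2 S v v (DynQaux.pth e (fun _ => t) (fun _ => t + h) (e u + 1)) -
      DynQaux.E2 S v v (DynQaux.pth e (fun _ => t) (fun _ => t + h) (e u)) -
      h * ∫ ω, S.A t v u ω ^ 2 ∂S.P| ≤ C * (h : ℝ) * √h := by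
  obtain ⟨C, c0, hC, hc0, hc1, hst⟩ := DynQaux.step_bounds S
  obtain ⟨C', hC', h1⟩ := DynQaux.cv_sq_diff S hs v u
  refine ⟨C * DynQaux.wt S (c0 * min 1 (s : ℝ)) v u + C', ?_, fun e t h hst' hh => ?_⟩
  · have := DynQaux.wt_nonneg S (DynQaux.cle hc0 hc1 s) v u
    positivity
  have hT1 : (fun _ : V => t) ≤ fun _ => t + h := fun v => le_self_add
  set Tn := DynQaux.pth e (fun _ => t) (fun _ => t + h) (e u) with hTn
  have hs' : ∀ w, s ≤ Tn w := fun w => hst'.trans (DynQaux.le_pth e hT1 (e u) w)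
  have h2 := hst s Tn h hs' hh v u
  have h3 : DynQaux.pth e (fun _ => t) (fun _ => t + h) (e u + 1) =
      Function.update Tn u (Tn u + h) := by
    rw [DynQaux.pth_succ, e.symm_apply_apply]
    have : Tn u = t := by
      have := DynQaux.pth_at e (fun _ => t) (fun _ => t + h) (e u)
      rwa [e.symm_apply_apply] at this
    rw [this]
  rw [h3]
  have h4 := h1 (fun _ => t) Tn h (fun _ => hst') (DynQaux.le_pth e hT1 (e u))
    (DynQaux.pth_le e hT1 (e u))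
  have hnn : (0 : ℝ) ≤ h := h.2
  have h5 : |(h : ℝ) * (∫ ω, S.cv v u (S.XT Tn ω) ^ 2 ∂S.P - ∫ ω, S.A t v u ω ^ 2 ∂S.P)| ≤
      h * (C' * √h) := by
    rw [abs_mul, abs_of_nonneg hnn]
    exact mul_le_mul_of_nonneg_left h4 hnn
  have h6 := (abs_add_le _ _).trans (add_le_add h2 h5)
  refine le_trans (le_of_eq ?_) (h6.trans (le_of_eq ?_))
  · congr 1; ring
  · ring

/-- local lower bound for `q`. -/
theorem q_lower {s T : ℝ≥0} (hs : 0 < s) (v : V) (F : Finset V) (ε : ℝ) (hε : 0 < ε) :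
    ∃ h0 : ℝ≥0, 0 < h0 ∧ ∀ t h : ℝ≥0, s ≤ t → t + h ≤ T → h ≤ h0 →
      h * (∑ u ∈ F, ∫ ω, S.A t v u ω ^ 2 ∂S.P - ε) ≤ S.q (t + h) - S.q t := by
  obtain ⟨e⟩ := DynQaux.exists_equiv S
  choose C hC h1 using fun u => S.dynQ_step_A hs v u
  set D := ∑ u ∈ F, C u + 1 with hD
  have hD0 : 0 < D := by
    have : 0 ≤ ∑ u ∈ F, C u := sum_nonneg fun u _ => (hC u).le
    positivity
  have hx : 0 < min 1 (ε / D) := lt_min one_pos (by positivity)
  refine ⟨Real.toNNReal (min 1 (ε / D) ^ 2), Real.toNNReal_pos.2 (pow_pos hx 2), fun t h hst _ hh => ?_⟩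
  have hh' : (h : ℝ) ≤ min 1 (ε / D) ^ 2 := by
    have := (Real.le_toNNReal_iff_coe_le (pow_pos hx 2).le).1 hh
    exact this
  have hsq : √(h : ℝ) ≤ min 1 (ε / D) := by
    rw [Real.sqrt_le_left hx.le]; exact hh'
  have hh1 : h ≤ 1 := by
    have : (h : ℝ) ≤ 1 := hh'.trans (pow_le_one₀ hx.le (min_le_left _ _))
    exact_mod_cast this
  have hT1 : (fun _ : V => t) ≤ fun _ => t + h := fun v => le_self_add
  have hnn : (0 : ℝ) ≤ h := h.2
  rw [S.dynQ_diff v t h]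
  set Tn := DynQaux.pth e (fun _ => t) (fun _ => t + h) with hTn
  -- lower bound: telescoping sum of nonnegative steps
  obtain ⟨N, hN⟩ : ∃ N, ∀ u ∈ F, e u < N :=
    ⟨F.sup e + 1, fun u hu => Nat.lt_succ_of_le (Finset.le_sup (f := e) hu)⟩
  have hmono := DynQaux.E2_mono S (DynQaux.pth_le e hT1 N) v v
  have htel : DynQaux.E2 S v v (Tn N) - DynQaux.E2 S v v (fun _ => t) =
      ∑ k ∈ range N, (DynQaux.E2 S v v (Tn (k + 1)) - DynQaux.E2 S v v (Tn k)) := by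
    rw [Finset.sum_range_sub (fun k => DynQaux.E2 S v v (Tn k)), hTn, DynQaux.pth_zero]
  have hsub : F.map e.toEmbedding ⊆ range N := by
    intro k hk
    obtain ⟨u, hu, rfl⟩ := Finset.mem_map.1 hk
    exact mem_range.2 (hN u hu)
  have h2 : ∑ u ∈ F, (DynQaux.E2 S v v (Tn (e u + 1)) - DynQaux.E2 S v v (Tn (e u))) ≤
      ∑ k ∈ range N, (DynQaux.E2 S v v (Tn (k + 1)) - DynQaux.E2 S v v (Tn k)) := by
    have := sum_le_sum_of_subset_of_nonneg hsub
      (f := fun k => DynQaux.E2 S v v (Tn (k + 1)) - DynQaux.E2 S v v (Tn k))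
      (fun k _ _ => sub_nonneg.2 (DynQaux.E2_step S e hT1 v v k))
    rwa [sum_map] at this
  have h3 : ∑ u ∈ F, (h * ∫ ω, S.A t v u ω ^ 2 ∂S.P - C u * (h : ℝ) * √h) ≤
      ∑ u ∈ F, (DynQaux.E2 S v v (Tn (e u + 1)) - DynQaux.E2 S v v (Tn (e u))) := by
    refine sum_le_sum fun u _ => ?_
    have := (abs_le.1 (h1 u e t h hst hh1)).1
    linarith
  have h4 : ∑ u ∈ F, (h * ∫ ω, S.A t v u ω ^ 2 ∂S.P - C u * (h : ℝ) * √h) =
      h * (∑ u ∈ F, ∫ ω, S.A t v u ω ^ 2 ∂S.P) - h * (√h * ∑ u ∈ F, C u) := by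
    rw [sum_sub_distrib, ← mul_sum, ← sum_mul, ← sum_mul]
    ring
  have h5 : √h * ∑ u ∈ F, C u ≤ ε := by
    calc √h * ∑ u ∈ F, C u ≤ (ε / D) * D := by
          have : 0 ≤ ∑ u ∈ F, C u := sum_nonneg fun u _ => (hC u).le
          have h6 : √(h : ℝ) ≤ ε / D := hsq.trans (min_le_right _ _)
          have h7 : ∑ u ∈ F, C u ≤ D := by rw [hD]; linarith
          gcongr
      _ = ε := by field_simp
  have h6 : (h : ℝ) * (√h * ∑ u ∈ F, C u) ≤ h * ε := mul_le_mul_of_nonneg_left h5 hnn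
  rw [mul_sub]
  linarith

/-- local upper bound for `q`. -/
theorem q_upper {s T : ℝ≥0} (hs : 0 < s) (v : V) (ε : ℝ) (hε : 0 < ε) :
    ∃ (h0 : ℝ≥0) (F : Finset V), 0 < h0 ∧ ∀ t h : ℝ≥0, s ≤ t → t + h ≤ T → h ≤ h0 →
      S.q (t + h) - S.q t ≤ h * (∑ u ∈ F, ∫ ω, S.A t v u ω ^ 2 ∂S.P + ε) := by
  classical
  obtain ⟨e⟩ := DynQaux.exists_equiv S
  choose C hC h1 using fun u => S.dynQ_step_A hs v u
  obtain ⟨C1, c0, hC1, hc0, hc1, hst⟩ := DynQaux.step_bounds S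
  obtain ⟨c2, hc20, hc21, hsq⟩ := DynQaux.aa_sq_le S
  set a := c0 * min 1 (s : ℝ) with ha
  set b := c2 * min 1 (s : ℝ) with hb
  have ha0 : 0 < a := DynQaux.cpos hc0 hs
  have hb0 : 0 < b := DynQaux.cpos hc20 hs
  have ha1 : a ≤ 1 := DynQaux.cle hc0 hc1 s
  have hb1 : b ≤ 1 := DynQaux.cle hc20 hc21 s
  set w : V → ℝ := fun u => C1 * DynQaux.wt S a v u + DynQaux.wt S b v u with hw
  have hw0 : ∀ u, 0 ≤ w u := fun u => by
    have := DynQaux.wt_nonneg S ha1 v u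
    have := DynQaux.wt_nonneg S hb1 v u
    simp only [hw]
    positivity
  have hwS : Summable w :=
    ((DynQaux.wt_summable S ha0 ha1 v).mul_left C1).add (DynQaux.wt_summable S hb0 hb1 v)
  -- choose `F`
  obtain ⟨F, hF⟩ : ∃ F : Finset V, ∀ F' : Finset V, Disjoint F' F → ∑ u ∈ F', w u ≤ ε / 2 := by
    have := summable_iff_vanishing_norm.1 hwS (ε / 2) (by positivity)
    obtain ⟨F, hF⟩ := this
    refine ⟨F, fun F' hd => ?_⟩
    have h2 := hF F' hd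
    rw [Real.norm_eq_abs] at h2
    exact ((le_abs_self _).trans_lt h2).le
  set D := ∑ u ∈ F, C u + 1 with hD
  have hD0 : 0 < D := by
    have : 0 ≤ ∑ u ∈ F, C u := sum_nonneg fun u _ => (hC u).le
    positivity
  have hx : 0 < min 1 (ε / 2 / D) := lt_min one_pos (by positivity)
  refine ⟨Real.toNNReal (min 1 (ε / 2 / D) ^ 2), F, Real.toNNReal_pos.2 (pow_pos hx 2), fun t h hst' _ hh => ?_⟩
  have hh' : (h : ℝ) ≤ min 1 (ε / 2 / D) ^ 2 := by
    have := (Real.le_toNNReal_iff_coe_le (pow_pos hx 2).le).1 hh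
    exact this
  have hsq' : √(h : ℝ) ≤ min 1 (ε / 2 / D) := by
    rw [Real.sqrt_le_left hx.le]; exact hh'
  have hh1 : h ≤ 1 := by
    have : (h : ℝ) ≤ 1 := hh'.trans (pow_le_one₀ hx.le (min_le_left _ _))
    exact_mod_cast this
  have hT1 : (fun _ : V => t) ≤ fun _ => t + h := fun v => le_self_add
  have hnn : (0 : ℝ) ≤ h := h.2
  have hsqrt1 : √(h : ℝ) ≤ 1 := hsq'.trans (min_le_left _ _)
  rw [S.dynQ_diff v t h]
  set Tn := DynQaux.pth e (fun _ => t) (fun _ => t + h) with hTn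
  -- steps outside `F`
  have hout : ∀ u, DynQaux.E2 S v v (Tn (e u + 1)) - DynQaux.E2 S v v (Tn (e u)) ≤ h * w u := by
    intro u
    have hs' : ∀ w, s ≤ Tn (e u) w := fun w => hst'.trans (DynQaux.le_pth e hT1 (e u) w)
    have h2 := hst s (Tn (e u)) h hs' hh1 v u
    have h3 : Tn (e u + 1) = Function.update (Tn (e u)) u (Tn (e u) u + h) := by
      rw [hTn, DynQaux.pth_succ, e.symm_apply_apply]
      have : DynQaux.pth e (fun _ => t) (fun _ => t + h) (e u) u = t := by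
        have := DynQaux.pth_at e (fun _ => t) (fun _ => t + h) (e u)
        rwa [e.symm_apply_apply] at this
      rw [this]
    rw [h3]
    have h4 := (abs_le.1 h2).2
    have h5 := (hsq _ s hs' v u).2
    have h6 : C1 * (h : ℝ) * √h * DynQaux.wt S a v u ≤ C1 * (h : ℝ) * 1 * DynQaux.wt S a v u := by
      have := DynQaux.wt_nonneg S ha1 v u
      gcongr
    have h7 : (h : ℝ) * ∫ ω, S.cv v u (S.XT (Tn (e u)) ω) ^ 2 ∂S.P ≤
        h * DynQaux.wt S b v u := by gcongr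
    simp only [hw]
    linarith
  have hin : ∀ u, DynQaux.E2 S v v (Tn (e u + 1)) - DynQaux.E2 S v v (Tn (e u)) ≤
      h * ∫ ω, S.A t v u ω ^ 2 ∂S.P + C u * (h : ℝ) * √h := by
    intro u
    have := (abs_le.1 (h1 u e t h hst' hh1)).2
    linarith
  have hlim := (DynQaux.tendsto_E2 S e hT1 v v).sub_const (DynQaux.E2 S v v (fun _ => t))
  refine le_of_tendsto hlim ?_
  obtain ⟨N, hN⟩ : ∃ N, ∀ u ∈ F, e u < N :=
    ⟨F.sup e + 1, fun u hu => Nat.lt_succ_of_le (Finset.le_sup (f := e) hu)⟩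
  filter_upwards [eventually_ge_atTop N] with n hn
  have htel : DynQaux.E2 S v v (DynQaux.pth e (fun _ => t) (fun _ => t + h) n) -
      DynQaux.E2 S v v (fun _ => t) =
      ∑ k ∈ range n, (DynQaux.E2 S v v (Tn (k + 1)) - DynQaux.E2 S v v (Tn k)) := by
    rw [Finset.sum_range_sub (fun k => DynQaux.E2 S v v (Tn k)), hTn, DynQaux.pth_zero]
  rw [htel]
  -- as a sum over sites
  have hsum : ∑ k ∈ range n, (DynQaux.E2 S v v (Tn (k + 1)) - DynQaux.E2 S v v (Tn k)) =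
      ∑ u ∈ (range n).map e.symm.toEmbedding,
        (DynQaux.E2 S v v (Tn (e u + 1)) - DynQaux.E2 S v v (Tn (e u))) := by
    rw [sum_map]
    simp
  rw [hsum]
  set G := (range n).map e.symm.toEmbedding with hG
  have hFG : F ⊆ G := by
    intro u hu
    rw [hG, Finset.mem_map]
    exact ⟨e u, mem_range.2 ((hN u hu).trans_le hn), by simp⟩
  rw [← sum_sdiff hFG]
  have h2 : ∑ u ∈ G \ F, (DynQaux.E2 S v v (Tn (e u + 1)) - DynQaux.E2 S v v (Tn (e u))) ≤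
      h * (ε / 2) := by
    calc _ ≤ ∑ u ∈ G \ F, h * w u := sum_le_sum fun u _ => hout u
      _ = h * ∑ u ∈ G \ F, w u := by rw [mul_sum]
      _ ≤ h * (ε / 2) := mul_le_mul_of_nonneg_left (hF _ sdiff_disjoint) hnn
  have h3 : ∑ u ∈ F, (DynQaux.E2 S v v (Tn (e u + 1)) - DynQaux.E2 S v v (Tn (e u))) ≤
      h * (∑ u ∈ F, ∫ ω, S.A t v u ω ^ 2 ∂S.P) + h * (√h * ∑ u ∈ F, C u) := by
    calc _ ≤ ∑ u ∈ F, (h * ∫ ω, S.A t v u ω ^ 2 ∂S.P + C u * (h : ℝ) * √h) :=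
          sum_le_sum fun u _ => hin u
      _ = _ := by
          rw [sum_add_distrib, ← mul_sum, ← sum_mul, ← sum_mul]
          ring
  have h5 : √h * ∑ u ∈ F, C u ≤ ε / 2 := by
    calc √h * ∑ u ∈ F, C u ≤ (ε / 2 / D) * D := by
          have : 0 ≤ ∑ u ∈ F, C u := sum_nonneg fun u _ => (hC u).le
          have h6 : √(h : ℝ) ≤ ε / 2 / D := hsq'.trans (min_le_right _ _)
          have h7 : ∑ u ∈ F, C u ≤ D := by rw [hD]; linarith
          gcongr
      _ = ε / 2 := by field_simp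
  have h6 : (h : ℝ) * (√h * ∑ u ∈ F, C u) ≤ h * (ε / 2) := mul_le_mul_of_nonneg_left h5 hnn
  have h7 : (h : ℝ) * (∑ u ∈ F, ∫ ω, S.A t v u ω ^ 2 ∂S.P + ε) =
      h * (∑ u ∈ F, ∫ ω, S.A t v u ω ^ 2 ∂S.P) + h * (ε / 2) + h * (ε / 2) := by ring
  rw [h7]
  linarith

theorem q_mono {s t : ℝ≥0} (h : s ≤ t) : S.q s ≤ S.q t := by
  have h3 := DynQaux.E2_mono S (T := fun _ => s) (T' := fun _ => t) (fun _ => h) S.o S.o
  unfold DynQaux.E2 at h3
  unfold Setup.q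
  simp only [sq]
  exact h3

end Setup
end Crest.Agent.R160
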