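import Crest.Agent.R160.DynU
import Crest.Agent.R160.Lip

/-! Row 160, piece DYNQ, auxiliary file: the path of single site updates between two time
vectors, monotonicity of `E mag_v mag_u`. -/

set_option autoImplicit false
set_option linter.unusedSectionVars false
open Finset Filter MeasureTheory ProbabilityTheory
open scoped Topology NNReal ENNReal

namespace Crest.Agent.R160
namespace DynQaux
open Setup

variable {V : Type} [DecidableEq V] [Countable V] (S : Setup V)

theorem intb {f : Om V → ℝ} (hf : Measurable f) (C : ℝ) (hC : ∀ ω, |f ω| ≤ C) :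
    Integrable f S.P :=
  Integrable.of_bound hf.aestronglyMeasurable C (Eventually.of_forall hC)

/-- magnetisation at the times `T` -/
noncomputable def mg (T : V → ℝ≥0) (v : V) (ω : Om V) : ℝ := S.mag v (S.XT T ω)

theorem mg_meas (T : V → ℝ≥0) (v : V) : Measurable (mg S T v) :=
  (S.measurable_mag v).comp (S.measurable_XT T)

theorem mg_meas_FF (T : V → ℝ≥0) (v : V) : Measurable[S.FF T Set.univ] (mg S T v) :=
  (S.measurable_mag v).comp (S.measurable_XT_FF T)

theorem mg_le (T : V → ℝ≥0) (v : V) (ω : Om V) : |mg S T v ω| ≤ 1 := (S.abs_mag_lt v _).le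

theorem mg_const (t : ℝ≥0) (v : V) (ω : Om V) : mg S (fun _ => t) v ω = S.m t v ω := rfl

/-- `E mag_v mag_u` at the times `T` -/
noncomputable def E2 (v u : V) (T : V → ℝ≥0) : ℝ := ∫ ω, mg S T v ω * mg S T u ω ∂S.P

theorem mul_le_one' {a b : ℝ} (ha : |a| ≤ 1) (hb : |b| ≤ 1) : |a * b| ≤ 1 := by
  rw [abs_mul]; exact mul_le_one₀ ha (abs_nonneg _) hb

theorem int_mg_mul (T T' : V → ℝ≥0) (v u : V) :
    Integrable (fun ω => mg S T v ω * mg S T' u ω) S.P :=
  intb S ((mg_meas S T v).mul (mg_meas S T' u)) 1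
    (fun ω => mul_le_one' (mg_le S T v ω) (mg_le S T' u ω))

theorem mart' {T T' : V → ℝ≥0} (hT : T ≤ T') (v u : V) :
    ∫ ω, mg S T' v ω * mg S T u ω ∂S.P = E2 S v u T :=
  S.mart T T' hT v (mg S T u) (mg_meas_FF S T u) ⟨1, fun ω => mg_le S T u ω⟩

theorem cross {T T' : V → ℝ≥0} (hT : T ≤ T') (v u : V) :
    ∫ ω, (mg S T' v ω - mg S T v ω) * (mg S T' u ω - mg S T u ω) ∂S.P =
      E2 S v u T' - E2 S v u T := by
  have e : ∀ ω, (mg S T' v ω - mg S T v ω) * (mg S T' u ω - mg S T u ω) =
      (mg S T' v ω * mg S T' u ω - mg S T' v ω * mg S T u ω) -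
      (mg S T' u ω * mg S T v ω - mg S T v ω * mg S T u ω) := fun ω => by ring
  simp_rw [e]
  have h1 : ∫ ω, (mg S T' v ω * mg S T' u ω - mg S T' v ω * mg S T u ω) ∂S.P =
      E2 S v u T' - E2 S v u T := by
    rw [integral_sub (int_mg_mul S T' T' v u) (int_mg_mul S T' T v u), mart' S hT v u]
    rfl
  have h2 : ∫ ω, (mg S T' u ω * mg S T v ω - mg S T v ω * mg S T u ω) ∂S.P = 0 := by
    rw [integral_sub (int_mg_mul S T' T u v) (int_mg_mul S T T v u), mart' S hT u v]
    have : E2 S u v T = E2 S v u T := by unfold E2; simp_rw [mul_comm]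
    rw [this]
    unfold E2
    ring
  rw [integral_sub, h1, h2, sub_zero]
  · exact (int_mg_mul S T' T' v u).sub (int_mg_mul S T' T v u)
  · exact (int_mg_mul S T' T u v).sub (int_mg_mul S T T v u)

theorem energy {T T' : V → ℝ≥0} (hT : T ≤ T') (v : V) :
    ∫ ω, (mg S T' v ω - mg S T v ω) ^ 2 ∂S.P = E2 S v v T' - E2 S v v T := by
  rw [← cross S hT v v]
  simp_rw [sq]

theorem XT_update (T : V → ℝ≥0) (z : V) (a : ℝ≥0) (ω : Om V) :
    S.XT (Function.update T z a) ω = Function.update (S.XT T ω) z (S.XX a z ω) := by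
  funext v
  by_cases h : v = z
  · subst h; simp [Setup.XT]
  · simp [Setup.XT, h]

/-- response of the magnetisation to a one-site update -/
theorem mg_update (T : V → ℝ≥0) (z v : V) (a : ℝ≥0) : ∀ᵐ ω ∂S.P,
    mg S (Function.update T z a) v ω - mg S T v ω =
      S.aa z v (S.XT T ω) * (mg S (Function.update T z a) z ω - mg S T z ω) := by
  filter_upwards [S.ae_good T] with ω hω
  unfold mg
  rw [XT_update]
  exact S.mag_update hω z v _

theorem E2_update_le (T : V → ℝ≥0) (z v u : V) {a : ℝ≥0} (ha : T z ≤ a) :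
    E2 S v u T ≤ E2 S v u (Function.update T z a) := by
  have hT : T ≤ Function.update T z a := by
    intro w
    by_cases h : w = z
    · subst h; simpa using ha
    · simp [h]
  rw [← sub_nonneg, ← cross S hT v u]
  apply integral_nonneg_of_ae
  filter_upwards [mg_update S T z v a, mg_update S T z u a] with ω h1 h2
  rw [h1, h2]
  have h3 := (S.aa_mem z v (S.XT T ω)).1
  have h4 := (S.aa_mem z u (S.XT T ω)).1
  have : S.aa z v (S.XT T ω) * (mg S (Function.update T z a) z ω - mg S T z ω) *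
      (S.aa z u (S.XT T ω) * (mg S (Function.update T z a) z ω - mg S T z ω)) =
      (S.aa z v (S.XT T ω) * S.aa z u (S.XT T ω)) *
        (mg S (Function.update T z a) z ω - mg S T z ω) ^ 2 := by ring
  rw [this]
  exact mul_nonneg (mul_pos h3 h4).le (sq_nonneg _)

/-! ### the path of updates -/

include S in
theorem infinite_V : Infinite V := by
  have h : ∀ k : ℕ, ∃ u, S.G.dist S.o u = k := by
    intro k
    have : (sph S.G S.o k).Nonempty := by
      rw [← Finset.card_pos]
      rcases k with _ | k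
      · rw [card_sph_zero S.rt]; norm_num
      · rw [card_sph_succ S.rt]
        have := S.rt.three_le
        have h1 : 0 < S.d - 1 := by omega
        positivity
    obtain ⟨u, hu⟩ := this
    exact ⟨u, (mem_sph S.rt).1 hu⟩
  choose f hf using h
  exact Infinite.of_injective f (fun a b hab => by rw [← hf a, ← hf b, hab])

include S in
theorem exists_equiv : Nonempty (V ≃ ℕ) := by
  have := infinite_V S
  obtain ⟨h⟩ := nonempty_denumerable V
  exact ⟨@Denumerable.eqv V h⟩

variable (e : V ≃ ℕ)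

/-- the `n`-th time vector of the path from `T` to `T'` -/
def pth (e : V ≃ ℕ) (T T' : V → ℝ≥0) (n : ℕ) : V → ℝ≥0 := fun v => if e v < n then T' v else T v

theorem pth_zero (T T' : V → ℝ≥0) : pth e T T' 0 = T := by funext v; simp [pth]

theorem pth_succ (T T' : V → ℝ≥0) (n : ℕ) :
    pth e T T' (n + 1) = Function.update (pth e T T' n) (e.symm n) (T' (e.symm n)) := by
  funext v
  by_cases h : v = e.symm n
  · subst h; simp [pth]
  · have h1 : e v ≠ n := fun h2 => h (by rw [← h2]; simp)
    have h2 : (e v < n + 1) ↔ (e v < n) := by omega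
    simp only [pth, Function.update_of_ne h]
    simp [h2]

theorem pth_at (T T' : V → ℝ≥0) (n : ℕ) : pth e T T' n (e.symm n) = T (e.symm n) := by
  simp [pth]

theorem le_pth {T T' : V → ℝ≥0} (hT : T ≤ T') (n : ℕ) : T ≤ pth e T T' n := by
  intro v
  simp only [pth]
  split_ifs
  · exact hT v
  · exact le_rfl

theorem pth_le {T T' : V → ℝ≥0} (hT : T ≤ T') (n : ℕ) : pth e T T' n ≤ T' := by
  intro v
  simp only [pth]
  split_ifs
  · exact le_rfl
  · exact hT v

theorem pth_mono {T T' : V → ℝ≥0} (hT : T ≤ T') {m n : ℕ} (h : m ≤ n) :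
    pth e T T' m ≤ pth e T T' n := by
  intro v
  simp only [pth]
  split_ifs with h1 h2 h2
  · exact le_rfl
  · omega
  · exact hT v
  · exact le_rfl

/-- the filtration along the path -/
noncomputable def filt {T T' : V → ℝ≥0} (hT : T ≤ T') : Filtration ℕ (mOm V) where
  seq n := S.FF (pth e T T' n) Set.univ
  mono' := fun _ _ h => S.FF_mono (pth_mono e hT h) (le_refl _)
  le' := fun _ => S.FF_le _ _

theorem comap_le_FF (T : V → ℝ≥0) (R : Set V) {v : V} (hv : v ∈ R) {s : ℝ≥0} (hs : s ≤ T v) :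
    MeasurableSpace.comap (S.XX s v) inferInstance ≤ S.FF T R := by
  have h1 : MeasurableSpace.comap (S.XX s v) inferInstance ≤
      ⨆ s ∈ Set.Iic (T v), MeasurableSpace.comap (S.XX s v) inferInstance :=
    le_iSup₂ (f := fun s (_ : s ∈ Set.Iic (T v)) =>
      MeasurableSpace.comap (S.XX s v) inferInstance) s hs
  refine h1.trans ?_
  exact le_iSup₂ (f := fun (w : V) (_ : w ∈ R) => ⨆ s ∈ Set.Iic (T w),
      MeasurableSpace.comap (S.XX s w) inferInstance) v hv

theorem iSup_filt {T T' : V → ℝ≥0} (hT : T ≤ T') :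
    ⨆ n, filt S e hT n = S.FF T' Set.univ := by
  apply le_antisymm
  · exact iSup_le fun n => S.FF_mono (pth_le e hT n) (le_refl _)
  · refine iSup_le fun v => iSup_le fun hv => iSup_le fun s => iSup_le fun hs => ?_
    refine le_trans ?_ (le_iSup (fun n => (filt S e hT n : MeasurableSpace (Om V))) (e v + 1))
    have hs' : s ≤ pth e T T' (e v + 1) v := by
      simpa [pth] using hs
    exact comap_le_FF S _ _ hv hs'

theorem tendsto_mg {T T' : V → ℝ≥0} (hT : T ≤ T') (v : V) :
    ∀ᵐ ω ∂S.P, Tendsto (fun n => mg S (pth e T T' n) v ω) atTop (𝓝 (mg S T' v ω)) := by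
  have h1 := tendsto_ae_condExp (μ := S.P) (ℱ := filt S e hT) (S.spin v)
  have h2 : ∀ᵐ ω ∂S.P, ∀ n, (S.P[S.spin v | filt S e hT n]) ω = mg S (pth e T T' n) v ω :=
    ae_all_iff.2 fun n => S.condExp_mag (pth e T T' n) v
  have h3 := S.condExp_mag T' v
  rw [← iSup_filt S e hT] at h3
  filter_upwards [h1, h2, h3] with ω h1 h2 h3
  rw [h3] at h1
  simp only [h2] at h1
  exact h1

theorem tendsto_E2 {T T' : V → ℝ≥0} (hT : T ≤ T') (v u : V) :
    Tendsto (fun n => E2 S v u (pth e T T' n)) atTop (𝓝 (E2 S v u T')) := by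
  unfold E2
  refine tendsto_integral_of_dominated_convergence (fun _ => 1)
    (fun n => ((mg_meas S _ v).mul (mg_meas S _ u)).aestronglyMeasurable) (integrable_const _)
    (fun n => Eventually.of_forall fun ω => ?_) ?_
  · rw [Real.norm_eq_abs]
    exact mul_le_one' (mg_le S _ v ω) (mg_le S _ u ω)
  · filter_upwards [tendsto_mg S e hT v, tendsto_mg S e hT u] with ω h1 h2
    exact h1.mul h2

theorem E2_step {T T' : V → ℝ≥0} (hT : T ≤ T') (v u : V) (n : ℕ) :
    E2 S v u (pth e T T' n) ≤ E2 S v u (pth e T T' (n + 1)) := by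
  rw [pth_succ]
  apply E2_update_le
  rw [pth_at]
  exact hT _

theorem E2_mono {T T' : V → ℝ≥0} (hT : T ≤ T') (v u : V) : E2 S v u T ≤ E2 S v u T' := by
  obtain ⟨e⟩ := exists_equiv S
  have h1 : Monotone fun n => E2 S v u (pth e T T' n) :=
    monotone_nat_of_le_succ fun n => E2_step S e hT v u n
  have h2 := h1.ge_of_tendsto (tendsto_E2 S e hT v u) 0
  simpa only [pth_zero] using h2

end DynQaux
end Crest.Agent.R160
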