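import Crest.Agent.R160.Decay

/-! Row 160, piece DYNU (one-site update): `q' = ∑_u E A_vu²` in local form, monotonicity, L²-continuity.

One-site update: at times `T`, let `T' = update T z (T z + h)`. Then (`mag_update`, `full_update`)
`mag v (XT T') - mag v (XT T) = aa z v (XT T) * (tanh (full z + y) - tanh (full z))`,
`y = X_z(T z + h) - X_z(T z) = h τ_z + (B increment)`, the increment being `N(0,h)` and independent
of `FF T ∨ σ(τ)`; `|tanh (a+y) - tanh a - (1 - tanh² a) y| ≤ y²`. Moreover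
`E[(mag v (XT T') - mag v (XT T)) Z] = 0` for `Z ∈ FF T`. Update the sites of `F` one after the
other (for upper bounds: all sites `z_1, z_2, ...`, with `FF T_i ↑ Ft (t+h)` and martingale
convergence). -/

set_option autoImplicit false
open Finset Filter MeasureTheory ProbabilityTheory
open scoped Topology NNReal ENNReal

namespace Crest.Agent.R160

namespace DYNUaux

theorem tanh_lip (a b : ℝ) : |Real.tanh a - Real.tanh b| ≤ |a - b| := by
  have h := Convex.norm_image_sub_le_of_norm_hasDerivWithin_le (f := Real.tanh)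
    (f' := fun x => 1 - Real.tanh x ^ 2) (s := Set.univ) (C := 1) (x := b) (y := a)
    (fun x _ => (DetAaux.hasDerivAt_tanh x).hasDerivWithinAt) (fun x _ => by
      rw [Real.norm_eq_abs, abs_le]
      have h1 := Bayes.tanh_bdd x
      have h2 : Real.tanh x ^ 2 ≤ 1 := by rw [← sq_abs]; exact pow_le_one₀ (abs_nonneg _) h1
      have h3 := sq_nonneg (Real.tanh x)
      constructor <;> linarith) convex_univ trivial trivial
  simpa [Real.norm_eq_abs] using h

theorem tanh_taylor (a y : ℝ) :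
    |Real.tanh (a + y) - Real.tanh a - (1 - Real.tanh a ^ 2) * y| ≤ 2 * |y| * |y| := by
  have h := Convex.norm_image_sub_le_of_norm_hasDerivWithin_le
    (f := fun u => Real.tanh (a + u) - (1 - Real.tanh a ^ 2) * u)
    (f' := fun u => (1 - Real.tanh (a + u) ^ 2) - (1 - Real.tanh a ^ 2))
    (s := Metric.closedBall (0 : ℝ) |y|) (C := 2 * |y|) (x := 0) (y := y)
    (fun u _ => by
      have h1 : HasDerivAt (fun u : ℝ => Real.tanh (a + u)) (1 - Real.tanh (a + u) ^ 2) u := by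
        have h2 := (DetAaux.hasDerivAt_tanh (a + u)).comp u ((hasDerivAt_id u).const_add a)
        rw [mul_one] at h2
        exact h2
      have h3 : HasDerivAt (fun u : ℝ => (1 - Real.tanh a ^ 2) * u) (1 - Real.tanh a ^ 2) u := by
        simpa using (hasDerivAt_id u).const_mul (1 - Real.tanh a ^ 2)
      exact (h1.sub h3).hasDerivWithinAt) (fun u hu => by
      rw [Metric.mem_closedBall, dist_zero_right, Real.norm_eq_abs] at hu
      rw [Real.norm_eq_abs]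
      have e : (1 - Real.tanh (a + u) ^ 2) - (1 - Real.tanh a ^ 2) =
          (Real.tanh a - Real.tanh (a + u)) * (Real.tanh a + Real.tanh (a + u)) := by ring
      rw [e, abs_mul]
      have h1 := tanh_lip a (a + u)
      have h2 : |a - (a + u)| = |u| := by rw [show a - (a + u) = -u by ring, abs_neg]
      rw [h2] at h1
      have h3 : |Real.tanh a + Real.tanh (a + u)| ≤ 2 :=
        (abs_add_le _ _).trans (by linarith [Bayes.tanh_bdd a, Bayes.tanh_bdd (a + u)])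
      calc |Real.tanh a - Real.tanh (a + u)| * |Real.tanh a + Real.tanh (a + u)| ≤ |u| * 2 :=
            mul_le_mul h1 h3 (abs_nonneg _) (abs_nonneg _)
        _ ≤ 2 * |y| := by linarith)
    (convex_closedBall _ _) (by simp) (by simp)
  simp only [Real.norm_eq_abs, add_zero, mul_zero, sub_zero] at h
  have e : Real.tanh (a + y) - (1 - Real.tanh a ^ 2) * y - Real.tanh a =
      Real.tanh (a + y) - Real.tanh a - (1 - Real.tanh a ^ 2) * y := by ring
  rw [e] at h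
  exact h

theorem tanh_sq (a y : ℝ) :
    |(Real.tanh (a + y) - Real.tanh a) ^ 2 - (1 - Real.tanh a ^ 2) ^ 2 * y ^ 2| ≤ 4 * |y| ^ 3 := by
  have h1 := tanh_taylor a y
  have h2 := tanh_lip (a + y) a
  rw [show a + y - a = y by ring] at h2
  have h3 : Real.tanh a ^ 2 ≤ 1 := by
    rw [← sq_abs]; exact pow_le_one₀ (abs_nonneg _) (Bayes.tanh_bdd a)
  have h4 := sq_nonneg (Real.tanh a)
  have h5 : |(1 - Real.tanh a ^ 2) * y| ≤ |y| := by
    rw [abs_mul]
    have : |1 - Real.tanh a ^ 2| ≤ 1 := by rw [abs_le]; constructor <;> linarith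
    calc _ ≤ 1 * |y| := mul_le_mul_of_nonneg_right this (abs_nonneg _)
      _ = |y| := one_mul _
  have e : (Real.tanh (a + y) - Real.tanh a) ^ 2 - (1 - Real.tanh a ^ 2) ^ 2 * y ^ 2 =
      (Real.tanh (a + y) - Real.tanh a - (1 - Real.tanh a ^ 2) * y) *
      (Real.tanh (a + y) - Real.tanh a + (1 - Real.tanh a ^ 2) * y) := by ring
  rw [e, abs_mul]
  have h6 : |Real.tanh (a + y) - Real.tanh a + (1 - Real.tanh a ^ 2) * y| ≤ 2 * |y| :=
    (abs_add_le _ _).trans (by linarith)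
  calc _ ≤ (2 * |y| * |y|) * (2 * |y|) := mul_le_mul h1 h6 (abs_nonneg _) (by positivity)
    _ = 4 * |y| ^ 3 := by ring

/-- third absolute moment of a standard Gaussian -/
noncomputable def K3 : ℝ := ∫ x, |x| ^ 3 ∂(gaussianReal 0 1)

theorem K3_nonneg : 0 ≤ K3 := integral_nonneg fun x => by positivity

theorem gauss_scale (h : ℝ≥0) :
    gaussianReal 0 h = (gaussianReal 0 1).map (fun x => √(h : ℝ) * x) := by
  rw [gaussianReal_map_const_mul]
  congr 1
  · simp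
  · ext
    simp [Real.sq_sqrt]

theorem gauss_third (h : ℝ≥0) :
    ∫ x, |x| ^ 3 ∂(gaussianReal 0 h) = (h : ℝ) ^ (3 / 2 : ℝ) * K3 := by
  rw [gauss_scale h, integral_map (by fun_prop) (by fun_prop)]
  simp_rw [abs_mul, mul_pow]
  rw [integral_const_mul]
  unfold K3
  congr 1
  rw [abs_of_nonneg (Real.sqrt_nonneg _), Real.sqrt_eq_rpow,
    ← Real.rpow_natCast ((h : ℝ) ^ (1 / 2 : ℝ)) 3, ← Real.rpow_mul h.coe_nonneg]
  norm_num

theorem gauss_one (h : ℝ≥0) : ∫ x, x ∂(gaussianReal 0 h) = 0 := integral_id_gaussianReal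

theorem gauss_two (h : ℝ≥0) : ∫ x, x ^ 2 ∂(gaussianReal 0 h) = h := by
  have h1 := variance_fun_id_gaussianReal (μ := 0) (v := h)
  have h2 : MemLp (fun x : ℝ => x) 2 (gaussianReal 0 h) := memLp_id_gaussianReal 2
  rw [variance_eq_sub h2] at h1
  simpa [gauss_one h] using h1

theorem gauss_int (h : ℝ≥0) (n : ℕ) : Integrable (fun x : ℝ => |x| ^ n) (gaussianReal 0 h) := by
  have := (memLp_id_gaussianReal (μ := 0) (v := h) (n : ℝ≥0)).integrable_norm_pow'
  simpa using this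

end DYNUaux

namespace Setup

variable {V : Type} [DecidableEq V] [Countable V] (S : Setup V)

open DYNUaux

/-- DYNQ-1: one-site update. -/
theorem update_sq : ∃ C : ℝ, 0 < C ∧ ∀ (T : V → ℝ≥0) (z v : V) (h : ℝ≥0), h ≤ 1 →
    |∫ ω, (S.mag v (S.XT (Function.update T z (T z + h)) ω) - S.mag v (S.XT T ω)) ^ 2 ∂S.P -
      h * ∫ ω, S.cv v z (S.XT T ω) ^ 2 ∂S.P| ≤
      C * (h : ℝ) ^ (3 / 2 : ℝ) * ∫ ω, S.aa z v (S.XT T ω) ^ 2 ∂S.P := by
  refine ⟨17 + 16 * K3, by have := K3_nonneg; positivity, ?_⟩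
  intro T z v h hh
  set T' := Function.update T z (T z + h) with hT'
  have hTT' : T ≤ T' := by
    intro w
    by_cases hw : w = z
    · rw [hw, hT', Function.update_self]; exact le_self_add
    · rw [hT', Function.update_of_ne hw]
  have hT'z : T' z = T z + h := by rw [hT', Function.update_self]
  let N : Om V → ℝ := fun ω => S.B (T z + h) z ω - S.B (T z) z ω
  let a : Om V → ℝ := fun ω => S.aa z v (S.XT T ω)
  let F : Om V → ℝ := fun ω => S.full z (S.XT T ω)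
  let s : Om V → ℝ := fun ω => 1 - Real.tanh (F ω) ^ 2
  let τ : Om V → ℝ := S.spin z
  let y : Om V → ℝ := fun ω => h * τ ω + N ω
  let D : Om V → ℝ := fun ω => Real.tanh (F ω + y ω) - Real.tanh (F ω)
  -- measurability
  have hNm : Measurable N := (S.measurable_B _ z).sub (S.measurable_B _ z)
  have hfull : Measurable (S.full z) := by
    unfold Setup.full
    refine (measurable_pi_apply z).add (Finset.measurable_sum _ fun w _ => ?_)
    exact Detaux.gf_cont S |>.measurable.comp (S.measurable_cav z w)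
  have hXTm := S.measurable_XT T
  have ham : Measurable a := (S.measurable_aa z v).comp hXTm
  have hFm : Measurable F := hfull.comp hXTm
  have htanh : Measurable Real.tanh := Bayes.tanh_measurable
  have hsm : Measurable s := measurable_const.sub ((htanh.comp hFm).pow_const 2)
  have hτm : Measurable τ := S.measurable_spin z
  have hym : Measurable y := (hτm.const_mul _).add hNm
  have hDm : Measurable D := (htanh.comp (hFm.add hym)).sub (htanh.comp hFm)
  -- bounds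
  have ha0 : ∀ ω, 0 < a ω := fun ω => (S.aa_mem z v _).1
  have ha1 : ∀ ω, a ω ≤ 1 := fun ω => (S.aa_mem z v _).2.trans
    (pow_le_one₀ S.θpos.le S.theta_lt_one.le)
  have hs0 : ∀ ω, 0 ≤ s ω := by
    intro ω
    have h3 : Real.tanh (F ω) ^ 2 ≤ 1 := by
      rw [← sq_abs]; exact pow_le_one₀ (abs_nonneg _) (Bayes.tanh_bdd _)
    simp only [s]; linarith
  have hs1 : ∀ ω, s ω ≤ 1 := fun ω => by
    have := sq_nonneg (Real.tanh (F ω)); simp only [s]; linarith
  have hD2 : ∀ ω, |D ω| ≤ 2 := fun ω =>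
    (abs_sub _ _).trans (by linarith [Bayes.tanh_bdd (F ω + y ω), Bayes.tanh_bdd (F ω)])
  have hτ2 : ∀ ω, τ ω ^ 2 = 1 := fun ω => S.spin_sq z ω
  have hτ1 : ∀ ω, |τ ω| ≤ 1 := fun ω => Bayes.sigma_bdd (fun ω => S.spin_val z ω) ω
  -- the law of `N`
  have hNlaw : S.P.map N = gaussianReal 0 h := by
    have := S.law_B_inc (s := T z) (t := T z + h) le_self_add z
    rw [add_tsub_cancel_left] at this
    exact this
  have hNint : ∀ n : ℕ, Integrable (fun ω => |N ω| ^ n) S.P := by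
    intro n
    have h1 := gauss_int h n
    rw [← hNlaw] at h1
    exact h1.comp_measurable hNm
  have hN3 : ∫ ω, |N ω| ^ 3 ∂S.P = (h : ℝ) ^ (3 / 2 : ℝ) * K3 := by
    rw [← gauss_third h, ← hNlaw, integral_map hNm.aemeasurable (by fun_prop)]
  have hN1 : ∫ ω, N ω ∂S.P = 0 := by
    rw [← gauss_one h, ← hNlaw, integral_map hNm.aemeasurable (by fun_prop)]
  have hN2 : ∫ ω, N ω ^ 2 ∂S.P = h := by
    rw [← gauss_two h, ← hNlaw, integral_map hNm.aemeasurable (by fun_prop)]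
  -- independence
  have hind := S.indep_future T T' hTT'
  have hNle : MeasurableSpace.comap N inferInstance ≤
      ⨆ w : V, MeasurableSpace.comap (fun ω => S.B (T' w) w ω - S.B (T w) w ω) inferInstance := by
    refine le_trans (le_of_eq ?_) (le_iSup (fun w : V =>
      MeasurableSpace.comap (fun ω => S.B (T' w) w ω - S.B (T w) w ω) inferInstance) z)
    simp only [hT'z]
    rfl
  have hindN : ∀ (f : Om V → ℝ), Measurable[S.FF T Set.univ ⊔
      ⨆ w, MeasurableSpace.comap (S.spin w) inferInstance] f → ∀ g : ℝ → ℝ, Measurable g →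
      ∫ ω, f ω * g (N ω) ∂S.P = (∫ ω, f ω ∂S.P) * ∫ ω, g (N ω) ∂S.P := by
    intro f hf g hg
    have h1 : IndepFun f (fun ω => g (N ω)) S.P := by
      rw [IndepFun_iff_Indep]
      refine indep_of_indep_of_le hind hf.comap_le ?_
      refine le_trans ?_ hNle
      have : (fun ω => g (N ω)) = g ∘ N := rfl
      rw [this, ← MeasurableSpace.comap_comp]
      exact MeasurableSpace.comap_mono hg.comap_le
    have hMle : (S.FF T Set.univ ⊔ ⨆ w, MeasurableSpace.comap (S.spin w) inferInstance) ≤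
        (inferInstance : MeasurableSpace (Om V)) :=
      sup_le (S.FF_le T Set.univ) (iSup_le fun w => (S.measurable_spin w).comap_le)
    exact h1.integral_fun_mul_eq_mul_integral (hf.mono hMle le_rfl).aestronglyMeasurable
      (hg.comp hNm).aestronglyMeasurable
  have hXTF : Measurable[S.FF T Set.univ ⊔ ⨆ w, MeasurableSpace.comap (S.spin w) inferInstance]
      (S.XT T) := (S.measurable_XT_FF T).mono le_sup_left le_rfl
  have haM : Measurable[S.FF T Set.univ ⊔ ⨆ w, MeasurableSpace.comap (S.spin w) inferInstance] a :=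
    (S.measurable_aa z v).comp hXTF
  have hsM : Measurable[S.FF T Set.univ ⊔ ⨆ w, MeasurableSpace.comap (S.spin w) inferInstance] s :=
    measurable_const.sub ((htanh.comp (hfull.comp hXTF)).pow_const 2)
  have hτM : Measurable[S.FF T Set.univ ⊔ ⨆ w, MeasurableSpace.comap (S.spin w) inferInstance] τ :=
    (comap_measurable (S.spin z)).mono ((le_iSup (fun w =>
      MeasurableSpace.comap (S.spin w) inferInstance) z).trans le_sup_right) le_rfl
  -- the two integrals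
  have e1 : ∫ ω, (S.mag v (S.XT T' ω) - S.mag v (S.XT T ω)) ^ 2 ∂S.P =
      ∫ ω, a ω ^ 2 * D ω ^ 2 ∂S.P := by
    refine integral_congr_ae ?_
    filter_upwards [S.ae_good T] with ω hω
    have h1 : S.XT T' ω = Function.update (S.XT T ω) z (S.XX (T z + h) z ω) := by
      funext w
      by_cases hw : w = z
      · subst hw
        rw [Function.update_self]
        simp only [Setup.XT, hT'z]
      · rw [Function.update_of_ne hw]
        simp only [Setup.XT, hT', Function.update_of_ne hw]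
    have h2 : S.mag z (Function.update (S.XT T ω) z (S.XX (T z + h) z ω)) =
        Real.tanh (F ω + y ω) := by
      unfold Setup.mag
      rw [S.full_update hω]
      congr 2
      simp only [y, N, τ, Setup.XT, Setup.XX, NNReal.coe_add]
      ring
    have h3 : S.mag z (S.XT T ω) = Real.tanh (F ω) := rfl
    rw [h1, S.mag_update hω, h2, h3]
    simp only [a, D]
    ring
  have e2 : ∫ ω, S.cv v z (S.XT T ω) ^ 2 ∂S.P = ∫ ω, a ω ^ 2 * s ω ^ 2 ∂S.P := by
    refine integral_congr_ae ?_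
    filter_upwards [S.ae_good T] with ω hω
    rw [S.cv_symm hω]
    simp only [Setup.cv, a, s, F, Setup.mag]
    ring
  -- integrability
  have hbd : ∀ f : Om V → ℝ, Measurable f → (∃ C, ∀ ω, |f ω| ≤ C) → Integrable f S.P :=
    fun f hf hb => Bayes.integrable_of_bdd hf hb
  have ha2 : ∀ ω, |a ω ^ 2| ≤ 1 := fun ω => by
    rw [abs_of_nonneg (sq_nonneg _)]; exact pow_le_one₀ (ha0 ω).le (ha1 ω)
  have hs2 : ∀ ω, |s ω ^ 2| ≤ 1 := fun ω => by
    rw [abs_of_nonneg (sq_nonneg _)]; exact pow_le_one₀ (hs0 ω) (hs1 ω)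
  have ia : Integrable (fun ω => a ω ^ 2) S.P := hbd _ (ham.pow_const 2) ⟨1, ha2⟩
  have has_bd : ∀ ω, |a ω ^ 2 * s ω ^ 2| ≤ 1 := fun ω => by
    rw [abs_mul]
    calc _ ≤ 1 * 1 := mul_le_mul (ha2 ω) (hs2 ω) (abs_nonneg _) zero_le_one
      _ = 1 := one_mul 1
  have hasm : Measurable (fun ω => a ω ^ 2 * s ω ^ 2) := (ham.pow_const 2).mul (hsm.pow_const 2)
  have ias : Integrable (fun ω => a ω ^ 2 * s ω ^ 2) S.P := hbd _ hasm ⟨1, has_bd⟩
  have iaD : Integrable (fun ω => a ω ^ 2 * D ω ^ 2) S.P := by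
    refine hbd _ ((ham.pow_const 2).mul (hDm.pow_const 2)) ⟨1 * 4, fun ω => ?_⟩
    rw [abs_mul]
    refine mul_le_mul (ha2 ω) ?_ (abs_nonneg _) zero_le_one
    rw [abs_pow]
    calc _ ≤ (2 : ℝ) ^ 2 := pow_le_pow_left₀ (abs_nonneg _) (hD2 ω) 2
      _ = 4 := by norm_num
  have iN2 : Integrable (fun ω => N ω ^ 2) S.P := by
    have := hNint 2
    simpa only [sq_abs] using this
  have iN1 : Integrable N S.P := by
    have := hNint 1
    simp only [pow_one] at this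
    exact (integrable_norm_iff hNm.aestronglyMeasurable).1 this
  have iasN2 : Integrable (fun ω => a ω ^ 2 * s ω ^ 2 * N ω ^ 2) S.P :=
    iN2.bdd_mul hasm.aestronglyMeasurable (Eventually.of_forall has_bd)
  have iasτN : Integrable (fun ω => a ω ^ 2 * s ω ^ 2 * τ ω * N ω) S.P := by
    refine iN1.bdd_mul (c := 1) (hasm.mul hτm).aestronglyMeasurable (Eventually.of_forall fun ω => ?_)
    rw [Real.norm_eq_abs, abs_mul]
    calc _ ≤ 1 * 1 := mul_le_mul (has_bd ω) (hτ1 ω) (abs_nonneg _) zero_le_one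
      _ = 1 := one_mul 1
  have iaN3 : Integrable (fun ω => a ω ^ 2 * |N ω| ^ 3) S.P :=
    (hNint 3).bdd_mul (ham.pow_const 2).aestronglyMeasurable (Eventually.of_forall ha2)
  -- second part
  have p2 : ∫ ω, a ω ^ 2 * s ω ^ 2 * (y ω ^ 2 - h) ∂S.P = h ^ 2 * ∫ ω, a ω ^ 2 * s ω ^ 2 ∂S.P := by
    have e : ∀ ω, a ω ^ 2 * s ω ^ 2 * (y ω ^ 2 - h) =
        ((h : ℝ) ^ 2 * (a ω ^ 2 * s ω ^ 2) + 2 * h * (a ω ^ 2 * s ω ^ 2 * τ ω * N ω)) +
        (a ω ^ 2 * s ω ^ 2 * N ω ^ 2 - h * (a ω ^ 2 * s ω ^ 2)) := by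
      intro ω
      have h1 := hτ2 ω
      simp only [y]
      linear_combination (a ω ^ 2 * s ω ^ 2 * (h : ℝ) ^ 2) * h1
    have i1 : Integrable (fun ω => (h : ℝ) ^ 2 * (a ω ^ 2 * s ω ^ 2)) S.P := ias.const_mul _
    have i2 : Integrable (fun ω => 2 * (h : ℝ) * (a ω ^ 2 * s ω ^ 2 * τ ω * N ω)) S.P :=
      iasτN.const_mul _
    have i3 : Integrable (fun ω => (h : ℝ) * (a ω ^ 2 * s ω ^ 2)) S.P := ias.const_mul _
    have i4 : Integrable (fun ω => (h : ℝ) ^ 2 * (a ω ^ 2 * s ω ^ 2) +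
      2 * (h : ℝ) * (a ω ^ 2 * s ω ^ 2 * τ ω * N ω)) S.P := i1.add i2
    have i5 : Integrable (fun ω => a ω ^ 2 * s ω ^ 2 * N ω ^ 2 -
      (h : ℝ) * (a ω ^ 2 * s ω ^ 2)) S.P := iasN2.sub i3
    simp_rw [e]
    rw [integral_add i4 i5, integral_add i1 i2, integral_sub iasN2 i3,
      integral_const_mul, integral_const_mul, integral_const_mul]
    have h1 := hindN (fun ω => a ω ^ 2 * s ω ^ 2 * τ ω)
      (((haM.pow_const 2).mul (hsM.pow_const 2)).mul hτM) (fun x => x) measurable_id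
    have h2 := hindN (fun ω => a ω ^ 2 * s ω ^ 2)
      ((haM.pow_const 2).mul (hsM.pow_const 2)) (fun x => x ^ 2) (measurable_id.pow_const 2)
    rw [h1, h2, hN1, hN2]
    ring
  -- first part
  have p1 : |∫ ω, a ω ^ 2 * (D ω ^ 2 - s ω ^ 2 * y ω ^ 2) ∂S.P| ≤
      16 * (h : ℝ) ^ 3 * ∫ ω, a ω ^ 2 ∂S.P +
        16 * ((∫ ω, a ω ^ 2 ∂S.P) * ((h : ℝ) ^ (3 / 2 : ℝ) * K3)) := by
    have hpt : ∀ ω, |a ω ^ 2 * (D ω ^ 2 - s ω ^ 2 * y ω ^ 2)| ≤
        16 * (h : ℝ) ^ 3 * a ω ^ 2 + 16 * (a ω ^ 2 * |N ω| ^ 3) := by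
      intro ω
      rw [abs_mul, abs_of_nonneg (sq_nonneg (a ω))]
      have h1 : |D ω ^ 2 - s ω ^ 2 * y ω ^ 2| ≤ 4 * |y ω| ^ 3 := tanh_sq (F ω) (y ω)
      have h2 : |y ω| ≤ h + |N ω| := by
        refine (abs_add_le _ _).trans ?_
        have : |(h : ℝ) * τ ω| ≤ h := by
          rw [abs_mul, abs_of_nonneg h.coe_nonneg]
          calc _ ≤ (h : ℝ) * 1 := mul_le_mul_of_nonneg_left (hτ1 ω) h.coe_nonneg
            _ = h := mul_one _
        linarith
      have h3 : |y ω| ^ 3 ≤ ((h : ℝ) + |N ω|) ^ 3 := pow_le_pow_left₀ (abs_nonneg _) h2 3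
      have h4 : ((h : ℝ) + |N ω|) ^ 3 ≤ 4 * ((h : ℝ) ^ 3 + |N ω| ^ 3) := by
        have hh0 : (0 : ℝ) ≤ h := h.coe_nonneg
        have hN0 := abs_nonneg (N ω)
        nlinarith [mul_nonneg (add_nonneg hh0 hN0) (sq_nonneg ((h : ℝ) - |N ω|))]
      calc a ω ^ 2 * |D ω ^ 2 - s ω ^ 2 * y ω ^ 2| ≤ a ω ^ 2 * (16 * ((h : ℝ) ^ 3 + |N ω| ^ 3)) :=
            mul_le_mul_of_nonneg_left (by linarith) (sq_nonneg _)
        _ = _ := by ring
    calc |∫ ω, a ω ^ 2 * (D ω ^ 2 - s ω ^ 2 * y ω ^ 2) ∂S.P|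
        ≤ ∫ ω, |a ω ^ 2 * (D ω ^ 2 - s ω ^ 2 * y ω ^ 2)| ∂S.P := abs_integral_le_integral_abs
      _ ≤ ∫ ω, (16 * (h : ℝ) ^ 3 * a ω ^ 2 + 16 * (a ω ^ 2 * |N ω| ^ 3)) ∂S.P :=
          integral_mono_of_nonneg (Eventually.of_forall fun ω => abs_nonneg _)
            ((ia.const_mul _).add (iaN3.const_mul _)) (Eventually.of_forall hpt)
      _ = _ := by
          rw [integral_add (ia.const_mul _) (iaN3.const_mul _), integral_const_mul,
            integral_const_mul]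
          have h2 := hindN (fun ω => a ω ^ 2) (haM.pow_const 2) (fun x => |x| ^ 3) (by fun_prop)
          rw [h2, hN3]
  -- assembly
  have iasy : Integrable (fun ω => a ω ^ 2 * s ω ^ 2 * (y ω ^ 2 - h)) S.P := by
    have e : ∀ ω, a ω ^ 2 * s ω ^ 2 * (y ω ^ 2 - h) =
        ((h : ℝ) ^ 2 * (a ω ^ 2 * s ω ^ 2) + 2 * h * (a ω ^ 2 * s ω ^ 2 * τ ω * N ω)) +
        (a ω ^ 2 * s ω ^ 2 * N ω ^ 2 - h * (a ω ^ 2 * s ω ^ 2)) := by
      intro ω
      have h1 := hτ2 ω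
      simp only [y]
      linear_combination (a ω ^ 2 * s ω ^ 2 * (h : ℝ) ^ 2) * h1
    simp_rw [e]
    exact ((ias.const_mul _).add (iasτN.const_mul _)).add (iasN2.sub (ias.const_mul _))
  have iad : Integrable (fun ω => a ω ^ 2 * (D ω ^ 2 - s ω ^ 2 * y ω ^ 2)) S.P := by
    have e : ∀ ω, a ω ^ 2 * (D ω ^ 2 - s ω ^ 2 * y ω ^ 2) =
        a ω ^ 2 * D ω ^ 2 - (a ω ^ 2 * s ω ^ 2 * (y ω ^ 2 - h) + h * (a ω ^ 2 * s ω ^ 2)) := by
      intro ω; ring
    simp_rw [e]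
    exact iaD.sub (iasy.add (ias.const_mul _))
  have hdec : ∫ ω, a ω ^ 2 * D ω ^ 2 ∂S.P - h * ∫ ω, a ω ^ 2 * s ω ^ 2 ∂S.P =
      ∫ ω, a ω ^ 2 * (D ω ^ 2 - s ω ^ 2 * y ω ^ 2) ∂S.P +
      ∫ ω, a ω ^ 2 * s ω ^ 2 * (y ω ^ 2 - h) ∂S.P := by
    rw [← integral_const_mul, ← integral_sub iaD (ias.const_mul _), ← integral_add iad iasy]
    refine integral_congr_ae (Eventually.of_forall fun ω => ?_)
    ring
  rw [e1, e2, hdec, p2]
  have hE0 : 0 ≤ ∫ ω, a ω ^ 2 ∂S.P := integral_nonneg fun ω => sq_nonneg _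
  have hEs : ∫ ω, a ω ^ 2 * s ω ^ 2 ∂S.P ≤ ∫ ω, a ω ^ 2 ∂S.P := by
    refine integral_mono ias ia fun ω => ?_
    have := (abs_le.1 (hs2 ω)).2
    calc a ω ^ 2 * s ω ^ 2 ≤ a ω ^ 2 * 1 := mul_le_mul_of_nonneg_left this (sq_nonneg _)
      _ = a ω ^ 2 := mul_one _
  have hEs0 : 0 ≤ ∫ ω, a ω ^ 2 * s ω ^ 2 ∂S.P := integral_nonneg fun ω => by positivity
  have hh0 : (0 : ℝ) ≤ h := h.coe_nonneg
  have hh1 : (h : ℝ) ≤ 1 := hh
  have hr : ∀ n : ℝ, 3 / 2 ≤ n → (h : ℝ) ^ n ≤ (h : ℝ) ^ (3 / 2 : ℝ) := by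
    intro n hn
    rcases hh0.eq_or_lt with h0 | h0
    · rw [← h0, Real.zero_rpow (by linarith), Real.zero_rpow (by norm_num)]
    · exact Real.rpow_le_rpow_of_exponent_ge h0 hh1 hn
  have hr3 : (h : ℝ) ^ 3 ≤ (h : ℝ) ^ (3 / 2 : ℝ) := by
    have := hr 3 (by norm_num)
    rwa [show (3 : ℝ) = ((3 : ℕ) : ℝ) by norm_num, Real.rpow_natCast] at this
  have hr2 : (h : ℝ) ^ 2 ≤ (h : ℝ) ^ (3 / 2 : ℝ) := by
    have := hr 2 (by norm_num)
    rwa [show (2 : ℝ) = ((2 : ℕ) : ℝ) by norm_num, Real.rpow_natCast] at this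
  have hfin : |(h : ℝ) ^ 2 * ∫ ω, a ω ^ 2 * s ω ^ 2 ∂S.P| ≤
      (h : ℝ) ^ (3 / 2 : ℝ) * ∫ ω, a ω ^ 2 ∂S.P := by
    rw [abs_of_nonneg (by positivity)]
    exact mul_le_mul hr2 hEs hEs0 (by positivity)
  have h16 : 16 * (h : ℝ) ^ 3 * ∫ ω, a ω ^ 2 ∂S.P ≤
      16 * (h : ℝ) ^ (3 / 2 : ℝ) * ∫ ω, a ω ^ 2 ∂S.P :=
    mul_le_mul_of_nonneg_right (by linarith) hE0
  calc _ ≤ |∫ ω, a ω ^ 2 * (D ω ^ 2 - s ω ^ 2 * y ω ^ 2) ∂S.P| +
        |(h : ℝ) ^ 2 * ∫ ω, a ω ^ 2 * s ω ^ 2 ∂S.P| := abs_add_le _ _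
    _ ≤ (16 * (h : ℝ) ^ (3 / 2 : ℝ) * ∫ ω, a ω ^ 2 ∂S.P +
        16 * ((∫ ω, a ω ^ 2 ∂S.P) * ((h : ℝ) ^ (3 / 2 : ℝ) * K3))) +
        (h : ℝ) ^ (3 / 2 : ℝ) * ∫ ω, a ω ^ 2 ∂S.P := by linarith
    _ = (17 + 16 * K3) * (h : ℝ) ^ (3 / 2 : ℝ) * ∫ ω, S.aa z v (S.XT T ω) ^ 2 ∂S.P := by
        show _ = (17 + 16 * K3) * (h : ℝ) ^ (3 / 2 : ℝ) * ∫ ω, a ω ^ 2 ∂S.P
        ring

/-- martingale property (from `condExp_mag` and `FF_mono`). -/
theorem mart (T T' : V → ℝ≥0) (hT : T ≤ T') (v : V) (Z : Om V → ℝ) (hZ : Measurable[S.FF T Set.univ] Z)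
    (hZb : ∃ C, ∀ ω, |Z ω| ≤ C) :
    ∫ ω, S.mag v (S.XT T' ω) * Z ω ∂S.P = ∫ ω, S.mag v (S.XT T ω) * Z ω ∂S.P := by
  have h1 := Bayes.integral_sigma_mul (S.FF_le T Set.univ) (S.measurable_spin v)
    (fun ω => S.spin_val v ω) (h := fun ω => S.full v (S.XT T ω)) (S.condExp_mag T v) hZ hZb
  have h2 := Bayes.integral_sigma_mul (S.FF_le T' Set.univ) (S.measurable_spin v)
    (fun ω => S.spin_val v ω) (h := fun ω => S.full v (S.XT T' ω)) (S.condExp_mag T' v)
    (hZ.mono (S.FF_mono hT (subset_refl _)) le_rfl) hZb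
  exact h2.symm.trans h1

end Setup
end Crest.Agent.R160
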