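import Crest.Agent.R160.MI
import Crest.Agent.R160.Bessel

/-! Row 160, piece UNIQ: the spins are functions of the innovations.

PROOF. `D t = V2 (Wt t) (m t v) = 2 (q t - R v t)`. By `q_upper`, `bessel` (same finite `F`):
`D(t+h) - D(t) ≤ h (∑_{u ∈ F} V2 (Wt t) (A t v u) + 4 ε)`, by `MI` (`𝓖 = Wt t`, `inv_Wt`) at most
`h (C t^(-7/8) phi4 (D t) + 4 ε)`; `D t ≤ 2 q t ≤ C √t`; `osgood` gives `D = 0`. So
`E[m_v(t)|W_t] = m_v(t)` a.e.; `E (τ_v - m_v(t))² = 1 - q t → 0` (`tendsto_q`), hence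
`E[τ_v | Winf] = τ_v`. -/

set_option autoImplicit false
open Finset Filter MeasureTheory ProbabilityTheory
open scoped Topology NNReal ENNReal

namespace Crest.Agent.R160

namespace UniqAux

theorem int_sub_condExp_sq {Ω : Type} {m m0 : MeasurableSpace Ω} {μ : Measure Ω}
    [IsProbabilityMeasure μ] (hm : m ≤ m0) {X : Ω → ℝ} (hX : MemLp X 2 μ) :
    ∫ ω, (X ω - (μ[X | m]) ω) ^ 2 ∂μ = ∫ ω, X ω ^ 2 ∂μ - ∫ ω, ((μ[X | m]) ω) ^ 2 ∂μ := by
  have h1 : ∫ ω, (X ω - (μ[X | m]) ω) ^ 2 ∂μ = ∫ ω, (Var[X; μ | m]) ω ∂μ := by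
    unfold condVar
    rw [integral_condExp hm]
    rfl
  rw [h1, integral_congr_ae (condVar_ae_eq_condExp_sq_sub_sq_condExp hm hX)]
  have h2 : Integrable (μ[X ^ 2 | m]) μ := integrable_condExp
  have h3 : Integrable (μ[X | m] ^ 2) μ := (hX.condExp one_le_two).integrable_sq
  have h4 : ∫ ω, ((μ[X ^ 2 | m] - μ[X | m] ^ 2 : Ω → ℝ)) ω ∂μ =
      ∫ ω, (μ[X ^ 2 | m]) ω ∂μ - ∫ ω, ((μ[X | m] ^ 2 : Ω → ℝ)) ω ∂μ := integral_sub h2 h3
  rw [h4, integral_condExp hm]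
  rfl

theorem sq_condExp_le {Ω : Type} {m m0 : MeasurableSpace Ω} {μ : Measure Ω}
    [IsProbabilityMeasure μ] (hm : m ≤ m0) {X : Ω → ℝ} (hX : MemLp X 2 μ) :
    ∫ ω, ((μ[X | m]) ω) ^ 2 ∂μ ≤ ∫ ω, X ω ^ 2 ∂μ := by
  have h := int_sub_condExp_sq hm hX
  have h2 : 0 ≤ ∫ ω, (X ω - (μ[X | m]) ω) ^ 2 ∂μ := integral_nonneg fun ω => sq_nonneg _
  linarith

end UniqAux

open UniqAux

namespace Setup

variable {V : Type} [DecidableEq V] [Countable V] (S : Setup V)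

theorem uq_memLp_m (t : ℝ≥0) (v : V) : MemLp (S.m t v) 2 S.P :=
  MemLp.of_bound (S.measurable_m t v).aestronglyMeasurable 1
    (Eventually.of_forall fun ω => by
      rw [Real.norm_eq_abs]; exact (S.abs_mag_lt v (S.Xt t ω)).le)

theorem uq_memLp_spin (v : V) : MemLp (S.spin v) 2 S.P :=
  MemLp.of_bound (S.measurable_spin v).aestronglyMeasurable 1
    (Eventually.of_forall fun ω => by
      rw [Real.norm_eq_abs]
      rcases S.spin_val v ω with h | h <;> rw [h] <;> simp)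

theorem uq_memLp_A (t : ℝ≥0) (v u : V) : MemLp (S.A t v u) 2 S.P :=
  MemLp.of_bound (S.measurable_A t v u).aestronglyMeasurable 1
    (Eventually.of_forall fun ω => by
      have h := S.cv_mem v u (S.Xt t ω)
      rw [Real.norm_eq_abs, abs_of_pos (show 0 < S.A t v u ω from h.1)]
      refine (show S.A t v u ω ≤ _ from h.2).trans ?_
      exact pow_le_one₀ S.θpos.le S.theta_lt_one.le)

theorem uq_V2_m_eq_q (t : ℝ≥0) (v : V) : S.V2 (S.Wt t) (S.m t v) = 2 * (S.q t - S.R v t) := by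
  unfold V2 R
  rw [S.q_eq t v]

theorem uq_V2_m_nonneg (t : ℝ≥0) (v : V) : 0 ≤ S.V2 (S.Wt t) (S.m t v) :=
  S.V2_nonneg ⟨S.Wt t, S.Wt_le t⟩ (S.uq_memLp_m t v)

theorem uq_V2_m_le (t : ℝ≥0) (v : V) : S.V2 (S.Wt t) (S.m t v) ≤ 2 * S.q t := by
  have h := S.V2_le_sq ⟨S.Wt t, S.Wt_le t⟩ (S.uq_memLp_m t v)
  rwa [S.q_eq t v] at h

theorem uq_q_le_one (t : ℝ≥0) : S.q t ≤ 1 := by
  unfold q
  calc ∫ ω, S.m t S.o ω ^ 2 ∂S.P ≤ ∫ _, (1 : ℝ) ∂S.P := by
        refine integral_mono (S.uq_memLp_m t S.o).integrable_sq (integrable_const _) fun ω => ?_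
        have h := (S.abs_mag_lt S.o (S.Xt t ω)).le
        have h2 : S.m t S.o ω ^ 2 = |S.mag S.o (S.Xt t ω)| ^ 2 := by rw [sq_abs]; rfl
        simp only
        rw [h2]
        exact pow_le_one₀ (abs_nonneg _) h
    _ = 1 := by simp

theorem D_zero (t : ℝ≥0) (v : V) : S.V2 (S.Wt t) (S.m t v) = 0 := by
  obtain ⟨C0, hC0, hq⟩ := S.m_sq_le
  have hq' : ∀ r : ℝ≥0, S.q r ≤ C0 * √r := fun r => by
    rw [← S.q_eq r v]; exact hq r v
  rcases eq_or_ne t 0 with rfl | ht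
  · refine le_antisymm ?_ (S.uq_V2_m_nonneg 0 v)
    have h1 := S.uq_V2_m_le 0 v
    have h2 := hq' 0
    simp only [NNReal.coe_zero, Real.sqrt_zero, mul_zero] at h2
    linarith
  have htpos : 0 < t := pos_iff_ne_zero.mpr ht
  obtain ⟨C, hC, hMI⟩ := S.MI t
  let D : ℝ → ℝ := fun r => S.V2 (S.Wt r.toNNReal) (S.m r.toNNReal v)
  have hD : ∀ r : ℝ≥0, D r = S.V2 (S.Wt r) (S.m r v) := fun r => by
    simp only [D, Real.toNNReal_coe]
  have key := osgood D C t hC (by exact_mod_cast htpos) ?_ ?_ ?_ t (by exact_mod_cast htpos) le_rfl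
  · rw [← hD t]; exact key
  · intro r _ _
    refine ⟨S.uq_V2_m_nonneg _ v, ?_⟩
    have h1 := S.uq_V2_m_le r.toNNReal v
    have h2 := S.uq_q_le_one r.toNNReal
    simp only [D]
    linarith
  · intro s ε hs hε
    obtain ⟨h1, F, hh1, hup⟩ := S.q_upper (s := s.toNNReal) (T := t)
      (Real.toNNReal_pos.mpr hs) v (ε / 4) (by positivity)
    obtain ⟨h2, hh2, hbe⟩ := S.bessel (s := s.toNNReal) (T := t)
      (Real.toNNReal_pos.mpr hs) v F (ε / 4) (by positivity)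
    refine ⟨min h1 h2, by
      rw [lt_min_iff]; exact ⟨by exact_mod_cast hh1, by exact_mod_cast hh2⟩, ?_⟩
    intro r h hr hh hhle hrh
    have hr0 : 0 < r := lt_of_lt_of_le hs hr
    lift r to ℝ≥0 using hr0.le
    lift h to ℝ≥0 using hh.le
    have e1 : s.toNNReal ≤ r := by
      rw [← NNReal.coe_le_coe, Real.coe_toNNReal s hs.le]; exact hr
    have e2 : r + h ≤ t := by exact_mod_cast hrh
    have e3 : h ≤ h1 := by exact_mod_cast (le_min_iff.mp hhle).1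
    have e4 : h ≤ h2 := by exact_mod_cast (le_min_iff.mp hhle).2
    have a1 := hup r h e1 e2 e3
    have a2 := hbe r h e1 e2 e4
    have hrpos : 0 < r := by exact_mod_cast hr0
    have a3 := hMI r hrpos (le_trans (le_add_of_nonneg_right zero_le) e2)
      ⟨S.Wt r, S.Wt_le r⟩ (S.inv_Wt r) v F
    have e5 : (r : ℝ) + h = ((r + h : ℝ≥0) : ℝ) := by push_cast; rfl
    rw [e5, hD, hD, S.uq_V2_m_eq_q, S.uq_V2_m_eq_q]
    have a4 : ∑ u ∈ F, S.V2 (S.Wt r) (S.A r v u) =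
        2 * (∑ u ∈ F, ∫ ω, S.A r v u ω ^ 2 ∂S.P -
          ∑ u ∈ F, ∫ ω, (S.P[S.A r v u | S.Wt r] ω) ^ 2 ∂S.P) := by
      rw [← Finset.sum_sub_distrib, Finset.mul_sum]
      rfl
    have a3' : ∑ u ∈ F, S.V2 (S.Wt r) (S.A r v u) ≤
        C * (r : ℝ) ^ (-(7 / 8) : ℝ) * phi4 (2 * (S.q r - S.R v r)) := by
      rw [← S.uq_V2_m_eq_q]; exact a3
    rw [a4] at a3'
    have hh0 : (0 : ℝ) ≤ h := h.2
    have a5 := mul_le_mul_of_nonneg_left a3' hh0
    nlinarith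
  · have hlim1 : Tendsto (fun r : ℝ => 2 * (C0 * √r)) (𝓝[>] 0) (𝓝 0) := by
      have hc : Continuous (fun r : ℝ => 2 * (C0 * √r)) := by fun_prop
      have := (hc.tendsto 0).mono_left (nhdsWithin_le_nhds (s := Set.Ioi (0 : ℝ)))
      simpa using this
    refine tendsto_of_tendsto_of_tendsto_of_le_of_le' tendsto_const_nhds hlim1 ?_ ?_
    · exact Eventually.of_forall fun r => S.uq_V2_m_nonneg _ v
    · filter_upwards [self_mem_nhdsWithin] with r hr
      have hr0 : (0 : ℝ) < r := hr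
      have h1 := S.uq_V2_m_le r.toNNReal v
      have h2 := hq' r.toNNReal
      rw [Real.coe_toNNReal r hr0.le] at h2
      simp only [D]
      linarith

theorem spin_Winf (v : V) : S.P[S.spin v | S.Winf] =ᵐ[S.P] S.spin v := by
  have hspin : MemLp (S.spin v) 2 S.P := S.uq_memLp_spin v
  have hone : ∫ ω, S.spin v ω ^ 2 ∂S.P = 1 := by
    simp_rw [S.spin_sq v]
    simp
  -- lower bound for the projection
  have hlow : ∀ t : ℝ≥0, S.q t ≤ ∫ ω, (S.P[S.spin v | S.Winf] ω) ^ 2 ∂S.P := by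
    intro t
    have hD := S.D_zero t v
    rw [S.uq_V2_m_eq_q] at hD
    have hR : S.q t = S.R v t := by linarith
    have hW : S.Wt t ≤ S.Winf := le_iSup (fun t => S.Wt t) t
    have hm : S.P[S.spin v | S.Ft t] =ᵐ[S.P] S.m t v := S.condExp_mag (fun _ => t) v
    have h1 : S.P[S.m t v | S.Wt t] =ᵐ[S.P] S.P[S.spin v | S.Wt t] :=
      (condExp_congr_ae hm.symm).trans
        (condExp_condExp_of_le (S.Wt_le_Ft t) (S.FF_le (fun _ => t) Set.univ))
    have h2 : S.P[S.P[S.spin v | S.Winf] | S.Wt t] =ᵐ[S.P] S.P[S.spin v | S.Wt t] :=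
      condExp_condExp_of_le hW S.Winf_le
    have h3 : S.R v t = ∫ ω, (S.P[S.P[S.spin v | S.Winf] | S.Wt t] ω) ^ 2 ∂S.P := by
      unfold R
      refine integral_congr_ae ?_
      filter_upwards [h1, h2] with ω e1 e2
      rw [e1, e2]
    rw [hR, h3]
    exact sq_condExp_le (S.Wt_le t) (hspin.condExp one_le_two)
  have hge : 1 ≤ ∫ ω, (S.P[S.spin v | S.Winf] ω) ^ 2 ∂S.P :=
    le_of_tendsto' S.tendsto_q hlow
  have h4 := int_sub_condExp_sq S.Winf_le hspin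
  have h5 : ∫ ω, (S.spin v ω - (S.P[S.spin v | S.Winf]) ω) ^ 2 ∂S.P = 0 := by
    refine le_antisymm ?_ (integral_nonneg fun ω => sq_nonneg _)
    rw [h4, hone]
    linarith
  have hint : Integrable (fun ω => (S.spin v ω - (S.P[S.spin v | S.Winf]) ω) ^ 2) S.P :=
    (hspin.sub (hspin.condExp one_le_two)).integrable_sq
  rw [integral_eq_zero_iff_of_nonneg (fun ω => sq_nonneg _) hint] at h5
  filter_upwards [h5] with ω hω
  have : S.spin v ω - (S.P[S.spin v | S.Winf]) ω = 0 := by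
    simpa using hω
  linarith

end Setup
end Crest.Agent.R160
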