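import Crest.Agent.R160.WLaw
import Crest.Agent.R160.Uniq
import Crest.Agent.R160.Cyl

/-! Row 160, piece FACTOR: exactly equivariant selection.

PROOF. For `n ∈ ℕ` let `Bn = {z | dist o z ≤ n}` (finite) and let `f_n : (Bn → ℕ → ℝ) → ℝ` be
measurable, `|f_n| ≤ 1`, with `E[τ_o | σ(NN|_Bn)] = f_n(NN|_Bn)` a.s. By Lévy and `condExp_NN`,
`f_n(NN|_Bn) → τ_o` a.s. Let `Emb n v` be the finite nonempty set of the restrictions to `Bn` of
the automorphisms `γ` with `γ o = v`, and `Ψ_n(x, v) = (∑_{φ ∈ Emb n v} f_n(x ∘ φ)) / |Emb n v|`,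
`sel x v = decide (0 < limsup_n Ψ_n(x, v))`. `Emb n (γ v) = γ ∘ Emb n v`, so `sel` is exactly
equivariant. If `φ = γ|_Bn`, then `f_n(NN ω ∘ φ) = f_n(NN (act γ ω)|_Bn) = f_n(...)(act γ ω)` is
a.s. equal to `E[τ_o|σ(NN|_Bn)] ∘ act γ = E[τ_v | σ(NN|_{γ Bn})]`, `γ Bn` = ball around `v`, which
does not depend on `φ`; so `Ψ_n(NN ω, v) → τ_v` a.s. -/

set_option autoImplicit false
open Finset Filter MeasureTheory ProbabilityTheory
open scoped Topology NNReal ENNReal

namespace Crest.Agent.R160

namespace FACTORaux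

/-- conditional expectations and measure preserving maps. -/
theorem condExp_comap_mp {α : Type} {m𝓖 m : MeasurableSpace α} {μ : Measure α}
    [IsFiniteMeasure μ] (h𝓖 : m𝓖 ≤ m) {T : α → α}
    (hT : MeasurePreserving T μ μ) {f : α → ℝ} (hf : Integrable f μ) :
    μ[f ∘ T | m𝓖.comap T] =ᵐ[μ] (μ[f | m𝓖]) ∘ T := by
  have hle : m𝓖.comap T ≤ m := by
    rintro s ⟨s', hs', rfl⟩
    exact hT.measurable (h𝓖 _ hs')
  symm
  refine ae_eq_condExp_of_forall_setIntegral_eq hle (hT.integrable_comp_of_integrable hf)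
    (fun s _ _ => (hT.integrable_comp_of_integrable integrable_condExp).integrableOn) ?_ ?_
  · rintro s ⟨s', hs', rfl⟩ _
    rw [LawBaux.setIntegral_comp_mp hT integrable_condExp.aestronglyMeasurable (h𝓖 _ hs'),
      LawBaux.setIntegral_comp_mp hT hf.aestronglyMeasurable (h𝓖 _ hs')]
    exact setIntegral_condExp h𝓖 hf hs'
  · have hTm : @Measurable _ _ (m𝓖.comap T) m𝓖 T := fun s hs => ⟨s, hs, rfl⟩
    exact (stronglyMeasurable_condExp.comp_measurable hTm).aestronglyMeasurable

theorem ball_finite {V : Type} {d : ℕ} {G : SimpleGraph V} [G.LocallyFinite] (h : IsRT d G)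
    (v : V) (n : ℕ) : {z | G.dist v z ≤ n}.Finite := by
  classical
  refine ((range (n + 1)).biUnion fun k => sph G v k).finite_toSet.subset fun z hz => ?_
  rw [Finset.mem_coe, Finset.mem_biUnion]
  exact ⟨G.dist v z, Finset.mem_range.2 (Nat.lt_succ_of_le hz), (mem_sph h).2 rfl⟩

end FACTORaux

namespace Setup

variable {V : Type} [DecidableEq V] [Countable V] (S : Setup V)

theorem W_act_NN (γ : S.G ≃g S.G) (ω : Om V) : S.NN (S.act γ ω) = S.NN ω ∘ γ := by
  funext v n
  exact S.W_act γ (tm n) v ω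

end Setup

namespace FACTORaux

variable {V : Type} [DecidableEq V] [Countable V] (S : Setup V)

/-- ball around the root -/
abbrev Bo (n : ℕ) : Type := {z : V // S.G.dist S.o z ≤ n}

instance (n : ℕ) : Finite (Bo S n) := (ball_finite S.rt S.o n).to_subtype

/-- embeddings of the ball -/
def Emb (n : ℕ) (v : V) : Type :=
  {φ : Bo S n → V // ∃ γ : S.G ≃g S.G, γ S.o = v ∧ ∀ z, φ z = γ z}

instance (n : ℕ) (v : V) : Countable (Emb S n v) := by
  unfold Emb
  infer_instance

instance (n : ℕ) (v : V) : Nonempty (Emb S n v) := by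
  obtain ⟨γ, hγ⟩ := exists_aut_map S.rt S.o v
  exact ⟨⟨fun z => γ z, γ, hγ, fun z => rfl⟩⟩

/-- information of the innovations in a ball. -/
@[reducible] noncomputable def FB (v : V) (n : ℕ) : MeasurableSpace (Om V) :=
  ⨆ z ∈ {z | S.G.dist v z ≤ n}, MeasurableSpace.comap (fun ω => S.NN ω z) inferInstance

theorem FB_le (v : V) (n : ℕ) : FB S v n ≤ mOm V := by
  refine iSup₂_le fun z _ => ?_
  exact ((measurable_pi_apply z).comp S.measurable_NN).comap_le

theorem FB_mono (v : V) : Monotone (FB S v) := by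
  intro n n' hn
  refine iSup₂_le fun z hz => ?_
  exact le_iSup₂_of_le z (le_trans hz hn) le_rfl

/-- the filtration of the balls -/
noncomputable def fil (v : V) : @Filtration (Om V) ℕ _ (mOm V) where
  seq n := FB S v n
  mono' := FB_mono S v
  le' := FB_le S v

theorem iSup_FB (v : V) : ⨆ n, FB S v n = MeasurableSpace.comap S.NN inferInstance := by
  apply le_antisymm
  · refine iSup_le fun n => iSup₂_le fun z _ => ?_
    have : (fun ω => S.NN ω z) = (fun x : V → ℕ → ℝ => x z) ∘ S.NN := rfl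
    rw [this, ← MeasurableSpace.comap_comp]
    exact MeasurableSpace.comap_mono (measurable_pi_apply z).comap_le
  · have h : @Measurable _ _ (⨆ n, FB S v n) _ S.NN := by
      refine @measurable_pi_lambda _ _ _ (⨆ n, FB S v n) _ _ fun z => ?_
      have h1 : MeasurableSpace.comap (fun ω => S.NN ω z) inferInstance ≤ ⨆ n, FB S v n := by
        refine le_iSup_of_le (S.G.dist v z) ?_
        exact le_iSup₂_of_le z (le_refl (S.G.dist v z)) le_rfl
      exact Measurable.mono (comap_measurable _) h1 le_rfl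
    exact h.comap_le

theorem FB_act (γ : S.G ≃g S.G) (v : V) (n : ℕ) :
    (FB S v n).comap (S.act γ) = FB S (γ v) n := by
  unfold FB
  rw [MeasurableSpace.comap_iSup]
  have h : ∀ z : V, (⨆ (_ : z ∈ {z | S.G.dist v z ≤ n}), MeasurableSpace.comap
      (fun ω => S.NN ω z) inferInstance).comap (S.act γ) =
      ⨆ (_ : γ z ∈ {z | S.G.dist (γ v) z ≤ n}), MeasurableSpace.comap
      (fun ω => S.NN ω (γ z)) inferInstance := by
    intro z
    rw [MeasurableSpace.comap_iSup]
    have h1 : (z ∈ {z | S.G.dist v z ≤ n}) = (γ z ∈ {z | S.G.dist (γ v) z ≤ n}) := by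
      apply propext
      show S.G.dist v z ≤ n ↔ S.G.dist (γ v) (γ z) ≤ n
      rw [S.dist_aut]
    refine iSup_congr_Prop (iff_of_eq h1) fun hs => ?_
    rw [MeasurableSpace.comap_comp]
    congr 1
    funext ω
    exact congrFun (S.W_act_NN γ ω) z
  simp only [h]
  exact γ.toEquiv.surjective.iSup_comp
    (fun z => ⨆ (_ : z ∈ {z | S.G.dist (γ v) z ≤ n}), MeasurableSpace.comap
      (fun ω => S.NN ω z) inferInstance)

theorem FB_restr (n : ℕ) : FB S S.o n =
    MeasurableSpace.comap (fun ω (z : Bo S n) => S.NN ω z) inferInstance := by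
  apply le_antisymm
  · refine iSup₂_le fun z hz => ?_
    have : (fun ω => S.NN ω z) = (fun x : Bo S n → ℕ → ℝ => x ⟨z, hz⟩) ∘
      (fun ω (z : Bo S n) => S.NN ω z) := rfl
    rw [this, ← MeasurableSpace.comap_comp]
    exact MeasurableSpace.comap_mono (measurable_pi_apply _).comap_le
  · have h : @Measurable _ _ (FB S S.o n) _ (fun ω (z : Bo S n) => S.NN ω z) := by
      refine @measurable_pi_lambda _ _ _ (FB S S.o n) _ _ fun z => ?_
      have h1 : MeasurableSpace.comap (fun ω => S.NN ω z) inferInstance ≤ FB S S.o n :=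
        le_iSup₂_of_le z.1 z.2 le_rfl
      exact Measurable.mono (comap_measurable _) h1 le_rfl
    exact h.comap_le

theorem memLp_spin (v : V) (p : ℝ≥0∞) : MemLp (S.spin v) p S.P := by
  refine MemLp.of_bound (S.measurable_spin v).aestronglyMeasurable 1 (ae_of_all _ fun ω => ?_)
  rcases S.spin_val v ω with h | h <;> rw [h] <;> norm_num

theorem levy (v : V) : ∀ᵐ ω ∂S.P,
    Tendsto (fun n => S.P[S.spin v | FB S v n] ω) atTop (𝓝 (S.spin v ω)) := by
  have h1 := tendsto_ae_condExp (μ := S.P) (ℱ := fil S v) (S.spin v)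
  have h2 := S.condExp_NN (memLp_spin S v 2) (S.spin_Winf v)
  have h3 : (⨆ n, (fil S v) n) = MeasurableSpace.comap S.NN inferInstance := iSup_FB S v
  rw [h3] at h1
  filter_upwards [h1, h2] with ω h1 h2
  rw [h2] at h1
  exact h1

/-- a version of the conditional expectation given the ball around the root. -/
theorem exists_fn (n : ℕ) : ∃ f : (Bo S n → ℕ → ℝ) → ℝ, Measurable f ∧
    ∀ ω, S.P[S.spin S.o | FB S S.o n] ω = f (fun z => S.NN ω z) := by
  have h : Measurable[MeasurableSpace.comap (fun ω (z : Bo S n) => S.NN ω z) inferInstance]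
      (S.P[S.spin S.o | FB S S.o n]) := by
    rw [← FB_restr]
    exact stronglyMeasurable_condExp.measurable
  obtain ⟨f, hf, he⟩ := h.exists_eq_measurable_comp
  exact ⟨f, hf, fun ω => congrFun he ω⟩

/-- the version -/
noncomputable def fn (n : ℕ) : (Bo S n → ℕ → ℝ) → ℝ := (exists_fn S n).choose

theorem measurable_fn (n : ℕ) : Measurable (fn S n) := (exists_fn S n).choose_spec.1

theorem fn_spec (n : ℕ) (ω : Om V) :
    S.P[S.spin S.o | FB S S.o n] ω = fn S n (fun z => S.NN ω z) := (exists_fn S n).choose_spec.2 ω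

theorem fn_emb (n : ℕ) (v : V) (φ : Emb S n v) : ∀ᵐ ω ∂S.P,
    fn S n (fun z => S.NN ω (φ.1 z)) = S.P[S.spin v | FB S v n] ω := by
  obtain ⟨φ, γ, hγ, hφ⟩ := φ
  have h := condExp_comap_mp (FB_le S S.o n) (S.measurePreserving_act γ)
    ((memLp_spin S S.o 2).integrable (by norm_num))
  rw [FB_act, hγ] at h
  have h2 : S.spin S.o ∘ S.act γ = S.spin v := by
    funext ω
    show S.spin S.o (S.act γ ω) = _
    rw [S.spin_act, hγ]
  rw [h2] at h
  filter_upwards [h] with ω hω
  rw [hω]
  show _ = (S.P[S.spin S.o | FB S S.o n]) (S.act γ ω)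
  rw [fn_spec]
  congr 1
  funext z
  rw [S.W_act_NN]
  show S.NN ω (φ z) = S.NN ω (γ z)
  rw [hφ]

/-- symmetrisation -/
noncomputable def Psi (n : ℕ) (x : V → ℕ → ℝ) (v : V) : ℝ :=
  ⨆ φ : Emb S n v, fn S n (fun z => x (φ.1 z))

theorem measurable_Psi (n : ℕ) (v : V) : Measurable fun x => Psi S n x v := by
  unfold Psi
  refine Measurable.iSup fun φ => ?_
  exact (measurable_fn S n).comp (measurable_pi_lambda _ fun z => measurable_pi_apply _)

theorem Psi_equi (n : ℕ) (x : V → ℕ → ℝ) (v : V) (g : S.G ≃g S.G) :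
    Psi S n (x ∘ g) v = Psi S n x (g v) := by
  unfold Psi
  let e : Emb S n v ≃ Emb S n (g v) :=
    { toFun := fun φ => ⟨fun z => g (φ.1 z), by
        obtain ⟨γ, h1, h2⟩ := φ.2
        refine ⟨γ.trans g, ?_, fun z => ?_⟩
        · show g (γ S.o) = g v
          rw [h1]
        · show g (φ.1 z) = g (γ z)
          rw [h2]⟩
      invFun := fun φ => ⟨fun z => g.symm (φ.1 z), by
        obtain ⟨γ, h1, h2⟩ := φ.2
        refine ⟨γ.trans g.symm, ?_, fun z => ?_⟩
        · show g.symm (γ S.o) = v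
          rw [h1]
          exact g.symm_apply_apply v
        · show g.symm (φ.1 z) = g.symm (γ z)
          rw [h2]⟩
      left_inv := fun φ => by
        apply Subtype.ext
        funext z
        exact g.symm_apply_apply _
      right_inv := fun φ => by
        apply Subtype.ext
        funext z
        exact g.apply_symm_apply _ }
  exact e.iSup_congr fun φ => rfl

theorem Psi_NN (v : V) : ∀ᵐ ω ∂S.P, ∀ n, Psi S n (S.NN ω) v = S.P[S.spin v | FB S v n] ω := by
  rw [ae_all_iff]
  intro n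
  have h : ∀ᵐ ω ∂S.P, ∀ φ : Emb S n v,
      fn S n (fun z => S.NN ω (φ.1 z)) = S.P[S.spin v | FB S v n] ω := by
    rw [ae_all_iff]
    exact fun φ => fn_emb S n v φ
  filter_upwards [h] with ω hω
  unfold Psi
  simp only [hω]
  exact ciSup_const

end FACTORaux

namespace Setup

variable {V : Type} [DecidableEq V] [Countable V] (S : Setup V)

theorem exists_sel : ∃ sel : (V → ℕ → ℝ) → V → Bool, Measurable sel ∧
    (∀ (γ : S.G ≃g S.G) (x : V → ℕ → ℝ), sel (x ∘ γ) = sel x ∘ γ) ∧
    ∀ v, ∀ᵐ ω ∂S.P, sel (S.NN ω) v = S.bspin v ω := by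
  classical
  refine ⟨fun x v => decide (0 < limsup (fun n => FACTORaux.Psi S n x v) atTop), ?_, ?_, ?_⟩
  · refine measurable_pi_lambda _ fun v => ?_
    refine measurable_to_bool ?_
    have h : MeasurableSet {x : V → ℕ → ℝ | 0 < limsup (fun n => FACTORaux.Psi S n x v) atTop} :=
      measurableSet_lt measurable_const
        (Measurable.limsup fun n => FACTORaux.measurable_Psi S n v)
    convert h using 1
    ext x
    simp
  · intro γ x
    funext v
    simp only [Function.comp_apply, FACTORaux.Psi_equi S]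
  · intro v
    filter_upwards [FACTORaux.Psi_NN S v, FACTORaux.levy S v] with ω h1 h2
    have h3 : limsup (fun n => FACTORaux.Psi S n (S.NN ω) v) atTop = S.spin v ω := by
      simp only [h1]
      exact h2.limsup_eq
    unfold bspin
    rw [h3]
    rcases S.spin_val v ω with h | h <;> rw [h] <;> norm_num

end Setup
end Crest.Agent.R160
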