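import Crest.Agent.R160.Pair
import Crest.Agent.R160.Conc

/-! Row 160, piece FAR: absorption of the far shells.

Write `y_k = ∑_{u ∈ sph v k} V2 𝓖 (A t v u)`, `x_K = ∑_{w ∈ sph v K} V2 𝓖 (aa v w (Xt t))`.

(1) For `u ∈ sph v (K+l)`, `w` the vertex at distance `K` on the path, `A_vu = a_wv A_wu`
(`cv_mul`), so `|A_vu - A'_vu|² ≤ 2 a_wv² |A_wu - A'_wu|² + 2 |a_wv - a'_wv|² A'_wu²`.
Apply for each `w` the automorphism exchanging `v` and `w` (`exists_aut_swap`, `P2_act`): the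
vertices `u` at distance `l` from `w` beyond `w` are mapped injectively into `sph v l`. Hence
`y_{K+l} ≤ 2 E₂[HH_v^(K)(ω₁) Y_v^(l)] + 2 E₂[Ξ_v^(K) E_v^(l)(ω₂)]` with
`Y_v^(l) = ∑_{u ∈ sph v l} |A_vu - A'_vu|²`, `Ξ_v^(K) = ∑_{w ∈ sph v K} |a_vw - a'_vw|²`,
`E_v^(l) = ∑_{u ∈ sph v l} A_vu²`.
(2) `Y^(l) ≤ 3/2`, `HH ≤ 3/2`: `E₂[HH Y^(l)] ≤ ε y_l + (9/4) P(HH_v^(K) > ε)`.
(3) if `HH_w^(K) ≤ ε` for all `w` at distance `≤ kmax` from `v`, then `E_v^(l+K) ≤ ε E_v^(l)`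
(`A_vu = A_vw a_wu`), so `∑_{l ≤ kmax} E_v^(l) ≤ 2 * (3/2) K`; otherwise use `E^(l) ≤ 3/2`,
`Ξ^(K) ≤ 3/2`; union bound over the at most `3 (d-1)^kmax` vertices.
(4) sum over `l ≤ kmax` and absorb `2 ε ∑ y_k ≤ (1/2) ∑ y_k`. -/

set_option autoImplicit false
set_option linter.unusedSectionVars false
open Finset Filter MeasureTheory ProbabilityTheory
open scoped Topology NNReal ENNReal

namespace Crest.Agent.R160
namespace Setup

variable {V : Type} [DecidableEq V] [Countable V] (S : Setup V)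

/-- `y_k` -/
noncomputable def yk (t : ℝ≥0) (𝓖 : SubF V) (v : V) (k : ℕ) : ℝ :=
  ∑ u ∈ sph S.G v k, S.V2 𝓖.1 (S.A t v u)

/-- `x_K` -/
noncomputable def xk (t : ℝ≥0) (𝓖 : SubF V) (v : V) (k : ℕ) : ℝ :=
  ∑ u ∈ sph S.G v k, S.V2 𝓖.1 (fun ω => S.aa v u (S.Xt t ω))

namespace Faraux

theorem th_le_one : S.θ ≤ 1 := S.theta_lt_one.le

theorem integrable_bdd (𝓖 : SubF V) {f : Om V × Om V → ℝ} (hm : Measurable f) (C : ℝ)
    (hb : ∀ p, |f p| ≤ C) : Integrable f (S.P2 𝓖) :=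
  Integrable.of_bound hm.aestronglyMeasurable C (Eventually.of_forall hb)

theorem int_act (𝓖 : SubF V) (hinv : S.Inv 𝓖.1) (γ : S.G ≃g S.G) {f : Om V × Om V → ℝ}
    (hf : Measurable f) :
    ∫ p, f (Prod.map (S.act γ) (S.act γ) p) ∂(S.P2 𝓖) = ∫ p, f p ∂(S.P2 𝓖) := by
  have h := S.P2_act 𝓖 hinv γ
  conv_rhs => rw [← h.map_eq]
  rw [integral_map h.measurable.aemeasurable hf.aestronglyMeasurable]

theorem ae_good2 (t : ℝ≥0) (𝓖 : SubF V) :
    ∀ᵐ p ∂(S.P2 𝓖), S.Good (S.Xt t p.1) ∧ S.Good (S.Xt t p.2) := by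
  have h := S.ae_good (fun _ => t)
  have h1 := (S.P2_fst 𝓖).quasiMeasurePreserving.ae h
  have h2 := (S.P2_snd 𝓖).quasiMeasurePreserving.ae h
  filter_upwards [h1, h2] with p hp1 hp2
  exact ⟨hp1, hp2⟩

theorem A_bd (t : ℝ≥0) (v u : V) (ω : Om V) : 0 < S.A t v u ω ∧ S.A t v u ω ≤ S.θ ^ S.G.dist v u :=
  S.cv_mem v u _

theorem A_le_one (t : ℝ≥0) (v u : V) (ω : Om V) : S.A t v u ω ≤ 1 :=
  (A_bd S t v u ω).2.trans (pow_le_one₀ S.θpos.le (th_le_one S))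

theorem aa_le_one (v u : V) (X : V → ℝ) : S.aa v u X ≤ 1 :=
  (S.aa_mem v u X).2.trans (pow_le_one₀ S.θpos.le (th_le_one S))

theorem memLp_A (t : ℝ≥0) (v u : V) : MemLp (S.A t v u) 2 S.P :=
  MemLp.of_bound (S.measurable_A t v u).aestronglyMeasurable 1 (Eventually.of_forall fun ω => by
    rw [Real.norm_eq_abs, abs_of_pos (A_bd S t v u ω).1]; exact A_le_one S t v u ω)

theorem meas_aa (t : ℝ≥0) (v u : V) : Measurable (fun ω => S.aa v u (S.Xt t ω)) :=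
  (S.measurable_aa v u).comp (S.measurable_Xt t)

theorem memLp_aa (t : ℝ≥0) (v u : V) : MemLp (fun ω => S.aa v u (S.Xt t ω)) 2 S.P :=
  MemLp.of_bound (meas_aa S t v u).aestronglyMeasurable 1 (Eventually.of_forall fun ω => by
    rw [Real.norm_eq_abs, abs_of_pos (S.aa_mem v u _).1]; exact aa_le_one S v u _)

theorem meas_dA (t : ℝ≥0) (v u : V) :
    Measurable (fun p : Om V × Om V => (S.A t v u p.1 - S.A t v u p.2) ^ 2) :=
  (((S.measurable_A t v u).comp measurable_fst).sub ((S.measurable_A t v u).comp measurable_snd)).pow_const 2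

theorem dA_le (t : ℝ≥0) (v u : V) (p : Om V × Om V) :
    (S.A t v u p.1 - S.A t v u p.2) ^ 2 ≤ (S.θ ^ 2) ^ S.G.dist v u := by
  have h1 := A_bd S t v u p.1
  have h2 := A_bd S t v u p.2
  rw [← pow_mul, mul_comm, pow_mul]
  have : |S.A t v u p.1 - S.A t v u p.2| ≤ S.θ ^ S.G.dist v u := by
    rw [abs_le]; constructor <;> linarith
  exact sq_le_sq' (by linarith [(abs_le.1 this).1]) (abs_le.1 this).2

/-- sums over a sphere of quantities bounded by `θ^(2k)`. -/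
theorem sum_sph_le (v : V) (k : ℕ) (f : V → ℝ) (hf : ∀ u ∈ sph S.G v k, f u ≤ (S.θ ^ 2) ^ S.G.dist v u) :
    ∑ u ∈ sph S.G v k, f u ≤ 3 / 2 := by
  have hd3 : (3 : ℝ) ≤ S.d := by exact_mod_cast S.rt.three_le
  have h1 : ∑ u ∈ sph S.G v k, f u ≤ (sph S.G v k).card * (S.θ ^ 2) ^ k := by
    rw [← nsmul_eq_mul]
    apply Finset.sum_le_card_nsmul
    intro u hu
    rw [← (mem_sph S.rt).1 hu]
    exact hf u hu
  refine h1.trans ?_
  cases k with
  | zero => rw [card_sph_zero S.rt]; norm_num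
  | succ k =>
    rw [card_sph_succ S.rt]
    have hd1 : ((S.d - 1 : ℕ) : ℝ) = (S.d : ℝ) - 1 := by
      rw [Nat.cast_sub (by have := S.rt.three_le; omega)]; simp
    push_cast
    rw [hd1]
    have h2 : ((S.d : ℝ) - 1) * S.θ ^ 2 ≤ 1 := by rw [mul_comm]; exact S.θle
    have h3 : 0 ≤ ((S.d : ℝ) - 1) * S.θ ^ 2 := by
      apply mul_nonneg <;> [linarith; positivity]
    have h4 : (((S.d : ℝ) - 1) * S.θ ^ 2) ^ k ≤ 1 := pow_le_one₀ h3 h2
    have h5 : (S.d : ℝ) * S.θ ^ 2 ≤ 3 / 2 := by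
      nlinarith [sq_nonneg S.θ]
    calc (S.d : ℝ) * ((S.d : ℝ) - 1) ^ k * (S.θ ^ 2) ^ (k + 1)
        = (S.d * S.θ ^ 2) * (((S.d : ℝ) - 1) * S.θ ^ 2) ^ k := by rw [mul_pow]; ring
      _ ≤ (3 / 2) * 1 := by
          apply mul_le_mul h5 h4 (pow_nonneg h3 _) (by norm_num)
      _ = 3 / 2 := by norm_num

/-- the measurable function `(a_vw(ω₁))² ∑_u |A_vu - A'_vu|²`. -/
noncomputable def F1 (t : ℝ≥0) (l : ℕ) (v w : V) (p : Om V × Om V) : ℝ :=
  S.aa v w (S.Xt t p.1) ^ 2 * ∑ u ∈ sph S.G v l, (S.A t v u p.1 - S.A t v u p.2) ^ 2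

noncomputable def F2 (t : ℝ≥0) (l : ℕ) (v w : V) (p : Om V × Om V) : ℝ :=
  (S.aa v w (S.Xt t p.1) - S.aa v w (S.Xt t p.2)) ^ 2 * ∑ u ∈ sph S.G v l, S.A t v u p.2 ^ 2

theorem meas_F1 (t : ℝ≥0) (l : ℕ) (v w : V) : Measurable (F1 S t l v w) := by
  unfold F1
  refine Measurable.mul (((meas_aa S t v w).comp measurable_fst).pow_const 2) ?_
  exact Finset.measurable_sum _ fun u _ => meas_dA S t v u

theorem meas_F2 (t : ℝ≥0) (l : ℕ) (v w : V) : Measurable (F2 S t l v w) := by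
  unfold F2
  refine Measurable.mul ((((meas_aa S t v w).comp measurable_fst).sub
    ((meas_aa S t v w).comp measurable_snd)).pow_const 2) ?_
  exact Finset.measurable_sum _ fun u _ => ((S.measurable_A t v u).comp measurable_snd).pow_const 2

theorem sumdA_bd (t : ℝ≥0) (l : ℕ) (v : V) (p : Om V × Om V) :
    0 ≤ ∑ u ∈ sph S.G v l, (S.A t v u p.1 - S.A t v u p.2) ^ 2 ∧
    ∑ u ∈ sph S.G v l, (S.A t v u p.1 - S.A t v u p.2) ^ 2 ≤ 3 / 2 :=
  ⟨Finset.sum_nonneg fun _ _ => sq_nonneg _, sum_sph_le S v l _ fun u _ => dA_le S t v u p⟩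

theorem sumA_bd (t : ℝ≥0) (l : ℕ) (v : V) (ω : Om V) :
    0 ≤ ∑ u ∈ sph S.G v l, S.A t v u ω ^ 2 ∧ ∑ u ∈ sph S.G v l, S.A t v u ω ^ 2 ≤ 3 / 2 := by
  refine ⟨Finset.sum_nonneg fun _ _ => sq_nonneg _, sum_sph_le S v l _ fun u _ => ?_⟩
  rw [← pow_mul, mul_comm, pow_mul]
  exact pow_le_pow_left₀ (A_bd S t v u ω).1.le (A_bd S t v u ω).2 2

theorem daa_le (v w : V) (X X' : V → ℝ) : (S.aa v w X - S.aa v w X') ^ 2 ≤ (S.θ ^ 2) ^ S.G.dist v w := by
  have h1 := S.aa_mem v w X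
  have h2 := S.aa_mem v w X'
  rw [← pow_mul, mul_comm, pow_mul]
  have : |S.aa v w X - S.aa v w X'| ≤ S.θ ^ S.G.dist v w := by
    rw [abs_le]; constructor <;> linarith
  exact sq_le_sq' (by linarith [(abs_le.1 this).1]) (abs_le.1 this).2

theorem th2_le_one (n : ℕ) : (S.θ ^ 2) ^ n ≤ 1 :=
  pow_le_one₀ (sq_nonneg _) (pow_le_one₀ S.θpos.le (th_le_one S))

theorem F1_bd (t : ℝ≥0) (l : ℕ) (v w : V) (p : Om V × Om V) : |F1 S t l v w p| ≤ 3 / 2 := by
  have h1 := sumdA_bd S t l v p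
  have h2 := S.aa_mem v w (S.Xt t p.1)
  have h3 := aa_le_one S v w (S.Xt t p.1)
  unfold F1
  rw [abs_of_nonneg (mul_nonneg (sq_nonneg _) h1.1)]
  have h4 : S.aa v w (S.Xt t p.1) ^ 2 ≤ 1 := pow_le_one₀ h2.1.le h3
  calc _ ≤ 1 * (3 / 2 : ℝ) := mul_le_mul h4 h1.2 h1.1 (by norm_num)
    _ = _ := by norm_num

theorem F2_bd (t : ℝ≥0) (l : ℕ) (v w : V) (p : Om V × Om V) : |F2 S t l v w p| ≤ 3 / 2 := by
  have h1 := sumA_bd S t l v p.2
  have h2 := (daa_le S v w (S.Xt t p.1) (S.Xt t p.2)).trans (th2_le_one S _)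
  unfold F2
  rw [abs_of_nonneg (mul_nonneg (sq_nonneg _) h1.1)]
  calc _ ≤ 1 * (3 / 2 : ℝ) := mul_le_mul h2 h1.2 h1.1 (by norm_num)
    _ = _ := by norm_num

theorem sph_act (γ : S.G ≃g S.G) (v : V) (l : ℕ) (f : V → ℝ) :
    ∑ u ∈ sph S.G (γ v) l, f u = ∑ u ∈ sph S.G v l, f (γ u) := by
  rw [aut_sph S.rt γ, Finset.sum_image]
  intro a _ b _ h
  exact γ.injective h

theorem aa_act (γ : S.G ≃g S.G) (t : ℝ≥0) (v w : V) (ω : Om V) :
    S.aa v w (S.Xt t (S.act γ ω)) = S.aa (γ v) (γ w) (S.Xt t ω) := by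
  rw [S.Xt_act, S.aa_aut]

theorem F1_act (γ : S.G ≃g S.G) (t : ℝ≥0) (l : ℕ) (v w : V) (p : Om V × Om V) :
    F1 S t l v w (Prod.map (S.act γ) (S.act γ) p) = F1 S t l (γ v) (γ w) p := by
  unfold F1
  rw [sph_act]
  simp only [Prod.map_fst, Prod.map_snd, S.A_act, aa_act]

theorem F2_act (γ : S.G ≃g S.G) (t : ℝ≥0) (l : ℕ) (v w : V) (p : Om V × Om V) :
    F2 S t l v w (Prod.map (S.act γ) (S.act γ) p) = F2 S t l (γ v) (γ w) p := by
  unfold F2
  rw [sph_act]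
  simp only [Prod.map_fst, Prod.map_snd, S.A_act, aa_act]

theorem int_F1_swap (t : ℝ≥0) (𝓖 : SubF V) (hinv : S.Inv 𝓖.1) (l : ℕ) (v w : V) :
    ∫ p, F1 S t l w v p ∂(S.P2 𝓖) = ∫ p, F1 S t l v w p ∂(S.P2 𝓖) := by
  obtain ⟨γ, h1, h2⟩ := exists_aut_swap S.rt v w
  rw [← int_act S 𝓖 hinv γ (meas_F1 S t l v w)]
  simp only [F1_act, h1, h2]

theorem int_F2_swap (t : ℝ≥0) (𝓖 : SubF V) (hinv : S.Inv 𝓖.1) (l : ℕ) (v w : V) :
    ∫ p, F2 S t l w v p ∂(S.P2 𝓖) = ∫ p, F2 S t l v w p ∂(S.P2 𝓖) := by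
  obtain ⟨γ, h1, h2⟩ := exists_aut_swap S.rt v w
  rw [← int_act S 𝓖 hinv γ (meas_F2 S t l v w)]
  simp only [F2_act, h1, h2]

/-- the pointwise bound -/
theorem pt_bound (t : ℝ≥0) (v w : V) (K l : ℕ) (hK : 1 ≤ K) (hw : w ∈ sph S.G v K)
    (p : Om V × Om V) (h1 : S.Good (S.Xt t p.1)) (h2 : S.Good (S.Xt t p.2)) :
    ∑ u ∈ bsph S.G (geo S.G v w (K - 1)) w l, (S.A t v u p.1 - S.A t v u p.2) ^ 2 ≤
      2 * F1 S t l w v p + 2 * F2 S t l w v p := by
  have hdw : S.G.dist v w = K := (mem_sph S.rt).1 hw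
  have hsub : bsph S.G (geo S.G v w (K - 1)) w l ⊆ sph S.G w l := by
    intro u hu
    exact (mem_sph S.rt).2 ((mem_beyond S.rt hK hw).1 hu).1
  have hpt : ∀ u ∈ bsph S.G (geo S.G v w (K - 1)) w l, (S.A t v u p.1 - S.A t v u p.2) ^ 2 ≤
      2 * (S.aa w v (S.Xt t p.1) ^ 2 * (S.A t w u p.1 - S.A t w u p.2) ^ 2) +
      2 * ((S.aa w v (S.Xt t p.1) - S.aa w v (S.Xt t p.2)) ^ 2 * S.A t w u p.2 ^ 2) := by
    intro u hu
    obtain ⟨hu1, hu2⟩ := (mem_beyond S.rt hK hw).1 hu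
    have hd : S.G.dist v w + S.G.dist w u = S.G.dist v u := by omega
    have e1 : S.A t v u p.1 = S.aa w v (S.Xt t p.1) * S.A t w u p.1 := S.cv_mul h1 hd
    have e2 : S.A t v u p.2 = S.aa w v (S.Xt t p.2) * S.A t w u p.2 := S.cv_mul h2 hd
    rw [e1, e2]
    nlinarith [sq_nonneg (S.aa w v (S.Xt t p.1) * (S.A t w u p.1 - S.A t w u p.2) -
      (S.aa w v (S.Xt t p.1) - S.aa w v (S.Xt t p.2)) * S.A t w u p.2)]
  refine (Finset.sum_le_sum hpt).trans ?_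
  rw [Finset.sum_add_distrib, ← Finset.mul_sum, ← Finset.mul_sum, ← Finset.mul_sum, ← Finset.mul_sum]
  unfold F1 F2
  gcongr

end Faraux

open Faraux in
theorem far_one (t : ℝ≥0) (𝓖 : SubF V) (hinv : S.Inv 𝓖.1) (v : V) (K l : ℕ) (hK : 1 ≤ K) :
    S.yk t 𝓖 v (K + l) ≤
      2 * ∫ p, S.HH v K (S.Xt t p.1) *
        (∑ u ∈ sph S.G v l, (S.A t v u p.1 - S.A t v u p.2) ^ 2) ∂(S.P2 𝓖) +
      2 * ∫ p, (∑ w ∈ sph S.G v K, (S.aa v w (S.Xt t p.1) - S.aa v w (S.Xt t p.2)) ^ 2) *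
        (∑ u ∈ sph S.G v l, S.A t v u p.2 ^ 2) ∂(S.P2 𝓖) := by
  have hint : ∀ u, Integrable (fun p : Om V × Om V => (S.A t v u p.1 - S.A t v u p.2) ^ 2) (S.P2 𝓖) := by
    intro u
    refine integrable_bdd S 𝓖 (meas_dA S t v u) 1 fun p => ?_
    rw [abs_of_nonneg (sq_nonneg _)]
    exact (dA_le S t v u p).trans (th2_le_one S _)
  have hi1 : ∀ w w', Integrable (F1 S t l w w') (S.P2 𝓖) := fun w w' =>
    integrable_bdd S 𝓖 (meas_F1 S t l w w') _ (F1_bd S t l w w')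
  have hi2 : ∀ w w', Integrable (F2 S t l w w') (S.P2 𝓖) := fun w w' =>
    integrable_bdd S 𝓖 (meas_F2 S t l w w') _ (F2_bd S t l w w')
  have e1 : S.yk t 𝓖 v (K + l) = ∫ p, ∑ w ∈ sph S.G v K, ∑ u ∈ bsph S.G (geo S.G v w (K - 1)) w l,
      (S.A t v u p.1 - S.A t v u p.2) ^ 2 ∂(S.P2 𝓖) := by
    unfold yk
    simp_rw [← sum_sph_add S.rt v hK l]
    rw [integral_finsetSum _ fun u _ => hint u]
    exact Finset.sum_congr rfl fun u _ => S.V2_eq 𝓖 (memLp_A S t v u)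
  rw [e1]
  calc _ ≤ ∫ p, ∑ w ∈ sph S.G v K, (2 * F1 S t l w v p + 2 * F2 S t l w v p) ∂(S.P2 𝓖) := by
        refine integral_mono_ae ?_ ?_ ?_
        · exact integrable_finsetSum _ fun w _ => integrable_finsetSum _ fun u _ => hint u
        · exact integrable_finsetSum _ fun w _ => ((hi1 w v).const_mul 2).add ((hi2 w v).const_mul 2)
        · filter_upwards [ae_good2 S t 𝓖] with p hp
          exact Finset.sum_le_sum fun w hw => pt_bound S t v w K l hK hw p hp.1 hp.2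
    _ = ∑ w ∈ sph S.G v K, (2 * ∫ p, F1 S t l v w p ∂(S.P2 𝓖) + 2 * ∫ p, F2 S t l v w p ∂(S.P2 𝓖)) := by
        have hadd : ∀ w, Integrable (fun p => 2 * F1 S t l w v p + 2 * F2 S t l w v p) (S.P2 𝓖) :=
          fun w => ((hi1 w v).const_mul 2).add ((hi2 w v).const_mul 2)
        rw [integral_finsetSum _ fun w _ => hadd w]
        refine Finset.sum_congr rfl fun w _ => ?_
        rw [integral_add ((hi1 w v).const_mul 2) ((hi2 w v).const_mul 2), integral_const_mul,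
          integral_const_mul, int_F1_swap S t 𝓖 hinv, int_F2_swap S t 𝓖 hinv]
    _ = _ := by
        rw [Finset.sum_add_distrib, ← Finset.mul_sum, ← Finset.mul_sum,
          ← integral_finsetSum _ fun w _ => hi1 v w, ← integral_finsetSum _ fun w _ => hi2 v w]
        congr 2
        · refine integral_congr_ae (Eventually.of_forall fun p => ?_)
          simp only [F1, HH, Finset.sum_mul]
        · refine integral_congr_ae (Eventually.of_forall fun p => ?_)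
          simp only [F2, Finset.sum_mul]

namespace Faraux

/-- `E_l` -/
noncomputable def El (t : ℝ≥0) (v : V) (l : ℕ) (ω : Om V) : ℝ := ∑ u ∈ sph S.G v l, S.A t v u ω ^ 2

theorem A_mul_aa (t : ℝ≥0) {v w u : V} (hd : S.G.dist v w + S.G.dist w u = S.G.dist v u) (ω : Om V) :
    S.A t v u ω = S.A t v w ω * S.aa w u (S.Xt t ω) := by
  unfold A cv
  rw [S.aa_mul hd]
  ring

theorem El_step (t : ℝ≥0) (v : V) (K l : ℕ) (ε : ℝ) (ω : Om V)
    (h : ∀ w ∈ sph S.G v l, S.HH w K (S.Xt t ω) ≤ ε) : El S t v (K + l) ω ≤ ε * El S t v l ω := by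
  have hw1 : ∀ w ∈ sph S.G v l, ∀ s : Finset V, s ⊆ sph S.G w K →
      (∀ u ∈ s, S.G.dist v w + S.G.dist w u = S.G.dist v u) →
      ∑ u ∈ s, S.A t v u ω ^ 2 ≤ ε * S.A t v w ω ^ 2 := by
    intro w hw s hs hd
    calc ∑ u ∈ s, S.A t v u ω ^ 2 = ∑ u ∈ s, S.A t v w ω ^ 2 * S.aa w u (S.Xt t ω) ^ 2 := by
          refine Finset.sum_congr rfl fun u hu => ?_
          rw [A_mul_aa S t (hd u hu) ω, mul_pow]
      _ = S.A t v w ω ^ 2 * ∑ u ∈ s, S.aa w u (S.Xt t ω) ^ 2 := by rw [Finset.mul_sum]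
      _ ≤ S.A t v w ω ^ 2 * ∑ u ∈ sph S.G w K, S.aa w u (S.Xt t ω) ^ 2 := by
          gcongr
      _ ≤ S.A t v w ω ^ 2 * ε := by
          have := h w hw
          unfold HH at this
          gcongr
      _ = _ := by ring
  rcases Nat.eq_zero_or_pos l with rfl | hl
  · have hv : v ∈ sph S.G v 0 := (mem_sph S.rt).2 SimpleGraph.dist_self
    have h0 : sph S.G v 0 = {v} := by
      ext u
      rw [mem_sph S.rt, Finset.mem_singleton, S.rt.tree.connected.dist_eq_zero_iff]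
      exact eq_comm
    unfold El
    rw [add_zero, h0, Finset.sum_singleton]
    refine hw1 v hv _ (Finset.Subset.refl _) fun u _ => ?_
    rw [SimpleGraph.dist_self, zero_add]
  · unfold El
    rw [Nat.add_comm, sum_sph_add S.rt v hl K, Finset.mul_sum]
    refine Finset.sum_le_sum fun w hw => ?_
    refine hw1 w hw _ ?_ ?_
    · intro u hu
      exact (mem_sph S.rt).2 ((mem_beyond S.rt hl hw).1 hu).1
    · intro u hu
      have h1 := (mem_beyond S.rt hl hw).1 hu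
      have h2 := (mem_sph S.rt).1 hw
      omega

theorem sum_El (t : ℝ≥0) (v : V) (K kmax : ℕ) (hK : 1 ≤ K) (ε : ℝ) (hε0 : 0 ≤ ε) (hε1 : ε ≤ 1 / 4) (ω : Om V)
    (h : ∀ l ≤ kmax, ∀ w ∈ sph S.G v l, S.HH w K (S.Xt t ω) ≤ ε) :
    ∀ L ≤ kmax + 1, ∑ l ∈ range L, El S t v l ω ≤ 3 * K := by
  intro L
  induction L using Nat.strong_induction_on with
  | _ L ih =>
    intro hL
    have hb : ∀ n, ∑ l ∈ range n, El S t v l ω ≤ n * (3 / 2) := by
      intro n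
      have := Finset.sum_le_card_nsmul (range n) (fun l => El S t v l ω) (3 / 2)
        (fun l _ => (sumA_bd S t l v ω).2)
      simpa using this
    rcases le_or_gt L K with hLK | hLK
    · have h1 := hb L
      have h2 : (L : ℝ) ≤ K := by exact_mod_cast hLK
      have h3 : (0 : ℝ) ≤ K := Nat.cast_nonneg _
      nlinarith
    · obtain ⟨m, rfl⟩ : ∃ m, L = K + m := ⟨L - K, by omega⟩
      rw [Finset.sum_range_add]
      have h1 := hb K
      have h2 := ih m (by omega) (by omega)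
      have h3 : ∑ l ∈ range m, El S t v (K + l) ω ≤ ε * ∑ l ∈ range m, El S t v l ω := by
        rw [Finset.mul_sum]
        refine Finset.sum_le_sum fun l hl => ?_
        exact El_step S t v K l ε ω (h l (by have := Finset.mem_range.1 hl; omega))
      have h4 : 0 ≤ ∑ l ∈ range m, El S t v l ω :=
        Finset.sum_nonneg fun l _ => (sumA_bd S t l v ω).1
      have h5 : (0 : ℝ) ≤ K := Nat.cast_nonneg _
      nlinarith

theorem meas_HH (t : ℝ≥0) (v : V) (K : ℕ) : Measurable (fun ω => S.HH v K (S.Xt t ω)) := by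
  unfold HH
  exact Finset.measurable_sum _ fun u _ => (meas_aa S t v u).pow_const 2

theorem meas_El (t : ℝ≥0) (v : V) (l : ℕ) : Measurable (El S t v l) := by
  unfold El
  exact Finset.measurable_sum _ fun u _ => (S.measurable_A t v u).pow_const 2

theorem meas_Y (t : ℝ≥0) (v : V) (l : ℕ) :
    Measurable (fun p : Om V × Om V => ∑ u ∈ sph S.G v l, (S.A t v u p.1 - S.A t v u p.2) ^ 2) :=
  Finset.measurable_sum _ fun u _ => meas_dA S t v u

theorem meas_daa (t : ℝ≥0) (v w : V) :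
    Measurable (fun p : Om V × Om V => (S.aa v w (S.Xt t p.1) - S.aa v w (S.Xt t p.2)) ^ 2) :=
  (((meas_aa S t v w).comp measurable_fst).sub ((meas_aa S t v w).comp measurable_snd)).pow_const 2

/-- `Ξ` -/
noncomputable def Xi (t : ℝ≥0) (v : V) (K : ℕ) (p : Om V × Om V) : ℝ :=
  ∑ w ∈ sph S.G v K, (S.aa v w (S.Xt t p.1) - S.aa v w (S.Xt t p.2)) ^ 2

theorem meas_Xi (t : ℝ≥0) (v : V) (K : ℕ) : Measurable (Xi S t v K) :=
  Finset.measurable_sum _ fun w _ => meas_daa S t v w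

theorem Xi_bd (t : ℝ≥0) (v : V) (K : ℕ) (p : Om V × Om V) : 0 ≤ Xi S t v K p ∧ Xi S t v K p ≤ 3 / 2 :=
  ⟨Finset.sum_nonneg fun _ _ => sq_nonneg _, sum_sph_le S v K _ fun u _ => daa_le S v u _ _⟩

theorem int_Y (t : ℝ≥0) (𝓖 : SubF V) (v : V) (l : ℕ) :
    ∫ p, (∑ u ∈ sph S.G v l, (S.A t v u p.1 - S.A t v u p.2) ^ 2) ∂(S.P2 𝓖) = S.yk t 𝓖 v l := by
  have hint : ∀ u, Integrable (fun p : Om V × Om V => (S.A t v u p.1 - S.A t v u p.2) ^ 2) (S.P2 𝓖) := by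
    intro u
    refine integrable_bdd S 𝓖 (meas_dA S t v u) 1 fun p => ?_
    rw [abs_of_nonneg (sq_nonneg _)]
    exact (dA_le S t v u p).trans (th2_le_one S _)
  unfold yk
  rw [integral_finsetSum _ fun u _ => hint u]
  exact Finset.sum_congr rfl fun u _ => (S.V2_eq 𝓖 (memLp_A S t v u)).symm

theorem int_Xi (t : ℝ≥0) (𝓖 : SubF V) (v : V) (K : ℕ) :
    ∫ p, Xi S t v K p ∂(S.P2 𝓖) = S.xk t 𝓖 v K := by
  have hint : ∀ u, Integrable (fun p : Om V × Om V =>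
      (S.aa v u (S.Xt t p.1) - S.aa v u (S.Xt t p.2)) ^ 2) (S.P2 𝓖) := by
    intro u
    refine integrable_bdd S 𝓖 (meas_daa S t v u) 1 fun p => ?_
    rw [abs_of_nonneg (sq_nonneg _)]
    exact (daa_le S v u _ _).trans (th2_le_one S _)
  unfold xk Xi
  rw [integral_finsetSum _ fun u _ => hint u]
  exact Finset.sum_congr rfl fun u _ => (S.V2_eq 𝓖 (memLp_aa S t v u)).symm

theorem card_ball (v : V) (n : ℕ) :
    ∑ k ∈ range (n + 1), ((sph S.G v k).card : ℝ) ≤ 3 * ((S.d : ℝ) - 1) ^ n := by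
  have hd3 : (3 : ℝ) ≤ S.d := by exact_mod_cast S.rt.three_le
  induction n with
  | zero => simp [card_sph_zero S.rt]
  | succ n ih =>
    rw [Finset.sum_range_succ, card_sph_succ S.rt]
    have hd1 : ((S.d - 1 : ℕ) : ℝ) = (S.d : ℝ) - 1 := by
      rw [Nat.cast_sub (by have := S.rt.three_le; omega)]; simp
    push_cast
    rw [hd1]
    have hp : 0 ≤ ((S.d : ℝ) - 1) ^ n := pow_nonneg (by linarith) _
    have : (3 + (S.d : ℝ)) * ((S.d : ℝ) - 1) ^ n ≤ 3 * ((S.d : ℝ) - 1) * ((S.d : ℝ) - 1) ^ n := by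
      apply mul_le_mul_of_nonneg_right _ hp
      linarith
    rw [pow_succ]
    nlinarith

theorem I1_le (t : ℝ≥0) (𝓖 : SubF V) (v : V) (K l : ℕ) (ε pK : ℝ) (hε : 0 < ε)
    (hp : S.P.real {ω | ε < S.HH v K (S.Xt t ω)} ≤ pK) :
    ∫ p, S.HH v K (S.Xt t p.1) *
        (∑ u ∈ sph S.G v l, (S.A t v u p.1 - S.A t v u p.2) ^ 2) ∂(S.P2 𝓖) ≤
      ε * S.yk t 𝓖 v l + 9 / 4 * pK := by
  have hmB : MeasurableSet {ω | ε < S.HH v K (S.Xt t ω)} :=
    measurableSet_lt measurable_const (meas_HH S t v K)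
  set B : Set (Om V × Om V) := Prod.fst ⁻¹' {ω | ε < S.HH v K (S.Xt t ω)} with hB
  have hmB' : MeasurableSet B := measurable_fst hmB
  have hY := sumdA_bd S t l v
  have hint1 : Integrable (fun p : Om V × Om V =>
      ∑ u ∈ sph S.G v l, (S.A t v u p.1 - S.A t v u p.2) ^ 2) (S.P2 𝓖) := by
    refine integrable_bdd S 𝓖 (meas_Y S t v l) (3 / 2) fun p => ?_
    rw [abs_of_nonneg (hY p).1]; exact (hY p).2
  have hint2 : Integrable (B.indicator fun _ => (9 / 4 : ℝ)) (S.P2 𝓖) :=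
    (integrable_const _).indicator hmB'
  have hm0 : Measurable (fun p : Om V × Om V => S.HH v K (S.Xt t p.1) *
        (∑ u ∈ sph S.G v l, (S.A t v u p.1 - S.A t v u p.2) ^ 2)) :=
    ((meas_HH S t v K).comp measurable_fst).mul (meas_Y S t v l)
  have hint0 : Integrable (fun p : Om V × Om V => S.HH v K (S.Xt t p.1) *
        (∑ u ∈ sph S.G v l, (S.A t v u p.1 - S.A t v u p.2) ^ 2)) (S.P2 𝓖) := by
    refine integrable_bdd S 𝓖 hm0 (9 / 4) fun p => ?_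
    have h1 := S.HH_le v K (S.Xt t p.1)
    rw [abs_of_nonneg (mul_nonneg h1.1 (hY p).1)]
    calc _ ≤ (3 / 2 : ℝ) * (3 / 2) := mul_le_mul h1.2 (hY p).2 (hY p).1 (by norm_num)
      _ = 9 / 4 := by norm_num
  calc _ ≤ ∫ p, (ε * (∑ u ∈ sph S.G v l, (S.A t v u p.1 - S.A t v u p.2) ^ 2) +
        B.indicator (fun _ => (9 / 4 : ℝ)) p) ∂(S.P2 𝓖) := by
        refine integral_mono hint0 ((hint1.const_mul ε).add hint2) fun p => ?_
        have h1 := S.HH_le v K (S.Xt t p.1)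
        by_cases hpB : p ∈ B
        · rw [Set.indicator_of_mem hpB]
          have h2 : S.HH v K (S.Xt t p.1) *
              (∑ u ∈ sph S.G v l, (S.A t v u p.1 - S.A t v u p.2) ^ 2) ≤ 9 / 4 := by
            calc _ ≤ (3 / 2 : ℝ) * (3 / 2) := mul_le_mul h1.2 (hY p).2 (hY p).1 (by norm_num)
              _ = 9 / 4 := by norm_num
          have h3 := mul_nonneg hε.le (hY p).1
          linarith
        · rw [Set.indicator_of_notMem hpB, add_zero]
          have h2 : S.HH v K (S.Xt t p.1) ≤ ε := not_lt.1 hpB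
          exact mul_le_mul_of_nonneg_right h2 (hY p).1
    _ = ε * S.yk t 𝓖 v l + 9 / 4 * (S.P2 𝓖).real B := by
        rw [integral_add (hint1.const_mul ε) hint2, integral_const_mul, int_Y,
          integral_indicator_const _ hmB', smul_eq_mul]
        ring
    _ ≤ _ := by
        have : (S.P2 𝓖).real B = S.P.real {ω | ε < S.HH v K (S.Xt t ω)} :=
          (S.P2_fst 𝓖).measureReal_preimage hmB.nullMeasurableSet
        rw [this]
        linarith

theorem I2_le (t : ℝ≥0) (𝓖 : SubF V) (v : V) (K kmax L : ℕ) (hK : 1 ≤ K) (hL : L ≤ kmax + 1)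
    (ε pK : ℝ) (hε : 0 < ε) (hε1 : ε ≤ 1 / 4)
    (hp : ∀ w, S.P.real {ω | ε < S.HH w K (S.Xt t ω)} ≤ pK) :
    ∫ p, Xi S t v K p * (∑ l ∈ range L, El S t v l p.2) ∂(S.P2 𝓖) ≤
      3 * K * S.xk t 𝓖 v K + 9 / 4 * L * (3 * ((S.d : ℝ) - 1) ^ kmax * pK) := by
  set Bad : Set (Om V) := ⋃ k ∈ range (kmax + 1), ⋃ w ∈ sph S.G v k, {ω | ε < S.HH w K (S.Xt t ω)}
    with hBad
  have hmw : ∀ w, MeasurableSet {ω | ε < S.HH w K (S.Xt t ω)} := fun w =>
    measurableSet_lt measurable_const (meas_HH S t w K)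
  have hmBad : MeasurableSet Bad :=
    Finset.measurableSet_biUnion _ fun k _ => Finset.measurableSet_biUnion _ fun w _ => hmw w
  have hpBad : S.P.real Bad ≤ 3 * ((S.d : ℝ) - 1) ^ kmax * pK := by
    have hpK : 0 ≤ pK := measureReal_nonneg.trans (hp v)
    calc S.P.real Bad ≤ ∑ k ∈ range (kmax + 1), S.P.real (⋃ w ∈ sph S.G v k, {ω | ε < S.HH w K (S.Xt t ω)}) :=
          measureReal_biUnion_finset_le _ _
      _ ≤ ∑ k ∈ range (kmax + 1), ((sph S.G v k).card : ℝ) * pK := by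
          refine Finset.sum_le_sum fun k _ => ?_
          refine (measureReal_biUnion_finset_le _ _).trans ?_
          rw [← nsmul_eq_mul]
          exact Finset.sum_le_card_nsmul _ _ _ fun w _ => hp w
      _ = (∑ k ∈ range (kmax + 1), ((sph S.G v k).card : ℝ)) * pK := by rw [Finset.sum_mul]
      _ ≤ _ := mul_le_mul_of_nonneg_right (card_ball S v kmax) hpK
  set B : Set (Om V × Om V) := Prod.snd ⁻¹' Bad with hB
  have hmB : MeasurableSet B := measurable_snd hmBad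
  have hE : ∀ ω, 0 ≤ ∑ l ∈ range L, El S t v l ω ∧ ∑ l ∈ range L, El S t v l ω ≤ L * (3 / 2) := by
    intro ω
    refine ⟨Finset.sum_nonneg fun l _ => (sumA_bd S t l v ω).1, ?_⟩
    have := Finset.sum_le_card_nsmul (range L) (fun l => El S t v l ω) (3 / 2)
      (fun l _ => (sumA_bd S t l v ω).2)
    simpa using this
  have hXi := Xi_bd S t v K
  have hprod : ∀ p : Om V × Om V, Xi S t v K p * (∑ l ∈ range L, El S t v l p.2) ≤ 9 / 4 * L := by
    intro p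
    calc _ ≤ (3 / 2 : ℝ) * (L * (3 / 2)) :=
          mul_le_mul (hXi p).2 (hE p.2).2 (hE p.2).1 (by norm_num)
      _ = _ := by ring
  have hm0 : Measurable (fun p : Om V × Om V => Xi S t v K p * (∑ l ∈ range L, El S t v l p.2)) :=
    (meas_Xi S t v K).mul ((Finset.measurable_sum _ fun l _ => meas_El S t v l).comp measurable_snd)
  have hint0 : Integrable (fun p : Om V × Om V => Xi S t v K p * (∑ l ∈ range L, El S t v l p.2))
      (S.P2 𝓖) := by
    refine integrable_bdd S 𝓖 hm0 (9 / 4 * L) fun p => ?_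
    rw [abs_of_nonneg (mul_nonneg (hXi p).1 (hE p.2).1)]
    exact hprod p
  have hint1 : Integrable (Xi S t v K) (S.P2 𝓖) := by
    refine integrable_bdd S 𝓖 (meas_Xi S t v K) (3 / 2) fun p => ?_
    rw [abs_of_nonneg (hXi p).1]; exact (hXi p).2
  have hint2 : Integrable (B.indicator fun _ => (9 / 4 * L : ℝ)) (S.P2 𝓖) :=
    (integrable_const _).indicator hmB
  calc _ ≤ ∫ p, (3 * K * Xi S t v K p + B.indicator (fun _ => (9 / 4 * L : ℝ)) p) ∂(S.P2 𝓖) := by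
        refine integral_mono hint0 ((hint1.const_mul _).add hint2) fun p => ?_
        by_cases hpB : p ∈ B
        · rw [Set.indicator_of_mem hpB]
          have h3 : 0 ≤ 3 * (K : ℝ) * Xi S t v K p := by
            have := (hXi p).1
            positivity
          have := hprod p
          linarith
        · rw [Set.indicator_of_notMem hpB, add_zero]
          have hgood : ∀ l ≤ kmax, ∀ w ∈ sph S.G v l, S.HH w K (S.Xt t p.2) ≤ ε := by
            intro l hl w hw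
            by_contra hcon
            apply hpB
            simp only [hB, hBad, Set.mem_preimage, Set.mem_iUnion]
            exact ⟨l, Finset.mem_range.2 (by omega), w, hw, not_le.1 hcon⟩
          have := sum_El S t v K kmax hK ε hε.le hε1 p.2 hgood L hL
          calc _ ≤ Xi S t v K p * (3 * K) := mul_le_mul_of_nonneg_left this (hXi p).1
            _ = _ := by ring
    _ = 3 * K * S.xk t 𝓖 v K + 9 / 4 * L * (S.P2 𝓖).real B := by
        rw [integral_add (hint1.const_mul _) hint2, integral_const_mul, int_Xi,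
          integral_indicator_const _ hmB, smul_eq_mul]
        ring
    _ ≤ _ := by
        have : (S.P2 𝓖).real B = S.P.real Bad :=
          (S.P2_snd 𝓖).measureReal_preimage hmBad.nullMeasurableSet
        rw [this]
        gcongr

end Faraux

open Faraux in
theorem far (t : ℝ≥0) (𝓖 : SubF V) (hinv : S.Inv 𝓖.1) (v : V) (K kmax : ℕ) (hK : 1 ≤ K)
    (ε pK : ℝ) (hε : 0 < ε) (hε1 : ε ≤ 1 / 4)
    (hp : ∀ w, S.P.real {ω | ε < S.HH w K (S.Xt t ω)} ≤ pK) :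
    ∑ k ∈ range (kmax + 1), S.yk t 𝓖 v k ≤
      2 * ∑ k ∈ range K, S.yk t 𝓖 v k + 12 * K * S.xk t 𝓖 v K +
        72 * (kmax + 1) * ((S.d : ℝ) - 1) ^ kmax * pK := by
  have hd3 : (3 : ℝ) ≤ S.d := by exact_mod_cast S.rt.three_le
  have hpK : 0 ≤ pK := measureReal_nonneg.trans (hp v)
  have hy : ∀ k, 0 ≤ S.yk t 𝓖 v k := fun k => Finset.sum_nonneg fun u _ =>
    S.V2_nonneg 𝓖 (memLp_A S t v u)
  have hx : 0 ≤ S.xk t 𝓖 v K := Finset.sum_nonneg fun u _ => S.V2_nonneg 𝓖 (memLp_aa S t v u)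
  have hdp : (1 : ℝ) ≤ ((S.d : ℝ) - 1) ^ kmax := one_le_pow₀ (by linarith)
  have hY0 : 0 ≤ ∑ k ∈ range K, S.yk t 𝓖 v k := Finset.sum_nonneg fun k _ => hy k
  have hKx : 0 ≤ 12 * (K : ℝ) * S.xk t 𝓖 v K := by positivity
  have hrest : 0 ≤ 72 * ((kmax : ℝ) + 1) * ((S.d : ℝ) - 1) ^ kmax * pK := by positivity
  rcases Nat.lt_or_ge kmax K with hlt | hge
  · have h1 : ∑ k ∈ range (kmax + 1), S.yk t 𝓖 v k ≤ ∑ k ∈ range K, S.yk t 𝓖 v k :=
      Finset.sum_le_sum_of_subset_of_nonneg (Finset.range_mono hlt) fun k _ _ => hy k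
    linarith
  · obtain ⟨m, hm⟩ : ∃ m, kmax + 1 = K + m := ⟨kmax + 1 - K, by omega⟩
    have hsplit : ∑ k ∈ range (kmax + 1), S.yk t 𝓖 v k =
        ∑ k ∈ range K, S.yk t 𝓖 v k + ∑ l ∈ range m, S.yk t 𝓖 v (K + l) := by
      rw [hm, Finset.sum_range_add]
    have hmle : m ≤ kmax + 1 := by omega
    have hmle' : (m : ℝ) ≤ kmax + 1 := by exact_mod_cast hmle
    have hYm : ∑ l ∈ range m, S.yk t 𝓖 v l ≤ ∑ k ∈ range (kmax + 1), S.yk t 𝓖 v k :=
      Finset.sum_le_sum_of_subset_of_nonneg (Finset.range_mono hmle) fun k _ _ => hy k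
    have hY : 0 ≤ ∑ k ∈ range (kmax + 1), S.yk t 𝓖 v k := Finset.sum_nonneg fun k _ => hy k
    -- second integrals
    have hI2 : ∑ l ∈ range m, ∫ p, (∑ w ∈ sph S.G v K, (S.aa v w (S.Xt t p.1) - S.aa v w (S.Xt t p.2)) ^ 2) *
        (∑ u ∈ sph S.G v l, S.A t v u p.2 ^ 2) ∂(S.P2 𝓖) =
        ∫ p, Xi S t v K p * (∑ l ∈ range m, El S t v l p.2) ∂(S.P2 𝓖) := by
      rw [← integral_finsetSum]
      · refine integral_congr_ae (Eventually.of_forall fun p => ?_)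
        exact (Finset.mul_sum (range m) (fun l => El S t v l p.2) (Xi S t v K p)).symm
      · intro l _
        refine integrable_bdd S 𝓖 ((meas_Xi S t v K).mul ((meas_El S t v l).comp measurable_snd)) (9 / 4)
          fun p => ?_
        have h1 := Xi_bd S t v K p
        have h2 : 0 ≤ El S t v l p.2 ∧ El S t v l p.2 ≤ 3 / 2 := sumA_bd S t l v p.2
        change |Xi S t v K p * El S t v l p.2| ≤ 9 / 4
        rw [abs_of_nonneg (mul_nonneg h1.1 h2.1)]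
        calc _ ≤ (3 / 2 : ℝ) * (3 / 2) := mul_le_mul h1.2 h2.2 h2.1 (by norm_num)
          _ = 9 / 4 := by norm_num
    have h1 : ∑ l ∈ range m, S.yk t 𝓖 v (K + l) ≤
        ∑ l ∈ range m, (2 * (ε * S.yk t 𝓖 v l + 9 / 4 * pK)) +
        2 * ∑ l ∈ range m, ∫ p, (∑ w ∈ sph S.G v K, (S.aa v w (S.Xt t p.1) - S.aa v w (S.Xt t p.2)) ^ 2) *
        (∑ u ∈ sph S.G v l, S.A t v u p.2 ^ 2) ∂(S.P2 𝓖) := by
      rw [Finset.mul_sum, ← Finset.sum_add_distrib]
      refine Finset.sum_le_sum fun l _ => ?_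
      refine (S.far_one t 𝓖 hinv v K l hK).trans ?_
      have := I1_le S t 𝓖 v K l ε pK hε (hp v)
      linarith
    rw [hI2] at h1
    have h2 := I2_le S t 𝓖 v K kmax m hK hmle ε pK hε hε1 hp
    have h3 : ∑ l ∈ range m, (2 * (ε * S.yk t 𝓖 v l + 9 / 4 * pK)) =
        2 * ε * ∑ l ∈ range m, S.yk t 𝓖 v l + 9 / 2 * m * pK := by
      simp only [mul_add, Finset.sum_add_distrib, Finset.mul_sum, Finset.sum_const, Finset.card_range,
        nsmul_eq_mul]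
      congr 1
      · exact Finset.sum_congr rfl fun l _ => by ring
      · ring
    have h4 : 2 * ε * ∑ l ∈ range m, S.yk t 𝓖 v l ≤ 1 / 2 * ∑ k ∈ range (kmax + 1), S.yk t 𝓖 v k := by
      have : 0 ≤ ∑ l ∈ range m, S.yk t 𝓖 v l := Finset.sum_nonneg fun k _ => hy k
      nlinarith
    have h5 : (9 : ℝ) / 2 * m * pK ≤ 9 / 2 * (kmax + 1) * ((S.d : ℝ) - 1) ^ kmax * pK := by
      have a1 : (9 : ℝ) / 2 * m ≤ 9 / 2 * (kmax + 1) * ((S.d : ℝ) - 1) ^ kmax := by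
        have : (0:ℝ) ≤ kmax := Nat.cast_nonneg _
        nlinarith
      exact mul_le_mul_of_nonneg_right a1 hpK
    have h6 : 9 / 4 * (m : ℝ) * (3 * ((S.d : ℝ) - 1) ^ kmax * pK) ≤
        27 / 4 * (kmax + 1) * ((S.d : ℝ) - 1) ^ kmax * pK := by
      have a1 : 0 ≤ ((S.d : ℝ) - 1) ^ kmax * pK := by positivity
      nlinarith
    have h7 : 0 ≤ ((kmax : ℝ) + 1) * ((S.d : ℝ) - 1) ^ kmax * pK := by positivity
    nlinarith

end Setup
end Crest.Agent.R160
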