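import Crest.Agent.R160.DynQ
import Crest.Agent.R160.Q

/-! Row 160, piece INNOV-A: the integral `Iint t v = ∫_0^t m_v` and the innovation process.

`E (m_t - m_s)² = q t - q s` (`mart`, `q_mono`), so `r ↦ m r v` is a continuous map
`[0, ∞) → L²(P)` (`m_cont`; at `0`: `q t ≤ C √t`), and
`‖Iriem (n+1) t v - Iriem n t v‖₂ ≤ t 2^(-n/2)` (Cauchy-Schwarz), hence the Riemann sums converge
a.e., to the Bochner integral of `r ↦ m r v ∈ L²(P)`. All the statements below follow from this. -/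

set_option autoImplicit false
set_option linter.unusedSectionVars false
open Finset Filter MeasureTheory ProbabilityTheory
open scoped Topology NNReal ENNReal

namespace Crest.Agent.R160

namespace InnovAaux

/-- Cauchy-Schwarz for bounded measurable functions. -/
theorem cs {Ω : Type} {mΩ : MeasurableSpace Ω} {μ : Measure Ω} [IsProbabilityMeasure μ]
    {f g : Ω → ℝ} (hf : Measurable f) (hg : Measurable g) (hfb : ∃ C, ∀ ω, |f ω| ≤ C)
    (hgb : ∃ C, ∀ ω, |g ω| ≤ C) :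
    (∫ ω, f ω * g ω ∂μ) ^ 2 ≤ (∫ ω, f ω ^ 2 ∂μ) * ∫ ω, g ω ^ 2 ∂μ := by
  obtain ⟨C, hC⟩ := hfb
  obtain ⟨D, hD⟩ := hgb
  have hC0 : ∀ ω, 0 ≤ C := fun ω => (abs_nonneg _).trans (hC ω)
  have i1 : Integrable (fun ω => f ω ^ 2) μ := by
    refine Integrable.of_bound (hf.pow_const 2).aestronglyMeasurable (C ^ 2) (ae_of_all _ fun ω => ?_)
    rw [Real.norm_eq_abs, abs_pow]
    exact pow_le_pow_left₀ (abs_nonneg _) (hC ω) 2
  have i2 : Integrable (fun ω => g ω ^ 2) μ := by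
    refine Integrable.of_bound (hg.pow_const 2).aestronglyMeasurable (D ^ 2) (ae_of_all _ fun ω => ?_)
    rw [Real.norm_eq_abs, abs_pow]
    exact pow_le_pow_left₀ (abs_nonneg _) (hD ω) 2
  have i3 : Integrable (fun ω => f ω * g ω) μ := by
    refine Integrable.of_bound (hf.mul hg).aestronglyMeasurable (C * D) (ae_of_all _ fun ω => ?_)
    rw [Real.norm_eq_abs, abs_mul]
    exact mul_le_mul (hC ω) (hD ω) (abs_nonneg _) (hC0 ω)
  have h : ∀ x : ℝ, 0 ≤ (∫ ω, g ω ^ 2 ∂μ) * (x * x) + (2 * ∫ ω, f ω * g ω ∂μ) * x +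
      ∫ ω, f ω ^ 2 ∂μ := by
    intro x
    have : ∫ ω, (f ω + x * g ω) ^ 2 ∂μ = (∫ ω, g ω ^ 2 ∂μ) * (x * x) +
        (2 * ∫ ω, f ω * g ω ∂μ) * x + ∫ ω, f ω ^ 2 ∂μ := by
      have e : (fun ω => (f ω + x * g ω) ^ 2) =
          fun ω => (x * x) * g ω ^ 2 + (2 * x) * (f ω * g ω) + f ω ^ 2 := by
        funext ω; ring
      rw [e, integral_add (f := fun ω => (x * x) * g ω ^ 2 + (2 * x) * (f ω * g ω))
          ((i2.const_mul _).add (i3.const_mul _)) i1,
        integral_add (i2.const_mul _) (i3.const_mul _), integral_const_mul, integral_const_mul]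
      ring
    rw [← this]
    exact integral_nonneg fun ω => sq_nonneg _
  have := discrim_le_zero h
  unfold discrim at this
  nlinarith

theorem abs_int_le {Ω : Type} {mΩ : MeasurableSpace Ω} {μ : Measure Ω} [IsProbabilityMeasure μ]
    {f g : Ω → ℝ} (hf : Measurable f) (hg : Measurable g) (hfb : ∃ C, ∀ ω, |f ω| ≤ C)
    (hgb : ∃ C, ∀ ω, |g ω| ≤ C) :
    |∫ ω, f ω * g ω ∂μ| ≤ √(∫ ω, f ω ^ 2 ∂μ) * √(∫ ω, g ω ^ 2 ∂μ) := by
  rw [← Real.sqrt_mul (integral_nonneg fun ω => sq_nonneg _), ← Real.sqrt_sq_eq_abs]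
  exact Real.sqrt_le_sqrt (cs hf hg hfb hgb)

theorem riemann_tendsto (φ : ℝ → ℝ) (hφ : Continuous φ) (t : ℝ) (ht : 0 ≤ t) :
    Tendsto (fun n : ℕ => ∑ j ∈ range (2 ^ n), t / 2 ^ n * φ (((j : ℝ) + 1) * t / 2 ^ n)) atTop
      (𝓝 (∫ r in (0 : ℝ)..t, φ r)) := by
  rw [Metric.tendsto_atTop]
  intro ε hε
  have huc : UniformContinuousOn φ (Set.Icc 0 t) :=
    isCompact_Icc.uniformContinuousOn_of_continuous hφ.continuousOn
  rw [Metric.uniformContinuousOn_iff] at huc
  obtain ⟨δ, hδ, hd⟩ := huc (ε / (t + 1)) (by positivity)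
  have htend : Tendsto (fun n : ℕ => t / 2 ^ n) atTop (𝓝 0) := by
    have := (tendsto_pow_atTop_nhds_zero_of_lt_one (r := (1 / 2 : ℝ)) (by norm_num)
      (by norm_num)).const_mul t
    rw [mul_zero] at this
    refine this.congr fun n => ?_
    rw [one_div, inv_pow, div_eq_mul_inv]
  obtain ⟨N, hN⟩ := (Metric.tendsto_atTop.mp htend) δ hδ
  refine ⟨N, fun n hn => ?_⟩
  have hn' := hN n hn
  rw [Real.dist_eq, sub_zero, abs_of_nonneg (by positivity)] at hn'
  let a : ℕ → ℝ := fun j => (j : ℝ) * t / 2 ^ n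
  have ha : ∀ j, a (j + 1) - a j = t / 2 ^ n := by
    intro j; simp only [a]; push_cast; ring
  have hint : ∀ k < 2 ^ n, IntervalIntegrable φ volume (a k) (a (k + 1)) :=
    fun k _ => hφ.intervalIntegrable _ _
  have hsum := intervalIntegral.sum_integral_adjacent_intervals hint
  have ha0 : a 0 = 0 := by simp [a]
  have haN : a (2 ^ n) = t := by
    simp only [a]; push_cast; field_simp
  rw [ha0, haN] at hsum
  rw [Real.dist_eq, ← hsum, ← Finset.sum_sub_distrib]
  have hterm : ∀ j ∈ range (2 ^ n),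
      |t / 2 ^ n * φ (((j : ℝ) + 1) * t / 2 ^ n) - ∫ r in a j..a (j + 1), φ r| ≤
        ε / (t + 1) * (t / 2 ^ n) := by
    intro j hj
    rw [mem_range] at hj
    have e1 : t / 2 ^ n * φ (((j : ℝ) + 1) * t / 2 ^ n) =
        ∫ r in a j..a (j + 1), φ (a (j + 1)) := by
      rw [intervalIntegral.integral_const, smul_eq_mul, ha]
      simp only [a]; push_cast; rfl
    have hle : a j ≤ a (j + 1) := by
      have := ha j
      have : 0 ≤ t / 2 ^ n := by positivity
      linarith [ha j]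
    rw [e1, ← intervalIntegral.integral_sub (intervalIntegrable_const)
      (hφ.intervalIntegrable _ _)]
    have := intervalIntegral.norm_integral_le_of_norm_le_const (a := a j) (b := a (j + 1))
      (f := fun r => φ (a (j + 1)) - φ r) (C := ε / (t + 1)) ?_
    · rw [Real.norm_eq_abs, ha, abs_of_nonneg (by positivity : 0 ≤ t / 2 ^ n)] at this
      exact this
    · intro r hr
      rw [Set.uIoc_of_le hle] at hr
      have haj0 : 0 ≤ a j := by simp only [a]; positivity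
      have haj1 : a (j + 1) ≤ t := by
        simp only [a]
        rw [div_le_iff₀ (by positivity), mul_comm]
        have : ((j + 1 : ℕ) : ℝ) ≤ 2 ^ n := by exact_mod_cast hj
        exact mul_le_mul_of_nonneg_left this ht
      have := hd (a (j + 1)) ⟨by linarith [hr.1, hr.2], haj1⟩ r ⟨by linarith [hr.1], by linarith [hr.2]⟩ (by
        rw [Real.dist_eq, abs_of_nonneg (by linarith [hr.2])]
        have := ha j
        linarith [hr.1])
      rw [Real.dist_eq] at this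
      exact this.le
  calc |∑ j ∈ range (2 ^ n), (t / 2 ^ n * φ (((j : ℝ) + 1) * t / 2 ^ n) -
        ∫ r in a j..a (j + 1), φ r)|
      ≤ ∑ j ∈ range (2 ^ n), ε / (t + 1) * (t / 2 ^ n) :=
        (Finset.abs_sum_le_sum_abs _ _).trans (Finset.sum_le_sum hterm)
    _ = ε * (t / (t + 1)) := by
        rw [Finset.sum_const, card_range, nsmul_eq_mul]; push_cast
        field_simp
    _ < ε := by
        have : t / (t + 1) < 1 := by rw [div_lt_one (by positivity)]; linarith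
        nlinarith

theorem sum_range_two_mul (f : ℕ → ℝ) (N : ℕ) :
    ∑ j ∈ range (2 * N), f j = ∑ i ∈ range N, (f (2 * i) + f (2 * i + 1)) := by
  induction N with
  | zero => simp
  | succ N ih =>
    rw [Nat.mul_succ, Finset.sum_range_succ, Finset.sum_range_succ, ih, Finset.sum_range_succ]
    ring

/-- a sequence with summable expected increments converges a.e. -/
theorem ae_conv {Ω : Type} {mΩ : MeasurableSpace Ω} {μ : Measure Ω} [IsProbabilityMeasure μ]
    (f : ℕ → Ω → ℝ) (hf : ∀ n, Measurable (f n)) (b : ℕ → ℝ) (hb : Summable b)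
    (hfi : ∀ n, Integrable (fun ω => f (n + 1) ω - f n ω) μ)
    (hfb : ∀ n, ∫ ω, |f (n + 1) ω - f n ω| ∂μ ≤ b n) :
    ∀ᵐ ω ∂μ, ∃ l, Tendsto (fun n => f n ω) atTop (𝓝 l) := by
  have hm : ∀ n, AEMeasurable (fun ω => ‖f (n + 1) ω - f n ω‖ₑ) μ := fun n =>
    ((hf (n + 1)).sub (hf n)).enorm.aemeasurable
  have hb0 : ∀ n, 0 ≤ b n := fun n => (integral_nonneg fun ω => abs_nonneg _).trans (hfb n)
  have h1 : ∑' n, ∫⁻ ω, ‖f (n + 1) ω - f n ω‖ₑ ∂μ ≠ ∞ := by
    have h2 : ∀ n, ∫⁻ ω, ‖f (n + 1) ω - f n ω‖ₑ ∂μ ≤ ENNReal.ofReal (b n) := by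
      intro n
      have := ofReal_integral_norm_eq_lintegral_enorm (hfi n)
      rw [← this]
      exact ENNReal.ofReal_le_ofReal (hfb n)
    refine ne_top_of_le_ne_top ?_ (ENNReal.tsum_le_tsum h2)
    exact hb.tsum_ofReal_ne_top
  rw [← lintegral_tsum hm] at h1
  filter_upwards [ae_lt_top' (AEMeasurable.tsum hm) h1] with ω hω
  have hs : Summable fun n => (‖f (n + 1) ω - f n ω‖₊ : ℝ) := by
    rw [← ENNReal.tsum_coe_ne_top_iff_summable_coe]
    exact hω.ne
  have hs' : Summable fun n => (f (n + 1) ω - f n ω) := by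
    refine Summable.of_norm ?_
    simpa using hs
  have := hs'.hasSum.tendsto_sum_nat
  refine ⟨∑' n, (f (n + 1) ω - f n ω) + f 0 ω, ?_⟩
  refine (this.add_const (f 0 ω)).congr fun n => ?_
  rw [Finset.sum_range_sub (fun n => f n ω)]
  ring

end InnovAaux

open InnovAaux

namespace Setup

variable {V : Type} [DecidableEq V] [Countable V] (S : Setup V)

theorem InnovAaux.abs_m_le (t : ℝ≥0) (v : V) (ω : Om V) : |S.m t v ω| ≤ 1 :=
  (S.abs_mag_lt v _).le

theorem InnovAaux.measurable_m_Ft (t : ℝ≥0) (v : V) : Measurable[S.Ft t] (S.m t v) :=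
  (S.measurable_mag v).comp (S.measurable_XT_FF fun _ => t)

theorem Ft_mono {s t : ℝ≥0} (h : s ≤ t) : S.Ft s ≤ S.Ft t :=
  S.FF_mono (fun _ => h) (le_refl _)

theorem m_mart {s t : ℝ≥0} (h : s ≤ t) (v : V) (Z : Om V → ℝ) (hZ : Measurable[S.Ft s] Z)
    (hZb : ∃ C, ∀ ω, |Z ω| ≤ C) :
    ∫ ω, S.m t v ω * Z ω ∂S.P = ∫ ω, S.m s v ω * Z ω ∂S.P :=
  S.mart (fun _ => s) (fun _ => t) (fun _ => h) v Z hZ hZb

theorem InnovAaux.int_bdd {f : Om V → ℝ} (hf : Measurable f) {C : ℝ} (hC : ∀ ω, |f ω| ≤ C) :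
    Integrable f S.P :=
  Integrable.of_bound hf.aestronglyMeasurable C (ae_of_all _ fun ω => by
    rw [Real.norm_eq_abs]; exact hC ω)

theorem q_sub {s t : ℝ≥0} (h : s ≤ t) (v : V) :
    ∫ ω, (S.m t v ω - S.m s v ω) ^ 2 ∂S.P = S.q t - S.q s := by
  have hm := S.m_mart h v (S.m s v) (InnovAaux.measurable_m_Ft S s v)
    ⟨1, InnovAaux.abs_m_le S s v⟩
  have hms := S.measurable_m s v
  have hmt := S.measurable_m t v
  have i1 : Integrable (fun ω => S.m t v ω ^ 2) S.P :=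
    InnovAaux.int_bdd S (hmt.pow_const 2) (C := 1) fun ω => by
      rw [abs_pow]; exact pow_le_one₀ (abs_nonneg _) (InnovAaux.abs_m_le S t v ω)
  have i2 : Integrable (fun ω => S.m s v ω ^ 2) S.P :=
    InnovAaux.int_bdd S (hms.pow_const 2) (C := 1) fun ω => by
      rw [abs_pow]; exact pow_le_one₀ (abs_nonneg _) (InnovAaux.abs_m_le S s v ω)
  have i3 : Integrable (fun ω => S.m t v ω * S.m s v ω) S.P :=
    InnovAaux.int_bdd S (hmt.mul hms) (C := 1) fun ω => by
      rw [abs_mul]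
      exact mul_le_one₀ (InnovAaux.abs_m_le S t v ω) (abs_nonneg _) (InnovAaux.abs_m_le S s v ω)
  have e : (fun ω => (S.m t v ω - S.m s v ω) ^ 2) =
      fun ω => S.m t v ω ^ 2 - 2 * (S.m t v ω * S.m s v ω) + S.m s v ω ^ 2 := by
    funext ω; ring
  rw [e, integral_add (f := fun ω => S.m t v ω ^ 2 - 2 * (S.m t v ω * S.m s v ω))
    (i1.sub (i3.const_mul 2)) i2, integral_sub i1 (i3.const_mul 2),
    integral_const_mul, hm, S.q_eq t v]
  have : ∫ ω, S.m s v ω * S.m s v ω ∂S.P = S.q s := by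
    rw [← S.q_eq s v]
    congr 1
    funext ω; ring
  rw [this, S.q_eq s v]
  ring

theorem InnovAaux.q_nonneg (t : ℝ≥0) : 0 ≤ S.q t := integral_nonneg fun _ => sq_nonneg _

theorem InnovAaux.q_le_one (t : ℝ≥0) : S.q t ≤ 1 := by
  have : ∫ ω, S.m t S.o ω ^ 2 ∂S.P ≤ ∫ _ω, (1 : ℝ) ∂S.P := by
    refine integral_mono_of_nonneg (ae_of_all _ fun _ => sq_nonneg _) (integrable_const _)
      (ae_of_all _ fun ω => ?_)
    show S.m t S.o ω ^ 2 ≤ 1
    rw [← sq_abs]
    exact pow_le_one₀ (abs_nonneg _) (InnovAaux.abs_m_le S t S.o ω)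
  exact this.trans (by simp)

theorem continuous_q : Continuous S.q := by
  rw [continuous_iff_continuousAt]
  intro t
  rcases eq_or_ne t 0 with rfl | ht
  · obtain ⟨C, hC, hq⟩ := S.m_sq_le
    have h0 : S.q 0 = 0 := by
      have h1 := hq 0 S.o
      rw [S.q_eq] at h1
      simp only [NNReal.coe_zero, Real.sqrt_zero, mul_zero] at h1
      exact le_antisymm h1 (InnovAaux.q_nonneg S 0)
    rw [ContinuousAt, h0]
    have h2 : Tendsto (fun t : ℝ≥0 => C * √(t : ℝ)) (𝓝 0) (𝓝 0) := by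
      have : Continuous fun t : ℝ≥0 => C * √(t : ℝ) := by fun_prop
      have := this.tendsto 0
      simpa using this
    exact squeeze_zero (fun t => InnovAaux.q_nonneg S t)
      (fun t => by rw [← S.q_eq t S.o]; exact hq t S.o) h2
  · have htpos : 0 < t := pos_iff_ne_zero.mpr ht
    obtain ⟨C, hC, hc⟩ := S.m_cont (s := t / 2) (T := 2 * t) (by positivity)
    have key : ∀ a b : ℝ≥0, t / 2 ≤ a → a ≤ b → b ≤ 2 * t → S.q b - S.q a ≤ C * (b - a) := by
      intro a b ha hab hb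
      have h1 := hc a (b - a) ha (by rw [add_tsub_cancel_of_le hab]; exact hb) S.o
      rw [add_tsub_cancel_of_le hab, S.q_sub hab, NNReal.coe_sub hab] at h1
      exact h1
    have key2 : ∀ᶠ r in 𝓝 t, |S.q r - S.q t| ≤ C * |(r : ℝ) - t| := by
      have h1 : ∀ᶠ r in 𝓝 t, t / 2 < r := lt_mem_nhds (NNReal.half_lt_self ht)
      have h2 : ∀ᶠ r in 𝓝 t, r < 2 * t := gt_mem_nhds (by
        have : (1 : ℝ≥0) * t < 2 * t := by
          exact mul_lt_mul_of_pos_right one_lt_two htpos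
        simpa using this)
      filter_upwards [h1, h2] with r hr1 hr2
      rcases le_total r t with h | h
      · have h3 := key r t hr1.le h (by
          calc t = 1 * t := (one_mul t).symm
            _ ≤ 2 * t := by gcongr; exact one_le_two)
        have h4 := S.q_mono h
        have h5 : (r : ℝ) ≤ t := by exact_mod_cast h
        rw [abs_sub_comm, abs_of_nonneg (by linarith), abs_sub_comm, abs_of_nonneg (by linarith)]
        exact h3
      · have h3 := key t r (NNReal.half_lt_self ht).le h hr2.le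
        have h4 := S.q_mono h
        have h5 : (t : ℝ) ≤ r := by exact_mod_cast h
        rw [abs_of_nonneg (by linarith), abs_of_nonneg (by linarith)]
        exact h3
    rw [ContinuousAt, tendsto_iff_norm_sub_tendsto_zero]
    have h6 : Tendsto (fun r : ℝ≥0 => C * |(r : ℝ) - t|) (𝓝 t) (𝓝 0) := by
      have : Continuous fun r : ℝ≥0 => C * |(r : ℝ) - t| := by fun_prop
      have := this.tendsto t
      simpa using this
    exact squeeze_zero' (Eventually.of_forall fun r => norm_nonneg _) key2 h6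

/-- the weak form of the integrand -/
noncomputable def InnovAaux.ph (v : V) (Z : Om V → ℝ) (r : ℝ) : ℝ :=
  ∫ ω, S.m r.toNNReal v ω * Z ω ∂S.P

theorem InnovAaux.ph_sub_le (v : V) (Z : Om V → ℝ) (hZ : Measurable Z)
    (hZb : ∃ C, ∀ ω, |Z ω| ≤ C) {r r' : ℝ≥0} (h : r ≤ r') :
    |∫ ω, S.m r' v ω * Z ω ∂S.P - ∫ ω, S.m r v ω * Z ω ∂S.P| ≤
      √(S.q r' - S.q r) * √(∫ ω, Z ω ^ 2 ∂S.P) := by
  have hmr := S.measurable_m r v
  have hmr' := S.measurable_m r' v
  obtain ⟨C, hC⟩ := hZb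
  have i : ∀ r : ℝ≥0, Integrable (fun ω => S.m r v ω * Z ω) S.P := fun r =>
    InnovAaux.int_bdd S ((S.measurable_m r v).mul hZ) (C := C) fun ω => by
      rw [abs_mul]
      calc |S.m r v ω| * |Z ω| ≤ 1 * |Z ω| :=
            mul_le_mul_of_nonneg_right (InnovAaux.abs_m_le S r v ω) (abs_nonneg _)
        _ ≤ C := by rw [one_mul]; exact hC ω
  rw [← integral_sub (i r') (i r), ← S.q_sub h v]
  have e : (fun ω => S.m r' v ω * Z ω - S.m r v ω * Z ω) =
      fun ω => (S.m r' v ω - S.m r v ω) * Z ω := by funext ω; ring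
  rw [e]
  exact abs_int_le (hmr'.sub hmr) hZ ⟨2, fun ω => by
    calc |S.m r' v ω - S.m r v ω| ≤ |S.m r' v ω| + |S.m r v ω| := abs_sub _ _
      _ ≤ 2 := by linarith [InnovAaux.abs_m_le S r v ω, InnovAaux.abs_m_le S r' v ω]⟩ ⟨C, hC⟩

theorem InnovAaux.ph_cont (v : V) (Z : Om V → ℝ) (hZ : Measurable Z)
    (hZb : ∃ C, ∀ ω, |Z ω| ≤ C) : Continuous (InnovAaux.ph S v Z) := by
  have h0 : Continuous fun r : ℝ≥0 => ∫ ω, S.m r v ω * Z ω ∂S.P := by
    rw [continuous_iff_continuousAt]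
    intro t
    rw [ContinuousAt, tendsto_iff_norm_sub_tendsto_zero]
    have h1 : Tendsto (fun r : ℝ≥0 => √|S.q r - S.q t| * √(∫ ω, Z ω ^ 2 ∂S.P)) (𝓝 t) (𝓝 0) := by
      have hq := S.continuous_q
      have : Continuous fun r : ℝ≥0 => √|S.q r - S.q t| * √(∫ ω, Z ω ^ 2 ∂S.P) := by fun_prop
      have := this.tendsto t
      simpa using this
    refine squeeze_zero (fun r => norm_nonneg _) (fun r => ?_) h1
    rw [Real.norm_eq_abs]
    rcases le_total r t with h | h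
    · have h2 := InnovAaux.ph_sub_le S v Z hZ hZb h
      rw [abs_sub_comm, abs_sub_comm (S.q r), abs_of_nonneg (sub_nonneg.mpr (S.q_mono h))]
      exact h2
    · have h2 := InnovAaux.ph_sub_le S v Z hZ hZb h
      rw [abs_of_nonneg (sub_nonneg.mpr (S.q_mono h))]
      exact h2
  exact h0.comp continuous_real_toNNReal

theorem InnovAaux.measurable_Iriem (n : ℕ) (t : ℝ≥0) (v : V) : Measurable (S.Iriem n t v) := by
  unfold Iriem
  exact Finset.measurable_sum _ fun j _ => measurable_const.mul (S.measurable_m _ v)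

theorem InnovAaux.Iriem_abs_le (n : ℕ) (t : ℝ≥0) (v : V) (ω : Om V) : |S.Iriem n t v ω| ≤ t := by
  unfold Iriem
  calc |∑ j ∈ range (2 ^ n), (t : ℝ) / 2 ^ n * S.m (((j : ℝ≥0) + 1) * t / 2 ^ n) v ω|
      ≤ ∑ j ∈ range (2 ^ n), (t : ℝ) / 2 ^ n := by
        refine (Finset.abs_sum_le_sum_abs _ _).trans (Finset.sum_le_sum fun j _ => ?_)
        rw [abs_mul, abs_of_nonneg (by positivity : (0 : ℝ) ≤ (t : ℝ) / 2 ^ n)]
        exact mul_le_of_le_one_right (by positivity) (InnovAaux.abs_m_le S _ v ω)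
    _ = t := by
        rw [Finset.sum_const, card_range, nsmul_eq_mul]; push_cast; field_simp

theorem InnovAaux.Iriem_succ_sub (n : ℕ) (t : ℝ≥0) (v : V) (ω : Om V) :
    S.Iriem (n + 1) t v ω - S.Iriem n t v ω = ∑ i ∈ range (2 ^ n), (t : ℝ) / 2 ^ (n + 1) *
      (S.m ((2 * (i : ℝ≥0) + 1) * t / 2 ^ (n + 1)) v ω - S.m (((i : ℝ≥0) + 1) * t / 2 ^ n) v ω) := by
  unfold Iriem
  rw [pow_succ' 2 n, sum_range_two_mul, ← Finset.sum_sub_distrib]
  refine Finset.sum_congr rfl fun i _ => ?_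
  have e1 : (((2 * i : ℕ) : ℝ≥0) + 1) * t / (2 * 2 ^ n) = (2 * (i : ℝ≥0) + 1) * t / (2 * 2 ^ n) := by
    push_cast; rfl
  have e2 : (((2 * i + 1 : ℕ) : ℝ≥0) + 1) * t / (2 * 2 ^ n) = ((i : ℝ≥0) + 1) * t / 2 ^ n := by
    push_cast
    rw [show (2 * (i : ℝ≥0) + 1 + 1) * t = 2 * (((i : ℝ≥0) + 1) * t) by ring]
    exact mul_div_mul_left _ _ two_ne_zero
  rw [pow_succ' (2 : ℝ≥0) n, e1, e2, pow_succ' (2 : ℝ) n]
  have : (t : ℝ) / 2 ^ n = 2 * ((t : ℝ) / (2 * 2 ^ n)) := by field_simp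
  rw [this]
  ring

theorem InnovAaux.Iriem_sq (n : ℕ) (t : ℝ≥0) (v : V) :
    ∫ ω, (S.Iriem (n + 1) t v ω - S.Iriem n t v ω) ^ 2 ∂S.P ≤ (t : ℝ) ^ 2 / (4 * 2 ^ n) := by
  set c : ℝ := (t : ℝ) / 2 ^ (n + 1) with hc
  let a : ℕ → ℝ≥0 := fun i => (2 * (i : ℝ≥0) + 1) * t / 2 ^ (n + 1)
  let b : ℕ → ℝ≥0 := fun i => (i : ℝ≥0) * t / 2 ^ n
  have hab : ∀ i, a i ≤ b (i + 1) := by
    intro i
    simp only [a, b]
    rw [pow_succ' (2 : ℝ≥0) n]
    rw [show (((i + 1 : ℕ) : ℝ≥0)) * t / 2 ^ n = (2 * ((i + 1 : ℕ) : ℝ≥0) * t) / (2 * 2 ^ n) by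
      rw [mul_assoc]; exact (mul_div_mul_left _ _ two_ne_zero).symm]
    gcongr
    push_cast
    rw [mul_add]
    gcongr
    norm_num
  have hba : ∀ i, b i ≤ a i := by
    intro i
    simp only [a, b]
    rw [pow_succ' (2 : ℝ≥0) n]
    rw [show ((i : ℝ≥0)) * t / 2 ^ n = (2 * (i : ℝ≥0) * t) / (2 * 2 ^ n) by
      rw [mul_assoc]; exact (mul_div_mul_left _ _ two_ne_zero).symm]
    gcongr
    exact le_self_add
  have hms : ∀ i, Measurable fun ω => S.m (a i) v ω - S.m (b (i + 1)) v ω := fun i =>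
    (S.measurable_m _ v).sub (S.measurable_m _ v)
  have hbd : ∀ i ω, |(S.m (a i) v ω - S.m (b (i + 1)) v ω) ^ 2| ≤ 4 := by
    intro i ω
    rw [abs_pow]
    have : |S.m (a i) v ω - S.m (b (i + 1)) v ω| ≤ 2 := by
      calc _ ≤ |S.m (a i) v ω| + |S.m (b (i + 1)) v ω| := abs_sub _ _
        _ ≤ 2 := by linarith [InnovAaux.abs_m_le S (a i) v ω, InnovAaux.abs_m_le S (b (i + 1)) v ω]
    calc _ ≤ (2 : ℝ) ^ 2 := pow_le_pow_left₀ (abs_nonneg _) this 2
      _ = 4 := by norm_num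
  have hint : ∀ i, Integrable (fun ω => (S.m (a i) v ω - S.m (b (i + 1)) v ω) ^ 2) S.P := fun i =>
    InnovAaux.int_bdd S ((hms i).pow_const 2) (C := 4) (hbd i)
  have hval : ∀ i, ∫ ω, (S.m (a i) v ω - S.m (b (i + 1)) v ω) ^ 2 ∂S.P =
      S.q (b (i + 1)) - S.q (a i) := by
    intro i
    rw [← S.q_sub (hab i) v]
    congr 1
    funext ω; ring
  have hpt : ∀ ω, (S.Iriem (n + 1) t v ω - S.Iriem n t v ω) ^ 2 ≤
      2 ^ n * ∑ i ∈ range (2 ^ n), c ^ 2 * (S.m (a i) v ω - S.m (b (i + 1)) v ω) ^ 2 := by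
    intro ω
    rw [InnovAaux.Iriem_succ_sub]
    have h1 := sq_sum_le_card_mul_sum_sq (s := range (2 ^ n))
      (f := fun i => c * (S.m (a i) v ω - S.m (b (i + 1)) v ω))
    rw [card_range] at h1
    push_cast at h1
    simp only [mul_pow] at h1
    simp only [a, b] at h1 ⊢
    push_cast at h1 ⊢
    exact h1
  have hI : Integrable (fun ω => 2 ^ n * ∑ i ∈ range (2 ^ n),
      c ^ 2 * (S.m (a i) v ω - S.m (b (i + 1)) v ω) ^ 2) S.P :=
    (integrable_finsetSum _ fun i _ => (hint i).const_mul _).const_mul _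
  calc ∫ ω, (S.Iriem (n + 1) t v ω - S.Iriem n t v ω) ^ 2 ∂S.P
      ≤ ∫ ω, 2 ^ n * ∑ i ∈ range (2 ^ n), c ^ 2 * (S.m (a i) v ω - S.m (b (i + 1)) v ω) ^ 2 ∂S.P :=
        integral_mono_of_nonneg (ae_of_all _ fun _ => sq_nonneg _) hI (ae_of_all _ hpt)
    _ = 2 ^ n * ∑ i ∈ range (2 ^ n), c ^ 2 * (S.q (b (i + 1)) - S.q (a i)) := by
        rw [integral_const_mul, integral_finsetSum _ fun i _ => (hint i).const_mul _]
        simp only [integral_const_mul, hval]
    _ ≤ 2 ^ n * ∑ i ∈ range (2 ^ n), c ^ 2 * (S.q (b (i + 1)) - S.q (b i)) := by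
        gcongr with i hi
        exact S.q_mono (hba i)
    _ = 2 ^ n * (c ^ 2 * (S.q (b (2 ^ n)) - S.q (b 0))) := by
        rw [← Finset.mul_sum, Finset.sum_range_sub (fun i => S.q (b i))]
    _ ≤ 2 ^ n * (c ^ 2 * 1) := by
        gcongr
        linarith [InnovAaux.q_le_one S (b (2 ^ n)), InnovAaux.q_nonneg S (b 0)]
    _ = (t : ℝ) ^ 2 / (4 * 2 ^ n) := by
        rw [hc, pow_succ]
        field_simp
        ring

theorem Iriem_tendsto (t : ℝ≥0) (v : V) :
    ∀ᵐ ω ∂S.P, Tendsto (fun n => S.Iriem n t v ω) atTop (𝓝 (S.Iint t v ω)) := by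
  have hmeas := fun n => InnovAaux.measurable_Iriem S n t v
  have hbd : ∀ n ω, |S.Iriem (n + 1) t v ω - S.Iriem n t v ω| ≤ 2 * t := by
    intro n ω
    calc _ ≤ |S.Iriem (n + 1) t v ω| + |S.Iriem n t v ω| := abs_sub _ _
      _ ≤ 2 * t := by
        linarith [InnovAaux.Iriem_abs_le S (n + 1) t v ω, InnovAaux.Iriem_abs_le S n t v ω]
  have hi : ∀ n, Integrable (fun ω => S.Iriem (n + 1) t v ω - S.Iriem n t v ω) S.P := fun n =>
    InnovAaux.int_bdd S ((hmeas (n + 1)).sub (hmeas n)) (hbd n)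
  have hi2 : ∀ n, Integrable (fun ω => (S.Iriem (n + 1) t v ω - S.Iriem n t v ω) ^ 2) S.P := by
    intro n
    refine InnovAaux.int_bdd S (((hmeas (n + 1)).sub (hmeas n)).pow_const 2) (C := (2 * t) ^ 2)
      fun ω => ?_
    rw [abs_pow]
    exact pow_le_pow_left₀ (abs_nonneg _) (hbd n ω) 2
  have h := ae_conv (μ := S.P) (fun n => S.Iriem n t v) hmeas
    (fun n => ((t : ℝ) ^ 2 / 4 * (2 / 3) ^ n + (3 / 4) ^ n) / 2) ?_ hi ?_
  · filter_upwards [h] with ω hω
    obtain ⟨l, hl⟩ := hω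
    have : S.Iint t v ω = l := hl.limsup_eq
    rw [this]
    exact hl
  · refine (Summable.add ?_ ?_).div_const 2
    · exact (summable_geometric_of_lt_one (by norm_num) (by norm_num)).mul_left _
    · exact summable_geometric_of_lt_one (by norm_num) (by norm_num)
  · intro n
    have hpt : ∀ ω, |S.Iriem (n + 1) t v ω - S.Iriem n t v ω| ≤
        ((4 / 3) ^ n * (S.Iriem (n + 1) t v ω - S.Iriem n t v ω) ^ 2 + (3 / 4) ^ n) / 2 := by
      intro ω
      set x := S.Iriem (n + 1) t v ω - S.Iriem n t v ω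
      have hp : (0 : ℝ) < (3 / 4) ^ n := by positivity
      have hinv : (4 / 3 : ℝ) ^ n = ((3 / 4) ^ n)⁻¹ := by
        rw [← inv_pow]; norm_num
      rw [hinv, ← sq_abs x]
      have h1 : 0 ≤ (|x| - (3 / 4) ^ n) ^ 2 / (3 / 4) ^ n := by positivity
      have h2 : (|x| - (3 / 4) ^ n) ^ 2 / (3 / 4) ^ n =
          ((3 / 4) ^ n)⁻¹ * |x| ^ 2 + (3 / 4) ^ n - 2 * |x| := by
        field_simp
        ring
      linarith
    calc ∫ ω, |S.Iriem (n + 1) t v ω - S.Iriem n t v ω| ∂S.P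
        ≤ ∫ ω, ((4 / 3) ^ n * (S.Iriem (n + 1) t v ω - S.Iriem n t v ω) ^ 2 + (3 / 4) ^ n) / 2 ∂S.P :=
          integral_mono_of_nonneg (ae_of_all _ fun _ => abs_nonneg _)
            ((((hi2 n).const_mul _).add (integrable_const _)).div_const 2) (ae_of_all _ hpt)
      _ = ((4 / 3) ^ n * ∫ ω, (S.Iriem (n + 1) t v ω - S.Iriem n t v ω) ^ 2 ∂S.P +
            (3 / 4) ^ n) / 2 := by
          rw [integral_div, integral_add ((hi2 n).const_mul _) (integrable_const _),
            integral_const_mul]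
          simp
      _ ≤ ((4 / 3) ^ n * ((t : ℝ) ^ 2 / (4 * 2 ^ n)) + (3 / 4) ^ n) / 2 := by
          gcongr
          exact InnovAaux.Iriem_sq S n t v
      _ = ((t : ℝ) ^ 2 / 4 * (2 / 3) ^ n + (3 / 4) ^ n) / 2 := by
          have : (2 / 3 : ℝ) ^ n = (4 / 3) ^ n / 2 ^ n := by rw [← div_pow]; norm_num
          rw [this]
          field_simp

theorem Iint_abs_le (t : ℝ≥0) (v : V) (ω : Om V) : |S.Iint t v ω| ≤ t :=
  Detaux.abs_limsup_le fun n => InnovAaux.Iriem_abs_le S n t v ω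

theorem InnovAaux.measurable_Iint (t : ℝ≥0) (v : V) : Measurable (S.Iint t v) := by
  unfold Iint
  exact Measurable.limsup fun n => InnovAaux.measurable_Iriem S n t v

theorem InnovAaux.Iint_weak (t : ℝ≥0) (v : V) (Z : Om V → ℝ) (hZ : Measurable Z)
    (hZb : ∃ C, ∀ ω, |Z ω| ≤ C) :
    ∫ ω, S.Iint t v ω * Z ω ∂S.P = ∫ r in (0 : ℝ)..t, InnovAaux.ph S v Z r := by
  obtain ⟨C, hC⟩ := hZb
  have hC0 : ∀ ω, 0 ≤ |Z ω| := fun ω => abs_nonneg _
  have h1 : Tendsto (fun n => ∫ ω, S.Iriem n t v ω * Z ω ∂S.P) atTop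
      (𝓝 (∫ ω, S.Iint t v ω * Z ω ∂S.P)) := by
    refine tendsto_integral_of_dominated_convergence (fun _ => (t : ℝ) * C)
      (fun n => ((InnovAaux.measurable_Iriem S n t v).mul hZ).aestronglyMeasurable)
      (integrable_const _) (fun n => ae_of_all _ fun ω => ?_) ?_
    · rw [Real.norm_eq_abs, abs_mul]
      exact mul_le_mul (InnovAaux.Iriem_abs_le S n t v ω) (hC ω) (abs_nonneg _) t.2
    · filter_upwards [S.Iriem_tendsto t v] with ω hω
      exact hω.mul_const _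
  have h2 := riemann_tendsto (InnovAaux.ph S v Z) (InnovAaux.ph_cont S v Z hZ ⟨C, hC⟩) t t.2
  refine tendsto_nhds_unique h1 (h2.congr fun n => ?_)
  unfold Iriem
  simp only [Finset.sum_mul]
  rw [integral_finsetSum]
  · refine Finset.sum_congr rfl fun j _ => ?_
    simp only [mul_assoc, integral_const_mul]
    congr 1
    unfold InnovAaux.ph
    have : (((j : ℝ) + 1) * (t : ℝ) / 2 ^ n).toNNReal = ((j : ℝ≥0) + 1) * t / 2 ^ n := by
      rw [← NNReal.coe_inj, Real.coe_toNNReal _ (by positivity)]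
      push_cast
      rfl
    rw [this]
  · intro j _
    refine InnovAaux.int_bdd S ((measurable_const.mul (S.measurable_m _ v)).mul hZ)
      (C := (t : ℝ) / 2 ^ n * C) fun ω => ?_
    rw [abs_mul, abs_mul, abs_of_nonneg (by positivity : (0 : ℝ) ≤ (t : ℝ) / 2 ^ n)]
    refine mul_le_mul ?_ (hC ω) (abs_nonneg _) (by positivity)
    exact mul_le_of_le_one_right (by positivity) (InnovAaux.abs_m_le S _ v ω)

theorem InnovAaux.Iint_sub_weak {s t : ℝ≥0} (v : V) (Z : Om V → ℝ) (hZ : Measurable Z)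
    (hZb : ∃ C, ∀ ω, |Z ω| ≤ C) :
    ∫ ω, (S.Iint t v ω - S.Iint s v ω) * Z ω ∂S.P =
      ∫ r in (s : ℝ)..t, InnovAaux.ph S v Z r := by
  have hc := InnovAaux.ph_cont S v Z hZ hZb
  rw [← intervalIntegral.integral_interval_sub_left (a := (0 : ℝ)) (hc.intervalIntegrable _ _)
    (hc.intervalIntegrable _ _), ← InnovAaux.Iint_weak S t v Z hZ hZb,
    ← InnovAaux.Iint_weak S s v Z hZ hZb]
  obtain ⟨C, hC⟩ := hZb
  have i : ∀ r : ℝ≥0, Integrable (fun ω => S.Iint r v ω * Z ω) S.P := fun r =>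
    InnovAaux.int_bdd S ((InnovAaux.measurable_Iint S r v).mul hZ) (C := r * C) fun ω => by
      rw [abs_mul]
      exact mul_le_mul (S.Iint_abs_le r v ω) (hC ω) (abs_nonneg _) r.2
  rw [← integral_sub (i t) (i s)]
  congr 1
  funext ω; ring

theorem InnovAaux.one_side {s t : ℝ≥0} (h : s ≤ t) (v : V) (ε : ℝ) (hε : ε = 1 ∨ ε = -1) :
    ∀ᵐ ω ∂S.P, ε * (S.Iint t v ω - S.Iint s v ω) ≤ t - s := by
  let f : Om V → ℝ := fun ω => ε * (S.Iint t v ω - S.Iint s v ω) - (t - s)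
  have hf : Measurable f := (measurable_const.mul
    ((InnovAaux.measurable_Iint S t v).sub (InnovAaux.measurable_Iint S s v))).sub measurable_const
  have hst : (s : ℝ) ≤ t := by exact_mod_cast h
  have hεa : |ε| = 1 := by rcases hε with h | h <;> simp [h]
  have hA : MeasurableSet {ω | 0 < f ω} := measurableSet_lt measurable_const hf
  let Z : Om V → ℝ := Set.indicator {ω | 0 < f ω} 1
  have hZ : Measurable Z := measurable_one.indicator hA
  have hZ01 : ∀ ω, 0 ≤ Z ω ∧ Z ω ≤ 1 := by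
    intro ω
    simp only [Z, Set.indicator_apply, Pi.one_apply]
    split_ifs <;> norm_num
  have hZb : ∀ ω, |Z ω| ≤ 1 := fun ω => by
    rw [abs_of_nonneg (hZ01 ω).1]; exact (hZ01 ω).2
  have hZi : Integrable Z S.P := InnovAaux.int_bdd S hZ hZb
  have h1 := InnovAaux.Iint_sub_weak S (s := s) (t := t) v Z hZ ⟨1, hZb⟩
  have h2 : |∫ r in (s : ℝ)..t, InnovAaux.ph S v Z r| ≤ (∫ ω, Z ω ∂S.P) * (t - s) := by
    have := intervalIntegral.norm_integral_le_of_norm_le_const (a := (s : ℝ)) (b := t)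
      (f := InnovAaux.ph S v Z) (C := ∫ ω, Z ω ∂S.P) (fun r _ => by
        unfold InnovAaux.ph
        refine (norm_integral_le_integral_norm _).trans ?_
        refine integral_mono_of_nonneg (ae_of_all _ fun _ => norm_nonneg _) hZi
          (ae_of_all _ fun ω => ?_)
        show ‖S.m r.toNNReal v ω * Z ω‖ ≤ Z ω
        rw [Real.norm_eq_abs, abs_mul, abs_of_nonneg (hZ01 ω).1]
        exact mul_le_of_le_one_left (hZ01 ω).1 (InnovAaux.abs_m_le S _ v ω))
    rwa [Real.norm_eq_abs, abs_of_nonneg (by linarith : (0 : ℝ) ≤ (t : ℝ) - s)] at this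
  have hbd : ∀ ω, |S.Iint t v ω - S.Iint s v ω| ≤ t + s := fun ω =>
    (abs_sub _ _).trans (by linarith [S.Iint_abs_le t v ω, S.Iint_abs_le s v ω])
  have i1 : Integrable (fun ω => (S.Iint t v ω - S.Iint s v ω) * Z ω) S.P :=
    InnovAaux.int_bdd S (((InnovAaux.measurable_Iint S t v).sub
      (InnovAaux.measurable_Iint S s v)).mul hZ) (C := t + s) fun ω => by
      rw [abs_mul]
      calc _ ≤ |S.Iint t v ω - S.Iint s v ω| * 1 :=
            mul_le_mul_of_nonneg_left (hZb ω) (abs_nonneg _)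
        _ ≤ t + s := by rw [mul_one]; exact hbd ω
  have h3 : ∫ ω, f ω * Z ω ∂S.P ≤ 0 := by
    have e : (fun ω => f ω * Z ω) = fun ω => ε * ((S.Iint t v ω - S.Iint s v ω) * Z ω) -
        (t - s) * Z ω := by funext ω; simp only [f]; ring
    rw [e, integral_sub (i1.const_mul _) (hZi.const_mul _), integral_const_mul,
      integral_const_mul, h1]
    have : ε * ∫ r in (s : ℝ)..t, InnovAaux.ph S v Z r ≤ (∫ ω, Z ω ∂S.P) * (t - s) := by
      refine (le_abs_self _).trans ?_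
      rw [abs_mul, hεa, one_mul]
      exact h2
    linarith
  have h4 : 0 ≤ᵐ[S.P] fun ω => f ω * Z ω := ae_of_all _ fun ω => by
    show 0 ≤ f ω * Z ω
    simp only [Z, Set.indicator_apply, Set.mem_ofPred_eq, Pi.one_apply]
    split_ifs with hh
    · linarith
    · simp
  have i2 : Integrable (fun ω => f ω * Z ω) S.P := by
    have e : (fun ω => f ω * Z ω) = fun ω => ε * ((S.Iint t v ω - S.Iint s v ω) * Z ω) -
        (t - s) * Z ω := by funext ω; simp only [f]; ring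
    rw [e]
    exact (i1.const_mul _).sub (hZi.const_mul _)
  have h5 : ∫ ω, f ω * Z ω ∂S.P = 0 := le_antisymm h3 (integral_nonneg_of_ae h4)
  rw [integral_eq_zero_iff_of_nonneg_ae h4 i2] at h5
  filter_upwards [h5] with ω hω
  by_contra hcon
  push Not at hcon
  have hpos : 0 < f ω := by simp only [f]; linarith
  have : f ω * Z ω = f ω := by
    simp only [Z, Set.indicator_apply, Set.mem_ofPred_eq, Pi.one_apply, if_pos hpos, mul_one]
  rw [this] at hω
  exact hpos.ne' hω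

theorem Iint_sub_abs_le {s t : ℝ≥0} (h : s ≤ t) (v : V) :
    ∀ᵐ ω ∂S.P, |S.Iint t v ω - S.Iint s v ω| ≤ t - s := by
  filter_upwards [InnovAaux.one_side S h v 1 (Or.inl rfl),
    InnovAaux.one_side S h v (-1) (Or.inr rfl)] with ω h1 h2
  rw [abs_le]
  constructor <;> linarith

theorem measurable_Iint_Ft (t : ℝ≥0) (v : V) : Measurable[S.Ft t] (S.Iint t v) := by
  unfold Iint
  refine Measurable.limsup fun n => ?_
  unfold Iriem
  refine Finset.measurable_sum _ fun j hj => ?_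
  refine measurable_const.mul ?_
  refine (InnovAaux.measurable_m_Ft S _ v).mono (S.Ft_mono ?_) le_rfl
  rw [mem_range] at hj
  have h1 : ((j : ℝ≥0) + 1) ≤ 2 ^ n := by exact_mod_cast hj
  rw [div_le_iff₀ (by positivity), mul_comm t]
  gcongr

theorem measurable_W_Ft (t : ℝ≥0) (v : V) : Measurable[S.Ft t] (S.W t v) := by
  unfold W
  refine Measurable.sub ?_ (S.measurable_Iint_Ft t v)
  have h1 := S.measurable_XT_FF fun _ => t
  exact (measurable_pi_apply v).comp h1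

theorem Wt_le_Ft (t : ℝ≥0) : S.Wt t ≤ S.Ft t := by
  refine iSup_le fun v => iSup_le fun s => iSup_le fun hs => ?_
  have h1 := (S.measurable_W_Ft s v).comap_le
  exact h1.trans (S.Ft_mono hs)

theorem Wt_mono {s t : ℝ≥0} (h : s ≤ t) : S.Wt s ≤ S.Wt t := by
  refine iSup_mono fun v => iSup_le fun r => iSup_le fun hr => ?_
  exact le_iSup₂_of_le r (le_trans hr h) le_rfl

/-- `E[(∫_s^t m_v) Z] = (t-s) E[m_v(s) Z]` for `Z ∈ Ft s`. -/
theorem Iint_test {s t : ℝ≥0} (h : s ≤ t) (v : V) (Z : Om V → ℝ) (hZ : Measurable[S.Ft s] Z)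
    (hZb : ∃ C, ∀ ω, |Z ω| ≤ C) :
    ∫ ω, (S.Iint t v ω - S.Iint s v ω) * Z ω ∂S.P = (t - s) * ∫ ω, S.m s v ω * Z ω ∂S.P := by
  have hZ' : Measurable Z := hZ.mono (S.FF_le _ _) le_rfl
  have hst : (s : ℝ) ≤ t := by exact_mod_cast h
  rw [InnovAaux.Iint_sub_weak S v Z hZ' hZb]
  rw [intervalIntegral.integral_congr (g := fun _ => ∫ ω, S.m s v ω * Z ω ∂S.P),
    intervalIntegral.integral_const, smul_eq_mul]
  intro r hr
  rw [Set.uIcc_of_le hst] at hr
  show InnovAaux.ph S v Z r = _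
  unfold InnovAaux.ph
  exact S.m_mart (NNReal.le_toNNReal_of_coe_le hr.1) v Z hZ hZb

theorem Iint_L2 {s t : ℝ≥0} (h : s ≤ t) (v : V) :
    ∫ ω, (S.Iint t v ω - S.Iint s v ω - (t - s) * S.m s v ω) ^ 2 ∂S.P ≤
      (t - s) ^ 2 * (S.q t - S.q s) := by
  have hst : (s : ℝ) ≤ t := by exact_mod_cast h
  have hq : 0 ≤ S.q t - S.q s := sub_nonneg.mpr (S.q_mono h)
  let D : Om V → ℝ := fun ω => S.Iint t v ω - S.Iint s v ω - (t - s) * S.m s v ω
  have hD : Measurable D := ((InnovAaux.measurable_Iint S t v).sub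
    (InnovAaux.measurable_Iint S s v)).sub (measurable_const.mul (S.measurable_m s v))
  have hDb : ∀ ω, |D ω| ≤ t + s + (t - s) := by
    intro ω
    refine (abs_sub _ _).trans (add_le_add ?_ ?_)
    · exact (abs_sub _ _).trans (by linarith [S.Iint_abs_le t v ω, S.Iint_abs_le s v ω])
    · rw [abs_mul, abs_of_nonneg (by linarith : (0 : ℝ) ≤ (t : ℝ) - s)]
      exact mul_le_of_le_one_right (by linarith) (InnovAaux.abs_m_le S s v ω)
  set E : ℝ := ∫ ω, D ω ^ 2 ∂S.P with hE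
  have hE0 : 0 ≤ E := integral_nonneg fun _ => sq_nonneg _
  have hcont := InnovAaux.ph_cont S v D hD ⟨_, hDb⟩
  have h1 := InnovAaux.Iint_sub_weak S (s := s) (t := t) v D hD ⟨_, hDb⟩
  have hb1 : ∀ ω, |S.Iint t v ω - S.Iint s v ω| ≤ t + s := fun ω =>
    (abs_sub _ _).trans (by linarith [S.Iint_abs_le t v ω, S.Iint_abs_le s v ω])
  have i1 : Integrable (fun ω => (S.Iint t v ω - S.Iint s v ω) * D ω) S.P :=
    InnovAaux.int_bdd S (((InnovAaux.measurable_Iint S t v).sub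
      (InnovAaux.measurable_Iint S s v)).mul hD) (C := (t + s) * (t + s + (t - s))) fun ω => by
      rw [abs_mul]
      exact mul_le_mul (hb1 ω) (hDb ω) (abs_nonneg _) (by positivity)
  have i2 : Integrable (fun ω => S.m s v ω * D ω) S.P :=
    InnovAaux.int_bdd S ((S.measurable_m s v).mul hD) (C := 1 * (t + s + (t - s))) fun ω => by
      rw [abs_mul]
      exact mul_le_mul (InnovAaux.abs_m_le S s v ω) (hDb ω) (abs_nonneg _) (by norm_num)
  have hEeq : E = ∫ r in (s : ℝ)..t, (InnovAaux.ph S v D r - ∫ ω, S.m s v ω * D ω ∂S.P) := by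
    rw [intervalIntegral.integral_sub (hcont.intervalIntegrable _ _) intervalIntegrable_const,
      ← h1, intervalIntegral.integral_const, smul_eq_mul, ← integral_const_mul,
      ← integral_sub i1 (i2.const_mul _), hE]
    congr 1
    funext ω
    simp only [D]
    ring
  have hle : E ≤ √(S.q t - S.q s) * √E * (t - s) := by
    have h2 := intervalIntegral.norm_integral_le_of_norm_le_const (a := (s : ℝ)) (b := t)
      (f := fun r => InnovAaux.ph S v D r - ∫ ω, S.m s v ω * D ω ∂S.P)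
      (C := √(S.q t - S.q s) * √E) (fun r hr => by
        rw [Set.uIoc_of_le hst] at hr
        have hr0 : 0 ≤ r := s.2.trans hr.1.le
        have h3 := InnovAaux.ph_sub_le S v D hD ⟨_, hDb⟩ (r := s) (r' := r.toNNReal)
          (NNReal.le_toNNReal_of_coe_le hr.1.le)
        rw [Real.norm_eq_abs]
        refine h3.trans ?_
        gcongr
        exact S.q_mono (by
          rw [Real.toNNReal_le_iff_le_coe]
          exact hr.2))
    rw [← hEeq, Real.norm_eq_abs, abs_of_nonneg hE0,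
      abs_of_nonneg (by linarith : (0 : ℝ) ≤ (t : ℝ) - s)] at h2
    exact h2
  show E ≤ _
  rcases hE0.eq_or_lt with h0 | hpos
  · rw [← h0]; positivity
  · have hs : 0 < √E := Real.sqrt_pos.mpr hpos
    have h3 : √E * √E ≤ √(S.q t - S.q s) * (t - s) * √E := by
      rw [Real.mul_self_sqrt hE0]; linarith
    have h4 : √E ≤ √(S.q t - S.q s) * (t - s) := le_of_mul_le_mul_right h3 hs
    calc E = √E ^ 2 := (Real.sq_sqrt hE0).symm
      _ ≤ (√(S.q t - S.q s) * (t - s)) ^ 2 := pow_le_pow_left₀ hs.le h4 2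
      _ = (t - s) ^ 2 * (S.q t - S.q s) := by
          rw [mul_pow, Real.sq_sqrt hq]; ring

end Setup
end Crest.Agent.R160
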