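import Crest.Agent.R160.InnovA

/-! Row 160, piece INNOV-B: the innovation processes `W_v` are independent Brownian motions with
respect to the filtration `Ft`.

PROOF. `ΔW_v = ΔB_v + h τ_v - ∫_t^{t+h} m_v`. With `E = exp (i ∑ λ_v ΔB_v)`,
`exp (i ∑ λ_v ΔW_v) = E (1 + i ∑ λ_v (h τ_v - ∫ m_v)) + O(h² |λ|²)`. For `Z ∈ Ft t`, `|Z| ≤ 1`:
`E[Z E h τ_v] = exp (-h|λ|²/2) h E[Z m_v(t)]` (`indep_future`, `condExp_mag`),
`E[Z E ∫ m_v] = h E[Z E m_v(t)] + E[Z E (∫ m_v - h m_v(t))]`, `E[Z (∫ m_v - h m_v(t))] = 0`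
(`Iint_test`), so the last term is `≤ ‖E - 1‖₂ ‖∫ m_v - h m_v(t)‖₂ ≤ √h |λ| h √(q(t+h) - q(t))`.
Summing over `N` steps of length `h = (t-s)/N`, the error is `O(h) + O(√h) → 0`, because
`∑_j √(q(t_{j+1}) - q(t_j)) ≤ √N`. -/

set_option autoImplicit false
open Finset Filter MeasureTheory ProbabilityTheory
open scoped Topology NNReal ENNReal

namespace Crest.Agent.R160

namespace INNOVBaux

lemma exp_lip (a : ℝ) : ‖Complex.exp (Complex.I * a) - 1‖ ≤ |a| := by
  simpa using Real.norm_exp_I_mul_ofReal_sub_one_le (x := a)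

lemma exp_norm (a : ℝ) : ‖Complex.exp (Complex.I * a)‖ = 1 := by
  rw [mul_comm]; exact Complex.norm_exp_ofReal_mul_I a

lemma exp_taylor (a : ℝ) : ‖Complex.exp (Complex.I * a) - 1 - Complex.I * a‖ ≤ 3 * a ^ 2 := by
  by_cases h : |a| ≤ 1
  · have h1 := Complex.norm_exp_sub_one_sub_id_le (x := Complex.I * a) (by simpa using h)
    refine h1.trans ?_
    simp only [norm_mul, Complex.norm_I, one_mul, Complex.norm_real, Real.norm_eq_abs, sq_abs]
    nlinarith [sq_nonneg a]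
  · push Not at h
    have h1 : ‖Complex.exp (Complex.I * a) - 1 - Complex.I * a‖ ≤ 1 + 1 + |a| := by
      refine (norm_sub_le _ _).trans (add_le_add ((norm_sub_le _ _).trans ?_) ?_)
      · rw [exp_norm]; simp
      · simp
    have h2 : a ^ 2 = |a| ^ 2 := (sq_abs a).symm
    nlinarith

variable {Ω : Type*} {mΩ : MeasurableSpace Ω} {μ : Measure Ω}

/-- Cauchy-Schwarz -/
lemma cs {f g : Ω → ℝ} (hf : MemLp f 2 μ) (hg : MemLp g 2 μ) :
    ∫ ω, |f ω| * |g ω| ∂μ ≤ √(∫ ω, f ω ^ 2 ∂μ) * √(∫ ω, g ω ^ 2 ∂μ) := by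
  have h1 := integral_mul_norm_le_Lp_mul_Lq (μ := μ) (f := f) (g := g) (p := 2) (q := 2)
    (by constructor <;> norm_num) (by simpa using hf) (by simpa using hg)
  simp only [Real.norm_eq_abs, Real.rpow_two, sq_abs] at h1
  rwa [← Real.sqrt_eq_rpow, ← Real.sqrt_eq_rpow] at h1

/-- passing from real to complex test functions. -/
lemma cplx_zero {Ω : Type*} {m mΩ : MeasurableSpace Ω} {μ : Measure Ω} [IsFiniteMeasure μ]
    (hm : m ≤ mΩ) {f : Ω → ℝ} (hf : Integrable f μ)
    (h : ∀ Z : Ω → ℝ, Measurable[m] Z → (∃ C, ∀ ω, |Z ω| ≤ C) → ∫ ω, f ω * Z ω ∂μ = 0)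
    (Z : Ω → ℂ) (hZ : Measurable[m] Z) (hZb : ∀ ω, ‖Z ω‖ ≤ 1) :
    ∫ ω, Z ω * (f ω : ℂ) ∂μ = 0 := by
  have h1 := h (fun ω => (Z ω).re) (Complex.measurable_re.comp hZ)
    ⟨1, fun ω => (Complex.abs_re_le_norm _).trans (hZb ω)⟩
  have h2 := h (fun ω => (Z ω).im) (Complex.measurable_im.comp hZ)
    ⟨1, fun ω => (Complex.abs_im_le_norm _).trans (hZb ω)⟩
  have hi : Integrable (fun ω => Z ω * (f ω : ℂ)) μ := by
    refine Integrable.bdd_mul (c := 1) hf.ofReal (hZ.mono hm le_rfl).aestronglyMeasurable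
      (Eventually.of_forall hZb)
  apply Complex.ext
  · have := integral_re hi
    simp only [RCLike.re_to_complex, Complex.mul_re, Complex.ofReal_re, Complex.ofReal_im,
      mul_zero, sub_zero] at this
    rw [← this]
    simpa [mul_comm] using h1
  · have := integral_im hi
    simp only [RCLike.im_to_complex, Complex.mul_im, Complex.ofReal_re, Complex.ofReal_im,
      mul_zero, zero_add] at this
    rw [← this]
    simpa [mul_comm] using h2

end INNOVBaux

open INNOVBaux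

namespace Setup

variable {V : Type} [DecidableEq V] [Countable V] (S : Setup V)

namespace INNOVBaux

/-- the weighted increment of the noise -/
noncomputable def bb (F : Finset V) (lam : V → ℝ) (t h : ℝ≥0) (ω : Om V) : ℝ :=
  ∑ v ∈ F, lam v * (S.B (t + h) v ω - S.B t v ω)

lemma law_inc (t h : ℝ≥0) (v : V) :
    HasLaw (fun ω => S.B (t + h) v ω - S.B t v ω) (gaussianReal 0 h) S.P := by
  refine ⟨((S.measurable_B _ v).sub (S.measurable_B _ v)).aemeasurable, ?_⟩
  rw [S.law_B_inc (le_self_add (a := t) (b := h)) v, add_tsub_cancel_left]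

lemma memLp_inc (t h : ℝ≥0) (v : V) :
    MemLp (fun ω => S.B (t + h) v ω - S.B t v ω) 2 S.P := (law_inc S t h v).hasGaussianLaw.memLp_two

lemma measurable_bb (F : Finset V) (lam : V → ℝ) (t h : ℝ≥0) :
    Measurable[⨆ v : V, MeasurableSpace.comap (fun ω => S.B (t + h) v ω - S.B t v ω) inferInstance]
      (bb S F lam t h) := by
  refine Finset.measurable_fun_sum _ fun v _ => Measurable.const_mul ?_ _
  exact Measurable.mono (comap_measurable _)
    (le_iSup (fun v : V => MeasurableSpace.comap (fun ω => S.B (t + h) v ω - S.B t v ω)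
      inferInstance) v) le_rfl

lemma measurable_bb' (F : Finset V) (lam : V → ℝ) (t h : ℝ≥0) : Measurable (bb S F lam t h) := by
  refine Finset.measurable_fun_sum _ fun v _ => Measurable.const_mul ?_ _
  exact (S.measurable_B _ v).sub (S.measurable_B _ v)

lemma memLp_bb (F : Finset V) (lam : V → ℝ) (t h : ℝ≥0) : MemLp (bb S F lam t h) 2 S.P :=
  memLp_finsetSum _ fun v _ => (memLp_inc S t h v).const_mul _

lemma law_bb (F : Finset V) (lam : V → ℝ) (t h : ℝ≥0) :
    S.P.map (bb S F lam t h) = gaussianReal 0 (Real.toNNReal (h * ∑ v ∈ F, lam v ^ 2)) := by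
  have hG : HasGaussianLaw (bb S F lam t h) S.P := by
    have : bb S F lam t h = fun ω => ∑ v : F, lam v * (S.B (t + h) v ω - S.B t v ω) := by
      funext ω
      rw [bb, ← Finset.sum_coe_sort]
    rw [this]
    refine iIndepFun.hasGaussianLaw_fun_sum
      (X := fun (v : F) ω => lam v * (S.B (t + h) v ω - S.B t v ω)) (fun v => ?_) ?_
    · exact ((law_inc S t h v).hasGaussianLaw).fun_smul (lam v)
    · exact ((S.iIndep_B_inc (le_self_add (a := t) (b := h))).precomp (g := fun v : F => (v : V))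
        Subtype.val_injective).comp (fun v x => lam v * x) (fun v => by fun_prop)
  have h0 : ∫ ω, bb S F lam t h ω ∂S.P = 0 := by
    simp only [bb]
    rw [integral_finsetSum]
    · refine Finset.sum_eq_zero fun v _ => ?_
      rw [integral_const_mul, (law_inc S t h v).integral_eq, integral_id_gaussianReal, mul_zero]
    · intro v _
      exact ((memLp_inc S t h v).integrable one_le_two).const_mul _
  have hv : Var[bb S F lam t h; S.P] = h * ∑ v ∈ F, lam v ^ 2 := by
    have e1 : bb S F lam t h = ∑ v ∈ F, fun ω => lam v * (S.B (t + h) v ω - S.B t v ω) := by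
      funext ω
      simp [bb]
    rw [e1, IndepFun.variance_sum, Finset.mul_sum]
    · refine Finset.sum_congr rfl fun v _ => ?_
      rw [variance_const_mul, (law_inc S t h v).variance_eq, variance_id_gaussianReal]
      ring
    · exact fun v _ => (memLp_inc S t h v).const_mul _
    · intro v _ w _ hvw
      exact ((S.iIndep_B_inc (le_self_add (a := t) (b := h))).indepFun hvw).comp
        (φ := fun x => lam v * x) (ψ := fun x => lam w * x) (by fun_prop) (by fun_prop)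
  rw [hG.map_eq_gaussianReal, h0, hv]

lemma sq_bb (F : Finset V) (lam : V → ℝ) (t h : ℝ≥0) :
    ∫ ω, bb S F lam t h ω ^ 2 ∂S.P = h * ∑ v ∈ F, lam v ^ 2 := by
  have h1 : HasLaw (bb S F lam t h) (gaussianReal 0 (Real.toNNReal (h * ∑ v ∈ F, lam v ^ 2))) S.P :=
    ⟨(measurable_bb' S F lam t h).aemeasurable, law_bb S F lam t h⟩
  have h2 := h1.variance_eq
  rw [variance_id_gaussianReal, variance_eq_sub (memLp_bb S F lam t h), h1.integral_eq,
    integral_id_gaussianReal, Real.coe_toNNReal _ (by positivity)] at h2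
  simpa using h2

lemma char_bb (F : Finset V) (lam : V → ℝ) (t h : ℝ≥0) :
    ∫ ω, Complex.exp (Complex.I * (bb S F lam t h ω : ℂ)) ∂S.P =
      Complex.exp (((-((h : ℝ) * ∑ v ∈ F, lam v ^ 2) / 2 : ℝ) : ℂ)) := by
  have h1 : charFun (S.P.map (bb S F lam t h)) 1 =
      ∫ ω, Complex.exp (Complex.I * (bb S F lam t h ω : ℂ)) ∂S.P := by
    rw [charFun_apply_real, integral_map (measurable_bb' S F lam t h).aemeasurable]
    · refine integral_congr_ae (Eventually.of_forall fun ω => ?_)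
      simp [mul_comm]
    · exact AEMeasurable.aestronglyMeasurable (by fun_prop)
  rw [← h1, law_bb, charFun_gaussianReal, Real.coe_toNNReal _ (by positivity)]
  push_cast
  ring_nf

/-- factorisation -/
lemma indep_mul (F : Finset V) (lam : V → ℝ) (t h : ℝ≥0) (Y : Om V → ℂ)
    (hY : Measurable[S.FF (fun _ => t) Set.univ ⊔
      ⨆ v, MeasurableSpace.comap (S.spin v) inferInstance] Y)
    (hY' : AEStronglyMeasurable Y S.P) :
    ∫ ω, Y ω * Complex.exp (Complex.I * (bb S F lam t h ω : ℂ)) ∂S.P =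
      (∫ ω, Y ω ∂S.P) * Complex.exp (((-((h : ℝ) * ∑ v ∈ F, lam v ^ 2) / 2 : ℝ) : ℂ)) := by
  have hi := S.indep_future (fun _ => t) (fun _ => t + h) (fun _ => le_self_add)
  have h1 : IndepFun Y (fun ω => Complex.exp (Complex.I * (bb S F lam t h ω : ℂ))) S.P := by
    rw [IndepFun_iff_Indep]
    refine indep_of_indep_of_le_left (indep_of_indep_of_le_right hi ?_) hY.comap_le
    have h2 : Measurable[⨆ v : V, MeasurableSpace.comap
        (fun ω => S.B (t + h) v ω - S.B t v ω) inferInstance]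
        (fun ω => Complex.exp (Complex.I * (bb S F lam t h ω : ℂ))) :=
      Complex.measurable_exp.comp ((Complex.measurable_ofReal.comp
        (measurable_bb S F lam t h)).const_mul _)
    exact h2.comap_le
  rw [h1.integral_fun_mul_eq_mul_integral hY', char_bb]
  have := measurable_bb' S F lam t h
  exact Measurable.aestronglyMeasurable (by fun_prop)

lemma measurable_m_Ft (t : ℝ≥0) (v : V) : Measurable[S.Ft t] (S.m t v) :=
  (S.measurable_mag v).comp (S.measurable_XT_FF fun _ => t)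

lemma Ft_le (t : ℝ≥0) : S.Ft t ≤ mOm V := S.FF_le _ _

lemma measurable_Iint (t : ℝ≥0) (v : V) : Measurable (S.Iint t v) :=
  (S.measurable_Iint_Ft t v).mono (Ft_le S t) le_rfl

lemma intg {f : Om V → ℝ} (hf : Measurable f) {C : ℝ} (h : ∀ᵐ ω ∂S.P, |f ω| ≤ C) :
    Integrable f S.P := Integrable.of_bound hf.aestronglyMeasurable C h

lemma m_abs (t : ℝ≥0) (v : V) (ω : Om V) : |S.m t v ω| ≤ 1 := (S.abs_mag_lt v _).le

lemma spin_abs (v : V) (ω : Om V) : |S.spin v ω| = 1 := by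
  rcases S.spin_val v ω with h | h <;> simp [h]

/-- `E[Z (τ_v - m_v)] = 0` for `Z ∈ Ft t`. -/
lemma test_spin (t : ℝ≥0) (v : V) (Z : Om V → ℝ) (hZ : Measurable[S.Ft t] Z)
    (hZb : ∃ C, ∀ ω, |Z ω| ≤ C) : ∫ ω, (S.spin v ω - S.m t v ω) * Z ω ∂S.P = 0 := by
  obtain ⟨C, hC⟩ := hZb
  have hZ' : Measurable Z := hZ.mono (Ft_le S t) le_rfl
  have hs : Integrable (S.spin v) S.P :=
    intg S (S.measurable_spin v) (C := 1) (Eventually.of_forall fun ω => (spin_abs S v ω).le)
  have hm : Integrable (S.m t v) S.P :=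
    intg S (S.measurable_m t v) (C := 1) (Eventually.of_forall fun ω => m_abs S t v ω)
  have h1 : S.P[Z * S.spin v | S.Ft t] =ᵐ[S.P] Z * S.P[S.spin v | S.Ft t] :=
    condExp_stronglyMeasurable_mul_of_bound (Ft_le S t) hZ.stronglyMeasurable hs C
      (Eventually.of_forall hC)
  have h2 : ∫ ω, Z ω * S.spin v ω ∂S.P = ∫ ω, Z ω * S.m t v ω ∂S.P := by
    have h3 : ∫ ω, (Z * S.spin v) ω ∂S.P = ∫ ω, (S.P[Z * S.spin v | S.Ft t]) ω ∂S.P :=
      (integral_condExp (Ft_le S t)).symm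
    simp only [Pi.mul_apply] at h3
    rw [h3]
    refine integral_congr_ae ?_
    filter_upwards [h1, S.condExp_mag (fun _ => t) v] with ω h4 h5
    rw [h4, Pi.mul_apply, h5]
    rfl
  have h4 : ∫ ω, (S.spin v ω - S.m t v ω) * Z ω ∂S.P =
      ∫ ω, Z ω * S.spin v ω ∂S.P - ∫ ω, Z ω * S.m t v ω ∂S.P := by
    rw [← integral_sub]
    · refine integral_congr_ae (Eventually.of_forall fun ω => ?_)
      simp only
      ring
    · exact hs.bdd_mul (c := C) hZ'.aestronglyMeasurable (Eventually.of_forall hC)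
    · exact hm.bdd_mul (c := C) hZ'.aestronglyMeasurable (Eventually.of_forall hC)
  rw [h4, h2, sub_self]

/-- the remainder of the integral of the magnetisation -/
noncomputable def JJ (t h : ℝ≥0) (v : V) (ω : Om V) : ℝ :=
  S.Iint (t + h) v ω - S.Iint t v ω - h * S.m t v ω

lemma measurable_JJ (t h : ℝ≥0) (v : V) : Measurable (JJ S t h v) :=
  ((measurable_Iint S _ v).sub (measurable_Iint S _ v)).sub ((S.measurable_m t v).const_mul _)

lemma JJ_abs (t h : ℝ≥0) (v : V) : ∀ᵐ ω ∂S.P, |JJ S t h v ω| ≤ 2 * h := by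
  filter_upwards [S.Iint_sub_abs_le (le_self_add (a := t) (b := h)) v] with ω h1
  have h2 := m_abs S t v ω
  push_cast at h1
  have h3 : |JJ S t h v ω| ≤ |S.Iint (t + h) v ω - S.Iint t v ω| + |h * S.m t v ω| := abs_sub _ _
  rw [abs_mul, abs_of_nonneg (NNReal.coe_nonneg h)] at h3
  have h4 : (h : ℝ) * |S.m t v ω| ≤ h * 1 := mul_le_mul_of_nonneg_left h2 h.2
  linarith

lemma memLp_JJ (t h : ℝ≥0) (v : V) : MemLp (JJ S t h v) 2 S.P :=
  MemLp.of_bound (measurable_JJ S t h v).aestronglyMeasurable (2 * h) (JJ_abs S t h v)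

lemma test_JJ (t h : ℝ≥0) (v : V) (Z : Om V → ℝ) (hZ : Measurable[S.Ft t] Z)
    (hZb : ∃ C, ∀ ω, |Z ω| ≤ C) : ∫ ω, JJ S t h v ω * Z ω ∂S.P = 0 := by
  have h1 := S.Iint_test (le_self_add (a := t) (b := h)) v Z hZ hZb
  obtain ⟨C, hC⟩ := hZb
  have hZ' : Measurable Z := hZ.mono (Ft_le S t) le_rfl
  have hm : Integrable (S.m t v) S.P :=
    intg S (S.measurable_m t v) (C := 1) (Eventually.of_forall fun ω => m_abs S t v ω)
  have hI : Integrable (fun ω => S.Iint (t + h) v ω - S.Iint t v ω) S.P :=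
    intg S ((measurable_Iint S _ v).sub (measurable_Iint S _ v))
      (S.Iint_sub_abs_le (le_self_add (a := t) (b := h)) v)
  have h2 : ∫ ω, JJ S t h v ω * Z ω ∂S.P =
      ∫ ω, (S.Iint (t + h) v ω - S.Iint t v ω) * Z ω ∂S.P - h * ∫ ω, S.m t v ω * Z ω ∂S.P := by
    rw [← integral_const_mul, ← integral_sub]
    · refine integral_congr_ae (Eventually.of_forall fun ω => ?_)
      simp only [JJ]
      ring
    · exact hI.mul_bdd (c := C) hZ'.aestronglyMeasurable (Eventually.of_forall hC)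
    · exact (hm.mul_bdd (c := C) hZ'.aestronglyMeasurable (Eventually.of_forall hC)).const_mul _
  rw [h2, h1]
  push_cast
  ring

lemma sq_JJ (t h : ℝ≥0) (v : V) :
    ∫ ω, JJ S t h v ω ^ 2 ∂S.P ≤ h ^ 2 * (S.q (t + h) - S.q t) := by
  have h1 := S.Iint_L2 (le_self_add (a := t) (b := h)) v
  push_cast at h1
  simpa [JJ] using h1

/-- the exponential of the noise -/
noncomputable def EE (F : Finset V) (lam : V → ℝ) (t h : ℝ≥0) (ω : Om V) : ℂ :=
  Complex.exp (Complex.I * (bb S F lam t h ω : ℂ))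

lemma measurable_EE (F : Finset V) (lam : V → ℝ) (t h : ℝ≥0) : Measurable (EE S F lam t h) := by
  have := measurable_bb' S F lam t h
  unfold EE
  fun_prop

lemma EE_norm (F : Finset V) (lam : V → ℝ) (t h : ℝ≥0) (ω : Om V) : ‖EE S F lam t h ω‖ = 1 :=
  exp_norm _

lemma one_site (F : Finset V) (lam : V → ℝ) (t h : ℝ≥0) (v : V) (Z : Om V → ℂ)
    (hZ : Measurable[S.Ft t] Z) (hZb : ∀ ω, ‖Z ω‖ ≤ 1) :
    ‖∫ ω, Z ω * EE S F lam t h ω *
      ((h * S.spin v ω - (S.Iint (t + h) v ω - S.Iint t v ω) : ℝ) : ℂ) ∂S.P‖ ≤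
      √(h ^ 2 * (S.q (t + h) - S.q t)) * √(h * ∑ v ∈ F, lam v ^ 2) := by
  have hZ' : Measurable Z := hZ.mono (Ft_le S t) le_rfl
  have hE := measurable_EE S F lam t h
  have hEn := EE_norm S F lam t h
  have hs : Integrable (fun ω => S.spin v ω - S.m t v ω) S.P :=
    intg S ((S.measurable_spin v).sub (S.measurable_m t v)) (C := 2)
      (Eventually.of_forall fun ω => (abs_sub _ _).trans
        (by have := m_abs S t v ω; have := spin_abs S v ω; linarith))
  have hJ : Integrable (JJ S t h v) S.P := intg S (measurable_JJ S t h v) (JJ_abs S t h v)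
  have z1 : ∫ ω, Z ω * ((S.spin v ω - S.m t v ω : ℝ) : ℂ) ∂S.P = 0 :=
    cplx_zero (Ft_le S t) hs (test_spin S t v) Z hZ hZb
  have z2 : ∫ ω, Z ω * ((JJ S t h v ω : ℝ) : ℂ) ∂S.P = 0 :=
    cplx_zero (Ft_le S t) hJ (test_JJ S t h v) Z hZ hZb
  have i1 : Integrable (fun ω => Z ω * ((S.spin v ω - S.m t v ω : ℝ) : ℂ)) S.P :=
    Integrable.bdd_mul (c := 1) hs.ofReal hZ'.aestronglyMeasurable (Eventually.of_forall hZb)
  have i1' : Integrable (fun ω => Z ω * ((S.spin v ω - S.m t v ω : ℝ) : ℂ) *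
      EE S F lam t h ω) S.P :=
    Integrable.mul_bdd (c := 1) i1 hE.aestronglyMeasurable
      (Eventually.of_forall fun ω => (hEn ω).le)
  have i2 : Integrable (fun ω => Z ω * ((JJ S t h v ω : ℝ) : ℂ)) S.P :=
    Integrable.bdd_mul (c := 1) hJ.ofReal hZ'.aestronglyMeasurable (Eventually.of_forall hZb)
  have i2' : Integrable (fun ω => Z ω * ((JJ S t h v ω : ℝ) : ℂ) *
      (EE S F lam t h ω - 1)) S.P :=
    Integrable.mul_bdd (c := 2) i2 (hE.sub measurable_const).aestronglyMeasurable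
      (Eventually.of_forall fun ω => (norm_sub_le _ _).trans (by rw [hEn ω]; norm_num))
  have z3 : ∫ ω, Z ω * ((S.spin v ω - S.m t v ω : ℝ) : ℂ) * EE S F lam t h ω ∂S.P = 0 := by
    have := indep_mul S F lam t h (fun ω => Z ω * ((S.spin v ω - S.m t v ω : ℝ) : ℂ)) ?_
      i1.aestronglyMeasurable
    · unfold EE
      rw [this, z1, zero_mul]
    · have a1 : Measurable[S.FF (fun _ => t) Set.univ ⊔
        ⨆ v, MeasurableSpace.comap (S.spin v) inferInstance] Z := hZ.mono le_sup_left le_rfl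
      have a2 : Measurable[S.FF (fun _ => t) Set.univ ⊔
        ⨆ v, MeasurableSpace.comap (S.spin v) inferInstance] (S.m t v) :=
        (measurable_m_Ft S t v).mono le_sup_left le_rfl
      have a3 : Measurable[S.FF (fun _ => t) Set.univ ⊔
        ⨆ v, MeasurableSpace.comap (S.spin v) inferInstance] (S.spin v) :=
        (comap_measurable (S.spin v)).mono ((le_iSup (fun v : V =>
          MeasurableSpace.comap (S.spin v) inferInstance) v).trans le_sup_right) le_rfl
      exact a1.mul (Complex.measurable_ofReal.comp (a3.sub a2))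
  have key : ∫ ω, Z ω * EE S F lam t h ω *
      ((h * S.spin v ω - (S.Iint (t + h) v ω - S.Iint t v ω) : ℝ) : ℂ) ∂S.P =
      - ∫ ω, Z ω * ((JJ S t h v ω : ℝ) : ℂ) * (EE S F lam t h ω - 1) ∂S.P := by
    have e1 : ∀ ω, Z ω * EE S F lam t h ω *
      ((h * S.spin v ω - (S.Iint (t + h) v ω - S.Iint t v ω) : ℝ) : ℂ) =
      (h : ℂ) * (Z ω * ((S.spin v ω - S.m t v ω : ℝ) : ℂ) * EE S F lam t h ω) -
      Z ω * ((JJ S t h v ω : ℝ) : ℂ) * (EE S F lam t h ω - 1) -
      Z ω * ((JJ S t h v ω : ℝ) : ℂ) := by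
      intro ω
      simp only [JJ]
      push_cast
      ring
    simp_rw [e1]
    rw [integral_sub _ i2, integral_sub _ i2', integral_const_mul, z3, z2]
    · ring
    · exact i1'.const_mul _
    · exact (i1'.const_mul _).sub i2'
  rw [key, norm_neg]
  refine (norm_integral_le_integral_norm _).trans ?_
  have b1 : ∫ ω, ‖Z ω * ((JJ S t h v ω : ℝ) : ℂ) * (EE S F lam t h ω - 1)‖ ∂S.P ≤
      ∫ ω, |JJ S t h v ω| * |bb S F lam t h ω| ∂S.P := by
    refine integral_mono i2'.norm ?_ fun ω => ?_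
    · exact ((memLp_JJ S t h v).norm.integrable_mul (memLp_bb S F lam t h).norm)
    · simp only
      rw [norm_mul, norm_mul, Complex.norm_real, Real.norm_eq_abs]
      have c1 := exp_lip (bb S F lam t h ω)
      have c2 := hZb ω
      refine mul_le_mul ?_ c1 (norm_nonneg _) (abs_nonneg _)
      calc ‖Z ω‖ * |JJ S t h v ω| ≤ 1 * |JJ S t h v ω| :=
            mul_le_mul_of_nonneg_right c2 (abs_nonneg _)
        _ = _ := one_mul _
  refine b1.trans ((cs (memLp_JJ S t h v) (memLp_bb S F lam t h)).trans ?_)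
  rw [sq_bb]
  gcongr
  exact sq_JJ S t h v

end INNOVBaux

open INNOVBaux in
/-- one step -/
theorem innov_step (F : Finset V) (lam : V → ℝ) : ∃ C : ℝ, 0 < C ∧ ∀ (t h : ℝ≥0), h ≤ 1 →
    ∀ (Z : Om V → ℂ), Measurable[S.Ft t] Z → (∀ ω, ‖Z ω‖ ≤ 1) →
    ‖∫ ω, Z ω * Complex.exp (Complex.I * ((∑ v ∈ F, lam v * (S.W (t + h) v ω - S.W t v ω) : ℝ) : ℂ)) ∂S.P -
      Complex.exp (((-((h : ℝ) * ∑ v ∈ F, lam v ^ 2) / 2 : ℝ) : ℂ)) * ∫ ω, Z ω ∂S.P‖ ≤
      C * ((h : ℝ) ^ 2 + (h : ℝ) ^ (3 / 2 : ℝ) * √(S.q (t + h) - S.q t)) := by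
  set L := ∑ v ∈ F, |lam v| with hL
  have hL0 : 0 ≤ L := Finset.sum_nonneg fun _ _ => abs_nonneg _
  set L2 := ∑ v ∈ F, lam v ^ 2 with hL2
  refine ⟨12 * L ^ 2 + L * √L2 + 1, by positivity, fun t h _ Z hZ hZb => ?_⟩
  have hZ' : Measurable Z := hZ.mono (Ft_le S t) le_rfl
  have hE := measurable_EE S F lam t h
  have hEn := EE_norm S F lam t h
  set a : Om V → ℝ := fun ω => ∑ v ∈ F, lam v *
    (h * S.spin v ω - (S.Iint (t + h) v ω - S.Iint t v ω)) with ha
  have ham : Measurable a := by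
    refine Finset.measurable_fun_sum _ fun v _ => Measurable.const_mul ?_ _
    exact ((S.measurable_spin v).const_mul _).sub ((measurable_Iint S _ v).sub
      (measurable_Iint S _ v))
  have hab : ∀ᵐ ω ∂S.P, |a ω| ≤ 2 * h * L := by
    have h1 : ∀ᵐ ω ∂S.P, ∀ v ∈ F, |S.Iint (t + h) v ω - S.Iint t v ω| ≤ h := by
      rw [Filter.eventually_all_finset]
      intro v _
      have := S.Iint_sub_abs_le (le_self_add (a := t) (b := h)) v
      push_cast at this
      simpa using this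
    filter_upwards [h1] with ω h1
    rw [ha, hL, Finset.mul_sum]
    refine (Finset.abs_sum_le_sum_abs _ _).trans (Finset.sum_le_sum fun v hv => ?_)
    rw [abs_mul, mul_comm]
    refine mul_le_mul_of_nonneg_right ?_ (abs_nonneg _)
    refine (abs_sub _ _).trans ?_
    rw [abs_mul, spin_abs, NNReal.abs_eq]
    linarith [h1 v hv]
  have e0 : ∀ ω, ∑ v ∈ F, lam v * (S.W (t + h) v ω - S.W t v ω) = bb S F lam t h ω + a ω := by
    intro ω
    rw [ha, bb, ← Finset.sum_add_distrib]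
    refine Finset.sum_congr rfl fun v _ => ?_
    simp only [W, XX]
    push_cast
    ring
  have e1 : ∀ ω, Z ω * Complex.exp (Complex.I *
      ((∑ v ∈ F, lam v * (S.W (t + h) v ω - S.W t v ω) : ℝ) : ℂ)) =
      Z ω * EE S F lam t h ω + Complex.I * (Z ω * EE S F lam t h ω * (a ω : ℂ)) +
      Z ω * EE S F lam t h ω * (Complex.exp (Complex.I * (a ω : ℂ)) - 1 - Complex.I * (a ω : ℂ)) := by
    intro ω
    rw [e0 ω]
    push_cast
    rw [mul_add, Complex.exp_add]
    simp only [EE]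
    ring
  have i0 : Integrable (fun ω => Z ω * EE S F lam t h ω) S.P :=
    Integrable.of_bound (hZ'.mul hE).aestronglyMeasurable 1 (Eventually.of_forall fun ω => by
      rw [norm_mul, hEn, mul_one]; exact hZb ω)
  have i1 : Integrable (fun ω => Z ω * EE S F lam t h ω * (a ω : ℂ)) S.P := by
    refine Integrable.bdd_mul (c := 1) (Integrable.ofReal (intg S ham hab)) (hZ'.mul hE).aestronglyMeasurable
      (Eventually.of_forall fun ω => by
        rw [norm_mul, hEn, mul_one]; exact hZb ω)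
  have hr : ∀ᵐ ω ∂S.P, ‖Z ω * EE S F lam t h ω *
      (Complex.exp (Complex.I * (a ω : ℂ)) - 1 - Complex.I * (a ω : ℂ))‖ ≤ 12 * L ^ 2 * h ^ 2 := by
    filter_upwards [hab] with ω h1
    rw [norm_mul, norm_mul, hEn, mul_one]
    have h2 := exp_taylor (a ω)
    have h3 : a ω ^ 2 ≤ (2 * h * L) ^ 2 := by
      rw [← sq_abs]
      exact pow_le_pow_left₀ (abs_nonneg _) h1 2
    calc ‖Z ω‖ * ‖Complex.exp (Complex.I * (a ω : ℂ)) - 1 - Complex.I * (a ω : ℂ)‖
        ≤ 1 * (3 * a ω ^ 2) := mul_le_mul (hZb ω) h2 (norm_nonneg _) (by norm_num)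
      _ ≤ _ := by nlinarith
  have i2 : Integrable (fun ω => Z ω * EE S F lam t h ω *
      (Complex.exp (Complex.I * (a ω : ℂ)) - 1 - Complex.I * (a ω : ℂ))) S.P := by
    refine Integrable.of_bound ?_ _ hr
    exact Measurable.aestronglyMeasurable (by fun_prop)
  simp_rw [e1]
  have e5 : ∫ ω, (Z ω * EE S F lam t h ω + Complex.I * (Z ω * EE S F lam t h ω * (a ω : ℂ)) +
      Z ω * EE S F lam t h ω *
        (Complex.exp (Complex.I * (a ω : ℂ)) - 1 - Complex.I * (a ω : ℂ))) ∂S.P =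
      ∫ ω, Z ω * EE S F lam t h ω ∂S.P +
        Complex.I * ∫ ω, (Z ω * EE S F lam t h ω * (a ω : ℂ)) ∂S.P +
      ∫ ω, Z ω * EE S F lam t h ω *
        (Complex.exp (Complex.I * (a ω : ℂ)) - 1 - Complex.I * (a ω : ℂ)) ∂S.P := by
    have i3 : Integrable (fun ω => Z ω * EE S F lam t h ω +
      Complex.I * (Z ω * EE S F lam t h ω * (a ω : ℂ))) S.P := i0.add (i1.const_mul _)
    rw [integral_add i3 i2, integral_add i0 (i1.const_mul _), integral_const_mul]
  rw [e5]
  have e2 : ∫ ω, Z ω * EE S F lam t h ω ∂S.P =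
      Complex.exp (((-((h : ℝ) * L2) / 2 : ℝ) : ℂ)) * ∫ ω, Z ω ∂S.P := by
    rw [mul_comm]
    exact indep_mul S F lam t h Z (hZ.mono le_sup_left le_rfl) hZ'.aestronglyMeasurable
  rw [e2]
  have e3 : ∀ x y z : ℂ, x + y + z - x = y + z := fun x y z => by ring
  rw [e3]
  have n2 : ‖∫ ω, Z ω * EE S F lam t h ω *
      (Complex.exp (Complex.I * (a ω : ℂ)) - 1 - Complex.I * (a ω : ℂ)) ∂S.P‖ ≤
      12 * L ^ 2 * h ^ 2 := by
    have := norm_integral_le_of_norm_le_const hr
    simpa using this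
  have n1 : ‖∫ ω, Z ω * EE S F lam t h ω * (a ω : ℂ) ∂S.P‖ ≤
      L * √L2 * ((h : ℝ) ^ (3 / 2 : ℝ) * √(S.q (t + h) - S.q t)) := by
    have e4 : ∫ ω, Z ω * EE S F lam t h ω * (a ω : ℂ) ∂S.P = ∑ v ∈ F, (lam v : ℂ) *
        ∫ ω, Z ω * EE S F lam t h ω *
      ((h * S.spin v ω - (S.Iint (t + h) v ω - S.Iint t v ω) : ℝ) : ℂ) ∂S.P := by
      simp_rw [← integral_const_mul]
      rw [← integral_finsetSum]
      · refine integral_congr_ae (Eventually.of_forall fun ω => ?_)
        simp only [ha]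
        push_cast
        rw [Finset.mul_sum]
        refine Finset.sum_congr rfl fun v _ => ?_
        ring
      · intro v _
        refine Integrable.const_mul ?_ _
        refine Integrable.bdd_mul (c := 1) (Integrable.ofReal ?_) (hZ'.mul hE).aestronglyMeasurable
          (Eventually.of_forall fun ω => by
            rw [norm_mul, hEn, mul_one]; exact hZb ω)
        refine (Integrable.const_mul ?_ _).sub ?_
        · exact intg S (S.measurable_spin v) (C := 1)
            (Eventually.of_forall fun ω => (spin_abs S v ω).le)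
        · exact intg S ((measurable_Iint S _ v).sub (measurable_Iint S _ v))
            (S.Iint_sub_abs_le (le_self_add (a := t) (b := h)) v)
    rw [e4]
    refine (norm_sum_le _ _).trans ?_
    have h32 : √((h : ℝ) ^ 2 * (S.q (t + h) - S.q t)) * √(h * L2) =
        √L2 * ((h : ℝ) ^ (3 / 2 : ℝ) * √(S.q (t + h) - S.q t)) := by
      have h0 : (0 : ℝ) ≤ h := h.2
      rw [Real.sqrt_mul (by positivity), Real.sqrt_mul h0, Real.sqrt_sq h0]
      have : (h : ℝ) ^ (3 / 2 : ℝ) = h * √h := by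
        rw [Real.sqrt_eq_rpow]
        rcases eq_or_lt_of_le h0 with h1 | h1
        · rw [← h1]; norm_num
        · have : (3 / 2 : ℝ) = 1 + 1 / 2 := by norm_num
          rw [this, Real.rpow_add h1, Real.rpow_one]
      rw [this]
      ring
    calc ∑ v ∈ F, ‖(lam v : ℂ) * ∫ ω, Z ω * EE S F lam t h ω *
      ((h * S.spin v ω - (S.Iint (t + h) v ω - S.Iint t v ω) : ℝ) : ℂ) ∂S.P‖
        ≤ ∑ v ∈ F, |lam v| * (√L2 * ((h : ℝ) ^ (3 / 2 : ℝ) * √(S.q (t + h) - S.q t))) := by
          refine Finset.sum_le_sum fun v _ => ?_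
          rw [norm_mul, Complex.norm_real, Real.norm_eq_abs, ← h32]
          exact mul_le_mul_of_nonneg_left (one_site S F lam t h v Z hZ hZb) (abs_nonneg _)
      _ = _ := by rw [← Finset.sum_mul, ← hL]; ring
  refine (norm_add_le _ _).trans ?_
  rw [norm_mul, Complex.norm_I, one_mul]
  have p1 : 0 ≤ (h : ℝ) ^ (3 / 2 : ℝ) * √(S.q (t + h) - S.q t) := by positivity
  have p2 : 0 ≤ (h : ℝ) ^ 2 := by positivity
  have p3 : 0 ≤ L * √L2 := by positivity
  have p4 : 0 ≤ L ^ 2 := by positivity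
  nlinarith [mul_nonneg p3 p2, mul_nonneg p4 p1]

/-- INNOVATION THEOREM -/
theorem innov {s t : ℝ≥0} (h : s ≤ t) (F : Finset V) (lam : V → ℝ) (Z : Om V → ℂ)
    (hZ : Measurable[S.Ft s] Z) (hZb : ∀ ω, ‖Z ω‖ ≤ 1) :
    ∫ ω, Z ω * Complex.exp (Complex.I * ((∑ v ∈ F, lam v * (S.W t v ω - S.W s v ω) : ℝ) : ℂ)) ∂S.P =
      Complex.exp (((-(((t : ℝ) - s) * ∑ v ∈ F, lam v ^ 2) / 2 : ℝ) : ℂ)) * ∫ ω, Z ω ∂S.P := by
  obtain ⟨C, hC, hstep⟩ := S.innov_step F lam
  set L2 := ∑ v ∈ F, lam v ^ 2 with hL2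
  have hL20 : 0 ≤ L2 := Finset.sum_nonneg fun _ _ => sq_nonneg _
  set D : ℝ≥0 := t - s with hD
  have hDt : s + D = t := add_tsub_cancel_of_le h
  have hDr : (t : ℝ) - s = D := by rw [← hDt]; push_cast; ring
  -- the main estimate
  have key : ∀ N : ℕ, 0 < N → (D : ℝ) ≤ N →
      ‖∫ ω, Z ω * Complex.exp (Complex.I *
        ((∑ v ∈ F, lam v * (S.W t v ω - S.W s v ω) : ℝ) : ℂ)) ∂S.P -
      Complex.exp (((-((D : ℝ) * L2) / 2 : ℝ) : ℂ)) * ∫ ω, Z ω ∂S.P‖ ≤
      C * ((D : ℝ) ^ 2 + (D : ℝ) ^ (3 / 2 : ℝ) * √(S.q t - S.q s)) / N := by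
    intro N hN hDN
    have hN' : (0 : ℝ) < N := by exact_mod_cast hN
    set η : ℝ≥0 := D / N with hη
    have hη1 : η ≤ 1 := by
      rw [hη]
      refine div_le_one_of_le₀ ?_ (by positivity)
      exact_mod_cast hDN
    have hηN : (N : ℝ≥0) * η = D := by
      rw [hη]
      have : (N : ℝ≥0) ≠ 0 := by exact_mod_cast hN.ne'
      field_simp
    have hηr : (η : ℝ) = D / N := by rw [hη]; push_cast; rfl
    set T : ℕ → ℝ≥0 := fun j => s + j * η with hT
    have hTs : ∀ j, T (j + 1) = T j + η := fun j => by simp only [hT]; push_cast; ring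
    have hT0 : T 0 = s := by simp [hT]
    have hTN : T N = t := by simp only [hT]; rw [hηN, hDt]
    have hsT : ∀ j, s ≤ T j := fun j => le_self_add
    set Ex : ℕ → Om V → ℂ := fun j ω => Complex.exp (Complex.I *
        ((∑ v ∈ F, lam v * (S.W (T j) v ω - S.W s v ω) : ℝ) : ℂ)) with hEx
    have hExm : ∀ j, Measurable[S.Ft (T j)] (fun ω => Z ω * Ex j ω) := by
      intro j
      refine (hZ.mono (S.Ft_mono (hsT j)) le_rfl).mul ?_
      refine Complex.measurable_exp.comp (Measurable.const_mul (Complex.measurable_ofReal.comp ?_) _)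
      refine Finset.measurable_fun_sum _ fun v _ => Measurable.const_mul ?_ _
      exact (S.measurable_W_Ft (T j) v).sub ((S.measurable_W_Ft s v).mono (S.Ft_mono (hsT j)) le_rfl)
    have hExn : ∀ j ω, ‖Ex j ω‖ = 1 := fun j ω => INNOVBaux.exp_norm _
    have hExb : ∀ j ω, ‖Z ω * Ex j ω‖ ≤ 1 := fun j ω => by
      rw [norm_mul, hExn, mul_one]; exact hZb ω
    set Φ : ℕ → ℂ := fun j => ∫ ω, Z ω * Ex j ω ∂S.P with hΦ
    set c : ℂ := Complex.exp (((-((η : ℝ) * L2) / 2 : ℝ) : ℂ)) with hc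
    have hcn : ‖c‖ ≤ 1 := by
      rw [hc, Complex.norm_exp, Complex.ofReal_re, Real.exp_le_one_iff]
      have : 0 ≤ (η : ℝ) * L2 := by positivity
      linarith
    set Er : ℕ → ℝ := fun j =>
      C * ((η : ℝ) ^ 2 + (η : ℝ) ^ (3 / 2 : ℝ) * √(S.q (T (j + 1)) - S.q (T j))) with hEr
    have hone : ∀ j, ‖Φ (j + 1) - c * Φ j‖ ≤ Er j := by
      intro j
      have h1 := hstep (T j) η hη1 (fun ω => Z ω * Ex j ω) (hExm j) (hExb j)
      rw [← hTs j] at h1
      have h2 : ∀ ω, Z ω * Ex (j + 1) ω = Z ω * Ex j ω * Complex.exp (Complex.I *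
          ((∑ v ∈ F, lam v * (S.W (T (j + 1)) v ω - S.W (T j) v ω) : ℝ) : ℂ)) := by
        intro ω
        have he : ∑ v ∈ F, lam v * (S.W (T (j + 1)) v ω - S.W s v ω) =
            ∑ v ∈ F, lam v * (S.W (T j) v ω - S.W s v ω) +
            ∑ v ∈ F, lam v * (S.W (T (j + 1)) v ω - S.W (T j) v ω) := by
          rw [← Finset.sum_add_distrib]
          exact Finset.sum_congr rfl fun v _ => by ring
        simp only [hEx]
        rw [he, Complex.ofReal_add, mul_add, Complex.exp_add, mul_assoc]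
      simp only [hΦ]
      simp_rw [h2]
      exact h1
    have hind : ∀ j, ‖Φ j - c ^ j * Φ 0‖ ≤ ∑ i ∈ range j, Er i := by
      intro j
      induction j with
      | zero => simp
      | succ j ih =>
        rw [Finset.sum_range_succ]
        have e : Φ (j + 1) - c ^ (j + 1) * Φ 0 = c * (Φ j - c ^ j * Φ 0) + (Φ (j + 1) - c * Φ j) := by
          ring
        rw [e]
        refine (norm_add_le _ _).trans (add_le_add ?_ (hone j))
        rw [norm_mul]
        calc ‖c‖ * ‖Φ j - c ^ j * Φ 0‖ ≤ 1 * ‖Φ j - c ^ j * Φ 0‖ :=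
              mul_le_mul_of_nonneg_right hcn (norm_nonneg _)
          _ ≤ _ := by rw [one_mul]; exact ih
    have hmono : ∀ j, 0 ≤ S.q (T (j + 1)) - S.q (T j) := fun j => by
      have := S.q_mono (show T j ≤ T (j + 1) by rw [hTs]; exact le_self_add)
      linarith
    have hsum : ∑ i ∈ range N, √(S.q (T (i + 1)) - S.q (T i)) ≤ √N * √(S.q t - S.q s) := by
      rw [← Real.sqrt_mul (Nat.cast_nonneg N)]
      apply Real.le_sqrt_of_sq_le
      have h1 := sq_sum_le_card_mul_sum_sq (s := range N)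
        (f := fun i => √(S.q (T (i + 1)) - S.q (T i)))
      refine h1.trans ?_
      rw [Finset.card_range]
      refine mul_le_mul_of_nonneg_left ?_ (Nat.cast_nonneg N)
      simp_rw [Real.sq_sqrt (hmono _)]
      rw [Finset.sum_range_sub (fun i => S.q (T i)), hTN, hT0]
    have hEsum : ∑ i ∈ range N, Er i ≤
        C * ((D : ℝ) ^ 2 + (D : ℝ) ^ (3 / 2 : ℝ) * √(S.q t - S.q s)) / N := by
      simp only [hEr]
      rw [← Finset.mul_sum, Finset.sum_add_distrib, ← Finset.mul_sum, Finset.sum_const,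
        Finset.card_range, nsmul_eq_mul, mul_div_assoc]
      refine mul_le_mul_of_nonneg_left ?_ hC.le
      have e1 : (N : ℝ) * (η : ℝ) ^ 2 = (D : ℝ) ^ 2 / N := by
        rw [hηr]; field_simp
      have e2 : (η : ℝ) ^ (3 / 2 : ℝ) * √N = (D : ℝ) ^ (3 / 2 : ℝ) / N := by
        rw [hηr, Real.div_rpow (NNReal.coe_nonneg D) hN'.le, Real.sqrt_eq_rpow]
        have : (N : ℝ) ^ (3 / 2 : ℝ) = N * (N : ℝ) ^ (1 / 2 : ℝ) := by
          have e3 : (3 / 2 : ℝ) = 1 + 1 / 2 := by norm_num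
          rw [e3, Real.rpow_add hN', Real.rpow_one]
        rw [this]
        have : (0 : ℝ) < (N : ℝ) ^ (1 / 2 : ℝ) := Real.rpow_pos_of_pos hN' _
        field_simp
      rw [e1, add_div]
      refine add_le_add le_rfl ?_
      calc (η : ℝ) ^ (3 / 2 : ℝ) * ∑ i ∈ range N, √(S.q (T (i + 1)) - S.q (T i))
          ≤ (η : ℝ) ^ (3 / 2 : ℝ) * (√N * √(S.q t - S.q s)) :=
            mul_le_mul_of_nonneg_left hsum (by positivity)
        _ = (D : ℝ) ^ (3 / 2 : ℝ) * √(S.q t - S.q s) / N := by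
            rw [← mul_assoc, e2]; ring
    have hfin := (hind N).trans hEsum
    have f1 : Φ N = ∫ ω, Z ω * Complex.exp (Complex.I *
        ((∑ v ∈ F, lam v * (S.W t v ω - S.W s v ω) : ℝ) : ℂ)) ∂S.P := by
      simp only [hΦ, hEx, hTN]
    have f2 : Φ 0 = ∫ ω, Z ω ∂S.P := by
      simp only [hΦ, hEx, hT0]
      refine integral_congr_ae (Eventually.of_forall fun ω => ?_)
      simp
    have f3 : c ^ N = Complex.exp (((-((D : ℝ) * L2) / 2 : ℝ) : ℂ)) := by
      rw [hc, ← Complex.exp_nat_mul]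
      congr 1
      have e : (N : ℝ) * (-((η : ℝ) * L2) / 2) = -((D : ℝ) * L2) / 2 := by
        rw [hηr]
        field_simp
      rw [← e]
      push_cast
      ring
    rw [f1, f2, f3] at hfin
    exact hfin
  rw [hDr]
  rw [← sub_eq_zero, ← norm_le_zero_iff]
  set K := C * ((D : ℝ) ^ 2 + (D : ℝ) ^ (3 / 2 : ℝ) * √(S.q t - S.q s)) with hK
  have hlim : Tendsto (fun N : ℕ => K / (N : ℝ)) atTop (𝓝 0) :=
    tendsto_const_div_atTop_nhds_zero_nat K
  refine ge_of_tendsto hlim ?_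
  filter_upwards [eventually_gt_atTop 0, eventually_ge_atTop ⌈(D : ℝ)⌉₊] with N h1 h2
  exact key N h1 ((Nat.le_ceil _).trans (by exact_mod_cast h2))

end Setup
end Crest.Agent.R160
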