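import Crest.Agent.R160.Aut
import Crest.Agent.R160.Det

/-! Row 160, piece LAW-A: spins, measurability. -/

set_option autoImplicit false
open Finset Filter MeasureTheory ProbabilityTheory
open scoped Topology NNReal ENNReal

namespace Crest.Agent.R160

namespace LawAaux

theorem coin_prob {p : ℝ} (h0 : 0 ≤ p) (h1 : p ≤ 1) : IsProbabilityMeasure (coin p) := by
  constructor
  unfold coin
  rw [Measure.add_apply, Measure.smul_apply, Measure.smul_apply, measure_univ, measure_univ,
    smul_eq_mul, smul_eq_mul, mul_one, mul_one, ← ENNReal.ofReal_add h0 (by linarith)]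
  simp

theorem sg_sq (b : Bool) : sg b * sg b = 1 := by cases b <;> simp [sg]

theorem sg_val (b : Bool) : sg b = 1 ∨ sg b = -1 := by cases b <;> simp [sg]

theorem prod_val {ι : Type} (s : Finset ι) (f : ι → ℝ) (h : ∀ i ∈ s, f i = 1 ∨ f i = -1) :
    ∏ i ∈ s, f i = 1 ∨ ∏ i ∈ s, f i = -1 := by
  classical
  induction s using Finset.induction_on with
  | empty => simp
  | insert a s ha ih =>
    rw [Finset.prod_insert ha]
    rcases h a (by simp) with h1 | h1 <;> rcases ih (fun i hi => h i (by simp [hi])) with h2 | h2 <;>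
      rw [h1, h2] <;> norm_num

end LawAaux

namespace Setup

variable {V : Type} [DecidableEq V] [Countable V] (S : Setup V)

instance isProb : IsProbabilityMeasure S.P := by
  have h1 : ∀ o : Option (Sym2 V),
      IsProbabilityMeasure (coin (o.elim (1 / 2) fun _ => (1 + S.θ) / 2)) := by
    intro o
    have hθ := S.θpos
    have hθ1 := S.theta_lt_one
    cases o with
    | none => exact LawAaux.coin_prob (by norm_num) (by norm_num)
    | some e =>
      refine LawAaux.coin_prob ?_ ?_
      · show (0:ℝ) ≤ (1 + S.θ) / 2; linarith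
      · show (1 + S.θ) / 2 ≤ 1; linarith
  unfold P
  infer_instance

theorem spin_val (v : V) (ω : Om V) : S.spin v ω = 1 ∨ S.spin v ω = -1 := by
  unfold spin
  have h1 := LawAaux.sg_val (ω.1 none)
  have h2 := LawAaux.prod_val (range (S.G.dist S.o v))
    (fun i => sg (ω.1 (some s(geo S.G S.o v i, geo S.G S.o v (i + 1)))))
    (fun i _ => LawAaux.sg_val _)
  rcases h1 with h1 | h1 <;> rcases h2 with h2 | h2 <;> rw [h1, h2] <;> norm_num

theorem spin_sq (v : V) (ω : Om V) : S.spin v ω ^ 2 = 1 := by
  rcases S.spin_val v ω with h | h <;> rw [h] <;> norm_num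

theorem LawA_spin_step {x y : V} (hxy : S.G.Adj x y) (hd : S.G.dist S.o y = S.G.dist S.o x + 1)
    (ω : Om V) : S.spin y ω = S.spin x ω * sg (ω.1 (some s(x, y))) := by
  unfold spin
  have h1 : S.G.dist x y = 1 := SimpleGraph.dist_eq_one_iff_adj.mpr hxy
  have hg := geo_append S.rt S.o x y (by rw [h1, hd])
  rw [hd, Finset.prod_range_succ]
  have e1 : geo S.G S.o y (S.G.dist S.o x) = x := by
    rw [hg _ (by omega), if_pos le_rfl, geo_dist S.rt]
  have e2 : geo S.G S.o y (S.G.dist S.o x + 1) = y := by
    rw [← hd, geo_dist S.rt]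
  rw [e1, e2, ← mul_assoc]
  congr 2
  refine Finset.prod_congr rfl fun i hi => ?_
  rw [Finset.mem_range] at hi
  rw [hg i (by omega), hg (i + 1) (by omega), if_pos (by omega), if_pos (by omega)]

theorem spin_adj {x y : V} (hxy : S.G.Adj x y) (ω : Om V) :
    S.spin x ω * S.spin y ω = sg (ω.1 (some s(x, y))) := by
  rcases S.rt.tree.dist_eq_dist_add_one_of_adj S.o hxy with h | h
  · rw [S.LawA_spin_step hxy.symm h, mul_comm, ← mul_assoc, ← pow_two, S.spin_sq, one_mul,
      Sym2.eq_swap]
  · rw [S.LawA_spin_step hxy h, ← mul_assoc, ← pow_two, S.spin_sq, one_mul]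

/-- cocycle property -/
theorem spin_path (v u : V) (ω : Om V) : S.spin v ω * S.spin u ω =
    ∏ i ∈ range (S.G.dist v u), sg (ω.1 (some s(geo S.G v u i, geo S.G v u (i + 1)))) := by
  have key : ∀ j ≤ S.G.dist v u, S.spin v ω * S.spin (geo S.G v u j) ω =
      ∏ i ∈ range j, sg (ω.1 (some s(geo S.G v u i, geo S.G v u (i + 1)))) := by
    intro j
    induction j with
    | zero =>
      intro _
      rw [geo_zero S.rt, ← pow_two, S.spin_sq]
      simp
    | succ j ih =>
      intro hj
      rw [Finset.prod_range_succ, ← ih (by omega), ← S.spin_adj (geo_adj S.rt v u (by omega))]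
      have := S.spin_sq (geo S.G v u j) ω
      linear_combination (-(S.spin v ω * S.spin (geo S.G v u (j + 1)) ω)) * this
  have := key (S.G.dist v u) le_rfl
  rwa [geo_dist S.rt] at this

theorem measurable_spin (v : V) : Measurable (S.spin v) := by
  unfold spin
  have hsg : Measurable sg := measurable_of_countable _
  refine Measurable.mul ?_ (Finset.measurable_prod _ fun i _ => ?_)
  · exact hsg.comp ((measurable_pi_apply _).comp measurable_fst)
  · exact hsg.comp ((measurable_pi_apply _).comp measurable_fst)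

theorem measurable_B (t : ℝ≥0) (v : V) : Measurable (S.B t v) := by
  unfold B
  exact (S.β.meas t).comp ((measurable_pi_apply v).comp measurable_snd)

theorem measurable_XX (t : ℝ≥0) (v : V) : Measurable (S.XX t v) := by
  unfold XX
  exact (measurable_const.mul (S.measurable_spin v)).add (S.measurable_B t v)

theorem measurable_XT (T : V → ℝ≥0) : Measurable (S.XT T) := by
  unfold XT
  exact measurable_pi_iff.mpr fun v => S.measurable_XX (T v) v

theorem measurable_Xt (t : ℝ≥0) : Measurable (S.Xt t) := by
  unfold Xt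
  exact measurable_pi_iff.mpr fun v => S.measurable_XX t v

theorem measurable_m (t : ℝ≥0) (v : V) : Measurable (S.m t v) := by
  unfold m
  exact (S.measurable_mag v).comp (S.measurable_Xt t)

theorem measurable_A (t : ℝ≥0) (v u : V) : Measurable (S.A t v u) := by
  unfold A
  exact (S.measurable_cv v u).comp (S.measurable_Xt t)

theorem LawA_measurable_Iint (t : ℝ≥0) (v : V) : Measurable (S.Iint t v) := by
  unfold Iint
  refine Measurable.limsup fun n => ?_
  unfold Iriem
  exact Finset.measurable_sum _ fun j _ => measurable_const.mul (S.measurable_m _ v)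

theorem measurable_W (t : ℝ≥0) (v : V) : Measurable (S.W t v) := by
  unfold W
  exact (S.measurable_XX t v).sub (S.LawA_measurable_Iint t v)

theorem FF_le (T : V → ℝ≥0) (R : Set V) : S.FF T R ≤ (inferInstance : MeasurableSpace (Om V)) := by
  unfold FF
  exact iSup₂_le fun v _ => iSup₂_le fun s _ => (S.measurable_XX s v).comap_le

theorem FF_mono {T T' : V → ℝ≥0} (hT : T ≤ T') {R R' : Set V} (hR : R ⊆ R') :
    S.FF T R ≤ S.FF T' R' := by
  unfold FF
  refine iSup₂_le fun v hv => iSup₂_le fun s hs => ?_
  exact le_iSup₂_of_le v (hR hv) (le_iSup₂_of_le s (le_trans hs (hT v)) le_rfl)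

theorem Wt_le (t : ℝ≥0) : S.Wt t ≤ (inferInstance : MeasurableSpace (Om V)) := by
  unfold Wt
  exact iSup_le fun v => iSup₂_le fun s _ => (S.measurable_W s v).comap_le

theorem Winf_le : S.Winf ≤ (inferInstance : MeasurableSpace (Om V)) := by
  unfold Winf
  exact iSup_le fun t => S.Wt_le t

theorem LawA_measurable_XX_FF (T : V → ℝ≥0) (R : Set V) {v : V} (hv : v ∈ R) :
    Measurable[S.FF T R] (S.XX (T v) v) := by
  refine Measurable.mono (comap_measurable _) ?_ le_rfl
  unfold FF
  exact le_iSup₂_of_le v hv (le_iSup₂_of_le (T v) (le_refl (T v)) le_rfl)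

/-- `X_v(s)`, `s ≤ T v`, and functions of the field at times `T` are measurable w.r.t. `FF T`. -/
theorem measurable_XT_FF (T : V → ℝ≥0) : @Measurable _ _ (S.FF T Set.univ) _ (S.XT T) := by
  unfold XT
  exact (@measurable_pi_iff _ _ _ (S.FF T Set.univ) _ _).mpr fun v =>
    S.LawA_measurable_XX_FF T Set.univ (Set.mem_univ v)

theorem measurable_cav_FF (T : V → ℝ≥0) {x y : V} (hxy : S.G.Adj x y) :
    Measurable[S.FF T (branch S.G x y)] (fun ω => S.cav x y (S.XT T ω)) := by
  classical
  have h1 : (fun ω => S.cav x y (S.XT T ω)) =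
      fun ω => S.cav x y (fun v => if v ∈ branch S.G x y then S.XT T ω v else 0) := by
    funext ω
    refine S.cav_congr hxy fun z hz => ?_
    simp [hz]
  rw [h1]
  refine (S.measurable_cav x y).comp ?_
  refine (@measurable_pi_iff _ _ _ (S.FF T (branch S.G x y)) _ _).mpr fun v => ?_
  by_cases hv : v ∈ branch S.G x y
  · simp only [if_pos hv]
    exact S.LawA_measurable_XX_FF T _ hv
  · simp only [if_neg hv]
    exact measurable_const

end Setup
end Crest.Agent.R160
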