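import Crest.Agent.R160.LawA

/-! Row 160, piece LAW-B: action of automorphisms on `Om V`. -/

set_option autoImplicit false
open Finset Filter MeasureTheory ProbabilityTheory
open scoped Topology NNReal ENNReal

namespace Crest.Agent.R160

namespace LawBaux

theorem isProb_coin {p : ℝ} (h0 : 0 ≤ p) (h1 : p ≤ 1) : IsProbabilityMeasure (coin p) := by
  refine ⟨?_⟩
  unfold coin
  simp only [Measure.coe_add, Measure.coe_smul, Pi.add_apply, Pi.smul_apply, measure_univ,
    smul_eq_mul, mul_one]
  rw [← ENNReal.ofReal_add h0 (by linarith)]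
  simp

/-- the law of the coins -/
noncomputable abbrev cm {V : Type} [DecidableEq V] (S : Setup V) :
    Measure (Option (Sym2 V) → Bool) :=
  Measure.infinitePi fun o : Option (Sym2 V) => coin (o.elim (1 / 2) fun _ => (1 + S.θ) / 2)

instance isProb_cm_coin {V : Type} [DecidableEq V] (S : Setup V) (o : Option (Sym2 V)) :
    IsProbabilityMeasure (coin (o.elim (1 / 2) fun _ => (1 + S.θ) / 2)) := by
  have h1 := S.θpos
  have h2 := S.theta_lt_one
  cases o with
  | none =>
    exact isProb_coin (show (0 : ℝ) ≤ 1 / 2 by norm_num) (show (1 / 2 : ℝ) ≤ 1 by norm_num)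
  | some e =>
    exact isProb_coin (show 0 ≤ (1 + S.θ) / 2 by linarith) (show (1 + S.θ) / 2 ≤ 1 by linarith)

theorem coin_half_not : (coin (1 / 2)).map (fun b => !b) = coin (1 / 2) := by
  unfold coin
  rw [Measure.map_add _ _ (by fun_prop), Measure.map_smul, Measure.map_smul,
    Measure.map_dirac' (by fun_prop), Measure.map_dirac' (by fun_prop)]
  simp only [Bool.not_true, Bool.not_false]
  rw [add_comm]
  norm_num

/-- flip of the root coin -/
def flip {V : Type} (c : Option (Sym2 V) → Bool) : Option (Sym2 V) → Bool :=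
  fun o => match o with
    | none => !(c none)
    | some e => c (some e)

theorem measurePreserving_flip {V : Type} [DecidableEq V] (S : Setup V) :
    MeasurePreserving (flip (V := V)) (cm S) (cm S) := by
  have hf : flip (V := V) = fun c o => (fun o : Option (Sym2 V) => (match o with
    | none => fun b : Bool => !b
    | some _ => fun b : Bool => b : Bool → Bool)) o (c o) := by
    funext c o
    cases o <;> rfl
  have hm : ∀ o : Option (Sym2 V), Measurable ((fun o : Option (Sym2 V) => (match o with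
    | none => fun b : Bool => !b
    | some _ => fun b : Bool => b : Bool → Bool)) o) := fun o => by
    cases o <;> fun_prop
  refine ⟨?_, ?_⟩
  · rw [hf]
    exact measurable_pi_lambda _ fun o => (hm o).comp (measurable_pi_apply o)
  · rw [hf, cm, Measure.infinitePi_map_pi _ hm]
    congr 1
    funext o
    cases o with
    | none => exact coin_half_not
    | some e => exact Measure.map_id

/-- reindexing a product measure with equal marginals. -/
theorem measurePreserving_reindex {ι X : Type} [MeasurableSpace X] (μ : ι → Measure X)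
    [∀ i, IsProbabilityMeasure (μ i)] (e : ι ≃ ι) (he : ∀ i, μ (e i) = μ i) :
    MeasurePreserving (fun (c : ι → X) i => c (e i)) (Measure.infinitePi μ)
      (Measure.infinitePi μ) := by
  refine ⟨measurable_pi_lambda _ fun i => measurable_pi_apply _, ?_⟩
  have h := Measure.infinitePi_map_piCongrLeft (X := fun _ : ι => X) μ e.symm
  have h2 : (fun i => μ (e.symm i)) = μ := by
    funext i
    rw [← he (e.symm i), Equiv.apply_symm_apply]
  rw [h2] at h
  have h3 : ⇑(MeasurableEquiv.piCongrLeft (fun _ : ι => X) e.symm) =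
      (fun (c : ι → X) i => c (e i)) := by
    funext c i
    rw [MeasurableEquiv.coe_piCongrLeft]
    have := Equiv.piCongrLeft_apply (P := fun _ : ι => X) e.symm c i
    simpa using this
  rw [h3] at h
  exact h

theorem gmeas_neg : gmeas.map (fun ξ => -ξ) = gmeas := by
  have h : (fun ξ : ℕ → ℝ => -ξ) = fun ξ i => (fun _ : ℕ => fun x : ℝ => -x) i (ξ i) := by
    funext ξ i; rfl
  rw [h, gmeas, Measure.infinitePi_map_pi _ (fun i => by fun_prop)]
  congr 1
  funext i
  rw [gaussianReal_map_neg]
  simp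

/-- the action of a permutation on unordered pairs. -/
def symEquiv {V : Type} (e : V ≃ V) : Sym2 V ≃ Sym2 V where
  toFun := Sym2.map e
  invFun := Sym2.map e.symm
  left_inv x := by
    rw [Sym2.map_map]
    simp
  right_inv x := by
    rw [Sym2.map_map]
    simp

theorem integral_comp_mp {α : Type} {m : MeasurableSpace α} {μ : Measure α} {T : α → α}
    (hT : MeasurePreserving T μ μ) {g : α → ℝ} (hg : AEStronglyMeasurable g μ) :
    ∫ x, g (T x) ∂μ = ∫ x, g x ∂μ := by
  have := integral_map (μ := μ) (φ := T) (f := g) hT.measurable.aemeasurable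
    (by rw [hT.map_eq]; exact hg)
  rw [hT.map_eq] at this
  exact this.symm

theorem setIntegral_comp_mp {α : Type} {m : MeasurableSpace α} {μ : Measure α} {T : α → α}
    (hT : MeasurePreserving T μ μ) {g : α → ℝ} (hg : AEStronglyMeasurable g μ) {s : Set α}
    (hs : MeasurableSet s) :
    ∫ x in T ⁻¹' s, (g ∘ T) x ∂μ = ∫ x in s, g x ∂μ := by
  have := setIntegral_map (μ := μ) (g := T) (f := g) hs (by rw [hT.map_eq]; exact hg)
    hT.measurable.aemeasurable
  rw [hT.map_eq] at this
  exact this.symm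

theorem condExp_comp_mp {α : Type} {m𝓖 m : MeasurableSpace α} {μ : Measure α}
    [IsFiniteMeasure μ] (h𝓖 : m𝓖 ≤ m) {T : α → α}
    (hT : MeasurePreserving T μ μ) (hc : m𝓖.comap T = m𝓖) {f : α → ℝ} (hf : Integrable f μ) :
    μ[f ∘ T | m𝓖] =ᵐ[μ] (μ[f | m𝓖]) ∘ T := by
  have hT𝓖 : @Measurable _ _ m𝓖 m𝓖 T := by
    intro s hs
    have : MeasurableSet[m𝓖.comap T] (T ⁻¹' s) := ⟨s, hs, rfl⟩
    rwa [hc] at this
  symm
  refine ae_eq_condExp_of_forall_setIntegral_eq h𝓖 (hT.integrable_comp_of_integrable hf)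
    (fun s _ _ => (hT.integrable_comp_of_integrable integrable_condExp).integrableOn) ?_ ?_
  · intro s hs _
    have hs' := hs
    rw [← hc] at hs'
    obtain ⟨s', hs', rfl⟩ := hs'
    rw [setIntegral_comp_mp hT integrable_condExp.aestronglyMeasurable (h𝓖 _ hs'),
      setIntegral_comp_mp hT hf.aestronglyMeasurable (h𝓖 _ hs')]
    exact setIntegral_condExp h𝓖 hf hs'
  · exact (stronglyMeasurable_condExp.comp_measurable hT𝓖).aestronglyMeasurable

end LawBaux

namespace Setup

variable {V : Type} [DecidableEq V] [Countable V] (S : Setup V)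

/-! action of automorphisms -/

theorem spin_act (γ : S.G ≃g S.G) (v : V) (ω : Om V) : S.spin v (S.act γ ω) = S.spin (γ v) ω := by
  have h1 : sg ((S.act γ ω).1 none) = S.spin (γ S.o) ω := by
    show sg (decide (S.spin (γ S.o) ω = 1)) = _
    rcases S.spin_val (γ S.o) ω with h | h
    · rw [h]; simp [sg]
    · rw [h]; norm_num [sg]
  have h2 : ∏ i ∈ range (S.G.dist S.o v),
      sg ((S.act γ ω).1 (some s(geo S.G S.o v i, geo S.G S.o v (i + 1)))) =
      S.spin (γ S.o) ω * S.spin (γ v) ω := by
    rw [S.spin_path, S.dist_aut]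
    refine Finset.prod_congr rfl fun i hi => ?_
    rw [Finset.mem_range] at hi
    rw [S.geo_aut γ S.o v (by omega), S.geo_aut γ S.o v (by omega)]
    rfl
  show sg ((S.act γ ω).1 none) * ∏ i ∈ range (S.G.dist S.o v),
      sg ((S.act γ ω).1 (some s(geo S.G S.o v i, geo S.G S.o v (i + 1)))) = _
  rw [h1, h2, ← mul_assoc, ← pow_two, S.spin_sq, one_mul]

theorem XX_act (γ : S.G ≃g S.G) (t : ℝ≥0) (v : V) (ω : Om V) :
    S.XX t v (S.act γ ω) = S.XX t (γ v) ω := by
  unfold XX
  rw [S.spin_act]
  rfl

theorem Xt_act (γ : S.G ≃g S.G) (t : ℝ≥0) (ω : Om V) : S.Xt t (S.act γ ω) = S.Xt t ω ∘ γ := by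
  funext v
  exact S.XX_act γ t v ω

theorem m_act (γ : S.G ≃g S.G) (t : ℝ≥0) (v : V) (ω : Om V) :
    S.m t v (S.act γ ω) = S.m t (γ v) ω := by
  unfold m
  rw [S.Xt_act, S.mag_aut]

theorem A_act (γ : S.G ≃g S.G) (t : ℝ≥0) (v u : V) (ω : Om V) :
    S.A t v u (S.act γ ω) = S.A t (γ v) (γ u) ω := by
  unfold A
  rw [S.Xt_act, S.cv_aut]

theorem W_act (γ : S.G ≃g S.G) (t : ℝ≥0) (v : V) (ω : Om V) :
    S.W t v (S.act γ ω) = S.W t (γ v) ω := by
  unfold W Iint
  rw [S.XX_act]
  congr 2
  funext n
  unfold Iriem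
  simp only [S.m_act]

theorem measurePreserving_act (γ : S.G ≃g S.G) : MeasurePreserving (S.act γ) S.P S.P := by
  -- the sign
  let D : (Option (Sym2 V) → Bool) → ℝ := fun c =>
    ∏ i ∈ range (S.G.dist S.o (γ S.o)), sg (c (some s(geo S.G S.o (γ S.o) i,
      geo S.G S.o (γ S.o) (i + 1))))
  have hDm : Measurable D := by
    refine Finset.measurable_prod _ fun i _ => ?_
    exact (measurable_of_countable sg).comp (measurable_pi_apply _)
  have hDf : ∀ c, D (LawBaux.flip c) = D c := fun c => rfl
  let Φ : (Option (Sym2 V) → Bool) → (Option (Sym2 V) → Bool) := fun c =>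
    if D c = 1 then c else LawBaux.flip c
  have hflip := LawBaux.measurePreserving_flip S
  have hset : MeasurableSet {c | D c = 1} := hDm (measurableSet_singleton 1)
  have hΦ : MeasurePreserving Φ (LawBaux.cm S) (LawBaux.cm S) := by
    have hΦm : Measurable Φ := Measurable.ite hset measurable_id hflip.measurable
    refine ⟨hΦm, ?_⟩
    ext A hA
    rw [Measure.map_apply hΦm hA]
    have e1 : Φ ⁻¹' A = (A ∩ {c | D c = 1}) ∪ (LawBaux.flip ⁻¹' (A \ {c | D c = 1})) := by
      ext c
      simp only [Set.mem_preimage, Set.mem_union, Set.mem_inter_iff, Set.mem_ofPred_eq,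
        Set.mem_sdiff, hDf, Φ]
      by_cases h : D c = 1 <;> simp [h]
    have hd : Disjoint (A ∩ {c | D c = 1}) (LawBaux.flip ⁻¹' (A \ {c | D c = 1})) := by
      rw [Set.disjoint_left]
      rintro c ⟨_, h1⟩ ⟨_, h2⟩
      exact h2 (by rw [Set.mem_ofPred_eq, hDf]; exact h1)
    rw [e1, measure_union hd (hflip.measurable (hA.diff hset)),
      hflip.measure_preimage (hA.diff hset).nullMeasurableSet, measure_inter_add_sdiff _ hset]
  let e : Option (Sym2 V) ≃ Option (Sym2 V) := Equiv.optionCongr (LawBaux.symEquiv γ.toEquiv)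
  have hre : MeasurePreserving (fun (c : Option (Sym2 V) → Bool) i => c (e i)) (LawBaux.cm S)
      (LawBaux.cm S) := by
    refine LawBaux.measurePreserving_reindex _ e fun i => ?_
    cases i <;> rfl
  have hB : MeasurePreserving (fun (c : V → ℕ → ℝ) v => c (γ v))
      (Measure.infinitePi fun _ : V => gmeas) (Measure.infinitePi fun _ : V => gmeas) :=
    LawBaux.measurePreserving_reindex _ γ.toEquiv fun i => rfl
  have h := (hre.comp hΦ).prod hB
  have hact : S.act γ = Prod.map ((fun (c : Option (Sym2 V) → Bool) i => c (e i)) ∘ Φ)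
      (fun (c : V → ℕ → ℝ) v => c (γ v)) := by
    funext ω
    refine Prod.ext ?_ rfl
    funext o
    cases o with
    | some x =>
      show ω.1 (some (x.map γ)) = Φ ω.1 (some (x.map γ))
      simp only [Φ]
      split_ifs <;> rfl
    | none =>
      show decide (S.spin (γ S.o) ω = 1) = Φ ω.1 none
      have hs : S.spin (γ S.o) ω = sg (ω.1 none) * D ω.1 := rfl
      have hD : D ω.1 = 1 ∨ D ω.1 = -1 := by
        have := S.spin_val (γ S.o) ω
        rw [hs] at this
        unfold sg at this
        split_ifs at this <;> rcases this with h | h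
        · left; linarith
        · right; linarith
        · right; linarith
        · left; linarith
      rw [hs]
      rcases hD with h | h
      · simp only [Φ, h, if_true, mul_one]
        cases ω.1 none <;> norm_num [sg]
      · have h' : ¬ D ω.1 = 1 := by rw [h]; norm_num
        simp only [Φ, h', if_false]
        show _ = !(ω.1 none)
        rw [h]
        cases ω.1 none <;> norm_num [sg]
  rw [hact]
  exact h

/-- a sub-sigma-algebra invariant under all automorphisms. -/
def Inv (𝓖 : MeasurableSpace (Om V)) : Prop := ∀ γ : S.G ≃g S.G, 𝓖.comap (S.act γ) = 𝓖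

theorem inv_Wt (t : ℝ≥0) : S.Inv (S.Wt t) := by
  intro γ
  unfold Wt
  rw [MeasurableSpace.comap_iSup]
  have h : ∀ v : V, (⨆ s ∈ Set.Iic t, MeasurableSpace.comap (S.W s v) inferInstance).comap
      (S.act γ) = ⨆ s ∈ Set.Iic t, MeasurableSpace.comap (S.W s (γ v)) inferInstance := by
    intro v
    rw [MeasurableSpace.comap_iSup]
    refine iSup_congr fun s => ?_
    rw [MeasurableSpace.comap_iSup]
    refine iSup_congr fun hs => ?_
    rw [MeasurableSpace.comap_comp]
    congr 1
    funext ω
    exact S.W_act γ s v ω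
  simp only [h]
  exact γ.toEquiv.surjective.iSup_comp
    (fun v => ⨆ s ∈ Set.Iic t, MeasurableSpace.comap (S.W s v) inferInstance)

/-- conditional expectations given an invariant sigma-algebra are equivariant. -/
theorem condExp_act {𝓖 : MeasurableSpace (Om V)} (h𝓖 : 𝓖 ≤ mOm V) (hinv : S.Inv 𝓖)
    (γ : S.G ≃g S.G) {f : Om V → ℝ} (hf : Integrable f S.P) :
    S.P[f ∘ S.act γ | 𝓖] =ᵐ[S.P] (S.P[f | 𝓖]) ∘ S.act γ := by
  exact LawBaux.condExp_comp_mp h𝓖 (S.measurePreserving_act γ) (hinv γ) hf

theorem V2_act {𝓖 : MeasurableSpace (Om V)} (h𝓖 : 𝓖 ≤ mOm V) (hinv : S.Inv 𝓖)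
    (γ : S.G ≃g S.G) {f : Om V → ℝ} (hf : MemLp f 2 S.P) : S.V2 𝓖 (f ∘ S.act γ) = S.V2 𝓖 f := by
  have hγ := S.measurePreserving_act γ
  have hfi : Integrable f S.P := hf.integrable (by norm_num)
  unfold V2
  congr 1
  congr 1
  · exact LawBaux.integral_comp_mp hγ (g := fun ω => f ω ^ 2) (hf.aestronglyMeasurable.pow 2)
  · rw [integral_congr_ae (g := fun ω => (S.P[f | 𝓖] (S.act γ ω)) ^ 2)]
    · exact LawBaux.integral_comp_mp hγ (g := fun ω => (S.P[f | 𝓖] ω) ^ 2)
        (integrable_condExp.aestronglyMeasurable.pow 2)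
    · filter_upwards [S.condExp_act h𝓖 hinv γ hfi] with ω hω
      rw [hω]
      rfl

/-- the global flip: spins and Brownian motions change sign. -/
theorem exists_flip : ∃ F : Om V → Om V, MeasurePreserving F S.P S.P ∧
    (∀ v ω, S.spin v (F ω) = - S.spin v ω) ∧ (∀ t v ω, S.XX t v (F ω) = - S.XX t v ω) := by
  refine ⟨Prod.map LawBaux.flip (fun (c : V → ℕ → ℝ) v => - c v), ?_, ?_⟩
  · refine (LawBaux.measurePreserving_flip S).prod ?_
    refine ⟨measurable_pi_lambda _ fun v => (measurable_pi_apply v).neg, ?_⟩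
    have := Measure.infinitePi_map_pi (μ := fun _ : V => gmeas) (f := fun _ ξ => -ξ)
      (fun i => measurable_neg)
    rw [this]
    congr 1
    funext v
    exact LawBaux.gmeas_neg
  · have h1 : ∀ v (ω : Om V), S.spin v (Prod.map LawBaux.flip (fun (c : V → ℕ → ℝ) v => - c v) ω) =
        - S.spin v ω := by
      intro v ω
      show sg (!(ω.1 none)) * _ = - (sg (ω.1 none) * _)
      rw [← neg_mul]
      congr 1
      cases ω.1 none <;> norm_num [sg]
    refine ⟨h1, fun t v ω => ?_⟩
    unfold XX B
    rw [h1]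
    show _ + S.β.b t (- (ω.2 v)) = _
    rw [S.β.odd]
    ring

end Setup
end Crest.Agent.R160
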