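import Crest.Agent.R160.Osgood

/-! Row 160, piece MICALC: the pure calculus in the static inequality.

`L = 1 + log (4 / D) ≥ 1` for `0 < D ≤ 4`, so `phi4 D = D * L`. -/

set_option autoImplicit false
open Filter
open scoped Topology

namespace Crest.Agent.R160

theorem phi4_mono {x y : ℝ} (hx : 0 ≤ x) (hxy : x ≤ y) (hy : y ≤ 4) : phi4 x ≤ phi4 y :=
  OsgoodAux.phi4_mono hx hxy hy

theorem le_phi4 {x : ℝ} (hx : 0 ≤ x) (hx4 : x ≤ 4) : x ≤ phi4 x := by
  unfold phi4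
  rcases hx.eq_or_lt with h | h
  · rw [← h]; simp
  · have h1 : 0 ≤ Real.log (4 / x) := Real.log_nonneg (by rw [le_div_iff₀ h]; linarith)
    nlinarith [mul_nonneg hx h1]

/-- `min D ε ≤ phi4 D / (1 + log (4 / ε))` (monotonicity of `phi4`). -/
theorem min_le_phi4 {D ε : ℝ} (hD : 0 ≤ D) (hD4 : D ≤ 4) (hε : 0 < ε) (hε4 : ε ≤ 4) :
    min D ε ≤ phi4 D / (1 + Real.log (4 / ε)) := by
  have h0 : 0 ≤ Real.log (4 / ε) := Real.log_nonneg (by rw [le_div_iff₀ hε]; linarith)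
  rw [le_div_iff₀ (by linarith)]
  rcases hD.eq_or_lt with h | h
  · rw [← h, min_eq_left hε.le]
    simp [phi4]
  · have hm : 0 < min D ε := lt_min h hε
    refine le_trans ?_ (phi4_mono hm.le (min_le_left D ε) hD4)
    unfold phi4
    refine mul_le_mul_of_nonneg_left ?_ hm.le
    have : Real.log (4 / ε) ≤ Real.log (4 / min D ε) := by
      refine Real.log_le_log (by positivity) ?_
      exact div_le_div_of_nonneg_left (by norm_num) hm (min_le_right D ε)
    linarith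

namespace MICalcAux

theorem log4D_nonneg {D : ℝ} (hD : 0 < D) (hD4 : D ≤ 4) : 0 ≤ Real.log (4 / D) :=
  Real.log_nonneg (by rw [le_div_iff₀ hD]; linarith)

theorem D_eq {D : ℝ} (hD : 0 < D) : D = 4 * Real.exp (-Real.log (4 / D)) := by
  rw [Real.exp_neg, Real.exp_log (by positivity)]
  field_simp

theorem inv_min_le {t : ℝ} (ht : 0 < t) : 1 / min 1 t ≤ 1 + 1 / t := by
  have h2 : 0 < 1 / t := by positivity
  rcases le_total 1 t with h | h
  · rw [min_eq_left h]; linarith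
  · rw [min_eq_right h]; linarith

theorem log1_nonneg {t : ℝ} (ht : 0 < t) : 0 ≤ Real.log (1 + 1 / t) :=
  Real.log_nonneg (by have : 0 < 1 / t := by positivity
                      linarith)

theorem min_ge {t : ℝ} (ht : 0 < t) : Real.exp (-Real.log (1 + 1 / t)) ≤ min 1 t := by
  have h2 : 0 < 1 / t := by positivity
  have hm : 0 < min 1 t := lt_min one_pos ht
  rw [Real.exp_neg, Real.exp_log (by positivity)]
  have := inv_min_le ht
  rw [div_le_iff₀ hm] at this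
  rw [inv_le_iff_one_le_mul₀ (by positivity)]
  linarith

end MICalcAux

open MICalcAux

/-- CALC-A: choice of `kmax` for the tail. Take `c * M ≥ 1 + log (1/c)`. -/
theorem calc_tail {c : ℝ} (hc : 0 < c) (hc1 : c < 1) : ∃ M : ℝ, 0 < M ∧ ∀ t D : ℝ, 0 < t → 0 < D →
    D ≤ 4 → ∀ k : ℕ, M / min 1 t * (1 + Real.log (4 / D) + Real.log (1 + 1 / t)) ≤ k →
    4 * (1 - c * min 1 t) ^ (k + 1) / (c * min 1 t) ≤ D := by
  have hlc : 0 ≤ -Real.log c := by
    have := Real.log_nonpos hc.le hc1.le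
    linarith
  refine ⟨(1 - Real.log c) / c, by apply div_pos _ hc; linarith, ?_⟩
  intro t D ht hD hD4 k hk
  have hm : 0 < min 1 t := lt_min one_pos ht
  have hm1 : min 1 t ≤ 1 := min_le_left _ _
  set u := min 1 t with hu
  set Λ := Real.log (4 / D) with hΛ
  set l := Real.log (1 + 1 / t) with hl
  have hΛ0 : 0 ≤ Λ := log4D_nonneg hD hD4
  have hl0 : 0 ≤ l := log1_nonneg ht
  have hcu : c * u < 1 := by nlinarith
  have hcu0 : 0 < c * u := by positivity
  rw [div_le_iff₀ hcu0]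
  have h1 : (1 - c * u) ^ (k + 1) ≤ Real.exp (-(c * u * k)) := by
    have h2 : 1 - c * u ≤ Real.exp (-(c * u)) := by
      have := Real.add_one_le_exp (-(c * u))
      linarith
    calc (1 - c * u) ^ (k + 1) ≤ (Real.exp (-(c * u))) ^ (k + 1) :=
          pow_le_pow_left₀ (by linarith) h2 _
      _ ≤ (Real.exp (-(c * u))) ^ k := by
          apply pow_le_pow_of_le_one (Real.exp_pos _).le _ (Nat.le_succ k)
          rw [Real.exp_le_one_iff]; linarith
      _ = Real.exp (-(c * u * k)) := by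
          rw [← Real.exp_nat_mul]; congr 1; ring
  have h3 : (1 - Real.log c) * (1 + Λ + l) ≤ c * u * k := by
    have := mul_le_mul_of_nonneg_left hk hcu0.le
    refine le_trans (le_of_eq ?_) this
    field_simp
  have h4 : -Real.log c + Λ + l ≤ c * u * k := by
    have h5 : 0 ≤ (-Real.log c) * (Λ + l) := mul_nonneg hlc (by linarith)
    nlinarith
  have h6 : Real.exp (-(c * u * k)) ≤ c * Real.exp (-Λ) * Real.exp (-l) := by
    calc Real.exp (-(c * u * k)) ≤ Real.exp (Real.log c + (-Λ) + (-l)) :=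
          Real.exp_le_exp.mpr (by linarith)
      _ = c * Real.exp (-Λ) * Real.exp (-l) := by
          rw [Real.exp_add, Real.exp_add, Real.exp_log hc]
  have h7 : Real.exp (-l) ≤ u := min_ge ht
  have h8 : D = 4 * Real.exp (-Λ) := D_eq hD
  calc 4 * (1 - c * u) ^ (k + 1) ≤ 4 * (c * Real.exp (-Λ) * Real.exp (-l)) := by
        have := h1.trans h6
        linarith
    _ ≤ 4 * (c * Real.exp (-Λ) * u) := by
        have := mul_le_mul_of_nonneg_left h7 (by positivity : 0 ≤ c * Real.exp (-Λ))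
        linarith
    _ = D * (c * u) := by
        conv_rhs => rw [h8]
        ring

set_option maxHeartbeats 1000000 in
/-- CALC-B: choice of `K = 2 * K2` for the concentration. `log` of the left side is at most
`C (1 + log (4/D)) (1 + 1/t)^2 - c ((2 + log (4/D)) (1 + 1/t))^(M log 2)`. -/
theorem calc_conc {c M1 d : ℝ} (hc : 0 < c) (hM1 : 0 < M1) (hd : 3 ≤ d) : ∃ M : ℝ, 0 < M ∧
    ∀ t D : ℝ, 0 < t → 0 < D → D ≤ 4 → ∀ kmax K2 : ℕ,
    (kmax : ℝ) ≤ M1 / min 1 t * (1 + Real.log (4 / D) + Real.log (1 + 1 / t)) + 1 →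
    M * (Real.log (2 + Real.log (4 / D)) + Real.log (1 + 1 / t)) ≤ K2 →
    72 * (kmax + 1) * (d - 1) ^ kmax * Real.exp (-c * (d - 1) ^ K2) ≤ D := by
  set b := Real.log (d - 1) with hb
  have hb0 : 0 < b := Real.log_pos (by linarith)
  set C0 := 72 + M1 + 2 + b * M1 + b + 1 with hC0
  have hC0p : 0 < C0 := by positivity
  obtain ⟨q, hq⟩ : ∃ q : ℕ, C0 / c ≤ 2 ^ q := by
    obtain ⟨q, hq⟩ := exists_nat_gt (C0 / c)
    refine ⟨q, hq.le.trans ?_⟩
    exact_mod_cast (Nat.lt_two_pow_self (n := q)).le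
  refine ⟨((2 + q : ℕ) : ℝ) / b, by positivity, ?_⟩
  intro t D ht hD hD4 kmax K2 hk hK
  set u := min 1 t with hu
  have hm : 0 < u := lt_min one_pos ht
  set Λ := Real.log (4 / D) with hΛ
  set l := Real.log (1 + 1 / t) with hl
  have hΛ0 : 0 ≤ Λ := log4D_nonneg hD hD4
  have hl0 : 0 ≤ l := log1_nonneg ht
  set x := 2 + Λ with hx
  set y := 1 + 1 / t with hy
  have hy1 : 1 ≤ y := by
    have : 0 < 1 / t := by positivity
    linarith
  have hx2 : 2 ≤ x := by linarith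
  have hly : l ≤ y - 1 := Real.log_le_sub_one_of_pos (by linarith)
  set z := x * y with hz
  have hz2 : 2 ≤ z := by nlinarith
  have hyz : y ≤ z := by nlinarith
  have hxz : x ≤ z := by nlinarith
  have hlogz : Real.log z = Real.log x + l := by
    rw [hz, Real.log_mul (by linarith) (by linarith)]
  have hk1 : (kmax : ℝ) ≤ M1 * z ^ 2 + 1 := by
    refine hk.trans ?_
    have h1 : M1 / u ≤ M1 * y := by
      have := mul_le_mul_of_nonneg_left (inv_min_le ht) hM1.le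
      calc M1 / u = M1 * (1 / u) := by ring
        _ ≤ M1 * y := this
    have h2 : 1 + Λ + l ≤ z := by nlinarith
    have h3 : M1 / u * (1 + Λ + l) ≤ (M1 * y) * z :=
      mul_le_mul h1 h2 (by linarith) (by positivity)
    have h4 : (M1 * y) * z ≤ M1 * z ^ 2 := by
      have := mul_le_mul_of_nonneg_left hyz (by positivity : 0 ≤ M1 * z)
      nlinarith
    linarith
  have hdpos : 0 < d - 1 := by linarith
  have hpow : ∀ n : ℕ, (d - 1) ^ n = Real.exp (b * n) := by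
    intro n
    rw [mul_comm, Real.exp_nat_mul, hb, Real.exp_log hdpos]
  have hK1 : z ^ (2 + q) ≤ (d - 1) ^ K2 := by
    rw [hpow]
    have h1 : ((2 + q : ℕ) : ℝ) * Real.log z ≤ b * K2 := by
      have := mul_le_mul_of_nonneg_left hK hb0.le
      rw [hlogz]
      refine le_trans (le_of_eq ?_) this
      field_simp
    calc z ^ (2 + q) = Real.exp (((2 + q : ℕ) : ℝ) * Real.log z) := by
          rw [Real.exp_nat_mul, Real.exp_log (by linarith)]
      _ ≤ Real.exp (b * K2) := Real.exp_le_exp.mpr h1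
  have hz1 : C0 * z ^ 2 ≤ c * z ^ (2 + q) := by
    have h1 : (2 : ℝ) ^ q ≤ z ^ q := pow_le_pow_left₀ (by norm_num) hz2 _
    have h2 : C0 / c ≤ z ^ q := hq.trans h1
    rw [div_le_iff₀ hc] at h2
    have := mul_le_mul_of_nonneg_right h2 (by positivity : 0 ≤ z ^ 2)
    calc C0 * z ^ 2 ≤ z ^ q * c * z ^ 2 := this
      _ = c * z ^ (2 + q) := by rw [pow_add]; ring
  have hzsq : 1 ≤ z ^ 2 := by nlinarith
  have e1 : (kmax : ℝ) + 1 ≤ Real.exp (M1 * z ^ 2 + 1) := by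
    have := Real.add_one_le_exp (M1 * z ^ 2 + 1)
    linarith
  have e2 : (d - 1) ^ kmax ≤ Real.exp (b * (M1 * z ^ 2 + 1)) := by
    rw [hpow]
    exact Real.exp_le_exp.mpr (mul_le_mul_of_nonneg_left hk1 hb0.le)
  have e3 : Real.exp (-c * (d - 1) ^ K2) ≤ Real.exp (-(C0 * z ^ 2)) := by
    apply Real.exp_le_exp.mpr
    have := mul_le_mul_of_nonneg_left hK1 hc.le
    linarith
  have e4 : (72 : ℝ) ≤ 4 * Real.exp 72 := by
    have := Real.add_one_le_exp (72 : ℝ)
    linarith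
  have h8 : D = 4 * Real.exp (-Λ) := D_eq hD
  have hdk : 0 ≤ (d - 1) ^ kmax := by positivity
  calc 72 * (kmax + 1) * (d - 1) ^ kmax * Real.exp (-c * (d - 1) ^ K2)
      ≤ (4 * Real.exp 72) * Real.exp (M1 * z ^ 2 + 1) * Real.exp (b * (M1 * z ^ 2 + 1)) *
          Real.exp (-(C0 * z ^ 2)) := by
        gcongr
    _ = 4 * Real.exp (72 + (M1 * z ^ 2 + 1) + b * (M1 * z ^ 2 + 1) + -(C0 * z ^ 2)) := by
        generalize M1 * z ^ 2 + 1 = A1
        generalize -(C0 * z ^ 2) = A3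
        generalize b * A1 = A2
        rw [Real.exp_add, Real.exp_add, Real.exp_add]; ring
    _ ≤ 4 * Real.exp (-Λ) := by
        have : 72 + (M1 * z ^ 2 + 1) + b * (M1 * z ^ 2 + 1) + -(C0 * z ^ 2) ≤ -Λ := by
          have hzz : z ≤ z ^ 2 := by
            have := mul_le_mul_of_nonneg_right hz2 (by linarith : 0 ≤ z)
            rw [sq]; linarith
          have hΛz : Λ ≤ z ^ 2 := by linarith
          have hbz : b * 1 ≤ b * z ^ 2 := mul_le_mul_of_nonneg_left hzsq hb0.le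
          have hexp : C0 * z ^ 2 = 72 * z ^ 2 + M1 * z ^ 2 + 2 * z ^ 2 + b * (M1 * z ^ 2) + b * z ^ 2 +
              z ^ 2 := by rw [hC0]; ring
          have hexp2 : b * (M1 * z ^ 2 + 1) = b * (M1 * z ^ 2) + b * 1 := by ring
          rw [hexp, hexp2]
          linarith
        have := Real.exp_le_exp.mpr this
        linarith
    _ = D := h8.symm

/-- the right hand side of the refined bound. -/
noncomputable def nearR (c t D k : ℝ) : ℝ :=
  D + k * (t ^ (1 / 4 : ℝ) * D + min D (Real.exp (-c * t ^ (-(1 / 8) : ℝ)))) +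
    (k + 1) ^ 2 * min D ((k + 1) * Real.exp (-c / t))

theorem nearR_mono {c t D k k' : ℝ} (ht : 0 ≤ t) (hD : 0 ≤ D) (hk : 0 ≤ k) (hkk : k ≤ k') :
    nearR c t D k ≤ nearR c t D k' := by
  unfold nearR
  have h1 : 0 ≤ t ^ (1 / 4 : ℝ) * D + min D (Real.exp (-c * t ^ (-(1 / 8) : ℝ))) := by
    have : 0 ≤ min D (Real.exp (-c * t ^ (-(1 / 8) : ℝ))) := le_min hD (Real.exp_pos _).le
    positivity
  have h2 : 0 ≤ min D ((k + 1) * Real.exp (-c / t)) := le_min hD (by positivity)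
  have h3 : min D ((k + 1) * Real.exp (-c / t)) ≤ min D ((k' + 1) * Real.exp (-c / t)) := by
    apply min_le_min_left
    have := Real.exp_pos (-c / t)
    nlinarith
  have h4 : (k + 1) ^ 2 ≤ (k' + 1) ^ 2 := by nlinarith
  have h5 := mul_le_mul_of_nonneg_right hkk h1
  have h6 : (k + 1) ^ 2 * min D ((k + 1) * Real.exp (-c / t)) ≤
      (k' + 1) ^ 2 * min D ((k' + 1) * Real.exp (-c / t)) :=
    mul_le_mul h4 h3 h2 (by positivity)
  linarith

namespace MICalcAux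

theorem cube_log_le {x : ℝ} (hx : 0 ≤ x) : (1 + Real.log (2 + x)) ^ 3 ≤ 36 * (1 + x) := by
  have hl : 0 ≤ Real.log (2 + x) := Real.log_nonneg (by linarith)
  have h := Real.pow_div_factorial_le_exp (1 + Real.log (2 + x)) (by linarith) 3
  rw [Real.exp_add, Real.exp_log (by linarith)] at h
  have h3 : ((3 : ℕ).factorial : ℝ) = 6 := by norm_num [Nat.factorial]
  rw [h3, div_le_iff₀ (by norm_num)] at h
  have he : Real.exp 1 ≤ 3 := by
    have := Real.exp_one_lt_d9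
    linarith
  have : Real.exp 1 * (2 + x) ≤ 3 * (2 + x) := mul_le_mul_of_nonneg_right he (by linarith)
  linarith

theorem min_le' {D E X : ℝ} (hD : 0 ≤ D) (hD4 : D ≤ 4) (hE : 0 < E) (hX : 0 < X)
    (h : X ≤ max 1 (1 + Real.log (4 / E))) : min D E ≤ phi4 D / X := by
  have hφ : 0 ≤ phi4 D := OsgoodAux.phi4_nonneg hD hD4
  rcases le_total E 4 with h4 | h4
  · have hl : 0 ≤ Real.log (4 / E) := log4D_nonneg hE h4
    rw [max_eq_right (by linarith)] at h
    exact (min_le_phi4 hD hD4 hE h4).trans (div_le_div_of_nonneg_left hφ hX h)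
  · have hl : Real.log (4 / E) ≤ 0 := Real.log_nonpos (by positivity) (by rw [div_le_one hE]; exact h4)
    rw [max_eq_left (by linarith)] at h
    refine (min_le_left D E).trans ((le_phi4 hD hD4).trans ?_)
    rw [le_div_iff₀ hX]
    nlinarith

theorem log1_le {w : ℝ} (hw : 0 < w) : Real.log (1 + w ^ 8) ≤ 2 * w ^ 4 := by
  have h1 : 1 + w ^ 8 ≤ (1 + w ^ 4) ^ 2 := by nlinarith [pow_pos hw 4]
  have h2 := Real.log_le_log (by positivity) h1
  rw [Real.log_pow] at h2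
  have h3 : Real.log (1 + w ^ 4) ≤ w ^ 4 := by
    have := Real.log_le_sub_one_of_pos (by positivity : 0 < 1 + w ^ 4)
    linarith
  push_cast at h2
  linarith

/-- the near estimate in the variable `w = t^(-1/8)`, Case C. -/
theorem near_small {c R A w D k : ℝ} (hc : 0 < c) (hA : 0 < A) (hw : 0 < w)
    (hRw : 1 ≤ R * w) (hD : 0 < D) (hD4 : D ≤ 4) (hk : 0 ≤ k) (hkA : k + 1 ≤ A * w ^ 4) :
    k * (D + k * ((w⁻¹) ^ 2 * D + min D (Real.exp (-c * w))) +
      (k + 1) ^ 2 * min D ((k + 1) * Real.exp (-c * w ^ 8))) ≤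
    (A * R ^ 3 + A ^ 2 * R + A ^ 2 / c + A ^ 3 / (c / 2 / (1 + A ^ 2 / (2 * c))) * R ^ 3) *
      (w ^ 7 * phi4 D) := by
  have hφ : 0 ≤ phi4 D := OsgoodAux.phi4_nonneg hD.le hD4
  have hDφ : D ≤ phi4 D := le_phi4 hD.le hD4
  set c' := c / 2 / (1 + A ^ 2 / (2 * c)) with hc'
  have hc'0 : 0 < c' := by positivity
  have hk1 : k ≤ A * w ^ 4 := by linarith
  have hw4 : 0 < w ^ 4 := by positivity
  have hRw3 : 1 ≤ R ^ 3 * w ^ 3 := by
    rw [← mul_pow]; exact one_le_pow₀ hRw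
  -- e1
  have hm1 : min D (Real.exp (-c * w)) ≤ phi4 D / (c * w) := by
    apply min_le' hD.le hD4 (Real.exp_pos _) (by positivity)
    refine le_trans ?_ (le_max_right _ _)
    rw [Real.log_div (by norm_num) (Real.exp_pos _).ne', Real.log_exp]
    have : 0 ≤ Real.log 4 := Real.log_nonneg (by norm_num)
    linarith
  have hm2 : min D ((k + 1) * Real.exp (-c * w ^ 8)) ≤ phi4 D / (c' * w ^ 8) := by
    apply min_le' hD.le hD4 (by positivity) (by positivity)
    set m := max 1 (1 + Real.log (4 / ((k + 1) * Real.exp (-c * w ^ 8)))) with hm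
    have hm1 : 1 ≤ m := le_max_left _ _
    have hm2 : c * w ^ 8 - A * w ^ 4 ≤ m := by
      refine le_trans ?_ (le_max_right _ _)
      rw [Real.log_div (by norm_num) (by positivity), Real.log_mul (by positivity) (Real.exp_pos _).ne',
        Real.log_exp]
      have h1 : 0 ≤ Real.log 4 := Real.log_nonneg (by norm_num)
      have h2 : Real.log (k + 1) ≤ k := by
        have := Real.log_le_sub_one_of_pos (by linarith : 0 < k + 1)
        linarith
      linarith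
    have hamgm : A * w ^ 4 ≤ c * w ^ 8 / 2 + A ^ 2 / (2 * c) := by
      have h1 : 0 ≤ (c * w ^ 4 - A) ^ 2 / (2 * c) := by positivity
      have h2 : (c * w ^ 4 - A) ^ 2 / (2 * c) = c * w ^ 8 / 2 + A ^ 2 / (2 * c) - A * w ^ 4 := by
        field_simp; ring
      linarith
    have h3 : c / 2 * w ^ 8 ≤ m * (1 + A ^ 2 / (2 * c)) := by
      have h4 : A ^ 2 / (2 * c) ≤ m * (A ^ 2 / (2 * c)) := by
        have : 0 ≤ A ^ 2 / (2 * c) := by positivity
        nlinarith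
      linarith
    have h5 : c' * w ^ 8 = c / 2 * w ^ 8 / (1 + A ^ 2 / (2 * c)) := by
      rw [hc']; ring
    rw [h5, div_le_iff₀ (by positivity)]
    exact h3
  have t1 : k * D ≤ A * R ^ 3 * (w ^ 7 * phi4 D) := by
    calc k * D ≤ (A * w ^ 4) * phi4 D := mul_le_mul hk1 hDφ hD.le (by positivity)
      _ = (A * w ^ 4 * phi4 D) * 1 := by ring
      _ ≤ (A * w ^ 4 * phi4 D) * (R ^ 3 * w ^ 3) :=
          mul_le_mul_of_nonneg_left hRw3 (by positivity)
      _ = A * R ^ 3 * (w ^ 7 * phi4 D) := by ring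
  have hk2 : k ^ 2 ≤ A ^ 2 * w ^ 8 := by
    calc k ^ 2 ≤ (A * w ^ 4) ^ 2 := pow_le_pow_left₀ hk hk1 2
      _ = A ^ 2 * w ^ 8 := by ring
  have t2 : k ^ 2 * ((w⁻¹) ^ 2 * D) ≤ A ^ 2 * R * (w ^ 7 * phi4 D) := by
    calc k ^ 2 * ((w⁻¹) ^ 2 * D) ≤ (A ^ 2 * w ^ 8) * ((w⁻¹) ^ 2 * phi4 D) :=
          mul_le_mul hk2 (mul_le_mul_of_nonneg_left hDφ (by positivity)) (by positivity) (by positivity)
      _ = (A ^ 2 * w ^ 6 * phi4 D) * 1 := by field_simp
      _ ≤ (A ^ 2 * w ^ 6 * phi4 D) * (R * w) :=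
          mul_le_mul_of_nonneg_left hRw (by positivity)
      _ = A ^ 2 * R * (w ^ 7 * phi4 D) := by ring
  have t3 : k ^ 2 * min D (Real.exp (-c * w)) ≤ A ^ 2 / c * (w ^ 7 * phi4 D) := by
    calc k ^ 2 * min D (Real.exp (-c * w)) ≤ (A ^ 2 * w ^ 8) * (phi4 D / (c * w)) :=
          mul_le_mul hk2 hm1 (le_min hD.le (Real.exp_pos _).le) (by positivity)
      _ = A ^ 2 / c * (w ^ 7 * phi4 D) := by field_simp
  have hk3 : k * (k + 1) ^ 2 ≤ A ^ 3 * w ^ 12 := by
    calc k * (k + 1) ^ 2 ≤ (A * w ^ 4) * (A * w ^ 4) ^ 2 :=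
          mul_le_mul hk1 (pow_le_pow_left₀ (by linarith) hkA 2) (by positivity) (by positivity)
      _ = A ^ 3 * w ^ 12 := by ring
  have t4 : k * (k + 1) ^ 2 * min D ((k + 1) * Real.exp (-c * w ^ 8)) ≤
      A ^ 3 / c' * R ^ 3 * (w ^ 7 * phi4 D) := by
    calc k * (k + 1) ^ 2 * min D ((k + 1) * Real.exp (-c * w ^ 8))
        ≤ (A ^ 3 * w ^ 12) * (phi4 D / (c' * w ^ 8)) :=
          mul_le_mul hk3 hm2 (le_min hD.le (by positivity)) (by positivity)
      _ = (A ^ 3 / c' * w ^ 4 * phi4 D) * 1 := by field_simp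
      _ ≤ (A ^ 3 / c' * w ^ 4 * phi4 D) * (R ^ 3 * w ^ 3) :=
          mul_le_mul_of_nonneg_left hRw3 (by positivity)
      _ = A ^ 3 / c' * R ^ 3 * (w ^ 7 * phi4 D) := by ring
  calc k * (D + k * ((w⁻¹) ^ 2 * D + min D (Real.exp (-c * w))) +
      (k + 1) ^ 2 * min D ((k + 1) * Real.exp (-c * w ^ 8)))
      = k * D + k ^ 2 * ((w⁻¹) ^ 2 * D) + k ^ 2 * min D (Real.exp (-c * w)) +
        k * (k + 1) ^ 2 * min D ((k + 1) * Real.exp (-c * w ^ 8)) := by ring
    _ ≤ A * R ^ 3 * (w ^ 7 * phi4 D) + A ^ 2 * R * (w ^ 7 * phi4 D) + A ^ 2 / c * (w ^ 7 * phi4 D) +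
        A ^ 3 / c' * R ^ 3 * (w ^ 7 * phi4 D) := by linarith
    _ = _ := by ring

end MICalcAux

set_option maxHeartbeats 2000000 in
open MICalcAux in
/-- CALC-C: the near shells, `K ≈ M (t^(-1/2) + log (2 + log (4/D)) + log (1 + 1/t))`.
If `t ≥ t0` or `log (2 + log (4/D)) ≥ t^(-1/2)`, then `K ≤ C (1 + log (2 + log (4/D)))` and
`K³ D ≤ C phi4 D`. Otherwise `K ≤ C t^(-1/2)` and with `min_le_phi4`
`K * nearR ≤ K D + K² t^(1/4) D + K² phi4(D) t^(1/8)/c + K (K+1)² phi4(D) * C t ≤ C t^(-7/8) phi4 D`. -/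
theorem calc_near {C c t0 T M : ℝ} (hC : 0 < C) (hc : 0 < c) (ht0 : 0 < t0) (hT : 0 < T)
    (hM : 0 < M) : ∃ C' : ℝ, 0 < C' ∧ ∀ t D N : ℝ, 0 < t → t ≤ T → 0 < D → D ≤ 4 → ∀ K : ℕ,
    (K : ℝ) ≤ M * (1 + t ^ (-(1 / 2) : ℝ) + Real.log (2 + Real.log (4 / D)) + Real.log (1 + 1 / t)) →
    N ≤ C * K ^ 3 * D → (t ≤ t0 → N ≤ C * K * nearR c t D K) →
    N ≤ C' * t ^ (-(7 / 8) : ℝ) * phi4 D := by
  set R := T ^ (1 / 8 : ℝ) with hR
  have hR0 : 0 < R := Real.rpow_pos_of_pos hT _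
  set s0 := t0 ^ (-(1 / 2) : ℝ) with hs0
  have hs00 : 0 < s0 := Real.rpow_pos_of_pos ht0 _
  set B1 := M * (5 + 3 * s0) with hB1
  have hB10 : 0 < B1 := by positivity
  set A := M * (R ^ 4 + 4) + R ^ 4 with hA
  have hA0 : 0 < A := by positivity
  set C2 := A * R ^ 3 + A ^ 2 * R + A ^ 2 / c + A ^ 3 / (c / 2 / (1 + A ^ 2 / (2 * c))) * R ^ 3 with hC2
  have hC20 : 0 < C2 := by positivity
  refine ⟨C * 36 * B1 ^ 3 * R ^ 7 + C * C2, by positivity, ?_⟩
  intro t D N ht htT hD hD4 K hK hN1 hN2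
  set w := (t ^ (1 / 8 : ℝ))⁻¹ with hw
  have hr0 : 0 < t ^ (1 / 8 : ℝ) := Real.rpow_pos_of_pos ht _
  have hw0 : 0 < w := by positivity
  have hwneg : w = t ^ (-(1 / 8) : ℝ) := by rw [hw, Real.rpow_neg ht.le]
  have hpw : ∀ n : ℕ, w ^ n = t ^ (-(n / 8) : ℝ) := by
    intro n
    rw [hwneg, ← Real.rpow_natCast, ← Real.rpow_mul ht.le]
    congr 1
    ring
  have hw4 : t ^ (-(1 / 2) : ℝ) = w ^ 4 := by
    rw [hpw]; norm_num
  have hw7 : t ^ (-(7 / 8) : ℝ) = w ^ 7 := by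
    rw [hpw]; norm_num
  have hw8 : w ^ 8 = 1 / t := by
    rw [hpw]
    norm_num [Real.rpow_neg_one]
  have hw2 : t ^ (1 / 4 : ℝ) = (w⁻¹) ^ 2 := by
    rw [hw, inv_inv, ← Real.rpow_natCast, ← Real.rpow_mul ht.le]
    norm_num
  have hRw : 1 ≤ R * w := by
    rw [hw, hR, ← div_eq_mul_inv, le_div_iff₀ hr0, one_mul]
    exact Real.rpow_le_rpow ht.le htT (by norm_num)
  have hφ : 0 ≤ phi4 D := OsgoodAux.phi4_nonneg hD.le hD4
  set Λ := Real.log (4 / D) with hΛ
  have hΛ0 : 0 ≤ Λ := log4D_nonneg hD hD4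
  set l := Real.log (2 + Λ) with hl
  have hl0 : 0 ≤ l := Real.log_nonneg (by linarith)
  have hφeq : phi4 D = D * (1 + Λ) := rfl
  have hlog : Real.log (1 + 1 / t) ≤ 2 * w ^ 4 := by
    rw [← hw8]; exact log1_le hw0
  have hK2 : (K : ℝ) ≤ M * (1 + 3 * w ^ 4 + l) := by
    refine hK.trans (mul_le_mul_of_nonneg_left ?_ hM.le)
    rw [hw4]; linarith
  rw [hw7]
  have hw7φ : 0 ≤ w ^ 7 * phi4 D := by positivity
  have hAB : (K : ℝ) ≤ B1 * (1 + l) → N ≤ (C * 36 * B1 ^ 3 * R ^ 7 + C * C2) * w ^ 7 * phi4 D := by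
    intro hKB
    have h1 : (K : ℝ) ^ 3 ≤ B1 ^ 3 * (36 * (1 + Λ)) := by
      calc (K : ℝ) ^ 3 ≤ (B1 * (1 + l)) ^ 3 := pow_le_pow_left₀ (Nat.cast_nonneg K) hKB 3
        _ = B1 ^ 3 * (1 + l) ^ 3 := by ring
        _ ≤ B1 ^ 3 * (36 * (1 + Λ)) :=
            mul_le_mul_of_nonneg_left (cube_log_le hΛ0) (by positivity)
    have hRw7 : 1 ≤ R ^ 7 * w ^ 7 := by
      rw [← mul_pow]; exact one_le_pow₀ hRw
    calc N ≤ C * K ^ 3 * D := hN1
      _ ≤ C * (B1 ^ 3 * (36 * (1 + Λ))) * D := by gcongr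
      _ = (C * 36 * B1 ^ 3 * phi4 D) * 1 := by rw [hφeq]; ring
      _ ≤ (C * 36 * B1 ^ 3 * phi4 D) * (R ^ 7 * w ^ 7) :=
          mul_le_mul_of_nonneg_left hRw7 (by positivity)
      _ ≤ (C * 36 * B1 ^ 3 * phi4 D) * (R ^ 7 * w ^ 7) + C * C2 * (w ^ 7 * phi4 D) := by
          have : 0 ≤ C * C2 * (w ^ 7 * phi4 D) := by positivity
          linarith
      _ = _ := by ring
  rcases le_total t0 t with h | h
  · apply hAB
    have h1 : w ^ 4 ≤ s0 := by
      rw [← hw4, hs0]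
      exact Real.rpow_le_rpow_of_nonpos ht0 h (by norm_num)
    calc (K : ℝ) ≤ M * (1 + 3 * w ^ 4 + l) := hK2
      _ ≤ M * ((5 + 3 * s0) * (1 + l)) := by
          apply mul_le_mul_of_nonneg_left _ hM.le
          nlinarith [mul_nonneg hs00.le hl0]
      _ = B1 * (1 + l) := by rw [hB1]; ring
  · rcases le_total (w ^ 4) l with h' | h'
    · apply hAB
      calc (K : ℝ) ≤ M * (1 + 3 * w ^ 4 + l) := hK2
        _ ≤ M * ((5 + 3 * s0) * (1 + l)) := by
            apply mul_le_mul_of_nonneg_left _ hM.le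
            nlinarith [mul_nonneg hs00.le hl0]
        _ = B1 * (1 + l) := by rw [hB1]; ring
    · have hRw4 : 1 ≤ R ^ 4 * w ^ 4 := by
        rw [← mul_pow]; exact one_le_pow₀ hRw
      have hKA : (K : ℝ) + 1 ≤ A * w ^ 4 := by
        calc (K : ℝ) + 1 ≤ M * (1 + 3 * w ^ 4 + l) + 1 := by linarith
          _ ≤ M * ((R ^ 4 + 4) * w ^ 4) + R ^ 4 * w ^ 4 := by
              have : M * (1 + 3 * w ^ 4 + l) ≤ M * ((R ^ 4 + 4) * w ^ 4) := by
                apply mul_le_mul_of_nonneg_left _ hM.le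
                linarith
              linarith
          _ = A * w ^ 4 := by rw [hA]; ring
      have h3 := near_small hc hA0 hw0 hRw hD hD4 (Nat.cast_nonneg K) hKA
      have h4 : nearR c t D K = D + K * ((w⁻¹) ^ 2 * D + min D (Real.exp (-c * w))) +
          (K + 1) ^ 2 * min D ((K + 1) * Real.exp (-c * w ^ 8)) := by
        unfold nearR
        rw [hw2, ← hwneg, hw8]
        congr 5
        ring
      calc N ≤ C * K * nearR c t D K := hN2 h
        _ = C * (K * nearR c t D K) := by ring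
        _ ≤ C * (C2 * (w ^ 7 * phi4 D)) := by
            rw [h4]
            exact mul_le_mul_of_nonneg_left h3 hC.le
        _ ≤ C * (C2 * (w ^ 7 * phi4 D)) + C * 36 * B1 ^ 3 * R ^ 7 * (w ^ 7 * phi4 D) := by
            have : 0 ≤ C * 36 * B1 ^ 3 * R ^ 7 * (w ^ 7 * phi4 D) := by positivity
            linarith
        _ = _ := by ring

end Crest.Agent.R160
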