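import Crest.Agent.R160.Near
import Crest.Agent.R160.Far
import Crest.Agent.R160.MICalc

/-! Row 160, piece MI: the main static inequality.

PROOF. `D = V2 𝓖 (m t v)`, `0 ≤ D ≤ 2`; if `D = 0` use `near_crude`. Let `c` be the constant of
`aa_sq_sum`, `M1` from `calc_tail`, `kmax = ⌈M1 / min 1 t * (...)⌉₊`. Let `ε = 1/4`, `C3, c3` from
`HH_conc T ε`, `M2` from `calc_conc` (for `c3`, `M1`), `K2 = ⌈max C3 M2 * (t^(-1/2) + ...)⌉₊ + 1`,
`K = 2 K2`. Then: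
`∑_{u ∈ F} V2 (A t v u) ≤ ∑_{k ≤ kmax} y_k + tail`, tail `≤ ∑_{k > kmax} 4 (1 - c min 1 t)^k ≤ D`
(`V2_le_sq`, `|A_vu| ≤ aa`, `aa_sq_sum`), and `far` with `pK = exp (-c3 (d-1)^K2)`:
`∑_{k ≤ kmax} y_k ≤ 2 ∑_{k < K} y_k + 12 K x_K + D`. Finally `calc_near` for `N = ∑_{k<K} y_k` and
`N = K x_K` (`near_crude`, `near_refined`, `card_sph_succ`, `θ²(d-1) ≤ 1`, `nearR_mono`). -/

set_option autoImplicit false
open Finset Filter MeasureTheory ProbabilityTheory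
open scoped Topology NNReal ENNReal

namespace Crest.Agent.R160
namespace Setup

variable {V : Type} [DecidableEq V] [Countable V] (S : Setup V)

theorem mi_card (v : V) (k : ℕ) :
    ((sph S.G v k).card : ℝ) * S.θ ^ (2 * k) ≤ 3 / 2 := by
  have hd : (3 : ℝ) ≤ S.d := by exact_mod_cast S.d_three
  have h1 := S.θle
  have hθ := S.θpos
  rcases k with _ | k
  · rw [card_sph_zero S.rt v]; norm_num
  · rw [card_sph_succ S.rt v k]
    have h2 : ((S.d - 1 : ℕ) : ℝ) = (S.d : ℝ) - 1 := by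
      rw [Nat.cast_sub (by have := S.d_three; omega)]; simp
    rw [Nat.cast_mul, Nat.cast_pow, h2]
    have h3 : (S.d : ℝ) * ((S.d : ℝ) - 1) ^ k * S.θ ^ (2 * (k + 1)) =
        (S.d * S.θ ^ 2) * (S.θ ^ 2 * ((S.d : ℝ) - 1)) ^ k := by
      rw [mul_pow, ← pow_mul]; ring
    rw [h3]
    have h4 : (S.θ ^ 2 * ((S.d : ℝ) - 1)) ^ k ≤ 1 :=
      pow_le_one₀ (mul_nonneg (by positivity) (by linarith)) h1
    have h5 : (S.d : ℝ) * S.θ ^ 2 ≤ 3 / 2 := by nlinarith [sq_nonneg S.θ]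
    have h6 : (0 : ℝ) ≤ S.d * S.θ ^ 2 := by positivity
    calc (S.d * S.θ ^ 2) * (S.θ ^ 2 * ((S.d : ℝ) - 1)) ^ k ≤ (S.d * S.θ ^ 2) * 1 :=
          mul_le_mul_of_nonneg_left h4 h6
      _ ≤ 3 / 2 := by linarith

theorem mi_memLp_m (t : ℝ≥0) (v : V) : MemLp (S.m t v) 2 S.P := by
  refine MemLp.of_bound (S.measurable_m t v).aestronglyMeasurable 1 (ae_of_all _ fun ω => ?_)
  rw [Real.norm_eq_abs]
  exact (S.abs_mag_lt v _).le

theorem mi_theta_pow_le (k : ℕ) : S.θ ^ k ≤ 1 := pow_le_one₀ S.θpos.le S.theta_lt_one.le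

theorem mi_memLp_A (t : ℝ≥0) (v u : V) : MemLp (S.A t v u) 2 S.P := by
  refine MemLp.of_bound (S.measurable_A t v u).aestronglyMeasurable 1 (ae_of_all _ fun ω => ?_)
  rw [Real.norm_eq_abs]
  have h := S.cv_mem v u (S.Xt t ω)
  have h2 := S.mi_theta_pow_le (S.G.dist v u)
  show |S.cv v u (S.Xt t ω)| ≤ 1
  rw [abs_of_pos h.1]
  exact h.2.trans h2

theorem mi_measurable_aa (t : ℝ≥0) (v u : V) : Measurable fun ω => S.aa v u (S.Xt t ω) :=
  (S.measurable_aa v u).comp (S.measurable_Xt t)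

theorem mi_memLp_aa (t : ℝ≥0) (v u : V) : MemLp (fun ω => S.aa v u (S.Xt t ω)) 2 S.P := by
  refine MemLp.of_bound (S.mi_measurable_aa t v u).aestronglyMeasurable 1
    (ae_of_all _ fun ω => ?_)
  rw [Real.norm_eq_abs]
  have h := S.aa_mem v u (S.Xt t ω)
  have h2 := S.mi_theta_pow_le (S.G.dist v u)
  rw [abs_of_pos h.1]
  exact h.2.trans h2

theorem mi_V2_m_le (t : ℝ≥0) (𝓖 : SubF V) (v : V) : S.V2 𝓖.1 (S.m t v) ≤ 4 := by
  refine (S.V2_le_sq 𝓖 (S.mi_memLp_m t v)).trans ?_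
  have : ∫ ω, S.m t v ω ^ 2 ∂S.P ≤ ∫ _ω, (1 : ℝ) ∂S.P := by
    refine integral_mono (S.mi_memLp_m t v).integrable_sq (integrable_const _) fun ω => ?_
    show S.m t v ω ^ 2 ≤ 1
    have := (S.abs_mag_lt v (S.Xt t ω)).le
    exact (sq_le_one_iff_abs_le_one _).2 this
  rw [integral_const, probReal_univ, one_smul] at this
  linarith

/-- one shell, by the second moment. -/
theorem mi_yk_le {c : ℝ} {t : ℝ≥0}
    (h : ∀ (v : V) (k : ℕ), ∑ u ∈ sph S.G v k, ∫ ω, S.aa v u (S.Xt t ω) ^ 2 ∂S.P ≤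
      2 * (1 - c * min 1 (t : ℝ)) ^ k) (𝓖 : SubF V) (v : V) (k : ℕ) :
    S.yk t 𝓖 v k ≤ 4 * (1 - c * min 1 (t : ℝ)) ^ k := by
  unfold yk
  calc ∑ u ∈ sph S.G v k, S.V2 𝓖.1 (S.A t v u)
      ≤ ∑ u ∈ sph S.G v k, 2 * ∫ ω, S.aa v u (S.Xt t ω) ^ 2 ∂S.P := by
        refine Finset.sum_le_sum fun u _ => ?_
        refine (S.V2_le_sq 𝓖 (S.mi_memLp_A t v u)).trans ?_
        refine mul_le_mul_of_nonneg_left ?_ zero_le_two
        refine integral_mono (S.mi_memLp_A t v u).integrable_sq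
          (S.mi_memLp_aa t v u).integrable_sq fun ω => ?_
        show ((1 - S.mag v (S.Xt t ω) ^ 2) * S.aa v u (S.Xt t ω)) ^ 2 ≤ S.aa v u (S.Xt t ω) ^ 2
        have h1 := (S.abs_mag_lt v (S.Xt t ω)).le
        have h2 : S.mag v (S.Xt t ω) ^ 2 ≤ 1 := (sq_le_one_iff_abs_le_one _).2 h1
        have h3 := (S.aa_mem v u (S.Xt t ω)).1
        have h4 : (0 : ℝ) ≤ S.mag v (S.Xt t ω) ^ 2 := sq_nonneg _
        refine pow_le_pow_left₀ (mul_nonneg (by linarith) h3.le) ?_ 2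
        nlinarith
    _ = 2 * ∑ u ∈ sph S.G v k, ∫ ω, S.aa v u (S.Xt t ω) ^ 2 ∂S.P := by rw [Finset.mul_sum]
    _ ≤ 2 * (2 * (1 - c * min 1 (t : ℝ)) ^ k) := by
        exact mul_le_mul_of_nonneg_left (h v k) zero_le_two
    _ = _ := by ring

theorem mi_yk_nonneg (t : ℝ≥0) (𝓖 : SubF V) (v : V) (k : ℕ) : 0 ≤ S.yk t 𝓖 v k :=
  Finset.sum_nonneg fun u _ => S.V2_nonneg 𝓖 (S.mi_memLp_A t v u)

/-- a finite sum is at most the sum over shells. -/
theorem mi_sum_le (t : ℝ≥0) (𝓖 : SubF V) (v : V) (F : Finset V) :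
    ∃ L : ℕ, ∀ L' ≥ L, ∑ u ∈ F, S.V2 𝓖.1 (S.A t v u) ≤ ∑ k ∈ range L', S.yk t 𝓖 v k := by
  refine ⟨F.sup (fun u => S.G.dist v u) + 1, fun L' hL' => ?_⟩
  have h1 : ∑ u ∈ F, S.V2 𝓖.1 (S.A t v u) =
      ∑ k ∈ range L', ∑ u ∈ F with S.G.dist v u = k, S.V2 𝓖.1 (S.A t v u) := by
    rw [Finset.sum_fiberwise_of_maps_to]
    intro u hu
    rw [Finset.mem_range]
    have : S.G.dist v u ≤ F.sup (fun u => S.G.dist v u) :=
      Finset.le_sup (f := fun u => S.G.dist v u) hu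
    omega
  rw [h1]
  refine Finset.sum_le_sum fun k _ => ?_
  unfold yk
  refine Finset.sum_le_sum_of_subset_of_nonneg ?_ fun u _ _ => S.V2_nonneg 𝓖 (S.mi_memLp_A t v u)
  intro u hu
  rw [Finset.mem_filter] at hu
  exact (mem_sph S.rt).2 hu.2

theorem mi_geom {r : ℝ} (h0 : 0 < r) (h1 : r ≤ 1) (a L : ℕ) :
    ∑ k ∈ range L, (1 - r) ^ (a + k) ≤ (1 - r) ^ a / r := by
  have h2 : (0 : ℝ) ≤ 1 - r := by linarith
  have h3 : ∑ k ∈ range L, (1 - r) ^ (a + k) = (1 - r) ^ a * ∑ k ∈ range L, (1 - r) ^ k := by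
    rw [Finset.mul_sum]
    exact Finset.sum_congr rfl fun k _ => pow_add _ _ _
  have h4 : ∑ k ∈ range L, (1 - r) ^ k ≤ 1 / r := by
    rw [le_div_iff₀ h0]
    have h5 := geom_sum_mul (1 - r) L
    have h6 : (0 : ℝ) ≤ (1 - r) ^ L := pow_nonneg h2 L
    nlinarith
  rw [h3, div_eq_mul_one_div]
  exact mul_le_mul_of_nonneg_left h4 (pow_nonneg h2 a)

theorem MI (T : ℝ≥0) : ∃ C : ℝ, 0 < C ∧ ∀ t : ℝ≥0, 0 < t → t ≤ T → ∀ (𝓖 : SubF V), S.Inv 𝓖.1 →
    ∀ (v : V) (F : Finset V), ∑ u ∈ F, S.V2 𝓖.1 (S.A t v u) ≤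
      C * (t : ℝ) ^ (-(7 / 8) : ℝ) * phi4 (S.V2 𝓖.1 (S.m t v)) := by
  obtain ⟨c, hc, hc1, hsum⟩ := S.aa_sq_sum
  obtain ⟨M1, hM1, htail⟩ := calc_tail hc hc1
  obtain ⟨C3, c3, hC3, hc3, hconc⟩ := S.HH_conc T (1 / 4) (by norm_num)
  have hd : (3 : ℝ) ≤ S.d := by exact_mod_cast S.d_three
  obtain ⟨M2, hM2, hcconc⟩ := calc_conc hc3 hM1 hd
  obtain ⟨Cn, hCn, hcrude⟩ := S.near_crude
  obtain ⟨Cr, cr, t0, hCr, hcr, ht0, hrefined⟩ := S.near_refined
  set C1 : ℝ := 75 * Cn + 21 * Cr + 2 with hC1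
  set M : ℝ := 2 * (C3 + M2 + 1) with hM
  have hC1pos : 0 < C1 := by positivity
  have hMpos : 0 < M := by positivity
  obtain ⟨C', hC', hnear⟩ := calc_near (C := C1) (c := cr) (t0 := (t0 : ℝ)) (T := (T : ℝ) + 1)
    (M := M) hC1pos hcr (by exact_mod_cast ht0) (by positivity) hMpos
  refine ⟨C', hC', fun t ht htT 𝓖 hinv v F => ?_⟩
  have htr : (0 : ℝ) < t := by exact_mod_cast ht
  have htTr : (t : ℝ) ≤ T := by exact_mod_cast htT
  set D : ℝ := S.V2 𝓖.1 (S.m t v) with hD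
  have hD0 : 0 ≤ D := S.V2_nonneg 𝓖 (S.mi_memLp_m t v)
  have hD4 : D ≤ 4 := S.mi_V2_m_le t 𝓖 v
  rcases hD0.eq_or_lt with h0 | hDpos
  · -- `D = 0`
    have h1 : ∀ u ∈ F, S.V2 𝓖.1 (S.A t v u) ≤ 0 := by
      intro u _
      have h2 := (hcrude t 𝓖 hinv v u).1
      rw [← hD, ← h0, mul_zero] at h2
      exact h2
    have h3 : phi4 D = 0 := by rw [← h0]; simp [phi4]
    rw [h3, mul_zero]
    exact Finset.sum_nonpos h1
  -- `D > 0`
  have hlogD : 0 ≤ Real.log (4 / D) := Real.log_nonneg (by rw [le_div_iff₀ hDpos]; linarith)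
  have hlog2 : 0 ≤ Real.log (2 + Real.log (4 / D)) := Real.log_nonneg (by linarith)
  have hlogt : 0 ≤ Real.log (1 + 1 / (t : ℝ)) :=
    Real.log_nonneg (by have : 0 < 1 / (t : ℝ) := by positivity
                        linarith)
  have hmin : 0 < min 1 (t : ℝ) := lt_min one_pos htr
  have hmin1 : min 1 (t : ℝ) ≤ 1 := min_le_left _ _
  -- `kmax`
  set a1 : ℝ := M1 / min 1 (t : ℝ) * (1 + Real.log (4 / D) + Real.log (1 + 1 / (t : ℝ))) with ha1
  have ha1nn : 0 ≤ a1 := by positivity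
  set kmax : ℕ := ⌈a1⌉₊ with hkmax
  have hk1 : a1 ≤ kmax := Nat.le_ceil _
  have hk2 : (kmax : ℝ) ≤ a1 + 1 := (Nat.ceil_lt_add_one ha1nn).le
  -- `K2`
  set a2 : ℝ := C3 / √t + M2 * (Real.log (2 + Real.log (4 / D)) + Real.log (1 + 1 / (t : ℝ)))
    with ha2
  have hsqrt : 0 < √(t : ℝ) := Real.sqrt_pos.2 htr
  have hCt : 0 < C3 / √(t : ℝ) := by positivity
  have hM2nn : 0 ≤ M2 * (Real.log (2 + Real.log (4 / D)) + Real.log (1 + 1 / (t : ℝ))) := by
    positivity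
  have ha2pos : 0 < a2 := by rw [ha2]; linarith
  set K2 : ℕ := ⌈a2⌉₊ with hK2
  have hK2a : a2 ≤ K2 := Nat.le_ceil _
  have hK2b : (K2 : ℝ) ≤ a2 + 1 := (Nat.ceil_lt_add_one ha2pos.le).le
  have hK2pos : 1 ≤ K2 := Nat.ceil_pos.2 ha2pos
  -- consequences
  have hconc' := hconc t ht htT K2 (by linarith)
  have hfar := S.far t 𝓖 hinv v (2 * K2) kmax (by omega) (1 / 4)
    (Real.exp (-c3 * ((S.d : ℝ) - 1) ^ K2)) (by norm_num) le_rfl hconc'
  have hcc := hcconc t D htr hDpos hD4 kmax K2 hk2 (by linarith)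
  have htl := htail t D htr hDpos hD4 kmax hk1
  -- the finite sum
  obtain ⟨L, hL⟩ := S.mi_sum_le t 𝓖 v F
  have hF := hL (kmax + 1 + L) (by omega)
  rw [Finset.sum_range_add] at hF
  have hsq : ∀ (v : V) (k : ℕ), ∑ u ∈ sph S.G v k, ∫ ω, S.aa v u (S.Xt t ω) ^ 2 ∂S.P ≤
      2 * (1 - c * min 1 (t : ℝ)) ^ k := fun v k => (hsum (fun _ => t) t (fun _ => le_rfl) v k).1
  have htail2 : ∑ k ∈ range L, S.yk t 𝓖 v (kmax + 1 + k) ≤ D := by
    calc ∑ k ∈ range L, S.yk t 𝓖 v (kmax + 1 + k)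
        ≤ ∑ k ∈ range L, 4 * (1 - c * min 1 (t : ℝ)) ^ (kmax + 1 + k) :=
          Finset.sum_le_sum fun k _ => S.mi_yk_le hsq 𝓖 v _
      _ = 4 * ∑ k ∈ range L, (1 - c * min 1 (t : ℝ)) ^ (kmax + 1 + k) := by rw [Finset.mul_sum]
      _ ≤ 4 * ((1 - c * min 1 (t : ℝ)) ^ (kmax + 1) / (c * min 1 (t : ℝ))) := by
          refine mul_le_mul_of_nonneg_left (mi_geom (by positivity) ?_ _ _) (by norm_num)
          nlinarith
      _ = 4 * (1 - c * min 1 (t : ℝ)) ^ (kmax + 1) / (c * min 1 (t : ℝ)) := by ring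
      _ ≤ D := htl
  set K : ℕ := 2 * K2 with hK
  have hKr : (K : ℝ) = 2 * K2 := by rw [hK]; push_cast; ring
  have hK1 : (1 : ℝ) ≤ K := by
    rw [hKr]; have : (1 : ℝ) ≤ K2 := by exact_mod_cast hK2pos
    linarith
  set N1 : ℝ := ∑ k ∈ range K, S.yk t 𝓖 v k with hN1
  set N2 : ℝ := S.xk t 𝓖 v K with hN2
  have htotal : ∑ u ∈ F, S.V2 𝓖.1 (S.A t v u) ≤ 2 * N1 + 12 * K * N2 + 2 * D := by
    linarith
  -- shells
  have hshellC : ∀ k : ℕ, S.yk t 𝓖 v k ≤ 3 / 2 * (Cn * ((k : ℝ) + 1) ^ 2 * D) ∧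
      S.xk t 𝓖 v k ≤ 3 / 2 * (Cn * ((k : ℝ) + 1) ^ 2 * D) := by
    intro k
    have hR : 0 ≤ Cn * ((k : ℝ) + 1) ^ 2 * D := by positivity
    have hcard := S.mi_card v k
    constructor
    · calc S.yk t 𝓖 v k ≤ ∑ u ∈ sph S.G v k, S.θ ^ (2 * k) * (Cn * ((k : ℝ) + 1) ^ 2 * D) := by
            refine Finset.sum_le_sum fun u hu => ?_
            have h1 := (hcrude t 𝓖 hinv v u).1
            rw [(mem_sph S.rt).1 hu] at h1
            refine h1.trans (le_of_eq ?_)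
            ring
        _ = ((sph S.G v k).card * S.θ ^ (2 * k)) * (Cn * ((k : ℝ) + 1) ^ 2 * D) := by
            rw [Finset.sum_const, nsmul_eq_mul]; ring
        _ ≤ _ := mul_le_mul_of_nonneg_right hcard hR
    · calc S.xk t 𝓖 v k ≤ ∑ u ∈ sph S.G v k, S.θ ^ (2 * k) * (Cn * ((k : ℝ) + 1) ^ 2 * D) := by
            refine Finset.sum_le_sum fun u hu => ?_
            have h1 := (hcrude t 𝓖 hinv v u).2
            rw [(mem_sph S.rt).1 hu] at h1
            refine le_trans h1 (le_of_eq ?_)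
            ring
        _ = ((sph S.G v k).card * S.θ ^ (2 * k)) * (Cn * ((k : ℝ) + 1) ^ 2 * D) := by
            rw [Finset.sum_const, nsmul_eq_mul]; ring
        _ ≤ _ := mul_le_mul_of_nonneg_right hcard hR
  have hnR : D ≤ nearR cr t D K ∧ 0 ≤ nearR cr t D K := by
    have h1 : 0 ≤ (K : ℝ) * ((t : ℝ) ^ (1 / 4 : ℝ) * D +
        min D (Real.exp (-cr * (t : ℝ) ^ (-(1 / 8) : ℝ)))) := by
      have : 0 ≤ min D (Real.exp (-cr * (t : ℝ) ^ (-(1 / 8) : ℝ))) :=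
        le_min hDpos.le (Real.exp_pos _).le
      positivity
    have h2 : 0 ≤ ((K : ℝ) + 1) ^ 2 * min D (((K : ℝ) + 1) * Real.exp (-cr / t)) := by
      have : 0 ≤ min D (((K : ℝ) + 1) * Real.exp (-cr / t)) := le_min hDpos.le (by positivity)
      positivity
    unfold nearR
    constructor <;> linarith
  have hshellR : (t : ℝ) ≤ t0 → ∀ k : ℕ, k ≤ K →
      S.yk t 𝓖 v k ≤ 3 / 2 * (Cr * nearR cr t D K) ∧
      S.xk t 𝓖 v k ≤ 3 / 2 * (Cr * nearR cr t D K) := by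
    intro htt0 k hk
    have htt0' : t ≤ t0 := by exact_mod_cast htt0
    have hmono : nearR cr t D k ≤ nearR cr t D K :=
      nearR_mono htr.le hDpos.le (Nat.cast_nonneg k) (by exact_mod_cast hk)
    have hR : 0 ≤ Cr * nearR cr t D K := mul_nonneg hCr.le hnR.2
    have hcard := S.mi_card v k
    have hθk : 0 ≤ S.θ ^ (2 * k) := pow_nonneg S.θpos.le _
    constructor
    · calc S.yk t 𝓖 v k ≤ ∑ u ∈ sph S.G v k, S.θ ^ (2 * k) * (Cr * nearR cr t D K) := by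
            refine Finset.sum_le_sum fun u hu => ?_
            have h1 := (hrefined t ht htt0' 𝓖 hinv v u).1
            rw [(mem_sph S.rt).1 hu] at h1
            refine h1.trans ?_
            calc Cr * S.θ ^ (2 * k) * nearR cr t D k = S.θ ^ (2 * k) * (Cr * nearR cr t D k) := by
                  ring
              _ ≤ _ := mul_le_mul_of_nonneg_left
                    (mul_le_mul_of_nonneg_left hmono hCr.le) hθk
        _ = ((sph S.G v k).card * S.θ ^ (2 * k)) * (Cr * nearR cr t D K) := by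
            rw [Finset.sum_const, nsmul_eq_mul]; ring
        _ ≤ _ := mul_le_mul_of_nonneg_right hcard hR
    · calc S.xk t 𝓖 v k ≤ ∑ u ∈ sph S.G v k, S.θ ^ (2 * k) * (Cr * nearR cr t D K) := by
            refine Finset.sum_le_sum fun u hu => ?_
            have h1 := (hrefined t ht htt0' 𝓖 hinv v u).2
            rw [(mem_sph S.rt).1 hu] at h1
            refine le_trans h1 ?_
            calc Cr * S.θ ^ (2 * k) * nearR cr t D k = S.θ ^ (2 * k) * (Cr * nearR cr t D k) := by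
                  ring
              _ ≤ _ := mul_le_mul_of_nonneg_left
                    (mul_le_mul_of_nonneg_left hmono hCr.le) hθk
        _ = ((sph S.G v k).card * S.θ ^ (2 * k)) * (Cr * nearR cr t D K) := by
            rw [Finset.sum_const, nsmul_eq_mul]; ring
        _ ≤ _ := mul_le_mul_of_nonneg_right hcard hR
  -- conclusion
  refine htotal.trans (hnear t D _ htr (by linarith) hDpos hD4 K ?_ ?_ ?_)
  · -- size of `K`
    have h1 : (t : ℝ) ^ (-(1 / 2) : ℝ) = 1 / √(t : ℝ) := by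
      rw [Real.rpow_neg htr.le, ← Real.sqrt_eq_rpow, one_div]
    rw [h1, hKr]
    have h2 : a2 = C3 * (1 / √(t : ℝ)) +
        M2 * (Real.log (2 + Real.log (4 / D)) + Real.log (1 + 1 / (t : ℝ))) := by
      rw [ha2]; ring
    have h3 : 0 < 1 / √(t : ℝ) := by positivity
    have h4 : (K2 : ℝ) ≤ C3 * (1 / √(t : ℝ)) +
        M2 * (Real.log (2 + Real.log (4 / D)) + Real.log (1 + 1 / (t : ℝ))) + 1 := by
      rw [← h2]; exact hK2b
    rw [hM]
    nlinarith [mul_nonneg hC3.le hlog2, mul_nonneg hC3.le hlogt, mul_pos hM2 h3]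
  · -- crude
    have hA : N1 ≤ K * (3 / 2 * (Cn * (K : ℝ) ^ 2 * D)) := by
      calc N1 ≤ ∑ k ∈ range K, 3 / 2 * (Cn * (K : ℝ) ^ 2 * D) := by
            refine Finset.sum_le_sum fun k hk => (hshellC k).1.trans ?_
            have hk' : (k : ℝ) + 1 ≤ K := by
              have := Finset.mem_range.1 hk
              exact_mod_cast this
            gcongr
        _ = _ := by rw [Finset.sum_const, card_range, nsmul_eq_mul]
    have hB : N2 ≤ 3 / 2 * (Cn * (2 * (K : ℝ)) ^ 2 * D) := by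
      refine (hshellC K).2.trans ?_
      have : (K : ℝ) + 1 ≤ 2 * K := by linarith
      gcongr
    have hK3 : (1 : ℝ) ≤ (K : ℝ) ^ 3 := one_le_pow₀ hK1
    have hB' : 12 * K * N2 ≤ 12 * K * (3 / 2 * (Cn * (2 * (K : ℝ)) ^ 2 * D)) := by
      gcongr
    calc 2 * N1 + 12 * K * N2 + 2 * D
        ≤ 2 * (K * (3 / 2 * (Cn * (K : ℝ) ^ 2 * D))) +
          12 * K * (3 / 2 * (Cn * (2 * (K : ℝ)) ^ 2 * D)) + 2 * ((K : ℝ) ^ 3 * D) := by
          have : D ≤ (K : ℝ) ^ 3 * D := le_mul_of_one_le_left hDpos.le hK3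
          linarith
      _ = (75 * Cn + 2) * (K : ℝ) ^ 3 * D := by ring
      _ ≤ C1 * (K : ℝ) ^ 3 * D := by
          have : 75 * Cn + 2 ≤ C1 := by rw [hC1]; linarith
          gcongr
  · -- refined
    intro htt0
    have hA : N1 ≤ K * (3 / 2 * (Cr * nearR cr t D K)) := by
      calc N1 ≤ ∑ k ∈ range K, 3 / 2 * (Cr * nearR cr t D K) := by
            refine Finset.sum_le_sum fun k hk => ?_
            exact (hshellR htt0 k (Finset.mem_range.1 hk).le).1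
        _ = _ := by rw [Finset.sum_const, card_range, nsmul_eq_mul]
    have hB : N2 ≤ 3 / 2 * (Cr * nearR cr t D K) := (hshellR htt0 K le_rfl).2
    have hB' : 12 * K * N2 ≤ 12 * K * (3 / 2 * (Cr * nearR cr t D K)) := by
      gcongr
    calc 2 * N1 + 12 * K * N2 + 2 * D
        ≤ 2 * (K * (3 / 2 * (Cr * nearR cr t D K))) +
          12 * K * (3 / 2 * (Cr * nearR cr t D K)) + 2 * (K * nearR cr t D K) := by
          have : D ≤ K * nearR cr t D K := hnR.1.trans (le_mul_of_one_le_left hnR.2 hK1)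
          linarith
      _ = (21 * Cr + 2) * K * nearR cr t D K := by ring
      _ ≤ C1 * K * nearR cr t D K := by
          have h1 : 21 * Cr + 2 ≤ C1 := by rw [hC1]; linarith
          have h2 := hnR.2
          gcongr

end Setup
end Crest.Agent.R160
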