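import Crest.Agent.R160.Factor

/-! Row 160, piece MAIN. -/

set_option autoImplicit false
open Finset Filter MeasureTheory ProbabilityTheory
open scoped Topology NNReal ENNReal

namespace Crest.Agent.R160
namespace Setup

variable {V : Type} [DecidableEq V] [Countable V] (S : Setup V)

open Crest.ProbabilityR in
theorem main : ∃ Φ : (V → unitInterval) → (V → Bool), Measurable Φ ∧
    (∀ (g : S.G ≃g S.G) (x : V → unitInterval), Φ (x ∘ ⇑g) = Φ x ∘ ⇑g) ∧
    ∀ (F : Finset V) (η : V → Bool), (S.G.induce (F : Set V)).Connected →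
      (Labels.labelMeasure V).map Φ {σ | ∀ v ∈ F, σ v = η v} =
        ENNReal.ofReal (TreeIsing.isingWeight S.G S.θ F η) := by
  obtain ⟨l, hl, hl'⟩ := Measure.exists_measurable_map_eq gmeas
  obtain ⟨sel, hsm, hse, hsl⟩ := S.exists_sel
  have hb : Measurable (fun (ξ : ℕ → ℝ) (n : ℕ) => S.β.b (tm n) ξ) :=
    measurable_pi_lambda _ fun n => S.β.meas (tm n)
  have hc : Measurable (fun (y : unitInterval) (n : ℕ) => S.β.b (tm n) (l y)) := hb.comp hl
  have hpm : (volume : Measure unitInterval).map (fun (y : unitInterval) (n : ℕ) =>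
      S.β.b (tm n) (l y)) = S.pm := by
    unfold pm
    rw [← hl', Measure.map_map hb hl]
    rfl
  have hC : Measurable (fun (x : V → unitInterval) (v : V) (n : ℕ) => S.β.b (tm n) (l (x v))) :=
    measurable_pi_lambda _ fun v => hc.comp (measurable_pi_apply v)
  have hmapC : (Labels.labelMeasure V).map
      (fun (x : V → unitInterval) (v : V) (n : ℕ) => S.β.b (tm n) (l (x v))) =
      S.P.map S.NN := by
    rw [S.law_NN]
    unfold Labels.labelMeasure
    rw [Measure.infinitePi_map_pi (μ := fun _ : V => (volume : Measure unitInterval))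
      (f := fun _ (y : unitInterval) (n : ℕ) => S.β.b (tm n) (l y)) (fun _ => hc)]
    simp_rw [hpm]
  refine ⟨fun x => sel (fun v n => S.β.b (tm n) (l (x v))), hsm.comp hC, ?_, ?_⟩
  · intro g x
    exact hse g (fun v n => S.β.b (tm n) (l (x v)))
  · intro F η hF
    have hms : MeasurableSet {σ : V → Bool | ∀ v ∈ F, σ v = η v} := by
      have : {σ : V → Bool | ∀ v ∈ F, σ v = η v} = ⋂ v ∈ F, {σ | σ v = η v} := by
        ext σ; simp
      rw [this]
      exact Finset.measurableSet_biInter _ fun v _ =>
        measurableSet_eq_fun (measurable_pi_apply v) measurable_const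
    have hfun : (fun x : V → unitInterval => sel (fun v n => S.β.b (tm n) (l (x v)))) =
        sel ∘ (fun (x : V → unitInterval) (v : V) (n : ℕ) => S.β.b (tm n) (l (x v))) := rfl
    rw [hfun, ← Measure.map_map hsm hC, hmapC, Measure.map_apply hsm hms,
      Measure.map_apply S.measurable_NN (hsm hms), ← S.cylinder F η hF]
    refine measure_congr ?_
    have hae : ∀ᵐ ω ∂S.P, ∀ v ∈ F, sel (S.NN ω) v = S.bspin v ω := by
      rw [Filter.eventually_all_finset]
      intro v _
      exact hsl v
    filter_upwards [hae] with ω hω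
    refine propext ?_
    constructor
    · intro h v hv
      rw [← hω v hv]
      exact h v hv
    · intro h v hv
      have := h v hv
      rw [← hω v hv] at this
      exact this

end Setup
end Crest.Agent.R160
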