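import Crest.Agent.R160.MsgMag

/-! Row 160, piece MSG-COV: conditional covariances. -/

set_option autoImplicit false
open Finset Filter MeasureTheory ProbabilityTheory
open scoped Topology NNReal ENNReal

namespace Crest.Agent.R160
namespace Setup

variable {V : Type} [DecidableEq V] [Countable V] (S : Setup V)

namespace MsgCovaux

theorem measurable_BT_sq_integral (t : ℝ≥0) (v : V) :
    Integrable (fun ω => S.B t v ω ^ 2) S.P ∧ ∫ ω, S.B t v ω ^ 2 ∂S.P = t := by
  have h := S.law_B_inc (show 0 ≤ t from bot_le) v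
  have h0 : (fun ω => S.B t v ω - S.B 0 v ω) = S.B t v := by
    funext ω
    simp [B, S.β.zero]
  rw [h0, tsub_zero] at h
  have hm : AEMeasurable (S.B t v) S.P := (S.measurable_B t v).aemeasurable
  have hint : Integrable (fun x : ℝ => x ^ 2) (gaussianReal 0 t) := by
    have := (memLp_id_gaussianReal (μ := 0) (v := t) 2).integrable_sq
    simpa using this
  have hval : ∫ x, x ^ 2 ∂(gaussianReal 0 t) = t := by
    have h1 := variance_eq_sub (μ := gaussianReal 0 t) (X := id)
      (memLp_id_gaussianReal (μ := 0) (v := t) 2)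
    rw [variance_id_gaussianReal] at h1
    simp only [Pi.pow_apply, id, integral_id_gaussianReal] at h1
    simpa using h1.symm
  constructor
  · rw [← h] at hint
    exact hint.comp_aemeasurable hm
  · rw [← hval, ← h, integral_map hm (by fun_prop)]

theorem measurable_geo_slope (T : V → ℝ≥0) {x y : V} (hxy : S.G.Adj x y) :
    Measurable[S.FF T Set.univ] (fun ω => S.slope x y (S.XT T ω)) := by
  have h1 : Measurable[S.FF T Set.univ] (fun ω => S.cav x y (S.XT T ω)) :=
    (S.measurable_cav_FF T hxy).mono (S.FF_mono le_rfl (Set.subset_univ _)) le_rfl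
  have h2 : Measurable fun h : ℝ => S.θ * phi S.θ (Real.tanh h) := by
    unfold phi
    have := measurable_tanh
    fun_prop
  exact h2.comp h1

theorem measurable_aa_FF (T : V → ℝ≥0) (v u : V) :
    Measurable[S.FF T Set.univ] (fun ω => S.aa v u (S.XT T ω)) := by
  unfold aa
  refine Finset.measurable_prod _ fun i hi => ?_
  rw [Finset.mem_range] at hi
  exact measurable_geo_slope S T (geo_adj S.rt v u hi)

theorem measurable_mag_FF (T : V → ℝ≥0) (v : V) :
    Measurable[S.FF T Set.univ] (fun ω => S.mag v (S.XT T ω)) :=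
  (S.measurable_mag v).comp (S.measurable_XT_FF T)

omit [Countable V] in
theorem T_le (T : V → ℝ≥0) (v : V) (r : ℝ≥0) : T ≤ Function.update T v (T v + r) := by
  intro w
  by_cases h : w = v
  · subst h; simp
  · rw [Function.update_of_ne h]

omit [Countable V] in
theorem XT_update (T : V → ℝ≥0) (v : V) (r : ℝ≥0) (ω : Om V) :
    S.XT (Function.update T v (T v + r)) ω =
      Function.update (S.XT T ω) v (S.XX (T v + r) v ω) := by
  funext w
  by_cases h : w = v
  · subst h; simp [XT]
  · simp [XT, Function.update_of_ne h]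

/-- the residual `τ_u - a τ_v - (m_u - a m_v)`. -/
noncomputable def res (T : V → ℝ≥0) (v u : V) (ω : Om V) : ℝ :=
  S.spin u ω - S.aa v u (S.XT T ω) * S.spin v ω -
    (S.mag u (S.XT T ω) - S.aa v u (S.XT T ω) * S.mag v (S.XT T ω))

omit [Countable V] in
theorem aa_le_one (v u : V) (X : V → ℝ) : |S.aa v u X| ≤ 1 := by
  have h := S.aa_mem v u X
  rw [abs_of_pos h.1]
  exact h.2.trans (pow_le_one₀ S.θpos.le S.theta_lt_one.le)

theorem spin_abs (v : V) (ω : Om V) : |S.spin v ω| = 1 := by
  rcases S.spin_val v ω with h | h <;> simp [h]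

theorem res_abs (T : V → ℝ≥0) (v u : V) (ω : Om V) : |res S T v u ω| ≤ 4 := by
  unfold res
  have h1 := (spin_abs S u ω).le
  have h2 := (spin_abs S v ω).le
  have h3 := aa_le_one S v u (S.XT T ω)
  have h4 := (S.abs_mag_lt u (S.XT T ω)).le
  have h5 := (S.abs_mag_lt v (S.XT T ω)).le
  have h6 : |S.aa v u (S.XT T ω) * S.spin v ω| ≤ 1 := by
    rw [abs_mul]; exact mul_le_one₀ h3 (abs_nonneg _) h2
  have h7 : |S.aa v u (S.XT T ω) * S.mag v (S.XT T ω)| ≤ 1 := by
    rw [abs_mul]; exact mul_le_one₀ h3 (abs_nonneg _) h5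
  have e1 := abs_sub (S.spin u ω - S.aa v u (S.XT T ω) * S.spin v ω)
    (S.mag u (S.XT T ω) - S.aa v u (S.XT T ω) * S.mag v (S.XT T ω))
  have e2 := abs_sub (S.spin u ω) (S.aa v u (S.XT T ω) * S.spin v ω)
  have e3 := abs_sub (S.mag u (S.XT T ω)) (S.aa v u (S.XT T ω) * S.mag v (S.XT T ω))
  linarith

theorem measurable_res (T : V → ℝ≥0) (v u : V) : Measurable (res S T v u) := by
  have hX := S.measurable_XT T
  have h1 := S.measurable_spin u
  have h2 := S.measurable_spin v
  have h3 := (S.measurable_aa v u).comp hX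
  have h4 := (S.measurable_mag u).comp hX
  have h5 := (S.measurable_mag v).comp hX
  exact (h1.sub (h3.mul h2)).sub (h4.sub (h3.mul h5))

omit [Countable V] in
theorem integrable_bdd {f : Om V → ℝ} (hf : Measurable f) {C : ℝ} (h : ∀ ω, |f ω| ≤ C) :
    Integrable f S.P :=
  Integrable.of_bound hf.aestronglyMeasurable C (Eventually.of_forall fun ω => by
    simpa [Real.norm_eq_abs] using h ω)

theorem integrable_spin (v : V) : Integrable (S.spin v) S.P :=
  integrable_bdd S (S.measurable_spin v) fun ω => (spin_abs S v ω).le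

theorem condExp_res (T : V → ℝ≥0) (v u : V) (r : ℝ≥0) :
    S.P[res S T v u | S.FF (Function.update T v (T v + r)) Set.univ] =ᵐ[S.P] 0 := by
  set T' := Function.update T v (T v + r) with hT'
  have hTT' : T ≤ T' := T_le T v r
  have hle : (S.FF T' Set.univ) ≤ mOm V := S.FF_le T' Set.univ
  have hFF' : S.FF T Set.univ ≤ (S.FF T' Set.univ) := S.FF_mono hTT' subset_rfl
  have hu := S.condExp_mag T' u
  have hv := S.condExp_mag T' v
  have hgood := S.ae_good T
  have ma : Measurable[(S.FF T' Set.univ)] (fun ω => S.aa v u (S.XT T ω)) :=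
    (measurable_aa_FF S T v u).mono hFF' le_rfl
  have mu : Measurable[(S.FF T' Set.univ)] (fun ω => S.mag u (S.XT T ω)) :=
    (measurable_mag_FF S T u).mono hFF' le_rfl
  have mv : Measurable[(S.FF T' Set.univ)] (fun ω => S.mag v (S.XT T ω)) :=
    (measurable_mag_FF S T v).mono hFF' le_rfl
  have ma' : Measurable (fun ω => S.aa v u (S.XT T ω)) := (S.measurable_aa v u).comp (S.measurable_XT T)
  have mu' : Measurable (fun ω => S.mag u (S.XT T ω)) := (S.measurable_mag u).comp (S.measurable_XT T)
  have mv' : Measurable (fun ω => S.mag v (S.XT T ω)) := (S.measurable_mag v).comp (S.measurable_XT T)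
  have i1 : Integrable (S.spin u) S.P := integrable_spin S u
  have hav : ∀ ω, |S.aa v u (S.XT T ω) * S.spin v ω| ≤ 1 := fun ω => by
    rw [abs_mul]; exact mul_le_one₀ (aa_le_one S v u _) (abs_nonneg _) (spin_abs S v ω).le
  have ham : ∀ ω, |S.aa v u (S.XT T ω) * S.mag v (S.XT T ω)| ≤ 1 := fun ω => by
    rw [abs_mul]; exact mul_le_one₀ (aa_le_one S v u _) (abs_nonneg _) (S.abs_mag_lt v _).le
  have i2 : Integrable ((fun ω => S.aa v u (S.XT T ω)) * S.spin v) S.P :=
    integrable_bdd S (ma'.mul (S.measurable_spin v)) hav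
  have i3 : Integrable (fun ω => S.mag u (S.XT T ω) - S.aa v u (S.XT T ω) * S.mag v (S.XT T ω)) S.P := by
    refine Integrable.sub (integrable_bdd S mu' fun ω => (S.abs_mag_lt u _).le) ?_
    exact integrable_bdd S (ma'.mul mv') ham
  have e1 : res S T v u = (S.spin u - (fun ω => S.aa v u (S.XT T ω)) * S.spin v) -
      fun ω => S.mag u (S.XT T ω) - S.aa v u (S.XT T ω) * S.mag v (S.XT T ω) := rfl
  have c1 := condExp_sub (μ := S.P) (i1.sub i2) i3 (S.FF T' Set.univ)
  have c2 := condExp_sub (μ := S.P) i1 i2 (S.FF T' Set.univ)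
  have c3 := condExp_mul_of_stronglyMeasurable_left (μ := S.P) (m := (S.FF T' Set.univ)) ma.stronglyMeasurable i2
    (integrable_spin S v)
  have c4 : S.P[fun ω => S.mag u (S.XT T ω) - S.aa v u (S.XT T ω) * S.mag v (S.XT T ω) | (S.FF T' Set.univ)] =
      fun ω => S.mag u (S.XT T ω) - S.aa v u (S.XT T ω) * S.mag v (S.XT T ω) :=
    condExp_of_stronglyMeasurable hle (mu.sub (ma.mul mv)).stronglyMeasurable i3
  rw [e1]
  rw [c4] at c1
  filter_upwards [c1, c2, c3, hu, hv, hgood] with ω h1 h2 h3 h4 h5 h6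
  rw [h1, Pi.sub_apply, h2, Pi.sub_apply, h3, Pi.mul_apply, h4, h5]
  have h7 := S.mag_update h6 v u (S.XX (T v + r) v ω)
  rw [← XT_update] at h7
  simp only [Pi.zero_apply]
  linear_combination h7

/-- `E|τ_v - X_v(t)/t| ≤ 1/√t` -/
theorem spin_approx (v : V) {t : ℝ≥0} (ht : 0 < t) :
    Integrable (fun ω => S.XX t v ω / t) S.P ∧
      ∫ ω, |S.spin v ω - S.XX t v ω / t| ∂S.P ≤ 1 / √(t : ℝ) := by
  have ht' : (0 : ℝ) < t := by exact_mod_cast ht
  obtain ⟨hi, hv⟩ := measurable_BT_sq_integral S t v
  have hs : 0 < √(t : ℝ) := Real.sqrt_pos.2 ht'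
  have hBi : Integrable (S.B t v) S.P := by
    have : MemLp (S.B t v) 2 S.P := (memLp_two_iff_integrable_sq
      (S.measurable_B t v).aestronglyMeasurable).2 hi
    exact this.integrable (by norm_num)
  have hXi : Integrable (fun ω => S.XX t v ω / t) S.P := by
    unfold XX
    exact (((integrable_spin S v).const_mul _).add hBi).div_const _
  refine ⟨hXi, ?_⟩
  have hp : ∀ ω, |S.spin v ω - S.XX t v ω / t| ≤
      (1 / √(t : ℝ)) / 2 + S.B t v ω ^ 2 * (1 / (√(t : ℝ) * t) / 2) := by
    intro ω
    have e : S.spin v ω - S.XX t v ω / t = - (S.B t v ω / t) := by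
      unfold XX
      field_simp
      ring
    rw [e, abs_neg, abs_div, abs_of_pos ht']
    have hsq : √(t : ℝ) ^ 2 = t := Real.sq_sqrt ht'.le
    set s := √(t : ℝ) with hsdef
    set b := S.B t v ω
    rw [← hsq]
    have hb : b ^ 2 = |b| ^ 2 := (sq_abs b).symm
    rw [hb]
    have : (1 / s) / 2 + |b| ^ 2 * (1 / (s * s ^ 2) / 2) - |b| / s ^ 2 =
        (s - |b|) ^ 2 / (2 * s ^ 3) := by
      field_simp
      ring
    have h2 : 0 ≤ (s - |b|) ^ 2 / (2 * s ^ 3) := by positivity
    linarith
  have hXS : Integrable (fun ω => S.spin v ω - S.XX t v ω / t) S.P :=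
    (integrable_spin S v).sub hXi
  calc ∫ ω, |S.spin v ω - S.XX t v ω / t| ∂S.P
      ≤ ∫ ω, ((1 / √(t : ℝ)) / 2 + S.B t v ω ^ 2 * (1 / (√(t : ℝ) * t) / 2)) ∂S.P :=
        integral_mono hXS.abs ((integrable_const _).add (hi.mul_const _)) hp
    _ = 1 / √(t : ℝ) := by
        rw [integral_add (integrable_const _) (hi.mul_const _), integral_mul_const, hv]
        simp only [integral_const, probReal_univ, smul_eq_mul, one_mul]
        field_simp
        norm_num

/-- the residual is orthogonal to `τ_v` given the information at time `T`. -/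
theorem setIntegral_res_spin (T : V → ℝ≥0) (v u : V) {A : Set (Om V)}
    (hA : MeasurableSet[S.FF T Set.univ] A) :
    ∫ ω in A, S.spin v ω * res S T v u ω ∂S.P = 0 := by
  have hAm : MeasurableSet A := S.FF_le T Set.univ A hA
  have key : ∀ n : ℕ, |∫ ω in A, S.spin v ω * res S T v u ω ∂S.P| ≤ 4 * (1 / √((n : ℝ) + 1)) := by
    intro n
    set r : ℝ≥0 := (n : ℝ≥0) + 1 with hr
    have ht : 0 < T v + r := by positivity
    obtain ⟨hYi, hY⟩ := spin_approx S v ht
    have hres := condExp_res S T v u r
    have hFF' : S.FF T Set.univ ≤ S.FF (Function.update T v (T v + r)) Set.univ :=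
      S.FF_mono (T_le T v r) subset_rfl
    have hle : S.FF (Function.update T v (T v + r)) Set.univ ≤ mOm V := S.FF_le _ _
    have hA' : MeasurableSet[S.FF (Function.update T v (T v + r)) Set.univ] A := hFF' _ hA
    have hXm : Measurable[S.FF (Function.update T v (T v + r)) Set.univ]
        (fun ω => S.XX (T v + r) v ω / ((T v + r : ℝ≥0) : ℝ)) := by
      have h1 : Measurable[S.FF (Function.update T v (T v + r)) Set.univ]
          (fun ω => S.XT (Function.update T v (T v + r)) ω v) :=
        (measurable_pi_apply v).comp (S.measurable_XT_FF (Function.update T v (T v + r)))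
      have h2 : (fun ω => S.XT (Function.update T v (T v + r)) ω v) = S.XX (T v + r) v := by
        funext ω
        rw [XT_update, Function.update_self]
      rw [h2] at h1
      exact h1.div_const _
    -- `∫_A Y res = 0`
    have hresm : Measurable (res S T v u) := measurable_res S T v u
    have hresi : Integrable (res S T v u) S.P := integrable_bdd S hresm (res_abs S T v u)
    have hYres : Integrable ((fun ω => S.XX (T v + r) v ω / ((T v + r : ℝ≥0) : ℝ)) * res S T v u)
        S.P := by
      refine hYi.mul_bdd (c := 4) hresm.aestronglyMeasurable (Eventually.of_forall fun ω => ?_)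
      simpa [Real.norm_eq_abs] using res_abs S T v u ω
    have c3 := condExp_mul_of_stronglyMeasurable_left (μ := S.P)
      (m := S.FF (Function.update T v (T v + r)) Set.univ) hXm.stronglyMeasurable hYres hresi
    have hzero : ∫ ω in A, ((fun ω => S.XX (T v + r) v ω / ((T v + r : ℝ≥0) : ℝ)) * res S T v u) ω ∂S.P
        = 0 := by
      rw [← setIntegral_condExp hle hYres hA']
      rw [← integral_zero (Om V) ℝ (μ := S.P.restrict A)]
      refine integral_congr_ae (ae_restrict_of_ae ?_)
      filter_upwards [c3, hres] with ω h1 h2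
      rw [h1, Pi.mul_apply, h2]
      simp
    have hsi : Integrable (fun ω => S.spin v ω * res S T v u ω) S.P := by
      refine (integrable_spin S v).mul_bdd (c := 4) hresm.aestronglyMeasurable
        (Eventually.of_forall fun ω => ?_)
      simpa [Real.norm_eq_abs] using res_abs S T v u ω
    have e1 : ∫ ω in A, S.spin v ω * res S T v u ω ∂S.P =
        ∫ ω in A, (S.spin v ω - S.XX (T v + r) v ω / ((T v + r : ℝ≥0) : ℝ)) * res S T v u ω ∂S.P := by
      rw [← sub_zero (∫ ω in A, S.spin v ω * res S T v u ω ∂S.P), ← hzero, ← integral_sub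
        hsi.integrableOn hYres.integrableOn]
      refine integral_congr_ae (Eventually.of_forall fun ω => ?_)
      simp only [Pi.mul_apply]
      ring
    rw [e1]
    have hdi : Integrable (fun ω => S.spin v ω - S.XX (T v + r) v ω / ((T v + r : ℝ≥0) : ℝ)) S.P :=
      (integrable_spin S v).sub hYi
    calc |∫ ω in A, (S.spin v ω - S.XX (T v + r) v ω / ((T v + r : ℝ≥0) : ℝ)) * res S T v u ω ∂S.P|
        ≤ ∫ ω in A, |(S.spin v ω - S.XX (T v + r) v ω / ((T v + r : ℝ≥0) : ℝ)) * res S T v u ω| ∂S.P :=
          abs_integral_le_integral_abs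
      _ ≤ ∫ ω, |(S.spin v ω - S.XX (T v + r) v ω / ((T v + r : ℝ≥0) : ℝ)) * res S T v u ω| ∂S.P := by
          refine setIntegral_le_integral ?_ (Eventually.of_forall fun ω => abs_nonneg _)
          refine Integrable.abs ?_
          refine hdi.mul_bdd (c := 4) hresm.aestronglyMeasurable
            (Eventually.of_forall fun ω => ?_)
          simpa [Real.norm_eq_abs] using res_abs S T v u ω
      _ ≤ ∫ ω, 4 * |S.spin v ω - S.XX (T v + r) v ω / ((T v + r : ℝ≥0) : ℝ)| ∂S.P := by
          refine integral_mono_of_nonneg (Eventually.of_forall fun ω => abs_nonneg _)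
            (hdi.abs.const_mul 4) (Eventually.of_forall fun ω => ?_)
          simp only
          rw [abs_mul, mul_comm]
          exact mul_le_mul_of_nonneg_right (res_abs S T v u ω) (abs_nonneg _)
      _ ≤ 4 * (1 / √((n : ℝ) + 1)) := by
          rw [integral_const_mul]
          refine mul_le_mul_of_nonneg_left (hY.trans ?_) (by norm_num)
          have h1 : (n : ℝ) + 1 ≤ ((T v + r : ℝ≥0) : ℝ) := by
            rw [hr]; push_cast
            have : (0 : ℝ) ≤ (T v : ℝ) := (T v).coe_nonneg
            linarith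
          have h2 : 0 < √((n : ℝ) + 1) := Real.sqrt_pos.2 (by positivity)
          exact one_div_le_one_div_of_le h2 (Real.sqrt_le_sqrt h1)
  have hlim : Tendsto (fun n : ℕ => 4 * (1 / √((n : ℝ) + 1))) atTop (𝓝 (4 * 0)) := by
    refine Tendsto.const_mul 4 ?_
    simp only [one_div]
    refine tendsto_inv_atTop_zero.comp ?_
    refine Real.tendsto_sqrt_atTop.comp ?_
    exact tendsto_atTop_add_const_right _ _ tendsto_natCast_atTop_atTop
  rw [mul_zero] at hlim
  have h := ge_of_tendsto' hlim key
  exact abs_eq_zero.1 (le_antisymm h (abs_nonneg _))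

theorem sg_mean {p : ℝ} (h0 : 0 ≤ p) (h1 : p ≤ 1) :
    ∫ b, sg b ∂(coin p) = 2 * p - 1 := by
  unfold coin
  rw [integral_add_measure, integral_smul_measure, integral_smul_measure, integral_dirac,
    integral_dirac]
  · simp only [sg, if_true, smul_eq_mul, mul_one]
    rw [ENNReal.toReal_ofReal h0, ENNReal.toReal_ofReal (by linarith)]
    simp
    ring
  · exact (Integrable.of_finite).smul_measure ENNReal.ofReal_ne_top
  · exact (Integrable.of_finite).smul_measure ENNReal.ofReal_ne_top

theorem isProb_coin {p : ℝ} (h0 : 0 ≤ p) (h1 : p ≤ 1) : IsProbabilityMeasure (coin p) := by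
  constructor
  unfold coin
  simp only [Measure.coe_add, Measure.coe_smul, Pi.add_apply, Pi.smul_apply, measure_univ,
    smul_eq_mul, mul_one]
  rw [← ENNReal.ofReal_add h0 (by linarith)]
  simp

theorem integral_spin_mul (v u : V) :
    ∫ ω, S.spin v ω * S.spin u ω ∂S.P = S.θ ^ S.G.dist v u := by
  have hθ := S.θpos
  have hθ1 := S.theta_lt_one
  have hprob : ∀ o : Option (Sym2 V),
      IsProbabilityMeasure (coin (o.elim (1 / 2) fun _ => (1 + S.θ) / 2)) := by
    intro o
    cases o with
    | none => exact isProb_coin (by norm_num) (by norm_num)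
    | some e => exact isProb_coin (by simp only [Option.elim]; linarith) (by simp only [Option.elim]; linarith)
  set k := S.G.dist v u with hk
  have e1 : (fun ω => S.spin v ω * S.spin u ω) = fun ω : Om V =>
      (fun a : Option (Sym2 V) → Bool =>
        ∏ i ∈ range k, sg (a (some s(geo S.G v u i, geo S.G v u (i + 1))))) ω.1 := by
    funext ω
    exact S.spin_path v u ω
  rw [e1]
  unfold P
  rw [integral_fun_fst (μ := Measure.infinitePi fun o : Option (Sym2 V) =>
      coin (o.elim (1 / 2) fun _ => (1 + S.θ) / 2)) (ν := Measure.infinitePi fun _ : V => gmeas)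
      (f := fun a : Option (Sym2 V) → Bool =>
        ∏ i ∈ range k, sg (a (some s(geo S.G v u i, geo S.G v u (i + 1)))))]
  simp only [probReal_univ, one_smul]
  -- independence
  have hind := iIndepFun_infinitePi (P := fun o : Option (Sym2 V) =>
      coin (o.elim (1 / 2) fun _ => (1 + S.θ) / 2)) (X := fun _ b => sg b)
      (fun _ => measurable_of_finite _)
  have hinj : Function.Injective (fun i : Fin k =>
      (some s(geo S.G v u i, geo S.G v u (i + 1)) : Option (Sym2 V))) := by
    intro i j hij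
    simp only [Option.some.injEq] at hij
    have hi := i.2
    have hj := j.2
    have d1 := (dist_geo S.rt v u (i := i) (by omega)).1
    have d2 := (dist_geo S.rt v u (i := i + 1) (by omega)).1
    have d3 := (dist_geo S.rt v u (i := j) (by omega)).1
    have d4 := (dist_geo S.rt v u (i := j + 1) (by omega)).1
    rw [Sym2.eq_iff] at hij
    rcases hij with ⟨h1, h2⟩ | ⟨h1, h2⟩
    · rw [h1] at d1
      exact Fin.ext (by omega)
    · rw [h1] at d1
      rw [h2] at d2
      omega
  have hind2 := hind.precomp hinj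
  have e2 : (fun a : Option (Sym2 V) → Bool =>
        ∏ i ∈ range k, sg (a (some s(geo S.G v u i, geo S.G v u (i + 1))))) = fun a =>
      ∏ i : Fin k, sg (a (some s(geo S.G v u i, geo S.G v u (i + 1)))) := by
    funext a
    rw [Finset.prod_range]
  rw [e2]
  have := hind2.integral_fun_prod_eq_prod_integral (fun i => by
    refine Measurable.aestronglyMeasurable ?_
    have hsg : Measurable sg := measurable_of_finite _
    exact hsg.comp (measurable_pi_apply (X := fun _ : Option (Sym2 V) => Bool)
      (some s(geo S.G v u i, geo S.G v u (i + 1)))))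
  rw [this]
  have e3 : ∀ i : Fin k, ∫ a, sg (a (some s(geo S.G v u i, geo S.G v u (i + 1))))
      ∂(Measure.infinitePi fun o : Option (Sym2 V) =>
      coin (o.elim (1 / 2) fun _ => (1 + S.θ) / 2)) = S.θ := by
    intro i
    have hmp := measurePreserving_eval_infinitePi (X := fun _ => Bool) (μ := fun o : Option (Sym2 V) =>
      coin (o.elim (1 / 2) fun _ => (1 + S.θ) / 2)) (some s(geo S.G v u i, geo S.G v u (i + 1)))
    have h1 := integral_map (μ := Measure.infinitePi fun o : Option (Sym2 V) =>
      coin (o.elim (1 / 2) fun _ => (1 + S.θ) / 2))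
      (φ := Function.eval (some s(geo S.G v u i, geo S.G v u (i + 1)))) (f := sg)
      hmp.measurable.aemeasurable (measurable_of_finite _).aestronglyMeasurable
    rw [hmp.map_eq] at h1
    simp only [Function.eval] at h1
    rw [← h1]
    have h2 := sg_mean (p := (1 + S.θ) / 2) (by linarith) (by linarith)
    simp only [Option.elim]
    rw [h2]
    ring
  simp only [e3]
  simp

end MsgCovaux

/-- MSG-5: `E[τ_u | F ∨ τ_v] = α + a_vu τ_v`, hence the conditional covariance. -/
theorem condExp_cov (T : V → ℝ≥0) (v u : V) :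
    S.P[S.spin v * S.spin u | S.FF T Set.univ] =ᵐ[S.P]
      fun ω => S.mag v (S.XT T ω) * S.mag u (S.XT T ω) + S.cv v u (S.XT T ω) := by
  have hX := S.measurable_XT T
  have ma' := (S.measurable_aa v u).comp hX
  have mu' := (S.measurable_mag u).comp hX
  have mv' := (S.measurable_mag v).comp hX
  have msv := S.measurable_spin v
  have msu := S.measurable_spin u
  have mres := MsgCovaux.measurable_res S T v u
  have ma := MsgCovaux.measurable_aa_FF S T v u
  have mu := MsgCovaux.measurable_mag_FF S T u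
  have mv := MsgCovaux.measurable_mag_FF S T v
  have hprod : ∀ a b : ℝ, |a| ≤ 1 → |b| ≤ 1 → |a * b| ≤ 1 := fun a b ha hb => by
    rw [abs_mul]; exact mul_le_one₀ ha (abs_nonneg _) hb
  -- the bounded `F`-measurable function `D = m_u - a m_v`
  have hD : ∀ ω, |S.mag u (S.XT T ω) - S.aa v u (S.XT T ω) * S.mag v (S.XT T ω)| ≤ 2 := by
    intro ω
    have h1 := (S.abs_mag_lt u (S.XT T ω)).le
    have h2 := hprod _ _ (MsgCovaux.aa_le_one S v u (S.XT T ω)) (S.abs_mag_lt v (S.XT T ω)).le
    have h3 := abs_sub (S.mag u (S.XT T ω)) (S.aa v u (S.XT T ω) * S.mag v (S.XT T ω))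
    linarith
  have mDF : Measurable[S.FF T Set.univ]
      (fun ω => S.mag u (S.XT T ω) - S.aa v u (S.XT T ω) * S.mag v (S.XT T ω)) :=
    mu.sub (ma.mul mv)
  have mD := mu'.sub (ma'.mul mv')
  have hDi : Integrable (fun ω => S.mag u (S.XT T ω) - S.aa v u (S.XT T ω) * S.mag v (S.XT T ω))
      S.P := MsgCovaux.integrable_bdd S mD hD
  have hDsi : Integrable ((fun ω => S.mag u (S.XT T ω) - S.aa v u (S.XT T ω) * S.mag v (S.XT T ω))
      * S.spin v) S.P := by
    refine hDi.mul_bdd (c := 1) msv.aestronglyMeasurable (Eventually.of_forall fun ω => ?_)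
    rw [Real.norm_eq_abs]
    exact (MsgCovaux.spin_abs S v ω).le
  have c3 := condExp_mul_of_stronglyMeasurable_left (μ := S.P)
      (m := S.FF T Set.univ) mDF.stronglyMeasurable hDsi (MsgCovaux.integrable_spin S v)
  have cv' := S.condExp_mag T v
  have hcvb : ∀ ω, |S.cv v u (S.XT T ω)| ≤ 1 := fun ω => by
    have h := S.cv_mem v u (S.XT T ω)
    rw [abs_of_pos h.1]
    exact h.2.trans (pow_le_one₀ S.θpos.le S.theta_lt_one.le)
  have hRb : ∀ ω, |S.mag v (S.XT T ω) * S.mag u (S.XT T ω) + S.cv v u (S.XT T ω)| ≤ 2 := fun ω => by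
    have h1 := hprod _ _ (S.abs_mag_lt v (S.XT T ω)).le (S.abs_mag_lt u (S.XT T ω)).le
    have h2 := abs_add_le (S.mag v (S.XT T ω) * S.mag u (S.XT T ω)) (S.cv v u (S.XT T ω))
    have := hcvb ω
    linarith
  have mR : Measurable (fun ω => S.mag v (S.XT T ω) * S.mag u (S.XT T ω) + S.cv v u (S.XT T ω)) :=
    (mv'.mul mu').add ((S.measurable_cv v u).comp hX)
  have mRF : Measurable[S.FF T Set.univ]
      (fun ω => S.mag v (S.XT T ω) * S.mag u (S.XT T ω) + S.cv v u (S.XT T ω)) :=
    (mv.mul mu).add ((S.measurable_cv v u).comp (S.measurable_XT_FF T))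
  have hRi := MsgCovaux.integrable_bdd S mR hRb
  have hssi : Integrable (S.spin v * S.spin u) S.P :=
    MsgCovaux.integrable_bdd S (msv.mul msu) (C := 1) fun ω =>
      hprod _ _ (MsgCovaux.spin_abs S v ω).le (MsgCovaux.spin_abs S u ω).le
  have hai : Integrable (fun ω => S.aa v u (S.XT T ω)) S.P :=
    MsgCovaux.integrable_bdd S ma' fun ω => MsgCovaux.aa_le_one S v u (S.XT T ω)
  symm
  refine ae_eq_condExp_of_forall_setIntegral_eq (S.FF_le T Set.univ) hssi
    (fun A _ _ => hRi.integrableOn) (fun A hA _ => ?_) mRF.stronglyMeasurable.aestronglyMeasurable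
  have h0 := MsgCovaux.setIntegral_res_spin S T v u hA
  -- `∫_A D τ_v = ∫_A D m_v`
  have h1 : ∫ ω in A, ((fun ω => S.mag u (S.XT T ω) - S.aa v u (S.XT T ω) * S.mag v (S.XT T ω))
      * S.spin v) ω ∂S.P = ∫ ω in A, (S.mag u (S.XT T ω) - S.aa v u (S.XT T ω) * S.mag v (S.XT T ω))
        * S.mag v (S.XT T ω) ∂S.P := by
    rw [← setIntegral_condExp (S.FF_le T Set.univ) hDsi hA]
    refine integral_congr_ae (ae_restrict_of_ae ?_)
    filter_upwards [c3, cv'] with ω h1 h2
    rw [h1, Pi.mul_apply, h2]
  have h2 : ∫ ω in A, S.spin v ω * MsgCovaux.res S T v u ω ∂S.P =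
      ∫ ω in A, (S.spin v * S.spin u) ω ∂S.P - ∫ ω in A, S.aa v u (S.XT T ω) ∂S.P -
        ∫ ω in A, ((fun ω => S.mag u (S.XT T ω) - S.aa v u (S.XT T ω) * S.mag v (S.XT T ω))
      * S.spin v) ω ∂S.P := by
    have hs2 : Integrable (fun ω => (S.spin v * S.spin u) ω - S.aa v u (S.XT T ω)) S.P :=
      hssi.sub hai
    rw [← integral_sub hssi.integrableOn hai.integrableOn, ← integral_sub
      hs2.integrableOn hDsi.integrableOn]
    refine integral_congr_ae (Eventually.of_forall fun ω => ?_)
    have := S.spin_sq v ω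
    simp only [Pi.mul_apply, MsgCovaux.res]
    linear_combination (- S.aa v u (S.XT T ω)) * this
  have hDm : Integrable (fun ω => (S.mag u (S.XT T ω) - S.aa v u (S.XT T ω) * S.mag v (S.XT T ω))
        * S.mag v (S.XT T ω)) S.P := by
    refine hDi.mul_bdd (c := 1) mv'.aestronglyMeasurable (Eventually.of_forall fun ω => ?_)
    rw [Real.norm_eq_abs]
    exact (S.abs_mag_lt v _).le
  have h3 : ∫ ω in A, (S.mag v (S.XT T ω) * S.mag u (S.XT T ω) + S.cv v u (S.XT T ω)) ∂S.P =
      ∫ ω in A, S.aa v u (S.XT T ω) ∂S.P +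
        ∫ ω in A, (S.mag u (S.XT T ω) - S.aa v u (S.XT T ω) * S.mag v (S.XT T ω))
        * S.mag v (S.XT T ω) ∂S.P := by
    rw [← integral_add hai.integrableOn hDm.integrableOn]
    refine integral_congr_ae (Eventually.of_forall fun ω => ?_)
    simp only [cv]
    ring
  rw [h3]
  rw [h2, h1] at h0
  linarith

/-- corollary: `E cv = θ^dist - E mag mag`. -/
theorem integral_cv (T : V → ℝ≥0) (v u : V) :
    ∫ ω, S.cv v u (S.XT T ω) ∂S.P =
      S.θ ^ S.G.dist v u - ∫ ω, S.mag v (S.XT T ω) * S.mag u (S.XT T ω) ∂S.P := by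
  have hX := S.measurable_XT T
  have mu' := (S.measurable_mag u).comp hX
  have mv' := (S.measurable_mag v).comp hX
  have h1 : Integrable (fun ω => S.mag v (S.XT T ω) * S.mag u (S.XT T ω)) S.P := by
    refine MsgCovaux.integrable_bdd S (mv'.mul mu') (C := 1) fun ω => ?_
    rw [abs_mul]
    exact mul_le_one₀ (S.abs_mag_lt v _).le (abs_nonneg _) (S.abs_mag_lt u _).le
  have h2 : Integrable (fun ω => S.cv v u (S.XT T ω)) S.P := by
    refine MsgCovaux.integrable_bdd S ((S.measurable_cv v u).comp hX) (C := 1) fun ω => ?_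
    have h := S.cv_mem v u (S.XT T ω)
    rw [abs_of_pos h.1]
    exact h.2.trans (pow_le_one₀ S.θpos.le S.theta_lt_one.le)
  have h3 := integral_condExp (μ := S.P) (f := S.spin v * S.spin u) (S.FF_le T Set.univ)
  rw [integral_congr_ae (S.condExp_cov T v u), integral_add h1 h2] at h3
  have h4 := MsgCovaux.integral_spin_mul S v u
  have h5 : ∫ ω, (S.spin v * S.spin u) ω ∂S.P = ∫ ω, S.spin v ω * S.spin u ω ∂S.P := rfl
  rw [h5, h4] at h3
  linarith

end Setup
end Crest.Agent.R160
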