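import Crest.Agent.R160.Defs

/-! Row 160, piece NOISE: existence of a Brownian code, and basic facts. -/

set_option autoImplicit false
open Finset Filter MeasureTheory ProbabilityTheory
open scoped Topology NNReal ENNReal RealInnerProductSpace

namespace Crest.Agent.R160
theorem gmeas_neg : gmeas.map (fun ξ => -ξ) = gmeas := by
  have h := Measure.infinitePi_map_pi (fun _ : ℕ => gaussianReal 0 1)
    (f := fun _ x => -x) (fun _ => measurable_neg)
  simp only [gaussianReal_map_neg, neg_zero] at h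
  exact h

namespace NOISEaux

lemma countable_of_orthonormal {ι E : Type*} [NormedAddCommGroup E] [InnerProductSpace ℝ E]
    [SecondCountableTopology E] {v : ι → E} (hv : Orthonormal ℝ v) : Countable ι := by
  rw [← Set.countable_univ_iff]
  refine Set.PairwiseDisjoint.countable_of_isOpen (s := fun i => Metric.ball (v i) (1/2))
    ?_ (fun i _ => Metric.isOpen_ball) (fun i _ => ⟨v i, Metric.mem_ball_self (by norm_num)⟩)
  intro i _ j _ hij
  refine Metric.ball_disjoint_ball ?_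
  have h1 : dist (v i) (v j) ^ 2 = 2 := by
    rw [dist_eq_norm, norm_sub_sq_real, hv.1 i, hv.1 j, hv.2 hij]; norm_num
  nlinarith [dist_nonneg (x := v i) (y := v j)]

lemma gauss_eval (n : ℕ) : HasLaw (fun ω : ℕ → ℝ => ω n) (gaussianReal 0 1) gmeas :=
  (measurePreserving_eval_infinitePi (fun _ : ℕ => gaussianReal 0 1) n).hasLaw

lemma memLp_eval (n : ℕ) : MemLp (fun ω : ℕ → ℝ => ω n) 2 gmeas :=
  (gauss_eval n).hasGaussianLaw.memLp_two

noncomputable def xi (n : ℕ) : Lp ℝ 2 gmeas := (memLp_eval n).toLp _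

lemma indep_eval : iIndepFun (fun (n : ℕ) (ω : ℕ → ℝ) => ω n) gmeas :=
  iIndepFun_infinitePi (P := fun _ : ℕ => gaussianReal 0 1) (X := fun _ x => x)
    (fun _ => measurable_id)

lemma inner_eq (f g : Lp ℝ 2 gmeas) : ⟪f, g⟫ = ∫ ω, f ω * g ω ∂gmeas := by
  rw [L2.inner_def]
  refine integral_congr_ae (Eventually.of_forall fun ω => ?_)
  simp [mul_comm]

lemma orthonormal_xi : Orthonormal ℝ xi := by
  rw [orthonormal_iff_ite]
  intro i j
  have hi := MemLp.coeFn_toLp (memLp_eval i)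
  have hj := MemLp.coeFn_toLp (memLp_eval j)
  have h0 : ⟪xi i, xi j⟫ = ∫ ω : ℕ → ℝ, ω i * ω j ∂gmeas := by
    rw [inner_eq]
    refine integral_congr_ae ?_
    filter_upwards [hi, hj] with ω h1 h2
    simp only [xi]
    rw [h1, h2]
  rw [h0]
  have m0 : ∀ n, ∫ ω : ℕ → ℝ, ω n ∂gmeas = 0 := fun n => by
    rw [(gauss_eval n).integral_eq, integral_id_gaussianReal]
  split_ifs with h
  · subst h
    have h1 : Var[fun ω : ℕ → ℝ => ω i; gmeas] = 1 := by
      rw [(gauss_eval i).variance_eq, variance_id_gaussianReal]; simp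
    rw [variance_eq_sub (memLp_eval i), m0] at h1
    simpa [sq] using h1
  · have h1 := (indep_eval.indepFun h).integral_mul_eq_mul_integral
      (memLp_eval i).aestronglyMeasurable (memLp_eval j).aestronglyMeasurable
    simp only [Pi.mul_def] at h1
    rw [h1, m0, zero_mul]


/-- `f` is centred Gaussian, and odd. -/
def Gd (f : Lp ℝ 2 gmeas) : Prop :=
  (∀ u : ℝ, ∫ ω, Complex.exp (u * f ω * Complex.I) ∂gmeas = Complex.exp (-(u ^ 2 * ‖f‖ ^ 2 / 2)))

lemma abs_exp_sub (a b : ℝ) :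
    ‖Complex.exp (a * Complex.I) - Complex.exp (b * Complex.I)‖ ≤ |a - b| := by
  have h1 : Complex.exp (a * Complex.I) - Complex.exp (b * Complex.I) =
      Complex.exp (b * Complex.I) * (Complex.exp (((a - b : ℝ) : ℂ) * Complex.I) - 1) := by
    rw [mul_sub, ← Complex.exp_add]
    push_cast
    ring_nf
  rw [h1, norm_mul, Complex.norm_exp_ofReal_mul_I, one_mul]
  have := Real.norm_exp_I_mul_ofReal_sub_one_le (x := a - b)
  rw [mul_comm Complex.I] at this
  simpa using this

lemma aesm (f : Lp ℝ 2 gmeas) (u : ℝ) :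
    Integrable (fun ω => Complex.exp (u * f ω * Complex.I)) gmeas := by
  refine Integrable.of_bound (C := 1) ?_ (Eventually.of_forall fun ω => ?_)
  · have := (Lp.aestronglyMeasurable f).aemeasurable
    exact AEMeasurable.aestronglyMeasurable (by fun_prop)
  · rw [← Complex.ofReal_mul, Complex.norm_exp_ofReal_mul_I]

lemma lip (f g : Lp ℝ 2 gmeas) (u : ℝ) :
    ‖∫ ω, Complex.exp (u * f ω * Complex.I) ∂gmeas - ∫ ω, Complex.exp (u * g ω * Complex.I) ∂gmeas‖
      ≤ |u| * ‖f - g‖ := by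
  rw [← integral_sub (aesm f u) (aesm g u)]
  refine (norm_integral_le_integral_norm _).trans ?_
  have h0 : MemLp (fun ω => f ω - g ω) 2 gmeas := (Lp.memLp f).sub (Lp.memLp g)
  have h1 : ∫ ω, ‖Complex.exp (u * f ω * Complex.I) - Complex.exp (u * g ω * Complex.I)‖ ∂gmeas
      ≤ ∫ ω, |u| * ‖f ω - g ω‖ ∂gmeas := by
    refine integral_mono ((aesm f u).sub (aesm g u)).norm
      ((h0.integrable one_le_two).norm.const_mul _) fun ω => ?_
    have := abs_exp_sub (u * f ω) (u * g ω)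
    push_cast at this
    refine this.trans (le_of_eq ?_)
    rw [← mul_sub, abs_mul, Real.norm_eq_abs]
  refine h1.trans ?_
  rw [integral_const_mul]
  refine mul_le_mul_of_nonneg_left ?_ (abs_nonneg _)
  have h2 : ∫ ω, ‖f ω - g ω‖ ∂gmeas = (eLpNorm (fun ω => f ω - g ω) 1 gmeas).toReal := by
    rw [eLpNorm_one_eq_lintegral_enorm, integral_norm_eq_lintegral_enorm h0.aestronglyMeasurable]
  have h3 : ‖f - g‖ = (eLpNorm (fun ω => f ω - g ω) 2 gmeas).toReal := by
    rw [Lp.norm_def]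
    congr 1
    exact eLpNorm_congr_ae (Lp.coeFn_sub f g)
  rw [h2, h3]
  refine ENNReal.toReal_mono h0.eLpNorm_ne_top ?_
  exact eLpNorm_le_eLpNorm_of_exponent_le one_le_two h0.aestronglyMeasurable

lemma isClosed_Gd : IsClosed {f | Gd f} := by
  simp only [Gd, Set.ofPred_forall]
  refine isClosed_iInter fun u => isClosed_eq ?_ (by fun_prop)
  have : LipschitzWith (Real.toNNReal |u|)
      (fun f : Lp ℝ 2 gmeas => ∫ ω, Complex.exp (u * f ω * Complex.I) ∂gmeas) := by
    refine LipschitzWith.of_dist_le_mul fun f g => ?_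
    rw [dist_eq_norm, dist_eq_norm, Real.coe_toNNReal _ (abs_nonneg _)]
    exact lip f g u
  exact this.continuous


lemma charFun_eq (f : Lp ℝ 2 gmeas) (u : ℝ) :
    charFun (gmeas.map f) u = ∫ ω, Complex.exp (u * f ω * Complex.I) ∂gmeas := by
  rw [charFun_apply_real, integral_map (Lp.aestronglyMeasurable f).aemeasurable]
  exact AEMeasurable.aestronglyMeasurable (by fun_prop)

lemma Gd_iff (f : Lp ℝ 2 gmeas) :
    Gd f ↔ gmeas.map f = gaussianReal 0 (Real.toNNReal (‖f‖ ^ 2)) := by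
  have hm : AEMeasurable f gmeas := (Lp.aestronglyMeasurable f).aemeasurable
  have key : ∀ u : ℝ, charFun (gaussianReal 0 (Real.toNNReal (‖f‖ ^ 2))) u =
      Complex.exp (-(u ^ 2 * ‖f‖ ^ 2 / 2)) := fun u => by
    rw [charFun_gaussianReal, Real.coe_toNNReal _ (by positivity)]
    push_cast
    ring_nf
  constructor
  · intro h
    have := Measure.isProbabilityMeasure_map (μ := gmeas) hm
    refine Measure.ext_of_charFun ?_
    funext u
    rw [charFun_eq, h u, key]
  · intro h u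
    rw [← charFun_eq, h, key]

lemma norm_sq_eq (f : Lp ℝ 2 gmeas) : ‖f‖ ^ 2 = ∫ ω, f ω ^ 2 ∂gmeas := by
  rw [← real_inner_self_eq_norm_sq, inner_eq]
  simp only [sq]

lemma Gd_sum {ι : Type*} {φ : ι → ℕ} (hφ : Function.Injective φ) (a : ι → ℝ) (s : Finset ι) :
    Gd (∑ i ∈ s, a i • xi (φ i)) := by
  rw [Gd_iff]
  set f := ∑ i ∈ s, a i • xi (φ i) with hf
  set G : (ℕ → ℝ) → ℝ := fun ω => ∑ i : s, a i * ω (φ i) with hG
  have h1 : f =ᵐ[gmeas] G := by
    have e1 := Lp.coeFn_finsetSum s (fun i => a i • xi (φ i))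
    have e2 : ∀ᵐ ω ∂gmeas, ∀ i : s, (a i • xi (φ i) : Lp ℝ 2 gmeas) ω = a i * ω (φ i) := by
      rw [ae_all_iff]
      intro i
      filter_upwards [Lp.coeFn_smul (a i) (xi (φ i)), MemLp.coeFn_toLp (memLp_eval (φ i))] with ω h1 h2
      rw [h1, Pi.smul_apply, smul_eq_mul]
      congr 1
    filter_upwards [e1, e2] with ω h1 h2
    rw [hf, h1, hG]
    simp only [Finset.sum_apply]
    rw [← Finset.sum_coe_sort s (fun i => (a i • xi (φ i) : Lp ℝ 2 gmeas) ω)]
    exact Finset.sum_congr rfl fun i _ => h2 i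
  have h2 : HasGaussianLaw G gmeas := by
    refine iIndepFun.hasGaussianLaw_fun_sum (X := fun (i : s) (ω : ℕ → ℝ) => a i * ω (φ i))
      (fun i => ?_) ?_
    · exact ((gauss_eval (φ i)).hasGaussianLaw).fun_smul (a i)
    · have := (indep_eval.precomp (g := fun i : s => φ i)
        (hφ.comp Subtype.val_injective)).comp (fun i x => a i * x) (fun i => by fun_prop)
      exact this
  have h3 : ∫ ω, G ω ∂gmeas = 0 := by
    rw [integral_finsetSum]
    · refine Finset.sum_eq_zero fun i _ => ?_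
      rw [integral_const_mul, (gauss_eval (φ i)).integral_eq, integral_id_gaussianReal, mul_zero]
    · intro i _
      exact ((memLp_eval _).integrable one_le_two).const_mul _
  rw [Measure.map_congr h1, h2.map_eq_gaussianReal, h3]
  congr 2
  rw [variance_eq_sub h2.memLp_two, h3, norm_sq_eq]
  simp only [Pi.pow_apply, ne_eq, OfNat.ofNat_ne_zero, not_false_eq_true, zero_pow, sub_zero]
  refine integral_congr_ae ?_
  filter_upwards [h1] with ω h
  rw [h]


lemma neg_mp : MeasurePreserving (fun ξ : ℕ → ℝ => -ξ) gmeas gmeas := ⟨by fun_prop, gmeas_neg⟩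

/-- composition with the negation -/
noncomputable def Ng : Lp ℝ 2 gmeas →ₗᵢ[ℝ] Lp ℝ 2 gmeas :=
  Lp.compMeasurePreservingₗᵢ ℝ (fun ξ : ℕ → ℝ => -ξ) neg_mp

lemma Ng_coe (f : Lp ℝ 2 gmeas) : Ng f =ᵐ[gmeas] fun ξ => f (-ξ) :=
  Lp.coeFn_compMeasurePreserving f neg_mp

lemma Ng_xi (n : ℕ) : Ng (xi n) = - xi n := by
  apply Lp.ext
  have h1 := MemLp.coeFn_toLp (memLp_eval n)
  filter_upwards [Ng_coe (xi n), Lp.coeFn_neg (xi n), h1,
    neg_mp.quasiMeasurePreserving.ae h1] with ω h1 h2 h3 h4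
  rw [h1, h2, Pi.neg_apply]
  simp only [xi] at *
  rw [h3, h4]
  simp

/-- the Gaussian embedding of a separable Hilbert space -/
lemma exists_W (H : Type) [NormedAddCommGroup H] [InnerProductSpace ℝ H] [CompleteSpace H]
    [SecondCountableTopology H] :
    ∃ W : H →ₗᵢ[ℝ] Lp ℝ 2 gmeas, (∀ h, Gd (W h)) ∧ ∀ h, Ng (W h) = - W h := by
  obtain ⟨w, b, -⟩ := exists_hilbertBasis ℝ H
  have hc : Countable w := countable_of_orthonormal b.orthonormal
  obtain ⟨φ, hφ⟩ := exists_injective_nat w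
  have ho : Orthonormal ℝ (fun i : w => xi (φ i)) := orthonormal_xi.comp φ hφ
  have hO := ho.orthogonalFamily
  refine ⟨hO.linearIsometry.comp b.repr.toLinearIsometry, fun h => ?_, fun h => ?_⟩
  · have h1 := hO.hasSum_linearIsometry (b.repr h)
    refine isClosed_Gd.mem_of_tendsto h1 (Eventually.of_forall fun s => ?_)
    simp only [LinearIsometry.toSpanSingleton_apply]
    exact Gd_sum hφ (fun i => b.repr h i) s
  · have h1 := hO.hasSum_linearIsometry (b.repr h)
    have hcl : IsClosed {f : Lp ℝ 2 gmeas | Ng f = - f} :=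
      isClosed_eq Ng.continuous continuous_neg
    refine hcl.mem_of_tendsto h1 (Eventually.of_forall fun s => ?_)
    simp only [LinearIsometry.toSpanSingleton_apply]
    show Ng _ = - _
    rw [map_sum, ← Finset.sum_neg_distrib]
    refine Finset.sum_congr rfl fun i _ => ?_
    rw [map_smul, Ng_xi, smul_neg]


lemma integral_Gd {f : Lp ℝ 2 gmeas} (h : Gd f) : ∫ ω, f ω ∂gmeas = 0 := by
  have h1 : HasLaw f (gaussianReal 0 (Real.toNNReal (‖f‖ ^ 2))) gmeas :=
    ⟨(Lp.aestronglyMeasurable f).aemeasurable, (Gd_iff f).1 h⟩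
  rw [h1.integral_eq, integral_id_gaussianReal]

lemma Icc_ne (t : ℝ) : (volume : Measure ℝ) (Set.Icc 0 t) ≠ ∞ := by
  rw [Real.volume_Icc]; exact ENNReal.ofReal_ne_top

/-- the indicator function of `[0,t]` -/
noncomputable def e (t : ℝ≥0) : Lp ℝ 2 (volume : Measure ℝ) :=
  indicatorConstLp 2 (measurableSet_Icc (a := (0:ℝ)) (b := (t:ℝ))) (Icc_ne t) (1:ℝ)

lemma pre_of_W (W : Lp ℝ 2 (volume : Measure ℝ) →ₗᵢ[ℝ] Lp ℝ 2 gmeas) (hW : ∀ h, Gd (W h)) :
    IsPreBrownianReal (fun (t : ℝ≥0) => (W (e t) : (ℕ → ℝ) → ℝ)) gmeas := by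
  refine IsGaussianProcess.isPreBrownianReal_of_covariance ⟨fun I => ⟨?_⟩⟩ (fun t => ?_)
    (fun s t hst => ?_)
  · have hm : AEMeasurable (fun ω => I.restrict (fun t => (W (e t) : (ℕ → ℝ) → ℝ) ω)) gmeas :=
      aemeasurable_pi_lambda _ fun i => (Lp.aestronglyMeasurable _).aemeasurable
    refine isGaussian_of_map_eq_gaussianReal fun L => ?_
    rw [AEMeasurable.map_map_of_aemeasurable (by fun_prop) hm]
    set f := ∑ i : I, L (Pi.single i 1) • e i with hf
    refine ⟨0, Real.toNNReal (‖W f‖ ^ 2), ?_⟩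
    rw [← (Gd_iff _).1 (hW f)]
    refine Measure.map_congr ?_
    have e1 := Lp.coeFn_finsetSum univ (fun i : I => L (Pi.single i 1) • W (e i))
    have e2 : ∀ᵐ ω ∂gmeas, ∀ i : I, (L (Pi.single i 1) • W (e i) : Lp ℝ 2 gmeas) ω
        = L (Pi.single i 1) * (W (e i) : (ℕ → ℝ) → ℝ) ω := by
      rw [ae_all_iff]
      intro i
      filter_upwards [Lp.coeFn_smul (L (Pi.single i 1)) (W (e i))] with ω h1
      rw [h1, Pi.smul_apply, smul_eq_mul]
    have e3 : W f = ∑ i : I, L (Pi.single i 1) • W (e i) := by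
      rw [hf, map_sum]
      exact Finset.sum_congr rfl fun i _ => by rw [map_smul]
    filter_upwards [e1, e2] with ω h1 h2
    rw [e3, h1, Finset.sum_apply]
    simp only [Function.comp, h2]
    have h3 := LinearMap.pi_apply_eq_sum_univ (L : (I → ℝ) →ₗ[ℝ] ℝ)
      (I.restrict fun t => (W (e t) : (ℕ → ℝ) → ℝ) ω)
    refine h3.trans ?_
    refine Finset.sum_congr rfl fun i _ => ?_
    rw [smul_eq_mul, mul_comm]
    congr 1
    show L _ = L _
    congr 1
    funext j
    simp [Pi.single_apply, eq_comm]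
  · exact integral_Gd (hW _)
  · rw [covariance_eq_sub (Lp.memLp _) (Lp.memLp _), integral_Gd (hW _), zero_mul, sub_zero]
    simp only [Pi.mul_apply]
    rw [← inner_eq, W.inner_map_map, e, e, L2.real_inner_indicatorConstLp_one_indicatorConstLp_one
      _ _ (Icc_ne _) (Icc_ne _)]
    have : Set.Icc (0:ℝ) s ∩ Set.Icc (0:ℝ) t = Set.Icc (0:ℝ) s := by
      refine Set.inter_eq_left.2 (Set.Icc_subset_Icc le_rfl (by exact_mod_cast hst))
    rw [this]
    simp [Measure.real, Real.volume_Icc]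

end NOISEaux

open NOISEaux in
/-- `b t ξ = ∑ n, ξ_n ⟨e_n, 1_[0,t]⟩` for an orthonormal basis `e_n` of `L²(ℝ)` (when the series
converges, otherwise `0`). -/
theorem exists_BM : Nonempty BM := by
  have : Fact ((2:ℝ≥0∞) ≠ ∞) := ⟨by norm_num⟩
  obtain ⟨W, hW, hN⟩ := exists_W (Lp ℝ 2 (volume : Measure ℝ))
  have hpre := pre_of_W W hW
  set X : ℝ≥0 → (ℕ → ℝ) → ℝ := fun (t : ℝ≥0) => (W (e t) : (ℕ → ℝ) → ℝ) with hX
  have hXm : ∀ t, Measurable (X t) := fun t => (Lp.stronglyMeasurable _).measurable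
  have hodd : ∀ t, ∀ᵐ ξ ∂gmeas, X t (-ξ) = - X t ξ := fun t => by
    have h1 := Ng_coe (W (e t))
    rw [hN] at h1
    filter_upwards [h1, Lp.coeFn_neg (W (e t))] with ξ h2 h3
    simp only [hX]
    rw [← h2, h3, Pi.neg_apply]
  have hm : ∀ t, Measurable (fun ξ => (X t ξ - X t (-ξ)) / 2) := fun t =>
    ((hXm t).sub ((hXm t).comp measurable_neg)).div_const 2
  refine ⟨⟨fun t ξ => if t = 0 then 0 else (X t ξ - X t (-ξ)) / 2, fun t => ?_, fun t ξ => ?_,
    fun ξ => by simp, hpre.congr fun t => ?_⟩⟩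
  · by_cases ht : t = 0
    · simp only [ht, if_true]; exact measurable_const
    · simp only [ht, if_false]; exact hm t
  · by_cases ht : t = 0
    · simp [ht]
    · simp only [ht, if_false, neg_neg]; ring
  · by_cases ht : t = 0
    · subst ht
      filter_upwards [hpre.eval_zero_ae_eq_zero] with ξ h
      simpa using h
    · filter_upwards [hodd t] with ξ h
      simp only [ht, if_false]
      rw [h]
      simp only [hX]
      ring

theorem BM.law_inc (β : BM) {s t : ℝ≥0} (h : s ≤ t) :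
    gmeas.map (fun ξ => β.b t ξ - β.b s ξ) = gaussianReal 0 (t - s) := by
  have h1 := (β.pre.hasLaw_sub t s).map_eq
  have h2 : nndist t.1 s.1 = t - s := by
    apply NNReal.eq
    rw [coe_nndist, Real.dist_eq, NNReal.coe_sub h]
    exact abs_of_nonneg (sub_nonneg.2 (by exact_mod_cast h))
  rw [h2] at h1
  exact h1

theorem BM.indep_inc (β : BM) {s t : ℝ≥0} (h : s ≤ t) :
    Indep (⨆ r ∈ Set.Iic s, MeasurableSpace.comap (β.b r) inferInstance)
      (MeasurableSpace.comap (fun ξ => β.b t ξ - β.b s ξ) inferInstance) gmeas := by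
  have h1 := β.pre.indepFun_shift s
  rw [IndepFun_iff_Indep] at h1
  refine indep_of_indep_of_le_left (indep_of_indep_of_le_right h1.symm ?_) ?_
  · have h2 : (fun ξ => β.b t ξ - β.b s ξ) =
        (fun x : ℝ≥0 → ℝ => x (t - s)) ∘ (fun ω t ↦ β.b (s + t) ω - β.b s ω) := by
      funext ω
      simp only [Function.comp]
      rw [add_tsub_cancel_of_le h]
    rw [h2, ← MeasurableSpace.comap_comp]
    exact MeasurableSpace.comap_mono (measurable_pi_apply _).comap_le
  · refine iSup₂_le fun r hr => ?_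
    have h2 : β.b r =
        (fun x : Set.Iic s → ℝ => x ⟨r, hr⟩) ∘ (fun ω (t : Set.Iic s) ↦ β.b t ω) := rfl
    rw [h2, ← MeasurableSpace.comap_comp]
    exact MeasurableSpace.comap_mono (measurable_pi_apply _).comap_le

end Crest.Agent.R160

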