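import Crest.Agent.R160.Law
import Crest.Agent.R160.Noise

/-! Row 160, piece MSG-FUT: increments of the Brownian motions are independent of the past. -/

set_option autoImplicit false
open Finset Filter MeasureTheory ProbabilityTheory
open scoped Topology NNReal ENNReal

namespace Crest.Agent.R160

namespace MsgFutAux

/-- two independent random variables as a family indexed by `Bool` -/
theorem iIndepFun_of_bool {Ω : Type} {mΩ : MeasurableSpace Ω} {μ : Measure Ω}
    [IsProbabilityMeasure μ] {E : Bool → Type} {mE : ∀ b, MeasurableSpace (E b)}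
    (X : (b : Bool) → Ω → E b) (h : IndepFun (X false) (X true) μ) : iIndepFun X μ := by
  rw [iIndepFun_iff_measure_inter_preimage_eq_mul]
  intro S sets H
  have hS : S = ∅ ∨ S = {false} ∨ S = {true} ∨ S = {false, true} := by
    clear H
    revert S
    decide
  rcases hS with rfl | rfl | rfl | rfl
  · simp
  · simp
  · simp
  · rw [Finset.prod_pair (by simp)]
    have h1 := h.measure_inter_preimage_eq_mul (sets false) (sets true) (H false (by simp))
      (H true (by simp))
    rw [← h1]
    congr 1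
    ext ω
    simp

/-- the product sigma-algebra -/
abbrev pm {X Y : Type} (mX : MeasurableSpace X) (mY : MeasurableSpace Y) : MeasurableSpace (X × Y) :=
  @Prod.instMeasurableSpace X Y mX mY

/-- independence on the second factor, enlarged by the first factor -/
theorem indep_prod {X Y : Type} (mX : MeasurableSpace X) (mY mA mF : MeasurableSpace Y)
    (μ : @Measure X mX) (ν : @Measure Y mY) (hμ : @IsProbabilityMeasure X mX μ)
    (hν : @IsProbabilityMeasure Y mY ν)
    (hA : mA ≤ mY) (hF : mF ≤ mY) (h : @Indep Y mA mF mY ν) :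
    @Indep (X × Y) (mX.comap Prod.fst ⊔ mA.comap Prod.snd) (mF.comap Prod.snd) (pm mX mY)
      (@Measure.prod X Y mX mY μ ν) := by
  have hle : mX.comap Prod.fst ⊔ mA.comap Prod.snd ≤ pm mX mY :=
    sup_le_sup le_rfl (MeasurableSpace.comap_mono hA)
  have hle2 : mF.comap Prod.snd ≤ pm mX mY :=
    (MeasurableSpace.comap_mono hF).trans le_sup_right
  have hP : @IsProbabilityMeasure (X × Y) (pm mX mY) (@Measure.prod X Y mX mY μ ν) :=
    @Measure.prod.instIsProbabilityMeasure X Y mX mY μ ν hμ hν
  refine IndepSets.indep (m1 := mX.comap Prod.fst ⊔ mA.comap Prod.snd)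
    (m2 := mF.comap Prod.snd) (_mΩ := pm mX mY) (μ := @Measure.prod X Y mX mY μ ν)
    hle hle2 (@isPiSystem_prod X Y mX mA)
    (@MeasurableSpace.isPiSystem_measurableSet (X × Y) (mF.comap Prod.snd))
    (@generateFrom_prod X Y mX mA).symm
    (@MeasurableSpace.generateFrom_measurableSet _ (mF.comap Prod.snd)).symm ?_
  rw [IndepSets_iff]
  rintro t1 t2 ⟨A, hA1, B, hB1, rfl⟩ ⟨C, hC, rfl⟩
  have hAm : MeasurableSet[mX] A := hA1
  have hBm : MeasurableSet[mA] B := hB1
  have hB' : MeasurableSet[mY] B := hA B hBm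
  have hC' : MeasurableSet[mY] C := hF C hC
  have e1 : (A ×ˢ B) ∩ Prod.snd ⁻¹' C = A ×ˢ (B ∩ C) := by
    ext ⟨x, y⟩
    simp [and_assoc]
  have e2 : (Prod.snd ⁻¹' C : Set (X × Y)) = Set.univ ×ˢ C := by
    ext ⟨x, y⟩
    simp
  have hsf : @SFinite Y mY ν := inferInstance
  have pp : ∀ (s : Set X) (t : Set Y), @Measure.prod X Y mX mY μ ν (s ×ˢ t) = μ s * ν t :=
    fun s t => @Measure.prod_prod X Y mX mY μ ν _ s t
  rw [e1, e2, pp, pp, pp, measure_univ, one_mul, mul_assoc]
  congr 1
  exact (Indep_iff _ _ _).1 h B C hBm hC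

end MsgFutAux

open MsgFutAux

namespace Setup

variable {V : Type} [DecidableEq V] [Countable V] (S : Setup V)

theorem MsgFut_prob1 : IsProbabilityMeasure (Measure.infinitePi fun o : Option (Sym2 V) =>
    coin (o.elim (1 / 2) fun _ => (1 + S.θ) / 2)) := by
  have h1 : ∀ o : Option (Sym2 V),
      IsProbabilityMeasure (coin (o.elim (1 / 2) fun _ => (1 + S.θ) / 2)) := by
    intro o
    have hθ := S.θpos
    have hθ1 := S.theta_lt_one
    cases o with
    | none => exact LawAaux.coin_prob (by norm_num) (by norm_num)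
    | some e =>
      refine LawAaux.coin_prob ?_ ?_
      · show (0:ℝ) ≤ (1 + S.θ) / 2; linarith
      · show (1 + S.θ) / 2 ≤ 1; linarith
  infer_instance

theorem MsgFut_map_snd : S.P.map Prod.snd = Measure.infinitePi fun _ : V => gmeas := by
  have := S.MsgFut_prob1
  unfold P
  rw [Measure.map_snd_prod, measure_univ, one_smul]

theorem MsgFut_map_eval (v : V) : S.P.map (fun ω => ω.2 v) = gmeas := by
  have h : (fun ω : Om V => ω.2 v) = (fun ξ : V → ℕ → ℝ => ξ v) ∘ Prod.snd := rfl
  rw [h, ← Measure.map_map (measurable_pi_apply v) measurable_snd, S.MsgFut_map_snd]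
  exact (measurePreserving_eval_infinitePi (fun _ : V => gmeas) v).map_eq

/-- value type -/
abbrev MsgFutE (T : V → ℝ≥0) (v : V) (b : Bool) : Type :=
  match b with
  | true => ℝ
  | false => Set.Iic (T v) → ℝ

instance (T : V → ℝ≥0) (v : V) (b : Bool) : MeasurableSpace (MsgFutE T v b) :=
  match b with
  | true => inferInstanceAs (MeasurableSpace ℝ)
  | false => inferInstanceAs (MeasurableSpace (Set.Iic (T v) → ℝ))

/-- the path up to time `T v`, and the increment -/
noncomputable def MsgFutY (T T' : V → ℝ≥0) (v : V) (b : Bool) (ξ : ℕ → ℝ) : MsgFutE T v b :=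
  match b with
  | true => S.β.b (T' v) ξ - S.β.b (T v) ξ
  | false => fun r => S.β.b r ξ

theorem MsgFutY_meas (T T' : V → ℝ≥0) (v : V) (b : Bool) : Measurable (S.MsgFutY T T' v b) := by
  cases b
  · exact measurable_pi_lambda _ fun r => S.β.meas _
  · exact (S.β.meas _).sub (S.β.meas _)

theorem MsgFutY_indep (T T' : V → ℝ≥0) (hT : T ≤ T') (v : V) :
    IndepFun (S.MsgFutY T T' v false) (S.MsgFutY T T' v true) gmeas := by
  have h := BM.indep_inc S.β (hT v)
  rw [IndepFun_iff_Indep]
  refine indep_of_indep_of_le_left h ?_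
  show MeasurableSpace.comap (S.MsgFutY T T' v false) (⨆ a : Set.Iic (T v),
    MeasurableSpace.comap (fun x : Set.Iic (T v) → ℝ => x a) inferInstance) ≤ _
  rw [MeasurableSpace.comap_iSup]
  refine iSup_le fun r => ?_
  rw [MeasurableSpace.comap_comp]
  exact le_iSup₂_of_le (f := fun (r : ℝ≥0) (_ : r ∈ Set.Iic (T v)) =>
    MeasurableSpace.comap (S.β.b r) inferInstance) r.1 r.2 le_rfl

theorem MsgFut_iIndep (T T' : V → ℝ≥0) (hT : T ≤ T') :
    iIndepFun (fun (p : (_ : V) × Bool) (ω : V → ℕ → ℝ) => S.MsgFutY T T' p.1 p.2 (ω p.1))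
      (Measure.infinitePi fun _ : V => gmeas) := by
  refine iIndepFun_uncurry (κ := fun _ : V => Bool) (𝓧 := fun v b => MsgFutE T v b)
    (X := fun v b (ω : V → ℕ → ℝ) => S.MsgFutY T T' v b (ω v)) ?_ ?_ ?_
  · intro v b
    exact (S.MsgFutY_meas T T' v b).comp (measurable_pi_apply v)
  · exact iIndepFun_infinitePi (P := fun _ : V => gmeas)
      (X := fun v ξ (b : Bool) => S.MsgFutY T T' v b ξ)
      (fun v => measurable_pi_lambda _ fun b => S.MsgFutY_meas T T' v b)
  · intro v
    refine iIndepFun_of_bool _ ?_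
    have h := S.MsgFutY_indep T T' hT v
    rw [indepFun_iff_measure_inter_preimage_eq_mul] at h ⊢
    intro s t hs ht
    have mp := measurePreserving_eval_infinitePi (fun _ : V => gmeas) v
    have m1 : MeasurableSet (S.MsgFutY T T' v false ⁻¹' s) := S.MsgFutY_meas T T' v false hs
    have m2 : MeasurableSet (S.MsgFutY T T' v true ⁻¹' t) := S.MsgFutY_meas T T' v true ht
    have h1 := h s t hs ht
    rw [← mp.measure_preimage (m1.inter m2).nullMeasurableSet,
      ← mp.measure_preimage m1.nullMeasurableSet, ← mp.measure_preimage m2.nullMeasurableSet] at h1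
    exact h1

/-- MSG-6: the increments of the Brownian motions after the times `T` are independent of
`FF T ∨ σ(τ)`. -/
theorem indep_future (T T' : V → ℝ≥0) (hT : T ≤ T') :
    Indep (S.FF T Set.univ ⊔ ⨆ v, MeasurableSpace.comap (S.spin v) inferInstance)
      (⨆ v : V, MeasurableSpace.comap (fun ω => S.B (T' v) v ω - S.B (T v) v ω) inferInstance)
      S.P := by
  have h1 := S.MsgFut_prob1
  have h2 := S.MsgFut_iIndep T T' hT
  rw [iIndepFun_iff_iIndep] at h2
  have hle : ∀ p : (_ : V) × Bool, MeasurableSpace.comap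
      (fun (ω : V → ℕ → ℝ) => S.MsgFutY T T' p.1 p.2 (ω p.1)) inferInstance ≤
        (inferInstance : MeasurableSpace (V → ℕ → ℝ)) := fun p =>
    ((S.MsgFutY_meas T T' p.1 p.2).comp (measurable_pi_apply p.1)).comap_le
  have hdis : Disjoint {p : (_ : V) × Bool | p.2 = false} {p : (_ : V) × Bool | p.2 = true} := by
    rw [Set.disjoint_left]
    rintro ⟨v, b⟩ h h'
    simp only [Set.mem_ofPred_eq] at h h'
    rw [h] at h'
    exact Bool.noConfusion h'
  have h3 := indep_iSup_of_disjoint hle h2 hdis
  have h4 := indep_prod (inferInstance : MeasurableSpace (Option (Sym2 V) → Bool))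
    (inferInstance : MeasurableSpace (V → ℕ → ℝ)) _ _
    (Measure.infinitePi fun o : Option (Sym2 V) => coin (o.elim (1 / 2) fun _ => (1 + S.θ) / 2))
    (Measure.infinitePi fun _ : V => gmeas) h1 inferInstance
    (iSup₂_le fun p _ => hle p) (iSup₂_le fun p _ => hle p) h3
  refine indep_of_indep_of_le_left (indep_of_indep_of_le_right h4 ?_) ?_
  · refine iSup_le fun v => ?_
    have e : (fun ω : Om V => S.B (T' v) v ω - S.B (T v) v ω) =
        (fun (ω : V → ℕ → ℝ) => S.MsgFutY T T' v true (ω v)) ∘ Prod.snd := rfl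
    rw [e, ← MeasurableSpace.comap_comp]
    refine MeasurableSpace.comap_mono ?_
    exact le_iSup₂_of_le (f := fun (p : (_ : V) × Bool) (_ : p ∈ {p : (_ : V) × Bool | p.2 = true})
      => MeasurableSpace.comap
      (fun (ω : V → ℕ → ℝ) => S.MsgFutY T T' p.1 p.2 (ω p.1)) inferInstance) ⟨v, true⟩ rfl le_rfl
  · have hspin : ∀ v, MeasurableSpace.comap (S.spin v) inferInstance ≤
        MeasurableSpace.comap (Prod.fst : Om V → _) inferInstance := by
      intro v
      have e : S.spin v = (fun (c : Option (Sym2 V) → Bool) => sg (c none) *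
        ∏ i ∈ range (S.G.dist S.o v), sg (c (some s(geo S.G S.o v i, geo S.G S.o v (i + 1)))))
          ∘ Prod.fst := rfl
      rw [e, ← MeasurableSpace.comap_comp]
      refine MeasurableSpace.comap_mono (Measurable.comap_le ?_)
      have hsg : Measurable sg := measurable_of_countable _
      refine Measurable.mul (hsg.comp (measurable_pi_apply _)) ?_
      exact Finset.measurable_prod _ fun i _ => hsg.comp (measurable_pi_apply _)
    refine sup_le ?_ (iSup_le fun v => (hspin v).trans le_sup_left)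
    refine iSup₂_le fun v _ => iSup₂_le fun s hs => ?_
    set M := MeasurableSpace.comap (Prod.fst : Om V → _) inferInstance ⊔
      MeasurableSpace.comap (Prod.snd : Om V → _) (⨆ i ∈ {p : (_ : V) × Bool | p.2 = false},
        MeasurableSpace.comap (fun (ω : V → ℕ → ℝ) => S.MsgFutY T T' i.1 i.2 (ω i.1))
          inferInstance) with hM
    have g1 : Measurable[M] (S.spin v) :=
      measurable_iff_comap_le.2 ((hspin v).trans le_sup_left)
    have g2 : Measurable[M] (S.B s v) := by
      rw [measurable_iff_comap_le]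
      refine le_trans ?_ le_sup_right
      have e : S.B s v = (fun x : Set.Iic (T v) → ℝ => x ⟨s, hs⟩) ∘
          ((fun (ω : V → ℕ → ℝ) => S.MsgFutY T T' v false (ω v)) ∘ Prod.snd) := rfl
      rw [e, ← MeasurableSpace.comap_comp, ← MeasurableSpace.comap_comp]
      refine MeasurableSpace.comap_mono ?_
      refine le_trans (MeasurableSpace.comap_mono (measurable_pi_apply _).comap_le) ?_
      exact le_iSup₂_of_le
        (f := fun (p : (_ : V) × Bool) (_ : p ∈ {p : (_ : V) × Bool | p.2 = false})
        => MeasurableSpace.comap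
        (fun (ω : V → ℕ → ℝ) => S.MsgFutY T T' p.1 p.2 (ω p.1)) inferInstance) ⟨v, false⟩ rfl le_rfl
    have g3 : Measurable[M] (S.XX s v) := (g1.const_mul (s : ℝ)).add g2
    exact measurable_iff_comap_le.1 g3

/-- the increments `B_v(t) - B_v(s)`, `v ∈ V`, are iid `N(0, t-s)`. -/
theorem law_B_inc {s t : ℝ≥0} (h : s ≤ t) (v : V) :
    S.P.map (fun ω => S.B t v ω - S.B s v ω) = gaussianReal 0 (t - s) := by
  have e : (fun ω : Om V => S.B t v ω - S.B s v ω) =
      (fun ξ => S.β.b t ξ - S.β.b s ξ) ∘ (fun ω : Om V => ω.2 v) := rfl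
  have hm : Measurable (fun ξ : ℕ → ℝ => S.β.b t ξ - S.β.b s ξ) :=
    (S.β.meas t).sub (S.β.meas s)
  rw [e, ← Measure.map_map hm
    ((measurable_pi_apply v).comp measurable_snd), S.MsgFut_map_eval, BM.law_inc S.β h]

theorem iIndep_B_inc {s t : ℝ≥0} (h : s ≤ t) :
    iIndepFun (fun v ω => S.B t v ω - S.B s v ω) S.P := by
  have hm : ∀ _v : V, Measurable (fun ξ : ℕ → ℝ => S.β.b t ξ - S.β.b s ξ) :=
    fun _ => (S.β.meas t).sub (S.β.meas s)
  have h1 := iIndepFun_infinitePi (P := fun _ : V => gmeas)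
      (X := fun _ ξ => S.β.b t ξ - S.β.b s ξ) hm
  rw [iIndepFun_iff_measure_inter_preimage_eq_mul] at h1 ⊢
  intro A sets H
  have h2 := h1 A H
  have hX : ∀ v : V, Measurable (fun ω : V → ℕ → ℝ => S.β.b t (ω v) - S.β.b s (ω v)) :=
    fun v => (hm v).comp (measurable_pi_apply v)
  have e : ∀ (E : Set (V → ℕ → ℝ)), MeasurableSet E →
      (Measure.infinitePi fun _ : V => gmeas) E = S.P (Prod.snd ⁻¹' E) := by
    intro E hE
    rw [← S.MsgFut_map_snd, Measure.map_apply measurable_snd hE]
  rw [e _ (Finset.measurableSet_biInter _ fun v hv => hX v (H v hv))] at h2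
  rw [Finset.prod_congr rfl fun v hv => e _ (hX v (H v hv))] at h2
  convert h2 using 2
  · ext ω
    simp [B]
  · rfl

end Setup

end Crest.Agent.R160
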