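import Crest.Agent.R160.MsgFut
import Crest.Agent.R160.Bayes
import Crest.Agent.R160.Indep

/-! Row 160, piece MSG-SITE: one site posterior. -/

set_option autoImplicit false
open Finset Filter MeasureTheory ProbabilityTheory
open scoped Topology NNReal ENNReal

namespace Crest.Agent.R160
namespace MsgSiteaux

theorem one_sub_tanh_mul_exp (x : ℝ) :
    (1 - Real.tanh x) * Real.exp x = (1 + Real.tanh x) * Real.exp (-x) := by
  have hc := Real.cosh_pos x
  rw [Real.tanh_eq_sinh_div_cosh]
  field_simp
  rw [Real.cosh_eq, Real.sinh_eq]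
  ring

theorem pdf_identity (t : ℝ≥0) (ht : t ≠ 0) (y : ℝ) :
    gaussianPDFReal (t : ℝ) t y * (1 - Real.tanh y)
      = gaussianPDFReal (-(t : ℝ)) t y * (1 + Real.tanh y) := by
  have ht0 : (t : ℝ) ≠ 0 := by exact_mod_cast ht
  have h1 : Real.exp (-(y - t) ^ 2 / (2 * t))
      = Real.exp (-(y ^ 2 + t ^ 2) / (2 * t)) * Real.exp y := by
    rw [← Real.exp_add]; congr 1; field_simp; ring
  have h2 : Real.exp (-(y - -(t : ℝ)) ^ 2 / (2 * t))
      = Real.exp (-(y ^ 2 + t ^ 2) / (2 * t)) * Real.exp (-y) := by
    rw [← Real.exp_add]; congr 1; field_simp; ring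
  rw [gaussianPDFReal, gaussianPDFReal, h1, h2]
  linear_combination ((√(2 * Real.pi * t))⁻¹ * Real.exp (-(y ^ 2 + t ^ 2) / (2 * t)))
    * one_sub_tanh_mul_exp y

theorem gauss_identity (t : ℝ≥0) (ht : t ≠ 0) (f : ℝ → ℝ) (hf : Measurable f) :
    ∫ z, (1 - Real.tanh (t * 1 + z)) * f (t * 1 + z) ∂(gaussianReal 0 t)
      = ∫ z, (1 + Real.tanh (t * (-1) + z)) * f (t * (-1) + z) ∂(gaussianReal 0 t) := by
  have hG1 : Measurable (fun y : ℝ => (1 - Real.tanh y) * f y) :=
    (Bayes.tanh_measurable.const_sub 1).mul hf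
  have hG2 : Measurable (fun y : ℝ => (1 + Real.tanh y) * f y) :=
    (Bayes.tanh_measurable.const_add 1).mul hf
  have e1 : ∫ z, (1 - Real.tanh (t * 1 + z)) * f (t * 1 + z) ∂(gaussianReal 0 t)
      = ∫ y, (1 - Real.tanh y) * f y ∂(gaussianReal t t) := by
    have := gaussianReal_map_const_add (μ := 0) (v := t) ((t : ℝ) * 1)
    rw [zero_add, mul_one] at this
    rw [← this, integral_map (by fun_prop) hG1.aestronglyMeasurable]
    simp
  have e2 : ∫ z, (1 + Real.tanh (t * (-1) + z)) * f (t * (-1) + z) ∂(gaussianReal 0 t)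
      = ∫ y, (1 + Real.tanh y) * f y ∂(gaussianReal (-(t : ℝ)) t) := by
    have := gaussianReal_map_const_add (μ := 0) (v := t) ((t : ℝ) * (-1))
    rw [zero_add, mul_neg, mul_one] at this
    rw [← this, integral_map (by fun_prop) hG2.aestronglyMeasurable]
    simp
  rw [e1, e2, integral_gaussianReal_eq_integral_smul ht, integral_gaussianReal_eq_integral_smul ht]
  refine integral_congr_ae (Eventually.of_forall fun y => ?_)
  simp only [smul_eq_mul]
  have := pdf_identity t ht y
  linear_combination (f y) * this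

theorem core {Ω₁ Ω₂ E : Type} [MeasurableSpace Ω₁] [MeasurableSpace Ω₂] [MeasurableSpace E]
    (μ : Measure Ω₁) (ν : Measure Ω₂) [IsProbabilityMeasure μ] [IsProbabilityMeasure ν]
    (τ : Ω₁ → ℝ) (hτm : Measurable τ) (hτ : ∀ ω, τ ω = 1 ∨ τ ω = -1) (hτ0 : ∫ ω, τ ω ∂μ = 0)
    (t : ℝ≥0) (ht : t ≠ 0) (Z : Ω₂ → ℝ) (hZm : Measurable Z) (hZ : ν.map Z = gaussianReal 0 t)
    (Y : Ω₂ → E) (hYm : Measurable Y) (hind : IndepFun Z Y ν)
    (f : ℝ → ℝ) (hf : Measurable f) (hfb : ∀ x, |f x| ≤ 1)
    (g : E → ℝ) (hg : Measurable g) (hgb : ∀ x, |g x| ≤ 1) :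
    ∫ p, (τ p.1 - Real.tanh (t * τ p.1 + Z p.2)) * f (t * τ p.1 + Z p.2) * g (Y p.2)
      ∂(μ.prod ν) = 0 := by
  have hXm : Measurable (fun p : Ω₁ × Ω₂ => (t : ℝ) * τ p.1 + Z p.2) :=
    ((hτm.comp measurable_fst).const_mul _).add (hZm.comp measurable_snd)
  have hFm : Measurable (fun p : Ω₁ × Ω₂ =>
      (τ p.1 - Real.tanh (t * τ p.1 + Z p.2)) * f (t * τ p.1 + Z p.2) * g (Y p.2)) :=
    (((hτm.comp measurable_fst).sub (Bayes.tanh_measurable.comp hXm)).mul (hf.comp hXm)).mul
      (hg.comp (hYm.comp measurable_snd))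
  have hFi : Integrable (fun p : Ω₁ × Ω₂ =>
      (τ p.1 - Real.tanh (t * τ p.1 + Z p.2)) * f (t * τ p.1 + Z p.2) * g (Y p.2)) (μ.prod ν) := by
    refine Bayes.integrable_of_bdd hFm ⟨2, fun p => ?_⟩
    rw [abs_mul, abs_mul]
    have h1 : |τ p.1 - Real.tanh (t * τ p.1 + Z p.2)| ≤ 2 := by
      have ha := Bayes.sigma_bdd hτ p.1
      have hb := Bayes.tanh_bdd (t * τ p.1 + Z p.2)
      calc _ ≤ |τ p.1| + |Real.tanh (t * τ p.1 + Z p.2)| := abs_sub _ _
        _ ≤ 2 := by linarith
    calc _ ≤ (2 : ℝ) * 1 * 1 := by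
          refine mul_le_mul (mul_le_mul h1 (hfb _) (abs_nonneg _) (by norm_num)) (hgb _)
            (abs_nonneg _) (by norm_num)
      _ = 2 := by norm_num
  rw [integral_prod _ hFi]
  set γ : ℝ := ∫ z, (1 - Real.tanh (t * 1 + z)) * f (t * 1 + z) ∂(gaussianReal 0 t) with hγ
  have hinner : ∀ c : Ω₁, ∫ x, (τ c - Real.tanh (t * τ c + Z x)) * f (t * τ c + Z x) * g (Y x) ∂ν
      = τ c * (γ * ∫ x, g (Y x) ∂ν) := by
    intro c
    set G : ℝ → ℝ := fun z => (τ c - Real.tanh (t * τ c + z)) * f (t * τ c + z) with hG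
    have hGm : Measurable G :=
      ((Bayes.tanh_measurable.comp (measurable_const_add _)).const_sub _).mul
        (hf.comp (measurable_const_add _))
    have e1 : ∫ x, G (Z x) * g (Y x) ∂ν = (∫ x, G (Z x) ∂ν) * ∫ x, g (Y x) ∂ν :=
      (hind.comp hGm hg).integral_fun_mul_eq_mul_integral
        (hGm.comp hZm).aestronglyMeasurable (hg.comp hYm).aestronglyMeasurable
    have e2 : ∫ x, G (Z x) ∂ν = ∫ z, G z ∂(gaussianReal 0 t) := by
      rw [← hZ, integral_map hZm.aemeasurable hGm.aestronglyMeasurable]
    have e3 : ∫ z, G z ∂(gaussianReal 0 t) = τ c * γ := by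
      rcases hτ c with h | h
      · simp only [hG, h, hγ, one_mul]
      · rw [hγ, gauss_identity t ht f hf]
        simp only [hG, h]
        rw [neg_one_mul, ← integral_neg]
        refine integral_congr_ae (Eventually.of_forall fun z => ?_)
        simp only []
        ring
    calc _ = ∫ x, G (Z x) * g (Y x) ∂ν := rfl
      _ = _ := by rw [e1, e2, e3]; ring
  simp only [hinner]
  rw [integral_mul_const, hτ0, zero_mul]

theorem isProb_coin {p : ℝ} (h0 : 0 ≤ p) (h1 : p ≤ 1) : IsProbabilityMeasure (coin p) := by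
  constructor
  rw [coin]
  simp only [Measure.coe_add, Measure.coe_smul, Pi.add_apply, Pi.smul_apply, measure_univ,
    smul_eq_mul, mul_one]
  rw [← ENNReal.ofReal_add h0 (by linarith)]
  simp

theorem indep_bridge (β : BM) (t : ℝ≥0) (ht : t ≠ 0) :
    IndepFun (fun ξ => β.b t ξ)
      (fun ξ (s : Set.Iic t) => β.b s ξ - ((s : ℝ≥0) / t : ℝ) * β.b t ξ) gmeas := by
  have hB := β.pre
  have ht0 : (t : ℝ) ≠ 0 := by exact_mod_cast ht
  have key : IndepFun (fun ξ (_ : Unit) => β.b t ξ)
      (fun ξ (s : Set.Iic t) => β.b s ξ - ((s : ℝ≥0) / t : ℝ) * β.b t ξ) gmeas := by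
    apply IsGaussianProcess.indepFun_of_covariance_eq_zero (X := fun (_ : Unit) ξ => β.b t ξ)
      (Y := fun (s : Set.Iic t) ξ => β.b s ξ - ((s : ℝ≥0) / t : ℝ) * β.b t ξ)
    · apply hB.isGaussianProcess.of_isGaussianProcess
      rintro (_ | ⟨s, hs⟩)
      · exact ⟨{t},
          { toFun x := x ⟨t, by simp⟩
            map_add' x y := by simp
            map_smul' c x := by simp }, by simp⟩
      · exact ⟨{s, t},
          { toFun x := x ⟨s, by simp⟩ - ((s : ℝ≥0) / t : ℝ) * x ⟨t, by simp⟩
            map_add' x y := by simp; ring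
            map_smul' c x := by simp; ring }, by simp⟩
    · intro _; exact (β.meas t).aemeasurable
    · intro s; exact ((β.meas s).sub ((β.meas t).const_mul _)).aemeasurable
    · rintro _ ⟨s, hs : s ≤ t⟩
      have m2 : ∀ r, MemLp (β.b r) 2 gmeas := fun r =>
        (hB.isGaussianProcess.hasGaussianLaw_eval r).memLp_two
      rw [covariance_fun_sub_right (m2 t) (m2 s) ((m2 t).const_mul _),
        covariance_const_mul_right, hB.covariance_eval, hB.covariance_eval, min_eq_right hs,
        min_self]
      field_simp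
      simp
  exact key.comp (φ := fun x : Unit → ℝ => x ()) (ψ := id) (by fun_prop) measurable_id

end MsgSiteaux

namespace Setup

variable {V : Type} [DecidableEq V] [Countable V] (S : Setup V)

/-- MSG-1: one site: `E[τ_v | X_v(s), s ≤ t] = tanh X_v(t)`. (Increments along a finite partition
are conditionally independent observations: `bayes` with `E[τ | ΔX] = tanh ΔX`; then Lévy upward
along dyadic partitions, or Gaussian independence of the bridge from `B_v(t)`.) -/
theorem condExp_site (t : ℝ≥0) (v : V) :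
    S.P[S.spin v | S.FF (fun _ => t) {v}] =ᵐ[S.P] fun ω => Real.tanh (S.XX t v ω) := by
  classical
  have hFFle : S.FF (fun _ => t) {v} ≤ mOm V := S.FF_le _ _
  have hspm : Measurable (S.spin v) := S.measurable_spin v
  have hσi : Integrable (S.spin v) S.P :=
    Bayes.integrable_of_bdd hspm ⟨1, Bayes.sigma_bdd (S.spin_val v)⟩
  rcases eq_or_ne t 0 with rfl | ht
  · have hbot : S.FF (fun _ => 0) {v} = ⊥ := by
      refine eq_bot_iff.mpr (iSup₂_le fun v' hv' => iSup₂_le fun s hs => ?_)
      have hs0 : s = 0 := le_antisymm hs zero_le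
      have : S.XX s v' = fun _ => 0 := by
        funext ω
        rw [hs0, XX, B, S.β.zero]
        simp
      rw [this, MeasurableSpace.comap_const]
    rw [hbot, condExp_bot]
    refine Eventually.of_forall fun ω => ?_
    have : S.XX 0 v ω = 0 := by rw [XX, B, S.β.zero]; simp
    simp only [this, Real.tanh_zero]
    exact S.integral_spin v
  · have ht0 : (t : ℝ) ≠ 0 := by exact_mod_cast ht
    have hXm : Measurable (S.XX t v) := S.measurable_XX t v
    have hXFF : ∀ s ≤ t, Measurable[S.FF (fun _ => t) {v}] (S.XX s v) := by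
      intro s hs
      refine Measurable.of_comap_le ?_
      exact le_iSup₂_of_le v rfl (le_iSup₂_of_le s hs le_rfl)
    set g : Om V → ℝ := fun ω => Real.tanh (S.XX t v ω) with hg
    have hgm : Measurable g := Bayes.tanh_measurable.comp hXm
    have hgFF : Measurable[S.FF (fun _ => t) {v}] g :=
      Bayes.tanh_measurable.comp (hXFF t le_rfl)
    have hgi : Integrable g S.P :=
      Bayes.integrable_of_bdd hgm ⟨1, fun ω => Bayes.tanh_bdd _⟩
    have hdi : Integrable (fun ω => S.spin v ω - g ω) S.P := hσi.sub hgi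
    -- the map to endpoint and bridge
    set YY : (ℕ → ℝ) → (Set.Iic t → ℝ) :=
      fun ξ s => S.β.b s ξ - ((s : ℝ≥0) / t : ℝ) * S.β.b t ξ with hYY
    have hYYm : Measurable YY := measurable_pi_lambda _ fun s =>
      (S.β.meas s).sub ((S.β.meas t).const_mul _)
    set Φ : Om V → ℝ × (Set.Iic t → ℝ) := fun ω => (S.XX t v ω, YY (ω.2 v)) with hΦ
    have hYom : Measurable (fun ω : Om V => YY (ω.2 v)) :=
      hYYm.comp ((measurable_pi_apply v).comp measurable_snd)
    have hΦm : Measurable Φ := hXm.prodMk hYom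
    have hle : S.FF (fun _ => t) {v} ≤ MeasurableSpace.comap Φ inferInstance := by
      refine iSup₂_le fun v' hv' => iSup₂_le fun s hs => ?_
      have hv : v' = v := hv'
      subst hv
      have hs' : s ≤ t := hs
      have heq : S.XX s v' = (fun p : ℝ × (Set.Iic t → ℝ) =>
          p.2 ⟨s, hs'⟩ + ((s : ℝ) / t) * p.1) ∘ Φ := by
        funext ω
        simp only [hΦ, hYY, Function.comp, XX, B]
        field_simp
        ring
      rw [heq, ← MeasurableSpace.comap_comp]
      apply MeasurableSpace.comap_mono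
      refine Measurable.comap_le ?_
      exact ((measurable_pi_apply _).comp measurable_snd).add (measurable_fst.const_mul _)
    -- the factors of the measure
    have hθ1 : S.θ ≤ 1 := by
      have h3 : (3 : ℝ) ≤ S.d := by exact_mod_cast S.rt.three_le
      have := S.θle
      have := S.θpos
      nlinarith
    have hcoin : ∀ o : Option (Sym2 V),
        IsProbabilityMeasure (coin (o.elim (1 / 2) fun _ => (1 + S.θ) / 2)) := by
      intro o
      have := S.θpos
      cases o with
      | none => exact MsgSiteaux.isProb_coin (by norm_num [Option.elim]) (by norm_num [Option.elim])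
      | some e =>
        exact MsgSiteaux.isProb_coin (by simp only [Option.elim]; linarith)
          (by simp only [Option.elim]; linarith)
    set μ1 : Measure (Option (Sym2 V) → Bool) :=
      Measure.infinitePi fun o : Option (Sym2 V) => coin (o.elim (1 / 2) fun _ => (1 + S.θ) / 2)
      with hμ1
    set μ2 : Measure (V → ℕ → ℝ) := Measure.infinitePi fun _ : V => gmeas with hμ2
    have hP : S.P = μ1.prod μ2 := rfl
    have hpres : MeasurePreserving (Prod.map id (fun x : V → ℕ → ℝ => x v)) (μ1.prod μ2)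
        (μ1.prod gmeas) :=
      (MeasurePreserving.id μ1).prod (measurePreserving_eval_infinitePi (fun _ : V => gmeas) v)
    set τ : (Option (Sym2 V) → Bool) → ℝ := fun c => S.spin v (c, 0) with hτdef
    have hspin : ∀ ω, S.spin v ω = τ ω.1 := fun ω => rfl
    have hτm : Measurable τ := hspm.comp measurable_prodMk_right
    have hτv : ∀ c, τ c = 1 ∨ τ c = -1 := fun c => S.spin_val v (c, 0)
    have hτ0 : ∫ c, τ c ∂μ1 = 0 := by
      have h1 := S.integral_spin v
      rw [hP] at h1
      have h2 := integral_map (μ := μ1.prod μ2) (φ := Prod.fst) (f := τ)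
        measurable_fst.aemeasurable (by
          rw [(measurePreserving_fst (μ := μ1) (ν := μ2)).map_eq]
          exact hτm.aestronglyMeasurable)
      rw [(measurePreserving_fst (μ := μ1) (ν := μ2)).map_eq] at h2
      rw [h2]
      exact h1
    -- main identity
    have hmain : ∀ R : Set (ℝ × (Set.Iic t → ℝ)), MeasurableSet R →
        ∫ ω in Φ ⁻¹' R, (S.spin v ω - g ω) ∂S.P = 0 := by
      have hbasic : ∀ C : Set ℝ, MeasurableSet C → ∀ D : Set (Set.Iic t → ℝ), MeasurableSet D →
          ∫ ω in Φ ⁻¹' (C ×ˢ D), (S.spin v ω - g ω) ∂S.P = 0 := by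
        intro C hC D hD
        have hcore := MsgSiteaux.core μ1 gmeas τ hτm hτv hτ0 t ht (S.β.b t) (S.β.meas t)
          (S.β.pre.hasLaw_eval t).map_eq YY hYYm (MsgSiteaux.indep_bridge S.β t ht)
          (C.indicator fun _ => (1 : ℝ)) (measurable_const.indicator hC)
          (fun x => by simp only [Set.indicator]; split_ifs <;> simp)
          (D.indicator fun _ => (1 : ℝ)) (measurable_const.indicator hD)
          (fun x => by simp only [Set.indicator]; split_ifs <;> simp)
        rw [← integral_indicator (hΦm (hC.prod hD)), ← hcore, ← hpres.map_eq,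
          integral_map hpres.measurable.aemeasurable, hP]
        · refine integral_congr_ae (Eventually.of_forall fun ω => ?_)
          simp only [Set.indicator, Set.mem_preimage, Set.mem_prod, hΦ, Prod.map, id]
          have hX : S.XX t v ω = t * τ ω.1 + S.β.b t (ω.2 v) := rfl
          rw [← hX, hspin]
          by_cases h1 : S.XX t v ω ∈ C
          · by_cases h2 : YY (ω.2 v) ∈ D
            · rw [if_pos ⟨h1, h2⟩, if_pos h1, if_pos h2]; simp [hg]
            · rw [if_neg (fun h => h2 h.2), if_neg h2]; simp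
          · rw [if_neg (fun h => h1 h.1), if_neg h1]; simp
        · have hXm' : Measurable (fun p : (Option (Sym2 V) → Bool) × (ℕ → ℝ) =>
              (t : ℝ) * τ p.1 + S.β.b t p.2) :=
            ((hτm.comp measurable_fst).const_mul _).add ((S.β.meas t).comp measurable_snd)
          exact ((((hτm.comp measurable_fst).sub (Bayes.tanh_measurable.comp hXm')).mul
            ((measurable_const.indicator hC).comp hXm')).mul
            ((measurable_const.indicator hD).comp
              (hYYm.comp measurable_snd))).aestronglyMeasurable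
      have htot : ∫ ω, (S.spin v ω - g ω) ∂S.P = 0 := by
        have := hbasic Set.univ MeasurableSet.univ Set.univ MeasurableSet.univ
        simpa using this
      intro R hR
      induction R, hR using MeasurableSpace.induction_on_inter generateFrom_prod.symm
        isPiSystem_prod with
      | empty => simp
      | basic R' hR' =>
        obtain ⟨C, hC, D, hD, rfl⟩ := hR'
        exact hbasic C hC D hD
      | compl R' hR' ih =>
        have := integral_add_compl (hΦm hR') hdi
        rw [ih, htot] at this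
        rw [Set.preimage_compl]
        linarith
      | iUnion f hdisj hfm ih =>
        rw [Set.preimage_iUnion, integral_iUnion (fun i => hΦm (hfm i))
          (fun i j hij => (hdisj hij).preimage Φ) hdi.integrableOn]
        exact (tsum_congr ih).trans tsum_zero
    refine (ae_eq_condExp_of_forall_setIntegral_eq hFFle hσi (fun s _ _ => hgi.integrableOn)
      (fun s hs _ => ?_) hgFF.aestronglyMeasurable).symm
    obtain ⟨R, hR, rfl⟩ := hle s hs
    have h1 := hmain R hR
    rw [integral_sub hσi.integrableOn hgi.integrableOn] at h1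
    linarith

end Setup
end Crest.Agent.R160
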