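import Crest.Agent.R160.Q
import Crest.Agent.R160.Bernstein

/-! Row 160, piece TAIL (3c): stretched exponential tail of the messages for small `t`.

The proof does not use Bernstein's inequality: with `g(l) = E (1 + θ τ_y) exp(l gf(cav x y))` one has
`g(l) ≤ exp(θ l t + θ² l² t / 2) ∏_z g(θ l)` (conditional independence, contraction, symmetry), and
`g(l) ≤ exp(C (l + l²) √t)` for small `l`. Iterate `r` times with `θ^r ≤ t^(1/4) ≤ θ^(r-1)`. -/

set_option autoImplicit false
set_option linter.unusedSectionVars false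
open Finset Filter MeasureTheory ProbabilityTheory
open scoped Topology NNReal ENNReal

namespace Crest.Agent.R160

namespace Tailaux

/-! ### real inequalities -/

theorem cosh_le {x : ℝ} (hx : |x| ≤ 1) : Real.cosh x ≤ 1 + x ^ 2 := by
  have h := Real.abs_exp_sub_one_sub_id_le hx
  have h' := Real.abs_exp_sub_one_sub_id_le (x := -x) (by simpa using hx)
  rw [Real.cosh_eq]
  have h1 := (abs_le.1 h).2
  have h2 := (abs_le.1 h').2
  nlinarith

theorem abs_sinh_le {x : ℝ} (hx : |x| ≤ 1) : |Real.sinh x| ≤ 2 * |x| := by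
  have h := Real.abs_exp_sub_one_sub_id_le hx
  have h' := Real.abs_exp_sub_one_sub_id_le (x := -x) (by simpa using hx)
  have h3 : x ^ 2 ≤ |x| := by
    rw [← sq_abs]; nlinarith [abs_nonneg x]
  rw [Real.sinh_eq]
  obtain ⟨h1, h1'⟩ := abs_le.1 h
  obtain ⟨h2, h2'⟩ := abs_le.1 h'
  rw [abs_le]
  constructor <;> rcases abs_cases x with ⟨h4, _⟩ | ⟨h4, _⟩ <;> rw [h4] at h3 ⊢ <;> nlinarith

theorem sinh_mul_tanh_nonneg {l a h : ℝ} (hl : 0 ≤ l) (hah : 0 ≤ a * h) :
    0 ≤ Real.tanh h * Real.sinh (l * a) := by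
  rcases lt_trichotomy h 0 with hh | hh | hh
  · have ha : a ≤ 0 := by nlinarith
    have h1 : Real.tanh h ≤ 0 := by
      rw [Real.tanh_eq_sinh_div_cosh]
      exact div_nonpos_of_nonpos_of_nonneg (Real.sinh_nonpos_iff.2 hh.le) (Real.cosh_pos h).le
    have h2 : Real.sinh (l * a) ≤ 0 := Real.sinh_nonpos_iff.2 (mul_nonpos_of_nonneg_of_nonpos hl ha)
    exact mul_nonneg_of_nonpos_of_nonpos h1 h2
  · subst hh; simp
  · have ha : 0 ≤ a := by
      by_contra hc
      push Not at hc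
      nlinarith
    have h1 : 0 ≤ Real.tanh h := by
      rw [Real.tanh_eq_sinh_div_cosh]
      exact div_nonneg (Real.sinh_nonneg_iff.2 hh.le) (Real.cosh_pos h).le
    exact mul_nonneg h1 (Real.sinh_nonneg_iff.2 (mul_nonneg hl ha))

/-- contraction -/
theorem compare {θ l a h : ℝ} (h0 : 0 < θ) (h1 : θ < 1) (hl : 0 ≤ l) (ha : |a| ≤ θ * |h|)
    (hah : 0 ≤ a * h) :
    Real.cosh (l * a) + θ * Real.tanh h * Real.sinh (l * a) ≤
      Real.cosh (θ * l * h) + Real.tanh h * Real.sinh (θ * l * h) := by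
  have hc : Real.cosh (l * a) ≤ Real.cosh (θ * l * h) := by
    rw [Real.cosh_le_cosh, abs_mul, abs_mul, abs_mul, abs_of_nonneg hl, abs_of_pos h0]
    calc l * |a| ≤ l * (θ * |h|) := by gcongr
      _ = θ * l * |h| := by ring
  have hs : 0 ≤ Real.tanh h * Real.sinh (l * a) := sinh_mul_tanh_nonneg hl hah
  have hs2 : Real.tanh h * Real.sinh (l * a) ≤ Real.tanh h * Real.sinh (θ * l * h) := by
    rcases le_total 0 h with hh | hh
    · have h1 : 0 ≤ Real.tanh h := by
        rw [Real.tanh_eq_sinh_div_cosh]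
        exact div_nonneg (Real.sinh_nonneg_iff.2 hh) (Real.cosh_pos h).le
      apply mul_le_mul_of_nonneg_left _ h1
      rw [Real.sinh_le_sinh]
      rw [abs_of_nonneg hh] at ha
      calc l * a ≤ l * (θ * h) := by gcongr; exact (le_abs_self a).trans ha
        _ = θ * l * h := by ring
    · have h1 : Real.tanh h ≤ 0 := by
        rw [Real.tanh_eq_sinh_div_cosh]
        exact div_nonpos_of_nonpos_of_nonneg (Real.sinh_nonpos_iff.2 hh) (Real.cosh_pos h).le
      apply mul_le_mul_of_nonpos_left _ h1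
      rw [Real.sinh_le_sinh]
      rw [abs_of_nonpos hh] at ha
      calc θ * l * h = l * (θ * h) := by ring
        _ ≤ l * a := by gcongr; nlinarith [neg_abs_le a]
  have : θ * Real.tanh h * Real.sinh (l * a) ≤ Real.tanh h * Real.sinh (l * a) := by
    rw [mul_assoc]
    nlinarith
  linarith

/-- artanh is odd and expanding -/
theorem gf_mul_nonneg {θ : ℝ} (h0 : 0 < θ) (h1 : θ < 1) (h : ℝ) : 0 ≤ gf θ h * h := by
  have e := tanh_gf h0 h1 h
  have key : ∀ x : ℝ, 0 ≤ x → 0 ≤ gf θ x := by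
    intro x hx
    have e := tanh_gf h0 h1 x
    have h2 : 0 ≤ Real.tanh x := by
      rw [Real.tanh_eq_sinh_div_cosh]
      exact div_nonneg (Real.sinh_nonneg_iff.2 hx) (Real.cosh_pos x).le
    by_contra hc
    push Not at hc
    have h3 : Real.tanh (gf θ x) < 0 := by
      rw [Real.tanh_eq_sinh_div_cosh]
      exact div_neg_of_neg_of_pos (Real.sinh_neg_iff.2 hc) (Real.cosh_pos _)
    rw [e] at h3
    nlinarith
  rcases le_total 0 h with hh | hh
  · exact mul_nonneg (key h hh) hh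
  · have := key (-h) (by linarith)
    rw [gf_odd] at this
    nlinarith

theorem abs_tanh_le (x : ℝ) : |Real.tanh x| ≤ |x| := by
  have hmono : Monotone fun x : ℝ => x * Real.cosh x - Real.sinh x := by
    have hd : ∀ x : ℝ, HasDerivAt (fun x : ℝ => x * Real.cosh x - Real.sinh x)
        (x * Real.sinh x) x := by
      intro x
      have := ((hasDerivAt_id x).mul (Real.hasDerivAt_cosh x)).sub (Real.hasDerivAt_sinh x)
      refine this.congr_deriv ?_
      simp
    apply monotone_of_deriv_nonneg (fun x => (hd x).differentiableAt)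
    intro x
    rw [(hd x).deriv]
    rcases le_total 0 x with hx | hx
    · exact mul_nonneg hx (Real.sinh_nonneg_iff.2 hx)
    · exact mul_nonneg_of_nonpos_of_nonpos hx (Real.sinh_nonpos_iff.2 hx)
  have key : ∀ x : ℝ, 0 ≤ x → Real.tanh x ≤ x := by
    intro x hx
    rw [Real.tanh_eq_sinh_div_cosh, div_le_iff₀ (Real.cosh_pos x)]
    have := hmono hx
    simp only [zero_mul, Real.sinh_zero, sub_zero] at this
    linarith
  have key2 : ∀ x : ℝ, 0 ≤ x → 0 ≤ Real.tanh x := by
    intro x hx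
    rw [Real.tanh_eq_sinh_div_cosh]
    exact div_nonneg (Real.sinh_nonneg_iff.2 hx) (Real.cosh_pos x).le
  rcases le_total 0 x with hx | hx
  · rw [abs_of_nonneg hx, abs_of_nonneg (key2 x hx)]
    exact key x hx
  · have h1 := key (-x) (by linarith)
    have h2 := key2 (-x) (by linarith)
    rw [Real.tanh_neg] at h1 h2
    rw [abs_of_nonpos hx, abs_of_nonpos (by linarith)]
    exact h1

theorem tanh_le_gf {θ : ℝ} (h0 : 0 < θ) (h1 : θ < 1) (h : ℝ) : θ * |Real.tanh h| ≤ |gf θ h| := by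
  have e := tanh_gf h0 h1 h
  calc θ * |Real.tanh h| = |Real.tanh (gf θ h)| := by rw [e, abs_mul, abs_of_pos h0]
    _ ≤ |gf θ h| := abs_tanh_le _

/-! ### probability -/

section prob

variable {V : Type} [DecidableEq V] [Countable V] (S : Setup V)

theorem B_zero (v : V) (ω : Om V) : S.B 0 v ω = 0 := S.β.zero _

theorem law_B (t : ℝ≥0) (v : V) : S.P.map (S.B t v) = gaussianReal 0 t := by
  have h := S.law_B_inc (s := 0) (t := t) zero_le v
  simpa [B_zero S] using h

theorem integrable_exp_B (t : ℝ≥0) (v : V) (l : ℝ) :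
    Integrable (fun ω => Real.exp (l * S.B t v ω)) S.P := by
  have h := integrable_exp_mul_gaussianReal (μ := 0) (v := t) l
  rw [← law_B S t v] at h
  exact h.comp_measurable (S.measurable_B t v)

theorem integral_exp_B (t : ℝ≥0) (v : V) (l : ℝ) :
    ∫ ω, Real.exp (l * S.B t v ω) ∂S.P = Real.exp (t * l ^ 2 / 2) := by
  have h := mgf_gaussianReal (law_B S t v) l
  rw [mgf] at h
  rw [h]
  simp

theorem abs_spin (v : V) (ω : Om V) : |S.spin v ω| = 1 := by
  rcases S.spin_val v ω with h | h <;> simp [h]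

theorem one_add_spin_mem (v : V) (ω : Om V) : 0 ≤ 1 + S.spin v ω ∧ 1 + S.spin v ω ≤ 2 := by
  rcases S.spin_val v ω with h | h <;> norm_num [h]

theorem indepFun_spin_B (t : ℝ≥0) (v : V) : IndepFun (S.spin v) (S.B t v) S.P := by
  have h := S.indep_future (fun _ => 0) (fun _ => t) (fun _ => zero_le)
  rw [IndepFun_iff_Indep]
  refine indep_of_indep_of_le h ?_ ?_
  · exact le_sup_of_le_right (le_iSup (fun v => MeasurableSpace.comap (S.spin v) inferInstance) v)
  · have h1 := le_iSup (fun v => MeasurableSpace.comap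
      (fun ω => S.B t v ω - S.B 0 v ω) (inferInstance : MeasurableSpace ℝ)) v
    simp only [B_zero, sub_zero] at h1 ⊢
    exact h1

theorem integral_one_add_spin_exp_B (t : ℝ≥0) (v : V) (l : ℝ) :
    ∫ ω, (1 + S.spin v ω) * Real.exp (l * S.B t v ω) ∂S.P = Real.exp (t * l ^ 2 / 2) := by
  have h1 : ∫ ω, (1 + S.spin v ω) ∂S.P = 1 := by
    rw [integral_add (integrable_const _) , S.integral_spin]
    · simp
    · apply Integrable.of_bound (S.measurable_spin v).aestronglyMeasurable 1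
      exact ae_of_all _ fun ω => by rw [Real.norm_eq_abs, abs_spin]
  have h2 := integral_exp_B S t v l
  have hind := indepFun_spin_B S t v
  have h3 := hind.integral_fun_comp_mul_comp (f := fun a => 1 + a) (g := fun b => Real.exp (l * b))
    (S.measurable_spin v).aemeasurable (S.measurable_B t v).aemeasurable
    (by fun_prop) (by fun_prop)
  rw [h3, h1, h2, one_mul]

theorem XX_eq (t : ℝ≥0) (v : V) (ω : Om V) : S.XX t v ω = t * S.spin v ω + S.B t v ω := rfl

theorem one_add_spin_exp (t : ℝ≥0) (v : V) (l : ℝ) (ω : Om V) :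
    (1 + S.spin v ω) * Real.exp (l * S.XX t v ω) =
      Real.exp (l * t) * ((1 + S.spin v ω) * Real.exp (l * S.B t v ω)) := by
  rcases S.spin_val v ω with h | h
  · rw [XX_eq, h, mul_one, mul_add, Real.exp_add]; ring
  · rw [h]; simp

theorem integral_one_add_spin_exp_XX (t : ℝ≥0) (v : V) (l : ℝ) :
    ∫ ω, (1 + S.spin v ω) * Real.exp (l * S.XX t v ω) ∂S.P =
      Real.exp (l * t + l ^ 2 * t / 2) := by
  simp_rw [one_add_spin_exp]
  rw [integral_const_mul, integral_one_add_spin_exp_B, ← Real.exp_add]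
  congr 1; ring

theorem integrable_exp_XX (t : ℝ≥0) (v : V) (l : ℝ) :
    Integrable (fun ω => Real.exp (l * S.XX t v ω)) S.P := by
  have h : Integrable (fun ω => Real.exp (|l| * t) * Real.exp (l * S.B t v ω)) S.P :=
    (integrable_exp_B S t v l).const_mul _
  refine h.mono' ?_ (ae_of_all _ fun ω => ?_)
  · exact (Real.measurable_exp.comp ((S.measurable_XX t v).const_mul l)).aestronglyMeasurable
  · rw [Real.norm_eq_abs, abs_of_pos (Real.exp_pos _), ← Real.exp_add, Real.exp_le_exp, XX_eq]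
    have h1 : l * (t * S.spin v ω) ≤ |l| * t := by
      calc l * (t * S.spin v ω) ≤ |l * (t * S.spin v ω)| := le_abs_self _
        _ = |l| * t := by rw [abs_mul, abs_mul, abs_spin, mul_one, abs_of_nonneg t.coe_nonneg]
    linarith

theorem measurable_tanh : Measurable Real.tanh := by
  have : Real.tanh = fun x => Real.sinh x / Real.cosh x := funext Real.tanh_eq_sinh_div_cosh
  rw [this]
  exact Real.measurable_sinh.div Real.measurable_cosh

theorem measurable_XX_FF (t : ℝ≥0) (v : V) : Measurable[S.FF (fun _ => t) {v}] (S.XX t v) := by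
  rw [measurable_iff_comap_le]
  refine le_trans ?_ (le_iSup₂ (f := fun u (_ : u ∈ ({v} : Set V)) =>
    ⨆ s ∈ Set.Iic t, MeasurableSpace.comap (S.XX s u) inferInstance) v rfl)
  exact le_iSup₂ (f := fun s (_ : s ∈ Set.Iic t) =>
    MeasurableSpace.comap (S.XX s v) inferInstance) t (Set.mem_Iic.2 le_rfl)

theorem measurable_cav' (t : ℝ≥0) {x y : V} (hxy : S.G.Adj x y) :
    Measurable[S.FF (fun _ => t) (branch S.G x y)] (fun ω => S.cav x y (S.Xt t ω)) :=
  S.measurable_cav_FF (fun _ => t) hxy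

theorem measurable_cav'' (t : ℝ≥0) (x y : V) : Measurable (fun ω => S.cav x y (S.Xt t ω)) :=
  (S.measurable_cav x y).comp (S.measurable_Xt t)

theorem integrable_spin (v : V) : Integrable (S.spin v) S.P := by
  apply Integrable.of_bound (S.measurable_spin v).aestronglyMeasurable 1
  exact ae_of_all _ fun ω => by rw [Real.norm_eq_abs, abs_spin]

theorem integrable_spin_mul (v : V) {f : Om V → ℝ} (hf : Integrable f S.P) :
    Integrable (fun ω => S.spin v ω * f ω) S.P := by
  refine Integrable.bdd_mul (c := 1) hf (S.measurable_spin v).aestronglyMeasurable ?_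
  exact ae_of_all _ fun ω => by rw [Real.norm_eq_abs, abs_spin]

theorem pull (t : ℝ≥0) {x y : V} (hxy : S.G.Adj x y) {f : Om V → ℝ}
    (hf : Measurable[S.FF (fun _ => t) (branch S.G x y)] f) (hfi : Integrable f S.P) :
    ∫ ω, S.spin y ω * f ω ∂S.P = ∫ ω, S.msg x y (S.Xt t ω) * f ω ∂S.P := by
  have hle := S.FF_le (fun _ => t) (branch S.G x y)
  have hfs : Integrable (f * S.spin y) S.P :=
    (integrable_spin_mul S y hfi).congr (ae_of_all _ fun ω => mul_comm _ _)
  have h1 := condExp_mul_of_stronglyMeasurable_left hf.stronglyMeasurable hfs (integrable_spin S y)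
  have h2 := S.condExp_msg (fun _ => t) hxy
  calc ∫ ω, S.spin y ω * f ω ∂S.P = ∫ ω, (f * S.spin y) ω ∂S.P := by
        simp only [Pi.mul_apply, mul_comm]
    _ = ∫ ω, (S.P[f * S.spin y | S.FF (fun _ => t) (branch S.G x y)]) ω ∂S.P :=
        (integral_condExp hle).symm
    _ = ∫ ω, S.msg x y (S.Xt t ω) * f ω ∂S.P := by
        apply integral_congr_ae
        filter_upwards [h1, h2] with ω h1 h2
        rw [h1, Pi.mul_apply, h2, mul_comm]
        rfl

theorem cross (t : ℝ≥0) {y z : V} (hyz : S.G.Adj y z) {f : Om V → ℝ}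
    (hf : Measurable[S.FF (fun _ => t) (branch S.G y z)] f) (hfi : Integrable f S.P) :
    ∫ ω, S.spin y ω * f ω ∂S.P = S.θ * ∫ ω, S.spin z ω * f ω ∂S.P := by
  have hle := S.FF_le (fun _ => t) (branch S.G y z)
  have hfs : ∀ v, Integrable (f * S.spin v) S.P := fun v =>
    (integrable_spin_mul S v hfi).congr (ae_of_all _ fun ω => mul_comm _ _)
  have h1 : ∀ v, S.P[f * S.spin v | S.FF (fun _ => t) (branch S.G y z)] =ᵐ[S.P]
      f * S.P[S.spin v | S.FF (fun _ => t) (branch S.G y z)] := fun v =>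
    condExp_mul_of_stronglyMeasurable_left hf.stronglyMeasurable (hfs v) (integrable_spin S v)
  have h2 := S.condExp_cross (fun _ => t) hyz
  have h3 : ∀ v, ∫ ω, S.spin v ω * f ω ∂S.P =
      ∫ ω, (S.P[f * S.spin v | S.FF (fun _ => t) (branch S.G y z)]) ω ∂S.P := by
    intro v
    rw [integral_condExp hle]
    simp only [Pi.mul_apply, mul_comm]
  rw [h3 y, h3 z, ← integral_const_mul]
  apply integral_congr_ae
  filter_upwards [h1 y, h1 z, h2] with ω h1 h1' h2
  rw [h1, h1', Pi.mul_apply, Pi.mul_apply, h2]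
  ring

theorem integral_flip {F : Om V → Om V} (hF : MeasurePreserving F S.P S.P) {g : Om V → ℝ}
    (hg : Measurable g) : ∫ ω, g (F ω) ∂S.P = ∫ ω, g ω ∂S.P := by
  have h := integral_map (μ := S.P) hF.measurable.aemeasurable
    (f := g) (by rw [hF.map_eq]; exact hg.aestronglyMeasurable)
  rw [hF.map_eq] at h
  exact h.symm

/-- symmetrisation -/
theorem flip_avg (t : ℝ≥0) {x y : V} (hxy : S.G.Adj x y) (c : ℝ) {p : ℝ → ℝ} (hp : Measurable p)
    (hodd : ∀ a, p (-a) = - p a)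
    (hi : Integrable (fun ω => Real.exp (p (S.cav x y (S.Xt t ω)))) S.P) :
    Integrable (fun ω => Real.cosh (p (S.cav x y (S.Xt t ω))) +
        c * S.msg x y (S.Xt t ω) * Real.sinh (p (S.cav x y (S.Xt t ω)))) S.P ∧
    ∫ ω, (1 + c * S.msg x y (S.Xt t ω)) * Real.exp (p (S.cav x y (S.Xt t ω))) ∂S.P =
      ∫ ω, (Real.cosh (p (S.cav x y (S.Xt t ω))) +
        c * S.msg x y (S.Xt t ω) * Real.sinh (p (S.cav x y (S.Xt t ω)))) ∂S.P := by
  obtain ⟨F, hF, -, hX⟩ := S.exists_flip
  set u : Om V → ℝ := fun ω =>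
    (1 + c * S.msg x y (S.Xt t ω)) * Real.exp (p (S.cav x y (S.Xt t ω))) with hu
  have hmc := measurable_cav'' S t x y
  have hmm : Measurable fun ω => S.msg x y (S.Xt t ω) := measurable_tanh.comp hmc
  have hum : Measurable u :=
    ((hmm.const_mul c).const_add 1).mul (Real.measurable_exp.comp (hp.comp hmc))
  have hui : Integrable u S.P := by
    refine Integrable.bdd_mul (c := 1 + |c|) hi ((hmm.const_mul c).const_add 1).aestronglyMeasurable
      (ae_of_all _ fun ω => ?_)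
    rw [Real.norm_eq_abs]
    calc |1 + c * S.msg x y (S.Xt t ω)| ≤ |1| + |c * S.msg x y (S.Xt t ω)| := abs_add_le _ _
      _ ≤ 1 + |c| := by
        rw [abs_one, abs_mul]
        have := (S.abs_msg_lt x y (S.Xt t ω)).le
        nlinarith [abs_nonneg c]
  have huF : ∫ ω, u (F ω) ∂S.P = ∫ ω, u ω ∂S.P := integral_flip S hF hum
  have huFi : Integrable (fun ω => u (F ω)) S.P :=
    (hF.integrable_comp hum.aestronglyMeasurable).2 hui
  have hae : (fun ω => (u ω + u (F ω)) / 2) =ᵐ[S.P] fun ω =>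
      (Real.cosh (p (S.cav x y (S.Xt t ω))) +
        c * S.msg x y (S.Xt t ω) * Real.sinh (p (S.cav x y (S.Xt t ω)))) := by
    filter_upwards [S.ae_good (fun _ => t)] with ω hg
    have e1 : S.Xt t (F ω) = - S.Xt t ω := by
      funext v; exact hX t v ω
    have hg' : S.Good (S.Xt t ω) := hg
    have e2 : S.cav x y (S.Xt t (F ω)) = - S.cav x y (S.Xt t ω) := by
      rw [e1, S.cav_neg hg' hxy]
    have e3 : S.msg x y (S.Xt t (F ω)) = - S.msg x y (S.Xt t ω) := by
      unfold Setup.msg; rw [e2, Real.tanh_neg]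
    simp only [hu]
    rw [e2, e3, hodd, Real.cosh_eq, Real.sinh_eq]
    ring
  have hint : Integrable (fun ω => (u ω + u (F ω)) / 2) S.P := (hui.add huFi).div_const 2
  refine ⟨hint.congr hae, ?_⟩
  rw [← integral_congr_ae hae, integral_div, integral_add hui huFi, huF]
  ring

/-! ### the recursion -/

/-- the exponential moment -/
noncomputable def gg (t : ℝ≥0) (x y : V) (l : ℝ) : ℝ :=
  ∫ ω, (1 + S.θ * S.spin y ω) * Real.exp (l * gf S.θ (S.cav x y (S.Xt t ω))) ∂S.P

theorem measurable_gf : Measurable (gf S.θ) := (gf_continuous S.θpos S.theta_lt_one).measurable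

theorem measurable_exp_gf (t : ℝ≥0) {x y : V} (hxy : S.G.Adj x y) (l : ℝ) :
    Measurable[S.FF (fun _ => t) (branch S.G x y)]
      (fun ω => Real.exp (l * gf S.θ (S.cav x y (S.Xt t ω)))) :=
  (Real.measurable_exp.comp ((measurable_gf S).const_mul l)).comp (measurable_cav' S t hxy)

theorem exp_gf_le (t : ℝ≥0) (x y : V) (l : ℝ) (ω : Om V) :
    Real.exp (l * gf S.θ (S.cav x y (S.Xt t ω))) ≤ Real.exp (|l| * Real.artanh S.θ) := by
  rw [Real.exp_le_exp]
  calc _ ≤ |l * gf S.θ (S.cav x y (S.Xt t ω))| := le_abs_self _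
    _ ≤ _ := by
      rw [abs_mul]
      exact mul_le_mul_of_nonneg_left (gf_abs_le S.θpos S.theta_lt_one _).1 (abs_nonneg _)

theorem integrable_exp_gf (t : ℝ≥0) (x y : V) (l : ℝ) :
    Integrable (fun ω => Real.exp (l * gf S.θ (S.cav x y (S.Xt t ω)))) S.P := by
  apply Integrable.of_bound _ (Real.exp (|l| * Real.artanh S.θ))
  · exact ae_of_all _ fun ω => by
      rw [Real.norm_eq_abs, abs_of_pos (Real.exp_pos _)]; exact exp_gf_le S t x y l ω
  · exact ((Real.measurable_exp.comp ((measurable_gf S).const_mul l)).comp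
      (measurable_cav'' S t x y)).aestronglyMeasurable

theorem gg_eq (t : ℝ≥0) {x y : V} (hxy : S.G.Adj x y) (l : ℝ) :
    gg S t x y l = ∫ ω, (1 + S.θ * S.msg x y (S.Xt t ω)) *
      Real.exp (l * gf S.θ (S.cav x y (S.Xt t ω))) ∂S.P := by
  have hi := integrable_exp_gf S t x y l
  have h1 := pull S t hxy (measurable_exp_gf S t hxy l) hi
  have hm : Integrable (fun ω => S.msg x y (S.Xt t ω) *
      Real.exp (l * gf S.θ (S.cav x y (S.Xt t ω)))) S.P := by
    refine Integrable.bdd_mul (c := 1) hi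
      (measurable_tanh.comp (measurable_cav'' S t x y)).aestronglyMeasurable
      (ae_of_all _ fun ω => ?_)
    rw [Real.norm_eq_abs]
    exact (S.abs_msg_lt x y (S.Xt t ω)).le
  unfold gg
  simp only [add_mul, one_mul, mul_assoc]
  rw [integral_add hi ((integrable_spin_mul S y hi).const_mul _), integral_add hi (hm.const_mul _),
    integral_const_mul, integral_const_mul, h1]

theorem gg_sym (t : ℝ≥0) {x y : V} (hxy : S.G.Adj x y) (l : ℝ) :
    Integrable (fun ω => Real.cosh (l * gf S.θ (S.cav x y (S.Xt t ω))) +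
        S.θ * S.msg x y (S.Xt t ω) * Real.sinh (l * gf S.θ (S.cav x y (S.Xt t ω)))) S.P ∧
    gg S t x y l = ∫ ω, (Real.cosh (l * gf S.θ (S.cav x y (S.Xt t ω))) +
        S.θ * S.msg x y (S.Xt t ω) * Real.sinh (l * gf S.θ (S.cav x y (S.Xt t ω)))) ∂S.P := by
  have h := flip_avg S t hxy S.θ (p := fun a => l * gf S.θ a) ((measurable_gf S).const_mul l)
    (fun a => by rw [gf_odd]; ring) (integrable_exp_gf S t x y l)
  exact ⟨h.1, by rw [gg_eq S t hxy, h.2]⟩

theorem integrable_exp_cav (t : ℝ≥0) (x y : V) (l : ℝ) :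
    Integrable (fun ω => Real.exp (l * S.cav x y (S.Xt t ω))) S.P := by
  have h : Integrable (fun ω => Real.exp (|l| * (S.d * Real.artanh S.θ)) *
      (Real.exp (|l| * S.XX t y ω) + Real.exp (-|l| * S.XX t y ω))) S.P :=
    ((integrable_exp_XX S t y _).add (integrable_exp_XX S t y _)).const_mul _
  refine h.mono' ?_ (ae_of_all _ fun ω => ?_)
  · exact (Real.measurable_exp.comp ((measurable_cav'' S t x y).const_mul l)).aestronglyMeasurable
  · rw [Real.norm_eq_abs, abs_of_pos (Real.exp_pos _)]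
    have h1 : l * S.cav x y (S.Xt t ω) ≤ |l| * (S.d * Real.artanh S.θ) + |l| * |S.XX t y ω| := by
      calc l * S.cav x y (S.Xt t ω) ≤ |l * S.cav x y (S.Xt t ω)| := le_abs_self _
        _ = |l| * |S.cav x y (S.Xt t ω)| := abs_mul _ _
        _ ≤ |l| * (|S.XX t y ω| + S.d * Real.artanh S.θ) := by
          gcongr; exact S.cav_abs_le x y (S.Xt t ω)
        _ = _ := by ring
    calc Real.exp (l * S.cav x y (S.Xt t ω)) ≤
        Real.exp (|l| * (S.d * Real.artanh S.θ) + |l| * |S.XX t y ω|) := Real.exp_le_exp.2 h1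
      _ = Real.exp (|l| * (S.d * Real.artanh S.θ)) * Real.exp (|l| * |S.XX t y ω|) :=
          Real.exp_add _ _
      _ ≤ _ := by
        gcongr
        rcases abs_cases (S.XX t y ω) with ⟨h, _⟩ | ⟨h, _⟩ <;> rw [h]
        · linarith [Real.exp_pos (-|l| * S.XX t y ω)]
        · rw [mul_neg, ← neg_mul]; linarith [Real.exp_pos (|l| * S.XX t y ω)]

/-- first half of the step: `g(l) ≤ E (1 + τ_y) exp(θ l cav)`. -/
theorem step1 (t : ℝ≥0) {x y : V} (hxy : S.G.Adj x y) {l : ℝ} (hl : 0 ≤ l) :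
    gg S t x y l ≤ ∫ ω, (1 + S.spin y ω) * Real.exp (S.θ * l * S.cav x y (S.Xt t ω)) ∂S.P := by
  have hi := integrable_exp_cav S t x y (S.θ * l)
  have hm : Measurable[S.FF (fun _ => t) (branch S.G x y)]
      (fun ω => Real.exp (S.θ * l * S.cav x y (S.Xt t ω))) :=
    (Real.measurable_exp.comp (measurable_id.const_mul (S.θ * l))).comp (measurable_cav' S t hxy)
  have h1 := pull S t hxy hm hi
  have hmi : Integrable (fun ω => S.msg x y (S.Xt t ω) *
      Real.exp (S.θ * l * S.cav x y (S.Xt t ω))) S.P := by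
    refine Integrable.bdd_mul (c := 1) hi
      (measurable_tanh.comp (measurable_cav'' S t x y)).aestronglyMeasurable
      (ae_of_all _ fun ω => ?_)
    rw [Real.norm_eq_abs]
    exact (S.abs_msg_lt x y (S.Xt t ω)).le
  obtain ⟨h2, h3⟩ := flip_avg S t hxy 1 (p := fun a => S.θ * l * a) (measurable_id.const_mul _)
    (fun a => by ring) hi
  obtain ⟨h4, h5⟩ := gg_sym S t hxy l
  calc gg S t x y l ≤ ∫ ω, (Real.cosh (S.θ * l * (S.cav x y (S.Xt t ω))) +
        1 * S.msg x y (S.Xt t ω) * Real.sinh (S.θ * l * (S.cav x y (S.Xt t ω)))) ∂S.P := by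
        rw [h5]
        apply integral_mono h4 h2
        intro ω
        simp only [one_mul]
        exact compare S.θpos S.theta_lt_one hl (gf_abs_le S.θpos S.theta_lt_one _).2
          (gf_mul_nonneg S.θpos S.theta_lt_one _)
    _ = ∫ ω, (1 + 1 * S.msg x y (S.Xt t ω)) * Real.exp (S.θ * l * S.cav x y (S.Xt t ω)) ∂S.P :=
        h3.symm
    _ = _ := by
        simp only [add_mul, one_mul]
        rw [integral_add hi hmi, integral_add hi (integrable_spin_mul S y hi), h1]

/-- `E (1 + τ_y) exp(l gf(cav y z)) = g(l)` for the edge `y z`. -/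
theorem integral_cross (t : ℝ≥0) {y z : V} (hyz : S.G.Adj y z) (l : ℝ) :
    ∫ ω, (1 + S.spin y ω) * Real.exp (l * gf S.θ (S.cav y z (S.Xt t ω))) ∂S.P = gg S t y z l := by
  have hi := integrable_exp_gf S t y z l
  have h1 := cross S t hyz (measurable_exp_gf S t hyz l) hi
  unfold gg
  simp only [add_mul, one_mul, mul_assoc]
  rw [integral_add hi (integrable_spin_mul S y hi),
    integral_add hi ((integrable_spin_mul S z hi).const_mul _), integral_const_mul, h1]

theorem step2 (t : ℝ≥0) {x y : V} (hxy : S.G.Adj x y) {l : ℝ} (hl : 0 ≤ l) :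
    ∫ ω, (1 + S.spin y ω) * Real.exp (l * S.cav x y (S.Xt t ω)) ∂S.P ≤
      Real.exp (l * t + l ^ 2 * t / 2) * ∏ z ∈ (S.G.neighborFinset y).erase x, gg S t y z l := by
  set N := (S.G.neighborFinset y).erase x with hN
  have hadj : ∀ z ∈ N, S.G.Adj y z := fun z hz => by
    rw [hN, Finset.mem_erase, SimpleGraph.mem_neighborFinset] at hz
    exact hz.2
  have hci := S.ci_vertex (fun _ => t) y N hadj
  -- the truncated functions
  set f : ℕ → Option N → Om V → ℝ := fun n o => match o with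
    | none => fun ω => Real.exp (l * min (S.XX t y ω) n)
    | some z => fun ω => Real.exp (l * gf S.θ (S.cav y z (S.Xt t ω))) with hf
  have hprod : ∀ n : ℕ, ∫ ω, (1 + S.spin y ω) * ∏ o, f n o ω ∂S.P =
      (∫ ω, (1 + S.spin y ω) * Real.exp (l * min (S.XX t y ω) n) ∂S.P) *
        ∏ z ∈ N, gg S t y z l := by
    intro n
    have h := (hci (f n) ?_ ?_).1
    · rw [h, Fintype.prod_option]
      congr 1
      rw [← Finset.prod_coe_sort N (fun z => gg S t y z l)]
      apply Finset.prod_congr rfl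
      intro z _
      exact integral_cross S t (hadj z z.2) l
    · rintro (_ | z)
      · exact (Real.measurable_exp.comp ((measurable_id.min measurable_const).const_mul l)).comp
          (measurable_XX_FF S t y)
      · exact measurable_exp_gf S t (hadj z z.2) l
    · rintro (_ | z)
      · refine ⟨Real.exp (l * n), fun ω => ?_⟩
        simp only [hf]
        rw [abs_of_pos (Real.exp_pos _), Real.exp_le_exp]
        exact mul_le_mul_of_nonneg_left (min_le_right _ _) hl
      · refine ⟨Real.exp (|l| * Real.artanh S.θ), fun ω => ?_⟩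
        simp only [hf]
        rw [abs_of_pos (Real.exp_pos _)]
        exact exp_gf_le S t y z l ω
  have hgpos : 0 ≤ ∏ z ∈ N, gg S t y z l := by
    apply Finset.prod_nonneg
    intro z hz
    rw [← integral_cross S t (hadj z hz) l]
    exact integral_nonneg fun ω => mul_nonneg (one_add_spin_mem S y ω).1 (Real.exp_pos _).le
  have hmin : ∀ (n : ℕ) (ω : Om V), Real.exp (l * min (S.XX t y ω) n) ≤
      Real.exp (l * S.XX t y ω) := by
    intro n ω
    rw [Real.exp_le_exp]
    exact mul_le_mul_of_nonneg_left (min_le_left _ _) hl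
  have hmeas : ∀ n : ℕ, Measurable fun ω => Real.exp (l * min (S.XX t y ω) n) := fun n =>
    Real.measurable_exp.comp (((S.measurable_XX t y).min measurable_const).const_mul l)
  have hspin1 : Measurable fun ω => 1 + S.spin y ω := (S.measurable_spin y).const_add 1
  have hXi : Integrable (fun ω => (1 + S.spin y ω) * Real.exp (l * S.XX t y ω)) S.P := by
    refine Integrable.bdd_mul (c := 2) (integrable_exp_XX S t y l) hspin1.aestronglyMeasurable
      (ae_of_all _ fun ω => ?_)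
    rw [Real.norm_eq_abs, abs_of_nonneg (one_add_spin_mem S y ω).1]
    exact (one_add_spin_mem S y ω).2
  have hbound : ∀ n : ℕ, ∫ ω, (1 + S.spin y ω) * ∏ o, f n o ω ∂S.P ≤
      Real.exp (l * t + l ^ 2 * t / 2) * ∏ z ∈ N, gg S t y z l := by
    intro n
    rw [hprod n, ← integral_one_add_spin_exp_XX S t y l]
    apply mul_le_mul_of_nonneg_right _ hgpos
    apply integral_mono_of_nonneg
    · exact ae_of_all _ fun ω => mul_nonneg (one_add_spin_mem S y ω).1 (Real.exp_pos _).le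
    · exact hXi
    · exact ae_of_all _ fun ω => mul_le_mul_of_nonneg_left (hmin n ω) (one_add_spin_mem S y ω).1
  -- the limit
  have hrec : ∀ᵐ ω ∂S.P, ∀ n : ℕ, (1 + S.spin y ω) * ∏ o, f n o ω =
      (1 + S.spin y ω) * Real.exp (l * (min (S.XX t y ω) n +
        ∑ z ∈ N, gf S.θ (S.cav y z (S.Xt t ω)))) := by
    refine ae_of_all _ fun ω n => ?_
    rw [Fintype.prod_option]
    simp only [hf]
    rw [mul_add, Real.exp_add, Finset.mul_sum, Real.exp_sum,
      ← Finset.prod_coe_sort N (fun z => Real.exp (l * gf S.θ (S.cav y z (S.Xt t ω))))]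
  have hlim : Tendsto (fun n : ℕ => ∫ ω, (1 + S.spin y ω) * ∏ o, f n o ω ∂S.P) atTop
      (𝓝 (∫ ω, (1 + S.spin y ω) * Real.exp (l * S.cav x y (S.Xt t ω)) ∂S.P)) := by
    refine tendsto_integral_of_dominated_convergence
      (fun ω => 2 * Real.exp (l * S.cav x y (S.Xt t ω))) ?_
      ((integrable_exp_cav S t x y l).const_mul 2) ?_ ?_
    · intro n
      refine (hspin1.mul (Finset.measurable_prod _ fun o _ => ?_)).aestronglyMeasurable
      rcases o with _ | z
      · exact hmeas n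
      · exact (Real.measurable_exp.comp ((measurable_gf S).const_mul l)).comp
          (measurable_cav'' S t y z)
    · intro n
      filter_upwards [hrec, S.ae_good (fun _ => t)] with ω h1 h2
      have h2' : S.Good (S.Xt t ω) := h2
      rw [h1 n, Real.norm_eq_abs, abs_mul, abs_of_nonneg (one_add_spin_mem S y ω).1,
        abs_of_pos (Real.exp_pos _), S.cav_rec h2' hxy]
      apply mul_le_mul (one_add_spin_mem S y ω).2 _ (Real.exp_pos _).le (by norm_num)
      rw [Real.exp_le_exp]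
      apply mul_le_mul_of_nonneg_left _ hl
      apply add_le_add_left
      exact min_le_left _ _
    · filter_upwards [hrec, S.ae_good (fun _ => t)] with ω h1 h2
      have h2' : S.Good (S.Xt t ω) := h2
      refine tendsto_const_nhds.congr' ?_
      obtain ⟨n0, hn0⟩ := exists_nat_ge (S.XX t y ω)
      filter_upwards [eventually_ge_atTop n0] with n hn
      rw [h1 n, S.cav_rec h2' hxy, min_eq_left]
      · rfl
      · exact hn0.trans (by exact_mod_cast hn)
  exact le_of_tendsto' hlim hbound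

/-- the recursion for the exponential moment -/
theorem step (t : ℝ≥0) {x y : V} (hxy : S.G.Adj x y) {l : ℝ} (hl : 0 ≤ l) :
    gg S t x y l ≤ Real.exp (S.θ * l * t + (S.θ * l) ^ 2 * t / 2) *
      ∏ z ∈ (S.G.neighborFinset y).erase x, gg S t y z (S.θ * l) :=
  (step1 S t hxy hl).trans (step2 S t hxy (mul_nonneg S.θpos.le hl))

theorem base : ∃ C : ℝ, 0 < C ∧ ∀ (t : ℝ≥0) (x y : V), S.G.Adj x y → ∀ l : ℝ, 0 ≤ l →
    l * Real.artanh S.θ ≤ 1 → gg S t x y l ≤ Real.exp (C * (l + l ^ 2) * √t) := by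
  obtain ⟨C1, hC1, h1⟩ := gf_le_tanh S.θpos S.theta_lt_one
  obtain ⟨C2, hC2, h2⟩ := S.msg_sq_le
  refine ⟨(2 * C1 + C1 ^ 2) * C2, by positivity, fun t x y hxy l hl hlA => ?_⟩
  obtain ⟨h4, h5⟩ := gg_sym S t hxy l
  have hmi : Integrable (fun ω => S.msg x y (S.Xt t ω) ^ 2) S.P := by
    apply Integrable.of_bound
      ((measurable_tanh.comp (measurable_cav'' S t x y)).pow_const 2).aestronglyMeasurable 1
    refine ae_of_all _ fun ω => ?_
    rw [Real.norm_eq_abs, abs_of_nonneg (sq_nonneg _)]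
    have := S.abs_msg_lt x y (S.Xt t ω)
    rw [← sq_abs]
    change |Real.tanh (S.cav x y (S.Xt t ω))| ^ 2 ≤ 1
    have h : |Real.tanh (S.cav x y (S.Xt t ω))| < 1 := this
    nlinarith [abs_nonneg (Real.tanh (S.cav x y (S.Xt t ω)))]
  have hle : gg S t x y l ≤
      ∫ ω, (1 + (2 * C1 + C1 ^ 2) * (l + l ^ 2) * S.msg x y (S.Xt t ω) ^ 2) ∂S.P := by
    rw [h5]
    apply integral_mono h4 ((integrable_const _).add (hmi.const_mul _))
    intro ω
    change _ ≤ 1 + (2 * C1 + C1 ^ 2) * (l + l ^ 2) * S.msg x y (S.Xt t ω) ^ 2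
    simp only
    set h := S.cav x y (S.Xt t ω)
    set a := gf S.θ h
    have hm : S.msg x y (S.Xt t ω) = Real.tanh h := rfl
    rw [hm]
    set m := Real.tanh h
    have ha1 : |a| ≤ C1 * |m| := h1 h
    have ha2 : |a| ≤ Real.artanh S.θ := (gf_abs_le S.θpos S.theta_lt_one _).1
    have hla : |l * a| ≤ 1 := by
      rw [abs_mul, abs_of_nonneg hl]
      exact (mul_le_mul_of_nonneg_left ha2 hl).trans hlA
    have e1 : Real.cosh (l * a) ≤ 1 + l ^ 2 * (C1 ^ 2 * m ^ 2) := by
      refine (cosh_le hla).trans ?_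
      rw [mul_pow, ← sq_abs a]
      have : |a| ^ 2 ≤ (C1 * |m|) ^ 2 := by gcongr
      rw [mul_pow, sq_abs m] at this
      gcongr
    have e2 : S.θ * m * Real.sinh (l * a) ≤ 2 * l * (C1 * m ^ 2) := by
      calc S.θ * m * Real.sinh (l * a) ≤ |S.θ * m * Real.sinh (l * a)| := le_abs_self _
        _ = S.θ * (|m| * |Real.sinh (l * a)|) := by
          rw [abs_mul, abs_mul, abs_of_pos S.θpos, mul_assoc]
        _ ≤ 1 * (|m| * (2 * (l * (C1 * |m|)))) := by
          have := S.theta_lt_one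
          gcongr
          refine (abs_sinh_le hla).trans ?_
          rw [abs_mul, abs_of_nonneg hl]
          gcongr
        _ = 2 * l * (C1 * m ^ 2) := by rw [← sq_abs m]; ring
    have e3 : 0 ≤ m ^ 2 := sq_nonneg m
    have : 0 ≤ C1 * l ^ 2 * m ^ 2 := by positivity
    have : 0 ≤ C1 ^ 2 * l * m ^ 2 := by positivity
    nlinarith
  have hint : ∫ ω, (1 + (2 * C1 + C1 ^ 2) * (l + l ^ 2) * S.msg x y (S.Xt t ω) ^ 2) ∂S.P =
      1 + (2 * C1 + C1 ^ 2) * (l + l ^ 2) * ∫ ω, S.msg x y (S.Xt t ω) ^ 2 ∂S.P := by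
    rw [integral_add (integrable_const _) (hmi.const_mul _), integral_const_mul]
    simp
  rw [hint] at hle
  refine hle.trans ?_
  have h6 : (2 * C1 + C1 ^ 2) * (l + l ^ 2) * ∫ ω, S.msg x y (S.Xt t ω) ^ 2 ∂S.P ≤
      (2 * C1 + C1 ^ 2) * C2 * (l + l ^ 2) * √t := by
    calc _ ≤ (2 * C1 + C1 ^ 2) * (l + l ^ 2) * (C2 * √t) := by
          gcongr
          exact h2 t x y hxy
      _ = _ := by ring
  calc _ ≤ 1 + (2 * C1 + C1 ^ 2) * C2 * (l + l ^ 2) * √t := by linarith
    _ ≤ _ := by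
      rw [add_comm]
      exact Real.add_one_le_exp _

theorem gg_nonneg (t : ℝ≥0) (x y : V) (l : ℝ) : 0 ≤ gg S t x y l := by
  refine integral_nonneg fun ω => mul_nonneg ?_ (Real.exp_pos _).le
  have h0 := S.θpos
  have h1 := S.theta_lt_one
  rcases S.spin_val y ω with h | h <;> rw [h] <;> simp only [mul_one, mul_neg] <;> linarith

theorem iter : ∃ C : ℝ, 0 < C ∧ ∀ (t : ℝ≥0) (r : ℕ) (x y : V), S.G.Adj x y → ∀ l : ℝ, 0 ≤ l →
    l * S.θ ^ r * Real.artanh S.θ ≤ 1 →
    gg S t x y l ≤ Real.exp (((S.θ⁻¹) ^ r * l + l ^ 2) * (C * √t + r * t)) := by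
  obtain ⟨C, hC, hb⟩ := base S
  refine ⟨C, hC, fun t r => ?_⟩
  have h0 := S.θpos
  have h1 := S.theta_lt_one
  have hinv : 1 ≤ S.θ⁻¹ := (one_le_inv₀ h0).2 h1.le
  have ht : (0 : ℝ) ≤ t := t.coe_nonneg
  induction r with
  | zero =>
    intro x y hxy l hl hlr
    rw [pow_zero, mul_one] at hlr
    refine (hb t x y hxy l hl hlr).trans (le_of_eq ?_)
    congr 1
    simp
    ring
  | succ r ih =>
    intro x y hxy l hl hlr
    set K : ℝ := C * √t + r * t with hK
    have hK0 : 0 ≤ K := by positivity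
    have hl' : 0 ≤ S.θ * l := by positivity
    have hstep := step S t hxy hl
    have hprod : ∏ z ∈ (S.G.neighborFinset y).erase x, gg S t y z (S.θ * l) ≤
        Real.exp ((((S.d : ℝ) - 1)) * (((S.θ⁻¹) ^ r * (S.θ * l) + (S.θ * l) ^ 2) * K)) := by
      have hcard : ((S.G.neighborFinset y).erase x).card = S.d - 1 := by
        rw [Finset.card_erase_of_mem ((S.G.mem_neighborFinset y x).2 hxy.symm),
          SimpleGraph.card_neighborFinset_eq_degree, S.rt.reg y]
      have hd : ((S.d - 1 : ℕ) : ℝ) = (S.d : ℝ) - 1 := by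
        have := S.d_three
        push_cast [Nat.cast_sub (show 1 ≤ S.d by omega)]
        rfl
      rw [← hd, ← hcard, Real.exp_nat_mul, ← Finset.prod_const]
      apply Finset.prod_le_prod
      · intro z _
        exact gg_nonneg S t y z _
      · intro z hz
        rw [Finset.mem_erase, SimpleGraph.mem_neighborFinset] at hz
        apply ih y z hz.2 _ hl'
        calc S.θ * l * S.θ ^ r * Real.artanh S.θ = l * S.θ ^ (r + 1) * Real.artanh S.θ := by ring
          _ ≤ 1 := hlr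
    refine hstep.trans ?_
    calc _ ≤ Real.exp (S.θ * l * t + (S.θ * l) ^ 2 * t / 2) *
          Real.exp ((((S.d : ℝ) - 1)) * (((S.θ⁻¹) ^ r * (S.θ * l) + (S.θ * l) ^ 2) * K)) := by
          gcongr
      _ ≤ _ := by
        rw [← Real.exp_add, Real.exp_le_exp]
        have hθd := S.θle
        have e1 : ((S.d : ℝ) - 1) * ((S.θ⁻¹) ^ r * (S.θ * l)) ≤ (S.θ⁻¹) ^ (r + 1) * l := by
          have : (S.θ⁻¹) ^ r * (S.θ * l) = S.θ ^ 2 * ((S.θ⁻¹) ^ (r + 1) * l) := by
            have h : S.θ * S.θ⁻¹ = 1 := mul_inv_cancel₀ h0.ne'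
            calc (S.θ⁻¹) ^ r * (S.θ * l) = (S.θ⁻¹) ^ r * (S.θ * l) * (S.θ * S.θ⁻¹) := by
                  rw [h, mul_one]
              _ = _ := by ring
          rw [this]
          have : 0 ≤ (S.θ⁻¹) ^ (r + 1) * l := by positivity
          nlinarith
        have e2 : ((S.d : ℝ) - 1) * (S.θ * l) ^ 2 ≤ l ^ 2 := by
          have : 0 ≤ l ^ 2 := sq_nonneg l
          nlinarith
        have e3 : S.θ * l * t ≤ (S.θ⁻¹) ^ (r + 1) * l * t := by
          gcongr
          exact h1.le.trans (one_le_pow₀ hinv)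
        have e4 : (S.θ * l) ^ 2 * t / 2 ≤ l ^ 2 * t := by
          have : (S.θ * l) ^ 2 ≤ l ^ 2 := by
            rw [mul_pow]
            have : S.θ ^ 2 ≤ 1 := by nlinarith
            nlinarith [sq_nonneg l]
          have : (S.θ * l) ^ 2 * t ≤ l ^ 2 * t := by gcongr
          have : 0 ≤ (S.θ * l) ^ 2 * t := by positivity
          linarith
        have e5 : ((S.d : ℝ) - 1) * (((S.θ⁻¹) ^ r * (S.θ * l) + (S.θ * l) ^ 2) * K) ≤
            ((S.θ⁻¹) ^ (r + 1) * l + l ^ 2) * K := by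
          calc _ = (((S.d : ℝ) - 1) * ((S.θ⁻¹) ^ r * (S.θ * l)) +
                ((S.d : ℝ) - 1) * (S.θ * l) ^ 2) * K := by ring
            _ ≤ _ := by gcongr
        push_cast
        have e6 : ((S.θ⁻¹) ^ (r + 1) * l + l ^ 2) * (C * √t + (r + 1) * t) =
            ((S.θ⁻¹) ^ (r + 1) * l + l ^ 2) * K + ((S.θ⁻¹) ^ (r + 1) * l * t + l ^ 2 * t) := by
          rw [hK]; ring
        rw [e6]
        linarith

theorem cosh_markov {f : Om V → ℝ} {l s : ℝ} (hl : 0 ≤ l) (hs : 0 ≤ s)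
    (hi : Integrable (fun ω => Real.cosh (l * f ω)) S.P) :
    S.P.real {ω | s ≤ |f ω|} ≤ 2 * Real.exp (-(l * s)) * ∫ ω, Real.cosh (l * f ω) ∂S.P := by
  have h1 := mul_meas_ge_le_integral_of_nonneg
    (ae_of_all S.P fun ω => (Real.cosh_pos (l * f ω)).le) hi (Real.cosh (l * s))
  have hsub : {ω | s ≤ |f ω|} ⊆ {ω | Real.cosh (l * s) ≤ Real.cosh (l * f ω)} := by
    intro ω hω
    change Real.cosh (l * s) ≤ Real.cosh (l * f ω)
    replace hω : s ≤ |f ω| := hω
    rw [Real.cosh_le_cosh, abs_mul, abs_mul, abs_of_nonneg hl, abs_of_nonneg hs]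
    exact mul_le_mul_of_nonneg_left hω hl
  have h2 : S.P.real {ω | s ≤ |f ω|} ≤ S.P.real {ω | Real.cosh (l * s) ≤ Real.cosh (l * f ω)} :=
    measureReal_mono hsub
  have h3 : Real.exp (l * s) / 2 ≤ Real.cosh (l * s) := by
    rw [Real.cosh_eq]
    have := Real.exp_pos (-(l * s))
    linarith
  have h4 : 0 ≤ S.P.real {ω | s ≤ |f ω|} := measureReal_nonneg
  have h5 : Real.exp (l * s) / 2 * S.P.real {ω | s ≤ |f ω|} ≤ ∫ ω, Real.cosh (l * f ω) ∂S.P := by
    refine le_trans ?_ h1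
    exact mul_le_mul h3 h2 h4 (Real.cosh_pos _).le
  have h6 : 2 * Real.exp (-(l * s)) * (Real.exp (l * s) / 2) = 1 := by
    rw [Real.exp_neg]
    have := (Real.exp_pos (l * s)).ne'
    field_simp
  calc S.P.real {ω | s ≤ |f ω|} =
      2 * Real.exp (-(l * s)) * (Real.exp (l * s) / 2 * S.P.real {ω | s ≤ |f ω|}) := by
        rw [← mul_assoc, h6, one_mul]
    _ ≤ _ := by gcongr

end prob

end Tailaux

namespace Setup

variable {V : Type} [DecidableEq V] [Countable V] (S : Setup V)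

open Tailaux

/-- TAIL-2. PROOF (see `ideas` row 160, (3c)): take `r` with `θ^r ≤ t^(1/4) ≤ θ^(r-1)`. The field
`cav x y X` is a function `F` of `X` on the ball of radius `< r` of the branch and of the messages
`ζ_u` entering at distance `r`; `|∂F/∂ζ_u| ≤ θ^(r-1)`, `|∂F/∂X_w| ≤ θ^dist`. Given the spins at
distance `r`, the `ζ_u` are independent, bounded, `E ζ² ≤ C √t`. (i) replacing the `X_w` by `0`
costs at most `∑ θ^{|w|} |X_w| ≤ C t^(-1/4) max |X_w|`, small by a union bound; (ii) the mean of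
`F(0, ζ)` given the spins is `O(θ^{-r} √t) = O(t^(1/4))`, by oddness; (iii) Bernstein with
`lam = t^(-1/4)/C`. -/
theorem msg_tail : ∃ C c : ℝ, ∃ t0 : ℝ≥0, 0 < C ∧ 0 < c ∧ 0 < t0 ∧ ∀ t : ℝ≥0, 0 < t → t ≤ t0 →
    ∀ x y : V, S.G.Adj x y →
    S.P.real {ω | (t : ℝ) ^ (1 / 8 : ℝ) ≤ |S.msg x y (S.Xt t ω)|} ≤
      C * Real.exp (-c * (t : ℝ) ^ (-(1 / 8) : ℝ)) := by
  obtain ⟨C, hC, hit⟩ := iter S
  have h0 := S.θpos
  have h1 := S.theta_lt_one
  have hA : 0 < Real.artanh S.θ := Real.artanh_pos ⟨h0, h1⟩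
  set A' : ℝ := max (Real.artanh S.θ) 1 with hA'
  have hA'1 : 1 ≤ A' := le_max_right _ _
  have hA'0 : 0 < A' := lt_of_lt_of_le one_pos hA'1
  set E0 : ℝ := (S.θ⁻¹ + 1) * (C + 1 / (1 - S.θ)) with hE0
  refine ⟨2 * Real.exp E0, S.θ / A', 1, by positivity, by positivity, one_pos, ?_⟩
  intro t ht ht1 x y hxy
  have htr : (0 : ℝ) < t := by exact_mod_cast ht
  have htr1 : (t : ℝ) ≤ 1 := by exact_mod_cast ht1
  set u : ℝ := (t : ℝ) ^ (1 / 8 : ℝ) with hu
  have hu0 : 0 < u := Real.rpow_pos_of_pos htr _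
  have hu1 : u ≤ 1 := Real.rpow_le_one htr.le htr1 (by norm_num)
  have hu8 : u ^ 8 = t := by
    rw [hu, ← Real.rpow_natCast, ← Real.rpow_mul htr.le]; norm_num
  have huinv : (t : ℝ) ^ (-(1 / 8) : ℝ) = u⁻¹ := by
    rw [Real.rpow_neg htr.le]
  set s : ℝ := u ^ 2 with hs
  have hs0 : 0 < s := by positivity
  have hs1 : s ≤ 1 := by rw [hs]; nlinarith
  have hsq : √(t : ℝ) = s ^ 2 := by
    rw [← hu8, hs, show u ^ 8 = ((u ^ 2) ^ 2) ^ 2 by ring, Real.sqrt_sq (by positivity)]
  have hts : (t : ℝ) = s ^ 4 := by rw [← hu8, hs]; ring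
  obtain ⟨n, hn1, hn2⟩ := exists_nat_pow_near_of_lt_one hs0 hs1 h0 h1
  set l : ℝ := s⁻¹ / A' with hl
  have hl0 : 0 < l := by positivity
  have hls : l ≤ s⁻¹ := div_le_self (by positivity) hA'1
  have hlr : l * S.θ ^ (n + 1) * Real.artanh S.θ ≤ 1 := by
    calc l * S.θ ^ (n + 1) * Real.artanh S.θ ≤ l * s * A' := by
          gcongr
          exact le_max_left _ _
      _ = 1 := by rw [hl]; field_simp
  have hb := hit t (n + 1) x y hxy l hl0.le hlr
  have hE : ((S.θ⁻¹) ^ (n + 1) * l + l ^ 2) * (C * √t + ((n + 1 : ℕ) : ℝ) * t) ≤ E0 := by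
    have e1 : (S.θ⁻¹) ^ (n + 1) ≤ S.θ⁻¹ * s⁻¹ := by
      rw [pow_succ, mul_comm, inv_pow]
      gcongr
    have e2 : (S.θ⁻¹) ^ (n + 1) * l + l ^ 2 ≤ (S.θ⁻¹ + 1) * (s⁻¹) ^ 2 := by
      calc (S.θ⁻¹) ^ (n + 1) * l + l ^ 2 ≤ S.θ⁻¹ * s⁻¹ * s⁻¹ + (s⁻¹) ^ 2 := by gcongr
        _ = _ := by ring
    have hθ1 : 0 < 1 - S.θ := by linarith
    have e3 : (n : ℝ) * s ≤ S.θ / (1 - S.θ) := by
      have h2 : 1 + (n : ℝ) * (S.θ⁻¹ - 1) ≤ (S.θ⁻¹) ^ n := by
        have := one_add_mul_sub_le_pow (a := S.θ⁻¹) (by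
          have : 0 < S.θ⁻¹ := by positivity
          linarith) n
        exact this
      have h3 : (S.θ⁻¹) ^ n * s ≤ 1 := by
        rw [inv_pow, inv_mul_le_iff₀ (by positivity)]
        linarith
      have h4 : (n : ℝ) * (S.θ⁻¹ - 1) * s ≤ 1 := by
        have : (1 + (n : ℝ) * (S.θ⁻¹ - 1)) * s ≤ (S.θ⁻¹) ^ n * s := by gcongr
        nlinarith
      rw [le_div_iff₀ hθ1]
      have h5 : S.θ * (S.θ⁻¹ - 1) = 1 - S.θ := by field_simp
      calc (n : ℝ) * s * (1 - S.θ) = S.θ * ((n : ℝ) * (S.θ⁻¹ - 1) * s) := by rw [← h5]; ring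
        _ ≤ S.θ * 1 := by gcongr
        _ = S.θ := mul_one _
    have e4 : C * √t + ((n + 1 : ℕ) : ℝ) * t ≤ (C + 1 / (1 - S.θ)) * s ^ 2 := by
      rw [hsq, hts]
      push_cast
      have h6 : ((n : ℝ) + 1) * s ^ 4 ≤ 1 / (1 - S.θ) * s ^ 2 := by
        have h7 : ((n : ℝ) + 1) * s ^ 2 ≤ 1 / (1 - S.θ) := by
          calc ((n : ℝ) + 1) * s ^ 2 = (n : ℝ) * s * s + s ^ 2 := by ring
            _ ≤ (n : ℝ) * s * 1 + 1 := by
              gcongr
              exact pow_le_one₀ hs0.le hs1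
            _ ≤ S.θ / (1 - S.θ) + 1 := by linarith
            _ = 1 / (1 - S.θ) := by field_simp; ring
        calc ((n : ℝ) + 1) * s ^ 4 = ((n : ℝ) + 1) * s ^ 2 * s ^ 2 := by ring
          _ ≤ _ := by gcongr
      linarith
    calc _ ≤ (S.θ⁻¹ + 1) * (s⁻¹) ^ 2 * ((C + 1 / (1 - S.θ)) * s ^ 2) := by
          gcongr
      _ = E0 := by
        rw [hE0]; field_simp
  have hgE : gg S t x y l ≤ Real.exp E0 := hb.trans (Real.exp_le_exp.2 hE)
  -- cosh is integrable and bounded by `gg`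
  have hci : Integrable (fun ω => Real.cosh (l * gf S.θ (S.cav x y (S.Xt t ω)))) S.P := by
    have h2 := (integrable_exp_gf S t x y l).add (integrable_exp_gf S t x y (-l))
    refine (h2.div_const 2).congr (ae_of_all _ fun ω => ?_)
    simp only [Pi.add_apply, neg_mul, Real.cosh_eq]
  have hcg : ∫ ω, Real.cosh (l * gf S.θ (S.cav x y (S.Xt t ω))) ∂S.P ≤ gg S t x y l := by
    obtain ⟨h4, h5⟩ := gg_sym S t hxy l
    rw [h5]
    apply integral_mono hci h4
    intro ω
    simp only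
    have := sinh_mul_tanh_nonneg (h := S.cav x y (S.Xt t ω)) hl0.le
      (gf_mul_nonneg h0 h1 (S.cav x y (S.Xt t ω)))
    have h6 : S.θ * S.msg x y (S.Xt t ω) * Real.sinh (l * gf S.θ (S.cav x y (S.Xt t ω))) =
      S.θ * (Real.tanh (S.cav x y (S.Xt t ω)) *
        Real.sinh (l * gf S.θ (S.cav x y (S.Xt t ω)))) := mul_assoc _ _ _
    rw [h6]
    nlinarith
  have hmk := cosh_markov S (f := fun ω => gf S.θ (S.cav x y (S.Xt t ω))) hl0.le
    (s := S.θ * u) (by positivity) hci
  have hsub : {ω | u ≤ |S.msg x y (S.Xt t ω)|} ⊆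
      {ω | S.θ * u ≤ |gf S.θ (S.cav x y (S.Xt t ω))|} := by
    intro ω hω
    replace hω : u ≤ |Real.tanh (S.cav x y (S.Xt t ω))| := hω
    change S.θ * u ≤ |gf S.θ (S.cav x y (S.Xt t ω))|
    refine le_trans ?_ (tanh_le_gf h0 h1 _)
    gcongr
  have hexp : l * (S.θ * u) = S.θ / A' * u⁻¹ := by
    rw [hl, hs]; field_simp
  calc S.P.real {ω | u ≤ |S.msg x y (S.Xt t ω)|}
      ≤ S.P.real {ω | S.θ * u ≤ |gf S.θ (S.cav x y (S.Xt t ω))|} := measureReal_mono hsub
    _ ≤ 2 * Real.exp (-(l * (S.θ * u))) *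
        ∫ ω, Real.cosh (l * gf S.θ (S.cav x y (S.Xt t ω))) ∂S.P := hmk
    _ ≤ 2 * Real.exp (-(l * (S.θ * u))) * Real.exp E0 := by
        gcongr
        exact hcg.trans hgE
    _ = 2 * Real.exp E0 * Real.exp (-(S.θ / A') * (t : ℝ) ^ (-(1 / 8) : ℝ)) := by
        rw [hexp, huinv, neg_mul]; ring

/-- Gaussian tail of the observation itself. -/
theorem X_tail : ∃ C c : ℝ, ∃ t0 : ℝ≥0, 0 < C ∧ 0 < c ∧ 0 < t0 ∧ ∀ t : ℝ≥0, 0 < t → t ≤ t0 →
    ∀ v : V, S.P.real {ω | 1 ≤ |S.XX t v ω|} ≤ C * Real.exp (-c / t) := by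
  refine ⟨2, 1 / 8, 1 / 2, by norm_num, by norm_num, by norm_num, ?_⟩
  intro t ht ht1 v
  have htr : (0 : ℝ) < t := by exact_mod_cast ht
  have htr1 : (t : ℝ) ≤ 1 / 2 := by
    have h : ((t : ℝ≥0) : ℝ) ≤ ((1 / 2 : ℝ≥0) : ℝ) := NNReal.coe_le_coe.2 ht1
    simpa using h
  set l : ℝ := 1 / (2 * t) with hl
  have hl0 : 0 < l := by positivity
  have hci : Integrable (fun ω => Real.cosh (l * S.B t v ω)) S.P := by
    have h2 := (integrable_exp_B S t v l).add (integrable_exp_B S t v (-l))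
    refine (h2.div_const 2).congr (ae_of_all _ fun ω => ?_)
    simp only [Pi.add_apply, neg_mul, Real.cosh_eq]
  have hce : ∫ ω, Real.cosh (l * S.B t v ω) ∂S.P = Real.exp (t * l ^ 2 / 2) := by
    have h2 := integral_exp_B S t v l
    have h3 := integral_exp_B S t v (-l)
    have h4 : (fun ω => Real.cosh (l * S.B t v ω)) =
        fun ω => (Real.exp (l * S.B t v ω) + Real.exp (-l * S.B t v ω)) / 2 := by
      funext ω; rw [Real.cosh_eq, neg_mul]
    rw [h4, integral_div, integral_add (integrable_exp_B S t v l) (integrable_exp_B S t v (-l)),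
      h2, h3, neg_sq]
    ring
  have hmk := cosh_markov S (f := S.B t v) hl0.le (s := 1 / 2) (by norm_num) hci
  have hsub : {ω | 1 ≤ |S.XX t v ω|} ⊆ {ω | 1 / 2 ≤ |S.B t v ω|} := by
    intro ω hω
    replace hω : 1 ≤ |S.XX t v ω| := hω
    change 1 / 2 ≤ |S.B t v ω|
    rw [XX_eq] at hω
    have h2 := abs_add_le (t * S.spin v ω) (S.B t v ω)
    rw [abs_mul, abs_spin, mul_one, abs_of_pos htr] at h2
    linarith
  calc S.P.real {ω | 1 ≤ |S.XX t v ω|} ≤ S.P.real {ω | 1 / 2 ≤ |S.B t v ω|} :=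
        measureReal_mono hsub
    _ ≤ _ := hmk
    _ = 2 * Real.exp (-(1 / 8) / t) := by
        rw [hce, mul_assoc, ← Real.exp_add]
        congr 2
        rw [hl]; field_simp; ring

end Setup
end Crest.Agent.R160
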