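import Crest.Agent.R160.Decor
import Crest.Agent.R160.Tail
import Crest.Agent.R160.MICalc

/-! Row 160, piece NEAR: conditional variances of the covariances `A_vu` at moderate distance.

`D = V2 𝓖 (m t v)` (independent of `v`, `V2_m_eq`).
(d) `E₂ g_e² ≤ C (t^(1/4) D + min D (exp (-c t^(-1/8))))`: by `fE_diff`,
  `g_e² ≤ C (δ_x² + δ_y²) min 1 msz²`; on the event that the four messages are `≤ t^(1/8)` the
  minimum is `≤ 16 t^(1/4)`; the complement has probability `≤ 4 C exp (-c t^(-1/8))` (`msg_tail`)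
  and `E (δ_x² + δ_y²) 1_bad ≤ min (2 D) (8 P(bad))`.
(crude) `V2 (A t v u) ≤ C θ^(2k) (k+1)² D` from `crude` and Cauchy-Schwarz.
(refined) on `U = {|X_{x_i}|, |X'_{x_i}| < 1, i ≤ k}` use `refined`, `decor`; outside of `U` (of
probability `≤ 2 (k+1) C exp (-c/t)`, `X_tail`) use `crude` and `|A - A'| ≤ θ^k`. -/

set_option autoImplicit false
open Finset Filter MeasureTheory ProbabilityTheory
open scoped Topology NNReal ENNReal

namespace Crest.Agent.R160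

namespace Nearaux

variable {V : Type} [DecidableEq V] [Countable V] (S : Setup V)

/-- difference of magnetisations -/
noncomputable def dm (t : ℝ≥0) (v : V) (p : Om V × Om V) : ℝ := S.m t v p.1 - S.m t v p.2

theorem abs_m_le (t : ℝ≥0) (v : V) (ω : Om V) : |S.m t v ω| ≤ 1 := (S.abs_mag_lt v _).le

theorem abs_dm_le (t : ℝ≥0) (v : V) (p : Om V × Om V) : |dm S t v p| ≤ 2 := by
  unfold dm
  refine (abs_sub _ _).trans ?_
  have h1 := abs_m_le S t v p.1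
  have h2 := abs_m_le S t v p.2
  linarith

theorem dm_sq_le (t : ℝ≥0) (v : V) (p : Om V × Om V) : dm S t v p ^ 2 ≤ 4 := by
  have h := abs_le.1 (abs_dm_le S t v p)
  nlinarith [h.1, h.2]

theorem measurable_dm (t : ℝ≥0) (v : V) : Measurable (dm S t v) := by
  unfold dm
  exact ((S.measurable_m t v).comp measurable_fst).sub ((S.measurable_m t v).comp measurable_snd)

theorem integrable_of_bdd (𝓖 : SubF V) {f : Om V × Om V → ℝ} (hf : Measurable f) {C : ℝ}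
    (h : ∀ p, |f p| ≤ C) : Integrable f (S.P2 𝓖) :=
  Integrable.of_bound hf.aestronglyMeasurable C (Eventually.of_forall fun p => by
    rw [Real.norm_eq_abs]; exact h p)

theorem integrable_dm_sq (𝓖 : SubF V) (t : ℝ≥0) (v : V) :
    Integrable (fun p => dm S t v p ^ 2) (S.P2 𝓖) :=
  integrable_of_bdd S 𝓖 ((measurable_dm S t v).pow_const 2) (C := 4) fun p => by
    rw [abs_of_nonneg (sq_nonneg _)]; exact dm_sq_le S t v p

theorem memLp_of_bdd {f : Om V → ℝ} (hf : Measurable f) {C : ℝ} (h : ∀ p, |f p| ≤ C) :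
    MemLp f 2 S.P :=
  MemLp.of_bound hf.aestronglyMeasurable C (Eventually.of_forall fun p => by
    rw [Real.norm_eq_abs]; exact h p)

theorem int_dm_sq (𝓖 : SubF V) (hinv : S.Inv 𝓖.1) (t : ℝ≥0) (v u : V) :
    ∫ p, dm S t v p ^ 2 ∂(S.P2 𝓖) = S.V2 𝓖.1 (S.m t u) := by
  rw [← S.V2_m_eq 𝓖 hinv t v u, S.V2_eq 𝓖 (memLp_of_bdd S (S.measurable_m t v) (abs_m_le S t v))]
  rfl

theorem ae_good2 (𝓖 : SubF V) (t : ℝ≥0) :
    ∀ᵐ p ∂(S.P2 𝓖), S.Good (S.Xt t p.1) ∧ S.Good (S.Xt t p.2) := by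
  have h : ∀ᵐ ω ∂S.P, S.Good (S.Xt t ω) := S.ae_good fun _ => t
  exact ((S.P2_fst 𝓖).quasiMeasurePreserving.ae h).and ((S.P2_snd 𝓖).quasiMeasurePreserving.ae h)

theorem P2_real_fst (𝓖 : SubF V) {s : Set (Om V)} (hs : MeasurableSet s) :
    (S.P2 𝓖).real {p | p.1 ∈ s} = S.P.real s := by
  have := (S.P2_fst 𝓖).measure_preimage hs.nullMeasurableSet
  unfold Measure.real
  rw [← this]
  rfl

theorem P2_real_snd (𝓖 : SubF V) {s : Set (Om V)} (hs : MeasurableSet s) :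
    (S.P2 𝓖).real {p | p.2 ∈ s} = S.P.real s := by
  have := (S.P2_snd 𝓖).measure_preimage hs.nullMeasurableSet
  unfold Measure.real
  rw [← this]
  rfl

/-- integral over a bad set. -/
theorem int_bad_le (𝓖 : SubF V) {f : Om V × Om V → ℝ} (hf : Measurable f) {M : ℝ}
    (h0 : ∀ p, 0 ≤ f p) (hM : ∀ p, f p ≤ M) {B : Set (Om V × Om V)} (hB : MeasurableSet B) :
    ∫ p, B.indicator f p ∂(S.P2 𝓖) ≤ min (∫ p, f p ∂(S.P2 𝓖)) (M * (S.P2 𝓖).real B) := by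
  have hint : Integrable f (S.P2 𝓖) := integrable_of_bdd S 𝓖 hf (C := M) fun p => by
    rw [abs_of_nonneg (h0 p)]; exact hM p
  refine le_min ?_ ?_
  · refine integral_mono (hint.indicator hB) hint fun p => ?_
    exact Set.indicator_le_self' (fun _ _ => h0 p) p
  · have h1 : ∫ p, B.indicator f p ∂(S.P2 𝓖) ≤ ∫ p, B.indicator (fun _ => M) p ∂(S.P2 𝓖) := by
      refine integral_mono (hint.indicator hB) ((integrable_const M).indicator hB) fun p => ?_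
      exact Set.indicator_le_indicator (hM p)
    refine h1.trans ?_
    rw [integral_indicator_const _ hB, smul_eq_mul, mul_comm]

theorem min_mul_le {a b D e : ℝ} (ha : 0 ≤ a) (hb : 0 ≤ b) (hD : 0 ≤ D) (he : 0 ≤ e) :
    min (a * D) (b * e) ≤ (a + b) * min D e := by
  rcases le_total D e with h | h
  · rw [min_eq_left h]
    refine (min_le_left _ _).trans ?_
    nlinarith
  · rw [min_eq_right h]
    refine (min_le_right _ _).trans ?_
    nlinarith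

theorem measurable_msgt (t : ℝ≥0) (x y : V) : Measurable fun ω => S.msg x y (S.Xt t ω) :=
  (Setup.measurable_tanh.comp (S.measurable_cav x y)).comp (S.measurable_Xt t)

/-- the bad event -/
def badS (s : ℝ) (t : ℝ≥0) (x y : V) : Set (Om V × Om V) :=
  {p | p.1 ∈ {ω | s ≤ |S.msg x y (S.Xt t ω)|}} ∪ {p | p.1 ∈ {ω | s ≤ |S.msg y x (S.Xt t ω)|}} ∪
    ({p | p.2 ∈ {ω | s ≤ |S.msg x y (S.Xt t ω)|}} ∪ {p | p.2 ∈ {ω | s ≤ |S.msg y x (S.Xt t ω)|}})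

theorem measurableSet_b (s : ℝ) (t : ℝ≥0) (x y : V) :
    MeasurableSet {ω | s ≤ |S.msg x y (S.Xt t ω)|} :=
  measurableSet_le measurable_const (measurable_msgt S t x y).abs

theorem measurableSet_badS (s : ℝ) (t : ℝ≥0) (x y : V) : MeasurableSet (badS S s t x y) :=
  ((measurable_fst (measurableSet_b S s t x y)).union
    (measurable_fst (measurableSet_b S s t y x))).union
    ((measurable_snd (measurableSet_b S s t x y)).union
    (measurable_snd (measurableSet_b S s t y x)))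

theorem badS_prob (𝓖 : SubF V) (s : ℝ) (t : ℝ≥0) (x y : V) {e : ℝ}
    (h1 : S.P.real {ω | s ≤ |S.msg x y (S.Xt t ω)|} ≤ e)
    (h2 : S.P.real {ω | s ≤ |S.msg y x (S.Xt t ω)|} ≤ e) :
    (S.P2 𝓖).real (badS S s t x y) ≤ 4 * e := by
  unfold badS
  have u1 := measureReal_union_le (μ := S.P2 𝓖)
    ({p | p.1 ∈ {ω | s ≤ |S.msg x y (S.Xt t ω)|}} ∪ {p | p.1 ∈ {ω | s ≤ |S.msg y x (S.Xt t ω)|}})
    ({p | p.2 ∈ {ω | s ≤ |S.msg x y (S.Xt t ω)|}} ∪ {p | p.2 ∈ {ω | s ≤ |S.msg y x (S.Xt t ω)|}})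
  have u2 := measureReal_union_le (μ := S.P2 𝓖)
    {p | p.1 ∈ {ω | s ≤ |S.msg x y (S.Xt t ω)|}} {p | p.1 ∈ {ω | s ≤ |S.msg y x (S.Xt t ω)|}}
  have u3 := measureReal_union_le (μ := S.P2 𝓖)
    {p | p.2 ∈ {ω | s ≤ |S.msg x y (S.Xt t ω)|}} {p | p.2 ∈ {ω | s ≤ |S.msg y x (S.Xt t ω)|}}
  rw [P2_real_fst S 𝓖 (measurableSet_b S s t x y), P2_real_fst S 𝓖 (measurableSet_b S s t y x)] at u2
  rw [P2_real_snd S 𝓖 (measurableSet_b S s t x y), P2_real_snd S 𝓖 (measurableSet_b S s t y x)] at u3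
  linarith

theorem not_badS {s : ℝ} {t : ℝ≥0} {x y : V} {p : Om V × Om V} (h : p ∉ badS S s t x y) :
    (|S.msg x y (S.Xt t p.1)| < s ∧ |S.msg y x (S.Xt t p.1)| < s) ∧
          (|S.msg x y (S.Xt t p.2)| < s ∧ |S.msg y x (S.Xt t p.2)| < s) := by
  unfold badS at h
  rw [Set.mem_union, Set.mem_union, Set.mem_union, not_or, not_or, not_or] at h
  exact ⟨⟨not_le.1 h.1.1, not_le.1 h.1.2⟩, ⟨not_le.1 h.2.1, not_le.1 h.2.2⟩⟩

/-- sum of the squares -/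
noncomputable def FF2 (t : ℝ≥0) (x y : V) (p : Om V × Om V) : ℝ := dm S t x p ^ 2 + dm S t y p ^ 2

theorem FF2_nonneg (t : ℝ≥0) (x y : V) (p : Om V × Om V) : 0 ≤ FF2 S t x y p := by
  unfold FF2; positivity

theorem FF2_le (t : ℝ≥0) (x y : V) (p : Om V × Om V) : FF2 S t x y p ≤ 8 := by
  have h1 := dm_sq_le S t x p
  have h2 := dm_sq_le S t y p
  unfold FF2
  linarith

theorem measurable_FF2 (t : ℝ≥0) (x y : V) : Measurable (FF2 S t x y) :=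
  ((measurable_dm S t x).pow_const 2).add ((measurable_dm S t y).pow_const 2)

theorem integrable_FF2 (𝓖 : SubF V) (t : ℝ≥0) (x y : V) : Integrable (FF2 S t x y) (S.P2 𝓖) :=
  (integrable_dm_sq S 𝓖 t x).add (integrable_dm_sq S 𝓖 t y)

theorem int_FF2 (𝓖 : SubF V) (hinv : S.Inv 𝓖.1) (t : ℝ≥0) (x y : V) :
    ∫ p, FF2 S t x y p ∂(S.P2 𝓖) = 2 * S.V2 𝓖.1 (S.m t x) := by
  unfold FF2
  rw [integral_add (integrable_dm_sq S 𝓖 t x) (integrable_dm_sq S 𝓖 t y),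
      int_dm_sq S 𝓖 hinv t x x, int_dm_sq S 𝓖 hinv t y x]
  ring

theorem gE_pt {C : ℝ} (hC : 0 < C) {t : ℝ≥0} {x y : V} {p : Om V × Om V}
    (h2 : |S.gE t x y p| ≤ C * (|dm S t x p| + |dm S t y p|) *
        min 1 (S.msz x y (S.Xt t p.1) (S.Xt t p.2))) {s : ℝ} (hs : 0 ≤ s) :
    S.gE t x y p ^ 2 ≤
      32 * C ^ 2 * s ^ 2 * FF2 S t x y p + 2 * C ^ 2 * (badS S s t x y).indicator (FF2 S t x y) p := by
  have hm0 : 0 ≤ S.msz x y (S.Xt t p.1) (S.Xt t p.2) := by unfold Setup.msz; positivity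
  set mz := min 1 (S.msz x y (S.Xt t p.1) (S.Xt t p.2)) with hmz
  have hmz0 : 0 ≤ mz := le_min zero_le_one hm0
  have hmz1 : mz ≤ 1 := min_le_left _ _
  have h3 : S.gE t x y p ^ 2 ≤ (C * (|dm S t x p| + |dm S t y p|) * mz) ^ 2 := by
    rw [← sq_abs]
    exact pow_le_pow_left₀ (abs_nonneg _) h2 2
  have h4 : (|dm S t x p| + |dm S t y p|) ^ 2 ≤ 2 * FF2 S t x y p := by
    unfold FF2
    rw [← sq_abs (dm S t x p), ← sq_abs (dm S t y p)]
    nlinarith [sq_nonneg (|dm S t x p| - |dm S t y p|)]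
  have h5 : (C * (|dm S t x p| + |dm S t y p|) * mz) ^ 2 ≤ 2 * C ^ 2 * FF2 S t x y p * mz ^ 2 := by
    have : (C * (|dm S t x p| + |dm S t y p|) * mz) ^ 2 =
      C ^ 2 * (|dm S t x p| + |dm S t y p|) ^ 2 * mz ^ 2 := by ring
    rw [this]
    calc _ ≤ C ^ 2 * (2 * FF2 S t x y p) * mz ^ 2 := by gcongr
      _ = _ := by ring
  refine h3.trans (h5.trans ?_)
  have hFp := FF2_nonneg S t x y p
  by_cases hpB : p ∈ badS S s t x y
  · rw [Set.indicator_of_mem hpB]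
    have h6 : mz ^ 2 ≤ 1 := pow_le_one₀ hmz0 hmz1
    have h7 : 0 ≤ 32 * C ^ 2 * s ^ 2 * FF2 S t x y p := by positivity
    have h8 : 2 * C ^ 2 * FF2 S t x y p * mz ^ 2 ≤ 2 * C ^ 2 * FF2 S t x y p * 1 := by gcongr
    linarith
  · rw [Set.indicator_of_notMem hpB, mul_zero, add_zero]
    have hnb := not_badS S hpB
    have h6 : mz ≤ 4 * s := by
      refine (min_le_right _ _).trans ?_
      unfold Setup.msz
      linarith [hnb.1.1, hnb.1.2, hnb.2.1, hnb.2.2]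
    have h7 : mz ^ 2 ≤ 16 * s ^ 2 := by
      calc mz ^ 2 ≤ (4 * s) ^ 2 := pow_le_pow_left₀ hmz0 h6 2
        _ = _ := by ring
    calc 2 * C ^ 2 * FF2 S t x y p * mz ^ 2 ≤ 2 * C ^ 2 * FF2 S t x y p * (16 * s ^ 2) := by gcongr
      _ = _ := by ring

/-- integration of the pointwise bound -/
theorem int_gE_le (𝓖 : SubF V) {g F : Om V × Om V → ℝ} {B : Set (Om V × Om V)} {a b : ℝ}
    (hFi : Integrable F (S.P2 𝓖)) (hB : MeasurableSet B)
    (hpt : ∀ᵐ p ∂(S.P2 𝓖), g p ^ 2 ≤ a * F p + b * B.indicator F p) :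
    ∫ p, g p ^ 2 ∂(S.P2 𝓖) ≤ a * ∫ p, F p ∂(S.P2 𝓖) + b * ∫ p, B.indicator F p ∂(S.P2 𝓖) := by
  have h1 : Integrable (fun p => a * F p) (S.P2 𝓖) := hFi.const_mul a
  have h2 : Integrable (fun p => b * B.indicator F p) (S.P2 𝓖) := (hFi.indicator hB).const_mul b
  have h3 := integral_mono_of_nonneg (Eventually.of_forall fun p => sq_nonneg (g p)) (h1.add h2) hpt
  refine h3.trans (le_of_eq ?_)
  have h4 := integral_add h1 h2
  rw [integral_const_mul, integral_const_mul] at h4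
  exact h4

theorem gE_arith {C C' s2 D m I : ℝ} (hm : 0 ≤ m) (hC' : 0 < C') (hs : 0 ≤ s2) (hD : 0 ≤ D)
    (hI : I ≤ (2 + 32 * C') * m) :
    32 * C ^ 2 * s2 * (2 * D) + 2 * C ^ 2 * I ≤
      (64 * C ^ 2 + 2 * C ^ 2 * (2 + 32 * C')) * (s2 * D + m) := by
  have h0 : 2 * C ^ 2 * I ≤ 2 * C ^ 2 * ((2 + 32 * C') * m) := by gcongr
  have h1 : 0 ≤ s2 * D := by positivity
  have h2 : 0 ≤ 2 * C ^ 2 * (2 + 32 * C') := by positivity
  have h3 : 0 ≤ 64 * C ^ 2 := by positivity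
  nlinarith [mul_nonneg h2 h1, mul_nonneg h3 hm]

end Nearaux

namespace Setup

variable {V : Type} [DecidableEq V] [Countable V] (S : Setup V)

open Nearaux

/-- (d) -/
theorem gE_sq : ∃ C c : ℝ, ∃ t0 : ℝ≥0, 0 < C ∧ 0 < c ∧ 0 < t0 ∧ ∀ t : ℝ≥0, 0 < t → t ≤ t0 →
    ∀ (𝓖 : SubF V), S.Inv 𝓖.1 → ∀ x y : V, S.G.Adj x y →
    ∫ p, S.gE t x y p ^ 2 ∂(S.P2 𝓖) ≤ C * ((t : ℝ) ^ (1 / 4 : ℝ) * S.V2 𝓖.1 (S.m t x) +
      min (S.V2 𝓖.1 (S.m t x)) (Real.exp (-c * (t : ℝ) ^ (-(1 / 8) : ℝ)))) := by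
  obtain ⟨C', c, t0, hC', hc, ht0, htail⟩ := S.msg_tail
  obtain ⟨C, hC, hfE⟩ := S.fE_diff
  refine ⟨64 * C ^ 2 + 2 * C ^ 2 * (2 + 32 * C'), c, t0, by positivity, hc, ht0, ?_⟩
  intro t ht htt 𝓖 hinv x y hxy
  have hD0 : 0 ≤ S.V2 𝓖.1 (S.m t x) :=
    S.V2_nonneg 𝓖 (memLp_of_bdd S (S.measurable_m t x) (abs_m_le S t x))
  have hFint := int_FF2 S 𝓖 hinv t x y
  have hFi := integrable_FF2 S 𝓖 t x y
  generalize hD : S.V2 𝓖.1 (S.m t x) = D at *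
  have he0 : 0 < Real.exp (-c * (t : ℝ) ^ (-(1 / 8) : ℝ)) := Real.exp_pos _
  have h1 := htail t ht htt x y hxy
  have h2 := htail t ht htt y x hxy.symm
  generalize he : Real.exp (-c * (t : ℝ) ^ (-(1 / 8) : ℝ)) = e at *
  have htR : (0 : ℝ) < t := by exact_mod_cast ht
  have hs0 : 0 < (t : ℝ) ^ (1 / 8 : ℝ) := Real.rpow_pos_of_pos htR _
  have hs2 : ((t : ℝ) ^ (1 / 8 : ℝ)) ^ 2 = (t : ℝ) ^ (1 / 4 : ℝ) := by
    rw [← Real.rpow_natCast, ← Real.rpow_mul htR.le]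
    norm_num
  generalize hs : (t : ℝ) ^ (1 / 8 : ℝ) = s at *
  rw [← hs2]
  have hB := measurableSet_badS S s t x y
  have hBP := badS_prob S 𝓖 s t x y h1 h2
  have hpt : ∀ᵐ p ∂(S.P2 𝓖), S.gE t x y p ^ 2 ≤
      32 * C ^ 2 * s ^ 2 * FF2 S t x y p + 2 * C ^ 2 * (badS S s t x y).indicator (FF2 S t x y) p := by
    filter_upwards [ae_good2 S 𝓖 t] with p hp
    exact gE_pt S hC (hfE _ _ hp.1 hp.2 x y hxy) hs0.le
  have hbad := int_bad_le S 𝓖 (measurable_FF2 S t x y) (FF2_nonneg S t x y) (FF2_le S t x y) hB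
  rw [hFint] at hbad
  have hbad2 : ∫ p, (badS S s t x y).indicator (FF2 S t x y) p ∂(S.P2 𝓖) ≤
      (2 + 32 * C') * min D e := by
    refine hbad.trans (le_trans ?_ (min_mul_le (by norm_num : (0:ℝ) ≤ 2)
      (by positivity : (0:ℝ) ≤ 32 * C') hD0 he0.le))
    refine min_le_min le_rfl ?_
    linarith
  have hmin0 : 0 ≤ min D e := le_min hD0 he0.le
  exact (int_gE_le S 𝓖 hFi hB hpt).trans (by
    rw [hFint]
    exact gE_arith hmin0 hC' (sq_nonneg s) hD0 hbad2)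

/-- the slopes product at time `t` -/
noncomputable def Aa (t : ℝ≥0) (v u : V) (ω : Om V) : ℝ := S.aa v u (S.Xt t ω)

end Setup

namespace Nearaux

variable {V : Type} [DecidableEq V] [Countable V] (S : Setup V)

theorem V2_F (𝓖 : SubF V) (t : ℝ≥0) {F : (V → ℝ) → ℝ} (hF : Measurable F) (h1 : ∀ X, |F X| ≤ 1) :
    S.V2 𝓖.1 (fun ω => F (S.Xt t ω)) =
      ∫ p, (F (S.Xt t p.1) - F (S.Xt t p.2)) ^ 2 ∂(S.P2 𝓖) :=
  S.V2_eq 𝓖 (memLp_of_bdd S (hF.comp (S.measurable_Xt t)) fun _ => h1 _)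

/-- sum of squares of the differences of the magnetisations along the path. -/
theorem int_sum_sq (𝓖 : SubF V) (hinv : S.Inv 𝓖.1) (t : ℝ≥0) (v u : V) (n : ℕ) (p : ℕ → V) :
    ∫ q, (∑ i ∈ range n, |dm S t (p i) q|) ^ 2 ∂(S.P2 𝓖) ≤ (n : ℝ) ^ 2 * S.V2 𝓖.1 (S.m t v) := by
  have h1 : ∀ q, (∑ i ∈ range n, |dm S t (p i) q|) ^ 2 ≤ (n : ℝ) * ∑ i ∈ range n, dm S t (p i) q ^ 2 := by
    intro q
    have := sq_sum_le_card_mul_sum_sq (s := range n) (f := fun i => |dm S t (p i) q|)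
    simpa [Finset.card_range, sq_abs] using this
  have h2 : Integrable (fun q => (n : ℝ) * ∑ i ∈ range n, dm S t (p i) q ^ 2) (S.P2 𝓖) :=
    (integrable_finset_sum _ fun i _ => integrable_dm_sq S 𝓖 t (p i)).const_mul _
  calc _ ≤ ∫ q, (n : ℝ) * ∑ i ∈ range n, dm S t (p i) q ^ 2 ∂(S.P2 𝓖) :=
        integral_mono_of_nonneg (Eventually.of_forall fun q => sq_nonneg _) h2
          (Eventually.of_forall h1)
    _ = (n : ℝ) ^ 2 * S.V2 𝓖.1 (S.m t v) := by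
        rw [integral_const_mul, integral_finset_sum _ fun i _ => integrable_dm_sq S 𝓖 t (p i)]
        rw [Finset.sum_congr rfl fun i _ => int_dm_sq S 𝓖 hinv t (p i) v, Finset.sum_const,
          Finset.card_range, nsmul_eq_mul]
        ring

/-- crude bound for a general functional -/
theorem crude_gen (𝓖 : SubF V) (hinv : S.Inv 𝓖.1) (t : ℝ≥0) {F : (V → ℝ) → ℝ} (hF : Measurable F)
    (h1 : ∀ X, |F X| ≤ 1) {C : ℝ} (hC : 0 < C) (v u : V)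
    (h : ∀ (X X' : V → ℝ), S.Good X → S.Good X' → |F X - F X'| ≤ C * S.θ ^ S.G.dist v u *
        ∑ i ∈ range (S.G.dist v u + 1), |S.mag (geo S.G v u i) X - S.mag (geo S.G v u i) X'|) :
    S.V2 𝓖.1 (fun ω => F (S.Xt t ω)) ≤ C ^ 2 * S.θ ^ (2 * S.G.dist v u) *
      ((S.G.dist v u : ℝ) + 1) ^ 2 * S.V2 𝓖.1 (S.m t v) := by
  rw [V2_F S 𝓖 t hF h1]
  set k := S.G.dist v u with hk
  have h2 : ∀ᵐ q ∂(S.P2 𝓖), (F (S.Xt t q.1) - F (S.Xt t q.2)) ^ 2 ≤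
      C ^ 2 * S.θ ^ (2 * k) * (∑ i ∈ range (k + 1), |dm S t (geo S.G v u i) q|) ^ 2 := by
    filter_upwards [ae_good2 S 𝓖 t] with q hq
    have h3 : |F (S.Xt t q.1) - F (S.Xt t q.2)| ≤ C * S.θ ^ k *
        ∑ i ∈ range (k + 1), |dm S t (geo S.G v u i) q| := h _ _ hq.1 hq.2
    rw [← sq_abs]
    calc _ ≤ (C * S.θ ^ k * ∑ i ∈ range (k + 1), |dm S t (geo S.G v u i) q|) ^ 2 :=
          pow_le_pow_left₀ (abs_nonneg _) h3 2
      _ = _ := by ring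
  have hi : Integrable (fun q => C ^ 2 * S.θ ^ (2 * k) *
      (∑ i ∈ range (k + 1), |dm S t (geo S.G v u i) q|) ^ 2) (S.P2 𝓖) := by
    refine Integrable.const_mul ?_ _
    refine integrable_of_bdd S 𝓖 ((Finset.measurable_sum _ fun i _ =>
      (measurable_dm S t _).abs).pow_const 2) (C := (2 * (k + 1 : ℕ)) ^ 2) fun q => ?_
    rw [abs_of_nonneg (sq_nonneg _)]
    refine pow_le_pow_left₀ (Finset.sum_nonneg fun i _ => abs_nonneg _) ?_ 2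
    calc _ ≤ ∑ i ∈ range (k + 1), (2 : ℝ) := Finset.sum_le_sum fun i _ => abs_dm_le S t _ q
      _ = _ := by rw [Finset.sum_const, Finset.card_range, nsmul_eq_mul]; ring
  calc _ ≤ ∫ q, C ^ 2 * S.θ ^ (2 * k) *
      (∑ i ∈ range (k + 1), |dm S t (geo S.G v u i) q|) ^ 2 ∂(S.P2 𝓖) :=
        integral_mono_of_nonneg (Eventually.of_forall fun q => sq_nonneg _) hi h2
    _ = C ^ 2 * S.θ ^ (2 * k) *
      ∫ q, (∑ i ∈ range (k + 1), |dm S t (geo S.G v u i) q|) ^ 2 ∂(S.P2 𝓖) := integral_const_mul _ _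
    _ ≤ C ^ 2 * S.θ ^ (2 * k) * (((k + 1 : ℕ) : ℝ) ^ 2 * S.V2 𝓖.1 (S.m t v)) := by
        have := int_sum_sq S 𝓖 hinv t v u (k + 1) (geo S.G v u)
        have h5 := S.θpos
        gcongr
    _ = _ := by push_cast; ring

/-- the bad event along the path -/
def badX (t : ℝ≥0) (p : ℕ → V) (n : ℕ) : Set (Om V × Om V) :=
  ⋃ i ∈ range n, ({q | q.1 ∈ {ω | 1 ≤ |S.XX t (p i) ω|}} ∪ {q | q.2 ∈ {ω | 1 ≤ |S.XX t (p i) ω|}})

theorem measurableSet_X (t : ℝ≥0) (v : V) : MeasurableSet {ω | 1 ≤ |S.XX t v ω|} :=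
  measurableSet_le measurable_const (S.measurable_XX t v).abs

theorem measurableSet_badX (t : ℝ≥0) (p : ℕ → V) (n : ℕ) : MeasurableSet (badX S t p n) := by
  unfold badX
  exact Finset.measurableSet_biUnion _ fun i _ => (measurable_fst (measurableSet_X S t (p i))).union
    (measurable_snd (measurableSet_X S t (p i)))

theorem badX_prob (𝓖 : SubF V) (t : ℝ≥0) (p : ℕ → V) (n : ℕ) {e : ℝ}
    (h : ∀ v : V, S.P.real {ω | 1 ≤ |S.XX t v ω|} ≤ e) :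
    (S.P2 𝓖).real (badX S t p n) ≤ 2 * n * e := by
  unfold badX
  refine (measureReal_biUnion_finset_le _ _).trans ?_
  calc _ ≤ ∑ i ∈ range n, 2 * e := by
        refine Finset.sum_le_sum fun i _ => ?_
        refine (measureReal_union_le _ _).trans ?_
        rw [P2_real_fst S 𝓖 (measurableSet_X S t (p i)), P2_real_snd S 𝓖 (measurableSet_X S t (p i))]
        linarith [h (p i)]
    _ = _ := by rw [Finset.sum_const, Finset.card_range, nsmul_eq_mul]; ring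

theorem not_badX {t : ℝ≥0} {p : ℕ → V} {n : ℕ} {q : Om V × Om V} (h : q ∉ badX S t p n) {i : ℕ}
    (hi : i < n) : |S.XX t (p i) q.1| < 1 ∧ |S.XX t (p i) q.2| < 1 := by
  unfold badX at h
  rw [Set.mem_iUnion₂] at h
  push Not at h
  have := h i (Finset.mem_range.2 hi)
  rw [Set.mem_union, not_or] at this
  exact ⟨not_le.1 this.1, not_le.1 this.2⟩

theorem measurable_gE (t : ℝ≥0) (x y : V) : Measurable (S.gE t x y) := by
  unfold Setup.gE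
  have h := (S.measurable_fE x y).comp (S.measurable_Xt t)
  exact (h.comp measurable_fst).sub (h.comp measurable_snd)

theorem gE_bdd : ∃ M : ℝ, 0 < M ∧ ∀ (t : ℝ≥0) (x y : V) (q : Om V × Om V), |S.gE t x y q| ≤ M := by
  obtain ⟨C, hC, h⟩ := S.psi_bdd
  refine ⟨2 * C, by positivity, fun t x y q => ?_⟩
  have hf : ∀ X : V → ℝ, |S.fE x y X| ≤ C := by
    intro X
    unfold Setup.fE
    rw [abs_div, abs_of_pos (by norm_num : (0:ℝ) < 2), div_le_iff₀ (by norm_num)]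
    refine (abs_add_le _ _).trans ?_
    linarith [h (S.msg x y X), h (S.msg y x X)]
  unfold Setup.gE
  refine (abs_sub _ _).trans ?_
  linarith [hf (S.Xt t q.1), hf (S.Xt t q.2)]

theorem integrable_sum_gE_sq (𝓖 : SubF V) (t : ℝ≥0) (p : ℕ → V) (k : ℕ) :
    Integrable (fun ω => (∑ i ∈ range k, S.gE t (p i) (p (i + 1)) ω) ^ 2) (S.P2 𝓖) := by
  obtain ⟨M, hM, h⟩ := gE_bdd S
  refine integrable_of_bdd S 𝓖 ((Finset.measurable_sum _ fun i _ =>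
      measurable_gE S t _ _).pow_const 2) (C := (k * M) ^ 2) fun q => ?_
  rw [abs_of_nonneg (sq_nonneg _), ← sq_abs]
  refine pow_le_pow_left₀ (abs_nonneg _) ?_ 2
  refine (Finset.abs_sum_le_sum_abs _ _).trans ?_
  calc _ ≤ ∑ i ∈ range k, M := Finset.sum_le_sum fun i _ => h _ _ _ q
    _ = _ := by rw [Finset.sum_const, Finset.card_range, nsmul_eq_mul]

theorem int_near_le (𝓖 : SubF V) {f g1 g2 g3 g4 : Om V × Om V → ℝ} {a : ℝ}
    (h1 : Integrable g1 (S.P2 𝓖)) (h2 : Integrable g2 (S.P2 𝓖)) (h3 : Integrable g3 (S.P2 𝓖))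
    (h4 : Integrable g4 (S.P2 𝓖))
    (hpt : ∀ᵐ p ∂(S.P2 𝓖), f p ^ 2 ≤ a * (g1 p + g2 p + g3 p) + g4 p) :
    ∫ p, f p ^ 2 ∂(S.P2 𝓖) ≤ a * (∫ p, g1 p ∂(S.P2 𝓖) + ∫ p, g2 p ∂(S.P2 𝓖) +
      ∫ p, g3 p ∂(S.P2 𝓖)) + ∫ p, g4 p ∂(S.P2 𝓖) := by
  have h12 : Integrable (fun p => g1 p + g2 p) (S.P2 𝓖) := h1.add h2
  have h123 : Integrable (fun p => g1 p + g2 p + g3 p) (S.P2 𝓖) := h12.add h3
  have ha : Integrable (fun p => a * (g1 p + g2 p + g3 p)) (S.P2 𝓖) := h123.const_mul a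
  have h5 := integral_mono_of_nonneg (Eventually.of_forall fun p => sq_nonneg (f p)) (ha.add h4) hpt
  refine h5.trans (le_of_eq ?_)
  have h6 := integral_add ha h4
  have h7 := integral_add h12 h3
  have h8 := integral_add h1 h2
  rw [integral_const_mul, h7, h8] at h6
  exact h6

/-- arithmetic -/
theorem near_arith {C Cr Cd Cg Cx T D I J k t4 e1 e2 m : ℝ} (hC : 0 < C) (hCr : 0 < Cr)
    (hCd : 0 < Cd) (hCg : 0 < Cg) (hCx : 0 < Cx) (hT : 0 ≤ T) (hD : 0 ≤ D) (hk : 0 ≤ k)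
    (ht4 : 0 ≤ t4) (he1 : 0 ≤ e1) (he2 : 0 ≤ e2)
    (hI : I ≤ Cd * k * (Cg * (t4 * D + min D e1)))
    (hJ : J ≤ T * m) (hm : m ≤ (C ^ 2 + 8 * Cx) * ((k + 1) ^ 2 * min D ((k + 1) * e2))) :
    T * 3 * (Cr ^ 2 * D + Cr ^ 2 * D + I) + J ≤
      (6 * Cr ^ 2 + 3 * Cd * Cg + C ^ 2 + 8 * Cx) * T *
      (D + k * (t4 * D + min D e1) + (k + 1) ^ 2 * min D ((k + 1) * e2)) := by
  have h1 : 0 ≤ min D e1 := le_min hD he1
  have h2 : 0 ≤ min D ((k + 1) * e2) := le_min hD (by positivity)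
  set a := k * (t4 * D + min D e1) with ha
  have ha0 : 0 ≤ a := by positivity
  set b := (k + 1) ^ 2 * min D ((k + 1) * e2) with hb
  have hb0 : 0 ≤ b := by positivity
  have hI' : I ≤ Cd * Cg * a := hI.trans (le_of_eq (by rw [ha]; ring))
  have hJ' : J ≤ T * ((C ^ 2 + 8 * Cx) * b) := hJ.trans (mul_le_mul_of_nonneg_left hm hT)
  have h3 : T * 3 * (Cr ^ 2 * D + Cr ^ 2 * D + I) ≤
      T * 3 * (Cr ^ 2 * D + Cr ^ 2 * D + Cd * Cg * a) := by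
    gcongr
  have e : (6 * Cr ^ 2 + 3 * Cd * Cg + C ^ 2 + 8 * Cx) * T * (D + a + b) =
      T * 3 * (Cr ^ 2 * D + Cr ^ 2 * D + Cd * Cg * a) + T * ((C ^ 2 + 8 * Cx) * b) +
      T * (6 * Cr ^ 2 * (a + b) + 3 * Cd * Cg * (D + b) + (C ^ 2 + 8 * Cx) * (D + a)) := by ring
  rw [e]
  have h4 : 0 ≤ T * (6 * Cr ^ 2 * (a + b) + 3 * Cd * Cg * (D + b) + (C ^ 2 + 8 * Cx) * (D + a)) := by
    positivity
  linarith

theorem min_arith {C Cx k D e : ℝ} (hCx : 0 < Cx) (hk : 0 ≤ k) (hD : 0 ≤ D)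
    (he : 0 ≤ e) :
    min (C ^ 2 * (k + 1) ^ 2 * D) (2 * (k + 1) * (Cx * e)) ≤
      (C ^ 2 + 8 * Cx) * ((k + 1) ^ 2 * min D ((k + 1) * e)) := by
  have h0 : 0 ≤ (k + 1) * e := by positivity
  have h1 : 2 * (k + 1) * (Cx * e) ≤ 8 * Cx * (k + 1) ^ 2 * ((k + 1) * e) := by
    have h2 : 1 ≤ (k + 1) ^ 2 := by nlinarith
    have h3 : 0 ≤ Cx * ((k + 1) * e) := by positivity
    nlinarith
  calc _ ≤ min (C ^ 2 * (k + 1) ^ 2 * D) (8 * Cx * (k + 1) ^ 2 * ((k + 1) * e)) :=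
        min_le_min le_rfl h1
    _ ≤ (C ^ 2 * (k + 1) ^ 2 + 8 * Cx * (k + 1) ^ 2) * min D ((k + 1) * e) :=
        min_mul_le (by positivity) (by positivity) hD h0
    _ = _ := by ring

/-- refined bound for a general functional -/
theorem refined_gen (𝓖 : SubF V) (hinv : S.Inv 𝓖.1) (t : ℝ≥0) {F : (V → ℝ) → ℝ} (hF : Measurable F)
    (v u : V) (h1 : ∀ X, 0 ≤ F X ∧ F X ≤ S.θ ^ S.G.dist v u) {C Cr Cd Cg Cx c : ℝ}
    (hC : 0 < C) (hCr : 0 < Cr) (hCd : 0 < Cd) (hCg : 0 < Cg) (hCx : 0 < Cx)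
    (h : ∀ (X X' : V → ℝ), S.Good X → S.Good X' → |F X - F X'| ≤ C * S.θ ^ S.G.dist v u *
        ∑ i ∈ range (S.G.dist v u + 1), |S.mag (geo S.G v u i) X - S.mag (geo S.G v u i) X'|)
    (hr : ∀ (X X' : V → ℝ), S.Good X → S.Good X' →
      (∀ i ≤ S.G.dist v u, |X (geo S.G v u i)| < 1 ∧ |X' (geo S.G v u i)| < 1) →
      |F X - F X'| ≤ S.θ ^ S.G.dist v u *
        (Cr * |S.mag v X - S.mag v X'| + Cr * |S.mag u X - S.mag u X'| +
        |∑ i ∈ range (S.G.dist v u), (S.fE (geo S.G v u i) (geo S.G v u (i + 1)) X -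
          S.fE (geo S.G v u i) (geo S.G v u (i + 1)) X')|))
    (hd : ∀ x y : V, S.G.Adj x y →
      ∫ ω, (∑ i ∈ range (S.G.dist v u), S.gE t (geo S.G v u i) (geo S.G v u (i + 1)) ω) ^ 2 ∂(S.P2 𝓖) ≤
      Cd * (S.G.dist v u : ℝ) * ∫ ω, S.gE t x y ω ^ 2 ∂(S.P2 𝓖))
    (hg : ∀ x y : V, S.G.Adj x y → ∫ p, S.gE t x y p ^ 2 ∂(S.P2 𝓖) ≤
      Cg * ((t : ℝ) ^ (1 / 4 : ℝ) * S.V2 𝓖.1 (S.m t x) +
      min (S.V2 𝓖.1 (S.m t x)) (Real.exp (-c * (t : ℝ) ^ (-(1 / 8) : ℝ)))))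
    (hx : ∀ v : V, S.P.real {ω | 1 ≤ |S.XX t v ω|} ≤ Cx * Real.exp (-c / t)) :
    S.V2 𝓖.1 (fun ω => F (S.Xt t ω)) ≤ (6 * Cr ^ 2 + 3 * Cd * Cg + C ^ 2 + 8 * Cx) *
      S.θ ^ (2 * S.G.dist v u) * nearR c t (S.V2 𝓖.1 (S.m t v)) (S.G.dist v u) := by
  have hθk0 : 0 < S.θ ^ S.G.dist v u := pow_pos S.θpos _
  have hθ1 : S.θ ^ S.G.dist v u ≤ 1 := pow_le_one₀ S.θpos.le S.theta_lt_one.le
  have hF1 : ∀ X, |F X| ≤ 1 := fun X => by
    rw [abs_of_nonneg (h1 X).1]; exact (h1 X).2.trans hθ1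
  have hcrude := crude_gen S 𝓖 hinv t hF hF1 hC v u h
  rw [V2_F S 𝓖 t hF hF1] at hcrude ⊢
  have hD0 : 0 ≤ S.V2 𝓖.1 (S.m t v) :=
    S.V2_nonneg 𝓖 (memLp_of_bdd S (S.measurable_m t v) (abs_m_le S t v))
  have hdv := int_dm_sq S 𝓖 hinv t v v
  have hdu := int_dm_sq S 𝓖 hinv t u v
  have hsum : ∫ ω, (∑ i ∈ range (S.G.dist v u), S.gE t (geo S.G v u i) (geo S.G v u (i + 1)) ω) ^ 2
      ∂(S.P2 𝓖) ≤ Cd * (S.G.dist v u : ℝ) * (Cg * ((t : ℝ) ^ (1 / 4 : ℝ) * S.V2 𝓖.1 (S.m t v) +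
      min (S.V2 𝓖.1 (S.m t v)) (Real.exp (-c * (t : ℝ) ^ (-(1 / 8) : ℝ))))) := by
    rcases Nat.eq_zero_or_pos (S.G.dist v u) with h0 | h0
    · rw [h0]; simp
    · have hadj := geo_adj S.rt v u h0
      have e1 := hd _ _ hadj
      have e2 := hg _ _ hadj
      rw [geo_zero S.rt] at e1 e2
      refine e1.trans ?_
      gcongr
  have hBP := badX_prob S 𝓖 t (geo S.G v u) (S.G.dist v u + 1) hx
  have hB := measurableSet_badX S t (geo S.G v u) (S.G.dist v u + 1)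
  have hsi := integrable_sum_gE_sq S 𝓖 t (geo S.G v u) (S.G.dist v u)
  generalize hD : S.V2 𝓖.1 (S.m t v) = D at *
  have hFm1 : Measurable fun q : Om V × Om V => F (S.Xt t q.1) :=
    (hF.comp (S.measurable_Xt t)).comp measurable_fst
  have hFm2 : Measurable fun q : Om V × Om V => F (S.Xt t q.2) :=
    (hF.comp (S.measurable_Xt t)).comp measurable_snd
  have hdF : ∀ X X' : V → ℝ, (F X - F X') ^ 2 ≤ S.θ ^ (2 * S.G.dist v u) := by
    intro X X'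
    have a1 := h1 X
    have a2 := h1 X'
    rw [mul_comm, pow_mul]
    exact sq_le_sq' (by linarith [a1.1, a2.2]) (by linarith [a1.2, a2.1])
  have hbad := int_bad_le S 𝓖 (f := fun q => (F (S.Xt t q.1) - F (S.Xt t q.2)) ^ 2)
    ((hFm1.sub hFm2).pow_const 2) (fun q => sq_nonneg _) (fun q => hdF _ _) hB
  have hJ : ∫ q, (badX S t (geo S.G v u) (S.G.dist v u + 1)).indicator
      (fun q => (F (S.Xt t q.1) - F (S.Xt t q.2)) ^ 2) q ∂(S.P2 𝓖) ≤ S.θ ^ (2 * S.G.dist v u) *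
      min (C ^ 2 * ((S.G.dist v u : ℝ) + 1) ^ 2 * D)
        (2 * ((S.G.dist v u : ℝ) + 1) * (Cx * Real.exp (-c / t))) := by
    refine hbad.trans ?_
    rw [mul_min_of_nonneg _ _ (pow_nonneg S.θpos.le _)]
    refine min_le_min (hcrude.trans (le_of_eq (by ring))) ?_
    have := mul_le_mul_of_nonneg_left hBP (pow_nonneg S.θpos.le (2 * S.G.dist v u))
    push_cast at this
    exact this
  have hfin := near_arith hC hCr hCd hCg hCx (pow_nonneg S.θpos.le (2 * S.G.dist v u)) hD0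
    (Nat.cast_nonneg (S.G.dist v u)) (Real.rpow_nonneg t.2 (1 / 4 : ℝ))
    (Real.exp_pos (-c * (t : ℝ) ^ (-(1 / 8) : ℝ))).le (Real.exp_pos (-c / t)).le hsum hJ
    (min_arith hCx (Nat.cast_nonneg (S.G.dist v u)) hD0 (Real.exp_pos (-c / t)).le)
  unfold nearR
  refine le_trans ?_ hfin
  have hpt : ∀ᵐ q ∂(S.P2 𝓖), (F (S.Xt t q.1) - F (S.Xt t q.2)) ^ 2 ≤
      S.θ ^ (2 * S.G.dist v u) * 3 * (Cr ^ 2 * dm S t v q ^ 2 + Cr ^ 2 * dm S t u q ^ 2 +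
        (∑ i ∈ range (S.G.dist v u), S.gE t (geo S.G v u i) (geo S.G v u (i + 1)) q) ^ 2) +
      (badX S t (geo S.G v u) (S.G.dist v u + 1)).indicator
        (fun q => (F (S.Xt t q.1) - F (S.Xt t q.2)) ^ 2) q := by
    filter_upwards [ae_good2 S 𝓖 t] with q hq
    by_cases hqB : q ∈ badX S t (geo S.G v u) (S.G.dist v u + 1)
    · rw [Set.indicator_of_mem hqB]
      have := pow_nonneg S.θpos.le (2 * S.G.dist v u)
      have h0 : 0 ≤ S.θ ^ (2 * S.G.dist v u) * 3 * (Cr ^ 2 * dm S t v q ^ 2 + Cr ^ 2 * dm S t u q ^ 2 +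
        (∑ i ∈ range (S.G.dist v u), S.gE t (geo S.G v u i) (geo S.G v u (i + 1)) q) ^ 2) := by
        positivity
      linarith
    · rw [Set.indicator_of_notMem hqB, add_zero]
      have h3 := hr _ _ hq.1 hq.2 fun i hi => not_badX S hqB (Nat.lt_succ_of_le hi)
      have h4 : |F (S.Xt t q.1) - F (S.Xt t q.2)| ≤ S.θ ^ S.G.dist v u *
        (Cr * |dm S t v q| + Cr * |dm S t u q| +
        |∑ i ∈ range (S.G.dist v u), S.gE t (geo S.G v u i) (geo S.G v u (i + 1)) q|) := h3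
      generalize (∑ i ∈ range (S.G.dist v u), S.gE t (geo S.G v u i) (geo S.G v u (i + 1)) q) = z at *
      rw [← sq_abs, ← sq_abs (dm S t v q), ← sq_abs (dm S t u q), ← sq_abs z, mul_comm 2, pow_mul]
      have a1 := abs_nonneg (dm S t v q)
      have a2 := abs_nonneg (dm S t u q)
      have a3 := abs_nonneg z
      generalize |dm S t v q| = a at *
      generalize |dm S t u q| = b at *
      generalize |z| = c at *
      calc _ ≤ (S.θ ^ S.G.dist v u * (Cr * a + Cr * b + c)) ^ 2 :=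
            pow_le_pow_left₀ (abs_nonneg _) h4 2
        _ = (S.θ ^ S.G.dist v u) ^ 2 * (Cr * a + Cr * b + c) ^ 2 := by ring
        _ ≤ (S.θ ^ S.G.dist v u) ^ 2 * (3 * (Cr ^ 2 * a ^ 2 + Cr ^ 2 * b ^ 2 + c ^ 2)) := by
            gcongr
            nlinarith [sq_nonneg (Cr * a - Cr * b), sq_nonneg (Cr * a - c), sq_nonneg (Cr * b - c)]
        _ = _ := by ring
  have i1 : Integrable (fun q => Cr ^ 2 * dm S t v q ^ 2) (S.P2 𝓖) :=
    (integrable_dm_sq S 𝓖 t v).const_mul _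
  have i2 : Integrable (fun q => Cr ^ 2 * dm S t u q ^ 2) (S.P2 𝓖) :=
    (integrable_dm_sq S 𝓖 t u).const_mul _
  have i3 : Integrable ((badX S t (geo S.G v u) (S.G.dist v u + 1)).indicator
        (fun q => (F (S.Xt t q.1) - F (S.Xt t q.2)) ^ 2)) (S.P2 𝓖) := by
    refine Integrable.indicator ?_ hB
    refine integrable_of_bdd S 𝓖 ((hFm1.sub hFm2).pow_const 2)
      (C := S.θ ^ (2 * S.G.dist v u)) fun q => ?_
    rw [abs_of_nonneg (sq_nonneg _)]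
    exact hdF _ _
  refine (int_near_le S 𝓖 i1 i2 hsi i3 hpt).trans (le_of_eq ?_)
  rw [integral_const_mul, integral_const_mul, hdv, hdu]

end Nearaux

namespace Setup

variable {V : Type} [DecidableEq V] [Countable V] (S : Setup V)

open Nearaux

theorem near_crude : ∃ C : ℝ, 0 < C ∧ ∀ (t : ℝ≥0) (𝓖 : SubF V), S.Inv 𝓖.1 → ∀ v u : V,
    S.V2 𝓖.1 (S.A t v u) ≤ C * S.θ ^ (2 * S.G.dist v u) * ((S.G.dist v u : ℝ) + 1) ^ 2 *
      S.V2 𝓖.1 (S.m t v) ∧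
    S.V2 𝓖.1 (S.Aa t v u) ≤ C * S.θ ^ (2 * S.G.dist v u) * ((S.G.dist v u : ℝ) + 1) ^ 2 *
      S.V2 𝓖.1 (S.m t v) := by
  obtain ⟨C, hC, h⟩ := S.crude
  refine ⟨C ^ 2, by positivity, fun t 𝓖 hinv v u => ?_⟩
  have hθ1 : S.θ ^ S.G.dist v u ≤ 1 := pow_le_one₀ S.θpos.le S.theta_lt_one.le
  constructor
  · refine crude_gen S 𝓖 hinv t (S.measurable_cv v u) (fun X => ?_) hC v u fun X X' hX hX' =>
      (h X X' hX hX' v u).1
    have := S.cv_mem v u X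
    rw [abs_of_pos this.1]; linarith [this.2]
  · refine crude_gen S 𝓖 hinv t (S.measurable_aa v u) (fun X => ?_) hC v u fun X X' hX hX' =>
      (h X X' hX hX' v u).2
    have := S.aa_mem v u X
    rw [abs_of_pos this.1]; linarith [this.2]

theorem near_refined : ∃ C c : ℝ, ∃ t0 : ℝ≥0, 0 < C ∧ 0 < c ∧ 0 < t0 ∧ ∀ t : ℝ≥0, 0 < t → t ≤ t0 →
    ∀ (𝓖 : SubF V), S.Inv 𝓖.1 → ∀ v u : V,
    S.V2 𝓖.1 (S.A t v u) ≤ C * S.θ ^ (2 * S.G.dist v u) *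
      nearR c t (S.V2 𝓖.1 (S.m t v)) (S.G.dist v u) ∧
    S.V2 𝓖.1 (S.Aa t v u) ≤ C * S.θ ^ (2 * S.G.dist v u) *
      nearR c t (S.V2 𝓖.1 (S.m t v)) (S.G.dist v u) := by
  obtain ⟨C, hC, h⟩ := S.crude
  obtain ⟨Cr, hCr, hr⟩ := S.refined
  obtain ⟨Cd, hCd, hd⟩ := S.decor
  obtain ⟨Cg, cg, tg, hCg, hcg, htg, hg⟩ := S.gE_sq
  obtain ⟨Cx, cx, tx, hCx, hcx, htx, hx⟩ := S.X_tail
  refine ⟨6 * Cr ^ 2 + 3 * Cd * Cg + C ^ 2 + 8 * Cx, min cg cx, min tg tx, by positivity,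
    lt_min hcg hcx, lt_min htg htx, fun t ht htt 𝓖 hinv v u => ?_⟩
  have htR : (0 : ℝ) < t := by exact_mod_cast ht
  have hg' : ∀ x y : V, S.G.Adj x y → ∫ p, S.gE t x y p ^ 2 ∂(S.P2 𝓖) ≤
      Cg * ((t : ℝ) ^ (1 / 4 : ℝ) * S.V2 𝓖.1 (S.m t x) +
      min (S.V2 𝓖.1 (S.m t x)) (Real.exp (-(min cg cx) * (t : ℝ) ^ (-(1 / 8) : ℝ)))) := by
    intro x y hxy
    refine (hg t ht (htt.trans (min_le_left _ _)) 𝓖 hinv x y hxy).trans ?_
    gcongr
    exact min_le_left _ _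
  have hx' : ∀ v : V, S.P.real {ω | 1 ≤ |S.XX t v ω|} ≤ Cx * Real.exp (-(min cg cx) / t) := by
    intro v
    refine (hx t ht (htt.trans (min_le_right _ _)) v).trans ?_
    gcongr
    exact min_le_right _ _
  have hd' : ∀ x y : V, S.G.Adj x y →
      ∫ ω, (∑ i ∈ range (S.G.dist v u), S.gE t (geo S.G v u i) (geo S.G v u (i + 1)) ω) ^ 2 ∂(S.P2 𝓖) ≤
      Cd * (S.G.dist v u : ℝ) * ∫ ω, S.gE t x y ω ^ 2 ∂(S.P2 𝓖) := fun x y hxy =>
    hd t 𝓖 hinv (geo S.G v u) _ (geo_isGeo S.rt v u) x y hxy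
  constructor
  · exact refined_gen S 𝓖 hinv t (S.measurable_cv v u) v u
      (fun X => ⟨(S.cv_mem v u X).1.le, (S.cv_mem v u X).2⟩) hC hCr hCd hCg hCx
      (fun X X' hX hX' => (h X X' hX hX' v u).1) (fun X X' hX hX' hi => (hr X X' hX hX' v u hi).1)
      hd' hg' hx'
  · exact refined_gen S 𝓖 hinv t (S.measurable_aa v u) v u
      (fun X => ⟨(S.aa_mem v u X).1.le, (S.aa_mem v u X).2⟩) hC hCr hCd hCg hCx
      (fun X X' hX hX' => (h X X' hX hX' v u).2) (fun X X' hX hX' hi => (hr X X' hX hX' v u hi).2)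
      hd' hg' hx'

end Setup

end Crest.Agent.R160
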