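import Mathlib

/-! Row 160, piece OSGOOD (pure analysis). -/

set_option autoImplicit false
open Filter MeasureTheory
open scoped Topology

namespace Crest.Agent.R160

/-- `phi4 x = x (1 + log (4 / x))`, nondecreasing on `[0,4]`, `phi4 0 = 0`. -/
noncomputable def phi4 (x : ℝ) : ℝ := x * (1 + Real.log (4 / x))

namespace OsgoodAux

theorem phi4_nonneg {y : ℝ} (hy : 0 ≤ y) (hy4 : y ≤ 4) : 0 ≤ phi4 y := by
  unfold phi4
  rcases hy.eq_or_lt with h | h
  · rw [← h]; simp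
  · have : 0 ≤ Real.log (4 / y) := Real.log_nonneg (by rw [le_div_iff₀ h]; linarith)
    positivity

theorem phi4_mono {x y : ℝ} (hx : 0 ≤ x) (hxy : x ≤ y) (hy4 : y ≤ 4) : phi4 x ≤ phi4 y := by
  rcases hx.eq_or_lt with h | h
  · rw [← h]
    have : phi4 0 = 0 := by simp [phi4]
    rw [this]
    exact phi4_nonneg (by linarith) hy4
  · have hy : 0 < y := lt_of_lt_of_le h hxy
    unfold phi4
    have h1 : Real.log (4 / x) = Real.log (4 / y) + Real.log (y / x) := by
      rw [← Real.log_mul (by positivity) (by positivity)]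
      congr 1
      field_simp
    have h2 : Real.log (y / x) ≤ y / x - 1 := Real.log_le_sub_one_of_pos (by positivity)
    have h3 : 0 ≤ Real.log (4 / y) := Real.log_nonneg (by rw [le_div_iff₀ hy]; linarith)
    have h4 : x * Real.log (y / x) ≤ y - x := by
      have := mul_le_mul_of_nonneg_left h2 h.le
      have e : x * (y / x - 1) = y - x := by field_simp
      linarith
    rw [h1]
    nlinarith [mul_nonneg (sub_nonneg.mpr hxy) h3]

end OsgoodAux

open OsgoodAux in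
/-- OSGOOD. PROOF. Put `G(x) = log (1 + log (4/x))`, `G' = -1/phi4`. Fix `t1` with `D(t1) > 0` and a
small `s`; compare `D` on `[s, t1]` with the solution `u` of `u' = 2 a(t) phi4(u)`, i.e.
`G(u(t)) = G(u(s)) - 2 ∫_s^t a`, started from `u(s) > D(s)` tending to `0` as `s → 0`; the local
inequality gives `D ≤ u` along a fine partition; but `G(u(t1)) ≥ G(u(s)) - 2 ∫_0^{t1} a → ∞`. -/
theorem osgood (D : ℝ → ℝ) (C T : ℝ) (hC : 0 < C) (hT : 0 < T)
    (hD0 : ∀ t, 0 < t → t ≤ T → 0 ≤ D t ∧ D t ≤ 4)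
    (hloc : ∀ s ε : ℝ, 0 < s → 0 < ε → ∃ h0 : ℝ, 0 < h0 ∧ ∀ t h : ℝ, s ≤ t → 0 < h → h ≤ h0 → t + h ≤ T →
      D (t + h) - D t ≤ h * (C * t ^ (-(7 / 8) : ℝ) * phi4 (D t) + ε))
    (hlim : Tendsto D (𝓝[>] 0) (𝓝 0)) :
    ∀ t, 0 < t → t ≤ T → D t = 0 := by
  intro t1 ht1 ht1T
  -- it suffices to bound by every η
  refine le_antisymm ?_ (hD0 t1 ht1 ht1T).1
  refine le_of_forall_pos_le_add ?_
  intro η hη
  rw [zero_add]
  set A : ℝ → ℝ := fun t => 8 * C * t ^ (1 / 8 : ℝ) with hA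
  have hAmono : ∀ {x y : ℝ}, 0 ≤ x → x ≤ y → A x ≤ A y := by
    intro x y hx hxy
    simp only [hA]
    have := Real.rpow_le_rpow hx hxy (by norm_num : (0 : ℝ) ≤ 1 / 8)
    nlinarith
  have hAnn : ∀ {x : ℝ}, 0 ≤ x → 0 ≤ A x := by
    intro x hx
    simp only [hA]
    positivity
  -- choose M
  obtain ⟨M, hM1, hMη⟩ : ∃ M : ℝ, 1 ≤ M ∧ 4 * Real.exp (1 - M) ≤ η := by
    refine ⟨max 1 (1 - Real.log (η / 4)), le_max_left _ _, ?_⟩
    have h1 : 1 - max 1 (1 - Real.log (η / 4)) ≤ Real.log (η / 4) := by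
      have := le_max_right 1 (1 - Real.log (η / 4))
      linarith
    have h2 := Real.exp_le_exp.mpr h1
    rw [Real.exp_log (by positivity)] at h2
    linarith
  set K : ℝ := M * Real.exp (2 * A T) with hK
  have hKpos : 0 < K := by positivity
  set L : ℝ → ℝ := fun t => K * Real.exp (-(2 * A t)) with hL
  set u : ℝ → ℝ := fun t => 4 * Real.exp (1 - L t) with hu
  have hLM : ∀ {t : ℝ}, 0 ≤ t → t ≤ T → M ≤ L t := by
    intro t h0 h1
    have h2 : A t ≤ A T := hAmono h0 h1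
    have h3 : Real.exp (-(2 * A T)) ≤ Real.exp (-(2 * A t)) := Real.exp_le_exp.mpr (by linarith)
    calc M = K * Real.exp (-(2 * A T)) := by
            rw [hK, mul_assoc, ← Real.exp_add]; simp
      _ ≤ L t := mul_le_mul_of_nonneg_left h3 hKpos.le
  have hLmono : ∀ {x y : ℝ}, 0 ≤ x → x ≤ y → L y ≤ L x := by
    intro x y hx hxy
    have h2 : A x ≤ A y := hAmono hx hxy
    exact mul_le_mul_of_nonneg_left (Real.exp_le_exp.mpr (by linarith)) hKpos.le
  have humono : ∀ {x y : ℝ}, 0 ≤ x → x ≤ y → u x ≤ u y := by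
    intro x y hx hxy
    have h2 := hLmono hx hxy
    have h3 : Real.exp (1 - L x) ≤ Real.exp (1 - L y) := Real.exp_le_exp.mpr (by linarith)
    simp only [hu]
    linarith
  have hupos : ∀ t, 0 < u t := fun t => by simp only [hu]; positivity
  have hu4 : ∀ {t : ℝ}, 0 ≤ t → t ≤ T → u t ≤ 4 := by
    intro t h0 h1
    have h2 := hLM h0 h1
    have h3 : Real.exp (1 - L t) ≤ Real.exp 0 := Real.exp_le_exp.mpr (by linarith)
    rw [Real.exp_zero] at h3
    simp only [hu]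
    linarith
  have huM : ∀ {t : ℝ}, 0 ≤ t → t ≤ T → u t ≤ η := by
    intro t h0 h1
    have h2 := hLM h0 h1
    have h3 : Real.exp (1 - L t) ≤ Real.exp (1 - M) := Real.exp_le_exp.mpr (by linarith)
    simp only [hu]
    linarith
  have huK : ∀ {t : ℝ}, 0 ≤ t → 4 * Real.exp (1 - K) ≤ u t := by
    intro t h0
    have h1 : L t ≤ K := by
      have : Real.exp (-(2 * A t)) ≤ 1 := by
        rw [Real.exp_le_one_iff]
        have := hAnn h0
        linarith
      calc L t = K * Real.exp (-(2 * A t)) := rfl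
        _ ≤ K * 1 := mul_le_mul_of_nonneg_left this hKpos.le
        _ = K := mul_one K
    have h3 : Real.exp (1 - K) ≤ Real.exp (1 - L t) := Real.exp_le_exp.mpr (by linarith)
    simp only [hu]
    linarith
  have hphiu : ∀ t, phi4 (u t) = u t * L t := by
    intro t
    unfold phi4
    congr 1
    have : (4 : ℝ) / u t = Real.exp (L t - 1) := by
      simp only [hu]
      rw [show L t - 1 = -(1 - L t) by ring, Real.exp_neg]
      field_simp
    rw [this, Real.log_exp]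
    ring
  -- derivative
  have hderiv : ∀ {t : ℝ}, 0 < t → HasDerivAt u (2 * (C * t ^ (-(7 / 8) : ℝ)) * phi4 (u t)) t := by
    intro t ht
    have h1 : HasDerivAt A (C * t ^ (-(7 / 8) : ℝ)) t := by
      have := (Real.hasDerivAt_rpow_const (x := t) (p := 1 / 8) (Or.inl ht.ne')).const_mul (8 * C)
      refine this.congr_deriv ?_
      rw [show (1 / 8 : ℝ) - 1 = -(7 / 8) by norm_num]
      ring
    have h2 : HasDerivAt (fun t => -(2 * A t)) (-(2 * (C * t ^ (-(7 / 8) : ℝ)))) t :=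
      (h1.const_mul 2).neg
    have h3 : HasDerivAt L (K * (Real.exp (-(2 * A t)) * (-(2 * (C * t ^ (-(7 / 8) : ℝ)))))) t :=
      (h2.exp).const_mul K
    have h4 : HasDerivAt (fun t => 1 - L t)
        (-(K * (Real.exp (-(2 * A t)) * (-(2 * (C * t ^ (-(7 / 8) : ℝ))))))) t := by
      simpa using (h3.const_sub 1)
    have h5 : HasDerivAt u _ t := (h4.exp).const_mul 4
    refine h5.congr_deriv ?_
    rw [hphiu]
    simp only [hu, hL]
    ring
  -- choose s
  have hpos : (0 : ℝ) < 4 * Real.exp (1 - K) := by positivity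
  obtain ⟨s, hs0, hst, hDs⟩ : ∃ s : ℝ, 0 < s ∧ s < t1 ∧ D s ≤ 4 * Real.exp (1 - K) := by
    have e1 : ∀ᶠ x in 𝓝[>] (0 : ℝ), D x < 4 * Real.exp (1 - K) :=
      hlim.eventually (gt_mem_nhds hpos)
    have e2 : ∀ᶠ x in 𝓝[>] (0 : ℝ), x ∈ Set.Ioo 0 t1 := Ioo_mem_nhdsGT ht1
    obtain ⟨x, hx1, hx2⟩ := (e1.and e2).exists
    exact ⟨x, hx2.1, hx2.2, hx1.le⟩
  -- the strict supersolution
  set ε : ℝ := 1 / 2 * (C * T ^ (-(7 / 8) : ℝ)) * phi4 (u s) with hε
  have hphis : 0 < phi4 (u s) := by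
    rw [hphiu]
    have := hLM hs0.le (hst.le.trans ht1T)
    have := hupos s
    have : 0 < L s := by linarith
    positivity
  have hεpos : 0 < ε := by positivity
  obtain ⟨h0, hh0, hstep⟩ := hloc s ε hs0 hεpos
  have hustep : ∀ t h : ℝ, s ≤ t → 0 < h → h ≤ s / 3 → t + h ≤ T →
      h * (C * t ^ (-(7 / 8) : ℝ) * phi4 (u t) + ε) ≤ u (t + h) - u t := by
    intro t h hst' hh hh3 hthT
    have ht0 : 0 < t := lt_of_lt_of_le hs0 hst'
    have hcont : ContinuousOn u (Set.Icc t (t + h)) := fun x hx =>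
      (hderiv (lt_of_lt_of_le ht0 hx.1)).continuousAt.continuousWithinAt
    obtain ⟨ξ, hξ, hξe⟩ := exists_hasDerivAt_eq_slope u
      (fun t => 2 * (C * t ^ (-(7 / 8) : ℝ)) * phi4 (u t)) (by linarith : t < t + h) hcont
      (fun x hx => hderiv (lt_trans ht0 hx.1))
    have hξ0 : 0 < ξ := lt_trans ht0 hξ.1
    have hξT : ξ ≤ T := by linarith [hξ.2]
    have e1 : u (t + h) - u t = h * (2 * (C * ξ ^ (-(7 / 8) : ℝ)) * phi4 (u ξ)) := by
      rw [hξe]
      have : t + h - t = h := by ring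
      rw [this]
      field_simp
    rw [e1]
    refine mul_le_mul_of_nonneg_left ?_ hh.le
    have hp1 : phi4 (u t) ≤ phi4 (u ξ) :=
      phi4_mono (hupos t).le (humono ht0.le hξ.1.le) (hu4 hξ0.le hξT)
    have hp2 : phi4 (u s) ≤ phi4 (u t) :=
      phi4_mono (hupos s).le (humono hs0.le hst') (hu4 ht0.le (by linarith))
    have hr1 : (3 / 4) * t ^ (-(7 / 8) : ℝ) ≤ ξ ^ (-(7 / 8) : ℝ) := by
      have hq : ξ / t ≤ 4 / 3 := by
        rw [div_le_iff₀ ht0]
        nlinarith [hξ.2]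
      have hq1 : 1 ≤ ξ / t := by rw [le_div_iff₀ ht0]; linarith [hξ.1]
      have hq2 : (ξ / t) ^ (7 / 8 : ℝ) ≤ 4 / 3 := by
        calc (ξ / t) ^ (7 / 8 : ℝ) ≤ (ξ / t) ^ (1 : ℝ) :=
              Real.rpow_le_rpow_of_exponent_le hq1 (by norm_num)
          _ = ξ / t := Real.rpow_one _
          _ ≤ 4 / 3 := hq
      have hq3 : ξ ^ (7 / 8 : ℝ) = (ξ / t) ^ (7 / 8 : ℝ) * t ^ (7 / 8 : ℝ) := by
        rw [← Real.mul_rpow (by positivity) ht0.le]
        congr 1
        field_simp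
      rw [Real.rpow_neg ht0.le, Real.rpow_neg hξ0.le]
      have ht7 : 0 < t ^ (7 / 8 : ℝ) := Real.rpow_pos_of_pos ht0 _
      have hξ7 : 0 < ξ ^ (7 / 8 : ℝ) := Real.rpow_pos_of_pos hξ0 _
      have hle : ξ ^ (7 / 8 : ℝ) ≤ 4 / 3 * t ^ (7 / 8 : ℝ) := by
        rw [hq3]
        exact mul_le_mul_of_nonneg_right hq2 ht7.le
      calc 3 / 4 * (t ^ (7 / 8 : ℝ))⁻¹ = (4 / 3 * t ^ (7 / 8 : ℝ))⁻¹ := by
            rw [mul_inv]; norm_num
        _ ≤ (ξ ^ (7 / 8 : ℝ))⁻¹ := inv_anti₀ hξ7 hle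
    have hr2 : T ^ (-(7 / 8) : ℝ) ≤ t ^ (-(7 / 8) : ℝ) :=
      Real.rpow_le_rpow_of_nonpos ht0 (by linarith) (by norm_num)
    have hT7 : 0 < T ^ (-(7 / 8) : ℝ) := Real.rpow_pos_of_pos hT _
    have ht7' : 0 < t ^ (-(7 / 8) : ℝ) := Real.rpow_pos_of_pos ht0 _
    have hξ7' : 0 < ξ ^ (-(7 / 8) : ℝ) := Real.rpow_pos_of_pos hξ0 _
    have hphit : 0 ≤ phi4 (u t) := hphis.le.trans hp2
    calc C * t ^ (-(7 / 8) : ℝ) * phi4 (u t) + ε
        ≤ C * t ^ (-(7 / 8) : ℝ) * phi4 (u t)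
            + 1 / 2 * (C * t ^ (-(7 / 8) : ℝ)) * phi4 (u t) := by
          have : ε ≤ 1 / 2 * (C * t ^ (-(7 / 8) : ℝ)) * phi4 (u t) := by
            rw [hε]
            have h1 : 1 / 2 * (C * T ^ (-(7 / 8) : ℝ)) ≤ 1 / 2 * (C * t ^ (-(7 / 8) : ℝ)) := by
              nlinarith
            exact mul_le_mul h1 hp2 hphis.le (by positivity)
          linarith
      _ = 2 * (C * ((3 / 4) * t ^ (-(7 / 8) : ℝ))) * phi4 (u t) := by ring
      _ ≤ 2 * (C * ξ ^ (-(7 / 8) : ℝ)) * phi4 (u ξ) := by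
          have h1 : 2 * (C * ((3 / 4) * t ^ (-(7 / 8) : ℝ))) ≤ 2 * (C * ξ ^ (-(7 / 8) : ℝ)) := by
            nlinarith
          exact mul_le_mul h1 hp1 hphit (by positivity)
  -- the partition
  obtain ⟨n, hn⟩ := exists_nat_gt ((t1 - s) / min h0 (s / 3))
  have hmin : 0 < min h0 (s / 3) := lt_min hh0 (by linarith)
  have hn0 : (0 : ℝ) < n := lt_trans (div_pos (by linarith) hmin) hn
  set h : ℝ := (t1 - s) / n with hh
  have hhpos : 0 < h := div_pos (by linarith) hn0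
  have hhle : h ≤ min h0 (s / 3) := by
    rw [hh, div_le_iff₀ hn0]
    rw [div_lt_iff₀ hmin] at hn
    linarith
  have key : ∀ k : ℕ, k ≤ n → D (s + k * h) ≤ u (s + k * h) := by
    intro k
    induction k with
    | zero =>
      intro _
      simp only [Nat.cast_zero, zero_mul, add_zero]
      exact hDs.trans (huK hs0.le)
    | succ k ih =>
      intro hk
      have ih' := ih (by omega)
      have hkn : ((k : ℝ) + 1) ≤ n := by exact_mod_cast hk
      have hnh : (n : ℝ) * h = t1 - s := by rw [hh]; field_simp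
      have hle : s + (k : ℝ) * h + h ≤ t1 := by
        have := mul_le_mul_of_nonneg_right hkn hhpos.le
        linarith
      have hst2 : s ≤ s + (k : ℝ) * h := by
        have : 0 ≤ (k : ℝ) * h := by positivity
        linarith
      have ht20 : 0 < s + (k : ℝ) * h := lt_of_lt_of_le hs0 hst2
      have a1 := hstep (s + k * h) h hst2 hhpos (hhle.trans (min_le_left _ _)) (hle.trans ht1T)
      have a2 := hustep (s + k * h) h hst2 hhpos (hhle.trans (min_le_right _ _)) (hle.trans ht1T)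
      have a3 : phi4 (D (s + k * h)) ≤ phi4 (u (s + k * h)) :=
        phi4_mono (hD0 _ ht20 (by linarith)).1 ih' (hu4 ht20.le (by linarith))
      have a4 : C * (s + k * h) ^ (-(7 / 8) : ℝ) * phi4 (D (s + k * h))
          ≤ C * (s + k * h) ^ (-(7 / 8) : ℝ) * phi4 (u (s + k * h)) :=
        mul_le_mul_of_nonneg_left a3 (by positivity)
      have a5 := mul_le_mul_of_nonneg_left (add_le_add_left a4 ε) hhpos.le
      have e : s + ((k + 1 : ℕ) : ℝ) * h = s + k * h + h := by push_cast; ring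
      rw [e]
      linarith
  have hfin := key n le_rfl
  have hnh : s + (n : ℝ) * h = t1 := by rw [hh]; field_simp; ring
  rw [hnh] at hfin
  exact hfin.trans (huM ht1.le ht1T)

end Crest.Agent.R160
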