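import Crest.Agent.R160.Law

/-! Row 160, piece PAIR: two copies, conditionally independent given a sub-sigma-algebra `𝓖`.

Sub-sigma-algebras are elements of `SubF V` (a subtype, so that they are never picked up as
instances). -/

set_option autoImplicit false
open Finset Filter MeasureTheory ProbabilityTheory
open scoped Topology NNReal ENNReal

namespace Crest.Agent.R160

namespace PairAux

variable {Ω : Type} {m : MeasurableSpace Ω} [mΩ : MeasurableSpace Ω] [StandardBorelSpace Ω]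
  (μ : Measure Ω) [IsProbabilityMeasure μ]

/-- the kernel `ω ↦ κ ω × κ ω`. -/
noncomputable def ker (hm : m ≤ mΩ) : Kernel Ω Ω :=
  Kernel.comap (condExpKernel μ m) id (measurable_id'' hm)

theorem ker_apply (hm : m ≤ mΩ) (ω : Ω) : ker μ hm ω = condExpKernel μ m ω := by
  simp [ker, Kernel.comap_apply]

instance (hm : m ≤ mΩ) : IsMarkovKernel (ker μ hm) := by
  unfold ker; infer_instance

/-- the pair measure -/
noncomputable def pair (hm : m ≤ mΩ) : Measure (Ω × Ω) := μ.bind (ker μ hm ×ₖ ker μ hm)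

theorem pair_eq (hm : m ≤ mΩ) :
    μ.bind (fun ω => (condExpKernel μ m ω).prod (condExpKernel μ m ω)) = pair μ hm := by
  unfold pair
  congr 1
  funext ω
  rw [Kernel.prod_apply, ker_apply]

instance (hm : m ≤ mΩ) : IsProbabilityMeasure (pair μ hm) := by
  unfold pair; infer_instance

theorem ker_bind (hm : m ≤ mΩ) : μ.bind (ker μ hm) = μ := by
  ext s hs
  rw [Measure.bind_apply hs (ker μ hm).aemeasurable]
  have h1 := condExpKernel_ae_eq_condExp (μ := μ) hm hs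
  have h2 : ∫⁻ a, ker μ hm a s ∂μ = ∫⁻ a, ENNReal.ofReal ((condExpKernel μ m a).real s) ∂μ := by
    refine lintegral_congr fun a => ?_
    rw [ker_apply, ofReal_measureReal]
  rw [h2, ← ofReal_integral_eq_lintegral_ofReal (integrable_toReal_condExpKernel hs)
    (Eventually.of_forall fun _ => measureReal_nonneg), integral_congr_ae h1, integral_condExp hm]
  change ENNReal.ofReal (∫ x, s.indicator (1 : Ω → ℝ) x ∂μ) = μ s
  rw [integral_indicator_one hs, ofReal_measureReal]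

theorem pair_fst (hm : m ≤ mΩ) : MeasurePreserving Prod.fst (pair μ hm) μ := by
  refine ⟨measurable_fst, ?_⟩
  ext s hs
  rw [Measure.map_apply measurable_fst hs, pair,
    Measure.bind_apply (measurable_fst hs) (ker μ hm ×ₖ ker μ hm).aemeasurable]
  conv_rhs => rw [← ker_bind μ hm, Measure.bind_apply hs (ker μ hm).aemeasurable]
  refine lintegral_congr fun a => ?_
  rw [Kernel.prod_apply, ← Set.prod_univ, Measure.prod_prod, measure_univ, mul_one]

theorem pair_swap (hm : m ≤ mΩ) : MeasurePreserving Prod.swap (pair μ hm) (pair μ hm) := by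
  refine ⟨measurable_swap, ?_⟩
  ext s hs
  rw [Measure.map_apply measurable_swap hs, pair,
    Measure.bind_apply (measurable_swap hs) (ker μ hm ×ₖ ker μ hm).aemeasurable,
    Measure.bind_apply hs (ker μ hm ×ₖ ker μ hm).aemeasurable]
  refine lintegral_congr fun a => ?_
  rw [Kernel.prod_apply]
  conv_rhs => rw [← Measure.prod_swap]
  rw [Measure.map_apply measurable_swap hs]

theorem pair_snd (hm : m ≤ mΩ) : MeasurePreserving Prod.snd (pair μ hm) μ :=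
  (pair_fst μ hm).comp (pair_swap μ hm)

theorem integrable_mul (hm : m ≤ mΩ) {f g : Ω → ℝ} (hf : MemLp f 2 μ) (hg : MemLp g 2 μ) :
    Integrable (fun p : Ω × Ω => f p.1 * g p.2) (pair μ hm) :=
  (hf.comp_measurePreserving (pair_fst μ hm)).integrable_mul
    (hg.comp_measurePreserving (pair_snd μ hm))

theorem pair_mul (hm : m ≤ mΩ) {f g : Ω → ℝ} (hf : MemLp f 2 μ) (hg : MemLp g 2 μ) :
    ∫ p, f p.1 * g p.2 ∂(pair μ hm) = ∫ ω, (μ[f | m]) ω * (μ[g | m]) ω ∂μ := by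
  have hi := integrable_mul μ hm hf hg
  have h1 : pair μ hm = ((ker μ hm ×ₖ ker μ hm) ∘ₖ Kernel.const Unit μ) () :=
    Measure.comp_eq_comp_const_apply
  rw [h1] at hi ⊢
  rw [Kernel.integral_comp hi]
  simp only [Kernel.const_apply]
  refine integral_congr_ae ?_
  filter_upwards [condExp_ae_eq_integral_condExpKernel hm (hf.integrable one_le_two),
    condExp_ae_eq_integral_condExpKernel hm (hg.integrable one_le_two)] with ω h2 h3
  rw [h2, h3, Kernel.prod_apply, ker_apply, integral_prod_mul]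

theorem pair_sq_sub (hm : m ≤ mΩ) {f : Ω → ℝ} (hf : MemLp f 2 μ) :
    ∫ p, (f p.1 - f p.2) ^ 2 ∂(pair μ hm) =
      2 * (∫ ω, f ω ^ 2 ∂μ - ∫ ω, (μ[f | m] ω) ^ 2 ∂μ) := by
  have h1 : ∫ p : Ω × Ω, f p.1 ^ 2 ∂(pair μ hm) = ∫ ω, f ω ^ 2 ∂μ := by
    have h := integral_map (μ := pair μ hm) (φ := Prod.fst) (f := fun ω => f ω ^ 2)
      (pair_fst μ hm).measurable.aemeasurable
      (by rw [(pair_fst μ hm).map_eq]; exact hf.aestronglyMeasurable.pow 2)
    rw [(pair_fst μ hm).map_eq] at h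
    exact h.symm
  have h2 : ∫ p : Ω × Ω, f p.2 ^ 2 ∂(pair μ hm) = ∫ ω, f ω ^ 2 ∂μ := by
    have h := integral_map (μ := pair μ hm) (φ := Prod.snd) (f := fun ω => f ω ^ 2)
      (pair_snd μ hm).measurable.aemeasurable
      (by rw [(pair_snd μ hm).map_eq]; exact hf.aestronglyMeasurable.pow 2)
    rw [(pair_snd μ hm).map_eq] at h
    exact h.symm
  have h3 := pair_mul μ hm hf hf
  have i1 : Integrable (fun p : Ω × Ω => f p.1 ^ 2) (pair μ hm) :=
    (hf.comp_measurePreserving (pair_fst μ hm)).integrable_sq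
  have i2 : Integrable (fun p : Ω × Ω => f p.2 ^ 2) (pair μ hm) :=
    (hf.comp_measurePreserving (pair_snd μ hm)).integrable_sq
  have i3 := integrable_mul μ hm hf hf
  have e : (fun p : Ω × Ω => (f p.1 - f p.2) ^ 2) =
      fun p : Ω × Ω => (f p.1 ^ 2 + f p.2 ^ 2) - 2 * (f p.1 * f p.2) := by
    funext p; ring
  have i12 : Integrable (fun p : Ω × Ω => f p.1 ^ 2 + f p.2 ^ 2) (pair μ hm) := i1.add i2
  rw [e, integral_sub i12 (i3.const_mul 2), integral_add i1 i2, integral_const_mul, h1, h2,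
    h3]
  have e2 : ∫ ω, (μ[f | m]) ω * (μ[f | m]) ω ∂μ = ∫ ω, (μ[f | m] ω) ^ 2 ∂μ := by
    congr 1; funext ω; ring
  rw [e2]
  ring

theorem pair_prod (hm : m ≤ mΩ) {s t : Set Ω} (hs : MeasurableSet s) (ht : MeasurableSet t) :
    (pair μ hm).real (s ×ˢ t) =
      ∫ ω, (μ[s.indicator (1 : Ω → ℝ) | m]) ω * (μ[t.indicator (1 : Ω → ℝ) | m]) ω ∂μ := by
  have h := pair_mul μ hm (f := s.indicator (1 : Ω → ℝ)) (g := t.indicator (1 : Ω → ℝ))
    ((memLp_const (1 : ℝ)).indicator hs) ((memLp_const (1 : ℝ)).indicator ht)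
  rw [← h, ← integral_indicator_one (hs.prod ht)]
  congr 1
  funext p
  by_cases h1 : p.1 ∈ s <;> by_cases h2 : p.2 ∈ t <;> simp [h1, h2, Set.indicator]

theorem pair_map (hm : m ≤ mΩ) {T : Ω → Ω} (hT : MeasurePreserving T μ μ) (hc : m.comap T = m) :
    MeasurePreserving (Prod.map T T) (pair μ hm) (pair μ hm) := by
  have hmT : Measurable (Prod.map T T) := hT.measurable.prodMap hT.measurable
  refine ⟨hmT, ?_⟩
  have : IsProbabilityMeasure ((pair μ hm).map (Prod.map T T)) :=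
    Measure.isProbabilityMeasure_map hmT.aemeasurable
  refine Measure.ext_prod fun {s t} hs ht => ?_
  rw [Measure.map_apply hmT (hs.prod ht)]
  have e : Prod.map T T ⁻¹' (s ×ˢ t) = (T ⁻¹' s) ×ˢ (T ⁻¹' t) := by ext p; simp
  rw [e, ← measureReal_eq_measureReal_iff, pair_prod μ hm (hT.measurable hs) (hT.measurable ht),
    pair_prod μ hm hs ht]
  have h1 := LawBaux.condExp_comp_mp hm hT hc (f := s.indicator (1 : Ω → ℝ))
    ((integrable_const (1 : ℝ)).indicator hs)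
  have h2 := LawBaux.condExp_comp_mp hm hT hc (f := t.indicator (1 : Ω → ℝ))
    ((integrable_const (1 : ℝ)).indicator ht)
  have e1 : (T ⁻¹' s).indicator (1 : Ω → ℝ) = s.indicator (1 : Ω → ℝ) ∘ T := by
    funext ω; simp only [Set.indicator, Function.comp]; rfl
  have e2 : (T ⁻¹' t).indicator (1 : Ω → ℝ) = t.indicator (1 : Ω → ℝ) ∘ T := by
    funext ω; simp only [Set.indicator, Function.comp]; rfl
  rw [e1, e2]
  have h3 : ∫ ω, (μ[s.indicator (1 : Ω → ℝ) ∘ T | m]) ω * (μ[t.indicator (1 : Ω → ℝ) ∘ T | m]) ω ∂μ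
      = ∫ ω, (fun ω => (μ[s.indicator (1 : Ω → ℝ) | m]) ω * (μ[t.indicator (1 : Ω → ℝ) | m]) ω)
        (T ω) ∂μ := by
    refine integral_congr_ae ?_
    filter_upwards [h1, h2] with ω h4 h5
    rw [h4, h5]
    rfl
  rw [h3]
  exact LawBaux.integral_comp_mp hT (integrable_condExp.aestronglyMeasurable.mul
    integrable_condExp.aestronglyMeasurable)

end PairAux

/-- sub-sigma-algebras of the ambient one. -/
abbrev SubF (V : Type) := {𝓖 : MeasurableSpace (Om V) // 𝓖 ≤ mOm V}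

namespace Setup

variable {V : Type} [DecidableEq V] [Countable V] (S : Setup V)

/-- the law of two copies, conditionally independent given `𝓖`. -/
noncomputable def P2 (𝓖 : SubF V) : Measure (Om V × Om V) :=
  S.P.bind (fun ω => (condExpKernel S.P 𝓖.1 ω).prod (condExpKernel S.P 𝓖.1 ω))

theorem P2_eq_pair (𝓖 : SubF V) : S.P2 𝓖 = PairAux.pair S.P 𝓖.2 := PairAux.pair_eq S.P 𝓖.2

instance P2_prob (𝓖 : SubF V) : IsProbabilityMeasure (S.P2 𝓖) := by
  rw [P2_eq_pair]; infer_instance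

theorem P2_fst (𝓖 : SubF V) : MeasurePreserving Prod.fst (S.P2 𝓖) S.P := by
  rw [P2_eq_pair]; exact PairAux.pair_fst S.P 𝓖.2

theorem P2_snd (𝓖 : SubF V) : MeasurePreserving Prod.snd (S.P2 𝓖) S.P := by
  rw [P2_eq_pair]; exact PairAux.pair_snd S.P 𝓖.2

theorem P2_swap (𝓖 : SubF V) : MeasurePreserving Prod.swap (S.P2 𝓖) (S.P2 𝓖) := by
  rw [P2_eq_pair]; exact PairAux.pair_swap S.P 𝓖.2

/-- `∫ f(ω₁) g(ω₂) = ∫ E[f|𝓖] E[g|𝓖]` -/
theorem P2_mul (𝓖 : SubF V) {f g : Om V → ℝ} (hf : MemLp f 2 S.P) (hg : MemLp g 2 S.P) :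
    ∫ p, f p.1 * g p.2 ∂(S.P2 𝓖) = ∫ ω, (S.P[f | 𝓖.1]) ω * (S.P[g | 𝓖.1]) ω ∂S.P := by
  rw [P2_eq_pair]; exact PairAux.pair_mul S.P 𝓖.2 hf hg

theorem V2_eq (𝓖 : SubF V) {f : Om V → ℝ} (hf : MemLp f 2 S.P) :
    S.V2 𝓖.1 f = ∫ p, (f p.1 - f p.2) ^ 2 ∂(S.P2 𝓖) := by
  rw [P2_eq_pair]; exact (PairAux.pair_sq_sub S.P 𝓖.2 hf).symm

theorem P2_act (𝓖 : SubF V) (hinv : S.Inv 𝓖.1) (γ : S.G ≃g S.G) :
    MeasurePreserving (Prod.map (S.act γ) (S.act γ)) (S.P2 𝓖) (S.P2 𝓖) := by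
  rw [P2_eq_pair]; exact PairAux.pair_map S.P 𝓖.2 (S.measurePreserving_act γ) (hinv γ)

theorem V2_nonneg (𝓖 : SubF V) {f : Om V → ℝ} (hf : MemLp f 2 S.P) : 0 ≤ S.V2 𝓖.1 f := by
  rw [V2_eq S 𝓖 hf]
  exact integral_nonneg fun p => sq_nonneg _

theorem V2_le_var (𝓖 : SubF V) {f : Om V → ℝ} (hf : MemLp f 2 S.P) :
    S.V2 𝓖.1 f ≤ 2 * (∫ ω, f ω ^ 2 ∂S.P - (∫ ω, f ω ∂S.P) ^ 2) := by
  unfold V2
  have hL : MemLp (S.P[f | 𝓖.1]) 2 S.P := hf.condExp one_le_two
  have h1 : ∫ ω, (S.P[f | 𝓖.1]) ω ∂S.P = ∫ ω, f ω ∂S.P := integral_condExp 𝓖.2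
  have h2 : 0 ≤ ∫ ω, ((S.P[f | 𝓖.1]) ω - ∫ ω, f ω ∂S.P) ^ 2 ∂S.P :=
    integral_nonneg fun _ => sq_nonneg _
  have e : (fun ω => ((S.P[f | 𝓖.1]) ω - ∫ ω, f ω ∂S.P) ^ 2) =
      fun ω => ((S.P[f | 𝓖.1]) ω) ^ 2 - (2 * ∫ ω, f ω ∂S.P) * (S.P[f | 𝓖.1]) ω +
        (∫ ω, f ω ∂S.P) ^ 2 := by
    funext ω; ring
  have i1 : Integrable (fun ω => ((S.P[f | 𝓖.1]) ω) ^ 2) S.P := hL.integrable_sq
  have i2 : Integrable (fun ω => (2 * ∫ ω, f ω ∂S.P) * (S.P[f | 𝓖.1]) ω) S.P :=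
    integrable_condExp.const_mul _
  have i12 : Integrable (fun ω => ((S.P[f | 𝓖.1]) ω) ^ 2 -
      (2 * ∫ ω, f ω ∂S.P) * (S.P[f | 𝓖.1]) ω) S.P := i1.sub i2
  rw [e, integral_add i12 (integrable_const _), integral_sub i1 i2, integral_const_mul, h1,
    integral_const] at h2
  simp only [probReal_univ, smul_eq_mul, one_mul] at h2
  nlinarith

theorem V2_le_sq (𝓖 : SubF V) {f : Om V → ℝ} (hf : MemLp f 2 S.P) :
    S.V2 𝓖.1 f ≤ 2 * ∫ ω, f ω ^ 2 ∂S.P := by
  have h := S.V2_le_var 𝓖 hf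
  nlinarith [sq_nonneg (∫ ω, f ω ∂S.P)]

/-- the magnetisations are equidistributed: `V2 𝓖 (m t v)` does not depend on `v`. -/
theorem V2_m_eq (𝓖 : SubF V) (hinv : S.Inv 𝓖.1) (t : ℝ≥0) (v u : V) :
    S.V2 𝓖.1 (S.m t v) = S.V2 𝓖.1 (S.m t u) := by
  obtain ⟨γ, hγ⟩ := exists_aut_map S.rt u v
  have hb : MemLp (S.m t u) 2 S.P := by
    refine MemLp.of_bound (S.measurable_m t u).aestronglyMeasurable 1 (Eventually.of_forall fun ω => ?_)
    rw [Real.norm_eq_abs]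
    exact (Real.abs_tanh_lt_one _).le
  rw [← S.V2_act 𝓖.2 hinv γ hb]
  congr 1
  funext ω
  simp only [Function.comp]
  rw [S.m_act, hγ]

end Setup
end Crest.Agent.R160
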