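import Crest.Agent.R160.DynQ
import Crest.Agent.R160.Q

/-! Row 160, piece RANGE: the shell energy is small in mean from `K ≥ C/√t` on, and piece CONC:
its concentration.

RANGE. `E Hb x y K (X_t) = ((d-1)θ²)^K E ∏φ² =: h_K`. Let `α_K = E A_vu²`, `dist v u = K` (all `u`
are equivalent); `η_K(t) = (d-1)^K α_K(t)` is nonincreasing in `K` and `∑_{k ≤ K} η_k ≤ ∑_u E A_vu²`;
`q_lower` on `[t/2, t]` gives `s ∈ [t/2,t]` with `K η_K(s) ≤ (2/t) q(t) + ε ≤ C/√t`.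
`α_K(t) ≤ θ^K E A_vu(t) ≤ θ^K E A_vu(s) ≤ θ^K √α_K(s)`. Finally `E ∏φ² ≤ 4 E (s_v ∏ φ)² + P(s_v < 1/2)`
and `P(m_v² > 1/2) ≤ 2 q(t)`, small for small `t`; for `t ≥ t0` use `aa_decay`.

CONC. `Hb x y (2K) ≤ θ^(2K) ∑_{w ∈ bsph x y K} Hb (pred w) w K`, the `(d-1)^K` summands are in
`[0,1]`, independent (even functionals of disjoint branches) with mean `≤ ε/4`; Chernoff with
`e^z ≤ 1 + (e-1) z`. -/

set_option autoImplicit false
open Finset Filter MeasureTheory ProbabilityTheory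
open scoped Topology NNReal ENNReal

namespace Crest.Agent.R160

namespace Rangeaux

variable {V : Type} [DecidableEq V] [Countable V] (S : Setup V)

lemma d_real : (3 : ℝ) ≤ S.d := by exact_mod_cast S.rt.three_le

lemma cast_pred : ((S.d - 1 : ℕ) : ℝ) = (S.d : ℝ) - 1 := by
  have := S.rt.three_le
  rw [Nat.cast_sub (by omega)]
  simp

/-- `(d-1)^K θ^(2K) ≤ 1` -/
lemma pow_le (K : ℕ) : ((S.d : ℝ) - 1) ^ K * (S.θ ^ K) ^ 2 ≤ 1 := by
  have h1 := d_real S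
  have h2 : ((S.d : ℝ) - 1) ^ K * (S.θ ^ K) ^ 2 = (S.θ ^ 2 * ((S.d : ℝ) - 1)) ^ K := by
    rw [mul_pow, ← pow_mul, ← pow_mul]; ring
  rw [h2]
  exact pow_le_one₀ (mul_nonneg (sq_nonneg _) (by linarith)) S.θle

end Rangeaux

namespace Setup

open Rangeaux

variable {V : Type} [DecidableEq V] [Countable V] (S : Setup V)

theorem HH_le (v : V) (K : ℕ) (X : V → ℝ) : 0 ≤ S.HH v K X ∧ S.HH v K X ≤ 3 / 2 := by
  have hd := d_real S
  unfold HH
  refine ⟨Finset.sum_nonneg fun _ _ => sq_nonneg _, ?_⟩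
  have h1 : ∑ w ∈ sph S.G v K, S.aa v w X ^ 2 ≤ ∑ w ∈ sph S.G v K, (S.θ ^ K) ^ 2 := by
    refine Finset.sum_le_sum fun w hw => ?_
    have h2 := S.aa_mem v w X
    rw [(mem_sph S.rt).mp hw] at h2
    exact pow_le_pow_left₀ h2.1.le h2.2 2
  refine h1.trans ?_
  rw [Finset.sum_const, nsmul_eq_mul]
  cases K with
  | zero =>
    rw [card_sph_zero S.rt]
    norm_num
  | succ k =>
    rw [card_sph_succ S.rt]
    push_cast
    rw [cast_pred]
    have h3 := pow_le S (k + 1)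
    have h4 : (S.d : ℝ) ≤ 3 / 2 * ((S.d : ℝ) - 1) := by linarith
    have h5 : 0 ≤ ((S.d : ℝ) - 1) ^ k * (S.θ ^ (k + 1)) ^ 2 :=
      mul_nonneg (pow_nonneg (by linarith) _) (sq_nonneg _)
    calc (S.d : ℝ) * ((S.d : ℝ) - 1) ^ k * (S.θ ^ (k + 1)) ^ 2
        = S.d * (((S.d : ℝ) - 1) ^ k * (S.θ ^ (k + 1)) ^ 2) := by ring
      _ ≤ 3 / 2 * ((S.d : ℝ) - 1) * (((S.d : ℝ) - 1) ^ k * (S.θ ^ (k + 1)) ^ 2) :=
          mul_le_mul_of_nonneg_right h4 h5
      _ = 3 / 2 * (((S.d : ℝ) - 1) ^ (k + 1) * (S.θ ^ (k + 1)) ^ 2) := by rw [pow_succ]; ring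
      _ ≤ 3 / 2 * 1 := by gcongr
      _ = 3 / 2 := by ring

theorem Hb_le {x y : V} (hxy : S.G.Adj x y) (K : ℕ) (X : V → ℝ) :
    0 ≤ S.Hb x y K X ∧ S.Hb x y K X ≤ 1 := by
  have hd := d_real S
  unfold Hb
  refine ⟨Finset.sum_nonneg fun _ _ => sq_nonneg _, ?_⟩
  have h1 : ∑ w ∈ bsph S.G x y K, S.aa y w X ^ 2 ≤ ∑ w ∈ bsph S.G x y K, (S.θ ^ K) ^ 2 := by
    refine Finset.sum_le_sum fun w hw => ?_
    have h2 := S.aa_mem y w X
    rw [((mem_bsph S.rt).mp hw).1] at h2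
    exact pow_le_pow_left₀ h2.1.le h2.2 2
  refine h1.trans ?_
  rw [Finset.sum_const, nsmul_eq_mul, card_bsph S.rt hxy]
  push_cast
  rw [cast_pred]
  exact pow_le S K

end Setup

namespace Rangeaux

variable {V : Type} [DecidableEq V] [Countable V] (S : Setup V)

lemma int_of_bdd {f : Om V → ℝ} (hf : Measurable f) {C : ℝ} (hC : ∀ ω, |f ω| ≤ C) :
    Integrable f S.P := by
  have := S.isProb
  exact Integrable.of_bound hf.aestronglyMeasurable C (Eventually.of_forall hC)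

lemma meas_aa (t : ℝ≥0) (v u : V) : Measurable (fun ω => S.aa v u (S.Xt t ω)) :=
  (S.measurable_aa v u).comp (S.measurable_Xt t)

lemma aa_le_one (v u : V) (X : V → ℝ) : |S.aa v u X| ≤ 1 := by
  have h := S.aa_mem v u X
  rw [abs_of_pos h.1]
  exact h.2.trans (pow_le_one₀ S.θpos.le S.theta_lt_one.le)

lemma A_le_one (t : ℝ≥0) (v u : V) (ω : Om V) : |S.A t v u ω| ≤ 1 := by
  have h := S.cv_mem v u (S.Xt t ω)
  unfold Setup.A
  rw [abs_of_pos h.1]
  exact h.2.trans (pow_le_one₀ S.θpos.le S.theta_lt_one.le)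

lemma int_A (t : ℝ≥0) (v u : V) : Integrable (S.A t v u) S.P :=
  int_of_bdd S (S.measurable_A t v u) (A_le_one S t v u)

lemma int_A_sq (t : ℝ≥0) (v u : V) : Integrable (fun ω => S.A t v u ω ^ 2) S.P :=
  int_of_bdd S ((S.measurable_A t v u).pow_const 2) (C := 1) fun ω => by
    rw [abs_pow]
    exact pow_le_one₀ (abs_nonneg _) (A_le_one S t v u ω)

lemma int_aa_sq (t : ℝ≥0) (v u : V) : Integrable (fun ω => S.aa v u (S.Xt t ω) ^ 2) S.P :=
  int_of_bdd S ((meas_aa S t v u).pow_const 2) (C := 1) fun ω => by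
    rw [abs_pow]
    exact pow_le_one₀ (abs_nonneg _) (aa_le_one S v u _)

lemma int_m_sq (t : ℝ≥0) (v : V) : Integrable (fun ω => S.m t v ω ^ 2) S.P :=
  int_of_bdd S ((S.measurable_m t v).pow_const 2) (C := 1) fun ω => by
    rw [abs_pow]
    exact pow_le_one₀ (abs_nonneg _) (S.abs_mag_lt v _).le

/-- `E aa² ≤ 4 E A² + 2 θ^(2K) E m²` -/
lemma aa_sq_le (t : ℝ≥0) (v u : V) : ∫ ω, S.aa v u (S.Xt t ω) ^ 2 ∂S.P ≤
    4 * ∫ ω, S.A t v u ω ^ 2 ∂S.P + 2 * (S.θ ^ S.G.dist v u) ^ 2 * ∫ ω, S.m t v ω ^ 2 ∂S.P := by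
  rw [← integral_const_mul, ← integral_const_mul, ← integral_add ((int_A_sq S t v u).const_mul 4)
    ((int_m_sq S t v).const_mul _)]
  refine integral_mono (int_aa_sq S t v u) (((int_A_sq S t v u).const_mul 4).add
    ((int_m_sq S t v).const_mul _)) fun ω => ?_
  simp only
  have h1 := S.aa_mem v u (S.Xt t ω)
  have h2 := S.abs_mag_lt v (S.Xt t ω)
  have h3 : S.A t v u ω = (1 - S.m t v ω ^ 2) * S.aa v u (S.Xt t ω) := rfl
  have h4 : S.m t v ω ^ 2 < 1 := (sq_lt_one_iff_abs_lt_one _).2 h2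
  have h5 : 0 ≤ S.m t v ω ^ 2 := sq_nonneg _
  set M := S.m t v ω ^ 2 with hM
  set a := S.aa v u (S.Xt t ω) with ha
  have h6 : a ^ 2 ≤ (S.θ ^ S.G.dist v u) ^ 2 := pow_le_pow_left₀ h1.1.le h1.2 2
  rw [h3]
  have ha2 : 0 ≤ a ^ 2 := sq_nonneg _
  rcases le_or_gt M (1 / 2) with h | h
  · have h7 : 1 ≤ 4 * (1 - M) ^ 2 := by nlinarith
    have h8 : 0 ≤ 2 * (S.θ ^ S.G.dist v u) ^ 2 * M := by positivity
    nlinarith
  · have h7 : 0 ≤ 4 * ((1 - M) * a) ^ 2 := by positivity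
    have h8 : a ^ 2 ≤ 2 * (S.θ ^ S.G.dist v u) ^ 2 * M := by nlinarith
    linarith

/-- `∑_{w ∈ bsph x y K} E A_yw(t)²` -/
noncomputable def eta (x y : V) (t : ℝ≥0) (K : ℕ) : ℝ :=
  ∑ w ∈ bsph S.G x y K, ∫ ω, S.A t y w ω ^ 2 ∂S.P

lemma eta_nonneg (x y : V) (t : ℝ≥0) (K : ℕ) : 0 ≤ eta S x y t K :=
  Finset.sum_nonneg fun _ _ => integral_nonneg fun _ => sq_nonneg _

lemma Hb_eta {x y : V} (hxy : S.G.Adj x y) (t : ℝ≥0) (K : ℕ) :
    ∫ ω, S.Hb x y K (S.Xt t ω) ∂S.P ≤ 4 * eta S x y t K + 2 * ∫ ω, S.m t y ω ^ 2 ∂S.P := by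
  have h0 : 0 ≤ ∫ ω, S.m t y ω ^ 2 ∂S.P := integral_nonneg fun _ => sq_nonneg _
  unfold Setup.Hb
  rw [integral_finsetSum _ fun w _ => int_aa_sq S t y w]
  calc ∑ w ∈ bsph S.G x y K, ∫ ω, S.aa y w (S.Xt t ω) ^ 2 ∂S.P
      ≤ ∑ w ∈ bsph S.G x y K, (4 * ∫ ω, S.A t y w ω ^ 2 ∂S.P +
        2 * (S.θ ^ K) ^ 2 * ∫ ω, S.m t y ω ^ 2 ∂S.P) := by
        refine Finset.sum_le_sum fun w hw => ?_
        have := aa_sq_le S t y w
        rwa [((mem_bsph S.rt).mp hw).1] at this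
    _ = 4 * eta S x y t K + 2 * (((S.d : ℝ) - 1) ^ K * (S.θ ^ K) ^ 2) * ∫ ω, S.m t y ω ^ 2 ∂S.P := by
        rw [Finset.sum_add_distrib, ← Finset.mul_sum, Finset.sum_const, nsmul_eq_mul,
          card_bsph S.rt hxy, Nat.cast_pow, cast_pred]
        unfold eta
        ring
    _ ≤ 4 * eta S x y t K + 2 * 1 * ∫ ω, S.m t y ω ^ 2 ∂S.P := by
        gcongr
        exact pow_le S K
    _ = _ := by ring

/-- the energy decreases along the branch -/
lemma eta_succ {x y : V} (hxy : S.G.Adj x y) (t : ℝ≥0) (K : ℕ) :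
    eta S x y t (K + 1) ≤ eta S x y t K := by
  unfold eta
  rw [sum_bsph_add S.rt hxy K 1]
  refine Finset.sum_le_sum fun w hw => ?_
  have hw' := (mem_bsph S.rt).mp hw
  have hgeo : S.G.Adj (geo S.G x w K) w := by
    have h1 := dist_bsph S.rt hxy hw
    have h2 := geo_adj S.rt x w (i := K) (by omega)
    have h3 := geo_dist S.rt x w
    rw [h1.1] at h3
    rwa [h3] at h2
  have h3 : ∀ u ∈ bsph S.G (geo S.G x w K) w 1, ∫ ω, S.A t y u ω ^ 2 ∂S.P
      ≤ S.θ ^ 2 * ∫ ω, S.A t y w ω ^ 2 ∂S.P := by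
    intro u hu
    have hu1 := ((mem_bsph S.rt).mp hu).1
    have hadd : S.G.dist y w + S.G.dist w u = S.G.dist y u := by
      have hxw := (dist_bsph S.rt hxy hw).1
      have hw2 : w ∈ sph S.G x (K + 1) := (mem_sph S.rt).mpr hxw
      have h3 := (mem_beyond S.rt (K := K + 1) (l := 1) (by omega) hw2 (u := u)).mp (by
        rw [Nat.add_sub_cancel]; exact hu)
      have h4 := S.rt.tree.connected.dist_triangle (u := x) (v := y) (w := u)
      have h5 := S.rt.tree.connected.dist_triangle (u := y) (v := w) (w := u)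
      have h6 : S.G.dist x y = 1 := SimpleGraph.dist_eq_one_iff_adj.mpr hxy
      omega
    rw [← integral_const_mul]
    refine integral_mono (int_A_sq S t y u) ((int_A_sq S t y w).const_mul _) fun ω => ?_
    simp only
    have e1 : S.A t y u ω = S.A t y w ω * S.aa w u (S.Xt t ω) := by
      unfold Setup.A Setup.cv
      rw [S.aa_mul hadd]
      ring
    rw [e1, mul_pow, mul_comm]
    have e2 := S.aa_mem w u (S.Xt t ω)
    rw [hu1, pow_one] at e2
    exact mul_le_mul_of_nonneg_right (pow_le_pow_left₀ e2.1.le e2.2 2) (sq_nonneg _)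
  refine (Finset.sum_le_sum h3).trans ?_
  rw [Finset.sum_const, nsmul_eq_mul, card_bsph S.rt hgeo, pow_one, cast_pred]
  have h4 : 0 ≤ ∫ ω, S.A t y w ω ^ 2 ∂S.P := integral_nonneg fun _ => sq_nonneg _
  have h5 := S.θle
  nlinarith

lemma eta_anti {x y : V} (hxy : S.G.Adj x y) (t : ℝ≥0) {k K : ℕ} (hk : k ≤ K) :
    eta S x y t K ≤ eta S x y t k :=
  antitone_nat_of_succ_le (fun n => eta_succ S hxy t n) hk

/-- `K η_K ≤ ∑_{u ∈ F} E A_yu²` for a suitable finite set `F`. -/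
lemma eta_sum {x y : V} (hxy : S.G.Adj x y) (K : ℕ) : ∃ F : Finset V, ∀ t : ℝ≥0,
    K * eta S x y t K ≤ ∑ u ∈ F, ∫ ω, S.A t y u ω ^ 2 ∂S.P := by
  refine ⟨(range K).biUnion fun k => bsph S.G x y k, fun t => ?_⟩
  rw [Finset.sum_biUnion]
  · calc (K : ℝ) * eta S x y t K = ∑ _k ∈ range K, eta S x y t K := by simp
      _ ≤ ∑ k ∈ range K, eta S x y t k :=
          Finset.sum_le_sum fun k hk => eta_anti S hxy t (Finset.mem_range.mp hk).le
      _ = _ := rfl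
  · intro i _ j _ hij
    rw [Function.onFun, Finset.disjoint_left]
    intro u hu hu'
    exact hij (((mem_bsph S.rt).mp hu).1.symm.trans ((mem_bsph S.rt).mp hu').1)

lemma sq_int_le {f : Om V → ℝ} (hf : Integrable f S.P) (hf2 : Integrable (fun ω => f ω ^ 2) S.P) :
    (∫ ω, f ω ∂S.P) ^ 2 ≤ ∫ ω, f ω ^ 2 ∂S.P := by
  have := S.isProb
  set c := ∫ ω, f ω ∂S.P with hc
  have h1 : 0 ≤ ∫ ω, (f ω - c) ^ 2 ∂S.P := integral_nonneg fun _ => sq_nonneg _
  have h2 : ∫ ω, (f ω - c) ^ 2 ∂S.P = ∫ ω, f ω ^ 2 ∂S.P - c ^ 2 := by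
    have e1 : (fun ω => (f ω - c) ^ 2) = fun ω => (f ω ^ 2 - 2 * c * f ω) + c ^ 2 := by
      funext ω; ring
    have e2 : Integrable (fun ω => f ω ^ 2 - 2 * c * f ω) S.P := hf2.sub (hf.const_mul _)
    rw [e1, integral_add e2 (integrable_const _),
      integral_sub hf2 (hf.const_mul _), integral_const_mul, ← hc, integral_const]
    simp
    ring
  linarith

lemma q_nonneg (t : ℝ≥0) : 0 ≤ S.q t := integral_nonneg fun _ => sq_nonneg _

/-- mean value argument -/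
lemma exists_time {t : ℝ≥0} (ht : 0 < t) (v : V) (F : Finset V) (ε : ℝ) (hε : 0 < ε) :
    ∃ s : ℝ≥0, s ≤ t ∧ t / 2 * (∑ u ∈ F, ∫ ω, S.A s v u ω ^ 2 ∂S.P - ε) ≤ S.q t := by
  obtain ⟨h0, hh0, hq⟩ := S.q_lower (s := t / 2) (T := t) (half_pos ht) v F ε hε
  obtain ⟨N, hN⟩ := exists_nat_gt (t / (2 * h0))
  have hN0 : 0 < (N : ℝ≥0) := lt_of_le_of_lt zero_le hN
  set h : ℝ≥0 := t / (2 * N) with hh
  have hle : h ≤ h0 := by
    rw [hh, div_le_iff₀ (by positivity)]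
    rw [div_lt_iff₀ (by positivity)] at hN
    calc t ≤ N * (2 * h0) := hN.le
      _ = h0 * (2 * N) := by ring
  have hNh : (N : ℝ≥0) * h = t / 2 := by
    rw [hh]
    field_simp
  by_contra hcon
  push Not at hcon
  have key : ∀ n : ℕ, n ≤ N → ∑ i ∈ range n, (h : ℝ) * (∑ u ∈ F, ∫ ω, S.A (t / 2 + i * h) v u ω ^ 2 ∂S.P - ε)
      ≤ S.q (t / 2 + n * h) - S.q (t / 2) := by
    intro n
    induction n with
    | zero => intro _; simp
    | succ n ih =>
      intro hn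
      rw [Finset.sum_range_succ]
      have h1 := ih (by omega)
      have h3 : (n : ℝ≥0) + 1 ≤ N := by exact_mod_cast hn
      have h2 := hq (t / 2 + n * h) h (le_add_of_nonneg_right zero_le) (by
        calc t / 2 + n * h + h = t / 2 + (n + 1) * h := by ring
          _ ≤ t / 2 + N * h := by gcongr
          _ = t := by rw [hNh]; exact add_halves t) hle
      have h4 : t / 2 + ((n + 1 : ℕ) : ℝ≥0) * h = t / 2 + n * h + h := by push_cast; ring
      rw [h4]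
      linarith
  have hN1 := key N le_rfl
  have hfin : t / 2 + (N : ℝ≥0) * h = t := by rw [hNh]; exact add_halves t
  rw [hfin] at hN1
  have h5 : ∀ i ∈ range N, S.q t / N < (h : ℝ) * (∑ u ∈ F, ∫ ω, S.A (t / 2 + i * h) v u ω ^ 2 ∂S.P - ε) := by
    intro i hi
    have h6 : (i : ℝ≥0) ≤ N := by exact_mod_cast (Finset.mem_range.mp hi).le
    have h7 := hcon (t / 2 + i * h) (by
      calc t / 2 + i * h ≤ t / 2 + N * h := by gcongr
        _ = t := hfin)
    have h8 : (h : ℝ) = (t / 2 : ℝ) / N := by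
      rw [hh]
      push_cast
      field_simp
    have hN0' : (0 : ℝ) < N := by exact_mod_cast hN0
    rw [h8, div_mul_eq_mul_div]
    exact div_lt_div_of_pos_right h7 hN0'
  have hN0' : (0 : ℝ) < N := by exact_mod_cast hN0
  have hne : (range N).Nonempty := by
    rw [Finset.nonempty_range_iff]
    intro h9
    rw [h9] at hN0'
    simp at hN0'
  have h10 := Finset.sum_lt_sum_of_nonempty hne h5
  rw [Finset.sum_const, Finset.card_range, nsmul_eq_mul, mul_div_cancel₀ _ hN0'.ne'] at h10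
  have h11 := q_nonneg S (t / 2)
  linarith

/-- from the earlier time to `t` -/
lemma eta_le_sqrt {x y : V} (hxy : S.G.Adj x y) {s t : ℝ≥0} (hst : s ≤ t) (K : ℕ) :
    eta S x y t K ≤ Real.sqrt (eta S x y s K) := by
  have hprob := S.isProb
  have h1 : ∀ w ∈ bsph S.G x y K, ∫ ω, S.A t y w ω ^ 2 ∂S.P ≤
      S.θ ^ K * Real.sqrt (∫ ω, S.A s y w ω ^ 2 ∂S.P) := by
    intro w hw
    have hd := ((mem_bsph S.rt).mp hw).1
    calc ∫ ω, S.A t y w ω ^ 2 ∂S.P ≤ ∫ ω, S.θ ^ K * S.A t y w ω ∂S.P := by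
          refine integral_mono (int_A_sq S t y w) ((int_A S t y w).const_mul _) fun ω => ?_
          have h2 := S.cv_mem y w (S.Xt t ω)
          rw [hd] at h2
          change S.cv y w (S.Xt t ω) ^ 2 ≤ S.θ ^ K * S.cv y w (S.Xt t ω)
          nlinarith [h2.1, h2.2]
      _ = S.θ ^ K * ∫ ω, S.A t y w ω ∂S.P := integral_const_mul _ _
      _ ≤ S.θ ^ K * ∫ ω, S.A s y w ω ∂S.P :=
          mul_le_mul_of_nonneg_left (S.integral_A_antitone y w hst) (pow_nonneg S.θpos.le _)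
      _ ≤ S.θ ^ K * Real.sqrt (∫ ω, S.A s y w ω ^ 2 ∂S.P) := by
          refine mul_le_mul_of_nonneg_left ?_ (pow_nonneg S.θpos.le _)
          apply Real.le_sqrt_of_sq_le
          exact sq_int_le S (int_A S s y w) (int_A_sq S s y w)
  have h3 : 0 ≤ eta S x y s K := eta_nonneg S x y s K
  apply Real.le_sqrt_of_sq_le
  have h4 : eta S x y t K ≤ ∑ w ∈ bsph S.G x y K, S.θ ^ K * Real.sqrt (∫ ω, S.A s y w ω ^ 2 ∂S.P) :=
    Finset.sum_le_sum h1
  calc (eta S x y t K) ^ 2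
      ≤ (∑ w ∈ bsph S.G x y K, S.θ ^ K * Real.sqrt (∫ ω, S.A s y w ω ^ 2 ∂S.P)) ^ 2 :=
        pow_le_pow_left₀ (eta_nonneg S x y t K) h4 2
    _ ≤ (∑ w ∈ bsph S.G x y K, (S.θ ^ K) ^ 2) *
        ∑ w ∈ bsph S.G x y K, Real.sqrt (∫ ω, S.A s y w ω ^ 2 ∂S.P) ^ 2 :=
        Finset.sum_mul_sq_le_sq_mul_sq _ _ _
    _ = (((S.d : ℝ) - 1) ^ K * (S.θ ^ K) ^ 2) * eta S x y s K := by
        rw [Finset.sum_const, nsmul_eq_mul, card_bsph S.rt hxy, Nat.cast_pow, cast_pred]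
        congr 1
        refine Finset.sum_congr rfl fun w _ => Real.sq_sqrt (integral_nonneg fun _ => sq_nonneg _)
    _ ≤ 1 * eta S x y s K := mul_le_mul_of_nonneg_right (pow_le S K) h3
    _ = eta S x y s K := one_mul _

end Rangeaux

namespace Setup

open Rangeaux

variable {V : Type} [DecidableEq V] [Countable V] (S : Setup V)

/-- RANGE -/
theorem Hb_mean (T : ℝ≥0) (ε : ℝ) (hε : 0 < ε) : ∃ C : ℝ, 0 < C ∧ ∀ t : ℝ≥0, 0 < t → t ≤ T →
    ∀ K : ℕ, C / √t ≤ K → ∀ x y : V, S.G.Adj x y →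
      ∫ ω, S.Hb x y K (S.Xt t ω) ∂S.P ≤ ε := by
  obtain ⟨C1, hC1, hm⟩ := S.m_sq_le
  obtain ⟨c, hc0, hc1, hdec⟩ := S.aa_sq_sum
  -- small times
  set δ : ℝ := ε / (8 * C1) with hδ
  have hδ0 : 0 < δ := by positivity
  set m0 : ℝ := min 1 (δ ^ 2) with hm0
  have hm0pos : 0 < m0 := lt_min one_pos (by positivity)
  -- large times
  have hr : 1 - c * m0 < 1 := by nlinarith
  have hr0 : 0 ≤ 1 - c * m0 := by
    have : c * m0 ≤ 1 * 1 := by
      have := min_le_left 1 (δ ^ 2)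
      gcongr
    linarith
  obtain ⟨K0, hK0⟩ := exists_pow_lt_of_lt_one (show (0 : ℝ) < ε / 2 by positivity) hr
  refine ⟨64 * (2 * C1 + 1) / ε ^ 2 + (K0 + 1) * √T + 1, by positivity, ?_⟩
  intro t ht htT K hK x y hxy
  have ht' : (0 : ℝ) < √t := Real.sqrt_pos.mpr (by exact_mod_cast ht)
  rcases le_or_gt (√t) δ with hcase | hcase
  · -- small t
    have h1 := Hb_eta S hxy t K
    have h2 := hm t y
    have h3 : 2 * ∫ ω, S.m t y ω ^ 2 ∂S.P ≤ ε / 2 := by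
      have : C1 * √t ≤ C1 * δ := by gcongr
      have e : C1 * δ = ε / 8 := by rw [hδ]; field_simp
      linarith
    obtain ⟨F, hF⟩ := eta_sum S hxy K
    obtain ⟨s, hst, hs⟩ := exists_time S ht y F (1 / √t) (by positivity)
    have h4 := eta_le_sqrt S hxy hst K
    have hqt : S.q t ≤ C1 * √t := hm t S.o
    have htt : (t : ℝ) = √t * √t := (Real.mul_self_sqrt t.2).symm
    have h5 : (K : ℝ) * eta S x y s K ≤ (2 * C1 + 1) / √t := by
      have h6 := hF s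
      have h7 : (t : ℝ) / 2 * ((K : ℝ) * eta S x y s K - 1 / √t) ≤ C1 * √t := by
        refine le_trans ?_ (hs.trans hqt)
        gcongr
      rw [le_div_iff₀ ht']
      have h8 : (t : ℝ) / 2 * ((K : ℝ) * eta S x y s K - 1 / √t)
          = √t * (((K : ℝ) * eta S x y s K * √t - 1) / 2) := by
        calc (t : ℝ) / 2 * ((K : ℝ) * eta S x y s K - 1 / √t)
            = (√t * √t) / 2 * ((K : ℝ) * eta S x y s K - 1 / √t) := by rw [← htt]
          _ = _ := by field_simp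
      rw [h8, mul_comm C1] at h7
      have h9 := le_of_mul_le_mul_left h7 ht'
      linarith
    have hKpos : 64 * (2 * C1 + 1) / ε ^ 2 ≤ K * √t := by
      have h6 : (64 * (2 * C1 + 1) / ε ^ 2 + (K0 + 1) * √T + 1) ≤ K * √t := by
        rwa [div_le_iff₀ ht'] at hK
      have h7 : 0 ≤ ((K0 : ℝ) + 1) * √T := by positivity
      linarith
    have h10 : eta S x y s K ≤ (ε / 8) ^ 2 := by
      have h11 : 0 < 64 * (2 * C1 + 1) / ε ^ 2 := by positivity
      have h12 : (K : ℝ) * √t * eta S x y s K ≤ 2 * C1 + 1 := by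
        rw [le_div_iff₀ ht'] at h5
        linarith
      have h13 : 64 * (2 * C1 + 1) / ε ^ 2 * eta S x y s K ≤ 2 * C1 + 1 :=
        (mul_le_mul_of_nonneg_right hKpos (eta_nonneg S x y s K)).trans h12
      have h14 : 64 * (2 * C1 + 1) / ε ^ 2 * eta S x y s K = (2 * C1 + 1) * (64 / ε ^ 2 * eta S x y s K) := by
        ring
      rw [h14] at h13
      have h15 : 64 / ε ^ 2 * eta S x y s K ≤ 1 := by
        by_contra hcon
        push Not at hcon
        nlinarith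
      have h16 : eta S x y s K = (64 / ε ^ 2 * eta S x y s K) * (ε ^ 2 / 64) := by
        field_simp
      rw [h16]
      nlinarith [sq_nonneg ε]
    have h17 : Real.sqrt (eta S x y s K) ≤ ε / 8 := by
      rw [← Real.sqrt_sq (show (0 : ℝ) ≤ ε / 8 by positivity)]
      exact Real.sqrt_le_sqrt h10
    linarith
  · -- large t
    have hmin : m0 ≤ min 1 (t : ℝ) := by
      refine min_le_min le_rfl ?_
      have htt : (t : ℝ) = √t ^ 2 := (Real.sq_sqrt t.2).symm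
      rw [htt]
      exact pow_le_pow_left₀ hδ0.le hcase.le 2
    have hKK : K0 ≤ K := by
      have h6 : (64 * (2 * C1 + 1) / ε ^ 2 + (K0 + 1) * √T + 1) ≤ K * √t := by
        rwa [div_le_iff₀ ht'] at hK
      have h7 : 0 ≤ 64 * (2 * C1 + 1) / ε ^ 2 := by positivity
      have h8 : √(t : ℝ) ≤ √T := Real.sqrt_le_sqrt (by exact_mod_cast htT)
      have h9 : ((K0 : ℝ) + 1) * √t ≤ K * √t := by
        have : ((K0 : ℝ) + 1) * √t ≤ ((K0 : ℝ) + 1) * √T := by gcongr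
        linarith
      have h10 := le_of_mul_le_mul_right h9 ht'
      have h11 : (K0 : ℝ) ≤ K := by linarith
      exact_mod_cast h11
    have h1 := (hdec (fun _ => t) t (fun _ => le_rfl) y K).1
    have h2 : ∫ ω, S.Hb x y K (S.Xt t ω) ∂S.P ≤ ∑ u ∈ sph S.G y K,
        ∫ ω, S.aa y u (S.Xt t ω) ^ 2 ∂S.P := by
      unfold Hb
      rw [integral_finsetSum _ fun w _ => int_aa_sq S t y w]
      refine Finset.sum_le_sum_of_subset_of_nonneg (fun w hw => ?_) fun w _ _ =>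
        integral_nonneg fun _ => sq_nonneg _
      exact (mem_sph S.rt).mpr ((mem_bsph S.rt).mp hw).1
    have h3 : (1 - c * min 1 (t : ℝ)) ^ K ≤ (1 - c * m0) ^ K0 := by
      have h4 : 0 ≤ 1 - c * min 1 (t : ℝ) := by
        have : c * min 1 (t : ℝ) ≤ 1 * 1 := by
          have := min_le_left 1 (t : ℝ)
          have h5 : 0 ≤ min 1 (t : ℝ) := le_min zero_le_one t.2
          gcongr
        linarith
      calc (1 - c * min 1 (t : ℝ)) ^ K ≤ (1 - c * m0) ^ K := by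
            refine pow_le_pow_left₀ h4 ?_ K
            have := mul_le_mul_of_nonneg_left hmin hc0.le
            linarith
        _ ≤ (1 - c * m0) ^ K0 := pow_le_pow_of_le_one hr0 hr.le hKK
    have h4 : ∑ u ∈ sph S.G y K, ∫ ω, S.aa y u (S.Xt t ω) ^ 2 ∂S.P ≤ 2 * (1 - c * min 1 (t : ℝ)) ^ K := h1
    linarith

end Setup
end Crest.Agent.R160
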