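import Crest.Agent.R160.Defs

/-! Row 160, piece TREE-A: geodesics in a regular tree. -/

set_option autoImplicit false
open Finset

namespace Crest.Agent.R160

variable {V : Type} {d : ℕ} {G : SimpleGraph V} [G.LocallyFinite]

namespace TA

omit [G.LocallyFinite]

theorem dist_le_of_adj (hc : G.Connected) {p : ℕ → V} {k : ℕ}
    (h1 : ∀ i < k, G.Adj (p i) (p (i + 1))) {i j : ℕ} (hij : i ≤ j) (hj : j ≤ k) :
    G.dist (p i) (p j) ≤ j - i := by
  induction j, hij using Nat.le_induction with
  | base => simp
  | succ j hij ih =>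
    have h2 := ih (by omega)
    have h3 : G.dist (p i) (p (j + 1)) ≤ G.dist (p i) (p j) + G.dist (p j) (p (j + 1)) :=
      hc.dist_triangle
    rw [SimpleGraph.dist_eq_one_iff_adj.mpr (h1 j (by omega))] at h3
    omega

theorem isGeo_of_dist (hc : G.Connected) {p : ℕ → V} {k : ℕ}
    (h1 : ∀ i < k, G.Adj (p i) (p (i + 1))) (h2 : k ≤ G.dist (p 0) (p k)) : IsGeo G p k := by
  have key : ∀ i j, i ≤ j → j ≤ k → G.dist (p i) (p j) = j - i := by
    intro i j hij hj
    have h3 := dist_le_of_adj hc h1 hij hj
    have h4 := dist_le_of_adj hc h1 (Nat.zero_le i) (hij.trans hj)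
    have h5 := dist_le_of_adj hc h1 hj le_rfl
    have h6 : G.dist (p 0) (p k) ≤ G.dist (p 0) (p i) + G.dist (p i) (p k) := hc.dist_triangle
    have h7 : G.dist (p i) (p k) ≤ G.dist (p i) (p j) + G.dist (p j) (p k) := hc.dist_triangle
    omega
  refine ⟨h1, fun i hi j hj => ?_⟩
  rcases le_total i j with h | h
  · rw [key i j h hj]; omega
  · rw [SimpleGraph.dist_comm, key j i h hi]; omega

/-- the parent is unique. -/
theorem parent_unique (hT : G.IsTree) {u x w w' : V} (hw : G.Adj w x) (hw' : G.Adj w' x)
    (h1 : G.dist u x = G.dist u w + 1) (h2 : G.dist u x = G.dist u w' + 1) : w = w' := by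
  obtain ⟨P, hP, hPl⟩ := hT.1.exists_path_of_dist u w
  obtain ⟨P', hP', hPl'⟩ := hT.1.exists_path_of_dist u w'
  have hQ : (P.concat hw).IsPath :=
    SimpleGraph.Walk.isPath_of_length_eq_dist _ (by rw [SimpleGraph.Walk.length_concat]; omega)
  have hQ' : (P'.concat hw').IsPath :=
    SimpleGraph.Walk.isPath_of_length_eq_dist _ (by rw [SimpleGraph.Walk.length_concat]; omega)
  have h3 : P.concat hw = P'.concat hw' := (hT.existsUnique_path u x).unique hQ hQ'
  have h4 := congrArg SimpleGraph.Walk.penultimate h3
  simpa using h4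

/-- geodesics in a tree are determined by their end points. -/
theorem geo_ext (hT : G.IsTree) {p p' : ℕ → V} {k : ℕ} (hp : IsGeo G p k) (hp' : IsGeo G p' k)
    (h0 : p 0 = p' 0) (hk : p k = p' k) : ∀ i ≤ k, p i = p' i := by
  suffices H : ∀ j ≤ k, p (k - j) = p' (k - j) by
    intro i hi
    have := H (k - i) (by omega)
    rwa [show k - (k - i) = i by omega] at this
  intro j
  induction j with
  | zero => intro _; simpa using hk
  | succ j ih =>
    intro hj
    have h1 := ih (by omega)
    have h2 := hp.1 (k - (j + 1)) (by omega)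
    have h3 := hp'.1 (k - (j + 1)) (by omega)
    rw [show k - (j + 1) + 1 = k - j by omega] at h2 h3
    refine parent_unique hT (u := p 0) h2 (h1 ▸ h3) ?_ ?_
    · rw [hp.2 0 (by omega) (k - j) (by omega), hp.2 0 (by omega) (k - (j + 1)) (by omega)]
      omega
    · rw [hp.2 0 (by omega) (k - j) (by omega), h0,
        hp'.2 0 (by omega) (k - (j + 1)) (by omega)]
      omega

/-- some properties of `geo` -/
theorem geo_spec (hT : G.IsTree) (v u : V) :
    IsGeo G (geo G v u) (G.dist v u) ∧ geo G v u 0 = v ∧ geo G v u (G.dist v u) = u := by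
  have hex : ∃ p : G.Walk v u, p.IsPath := (hT.existsUnique_path v u).exists
  obtain ⟨P, hP, hPl⟩ := hT.1.exists_path_of_dist v u
  have h1 : hex.choose = P := (hT.existsUnique_path v u).unique hex.choose_spec hP
  have h2 : geo G v u = P.getVert := by
    funext i
    unfold geo
    rw [dif_pos hex, h1]
  have h3 : geo G v u 0 = v := by rw [h2]; exact P.getVert_zero
  have h4 : geo G v u (G.dist v u) = u := by rw [h2, ← hPl]; exact P.getVert_length
  refine ⟨isGeo_of_dist hT.1 ?_ ?_, h3, h4⟩
  · intro i hi
    rw [h2]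
    exact P.adj_getVert_succ (by omega)
  · rw [h3, h4]

end TA

theorem countable_of_isRT (h : IsRT d G) : Countable V := by
  classical
  obtain ⟨o⟩ := h.tree.1.nonempty
  have hf : ∀ k : ℕ, {u | G.dist o u = k}.Countable := by
    intro k
    induction k with
    | zero =>
      refine (Set.countable_singleton o).mono ?_
      intro u hu
      have := h.tree.1.dist_eq_zero_iff.mp hu
      simp [this]
    | succ k ih =>
      have h1 : (⋃ x ∈ {u | G.dist o u = k}, (G.neighborFinset x : Set V)).Countable :=
        ih.biUnion fun x _ => (G.neighborFinset x).countable_toSet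
      refine h1.mono ?_
      intro u hu
      have hs := TA.geo_spec h.tree o u
      have hu' : G.dist o u = k + 1 := hu
      rw [hu'] at hs
      have h2 := hs.1.1 k (by omega)
      have h3 := hs.1.2 0 (by omega) k (by omega)
      rw [hs.2.1] at h3
      rw [hs.2.2] at h2
      simp only [Set.mem_iUnion]
      refine ⟨geo G o u k, ?_, ?_⟩
      · change G.dist o (geo G o u k) = k
        omega
      · simpa using h2
  have h2 : (Set.univ : Set V) = ⋃ k : ℕ, {u | G.dist o u = k} := by
    ext u; simp
  have h3 : (Set.univ : Set V).Countable := by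
    rw [h2]; exact Set.countable_iUnion hf
  exact Set.countable_univ_iff.mp h3

theorem geo_isGeo (h : IsRT d G) (v u : V) : IsGeo G (geo G v u) (G.dist v u) :=
  (TA.geo_spec h.tree v u).1

theorem geo_zero (h : IsRT d G) (v u : V) : geo G v u 0 = v := (TA.geo_spec h.tree v u).2.1

theorem geo_dist (h : IsRT d G) (v u : V) : geo G v u (G.dist v u) = u :=
  (TA.geo_spec h.tree v u).2.2

theorem geo_adj (h : IsRT d G) (v u : V) {i : ℕ} (hi : i < G.dist v u) :
    G.Adj (geo G v u i) (geo G v u (i + 1)) := (geo_isGeo h v u).1 i hi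

theorem dist_geo (h : IsRT d G) (v u : V) {i : ℕ} (hi : i ≤ G.dist v u) :
    G.dist v (geo G v u i) = i ∧ G.dist (geo G v u i) u = G.dist v u - i := by
  have h1 := (geo_isGeo h v u).2 0 (by omega) i hi
  have h2 := (geo_isGeo h v u).2 i hi (G.dist v u) le_rfl
  rw [geo_zero h] at h1
  rw [geo_dist h] at h2
  omega

/-- a geodesic is the path between its end points. -/
theorem geo_unique (h : IsRT d G) {p : ℕ → V} {k : ℕ} (hp : IsGeo G p k) :
    G.dist (p 0) (p k) = k ∧ ∀ i ≤ k, geo G (p 0) (p k) i = p i := by
  have h1 : G.dist (p 0) (p k) = k := by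
    rw [hp.2 0 (by omega) k le_rfl]; omega
  refine ⟨h1, ?_⟩
  have h2 := geo_isGeo h (p 0) (p k)
  have h3 := geo_dist h (p 0) (p k)
  rw [h1] at h2 h3
  exact TA.geo_ext h.tree h2 hp (geo_zero h _ _) h3

/-- non-backtracking paths are geodesics. -/
theorem isGeo_of_nonbacktracking (h : IsRT d G) {p : ℕ → V} {k : ℕ}
    (h1 : ∀ i < k, G.Adj (p i) (p (i + 1))) (h2 : ∀ i, i + 1 < k → p i ≠ p (i + 2)) :
    IsGeo G p k := by
  refine TA.isGeo_of_dist h.tree.1 h1 ?_
  have key : ∀ i, (i ≤ k → G.dist (p 0) (p i) = i) ∧ (i + 1 ≤ k → G.dist (p 0) (p (i + 1)) = i + 1) := by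
    intro i
    induction i with
    | zero =>
      refine ⟨fun _ => by simp, fun hk => ?_⟩
      exact SimpleGraph.dist_eq_one_iff_adj.mpr (h1 0 (by omega))
    | succ i ih =>
      refine ⟨ih.2, fun hk => ?_⟩
      have h3 := ih.1 (by omega)
      have h4 := ih.2 (by omega)
      rcases h.tree.dist_eq_dist_add_one_of_adj (p 0) (h1 (i + 1) (by omega)) with h5 | h5
      · exfalso
        refine h2 i (by omega) ?_
        refine TA.parent_unique h.tree (u := p 0) (h1 i (by omega)) (h1 (i + 1) (by omega)).symm ?_ ?_
        · omega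
        · exact h5
      · rw [show i + 1 + 1 = i + 2 from rfl] at *
        omega
  exact ((key k).1 le_rfl).ge

theorem geo_rev (h : IsRT d G) (v u : V) {i : ℕ} (hi : i ≤ G.dist v u) :
    geo G u v (G.dist v u - i) = geo G v u i := by
  set n := G.dist v u with hn
  have hn' : G.dist u v = n := by rw [SimpleGraph.dist_comm]
  have h1 : IsGeo G (fun i => geo G u v (n - i)) n := by
    constructor
    · intro j hj
      have := geo_adj h u v (i := n - (j + 1)) (by omega)
      rw [show n - (j + 1) + 1 = n - j by omega] at this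
      exact this.symm
    · intro a ha b hb
      have := (geo_isGeo h u v).2 (n - a) (by omega) (n - b) (by omega)
      simp only
      rw [this]
      omega
  have h2 : geo G (geo G u v (n - 0)) (geo G u v (n - n)) i = geo G u v (n - i) :=
    (geo_unique h h1).2 i hi
  rw [← h2]
  have h3 : geo G u v (n - 0) = v := by rw [Nat.sub_zero, ← hn']; exact geo_dist h u v
  have h4 : geo G u v (n - n) = u := by rw [Nat.sub_self]; exact geo_zero h u v
  rw [h3, h4]

/-- if `w` is on the path from `v` to `u`, the path goes through `w`. -/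
theorem geo_append (h : IsRT d G) (v w u : V) (hw : G.dist v w + G.dist w u = G.dist v u) (i : ℕ)
    (hi : i ≤ G.dist v u) :
    geo G v u i = if i ≤ G.dist v w then geo G v w i else geo G w u (i - G.dist v w) := by
  set a := G.dist v w with ha
  set b := G.dist w u with hb
  set p : ℕ → V := fun i => if i ≤ a then geo G v w i else geo G w u (i - a) with hp
  have p0 : p 0 = v := by simp [hp, geo_zero h]
  have pn : p (G.dist v u) = u := by
    simp only [hp]
    split_ifs with hc
    · have hb0 : b = 0 := by omega
      have hwu : w = u := h.tree.1.dist_eq_zero_iff.mp (hb ▸ hb0)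
      have hva : G.dist v u = a := by omega
      rw [hva, ha, geo_dist h, hwu]
    · rw [show G.dist v u - a = b by omega]
      exact geo_dist h w u
  have h1 : IsGeo G p (G.dist v u) := by
    refine TA.isGeo_of_dist h.tree.1 ?_ ?_
    · intro j hj
      simp only [hp]
      by_cases hj1 : j + 1 ≤ a
      · rw [if_pos (by omega), if_pos hj1]
        exact geo_adj h v w (by omega)
      · by_cases hj2 : j ≤ a
        · have hja : j = a := by omega
          rw [if_pos hj2, if_neg hj1, hja, ha, geo_dist h]
          have := geo_adj h w u (i := 0) (by omega)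
          rw [geo_zero h] at this
          rw [show G.dist v w + 1 - G.dist v w = 0 + 1 by omega]
          exact this
        · rw [if_neg hj2, if_neg hj1, show j + 1 - a = (j - a) + 1 by omega]
          exact geo_adj h w u (by omega)
    · rw [p0, pn]
  have h2 := (geo_unique h h1).2 i hi
  rw [p0, pn] at h2
  exact h2

end Crest.Agent.R160
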