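import Crest.Agent.R160.InnovB

/-! Row 160, piece WLAW: the law of `(W_v)_v` at countably many times is a product measure. -/

set_option autoImplicit false
open Finset Filter MeasureTheory ProbabilityTheory
open scoped Topology NNReal ENNReal

namespace Crest.Agent.R160

namespace WLawaux

/-- processes with "independent Gaussian increments", all started at zero. -/
structure IncP {Ω V : Type} [mΩ : MeasurableSpace Ω] (P : Measure Ω) (Y : ℝ≥0 → V → Ω → ℝ)
    (𝓕 : ℝ≥0 → MeasurableSpace Ω) : Prop where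
  mono : ∀ s t, s ≤ t → 𝓕 s ≤ 𝓕 t
  meas : ∀ t v, Measurable[𝓕 t] (Y t v)
  le : ∀ t, 𝓕 t ≤ mΩ
  zero : ∀ v ω, Y 0 v ω = 0
  inc : ∀ s t : ℝ≥0, s ≤ t → ∀ (F : Finset V) (lam : V → ℝ) (Z : Ω → ℂ), Measurable[𝓕 s] Z →
    (∀ ω, ‖Z ω‖ ≤ 1) →
    ∫ ω, Z ω * Complex.exp (Complex.I * ((∑ v ∈ F, lam v * (Y t v ω - Y s v ω) : ℝ) : ℂ)) ∂P =
      Complex.exp (((-(((t : ℝ) - s) * ∑ v ∈ F, lam v ^ 2) / 2 : ℝ) : ℂ)) * ∫ ω, Z ω ∂P

variable {Ω V : Type} [mΩ : MeasurableSpace Ω] {P : Measure Ω} {Y : ℝ≥0 → V → Ω → ℝ}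
    {𝓕 : ℝ≥0 → MeasurableSpace Ω}

/-- the characteristic function of the process. -/
noncomputable def cf (P : Measure Ω) (Y : ℝ≥0 → V → Ω → ℝ) (T : Finset ℝ≥0) (F : Finset V)
    (lam : ℝ≥0 → V → ℝ) : ℂ :=
  ∫ ω, Complex.exp (Complex.I * ((∑ t ∈ T, ∑ v ∈ F, lam t v * Y t v ω : ℝ) : ℂ)) ∂P

theorem cf_insert (h : IncP P Y 𝓕) (T : Finset ℝ≥0) (a : ℝ≥0) (ha : ∀ x ∈ T, x < a)
    (F : Finset V) (lam : ℝ≥0 → V → ℝ) :
    cf P Y (insert a T) F lam =
      Complex.exp (((-(((a : ℝ) - (T.sup id : ℝ≥0)) * ∑ v ∈ F, lam a v ^ 2) / 2 : ℝ) : ℂ)) *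
      cf P Y T F (fun t v => lam t v + if t = T.sup id then lam a v else 0) := by
  classical
  set s := T.sup id with hs
  have hsa : s ≤ a := Finset.sup_le fun x hx => (ha x hx).le
  have haT : a ∉ T := fun hh => lt_irrefl _ (ha a hh)
  set U : Ω → ℝ := fun ω => ∑ t ∈ T, ∑ v ∈ F, lam t v * Y t v ω + ∑ v ∈ F, lam a v * Y s v ω with hU
  have hUm : Measurable[𝓕 s] U := by
    refine Measurable.add ?_ ?_
    · refine Finset.measurable_sum _ fun t ht => Finset.measurable_sum _ fun v _ => ?_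
      exact ((h.meas t v).mono (h.mono _ _ (Finset.le_sup (f := id) ht)) le_rfl).const_mul _
    · exact Finset.measurable_sum _ fun v _ => (h.meas s v).const_mul _
  set Z : Ω → ℂ := fun ω => Complex.exp (Complex.I * (U ω : ℂ)) with hZ
  have hZm : Measurable[𝓕 s] Z :=
    Complex.measurable_exp.comp ((Complex.measurable_ofReal.comp hUm).const_mul _)
  have hZb : ∀ ω, ‖Z ω‖ ≤ 1 := fun ω => by
    simp only [hZ]
    rw [mul_comm, Complex.norm_exp_ofReal_mul_I]
  have h1 := h.inc s a hsa F (lam a) Z hZm hZb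
  have e1 : cf P Y (insert a T) F lam =
      ∫ ω, Z ω * Complex.exp (Complex.I * ((∑ v ∈ F, lam a v * (Y a v ω - Y s v ω) : ℝ) : ℂ)) ∂P := by
    unfold cf
    congr 1
    funext ω
    rw [hZ, ← Complex.exp_add, ← mul_add, ← Complex.ofReal_add]
    congr 3
    rw [Finset.sum_insert haT, hU]
    simp only [mul_sub, Finset.sum_sub_distrib]
    ring
  have e2 : cf P Y T F (fun t v => lam t v + if t = s then lam a v else 0) = ∫ ω, Z ω ∂P := by
    unfold cf
    congr 1
    funext ω
    simp only [hZ]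
    congr 3
    simp only [hU, add_mul, Finset.sum_add_distrib]
    congr 1
    rcases T.eq_empty_or_nonempty with hT | hT
    · have hs0 : s = 0 := by rw [hs, hT]; simp
      rw [hT, Finset.sum_empty, hs0]
      simp [h.zero]
    · have hsT : s ∈ T := by
        obtain ⟨x, hx, hx'⟩ := Finset.exists_mem_eq_sup T hT id
        rw [hs, hx']; exact hx
      rw [Finset.sum_eq_single_of_mem s hsT]
      · simp
      · intro t _ hts
        simp [hts]
  rw [e1, e2, h1]

theorem cf_eq {Ω' : Type} [MeasurableSpace Ω'] {P' : Measure Ω'} {Y' : ℝ≥0 → V → Ω' → ℝ}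
    {𝓕' : ℝ≥0 → MeasurableSpace Ω'} [IsProbabilityMeasure P] [IsProbabilityMeasure P']
    (h : IncP P Y 𝓕) (h' : IncP P' Y' 𝓕') (T : Finset ℝ≥0) (F : Finset V) :
    ∀ lam : ℝ≥0 → V → ℝ, cf P Y T F lam = cf P' Y' T F lam := by
  classical
  induction T using Finset.induction_on_max with
  | empty => intro lam; simp [cf]
  | insert a T ha ih =>
    intro lam
    rw [cf_insert h T a ha F lam, cf_insert h' T a ha F lam, ih]

theorem law_eq [DecidableEq V] {Ω' : Type} [MeasurableSpace Ω'] {P' : Measure Ω'}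
    {Y' : ℝ≥0 → V → Ω' → ℝ}
    {𝓕' : ℝ≥0 → MeasurableSpace Ω'} [IsProbabilityMeasure P] [IsProbabilityMeasure P']
    (h : IncP P Y 𝓕) (h' : IncP P' Y' 𝓕') (τ : ℕ → ℝ≥0) :
    P.map (fun ω v n => Y (τ n) v ω) = P'.map (fun ω v n => Y' (τ n) v ω) := by
  classical
  have hm : ∀ t v, Measurable (Y t v) := fun t v => (h.meas t v).mono (h.le t) le_rfl
  have hm' : ∀ t v, Measurable (Y' t v) := fun t v => (h'.meas t v).mono (h'.le t) le_rfl
  have hf : Measurable (fun ω (i : V × ℕ) => Y (τ i.2) i.1 ω) :=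
    measurable_pi_iff.mpr fun i => hm _ _
  have hf' : Measurable (fun ω (i : V × ℕ) => Y' (τ i.2) i.1 ω) :=
    measurable_pi_iff.mpr fun i => hm' _ _
  have key : P.map (fun ω (i : V × ℕ) => Y (τ i.2) i.1 ω) =
      P'.map (fun ω (i : V × ℕ) => Y' (τ i.2) i.1 ω) := by
    set μ := P.map (fun ω (i : V × ℕ) => Y (τ i.2) i.1 ω) with hμ
    set ν := P'.map (fun ω (i : V × ℕ) => Y' (τ i.2) i.1 ω) with hν
    have : IsProbabilityMeasure μ := Measure.isProbabilityMeasure_map hf.aemeasurable
    have : IsProbabilityMeasure ν := Measure.isProbabilityMeasure_map hf'.aemeasurable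
    have hmarg : ∀ I : Finset (V × ℕ), ν.map I.restrict = μ.map I.restrict := by
      intro I
      have hI : Measurable (I.restrict (π := fun _ : V × ℕ => ℝ)) := by fun_prop
      have : IsProbabilityMeasure (μ.map I.restrict) :=
        Measure.isProbabilityMeasure_map hI.aemeasurable
      have : IsProbabilityMeasure (ν.map I.restrict) :=
        Measure.isProbabilityMeasure_map hI.aemeasurable
      refine Measure.ext_of_charFunDual ?_
      funext L
      rw [charFunDual_apply, charFunDual_apply, hμ, hν, Measure.map_map hI hf,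
        Measure.map_map hI hf', integral_map (hI.comp hf).aemeasurable (by fun_prop),
        integral_map (hI.comp hf').aemeasurable (by fun_prop)]
      set c : V × ℕ → ℝ := fun i => if hi : i ∈ I then L (Pi.single ⟨i, hi⟩ 1) else 0 with hc
      set T : Finset ℝ≥0 := I.image fun i => τ i.2 with hT
      set F : Finset V := I.image Prod.fst with hF
      set lam : ℝ≥0 → V → ℝ := fun t v => ∑ i ∈ I with τ i.2 = t ∧ i.1 = v, c i with hlam
      have hL : ∀ y : V × ℕ → ℝ, L (I.restrict y) = ∑ i ∈ I, c i * y i := by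
        intro y
        have h3 := LinearMap.pi_apply_eq_sum_univ (L : (I → ℝ) →ₗ[ℝ] ℝ) (I.restrict y)
        refine h3.trans ?_
        rw [← Finset.sum_coe_sort I]
        refine Finset.sum_congr rfl fun i _ => ?_
        simp only [hc, i.2, dite_true, smul_eq_mul]
        rw [mul_comm]
        congr 1
        show L _ = L _
        congr 1
        funext j
        simp [Pi.single_apply, eq_comm]
      have hsum : ∀ z : ℝ≥0 → V → ℝ, ∑ i ∈ I, c i * z (τ i.2) i.1 =
          ∑ t ∈ T, ∑ v ∈ F, lam t v * z t v := by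
        intro z
        simp only [hlam, Finset.sum_mul]
        rw [← Finset.sum_product']
        rw [← Finset.sum_fiberwise_of_maps_to (s := I) (t := T ×ˢ F) (g := fun i => (τ i.2, i.1))
          (fun i hi => Finset.mem_product.mpr
            ⟨Finset.mem_image_of_mem _ hi, Finset.mem_image_of_mem _ hi⟩)]
        refine Finset.sum_congr rfl fun p _ => ?_
        refine Finset.sum_congr ?_ fun i hi => ?_
        · ext i
          simp [Prod.ext_iff]
        · simp only [Finset.mem_filter] at hi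
          rw [← hi.2.1, ← hi.2.2]
      have e := cf_eq h h' T F lam
      unfold cf at e
      simp only [Function.comp]
      have e1 : ∀ ω, L (I.restrict fun i => Y (τ i.2) i.1 ω) =
          ∑ t ∈ T, ∑ v ∈ F, lam t v * Y t v ω := fun ω => by
        rw [hL, ← hsum (fun t v => Y t v ω)]
      have e1' : ∀ ω, L (I.restrict fun i => Y' (τ i.2) i.1 ω) =
          ∑ t ∈ T, ∑ v ∈ F, lam t v * Y' t v ω := fun ω => by
        rw [hL, ← hsum (fun t v => Y' t v ω)]
      simp only [e1, e1', mul_comm _ Complex.I]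
      exact e.symm
    have h1 : IsProjectiveLimit μ (fun I => μ.map I.restrict) := fun I => rfl
    have h2 : IsProjectiveLimit ν (fun I => μ.map I.restrict) := fun I => hmarg I
    have : ∀ I : Finset (V × ℕ), IsFiniteMeasure (μ.map (I.restrict (π := fun _ => ℝ))) := by
      intro I; infer_instance
    exact h1.unique h2
  have e1 := congrArg (Measure.map (MeasurableEquiv.curry V ℕ ℝ)) key
  rw [Measure.map_map (MeasurableEquiv.measurable _) hf,
    Measure.map_map (MeasurableEquiv.measurable _) hf'] at e1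
  exact e1


theorem integral_exp_inc (X : Ω → ℝ) (hX : Measurable X) (r : ℝ≥0)
    (hl : P.map X = gaussianReal 0 r) (l : ℝ) :
    ∫ ω, Complex.exp (Complex.I * ((l * X ω : ℝ) : ℂ)) ∂P =
      Complex.exp (((-((r : ℝ) * l ^ 2) / 2 : ℝ) : ℂ)) := by
  have h1 : charFun (P.map X) l = Complex.exp (l * (0 : ℝ) * Complex.I - r * l ^ 2 / 2) := by
    rw [hl, charFun_gaussianReal]
  rw [charFun_apply_real, integral_map hX.aemeasurable
    (Measurable.aestronglyMeasurable (by fun_prop))] at h1
  have h2 : ∀ ω, Complex.exp (Complex.I * ((l * X ω : ℝ) : ℂ)) =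
      Complex.exp (l * X ω * Complex.I) := by
    intro ω
    push_cast
    ring_nf
  simp only [h2]
  rw [h1]
  push_cast
  ring_nf

theorem integral_exp_sum (X : V → Ω → ℝ) (hX : ∀ v, Measurable (X v)) (r : ℝ≥0)
    (hl : ∀ v, P.map (X v) = gaussianReal 0 r) (hi : iIndepFun X P) (F : Finset V) (lam : V → ℝ) :
    ∫ ω, Complex.exp (Complex.I * ((∑ v ∈ F, lam v * X v ω : ℝ) : ℂ)) ∂P =
      Complex.exp (((-((r : ℝ) * ∑ v ∈ F, lam v ^ 2) / 2 : ℝ) : ℂ)) := by
  classical
  have h1 : iIndepFun (fun v : F => X v) P := hi.precomp (g := fun v : F => (v : V)) Subtype.val_injective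
  have h2 := h1.integral_fun_prod_comp (𝕜 := ℂ)
    (f := fun v : F => fun x : ℝ => Complex.exp (Complex.I * ((lam v * x : ℝ) : ℂ)))
    (fun v => (hX v).aemeasurable)
    (fun v => Measurable.aestronglyMeasurable (by fun_prop))
  have h3 : ∀ ω, ∏ v : F, Complex.exp (Complex.I * ((lam v * X v ω : ℝ) : ℂ)) =
      Complex.exp (Complex.I * ((∑ v ∈ F, lam v * X v ω : ℝ) : ℂ)) := by
    intro ω
    rw [← Complex.exp_sum, ← Finset.mul_sum, ← Complex.ofReal_sum,
      Finset.sum_coe_sort F (fun v => lam v * X v ω)]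
  simp only [h3] at h2
  rw [h2]
  have h4 : ∀ v : F, ∫ ω, Complex.exp (Complex.I * ((lam v * X v ω : ℝ) : ℂ)) ∂P =
      Complex.exp (((-((r : ℝ) * lam v ^ 2) / 2 : ℝ) : ℂ)) := fun v =>
    integral_exp_inc (X v) (hX v) r (hl v) (lam v)
  simp only [h4]
  rw [← Complex.exp_sum, ← Complex.ofReal_sum]
  congr 2
  rw [Finset.sum_coe_sort F (fun v => -((r : ℝ) * lam v ^ 2) / 2), Finset.mul_sum, neg_div,
    Finset.sum_div, ← Finset.sum_neg_distrib]
  refine Finset.sum_congr rfl fun v _ => ?_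
  ring

end WLawaux

/-- a dense sequence of times. -/
noncomputable def tm (n : ℕ) : ℝ≥0 := TopologicalSpace.denseSeq ℝ≥0 n

namespace Setup

variable {V : Type} [DecidableEq V] [Countable V] (S : Setup V)

/-- the innovation processes at the times `tm n`. -/
noncomputable def NN (ω : Om V) : V → ℕ → ℝ := fun v n => S.W (tm n) v ω

/-- the law of a Brownian motion at the times `tm n`. -/
noncomputable def pm : Measure (ℕ → ℝ) := gmeas.map (fun ξ n => S.β.b (tm n) ξ)

theorem measurable_NN : Measurable S.NN :=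
  measurable_pi_iff.mpr fun v => measurable_pi_iff.mpr fun n => S.measurable_W (tm n) v

theorem WLaw_W_zero (v : V) (ω : Om V) : S.W 0 v ω = 0 := by
  unfold W XX B
  have h1 := S.Iint_abs_le 0 v ω
  have h2 : S.Iint 0 v ω = 0 := by
    rw [← abs_nonpos_iff]
    simpa using h1
  rw [h2, S.β.zero]
  simp

theorem WLaw_inc_W : WLawaux.IncP S.P S.W S.Ft where
  mono _ _ h := S.Ft_mono h
  meas t v := S.measurable_W_Ft t v
  le t := S.FF_le (fun _ => t) Set.univ
  zero v ω := S.WLaw_W_zero v ω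
  inc _ _ h F lam Z hZ hZb := S.innov h F lam Z hZ hZb

/-- the filtration for the noise -/
@[reducible] noncomputable def WLaw_G (t : ℝ≥0) : MeasurableSpace (Om V) :=
  S.FF (fun _ => t) Set.univ ⊔ ⨆ v, MeasurableSpace.comap (S.spin v) inferInstance

theorem WLaw_G_le (t : ℝ≥0) : S.WLaw_G t ≤ mOm V :=
  sup_le (S.FF_le (fun _ => t) Set.univ) (iSup_le fun v => (S.measurable_spin v).comap_le)

theorem WLaw_inc_B : WLawaux.IncP S.P S.B S.WLaw_G where
  mono _ _ h := sup_le_sup_right (S.Ft_mono h) _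
  meas t v := by
    have h1 : Measurable[S.WLaw_G t] (S.XX t v) := by
      refine Measurable.mono (comap_measurable _) (le_trans ?_ le_sup_left) le_rfl
      unfold FF
      exact le_iSup₂_of_le v (Set.mem_univ v) (le_iSup₂_of_le t (le_refl t) le_rfl)
    have h2 : Measurable[S.WLaw_G t] (S.spin v) := by
      refine Measurable.mono (comap_measurable _) (le_trans ?_ le_sup_right) le_rfl
      exact le_iSup (fun v => MeasurableSpace.comap (S.spin v) inferInstance) v
    have h3 : S.B t v = fun ω => S.XX t v ω - t * S.spin v ω := by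
      funext ω
      unfold XX
      ring
    rw [h3]
    exact h1.sub (h2.const_mul _)
  le t := S.WLaw_G_le t
  zero v ω := by
    unfold B
    exact S.β.zero _
  inc s t h F lam Z hZ hZb := by
    have hI := S.indep_future (fun _ => s) (fun _ => t) (fun _ => h)
    set U : Om V → ℂ := fun ω =>
      Complex.exp (Complex.I * ((∑ v ∈ F, lam v * (S.B t v ω - S.B s v ω) : ℝ) : ℂ)) with hU
    have hinc : ∀ v, Measurable[⨆ v : V, MeasurableSpace.comap
        (fun ω => S.B t v ω - S.B s v ω) inferInstance] (fun ω => S.B t v ω - S.B s v ω) := by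
      intro v
      refine Measurable.mono (comap_measurable _) ?_ le_rfl
      exact le_iSup (fun v => MeasurableSpace.comap (fun ω => S.B t v ω - S.B s v ω) inferInstance) v
    have hUm : Measurable[⨆ v : V, MeasurableSpace.comap
        (fun ω => S.B t v ω - S.B s v ω) inferInstance] U := by
      refine Complex.measurable_exp.comp (Measurable.const_mul (Complex.measurable_ofReal.comp ?_) _)
      exact Finset.measurable_sum _ fun v _ => (hinc v).const_mul _
    have hind : IndepFun Z U S.P := by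
      rw [IndepFun_iff_Indep]
      exact indep_of_indep_of_le_left (indep_of_indep_of_le_right hI hUm.comap_le) hZ.comap_le
    have hZm : Measurable Z := hZ.mono (S.WLaw_G_le s) le_rfl
    have hBm : ∀ v, Measurable (fun ω => S.B t v ω - S.B s v ω) := fun v =>
      (S.measurable_B t v).sub (S.measurable_B s v)
    have hUm' : Measurable U := by
      refine Complex.measurable_exp.comp (Measurable.const_mul (Complex.measurable_ofReal.comp ?_) _)
      exact Finset.measurable_sum _ fun v _ => (hBm v).const_mul _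
    rw [hind.integral_fun_mul_eq_mul_integral hZm.aestronglyMeasurable hUm'.aestronglyMeasurable,
      mul_comm]
    congr 1
    have := WLawaux.integral_exp_sum (P := S.P) (fun v ω => S.B t v ω - S.B s v ω) hBm (t - s)
      (fun v => S.law_B_inc h v) (S.iIndep_B_inc h) F lam
    rw [NNReal.coe_sub h] at this
    exact this

theorem WLaw_snd : MeasurePreserving Prod.snd S.P (Measure.infinitePi fun _ : V => gmeas) := by
  have h1 : ∀ o : Option (Sym2 V),
      IsProbabilityMeasure (coin (o.elim (1 / 2) fun _ => (1 + S.θ) / 2)) := by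
    intro o
    have hθ := S.θpos
    have hθ1 := S.theta_lt_one
    cases o with
    | none => exact LawAaux.coin_prob (by norm_num) (by norm_num)
    | some e =>
      refine LawAaux.coin_prob ?_ ?_
      · show (0:ℝ) ≤ (1 + S.θ) / 2; linarith
      · show (1 + S.θ) / 2 ≤ 1; linarith
  unfold P
  exact measurePreserving_snd

/-- (characteristic functions of finitely many coordinates, by `innov`, ordering the times.) -/
theorem law_NN : S.P.map S.NN = Measure.infinitePi fun _ : V => S.pm := by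
  have h1 := WLawaux.law_eq S.WLaw_inc_W S.WLaw_inc_B tm
  have h2 : S.P.map S.NN = S.P.map (fun ω v n => S.B (tm n) v ω) := h1
  rw [h2]
  have hb : Measurable (fun (ξ : ℕ → ℝ) n => S.β.b (tm n) ξ) :=
    measurable_pi_iff.mpr fun n => S.β.meas (tm n)
  have h3 := Measure.infinitePi_map_pi (fun _ : V => gmeas)
    (f := fun _ ξ n => S.β.b (tm n) ξ) (fun _ => hb)
  unfold pm
  rw [← h3]
  have h4 : (fun (ω : Om V) v n => S.B (tm n) v ω) =
      (fun (x : V → ℕ → ℝ) v n => S.β.b (tm n) (x v)) ∘ Prod.snd := rfl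
  have hm : Measurable (fun (x : V → ℕ → ℝ) v n => S.β.b (tm n) (x v)) :=
    measurable_pi_iff.mpr fun v => hb.comp (measurable_pi_apply v)
  rw [h4, ← Measure.map_map hm measurable_snd]
  congr 1
  exact S.WLaw_snd.map_eq

theorem WLaw_B_law (a b : ℝ≥0) (v : V) : S.P.map (fun ω => S.B a v ω - S.B b v ω) =
    gaussianReal 0 (nndist (a : ℝ) (b : ℝ)) := by
  have hm : Measurable (fun ξ : ℕ → ℝ => S.β.b a ξ - S.β.b b ξ) :=
    (S.β.meas a).sub (S.β.meas b)
  have h1 : (fun ω => S.B a v ω - S.B b v ω) = (fun ξ => S.β.b a ξ - S.β.b b ξ) ∘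
      ((fun x : V → ℕ → ℝ => x v) ∘ Prod.snd) := rfl
  have h2 : MeasurePreserving ((fun x : V → ℕ → ℝ => x v) ∘ Prod.snd) S.P gmeas :=
    (measurePreserving_eval_infinitePi (fun _ : V => gmeas) v).comp S.WLaw_snd
  rw [h1, ← Measure.map_map hm h2.measurable, h2.map_eq]
  exact (S.β.pre.hasLaw_sub a b).map_eq

theorem WLaw_B_eLpNorm (a b : ℝ≥0) (v : V) : eLpNorm (fun ω => S.B a v ω - S.B b v ω) 2 S.P =
    ENNReal.ofReal (|(a : ℝ) - b| ^ (2 : ℝ)⁻¹) := by
  have hB := S.WLaw_B_law a b v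
  have hm : Measurable (fun ω => S.B a v ω - S.B b v ω) :=
    (S.measurable_B a v).sub (S.measurable_B b v)
  have hLp : MemLp (fun ω => S.B a v ω - S.B b v ω) 2 S.P := by
    have h1 := memLp_id_gaussianReal (μ := 0) (v := nndist (a : ℝ) (b : ℝ)) 2
    rw [← hB] at h1
    exact (memLp_map_measure_iff (by fun_prop) hm.aemeasurable).mp h1
  have hint : ∫ ω, (S.B a v ω - S.B b v ω) ^ 2 ∂S.P = |(a : ℝ) - b| := by
    have h1 : ∫ ω, (S.B a v ω - S.B b v ω) ^ 2 ∂S.P =
        ∫ x, x ^ 2 ∂(gaussianReal 0 (nndist (a : ℝ) (b : ℝ))) := by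
      rw [← hB, integral_map hm.aemeasurable (by fun_prop)]
    have h2 := variance_eq_sub (memLp_id_gaussianReal (μ := 0) (v := nndist (a : ℝ) (b : ℝ)) 2)
    rw [variance_id_gaussianReal] at h2
    have h3 := integral_id_gaussianReal (μ := 0) (v := nndist (a : ℝ) (b : ℝ))
    simp only [id_eq, Pi.pow_apply] at h2 h3
    rw [h3] at h2
    rw [h1]
    rw [coe_nndist, Real.dist_eq] at h2
    linarith
  rw [MemLp.eLpNorm_eq_integral_rpow_norm (by norm_num) (by norm_num) hLp]
  simp only [ENNReal.toReal_ofNat, Real.rpow_ofNat, Real.norm_eq_abs, sq_abs]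
  rw [hint]

theorem WLaw_W_le (a b : ℝ≥0) (v : V) : ∀ᵐ ω ∂S.P, ‖S.W a v ω - S.W b v ω‖ ≤
    ‖|S.B a v ω - S.B b v ω| + 2 * |(a : ℝ) - b|‖ := by
  have hI : ∀ᵐ ω ∂S.P, |S.Iint a v ω - S.Iint b v ω| ≤ |(a : ℝ) - b| := by
    rcases le_total a b with hab | hab
    · filter_upwards [S.Iint_sub_abs_le hab v] with ω hω
      rw [abs_sub_comm, abs_sub_comm (a : ℝ)]
      exact hω.trans (le_abs_self _)
    · filter_upwards [S.Iint_sub_abs_le hab v] with ω hω
      exact hω.trans (le_abs_self _)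
  filter_upwards [hI] with ω hω
  have h1 : S.W a v ω - S.W b v ω = (S.B a v ω - S.B b v ω) + ((a : ℝ) - b) * S.spin v ω -
      (S.Iint a v ω - S.Iint b v ω) := by
    unfold W XX
    ring
  have h2 : |((a : ℝ) - b) * S.spin v ω| = |(a : ℝ) - b| := by
    rcases S.spin_val v ω with h | h <;> rw [abs_mul, h] <;> simp
  rw [Real.norm_eq_abs, Real.norm_eq_abs, h1]
  refine le_trans ?_ (le_abs_self _)
  calc _ ≤ |(S.B a v ω - S.B b v ω) + ((a : ℝ) - b) * S.spin v ω| +
        |S.Iint a v ω - S.Iint b v ω| := abs_sub _ _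
    _ ≤ |S.B a v ω - S.B b v ω| + |((a : ℝ) - b) * S.spin v ω| +
        |S.Iint a v ω - S.Iint b v ω| := by gcongr; exact abs_add_le _ _
    _ ≤ _ := by rw [h2]; linarith

theorem WLaw_W_eLpNorm (a b : ℝ≥0) (v : V) : eLpNorm (S.W a v - S.W b v) 2 S.P ≤
    ENNReal.ofReal (|(a : ℝ) - b| ^ (2 : ℝ)⁻¹) + ENNReal.ofReal (2 * |(a : ℝ) - b|) := by
  have hm : Measurable (fun ω => S.B a v ω - S.B b v ω) :=
    (S.measurable_B a v).sub (S.measurable_B b v)
  have hm' : Measurable (fun ω => |S.B a v ω - S.B b v ω|) := hm.abs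
  refine (eLpNorm_mono_ae (g := fun ω => |S.B a v ω - S.B b v ω| + 2 * |(a : ℝ) - b|)
    (S.WLaw_W_le a b v)).trans ?_
  refine (eLpNorm_add_le (f := fun ω => |S.B a v ω - S.B b v ω|)
    (g := fun _ => 2 * |(a : ℝ) - b|) hm'.aestronglyMeasurable aestronglyMeasurable_const
    (by norm_num)).trans ?_
  refine add_le_add ?_ ?_
  · rw [← S.WLaw_B_eLpNorm a b v]
    have := eLpNorm_norm (p := 2) (μ := S.P) (fun ω => S.B a v ω - S.B b v ω)
    simp only [Real.norm_eq_abs] at this
    exact this.le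
  · rw [eLpNorm_const _ (by norm_num) (NeZero.ne _), measure_univ, ENNReal.one_rpow, mul_one,
      Real.enorm_eq_ofReal (by positivity)]

theorem WLaw_tendstoInMeasure (s : ℝ≥0) (v : V) (u : ℕ → ℝ≥0) (hu : Tendsto u atTop (𝓝 s)) :
    TendstoInMeasure S.P (fun k => S.W (u k) v) atTop (S.W s v) := by
  refine tendstoInMeasure_of_tendsto_eLpNorm (p := 2) (by norm_num)
    (fun k => (S.measurable_W _ v).aestronglyMeasurable) (S.measurable_W _ v).aestronglyMeasurable ?_
  refine tendsto_of_tendsto_of_tendsto_of_le_of_le tendsto_const_nhds ?_ (fun k => zero_le)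
    (fun k => S.WLaw_W_eLpNorm (u k) s v)
  have hu' : Tendsto (fun k => |((u k : ℝ≥0) : ℝ) - s|) atTop (𝓝 0) := by
    have h1 : Tendsto (fun k => ((u k : ℝ≥0) : ℝ)) atTop (𝓝 (s : ℝ)) :=
      (NNReal.continuous_coe.tendsto s).comp hu
    have h2 := (h1.sub_const (s : ℝ)).abs
    simpa using h2
  have h1 : Tendsto (fun k => ENNReal.ofReal (|((u k : ℝ≥0) : ℝ) - s| ^ (2 : ℝ)⁻¹)) atTop (𝓝 0) := by
    have h2 : Tendsto (fun k => |((u k : ℝ≥0) : ℝ) - s| ^ (2 : ℝ)⁻¹) atTop (𝓝 0) := by
      have := hu'.rpow_const (p := (2 : ℝ)⁻¹) (Or.inr (by norm_num))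
      rwa [Real.zero_rpow (by norm_num)] at this
    have := ENNReal.tendsto_ofReal h2
    simpa using this
  have h2 : Tendsto (fun k => ENNReal.ofReal (2 * |((u k : ℝ≥0) : ℝ) - s|)) atTop (𝓝 0) := by
    have := ENNReal.tendsto_ofReal (hu'.const_mul 2)
    simpa using this
  simpa using h1.add h2

/-- `Winf` and `σ(NN)` agree up to null sets: `W s v` is an `L²`-limit of `W (tm n) v`
(`E (W_t - W_s)² = t - s` or `Iint_sub_abs_le` and the law of `B`). -/
theorem condExp_NN {f : Om V → ℝ} (hf : MemLp f 2 S.P)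
    (h : S.P[f | S.Winf] =ᵐ[S.P] f) :
    S.P[f | MeasurableSpace.comap S.NN inferInstance] =ᵐ[S.P] f := by
  set 𝓖 : MeasurableSpace (Om V) := MeasurableSpace.comap S.NN inferInstance with h𝓖
  have h𝓖m : 𝓖 ≤ mOm V := S.measurable_NN.comap_le
  have hNN : ∀ (n : ℕ) (v : V), Measurable[𝓖] (S.W (tm n) v) := by
    intro n v
    have h1 : Measurable[𝓖] S.NN := comap_measurable _
    exact (measurable_pi_apply n).comp ((measurable_pi_apply v).comp h1)
  -- (a)
  have ha : 𝓖 ≤ S.Winf := by
    rw [h𝓖]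
    refine Measurable.comap_le ?_
    refine (@measurable_pi_iff _ _ _ S.Winf _ _).mpr fun v =>
      (@measurable_pi_iff _ _ _ S.Winf _ _).mpr fun n => ?_
    refine Measurable.mono (comap_measurable _) ?_ le_rfl
    unfold Winf Wt
    exact le_iSup_of_le (tm n) (le_iSup_of_le v (le_iSup₂_of_le (tm n) (le_refl (tm n)) le_rfl))
  -- (b)
  have hb : S.Winf ≤ eventuallyMeasurableSpace 𝓖 (ae S.P) := by
    unfold Winf Wt
    refine iSup_le fun t => iSup_le fun v => iSup₂_le fun s _ => ?_
    obtain ⟨n, hn⟩ : ∃ n : ℕ → ℕ, Tendsto (fun k => tm (n k)) atTop (𝓝 s) := by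
      have h1 : s ∈ closure (Set.range tm) := by
        have : DenseRange tm := TopologicalSpace.denseRange_denseSeq ℝ≥0
        rw [this.closure_range]; trivial
      obtain ⟨x, hx, hx'⟩ := mem_closure_iff_seq_limit.mp h1
      choose n hn using hx
      exact ⟨n, by simpa [hn] using hx'⟩
    obtain ⟨ns, -, hns⟩ := (S.WLaw_tendstoInMeasure s v _ hn).exists_seq_tendsto_ae
    have hg : Measurable[𝓖] (fun ω => limsup (fun i => S.W (tm (n (ns i))) v ω) atTop) :=
      Measurable.limsup fun i => hNN _ v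
    have hae : S.W s v =ᵐ[S.P] (fun ω => limsup (fun i => S.W (tm (n (ns i))) v ω) atTop) := by
      filter_upwards [hns] with ω hω
      exact hω.limsup_eq.symm
    have := Measurable.eventuallyMeasurable_of_eventuallyEq (m := 𝓖) (l := ae S.P) hg hae
    exact this.comap_le
  -- (c)
  have hi : Integrable f S.P := hf.integrable (by norm_num)
  have hc : S.P[f | 𝓖] =ᵐ[S.P] S.P[f | S.Winf] := by
    refine ae_eq_condExp_of_forall_setIntegral_eq S.Winf_le hi
      (fun A _ _ => integrable_condExp.integrableOn) (fun A hA _ => ?_) ?_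
    · obtain ⟨A', hA', hAA'⟩ := hb A hA
      have h1 := setIntegral_condExp h𝓖m hi hA'
      rw [setIntegral_congr_set hAA', setIntegral_congr_set hAA', h1]
    · exact (stronglyMeasurable_condExp.mono ha).aestronglyMeasurable
  exact hc.trans h

end Setup
end Crest.Agent.R160
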