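import Mathlib
import Crest.Prelude.Def_TreeIsing

/-! Row 160, piece ZERO: the case `θ = 0` (iid fair spins). -/

set_option autoImplicit false
open Finset MeasureTheory ProbabilityTheory
open scoped NNReal ENNReal

namespace Crest.Agent.R160
universe u
open Crest.ProbabilityR

namespace Zeroaux

open Classical in
/-- a connected finite set in a tree spans `|S| - 1` edges. -/
theorem card_edges {V : Type u} (G : SimpleGraph V) (hT : G.IsTree) (S : Finset V)
    (hS : (G.induce (S : Set V)).Connected) :
    (S.sym2.filter fun e => e ∈ G.edgeSet).card + 1 = S.card := by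
  have htree : (G.induce (S : Set V)).IsTree := ⟨hS, hT.isAcyclic.induce _⟩
  have h := htree.card_edgeFinset
  have h1 : Fintype.card (S : Set V) = S.card := by simp
  rw [h1] at h
  rw [← h]
  congr 1
  symm
  apply Finset.card_bij (fun e _ => Sym2.map Subtype.val e)
  · intro e he
    induction e using Sym2.ind with
    | _ a b =>
      rw [SimpleGraph.mem_edgeFinset, SimpleGraph.mem_edgeSet] at he
      rw [Finset.mem_filter, Sym2.map_mk, Finset.mk_mem_sym2_iff, SimpleGraph.mem_edgeSet]
      exact ⟨⟨a.2, b.2⟩, he⟩
  · intro e _ e' _ hee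
    exact Sym2.map.injective Subtype.val_injective hee
  · intro e he
    induction e using Sym2.ind with
    | _ a b =>
      rw [Finset.mem_filter, Finset.mk_mem_sym2_iff, SimpleGraph.mem_edgeSet] at he
      refine ⟨s(⟨a, he.1.1⟩, ⟨b, he.1.2⟩), ?_, rfl⟩
      rw [SimpleGraph.mem_edgeFinset, SimpleGraph.mem_edgeSet]
      exact he.2

/-- the point `1/2`. -/
noncomputable def half : unitInterval := ⟨1 / 2, by norm_num, by norm_num⟩

theorem volume_half (b : Bool) :
    (volume : Measure unitInterval) {x | decide (x < half) = b} = ENNReal.ofReal (1 / 2) := by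
  cases b
  · have : {x : unitInterval | decide (x < half) = false} = Set.Ici half := by
      ext x; simp [Set.mem_Ici]
    rw [this, unitInterval.volume_Ici]
    congr 1
    simp [half]; norm_num
  · have : {x : unitInterval | decide (x < half) = true} = Set.Iio half := by
      ext x; simp [Set.mem_Iio]
    rw [this, unitInterval.volume_Iio]
    simp [half]

end Zeroaux

open Zeroaux

/-- `#edges inside F = |F| - 1`, `isingWeight G 0 F η = 2^(-|F|)`; `Φ x v = decide (x v < 1/2)`. -/
theorem zero_case (V : Type u) (G : SimpleGraph V) [G.LocallyFinite] (hT : G.IsTree) :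
    ∃ Φ : (V → unitInterval) → (V → Bool), Measurable Φ ∧
      (∀ (g : G ≃g G) (x : V → unitInterval), Φ (x ∘ ⇑g) = Φ x ∘ ⇑g) ∧
      ∀ (S : Finset V) (η : V → Bool), (G.induce (S : Set V)).Connected →
        (Labels.labelMeasure V).map Φ {σ | ∀ v ∈ S, σ v = η v} =
          ENNReal.ofReal (TreeIsing.isingWeight G 0 S η) := by
  classical
  have hmeas1 : Measurable fun x : unitInterval => decide (x < half) := by
    apply measurable_to_bool
    have : (fun x : unitInterval => decide (x < half)) ⁻¹' {true} = Set.Iio half := by
      ext x; simp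
    rw [this]
    exact measurableSet_Iio
  have hmeas : Measurable fun (x : V → unitInterval) (v : V) => decide (x v < half) :=
    measurable_pi_lambda _ fun v => hmeas1.comp (measurable_pi_apply v)
  refine ⟨fun x v => decide (x v < half), hmeas, fun g x => rfl, ?_⟩
  intro S η hS
  have hset : MeasurableSet {σ : V → Bool | ∀ v ∈ S, σ v = η v} := by
    have : {σ : V → Bool | ∀ v ∈ S, σ v = η v} = Set.pi S fun v => {η v} := by
      ext σ; simp [Set.mem_pi]
    rw [this]
    exact MeasurableSet.pi S.countable_toSet fun v _ => measurableSet_singleton _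
  rw [Measure.map_apply hmeas hset]
  have hpre : (fun (x : V → unitInterval) (v : V) => decide (x v < half)) ⁻¹'
      {σ : V → Bool | ∀ v ∈ S, σ v = η v} =
      Set.pi S fun v => {x : unitInterval | decide (x < half) = η v} := by
    ext σ
    simp only [Set.mem_preimage, Set.mem_pi, Finset.mem_coe]
    rfl
  rw [hpre, Labels.labelMeasure, Measure.infinitePi_pi]
  · simp_rw [volume_half]
    rw [Finset.prod_const, ← ENNReal.ofReal_pow (by norm_num)]
    congr 1
    unfold TreeIsing.isingWeight
    have hc := card_edges G hT S hS
    rw [← hc, pow_succ, mul_comm]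
    congr 1
    rw [← Finset.prod_const]
    refine Finset.prod_congr ?_ ?_
    · ext e; simp only [Finset.mem_filter]
    · intro e _
      norm_num
  · intro v _
    exact hmeas1 (measurableSet_singleton _)

end Crest.Agent.R160
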